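import Crest.Agent.R185.Defs

/-!
# Row 185: basic facts on list chains
-/

set_option autoImplicit false

namespace Crest.Agent.R185

open Finsupp

variable {V W : Type}

/-- Push forward of chains along a map of vertices. -/
noncomputable def push (f : V → W) : (List V →₀ ℤ) →ₗ[ℤ] (List W →₀ ℤ) :=
  Finsupp.lmapDomain ℤ ℤ (List.map f)

/-- The cone operator `l ↦ a :: l`. -/
noncomputable def cone (a : V) : (List V →₀ ℤ) →ₗ[ℤ] (List V →₀ ℤ) :=
  Finsupp.lmapDomain ℤ ℤ (List.cons a)

/-- Linear extension of a function on lists. -/
noncomputable def ext (α : List V → (List W →₀ ℤ)) : (List V →₀ ℤ) →ₗ[ℤ] (List W →₀ ℤ) :=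
  Finsupp.linearCombination ℤ α

@[simp] theorem bd_single (l : List V) (c : ℤ) : bd (single l c) = c • bdL l := by
  simp [bd]

@[simp] theorem push_single (f : V → W) (l : List V) (c : ℤ) :
    push f (single l c) = single (l.map f) c := by
  simp [push]

@[simp] theorem cone_single (a : V) (l : List V) (c : ℤ) :
    cone a (single l c) = single (a :: l) c := by
  simp [cone]

@[simp] theorem ext_single (α : List V → (List W →₀ ℤ)) (l : List V) (c : ℤ) :
    ext α (single l c) = c • α l := by
  simp [ext]

@[simp] theorem bdL_nil : bdL ([] : List V) = 0 := rfl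

theorem bdL_cons (a : V) (l : List V) : bdL (a :: l) = single l 1 - cone a (bdL l) := rfl

theorem bd_cone (a : V) (z : List V →₀ ℤ) : bd (cone a z) = z - cone a (bd z) := by
  induction z using Finsupp.induction_linear with
  | zero => simp
  | add f g hf hg => simp only [map_add, hf, hg]; abel
  | single l c => simp [bdL_cons, smul_sub]

theorem bd_bdL (l : List V) : bd (bdL l) = 0 := by
  induction l with
  | nil => simp
  | cons a l ih => simp [bdL_cons, bd_cone, ih]

theorem bd_bd (z : List V →₀ ℤ) : bd (bd z) = 0 := by
  induction z using Finsupp.induction_linear with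
  | zero => simp
  | add f g hf hg => simp [hf, hg]
  | single l c => simp [bd_bdL]

theorem push_cone (f : V → W) (a : V) (z : List V →₀ ℤ) :
    push f (cone a z) = cone (f a) (push f z) := by
  induction z using Finsupp.induction_linear with
  | zero => simp
  | add f g hf hg => simp [hf, hg]
  | single l c => simp

theorem push_bdL (f : V → W) (l : List V) : push f (bdL l) = bdL (l.map f) := by
  induction l with
  | nil => simp
  | cons a l ih => simp [bdL_cons, push_cone, ih]

theorem push_bd (f : V → W) (z : List V →₀ ℤ) : push f (bd z) = bd (push f z) := by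
  induction z using Finsupp.induction_linear with
  | zero => simp
  | add f g hf hg => simp [hf, hg]
  | single l c => simp [push_bdL]

theorem push_push {U : Type} (f : V → W) (g : W → U) (z : List V →₀ ℤ) :
    push g (push f z) = push (g ∘ f) z := by
  induction z using Finsupp.induction_linear with
  | zero => simp
  | add f g hf hg => simp [hf, hg]
  | single l c => simp

theorem mem_support_cone {a : V} {z : List V →₀ ℤ} {m : List V} (h : m ∈ (cone a z).support) :
    ∃ l ∈ z.support, m = a :: l := by
  classical
  have := Finsupp.mapDomain_support (f := List.cons a) (s := z) h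
  simp only [Finset.mem_image] at this
  obtain ⟨l, hl, rfl⟩ := this
  exact ⟨l, hl, rfl⟩

theorem mem_support_push {f : V → W} {z : List V →₀ ℤ} {m : List W}
    (h : m ∈ (push f z).support) : ∃ l ∈ z.support, m = l.map f := by
  classical
  have := Finsupp.mapDomain_support (f := List.map f) (s := z) h
  simp only [Finset.mem_image] at this
  obtain ⟨l, hl, rfl⟩ := this
  exact ⟨l, hl, rfl⟩

theorem mem_support_ext {α : List V → (List W →₀ ℤ)} {z : List V →₀ ℤ} {m : List W}
    (h : m ∈ (ext α z).support) : ∃ l ∈ z.support, m ∈ (α l).support := by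
  classical
  simp only [ext, Finsupp.linearCombination_apply] at h
  have := Finsupp.support_sum h
  simp only [Finset.mem_biUnion] at this
  obtain ⟨l, hl, hm⟩ := this
  exact ⟨l, hl, Finsupp.support_smul hm⟩

theorem mem_support_bdL {l m : List V} (h : m ∈ (bdL l).support) :
    m.Sublist l ∧ m.length + 1 = l.length := by
  classical
  induction l generalizing m with
  | nil => simp at h
  | cons a l ih =>
    rw [bdL_cons] at h
    rcases Finset.mem_union.1 (Finsupp.support_sub h) with h | h
    · have := Finset.mem_singleton.1 (Finsupp.support_single_subset h)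
      subst this
      exact ⟨List.sublist_cons_self _ _, rfl⟩
    · obtain ⟨l', hl', rfl⟩ := mem_support_cone h
      obtain ⟨h1, h2⟩ := ih hl'
      exact ⟨h1.cons_cons a, by simp [h2]⟩

theorem mem_support_bd {z : List V →₀ ℤ} {m : List V} (h : m ∈ (bd z).support) :
    ∃ l ∈ z.support, m.Sublist l ∧ m.length + 1 = l.length := by
  obtain ⟨l, hl, hm⟩ := mem_support_ext (α := bdL) h
  exact ⟨l, hl, mem_support_bdL hm⟩

/-- `f` is `k`-finite: in degrees `≤ k` (lists of length `≤ k+1`) there is an `f`-equivariant chain map
`α` between the bar resolutions with `α [u] = [f u]` whose values are *controlled* (all differences lie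
in one finite set `D`). -/
def KFin {U V : Type} [Group U] [Group V] (k : ℕ) (f : U →* V) : Prop :=
  ∃ (α : List U → (List V →₀ ℤ)) (D : Set V), D.Finite ∧
    α [] = single [] 1 ∧ (∀ u, α [u] = single [f u] 1) ∧
    ∀ l : List U, l.length ≤ k + 1 →
      (∀ m ∈ (α l).support, m.length = l.length ∧ ∀ a ∈ m, ∀ b ∈ m, a⁻¹ * b ∈ D) ∧
      (∀ u : U, α (l.map (u * ·)) = push (f u * ·) (α l)) ∧
      bd (α l) = ext α (bdL l)

end Crest.Agent.R185
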