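import Crest.Agent.R185.Grp
import Crest.Agent.R185.ListCx

/-!
# Row 185: Brown's lemma and Meinert's trick (task R185-Brown; plan in the header of `Grp.lean`)
-/

set_option autoImplicit false

namespace Crest.Agent.R185

open Function

/-- An invariant additive subgroup is a `ℤG`-submodule. -/
def ZG.mkSub {G M : Type} [Group G] [AddCommGroup M] [Module (ZG G) M] (S : AddSubgroup M)
    (h : ∀ g : G, ∀ m ∈ S, (MonoidAlgebra.single g 1 : ZG G) • m ∈ S) : Submodule (ZG G) M where
  toAddSubmonoid := S.toAddSubmonoid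
  smul_mem' := by
    intro r m hm
    change r • m ∈ S
    induction r using MonoidAlgebra.induction_linear with
    | zero => simp
    | add f g hf hg => rw [add_smul]; exact S.add_mem hf hg
    | single g z =>
      have : (MonoidAlgebra.single g z : ZG G) = (z : ZG G) * MonoidAlgebra.single g 1 := by
        rw [← zsmul_eq_mul]
        simp
      rw [this, mul_smul, Int.cast_smul_eq_zsmul]
      exact S.zsmul_mem (h g m hm) z

/-- The representation on chains of lists. -/
noncomputable def listRep (G V : Type) [Group G] [MulAction G V] :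
    Representation ℤ G (List V →₀ ℤ) where
  toFun g := push (g • ·)
  map_one' := by
    refine LinearMap.ext fun z => ?_
    induction z using Finsupp.induction_linear with
    | zero => simp
    | add f g hf hg => simp only [map_add, hf, hg]
    | single l c => simp
  map_mul' g h := by
    refine LinearMap.ext fun z => ?_
    rw [Module.End.mul_apply, push_push]
    congr 2
    funext v
    exact mul_smul g h v

/-- Brown's lemma for list complexes. -/
theorem brown {G V : Type} [Group G] [MulAction G V] (K : Set (List V)) (k : ℕ)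
    (hnil : [] ∈ K)
    (hsub : ∀ l ∈ K, ∀ l', l'.Sublist l → l' ∈ K)
    (hinv : ∀ l ∈ K, ∀ g : G, l.map (g • ·) ∈ K)
    (hac : Acyc K k)
    (hfin : ∀ n ≤ k + 2, ∃ T : Set (List V), T.Finite ∧
      ∀ l ∈ K, l.length = n → ∃ g : G, l.map (g • ·) ∈ T)
    (hst : ∀ l ∈ K, l ≠ [] → l.length ≤ k + 2 → FP (fixingSubgroup G {a | a ∈ l}) (k + 1)) :
    FP G (k + 1) := by
  classical
  let _ : Module (ZG G) (List V →₀ ℤ) := inferInstanceAs (Module (ZG G) (listRep G V).asModule)
  have hsm : ∀ (g : G) (z : List V →₀ ℤ),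
      (MonoidAlgebra.single g 1 : ZG G) • z = push (g • ·) z :=
    fun g z => asModule_single_smul (listRep G V) g z
  let D : (List V →₀ ℤ) →ₗ[ZG G] (List V →₀ ℤ) :=
    ZG.mkLin bd.toAddMonoidHom (fun g z => by
      rw [hsm, hsm]
      exact (push_bd _ z).symm)
  have hD : ∀ z, D z = bd z := fun _ => rfl
  let C : ℕ → Submodule (ZG G) (List V →₀ ℤ) := fun n =>
    ZG.mkSub (Finsupp.supported ℤ ℤ {l | l ∈ K ∧ l.length = n}).toAddSubgroup (by
      intro g m hm l hl
      rw [hsm] at hl
      obtain ⟨l', hl', rfl⟩ := mem_support_push hl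
      obtain ⟨h1, h2⟩ := hm hl'
      exact ⟨hinv _ h1 g, by simpa using h2⟩)
  have hC : ∀ n z, z ∈ C n ↔ ∀ l ∈ z.support, l ∈ K ∧ l.length = n := fun _ _ => Iff.rfl
  -- the chain modules are `MFP (k+1)`
  have hCfp : ∀ n, 1 ≤ n → n ≤ k + 2 → MFP (ZG G) (k + 1) (C n) := by
    intro n hn1 hn2
    let X := {l : List V // l ∈ K ∧ l.length = n}
    let _ : MulAction G X :=
      { smul := fun g x => ⟨x.1.map (g • ·), hinv _ x.2.1 g, by simpa using x.2.2⟩
        one_smul := fun x => Subtype.ext (by
          change x.1.map ((1 : G) • ·) = x.1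
          simp)
        mul_smul := fun g h x => Subtype.ext (by
          change x.1.map ((g * h) • ·) = (x.1.map (h • ·)).map (g • ·)
          simp [mul_smul]) }
    have hX : ∀ (g : G) (x : X), (g • x).1 = x.1.map (g • ·) := fun _ _ => rfl
    let f : (X →₀ ℤ) →+ C n :=
      (Finsupp.mapDomain.addMonoidHom Subtype.val).codRestrict (C n) (by
        intro c
        rw [hC]
        intro l hl
        obtain ⟨x, -, rfl⟩ := Finset.mem_image.1 (Finsupp.mapDomain_support hl)
        exact x.2)
    have hf : ∀ c, (f c).1 = Finsupp.mapDomain Subtype.val c := fun _ => rfl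
    have hbij : Bijective f := by
      constructor
      · intro c d h
        exact Finsupp.mapDomain_injective Subtype.val_injective (congrArg Subtype.val h)
      · rintro ⟨z, hz⟩
        refine ⟨z.comapDomain Subtype.val Subtype.val_injective.injOn, Subtype.ext ?_⟩
        rw [hf]
        refine Finsupp.mapDomain_comapDomain _ Subtype.val_injective z fun l hl => ?_
        exact ⟨⟨l, (hC n z).1 hz l hl⟩, rfl⟩
    refine MFP_perm' (AddEquiv.ofBijective f hbij) (fun g c => Subtype.ext ?_) ?_ ?_
    · change (MonoidAlgebra.single g 1 : ZG G) • (f c).1 = (f _).1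
      rw [hsm, hf, hf, ← Finsupp.mapDomain_comp]
      change Finsupp.mapDomain _ _ = _
      rw [← Finsupp.mapDomain_comp]
      rfl
    · obtain ⟨T, hT, hT'⟩ := hfin n hn2
      have : Finite (Subtype.val ⁻¹' T : Set X) := hT.preimage Subtype.val_injective.injOn
      refine Finite.of_surjective (fun x : (Subtype.val ⁻¹' T : Set X) =>
        (Quotient.mk'' x.1 : MulAction.orbitRel.Quotient G X)) fun ω => ?_
      induction ω using Quotient.inductionOn' with
      | h x =>
        obtain ⟨g, hg⟩ := hT' x.1 x.2.1 x.2.2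
        exact ⟨⟨g • x, hg⟩, Quotient.sound' ⟨g, rfl⟩⟩
    · intro x
      have hne : x.1 ≠ [] := by
        intro h
        have := x.2.2
        rw [h] at this
        simp at this
        omega
      refine FP.of_equiv (MulEquiv.subgroupCongr ?_) (hst x.1 x.2.1 hne (x.2.2.le.trans hn2))
      ext g
      rw [MulAction.mem_stabilizer_iff, Subtype.ext_iff, hX, mem_fixingSubgroup_iff]
      conv_rhs => rhs; rw [← List.map_id x.1]
      rw [List.map_inj_left]
      rfl
  let Z : ℕ → Submodule (ZG G) (List V →₀ ℤ) := fun n => C n ⊓ LinearMap.ker D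
  let d : ∀ n, C (n + 1) →ₗ[ZG G] Z n := fun n =>
    (D.comp (C (n + 1)).subtype).codRestrict (Z n) (by
      rintro ⟨z, hz⟩
      refine ⟨?_, bd_bd z⟩
      rw [SetLike.mem_coe, hC]
      intro l hl
      obtain ⟨l', hl', h1, h2⟩ := mem_support_bd hl
      obtain ⟨h3, h4⟩ := (hC _ _).1 hz l' hl'
      exact ⟨hsub _ h3 _ h1, by omega⟩)
  have hd : ∀ n ≤ k + 1, Surjective (d n) := by
    rintro n hn ⟨z, hz1, hz2⟩
    obtain ⟨y, hy1, hy2⟩ := hac n hn z ((hC _ _).1 hz1) hz2
    exact ⟨⟨y, (hC _ _).2 hy1⟩, Subtype.ext hy2⟩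
  have key : ∀ j n, n + j = k + 1 → MFP (ZG G) j (Z n) := by
    intro j
    induction j with
    | zero =>
      intro n hn
      have := (hCfp (n + 1) (by omega) (by omega)).finite
      exact Module.Finite.of_surjective (d n) (hd n (by omega))
    | succ j ih =>
      intro n hn
      refine MFP.ses_quot (Submodule.inclusion (inf_le_left : Z (n + 1) ≤ C (n + 1))) (d n)
        (Submodule.inclusion_injective _) (hd n (by omega)) ?_ (ih (n + 1) (by omega))
        ((hCfp (n + 1) (by omega) (by omega)).mono (by omega))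
      rintro ⟨z, hz⟩
      constructor
      · intro h
        exact ⟨⟨z, hz, congrArg Subtype.val h⟩, rfl⟩
      · rintro ⟨w, hw⟩
        rw [← hw]
        exact Subtype.ext w.2.2
  let u : ℤ →+ Z 0 := (Finsupp.singleAddHom ([] : List V)).codRestrict (Z 0) (by
    intro c
    refine ⟨?_, ?_⟩
    · rw [SetLike.mem_coe, hC]
      intro l hl
      obtain rfl := Finset.mem_singleton.1 (Finsupp.support_single_subset hl)
      exact ⟨hnil, rfl⟩
    · change bd (Finsupp.single [] c) = 0
      simp)
  have hu : ∀ c, (u c).1 = Finsupp.single [] c := fun _ => rfl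
  have hubij : Bijective u := by
    constructor
    · intro c c' h
      exact Finsupp.single_injective [] (congrArg Subtype.val h)
    · rintro ⟨z, hz1, hz2⟩
      refine ⟨z [], Subtype.ext ?_⟩
      rw [hu]
      refine (Finsupp.support_subset_singleton.1 fun l hl => ?_).symm
      exact Finset.mem_singleton.2 (List.length_eq_zero_iff.1 ((hC _ _).1 hz1 l hl).2)
  refine MFP.of_addEquiv ((AddEquiv.ofBijective u hubij).symm.trans (Triv.equiv G))
    (fun g m => ?_) (key (k + 1) 0 (by omega))
  rw [Triv.single_smul]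
  congr 1
  obtain ⟨c, rfl⟩ := hubij.2 m
  apply Subtype.ext
  change (MonoidAlgebra.single g 1 : ZG G) • (u c).1 = _
  rw [hsm, hu]
  simp

/-- The augmentation `ℤ[X] → ℤ`. -/
noncomputable def permAug (G X : Type) [Group G] [MulAction G X] :
    PermMod G X →ₗ[ZG G] Triv G :=
  ZG.mkLin ((Triv.equiv G).toAddMonoidHom.comp
    ((Finsupp.linearCombination ℤ (fun _ : X => (1 : ℤ))).toAddMonoidHom.comp
      (PermMod.equiv G X).symm.toAddMonoidHom)) (fun g c => by
    rw [Triv.single_smul]
    change Triv.equiv G (Finsupp.linearCombination ℤ (fun _ : X => (1 : ℤ))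
      ((PermMod.equiv G X).symm _)) = _
    rw [PermMod.symm_smul, Finsupp.linearCombination_mapDomain]
    rfl)

theorem permAug_apply (G X : Type) [Group G] [MulAction G X] (c : X →₀ ℤ) :
    permAug G X (PermMod.equiv G X c) =
      Triv.equiv G (Finsupp.linearCombination ℤ (fun _ : X => (1 : ℤ)) c) := by
  change Triv.equiv G (Finsupp.linearCombination ℤ (fun _ : X => (1 : ℤ))
      ((PermMod.equiv G X).symm _)) = _
  rw [AddEquiv.symm_apply_apply]

theorem permAug_surjective (G X : Type) [Group G] [MulAction G X] (x : X) :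
    Surjective (permAug G X) := by
  intro t
  obtain ⟨n, rfl⟩ := (Triv.equiv G).surjective t
  exact ⟨PermMod.equiv G X (Finsupp.single x n), by rw [permAug_apply]; simp⟩

theorem meinert_step {A C : Type} [Group A] [Group C] (χA : A →* Multiplicative ℤ)
    (χC : C →* Multiplicative ℤ) (a₀ : A) (ha₀ : χA a₀ = Multiplicative.ofAdd 1)
    (s : C) (hs : χC s = Multiplicative.ofAdd 1) {k : ℕ} (hA : FP A (k + 1)) (hC : FP C (k + 1))
    (hB : FP χA.ker k) : FP (χA.coprod χC).ker (k + 1) := by
  let N := (χA.coprod χC).ker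
  have hN : ∀ x : A × C, x ∈ N ↔ χA x.1 * χC x.2 = 1 := fun _ => Iff.rfl
  have hpow : ∀ (n : ℤ), (Multiplicative.ofAdd (1 : ℤ)) ^ n = Multiplicative.ofAdd n := by
    intro n
    rw [← ofAdd_zsmul, smul_eq_mul, mul_one]
  let π : N →* C := (MonoidHom.snd A C).comp N.subtype
  have hπ : ∀ x : N, π x = x.1.2 := fun _ => rfl
  have hπs : Surjective π := by
    intro c
    refine ⟨⟨(a₀ ^ (-(χC c).toAdd), c), ?_⟩, rfl⟩
    rw [hN, map_zpow, ha₀, hpow]
    simp
  have hker : FP π.ker k := by
    refine FP.of_equiv ?_ hB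
    exact
      { toFun := fun a => ⟨⟨(a.1, 1), by
          rw [hN, map_one, mul_one]
          exact a.2⟩, rfl⟩
        invFun := fun x => ⟨x.1.1.1, by
          have h1 := (hN _).1 x.1.2
          have h2 : x.1.1.2 = 1 := x.2
          rw [h2, map_one, mul_one] at h1
          exact h1⟩
        left_inv := fun _ => rfl
        right_inv := fun x => Subtype.ext (Subtype.ext (Prod.ext rfl (Eq.symm x.2)))
        map_mul' := fun a b => Subtype.ext (Subtype.ext (Prod.ext rfl (mul_one _).symm)) }
  let X := C ⧸ Subgroup.zpowers s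
  let x₀ : X := ((1 : C) : C ⧸ Subgroup.zpowers s)
  have htr : ∀ y : X, ∃ c : C, c • x₀ = y := by
    intro y
    induction y using QuotientGroup.induction_on with
    | H c => exact ⟨c, congrArg _ (mul_one c)⟩
  have hstab : MulAction.stabilizer C x₀ = Subgroup.zpowers s := MulAction.stabilizer_quotient _
  -- over `C`
  have hXC : MFP (ZG C) k (PermMod C X) := by
    refine MFP_perm_trans x₀ htr ?_
    rw [hstab]
    refine FP.of_equiv (MulEquiv.ofBijective (χC.comp (Subgroup.zpowers s).subtype) ?_).symm
      (FP.int k)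
    constructor
    · rw [injective_iff_map_eq_one]
      rintro ⟨_, n, rfl⟩ h
      have h1 : χC (s ^ n) = 1 := h
      rw [map_zpow, hs, hpow] at h1
      have h2 : n = 0 := h1
      subst h2
      exact Subtype.ext (zpow_zero s)
    · intro n
      refine ⟨⟨s ^ n.toAdd, _, rfl⟩, ?_⟩
      change χC (s ^ n.toAdd) = n
      rw [map_zpow, hs, hpow]
      rfl
  have hIC : MFP (ZG C) k (LinearMap.ker (permAug C X)) :=
    MFP.ses_sub _ (permAug C X) (LinearMap.ker (permAug C X)).injective_subtype
      (permAug_surjective C X x₀) (LinearMap.exact_subtype_ker_map _) hXC hC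
  -- over `N`
  let _ : MulAction N X := MulAction.compHom X π
  have hsm : ∀ (g : N) (y : X), g • y = π g • y := fun _ _ => rfl
  have hXN : MFP (ZG N) (k + 1) (PermMod N X) := by
    refine MFP_perm_trans x₀ (fun y => ?_) ?_
    · obtain ⟨c, rfl⟩ := htr y
      obtain ⟨g, rfl⟩ := hπs c
      exact ⟨g, rfl⟩
    · have hmem : ∀ g : N, g ∈ MulAction.stabilizer N x₀ ↔ g.1.2 ∈ Subgroup.zpowers s := by
        intro g
        rw [← hstab]
        rfl
      refine FP.of_equiv (MulEquiv.ofBijective
        (((MonoidHom.fst A C).comp N.subtype).comp (MulAction.stabilizer N x₀).subtype) ?_).symm hA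
      constructor
      · rw [injective_iff_map_eq_one]
        rintro ⟨⟨⟨a, c⟩, h1⟩, h2⟩ h
        obtain rfl : a = 1 := h
        obtain ⟨n, hn⟩ := (hmem _).1 h2
        obtain rfl : s ^ n = c := hn
        have h3 := (hN _).1 h1
        rw [map_one, one_mul, map_zpow, hs, hpow] at h3
        obtain rfl : n = 0 := h3
        exact Subtype.ext (Subtype.ext (Prod.ext rfl (zpow_zero s)))
      · intro a
        refine ⟨⟨⟨(a, s ^ (-(χA a).toAdd)), ?_⟩, (hmem _).2 ⟨_, rfl⟩⟩, rfl⟩
        rw [hN, map_zpow, hs, hpow]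
        simp
  have hIN : MFP (ZG N) k (LinearMap.ker (permAug N X)) := by
    let E : PermMod N X ≃+ PermMod C X := (PermMod.equiv N X).symm.trans (PermMod.equiv C X)
    have hE : ∀ c, permAug N X c = 0 ↔ permAug C X (E c) = 0 := by
      intro c
      obtain ⟨c, rfl⟩ := (PermMod.equiv N X).surjective c
      simp only [E, AddEquiv.trans_apply, AddEquiv.symm_apply_apply, permAug_apply,
        EmbeddingLike.map_eq_zero_iff]
    let e : LinearMap.ker (permAug N X) ≃+ LinearMap.ker (permAug C X) :=
      { toFun := fun c => ⟨E c.1, (hE _).1 c.2⟩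
        invFun := fun c => ⟨E.symm c.1, (hE _).2 (by rw [AddEquiv.apply_symm_apply]; exact c.2)⟩
        left_inv := fun c => Subtype.ext (E.symm_apply_apply _)
        right_inv := fun c => Subtype.ext (E.apply_symm_apply _)
        map_add' := fun c d => Subtype.ext (E.map_add _ _) }
    refine MFP.restrict_hom π hπs hker e (fun g c => Subtype.ext ?_) hIC
    change E ((MonoidAlgebra.single g 1 : ZG N) • c.1) = (MonoidAlgebra.single (π g) 1 : ZG C) • E c.1
    simp only [E, AddEquiv.trans_apply]
    rw [PermMod.symm_smul, PermMod.smul_equiv]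
    rfl
  exact MFP.ses_quot _ (permAug N X) (LinearMap.ker (permAug N X)).injective_subtype
    (permAug_surjective N X x₀) (LinearMap.exact_subtype_ker_map _) hIN hXN

theorem FP.ker_congr {G H Z : Type} [Group G] [Group H] [Group Z] (E : G ≃* H) (f : G →* Z)
    (f' : H →* Z) (h : ∀ x, f' (E x) = f x) {k : ℕ} (hk : FP f'.ker k) : FP f.ker k := by
  refine FP.of_equiv (MulEquiv.symm ?_) hk
  exact
    { toFun := fun x => ⟨E x.1, by rw [MonoidHom.mem_ker, h]; exact x.2⟩
      invFun := fun y => ⟨E.symm y.1, by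
        rw [MonoidHom.mem_ker, ← h, MulEquiv.apply_symm_apply]; exact y.2⟩
      left_inv := fun x => Subtype.ext (E.symm_apply_apply _)
      right_inv := fun x => Subtype.ext (E.apply_symm_apply _)
      map_mul' := fun x y => Subtype.ext (E.map_mul _ _) }

theorem sumChar_apply' {ι : Type} [Fintype ι] {A : ι → Type} [∀ i, Group (A i)]
    (χ : ∀ i, A i →* Multiplicative ℤ) (a : ∀ i, A i) : sumChar χ a = ∏ i, χ i (a i) := rfl

/-- The kernel of the sum character on `n` factors of type `FP∞` is `FP (n - 1)`. -/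
theorem meinert {ι : Type} [Fintype ι] {A : ι → Type} [∀ i, Group (A i)]
    (χ : ∀ i, A i →* Multiplicative ℤ) (hχ : ∀ i, ∃ a, χ i a = Multiplicative.ofAdd 1)
    (hA : ∀ i, FPinf (A i)) (k : ℕ) (hk : k < Fintype.card ι) : FP (sumChar χ).ker k := by
  classical
  revert A k
  refine Fintype.induction_empty_option
    (P := fun ι _ => ∀ {A : ι → Type} [∀ i, Group (A i)] (χ : ∀ i, A i →* Multiplicative ℤ),
      (∀ i, ∃ a, χ i a = Multiplicative.ofAdd 1) → (∀ i, FPinf (A i)) →
      ∀ k, k < Fintype.card ι → FP (sumChar χ).ker k) ?_ ?_ ?_ ι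
  · intro α β _ e ih A _ χ hχ hA k hk
    let _ : Fintype α := Fintype.ofEquiv β e.symm
    let E : (∀ b, A b) ≃* (∀ a, A (e a)) :=
      { (Equiv.piCongrLeft A e).symm with map_mul' := fun _ _ => rfl }
    refine FP.ker_congr E _ (sumChar fun a => χ (e a)) (fun x => ?_)
      (ih (fun a => χ (e a)) (fun a => hχ (e a)) (fun a => hA (e a)) k
        (by rwa [Fintype.card_congr e]))
    rw [sumChar_apply', sumChar_apply']
    exact e.prod_comp (fun b => χ b (x b))
  · intro A _ χ _ _ k hk
    simp at hk
  · intro α _ ih A _ χ hχ hA k hk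
    cases k with
    | zero => exact FP.zero _
    | succ k =>
      rw [Fintype.card_option] at hk
      have hk' : k < Fintype.card α := by omega
      obtain ⟨i⟩ : Nonempty α := Fintype.card_pos_iff.1 (by omega)
      obtain ⟨a, ha⟩ := hχ (some i)
      obtain ⟨s, hs⟩ := hχ none
      let E : (∀ b, A b) ≃* ((∀ a, A (some a)) × A none) :=
        MulEquiv.trans { Equiv.piOptionEquivProd with map_mul' := fun _ _ => rfl }
          MulEquiv.prodComm
      refine FP.ker_congr E _ ((sumChar fun a => χ (some a)).coprod (χ none)) (fun x => ?_)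
        (meinert_step _ _ (Pi.mulSingle (M := fun a => A (some a)) i a) ?_ s hs
          (FP.pi fun a => hA _ _) (hA _ _)
          (ih (fun a => χ (some a)) (fun a => hχ _) (fun a => hA _) k hk'))
      · rw [sumChar_apply', Fintype.prod_option, mul_comm]
        rfl
      · rw [sumChar_apply', Finset.prod_eq_single i]
        · simpa using ha
        · intro b _ hb
          simp [Pi.mulSingle_eq_of_ne hb]
        · simp

end Crest.Agent.R185
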