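import Crest.Agent.R185.BrownFPAux

/-!
# Row 185: Brown's finite presentation criterion (task R185-BrownFP; plan in the header of `FPres.lean`)
-/

set_option autoImplicit false

namespace Crest.Agent.R185

theorem exists_orbit_rep (G X : Type) [Group G] [MulAction G X] :
    ∃ (rep : X → X) (γ : X → G), (∀ (g : G) a, rep (g • a) = rep a) ∧ ∀ a, γ a • rep a = a := by
  let rep : X → X := fun a => (Quotient.mk (MulAction.orbitRel G X) a).out
  have : ∀ a, ∃ g : G, g • rep a = a := fun a =>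
    (MulAction.orbitRel G X).symm (Quotient.mk_out (s := MulAction.orbitRel G X) a)
  choose γ hγ using this
  refine ⟨rep, γ, fun g a => ?_, hγ⟩
  exact congrArg Quotient.out (Quotient.sound (s := MulAction.orbitRel G X) ⟨g, rfl⟩)

/-- The final step: an equivariant flat cocycle gives a homomorphic section. -/
theorem brown_fp_section {G V W : Type} [Group G] [MulAction G V] [Group W]
    (adj : V → V → Prop) (P : Set V) (hP : ∀ a ∈ P, ∀ g : G, g • a ∈ P)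
    (hadj : ∀ a b, adj a b → ∀ g : G, adj (g • a) (g • b)) (hsc : SConn adj P)
    (hW : Group.IsFinitelyPresented W) (π : W →* G) (γ : V → G) (Φ : G → V → W) (c : V → V → W)
    (hmul : ∀ a ∈ P, ∀ g g', Φ (g' * g) a = Φ g' (g • a) * Φ g a)
    (hΦ : ∀ a ∈ P, ∀ g, π (Φ g a) = (γ (g • a))⁻¹ * g * γ a)
    (hc : ∀ a ∈ P, ∀ b ∈ P, adj a b → π (c a b) = (γ a)⁻¹ * γ b)
    (heq : ∀ a ∈ P, ∀ b ∈ P, adj a b → ∀ g, c (g • a) (g • b) = Φ g a * c a b * (Φ g b)⁻¹)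
    (hflat : ∀ a ∈ P, ∀ b ∈ P, ∀ d ∈ P, adj a b → adj b d → adj a d → c a b * c b d = c a d) :
    Group.IsFinitelyPresented G := by
  obtain ⟨⟨⟨a₀, ha₀⟩, hconn⟩, hsc⟩ := hsc
  obtain ⟨f, hf⟩ := hsc W c hflat
  have const : ∀ {K : Type} (t : V → K), (∀ a ∈ P, ∀ b ∈ P, adj a b → t a = t b) →
      ∀ b ∈ P, t b = t a₀ := by
    intro K t ht b hb
    have key : ∀ b, Relation.ReflTransGen (fun x y => y ∈ P ∧ adj x y) a₀ b →
        b ∈ P ∧ t b = t a₀ := by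
      intro b h
      induction h with
      | refl => exact ⟨ha₀, rfl⟩
      | tail _ hxy ih => exact ⟨hxy.1, (ht _ ih.1 _ hxy.1 hxy.2).symm.trans ih.2⟩
    exact (key b (hconn a₀ ha₀ b hb)).2
  have h1 : ∀ g : G, ∀ b ∈ P,
      f (g • b) * Φ g b * (f b)⁻¹ = f (g • a₀) * Φ g a₀ * (f a₀)⁻¹ := by
    intro g
    refine const (fun b => f (g • b) * Φ g b * (f b)⁻¹) fun a ha b hb hab => ?_
    have h := heq a ha b hb hab g
    rw [hf a ha b hb hab, hf _ (hP a ha g) _ (hP b hb g) (hadj a b hab g),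
      inv_mul_eq_iff_eq_mul] at h
    rw [h]
    group
  have h2 : ∀ b ∈ P, π (f b) * (γ b)⁻¹ = π (f a₀) * (γ a₀)⁻¹ := by
    refine const (fun b => π (f b) * (γ b)⁻¹) fun a ha b hb hab => ?_
    have h := hc a ha b hb hab
    rw [hf a ha b hb hab, map_mul, map_inv, inv_mul_eq_iff_eq_mul] at h
    rw [h]
    group
  let ρ : G →* W := MonoidHom.mk' (fun g => f (g • a₀) * Φ g a₀ * (f a₀)⁻¹) (fun g' g => by
    rw [← h1 g' (g • a₀) (hP a₀ ha₀ g), hmul a₀ ha₀, mul_smul]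
    group)
  let κ := π (f a₀) * (γ a₀)⁻¹
  refine fpres_retract hW ((MulAut.conj κ⁻¹).toMonoidHom.comp π) ρ fun g => ?_
  change κ⁻¹ * π (f (g • a₀) * Φ g a₀ * (f a₀)⁻¹) * κ⁻¹⁻¹ = g
  have h3 := h2 _ (hP a₀ ha₀ g)
  rw [mul_inv_eq_iff_eq_mul] at h3
  rw [map_mul, map_mul, map_inv, hΦ a₀ ha₀, h3]
  simp only [κ]
  group

/-- Brown's finite presentation criterion for clique complexes. -/
theorem brown_fp {G V : Type} [Group G] [MulAction G V] (adj : V → V → Prop) (P : Set V)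
    (hrefl : ∀ a ∈ P, adj a a) (hsymm : ∀ a b, adj a b → adj b a)
    (hP : ∀ a ∈ P, ∀ g : G, g • a ∈ P) (hadj : ∀ a b, adj a b → ∀ g : G, adj (g • a) (g • b))
    (hsc : SConn adj P)
    (hfin : ∃ T : Set (List V), T.Finite ∧
      ∀ l ∈ Cliq adj P, l.length = 3 → ∃ g : G, l.map (g • ·) ∈ T)
    (hv : ∀ a ∈ P, Group.IsFinitelyPresented (MulAction.stabilizer G a))
    (he : ∀ a ∈ P, ∀ b ∈ P, adj a b → Group.FG (fixingSubgroup G ({a, b} : Set V))) :
    Group.IsFinitelyPresented G := by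
  classical
  obtain ⟨T, hT, hTc⟩ := hfin
  obtain ⟨rep, γ, hrep, hγ⟩ := exists_orbit_rep G V
  obtain ⟨erep, δ, herep, hδ⟩ := exists_orbit_rep G (V × V)
  have hrepP : ∀ a ∈ P, rep a ∈ P := fun a ha => by
    have := hP a ha (γ a)⁻¹
    rwa [inv_smul_eq_iff.2 (hγ a).symm] at this
  let Ed : Set (V × V) := {p | p.1 ∈ P ∧ p.2 ∈ P ∧ adj p.1 p.2}
  have hEd : ∀ p ∈ Ed, ∀ g : G, g • p ∈ Ed := fun p hp g =>
    ⟨hP _ hp.1 g, hP _ hp.2.1 g, hadj _ _ hp.2.2 g⟩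
  have herepE : ∀ p ∈ Ed, erep p ∈ Ed := fun p hp => by
    have := hEd p hp (δ p)⁻¹
    rwa [inv_smul_eq_iff.2 (hδ p).symm] at this
  have hcl : ∀ a ∈ P, ∀ b ∈ P, ∀ d ∈ P, adj a b → adj b d → adj a d → [a, b, d] ∈ Cliq adj P := by
    intro a ha b hb d hd h1 h2 h3
    refine ⟨by simp [ha, hb, hd], ?_⟩
    simp [hrefl a ha, hrefl b hb, hrefl d hd, h1, h2, h3, hsymm _ _ h1, hsymm _ _ h2,
      hsymm _ _ h3]
  let T3 : Set (V × V × V) := {t | [t.1, t.2.1, t.2.2] ∈ T}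
  have hT3 : T3.Finite := by
    refine hT.preimage (f := fun t : V × V × V => [t.1, t.2.1, t.2.2]) ?_
    rintro ⟨a, b, d⟩ - ⟨a', b', d'⟩ - h
    simpa using h
  have hT3c : ∀ a ∈ P, ∀ b ∈ P, ∀ d ∈ P, adj a b → adj b d → adj a d →
      ∃ g : G, (g • a, g • b, g • d) ∈ T3 := fun a ha b hb d hd h1 h2 h3 =>
    hTc _ (hcl a ha b hb d hd h1 h2 h3) rfl
  have hV₀ : (rep '' P).Finite := by
    refine (hT3.image fun t => rep t.1).subset ?_
    rintro _ ⟨a, ha, rfl⟩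
    obtain ⟨g, hg⟩ := hT3c a ha a ha a ha (hrefl a ha) (hrefl a ha) (hrefl a ha)
    exact ⟨_, hg, hrep g a⟩
  have hE₀ : (erep '' Ed).Finite := by
    refine (hT3.image fun t => erep (t.1, t.2.1)).subset ?_
    rintro _ ⟨⟨a, b⟩, ⟨ha, hb, hab⟩, rfl⟩
    obtain ⟨g, hg⟩ := hT3c a ha b hb b hb hab (hrefl b hb) hab
    exact ⟨_, hg, herep g (a, b)⟩
  -- the free object
  have : Finite (rep '' P) := hV₀
  have : Finite (erep '' Ed) := hE₀
  obtain ⟨F, _, σ, e₀, π, hF, hπ₀, he₀⟩ : ∃ (F : Type) (_ : Group F)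
      (σ : ∀ v : rep '' P, MulAction.stabilizer G v.1 →* F) (e₀ : erep '' Ed → F) (π : F →* G),
      Group.IsFinitelyPresented F ∧ (∀ v u, π (σ v u) = u) ∧
        ∀ p, π (e₀ p) = (γ p.1.1)⁻¹ * γ p.1.2 := by
    obtain ⟨F₀, _, σ, hF₀, hu⟩ := exists_fp_family
      (fun v : (rep '' P) => MulAction.stabilizer G v.1) (by
        rintro ⟨_, a, ha, rfl⟩
        exact hv _ (hrepP a ha))
    obtain ⟨π₀, hπ₀⟩ := hu G (fun v => (MulAction.stabilizer G v.1).subtype)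
    exact ⟨Monoid.Coprod F₀ (FreeGroup (erep '' Ed)), inferInstance,
      fun v => Monoid.Coprod.inl.comp (σ v), fun p => Monoid.Coprod.inr (FreeGroup.of p),
      Monoid.Coprod.lift π₀ (FreeGroup.lift fun p => (γ p.1.1)⁻¹ * γ p.1.2), inferInstance,
      fun v u => by simp [hπ₀], fun p => by simp⟩
  let σ' : V → G → F := fun v h =>
    if hv : v ∈ rep '' P ∧ h ∈ MulAction.stabilizer G v then
      σ ⟨v, hv.1⟩ ⟨h, hv.2⟩ else 1
  have hσmul : ∀ v ∈ rep '' P, ∀ h ∈ MulAction.stabilizer G v, ∀ h' ∈ MulAction.stabilizer G v,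
      σ' v (h * h') = σ' v h * σ' v h' := by
    intro v hv h hh h' hh'
    simp only [σ']
    rw [dif_pos ⟨hv, mul_mem hh hh'⟩, dif_pos ⟨hv, hh⟩, dif_pos ⟨hv, hh'⟩, ← map_mul]
    rfl
  have hσπ : ∀ v ∈ rep '' P, ∀ h ∈ MulAction.stabilizer G v, π (σ' v h) = h := by
    intro v hv h hh
    simp only [σ']
    rw [dif_pos ⟨hv, hh⟩]
    exact hπ₀ _ _
  let e : V × V → F := fun p =>
    if hp : p ∈ erep '' Ed then e₀ ⟨p, hp⟩ else 1
  have heπ : ∀ p ∈ erep '' Ed, π (e p) = (γ p.1)⁻¹ * γ p.2 := by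
    intro p hp
    simp only [e]
    rw [dif_pos hp, he₀]
  have hstab : ∀ (g : G) a, (γ (g • a))⁻¹ * g * γ a ∈ MulAction.stabilizer G (rep a) := by
    intro g a
    rw [MulAction.mem_stabilizer_iff, mul_smul, mul_smul, hγ, inv_smul_eq_iff, ← hrep g a, hγ]
  let Φ : G → V → F := fun g a => σ' (rep a) ((γ (g • a))⁻¹ * g * γ a)
  have hΦmul : ∀ a ∈ P, ∀ g g', Φ (g' * g) a = Φ g' (g • a) * Φ g a := by
    intro a ha g g'
    simp only [Φ]
    have h1 := hstab g' (g • a)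
    rw [hrep] at h1 ⊢
    rw [← hσmul _ ⟨a, ha, rfl⟩ _ h1 _ (hstab g a), mul_smul]
    congr 1
    group
  have hΦπ : ∀ a ∈ P, ∀ g, π (Φ g a) = (γ (g • a))⁻¹ * g * γ a := fun a ha g =>
    hσπ _ ⟨a, ha, rfl⟩ _ (hstab g a)
  let c : V → V → F := fun a b =>
    Φ (δ (a, b)) (erep (a, b)).1 * e (erep (a, b)) * (Φ (δ (a, b)) (erep (a, b)).2)⁻¹
  have hcπ : ∀ a ∈ P, ∀ b ∈ P, adj a b → π (c a b) = (γ a)⁻¹ * γ b := by
    intro a ha b hb hab
    have h0 := herepE (a, b) ⟨ha, hb, hab⟩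
    have h1 : δ (a, b) • (erep (a, b)).1 = a := congrArg Prod.fst (hδ (a, b))
    have h2 : δ (a, b) • (erep (a, b)).2 = b := congrArg Prod.snd (hδ (a, b))
    simp only [c, map_mul, map_inv]
    rw [hΦπ _ h0.1, hΦπ _ h0.2.1, heπ _ ⟨(a, b), ⟨ha, hb, hab⟩, rfl⟩, h1, h2]
    group
  -- relators
  have hgen : ∀ p ∈ erep '' Ed, ∃ S : Set G, S.Finite ∧
      Subgroup.closure S = fixingSubgroup G ({p.1, p.2} : Set V) := by
    rintro _ ⟨p, hp, rfl⟩
    have h0 := herepE p hp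
    obtain ⟨S, hS, hS'⟩ := (Subgroup.fg_iff _).1
      ((Group.fg_iff_subgroup_fg _).1 (he _ h0.1 _ h0.2.1 h0.2.2))
    exact ⟨S, hS', hS⟩
  choose! S hS hScl using hgen
  have hfix : ∀ (p : V × V) (h : G), h ∈ fixingSubgroup G ({p.1, p.2} : Set V) ↔
      h • p.1 = p.1 ∧ h • p.2 = p.2 := by
    intro p h
    simp [mem_fixingSubgroup_iff]
  let R₁ : Set F := ⋃ p ∈ erep '' Ed, (fun h => Φ h p.1 * e p * (Φ h p.2)⁻¹ * (e p)⁻¹) '' S p
  let R₂ : Set F := (fun t : V × V × V => c t.1 t.2.1 * c t.2.1 t.2.2 * (c t.1 t.2.2)⁻¹) ''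
    (T3 ∩ {t | t.1 ∈ P ∧ t.2.1 ∈ P ∧ t.2.2 ∈ P ∧ adj t.1 t.2.1 ∧ adj t.2.1 t.2.2 ∧ adj t.1 t.2.2})
  obtain ⟨W, _, q, π', hW, hq, hR⟩ := exists_fp_quot hF π (R₁ ∪ R₂)
    ((hE₀.biUnion fun p hp => (hS p hp).image _).union ((hT3.inter_of_left _).image _)) (by
      rintro r (hr | ⟨t, ⟨-, h1, h2, h3, h4, h5, h6⟩, rfl⟩)
      · simp only [R₁, Set.mem_iUnion] at hr
        obtain ⟨p, hp, h, hh, rfl⟩ := hr
        have h0 : p ∈ Ed := by
          obtain ⟨p', hp', rfl⟩ := hp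
          exact herepE p' hp'
        have h1 := (hfix p h).1 (hScl p hp ▸ Subgroup.subset_closure hh)
        simp only [map_mul, map_inv]
        rw [hΦπ _ h0.1, hΦπ _ h0.2.1, heπ _ hp, h1.1, h1.2]
        group
      · simp only [map_mul, map_inv]
        rw [hcπ _ h1 _ h2 h4, hcπ _ h2 _ h3 h5, hcπ _ h1 _ h3 h6]
        group)
  have hΦone : ∀ a ∈ P, Φ 1 a = 1 := by
    intro a ha
    have := hΦmul a ha 1 1
    rw [one_mul, one_smul] at this
    exact left_eq_mul.1 this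
  have hwd : ∀ p ∈ erep '' Ed, ∀ h : G, h • p = p →
      q (Φ h p.1) * q (e p) * (q (Φ h p.2))⁻¹ = q (e p) := by
    intro p hp h hh
    have h0 : p ∈ Ed := by
      obtain ⟨p', hp', rfl⟩ := hp
      exact herepE p' hp'
    have h1 : h ∈ Subgroup.closure (S p) := by
      rw [hScl p hp, hfix]
      exact ⟨congrArg Prod.fst hh, congrArg Prod.snd hh⟩
    clear hh
    induction h1 using Subgroup.closure_induction with
    | mem x hx =>
      have := hR _ (Or.inl (Set.mem_biUnion hp ⟨x, hx, rfl⟩))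
      simp only [map_mul, map_inv] at this
      exact mul_inv_eq_one.1 this
    | one => rw [hΦone _ h0.1, hΦone _ h0.2.1]; simp
    | mul x y hx hy ihx ihy =>
      rw [hScl p hp, hfix] at hy
      rw [hΦmul _ h0.1, hΦmul _ h0.2.1, hy.1, hy.2, map_mul, map_mul]
      calc _ = q (Φ x p.1) * (q (Φ y p.1) * q (e p) * (q (Φ y p.2))⁻¹) * (q (Φ x p.2))⁻¹ := by
            group
        _ = _ := by rw [ihy, ihx]
    | inv x hx ihx =>
      rw [hScl p hp, hfix] at hx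
      have e1 := hΦmul _ h0.1 x x⁻¹
      have e2 := hΦmul _ h0.2.1 x x⁻¹
      rw [inv_mul_cancel, hΦone _ h0.1, hx.1] at e1
      rw [inv_mul_cancel, hΦone _ h0.2.1, hx.2] at e2
      rw [eq_inv_of_mul_eq_one_left e1.symm, eq_inv_of_mul_eq_one_left e2.symm, map_inv, map_inv]
      conv_lhs => rw [← ihx]
      group
  have heq : ∀ a ∈ P, ∀ b ∈ P, adj a b → ∀ g : G,
      q (c (g • a) (g • b)) = q (Φ g a) * q (c a b) * (q (Φ g b))⁻¹ := by
    intro a ha b hb hab g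
    have h0 := herepE (a, b) ⟨ha, hb, hab⟩
    have h1 : δ (a, b) • (erep (a, b)).1 = a := congrArg Prod.fst (hδ (a, b))
    have h2 : δ (a, b) • (erep (a, b)).2 = b := congrArg Prod.snd (hδ (a, b))
    have h3 : erep (g • a, g • b) = erep (a, b) := herep g (a, b)
    have h4 : δ (g • a, g • b) • erep (a, b) = g • (a, b) := by
      rw [← h3]
      exact hδ _
    set h : G := (δ (g • a, g • b))⁻¹ * (g * δ (a, b)) with hh
    have h5 : h • erep (a, b) = erep (a, b) := by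
      rw [hh, mul_smul, mul_smul, hδ, inv_smul_eq_iff, h4]
    have h6 := hwd _ ⟨(a, b), ⟨ha, hb, hab⟩, rfl⟩ h h5
    have h7 : g * δ (a, b) = δ (g • a, g • b) * h := by rw [hh, mul_inv_cancel_left]
    have e1 := hΦmul _ h0.1 (δ (a, b)) g
    have e2 := hΦmul _ h0.2.1 (δ (a, b)) g
    rw [h1, h7, hΦmul _ h0.1, show h • (erep (a, b)).1 = (erep (a, b)).1 from
      congrArg Prod.fst h5] at e1
    rw [h2, h7, hΦmul _ h0.2.1, show h • (erep (a, b)).2 = (erep (a, b)).2 from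
      congrArg Prod.snd h5] at e2
    replace e1 := congrArg q e1
    replace e2 := congrArg q e2
    simp only [c, map_mul, map_inv, h3] at e1 e2 ⊢
    calc _ = q (Φ (δ (g • a, g • b)) (erep (a, b)).1) * q (Φ h (erep (a, b)).1) *
          q (e (erep (a, b))) *
          (q (Φ (δ (g • a, g • b)) (erep (a, b)).2) * q (Φ h (erep (a, b)).2))⁻¹ := by
          conv_lhs => rw [← h6]
          group
      _ = _ := by
          rw [e1, e2]
          group
  refine brown_fp_section adj P hP hadj hsc hW π' γ (fun g a => q (Φ g a)) (fun a b => q (c a b))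
    (fun a ha g g' => by rw [hΦmul a ha, map_mul]) (fun a ha g => by rw [hq, hΦπ a ha])
    (fun a ha b hb hab => by rw [hq, hcπ a ha b hb hab]) heq ?_
  intro a ha b hb d hd h1 h2 h3
  obtain ⟨g, hg⟩ := hT3c a ha b hb d hd h1 h2 h3
  have := hR _ (Or.inr ⟨_, ⟨hg, hP a ha g, hP b hb g, hP d hd g, hadj _ _ h1 g, hadj _ _ h2 g,
    hadj _ _ h3 g⟩, rfl⟩)
  simp only [map_mul, map_inv] at this
  rw [mul_inv_eq_one, heq a ha b hb h1, heq b hb d hd h2, heq a ha d hd h3] at this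
  have h4 : q (Φ g a) * (q (c a b) * q (c b d)) * (q (Φ g d))⁻¹ =
      q (Φ g a) * q (c a d) * (q (Φ g d))⁻¹ := by
    rw [← this]
    group
  exact mul_left_cancel (mul_right_cancel h4)

end Crest.Agent.R185
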