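import Crest.Agent.R185.FPres

/-!
# Row 185: a finitely presented free product of finitely many finitely presented groups
-/

set_option autoImplicit false

namespace Crest.Agent.R185

theorem exists_fp_family {ι : Type} [Finite ι] (H : ι → Type) [∀ i, Group (H i)]
    (hH : ∀ i, Group.IsFinitelyPresented (H i)) :
    ∃ (F : Type) (_ : Group F) (σ : ∀ i, H i →* F), Group.IsFinitelyPresented F ∧
      ∀ (G : Type) [Group G] (j : ∀ i, H i →* G), ∃ π : F →* G, ∀ i u, π (σ i u) = j i u := by
  revert H
  refine Finite.induction_empty_option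
    (P := fun ι => ∀ (H : ι → Type) [∀ i, Group (H i)], (∀ i, Group.IsFinitelyPresented (H i)) →
      ∃ (F : Type) (_ : Group F) (σ : ∀ i, H i →* F), Group.IsFinitelyPresented F ∧
      ∀ (G : Type) [Group G] (j : ∀ i, H i →* G), ∃ π : F →* G, ∀ i u, π (σ i u) = j i u)
    ?_ ?_ ?_ ι
  · intro α β e ih H _ hH
    obtain ⟨F, _, σ, hF, hu⟩ := ih (fun a => H (e a)) (fun a => hH (e a))
    let σ' : ∀ b, H b →* F := Equiv.piCongrLeft (fun b => H b →* F) e σ
    refine ⟨F, inferInstance, σ', hF, fun G _ j => ?_⟩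
    obtain ⟨π, hπ⟩ := hu G (fun a => j (e a))
    refine ⟨π, fun b => ?_⟩
    obtain ⟨a, rfl⟩ := e.surjective b
    intro u
    have : σ' (e a) = σ a := Equiv.piCongrLeft_apply_apply (fun b => H b →* F) e σ a
    rw [this, hπ]
  · intro H _ _
    exact ⟨Unit, inferInstance, fun i => i.elim, inferInstance, fun G _ j => ⟨1, fun i => i.elim⟩⟩
  · intro α _ ih H _ hH
    obtain ⟨F, _, σ, hF, hu⟩ := ih (fun a => H (some a)) (fun a => hH (some a))
    have := hH none
    refine ⟨Monoid.Coprod (H none) F, inferInstance,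
      fun i => match i with
        | none => Monoid.Coprod.inl
        | some a => Monoid.Coprod.inr.comp (σ a), inferInstance, fun G _ j => ?_⟩
    obtain ⟨π, hπ⟩ := hu G (fun a => j (some a))
    refine ⟨Monoid.Coprod.lift (j none) π, fun i u => ?_⟩
    cases i with
    | none => simp
    | some a => simp [hπ]

/-- Dividing out finitely many relators that hold in the target. -/
theorem exists_fp_quot {F G : Type} [Group F] [Group G] (hF : Group.IsFinitelyPresented F)
    (π : F →* G) (R : Set F) (hR : R.Finite) (hπ : ∀ r ∈ R, π r = 1) :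
    ∃ (W : Type) (_ : Group W) (q : F →* W) (π' : W →* G), Group.IsFinitelyPresented W ∧
      (∀ x, π' (q x) = π x) ∧ ∀ r ∈ R, q r = 1 := by
  have hle : Subgroup.normalClosure R ≤ π.ker := Subgroup.normalClosure_le_normal hπ
  refine ⟨F ⧸ Subgroup.normalClosure R, inferInstance, QuotientGroup.mk' _,
    QuotientGroup.lift _ π hle, Group.IsFinitelyPresented.quotient _ ⟨R, hR, rfl⟩,
    fun _ => rfl, fun r hr => ?_⟩
  exact (QuotientGroup.eq_one_iff r).2 (Subgroup.subset_normalClosure hr)

end Crest.Agent.R185
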