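import Mathlib
import Crest.Prelude.Def_FiniteTypeClassifying

/-!
# Row 185 (Boone–Higman, F∞ versions): shared definitions

Overall architecture (every arrow is a file with a sorry-free interface statement):

* `T5` : f.g. group with solvable word problem `↪ L.P` for some `LoopData L` (recursion theorem).
* `T3` : `LoopData → Good Γ S χ` with `L.P ↪ ker χ` (ascending HNN extension acting on a limit).
* `T4` : `Good Γ S χ →` a simple, finitely presented, `FP∞` group containing `ker χ`.
* `T2*`: homological algebra (`MFP`, `FP`), Brown's criteria, ascending HNN extensions.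
* `T1` : finitely presented + `FP∞` ⇒ `HasFiniteTypeClassifyingComplex`.
* `T6` : a finitely presented group containing every finitely presented group.
-/

set_option autoImplicit false

namespace Crest.Agent.R185

/-- `MFP R k M`: the module `M` has a partial resolution `F_k → ⋯ → F_0 → M → 0` by finitely
generated free modules. -/
def MFP (R : Type) [Ring R] : ℕ → (M : Type) → [AddCommGroup M] → [Module R M] → Prop
  | 0, M, _, _ => Module.Finite R M
  | k + 1, M, _, _ => ∃ (n : ℕ) (f : (Fin n → R) →ₗ[R] M),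
      Function.Surjective f ∧ MFP R k (LinearMap.ker f)

/-- The integral group ring. -/
abbrev ZG (G : Type) [Group G] : Type := MonoidAlgebra ℤ G

/-- The trivial `ℤG`-module `ℤ`. -/
abbrev Triv (G : Type) [Group G] : Type := (Representation.trivial ℤ G ℤ).asModule

/-- `G` is of type `FP_k`. -/
def FP (G : Type) [Group G] (k : ℕ) : Prop := MFP (ZG G) k (Triv G)

/-- `G` is of type `FP∞`. -/
def FPinf (G : Type) [Group G] : Prop := ∀ k, FP G k

/-! ### Killing systems -/

abbrev M3 (p : ℕ) : Type := Matrix (Fin 3) (Fin 3) (ZMod p)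

def E11 (p : ℕ) : M3 p := Matrix.single 0 0 1
def E22 (p : ℕ) : M3 p := Matrix.single 1 1 1

/-- Orthogonal idempotents. -/
def Orth {p : ℕ} (e e' : M3 p) : Prop := e * e = e ∧ e' * e' = e' ∧ e * e' = 0 ∧ e' * e = 0

/-- A family of homomorphisms indexed by idempotent matrices (values at other matrices are
irrelevant): commuting and multiplicative on orthogonal pairs. -/
structure IsFam {U V : Type} [Group U] [Group V] (p : ℕ) (f : M3 p → U →* V) : Prop where
  comm : ∀ e e', Orth e e' → ∀ u u', Commute (f e u) (f e' u')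
  add : ∀ e e', Orth e e' → ∀ u, f (e + e') u = f e u * f e' u

/-- A `p`-system for `ι`. -/
structure IsSys {U V : Type} [Group U] [Group V] (p : ℕ) (ι : U →* V)
    (fA fB : M3 p → U →* V) : Prop where
  famA : IsFam p fA
  famB : IsFam p fB
  e22 : fA (E22 p) = fB (E22 p)
  comm11 : ∀ u u', Commute (ι u) (fB (E11 p) u')
  e11 : ∀ u, fA (E11 p) u = ι u * fB (E11 p) u

def HasSys {U V : Type} [Group U] [Group V] (p : ℕ) (ι : U →* V) : Prop :=
  ∃ fA fB : M3 p → U →* V, IsSys p ι fA fB

/-! ### Ascending HNN extensions -/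

/-- `Γ` is the ascending HNN extension of `A` along `φ` with stable letter `t`. -/
structure AscHNN {Γ : Type} [Group Γ] (A : Subgroup Γ) (t : Γ) (χ : Γ →* Multiplicative ℤ)
    (φ : A →* A) : Prop where
  conj : ∀ a : A, t * a * t⁻¹ = φ a
  chi_t : χ t = Multiplicative.ofAdd 1
  chi_A : ∀ a ∈ A, χ a = 1
  ker : ∀ g, χ g = 1 → ∃ n : ℕ, t ^ n * g * (t ^ n)⁻¹ ∈ A

/-- `f` factors through a finitely presented group. -/
def FacFP {U V : Type} [Group U] [Group V] (f : U →* V) : Prop :=
  ∃ (E : Type) (_ : Group E), Group.IsFinitelyPresented E ∧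
    ∃ (α : U →* E) (β : E →* V), ∀ u, β (α u) = f u

/-! ### Loop data and good actions -/

/-- The output of the recursion-theoretic part. -/
structure LoopData where
  P : Type
  [grp : Group P]
  S : Type
  [act : MulAction P S]
  φ : P →* P
  τ : S → S
  τ_inj : Function.Injective τ
  τ_smul : ∀ (p : P) (s : S), τ (p • s) = φ p • τ s
  moves : ∀ p : P, p ≠ 1 → {s : S | p • s ≠ s}.Infinite
  compl : (Set.range τ)ᶜ.Infinite
  tuples : ∀ (n : ℕ) (a b : Fin n → S), Function.Injective a → Function.Injective b →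
    ∃ p : P, ∀ i, p • τ (a i) = τ (b i)
  fac : ∀ F : Finset S, ∃ (E : Type) (_ : Group E), Group.IsFinitelyPresented E ∧
    ∃ (α : fixingSubgroup P (F : Set S) →* E) (β : E →* P),
      (∀ a, β (α a) = φ a) ∧ ∀ x, ∀ s ∈ F, β x • τ s = τ s
  sys : ∀ p : ℕ, p = 2 ∨ p = 3 → ∃ fA fB : M3 p → P →* P, IsSys p φ fA fB ∧
    ∀ e q s, e * e = e → q • s = s → fA e q • τ s = τ s ∧ fB e q • τ s = τ s

attribute [instance] LoopData.grp LoopData.act

/-- The input of the construction of the final simple group. -/
structure Good (Γ S : Type) [Group Γ] [MulAction Γ S] (χ : Γ →* Multiplicative ℤ) : Prop where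
  inf : Infinite S
  moves : ∀ g : Γ, g ≠ 1 → {s : S | g • s ≠ s}.Infinite
  trans : ∀ (n : ℕ) (a b : Fin n → S), Function.Injective a → Function.Injective b →
    ∃ g : Γ, χ g = 1 ∧ ∀ i, g • a i = b i
  ker : χ.ker ≤ commutator Γ
  surj : ∀ F : Finset S, ∃ g ∈ fixingSubgroup Γ (F : Set S), χ g = Multiplicative.ofAdd 1
  fp : ∀ F : Finset S, Group.IsFinitelyPresented (fixingSubgroup Γ (F : Set S))
  fpinf : ∀ F : Finset S, FPinf (fixingSubgroup Γ (F : Set S))

/-- The sum character on a finite product. -/
def sumChar {ι : Type} [Fintype ι] {A : ι → Type} [∀ i, Group (A i)]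
    (χ : ∀ i, A i →* Multiplicative ℤ) : (∀ i, A i) →* Multiplicative ℤ where
  toFun a := ∏ i, χ i (a i)
  map_one' := by simp
  map_mul' a b := by simp [Finset.prod_mul_distrib]

/-! ### List complexes -/

/-- The boundary of an ordered list (augmented ordered chain complex: `[]` is in degree `-1`):
`∂ (a :: l) = l - a :: ∂ l`. -/
noncomputable def bdL {V : Type} : List V → (List V →₀ ℤ)
  | [] => 0
  | a :: l => Finsupp.single l 1 - Finsupp.mapDomain (List.cons a) (bdL l)

/-- The boundary operator on chains of lists. -/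
noncomputable def bd {V : Type} : (List V →₀ ℤ) →ₗ[ℤ] (List V →₀ ℤ) :=
  Finsupp.linearCombination ℤ bdL

/-- A *list complex* is a set of lists (used only when closed under sublists).  It is
`Acyc K k` when each cycle supported on lists of `K` of length `n ≤ k + 1` (i.e. degree `≤ k`,
including the augmentation degree `-1`) bounds a chain supported on lists of `K` of length `n+1`. -/
def Acyc {V : Type} (K : Set (List V)) (k : ℕ) : Prop :=
  ∀ n ≤ k + 1, ∀ z : List V →₀ ℤ, (∀ l ∈ z.support, l ∈ K ∧ l.length = n) → bd z = 0 →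
    ∃ y : List V →₀ ℤ, (∀ l ∈ y.support, l ∈ K ∧ l.length = n + 1) ∧ bd y = z

/-- The clique (flag) list complex of a reflexive symmetric relation restricted to `P`. -/
def Cliq {V : Type} (adj : V → V → Prop) (P : Set V) : Set (List V) :=
  {l | (∀ a ∈ l, a ∈ P) ∧ ∀ a ∈ l, ∀ b ∈ l, adj a b}

/-- Connectedness of `adj` on `P` (nonempty and chain connected). -/
def Conn {V : Type} (adj : V → V → Prop) (P : Set V) : Prop :=
  P.Nonempty ∧ ∀ a ∈ P, ∀ b ∈ P, Relation.ReflTransGen (fun x y => y ∈ P ∧ adj x y) a b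

/-- Simple connectivity of the clique complex, as triviality of flat cocycles. -/
def SConn {V : Type} (adj : V → V → Prop) (P : Set V) : Prop :=
  Conn adj P ∧ ∀ (K : Type) [Group K] (c : V → V → K),
    (∀ a ∈ P, ∀ b ∈ P, ∀ d ∈ P, adj a b → adj b d → adj a d → c a b * c b d = c a d) →
    ∃ f : V → K, ∀ a ∈ P, ∀ b ∈ P, adj a b → c a b = (f a)⁻¹ * f b

end Crest.Agent.R185
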