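import Crest.Agent.R185.Mod

/-!
# Row 185: domination lemma (task R185-Dom; plan in the header of `Torus.lean`)
-/

set_option autoImplicit false

namespace Crest.Agent.R185

/-- `FinMap R k f`: the map `f` lifts to projective resolutions with finitely generated images in
degrees `≤ k`. -/
def FinMap (R : Type) [Ring R] : ℕ → (M N : Type) → [AddCommGroup M] → [Module R M] →
    [AddCommGroup N] → [Module R N] → (M →ₗ[R] N) → Prop
  | 0, _, N, _, _, _, _, f => ∃ P : Submodule R N, P.FG ∧ LinearMap.range f ≤ P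
  | k + 1, M, N, _, _, _, _, f => ∃ (F F' : Type) (_ : AddCommGroup F) (_ : Module R F)
      (_ : AddCommGroup F') (_ : Module R F') (p : F →ₗ[R] M) (q : F' →ₗ[R] N) (g : F →ₗ[R] F')
      (g' : LinearMap.ker p →ₗ[R] LinearMap.ker q),
      Module.Projective R F ∧ Module.Projective R F' ∧ Function.Surjective p ∧
      Function.Surjective q ∧ (∀ x, q (g x) = f (p x)) ∧ (∀ x, (g' x : F') = g x) ∧
      (∃ P : Submodule R F', P.FG ∧ LinearMap.range g ≤ P) ∧
      FinMap R k (LinearMap.ker p) (LinearMap.ker q) g'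

section FinMap

variable {R : Type} [Ring R]

theorem exists_free_cover (M : Type) [AddCommGroup M] [Module R M] :
    Function.Surjective (Finsupp.linearCombination R (id : M → M)) :=
  Finsupp.linearCombination_id_surjective R M

theorem FinMap.precomp {k : ℕ} {M N M' : Type} [AddCommGroup M] [Module R M] [AddCommGroup N]
    [Module R N] [AddCommGroup M'] [Module R M'] {f : M →ₗ[R] N} (h : FinMap R k M N f)
    (u : M' →ₗ[R] M) : FinMap R k M' N (f ∘ₗ u) := by
  induction k generalizing M N M' with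
  | zero =>
    obtain ⟨P, hP, hle⟩ := h
    exact ⟨P, hP, (LinearMap.range_comp_le_range _ _).trans hle⟩
  | succ k ih =>
    obtain ⟨F, F', _, _, _, _, p, q, g, g', hF, hF', hp, hq, hg, hg', ⟨P, hP, hle⟩, hk⟩ := h
    let p' : (M' →₀ R) →ₗ[R] M' := Finsupp.linearCombination R id
    obtain ⟨v, hv⟩ := Module.projective_lifting_property p (u ∘ₗ p') hp
    have hv' : ∀ x, p (v x) = u (p' x) := fun x => LinearMap.congr_fun hv x
    let v' : LinearMap.ker p' →ₗ[R] LinearMap.ker p :=
      v.restrict (fun x hx => by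
        rw [LinearMap.mem_ker] at hx ⊢
        rw [hv', hx, map_zero])
    have hih := ih (M' := LinearMap.ker p') hk v'
    refine ⟨M' →₀ R, F', inferInstance, inferInstance, inferInstance, inferInstance, p', q,
      g ∘ₗ v, g' ∘ₗ v', inferInstance, hF', exists_free_cover M', hq, ?_, ?_,
      ⟨P, hP, (LinearMap.range_comp_le_range _ _).trans hle⟩, hih⟩
    · intro x
      simp only [LinearMap.comp_apply, hg, hv']
    · intro x
      simp only [LinearMap.comp_apply, hg']
      rfl

theorem FinMap.postcomp {k : ℕ} {M N N' : Type} [AddCommGroup M] [Module R M] [AddCommGroup N]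
    [Module R N] [AddCommGroup N'] [Module R N'] {f : M →ₗ[R] N} (h : FinMap R k M N f)
    (u : N →ₗ[R] N') : FinMap R k M N' (u ∘ₗ f) := by
  induction k generalizing M N N' with
  | zero =>
    obtain ⟨P, hP, hle⟩ := h
    refine ⟨P.map u, hP.map u, ?_⟩
    rw [LinearMap.range_comp]
    exact Submodule.map_mono hle
  | succ k ih =>
    obtain ⟨F, F', _, _, _, _, p, q, g, g', hF, hF', hp, hq, hg, hg', ⟨P, hP, hle⟩, hk⟩ := h
    let q' : (N' →₀ R) →ₗ[R] N' := Finsupp.linearCombination R id
    obtain ⟨v, hv⟩ := Module.projective_lifting_property q' (u ∘ₗ q) (exists_free_cover N')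
    have hv' : ∀ x, q' (v x) = u (q x) := fun x => LinearMap.congr_fun hv x
    let v' : LinearMap.ker q →ₗ[R] LinearMap.ker q' :=
      v.restrict (fun x hx => by
        rw [LinearMap.mem_ker] at hx ⊢
        rw [hv', hx, map_zero])
    have hih := ih (N' := LinearMap.ker q') hk v'
    refine ⟨F, N' →₀ R, inferInstance, inferInstance, inferInstance, inferInstance, p, q',
      v ∘ₗ g, v' ∘ₗ g', hF, inferInstance, hp, exists_free_cover N', ?_, ?_,
      ⟨P.map v, hP.map v, ?_⟩, hih⟩
    · intro x
      simp only [LinearMap.comp_apply, hg, hv']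
    · intro x
      simp only [LinearMap.comp_apply, ← hg']
      rfl
    · rw [LinearMap.range_comp]
      exact Submodule.map_mono hle

theorem range_add_le {M N : Type} [AddCommGroup M] [Module R M] [AddCommGroup N] [Module R N]
    {f g : M →ₗ[R] N} {P Q : Submodule R N} (hf : LinearMap.range f ≤ P)
    (hg : LinearMap.range g ≤ Q) : LinearMap.range (f + g) ≤ P ⊔ Q := by
  rintro _ ⟨x, rfl⟩
  exact Submodule.add_mem_sup (hf ⟨x, rfl⟩) (hg ⟨x, rfl⟩)

theorem FinMap.add {k : ℕ} {M N L : Type} [AddCommGroup M] [Module R M] [AddCommGroup N]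
    [Module R N] [AddCommGroup L] [Module R L] [Module.Finite R L] [Module.Projective R L]
    {f : M →ₗ[R] N} (h : FinMap R k M N f) (a : M →ₗ[R] L) (b : L →ₗ[R] N) :
    FinMap R k M N (f + b ∘ₗ a) := by
  cases k with
  | zero =>
    obtain ⟨P, hP, hle⟩ := h
    refine ⟨P ⊔ LinearMap.range b, hP.sup (Submodule.fg_range b), ?_⟩
    exact range_add_le hle (LinearMap.range_comp_le_range _ _)
  | succ k =>
    obtain ⟨F, F', _, _, _, _, p, q, g, g', hF, hF', hp, hq, hg, hg', ⟨P, hP, hle⟩, hk⟩ := h
    obtain ⟨v, hv⟩ := Module.projective_lifting_property q b hq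
    have hv' : ∀ x, q (v x) = b x := fun x => LinearMap.congr_fun hv x
    refine ⟨F, F', inferInstance, inferInstance, inferInstance, inferInstance, p, q,
      g + v ∘ₗ (a ∘ₗ p), g', hF, hF', hp, hq, ?_, ?_,
      ⟨P ⊔ LinearMap.range v, hP.sup (Submodule.fg_range v), ?_⟩, hk⟩
    · intro x
      simp only [LinearMap.add_apply, LinearMap.comp_apply, map_add, hg, hv']
    · intro x
      have hx : p x = 0 := x.2
      simp only [LinearMap.add_apply, LinearMap.comp_apply, hx, map_zero, add_zero, hg']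
    · exact range_add_le hle (LinearMap.range_comp_le_range _ _)

theorem FinMap.mfp {k : ℕ} {M : Type} [AddCommGroup M] [Module R M]
    (h : FinMap R k M M LinearMap.id) : MFP R k M := by
  induction k generalizing M with
  | zero =>
    obtain ⟨P, hP, hle⟩ := h
    have : P = ⊤ := top_le_iff.1 (by simpa using hle)
    subst this
    exact ⟨hP⟩
  | succ k ih =>
    obtain ⟨F, F', _, _, _, _, p, q, g, g', hF, hF', hp, hq, hg, hg', ⟨P, hP, hle⟩, hk⟩ := h
    have hM : Module.Finite R M := by
      refine ⟨?_⟩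
      have : P.map q = ⊤ := by
        rw [eq_top_iff]
        intro m _
        obtain ⟨x, rfl⟩ := hp m
        exact ⟨g x, hle ⟨x, rfl⟩, hg x⟩
      rw [← this]
      exact hP.map q
    obtain ⟨n, π, hπ⟩ := Module.Finite.exists_fin' R M
    obtain ⟨β, hβ⟩ := Module.projective_lifting_property p π hp
    obtain ⟨α, hα⟩ := Module.projective_lifting_property π q hπ
    have hβ' : ∀ x, p (β x) = π x := fun x => LinearMap.congr_fun hβ x
    have hα' : ∀ x, π (α x) = q x := fun x => LinearMap.congr_fun hα x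
    let β' : LinearMap.ker π →ₗ[R] LinearMap.ker p :=
      β.restrict (fun x hx => by
        rw [LinearMap.mem_ker] at hx ⊢
        rw [hβ', hx])
    let α' : LinearMap.ker q →ₗ[R] LinearMap.ker π :=
      α.restrict (fun x hx => by
        rw [LinearMap.mem_ker] at hx ⊢
        rw [hα', hx])
    let h : (Fin n → R) →ₗ[R] LinearMap.ker π :=
      (LinearMap.id - α ∘ₗ (g ∘ₗ β)).codRestrict _ (fun x => by
        rw [LinearMap.mem_ker]
        simp only [LinearMap.sub_apply, LinearMap.id_apply, LinearMap.comp_apply, map_sub, hα', hg,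
          hβ', sub_self])
    refine ⟨n, π, hπ, ih ?_⟩
    have key := ((hk.precomp β').postcomp α').add (LinearMap.ker π).subtype h
    convert key using 1
    ext1 x
    apply Subtype.ext
    have h1 : ((α' (g' (β' x)) : LinearMap.ker π) : Fin n → R) = α (g (β x)) := by
      have : ((g' (β' x) : LinearMap.ker q) : F') = g (β x) := hg' _
      rw [← this]
      rfl
    have h2 : ((h x : LinearMap.ker π) : Fin n → R) = x - α (g (β x)) := rfl
    simp only [LinearMap.id_apply, LinearMap.add_apply, LinearMap.comp_apply, Submodule.coe_add,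
      Submodule.subtype_apply, h1, h2]
    abel

theorem finMap_of_chain (k : ℕ) {M : Type} [AddCommGroup M] [Module R M]
    (T : ℕ → Type) [∀ n, AddCommGroup (T n)] [∀ n, Module R (T n)]
    [∀ n, Module.Projective R (T n)] (ε : T 0 →ₗ[R] M) (d : ∀ n, T (n + 1) →ₗ[R] T n)
    (hε : Function.Surjective ε) (h0 : Function.Exact (d 0) ε)
    (hd : ∀ n, Function.Exact (d (n + 1)) (d n)) (f : M →ₗ[R] M)
    (G : ∀ n, T n →ₗ[R] T n) (hG0 : ∀ x, ε (G 0 x) = f (ε x))
    (hG : ∀ n < k, ∀ x, d n (G (n + 1) x) = G n (d n x))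
    (hfg : ∀ n ≤ k, ∃ N : Submodule R (T n), N.FG ∧ LinearMap.range (G n) ≤ N) :
    FinMap R k M M f := by
  induction k generalizing M T with
  | zero =>
    obtain ⟨N, hN, hle⟩ := hfg 0 le_rfl
    refine ⟨N.map ε, hN.map ε, ?_⟩
    rintro _ ⟨m, rfl⟩
    obtain ⟨x, rfl⟩ := hε m
    exact ⟨G 0 x, hle ⟨x, rfl⟩, hG0 x⟩
  | succ k ih =>
    let f' : LinearMap.ker ε →ₗ[R] LinearMap.ker ε :=
      (G 0).restrict (fun x hx => by
        rw [LinearMap.mem_ker] at hx ⊢
        rw [hG0, hx, map_zero])
    let ε' : T 1 →ₗ[R] LinearMap.ker ε :=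
      (d 0).codRestrict _ (fun x => h0.apply_apply_eq_zero x)
    refine ⟨T 0, T 0, inferInstance, inferInstance, inferInstance, inferInstance, ε, ε, G 0, f',
      inferInstance, inferInstance, hε, hε, hG0, fun _ => rfl, hfg 0 (Nat.zero_le _), ?_⟩
    refine ih (fun n => T (n + 1)) ε' (fun n => d (n + 1)) ?_ ?_ (fun n => hd (n + 1)) f'
      (fun n => G (n + 1)) ?_ (fun n hn => hG (n + 1) (by omega))
      (fun n hn => hfg (n + 1) (by omega))
    · rintro ⟨x, hx⟩
      obtain ⟨y, rfl⟩ := (h0 x).1 hx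
      exact ⟨y, rfl⟩
    · intro x
      rw [← hd 0 x]
      exact ⟨fun h => congrArg Subtype.val h, fun h => Subtype.ext h⟩
    · intro x
      exact Subtype.ext (hG 0 (by omega) x)

end FinMap

/-- Domination lemma: `T 0 ← T 1 ← ⋯` a projective resolution of `M` (exact up to degree `k`),
`G` a chain endomorphism (up to degree `k`) lifting the identity with finitely generated images. -/
theorem mfp_of_dom {R : Type} [Ring R] (k : ℕ) {M : Type} [AddCommGroup M] [Module R M]
    (T : ℕ → Type) [∀ n, AddCommGroup (T n)] [∀ n, Module R (T n)]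
    [∀ n, Module.Projective R (T n)] (ε : T 0 →ₗ[R] M) (d : ∀ n, T (n + 1) →ₗ[R] T n)
    (hε : Function.Surjective ε) (h0 : Function.Exact (d 0) ε)
    (hd : ∀ n, Function.Exact (d (n + 1)) (d n))
    (G : ∀ n, T n →ₗ[R] T n) (hG0 : ∀ x, ε (G 0 x) = ε x)
    (hG : ∀ n < k, ∀ x, d n (G (n + 1) x) = G n (d n x))
    (hfg : ∀ n ≤ k, ∃ N : Submodule R (T n), N.FG ∧ LinearMap.range (G n) ≤ N) :
    MFP R k M :=
  (finMap_of_chain k T ε d hε h0 hd LinearMap.id G hG0 hG hfg).mfp

end Crest.Agent.R185
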