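import Mathlib

/-!
# Row 185: free groups are `Primcodable`; basic operations are primitive recursive
-/

set_option autoImplicit false

namespace Crest.Agent.R185

open Primrec

abbrev Word (X : Type) : Type := List (X × Bool)

variable {X Y : Type} [DecidableEq X] [Primcodable X] [DecidableEq Y] [Primcodable Y]
variable {α β σ : Type} [Primcodable α] [Primcodable β] [Primcodable σ]

theorem reduce_eq_foldr (l : Word X) : FreeGroup.reduce l = l.foldr (fun x r =>
    List.casesOn (motive := fun _ => Word X) r [x] fun hd tl =>
      if x.1 = hd.1 ∧ x.2 = !hd.2 then tl else x :: hd :: tl) [] := by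
  induction l with
  | nil => rfl
  | cons x l ih => rw [FreeGroup.reduce.cons, ih]; rfl

theorem primrec_reduce : Primrec (FreeGroup.reduce : Word X → Word X) := by
  have h : Primrec₂ fun (_ : Word X) (p : (X × Bool) × Word X) =>
      (List.casesOn (motive := fun _ => Word X) p.2 [p.1] fun hd tl =>
        if p.1.1 = hd.1 ∧ p.1.2 = !hd.2 then tl else p.1 :: hd :: tl) := by
    refine Primrec.list_casesOn (f := fun q : Word X × ((X × Bool) × Word X) => q.2.2)
      (g := fun q => [q.2.1])
      (h := fun q r => if q.2.1.1 = r.1.1 ∧ q.2.1.2 = !r.1.2 then r.2 else q.2.1 :: r.1 :: r.2)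
      (snd.comp snd) (list_cons.comp (fst.comp snd) (const [])) ?_
    refine Primrec.ite (PrimrecPred.and ?_ ?_) (snd.comp snd) ?_
    · exact Primrec.eq.comp (fst.comp (fst.comp (snd.comp fst))) (fst.comp (fst.comp snd))
    · exact Primrec.eq.comp (snd.comp (fst.comp (snd.comp fst)))
        (Primrec.not.comp (snd.comp (fst.comp snd)))
    · exact list_cons.comp (fst.comp (snd.comp fst))
        (list_cons.comp (fst.comp snd) (snd.comp snd))
  exact (Primrec.list_foldr Primrec.id (const []) h).of_eq fun l => (reduce_eq_foldr l).symm

theorem primrecPred_reduced : PrimrecPred fun l : Word X => FreeGroup.reduce l = l :=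
  Primrec.eq.comp primrec_reduce Primrec.id

/-- Free group elements as reduced words. -/
def fgEquiv (X : Type) [DecidableEq X] : FreeGroup X ≃ {l : Word X // FreeGroup.reduce l = l} where
  toFun g := ⟨g.toWord, FreeGroup.reduce_toWord g⟩
  invFun l := FreeGroup.mk l.1
  left_inv _ := FreeGroup.mk_toWord
  right_inv l := Subtype.ext (by simp [FreeGroup.toWord_mk, l.2])

instance fgPrimcodable : Primcodable (FreeGroup X) :=
  letI := Primcodable.subtype (primrecPred_reduced (X := X))
  Primcodable.ofEquiv _ (fgEquiv X)

theorem primrec_toWord : Primrec (FreeGroup.toWord : FreeGroup X → Word X) := by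
  letI := Primcodable.subtype (primrecPred_reduced (X := X))
  exact (Primrec.subtype_val (hp := primrecPred_reduced)).comp (Primrec.of_equiv (e := fgEquiv X))

theorem primrec_mk : Primrec (FreeGroup.mk : Word X → FreeGroup X) := by
  letI := Primcodable.subtype (primrecPred_reduced (X := X))
  have h : Primrec fun l : Word X =>
      (⟨FreeGroup.reduce l, FreeGroup.reduce.idem⟩ : {l : Word X // FreeGroup.reduce l = l}) :=
    (Primrec.subtype_val_iff (hp := primrecPred_reduced)).1 primrec_reduce
  exact ((Primrec.of_equiv_symm (e := fgEquiv X)).comp h).of_eq fun l => FreeGroup.reduce.self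

theorem primrec_mul : Primrec₂ fun g h : FreeGroup X => g * h :=
  (primrec_mk.comp (list_append.comp (primrec_toWord.comp fst) (primrec_toWord.comp snd))).of_eq
    fun p => by rw [← FreeGroup.mul_mk, FreeGroup.mk_toWord, FreeGroup.mk_toWord]

theorem primrec_invRev : Primrec (FreeGroup.invRev : Word X → Word X) :=
  list_reverse.comp (list_map Primrec.id
    (Primrec.pair (fst.comp snd) (Primrec.not.comp (snd.comp snd))).to₂)

theorem primrec_inv : Primrec fun g : FreeGroup X => g⁻¹ :=
  (primrec_mk.comp (primrec_invRev.comp primrec_toWord)).of_eq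
    fun g => by rw [← FreeGroup.inv_mk, FreeGroup.mk_toWord]

theorem primrec_of : Primrec (FreeGroup.of : X → FreeGroup X) :=
  primrec_mk.comp (list_cons.comp (Primrec.pair Primrec.id (const true)) (const []))

theorem primrec_norm : Primrec (FreeGroup.norm : FreeGroup X → ℕ) :=
  list_length.comp primrec_toWord

theorem lift_eq_foldr {G : Type*} [Group G] (f : X → G) (g : FreeGroup X) :
    FreeGroup.lift f g = g.toWord.foldr (fun x r => cond x.2 (f x.1) (f x.1)⁻¹ * r) 1 := by
  conv_lhs => rw [← FreeGroup.mk_toWord (x := g), FreeGroup.lift_mk]
  induction g.toWord with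
  | nil => rfl
  | cons x l ih => simp [ih]

/-- Substitutions depending primitive recursively on a parameter. -/
theorem primrec_lift {f : α → X → FreeGroup Y} (hf : Primrec₂ f) {g : α → FreeGroup X}
    (hg : Primrec g) : Primrec fun a => FreeGroup.lift (f a) (g a) := by
  have h : Primrec₂ fun (a : α) (p : (X × Bool) × FreeGroup Y) =>
      cond p.1.2 (f a p.1.1) (f a p.1.1)⁻¹ * p.2 :=
    primrec_mul.comp (Primrec.cond (snd.comp (fst.comp snd)) (hf.comp fst (fst.comp (fst.comp snd)))
      (primrec_inv.comp (hf.comp fst (fst.comp (fst.comp snd))))) (snd.comp snd)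
  exact (Primrec.list_foldr (primrec_toWord.comp hg) (const 1) h).of_eq
    fun a => (lift_eq_foldr _ _).symm

/-- Every homomorphism out of a finitely generated free group into a free group. -/
theorem primrec_hom [Finite X] (φ : FreeGroup X →* FreeGroup Y) : Primrec φ := by
  have h : Primrec₂ fun (_ : FreeGroup X) (x : X) => φ (FreeGroup.of x) :=
    (Primrec.dom_finite fun x => φ (FreeGroup.of x)).comp snd
  refine (primrec_lift h Primrec.id).of_eq fun g => ?_
  have : FreeGroup.lift (fun x => φ (FreeGroup.of x)) = φ := by ext; simp
  simp [this]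

/-- All lists of length `≤ n` with entries in `L`. -/
def allLists {A : Type} (L : List A) : ℕ → List (List A)
  | 0 => [[]]
  | n + 1 => [] :: L.flatMap fun a => (allLists L n).map (a :: ·)

theorem mem_allLists {A : Type} {L : List A} {n : ℕ} {l : List A} :
    l ∈ allLists L n ↔ l.length ≤ n ∧ ∀ a ∈ l, a ∈ L := by
  induction n generalizing l with
  | zero => cases l <;> simp [allLists]
  | succ n ih =>
    cases l with
    | nil => simp [allLists]
    | cons a l =>
      simp only [allLists, List.mem_cons, reduceCtorEq, List.mem_flatMap, List.mem_map,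
        List.cons.injEq, false_or, List.length_cons, Nat.add_le_add_iff_right, forall_eq_or_imp]
      constructor
      · rintro ⟨b, hb, m, hm, rfl, rfl⟩
        exact ⟨(ih.1 hm).1, hb, (ih.1 hm).2⟩
      · rintro ⟨h1, h2, h3⟩
        exact ⟨a, h2, l, ih.2 ⟨h1, h3⟩, rfl, rfl⟩

theorem primrec_allLists (L : List α) : Primrec (allLists L) := by
  have h : Primrec₂ fun (_ : ℕ) (p : ℕ × List (List α)) =>
      ([] : List α) :: L.flatMap fun a => p.2.map (a :: ·) :=
    list_cons.comp (const []) (list_flatMap (const L)
      (list_map (snd.comp (snd.comp fst)) (list_cons.comp (snd.comp fst) snd).to₂).to₂)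
  refine (Primrec.nat_rec' Primrec.id (const [[]]) h).of_eq fun n => ?_
  induction n with
  | zero => rfl
  | succ n ih => simp only [allLists, id] at ih ⊢; rw [← ih]

/-- All elements of norm `≤ n`. -/
noncomputable def ball (X : Type) [Fintype X] (n : ℕ) : List (FreeGroup X) :=
  (allLists (Finset.univ : Finset (X × Bool)).toList n).map FreeGroup.mk

omit [Primcodable X] in
theorem mem_ball [Fintype X] {n : ℕ} {g : FreeGroup X} : g ∈ ball X n ↔ g.norm ≤ n := by
  simp only [ball, List.mem_map, mem_allLists, Finset.mem_toList, Finset.mem_univ, implies_true,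
    and_true]
  constructor
  · rintro ⟨l, hl, rfl⟩; exact FreeGroup.norm_mk_le.trans hl
  · intro h; exact ⟨g.toWord, h, FreeGroup.mk_toWord⟩

theorem primrec_ball [Fintype X] : Primrec (ball X) :=
  list_map (primrec_allLists _) (primrec_mk.comp snd).to₂

theorem computable_foldr {f : α → List β} {g : α → σ} {h : α → β × σ → σ} (hf : Computable f)
    (hg : Computable g) (hh : Computable₂ h) :
    Computable fun a => (f a).foldr (fun b s => h a (b, s)) (g a) := by
  have key : ∀ (a : α) (l : List β) (n : ℕ), n ≤ l.length →
      (Nat.rec (motive := fun _ => σ) (g a) (fun i s =>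
        Option.casesOn (motive := fun _ => σ) (l[i]?) s fun b => h a (b, s)) n) =
      (l.take n).reverse.foldr (fun b s => h a (b, s)) (g a) := by
    intro a l n hn
    induction n with
    | zero => simp
    | succ n ih =>
      have hn' : n < l.length := hn
      simp only [ih hn'.le, List.getElem?_eq_getElem hn', List.take_succ_eq_append_getElem hn',
        List.reverse_append, List.reverse_cons, List.reverse_nil, List.nil_append,
        List.cons_append, List.foldr_cons]
  have h2 : Computable₂ fun (a : α) (p : ℕ × σ) =>
      Option.casesOn (motive := fun _ => σ) (((f a).reverse)[p.1]?) p.2 fun b => h a (b, p.2) :=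
    Computable.option_casesOn
      (Computable.list_getElem?.comp (Computable.list_reverse.comp (hf.comp Computable.fst))
        (Computable.fst.comp Computable.snd)) (Computable.snd.comp Computable.snd)
      (hh.comp (Computable.fst.comp Computable.fst)
        (Computable.snd.pair (Computable.snd.comp (Computable.snd.comp Computable.fst)))).to₂
  refine (Computable.nat_rec (Computable.list_length.comp hf) hg h2).of_eq fun a => ?_
  rw [key a (f a).reverse _ (by simp), ← List.length_reverse, List.take_length,
    List.reverse_reverse]

theorem computable_filter {f : α → List β} {p : α → β → Bool} (hf : Computable f)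
    (hp : Computable₂ p) : Computable fun a => (f a).filter (p a) := by
  have h : Computable₂ fun (a : α) (q : β × List β) => cond (p a q.1) (q.1 :: q.2) q.2 :=
    Computable.cond (hp.comp Computable.fst (Computable.fst.comp Computable.snd))
      (Computable.list_cons.comp (Computable.fst.comp Computable.snd)
        (Computable.snd.comp Computable.snd)) (Computable.snd.comp Computable.snd)
  refine (computable_foldr hf (Computable.const []) h).of_eq fun a => ?_
  induction f a with
  | nil => rfl
  | cons b l ih => simp only [List.foldr_cons, ih, List.filter_cons]; cases p a b <;> rfl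

end Crest.Agent.R185
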