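import Crest.Agent.R185.Defs

/-!
# Row 185: finite presentability criteria (task R185-FPres)

PLAN (`Group.IsFinitelyPresented` API: `equiv`, `of_surjective`, `quotient`, Coprod instance, finite groups).
* `fpres_ext` (P. Hall): `N = ⟨X | R⟩`, `G/N = ⟨Y | S⟩`.  Let `E = (N ∗ F(Y)) / ⟨⟨ y x y⁻¹ = ·, y⁻¹ x y = ·
  (x ∈ finite generating set of N, value an element of N), s(y) = n_s (s ∈ S) ⟩⟩`, f.p.; the map `E → G` is onto;
  the image `Ñ` of `N` in `E` is normal, `N → E → G` is the inclusion, `E/Ñ` is a quotient of `G/N`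
  mapping onto `G/N`, so the kernel lies in `Ñ` and is trivial.
* `meinert_fp`: split the product as `A × D` (`A` one factor, `D` the product of ≥ 2 others, both f.p.),
  `t ∈ A`, `s ∈ D` with `χ t = 1`, `χ_D s = 1`.  `B = ker χ_D` is f.g. (for `D = A₂ × A₃`: generated by
  `t₂ t₃⁻¹` and the elements `a t_i^(-χ a)` for generators `a` of `A_i`, since
  `t₂^k a t₂^(-k) = (t₂t₃⁻¹)^k a (t₂t₃⁻¹)^(-k)`); `A = ⟨t, a_i⟩` with `χ a_i = 0`.
  `Ñ = (A ∗ D)/⟨⟨ t s, [a_i, b_j] ⟩⟩` (so `s = t⁻¹`; fix signs) is f.p.; map `Ñ → N` by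
  `a ↦ (a, s^(-χ a))`, `d ↦ (t^(-χ d), d)`; the image `B̃` of `B` is normal in `Ñ`, `Ñ = Ã B̃`, and an element
  `ã b̃` in the kernel has `a = 1`, then `b = 1`.
* `AscHNN.fpres`: `φ = β α` through `E` f.p. with generators `x`.  `Γ̃ = (E ∗ ⟨T⟩)/⟨⟨T x T⁻¹ = α(β x)⟩⟩`
  (so `T e T⁻¹ = α β e` for all `e`).  `Γ̃ → Γ`: `e ↦ β e`, `T ↦ t` (`t β(e) t⁻¹ = φ β e = β α β e`).  Onto: `a = t⁻¹ φ(a) t`,
  and `Γ` is generated by `A`, `t`.  Injective: every element is `T^(-i) e T^j`; if it dies then `i = j`,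
  `β e = 1`, so `T e T⁻¹ = α β e = 1`.
* `brown_fp`: pick orbit representatives `v ∈ V₀` of vertices of `P`, of edges `(v, g w)` (`v, w ∈ V₀`) and of
  triangles.  `G` is generated by the stabilisers `G_v` and the finitely many edge elements `g` (connectivity).
  Let `F = (∗_{v} G_v) ∗ Free(edge reps)` (f.p., `Monoid.CoprodI` over a finite type, or iterate `Coprod`, or a
  `FreeGroup` on finitely many generators modulo relators), `π : F ↠ G`.  Add finitely many relators
  (all lying in `ker π`) to get `G̃` f.p. with `π̃ : G̃ ↠ G`, kernel `Λ`, and splittings `σ_v : G_v → G̃`, such that: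
  on `Ṽ = ⊔_v G̃/σ_v(G_v) → P` (fibres are `Λ`-torsors) the `G̃`-invariant relation generated by lifted edge
  representatives `(σ_v, g̃ σ_w)` is the graph of a *bijection* between the fibres over adjacent vertices
  (relators: `σ_v(h) g̃ = g̃ σ_w(g⁻¹ h g)` for generators `h` of the edge stabiliser; symmetric edges, loops
  `adj v v` lifted to the identity) and these bijections are flat on triangles (one relator per triangle
  orbit).  Choosing a point in each fibre gives a flat `Λ`-valued cocycle, trivial by `SConn`; so there is a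
  flat section `s`; normalise it at one base vertex.  Flat sections agreeing at one vertex agree
  (connected).  The `σ_v(G_v)` and `g̃` preserve the flat section through the base lifts (choose the edge
  representatives so that a spanning tree argument is not needed: simply show that the set of
  `x ∈ G̃` preserving `s` is a subgroup meeting `Λ` trivially and containing conjugates `λ_v σ_v λ_v⁻¹`,
  `λ_v g̃ λ_w⁻¹`, where `s(v) = λ_v σ_v`; this gives an endomorphism/retraction `G̃ → G̃`, `x ↦ ρ(π̃ x)`,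
  i.e. a homomorphic section `ρ : G → G̃` of `π̃`; a retract of a f.p. group is f.p.:
  `G ≅ G̃/⟨⟨x⁻¹ ρ π̃ x : x generators⟩⟩`).  So it suffices to get the section `ρ`: `ρ g` is the unique lift of
  `g` preserving `s`.
-/

set_option autoImplicit false

namespace Crest.Agent.R185

open Monoid Monoid.Coprod in
/-- Master criterion: the kernel of `π` is killed by every homomorphism killing the finite set `S`. -/
theorem fpres_of_rel {F G : Type} [Group F] [Group G] (hF : Group.IsFinitelyPresented F)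
    (π : F →* G) (hπ : Function.Surjective π) (S : Set F) (hS : S.Finite) (h1 : ∀ s ∈ S, π s = 1)
    (h2 : ∀ (E : Type) [Group E] (q : F →* E), (∀ s ∈ S, q s = 1) → ∀ x, π x = 1 → q x = 1) :
    Group.IsFinitelyPresented G := by
  refine Group.IsFinitelyPresented.of_surjective π hπ ⟨S, hS, le_antisymm
    (Subgroup.normalClosure_le_normal h1) fun x hx => ?_⟩
  have := h2 _ (QuotientGroup.mk' (Subgroup.normalClosure S))
    (fun s hs => (QuotientGroup.eq_one_iff s).2 (Subgroup.subset_normalClosure hs)) x hx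
  exact (QuotientGroup.eq_one_iff x).1 this

theorem fpres_fg' {G : Type} [Group G] (h : Group.IsFinitelyPresented G) : Group.FG G := by
  obtain ⟨n, φ, hφ, -⟩ := h.out
  exact Group.fg_of_surjective hφ

theorem conj_of_gens {N E : Type} [Group N] [Group E] {X : Set N} (hX : Subgroup.closure X = ⊤)
    (a a' : N →* E) (u : E) (h : ∀ x ∈ X, u * a x * u⁻¹ = a' x) (x : N) :
    u * a x * u⁻¹ = a' x :=
  DFunLike.congr_fun (MonoidHom.eq_of_eqOn_dense hX
    (f := (MulAut.conj u).toMonoidHom.comp a) (g := a') h) x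

section Ext

open Monoid Monoid.Coprod

variable {G : Type} [Group G] (N : Subgroup G) [N.Normal] {n : ℕ} (l : FreeGroup (Fin n) →* G)

theorem ext_conj {E : Type} [Group E] (a : N →* E) (b : FreeGroup (Fin n) →* E)
    (h : ∀ i x, b (FreeGroup.of i) * a x * (b (FreeGroup.of i))⁻¹ =
      a (MulAut.conjNormal (l (FreeGroup.of i)) x)) (w : FreeGroup (Fin n)) :
    ∀ x, b w * a x * (b w)⁻¹ = a (MulAut.conjNormal (l w) x) := by
  induction w using FreeGroup.induction_on with
  | C1 => intro x; simp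
  | of i => exact h i
  | inv_of i ih =>
    intro x
    have := ih (MulAut.conjNormal (l (FreeGroup.of i)⁻¹) x)
    rw [← MulAut.mul_apply, ← map_mul, ← map_mul, mul_inv_cancel, map_one, map_one,
      MulAut.one_apply] at this
    rw [← this]; simp [mul_assoc]
  | mul u v ihu ihv =>
    intro x
    rw [map_mul, map_mul, map_mul, MulAut.mul_apply, ← ihu, ← ihv]
    simp [mul_assoc]

theorem ext_nf {E E' : Type} [Group E] [Group E'] (q : Coprod N (FreeGroup (Fin n)) →* E)
    (q' : Coprod N (FreeGroup (Fin n)) →* E')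
    (h : ∀ w x, q (inr w) * q (inl x) * (q (inr w))⁻¹ = q (inl (MulAut.conjNormal (l w) x)))
    (h' : ∀ w x, q' (inr w) * q' (inl x) * (q' (inr w))⁻¹ = q' (inl (MulAut.conjNormal (l w) x)))
    (f : Coprod N (FreeGroup (Fin n))) :
    ∃ x w, q f = q (inl x) * q (inr w) ∧ q' f = q' (inl x) * q' (inr w) := by
  induction f using Coprod.induction_on with
  | inl x => exact ⟨x, 1, by simp, by simp⟩
  | inr w => exact ⟨1, w, by simp, by simp⟩
  | mul f g ihf ihg =>
    obtain ⟨x, w, h1, h2⟩ := ihf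
    obtain ⟨x', w', h3, h4⟩ := ihg
    refine ⟨x * MulAut.conjNormal (l w) x', w * w', ?_, ?_⟩
    · simp only [map_mul, h1, h3, ← h]; simp [mul_assoc]
    · simp only [map_mul, h2, h4, ← h']; simp [mul_assoc]

end Ext


theorem fpres_ext {G : Type} [Group G] (N : Subgroup G) [N.Normal]
    (hN : Group.IsFinitelyPresented N) (hQ : Group.IsFinitelyPresented (G ⧸ N)) :
    Group.IsFinitelyPresented G := by
  classical
  obtain ⟨n, ψ, hψ, R, hR, hRψ⟩ := hQ.out
  obtain ⟨X, hX, hXf⟩ := Group.fg_iff.1 (fpres_fg' hN)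
  choose y hy using fun i => QuotientGroup.mk'_surjective N (ψ (FreeGroup.of i))
  let l : FreeGroup (Fin n) →* G := FreeGroup.lift y
  have hl : ∀ w, QuotientGroup.mk' N (l w) = ψ w := fun w =>
    DFunLike.congr_fun (show (QuotientGroup.mk' N).comp l = ψ by ext i; simpa [l] using hy i) w
  have hmem : ∀ w, l w ∈ N ↔ ψ w = 1 := fun w => by
    rw [← hl]; exact (QuotientGroup.eq_one_iff _).symm
  have hRN : ∀ r : R, l r ∈ N := fun r => (hmem r).2 (by
    rw [← MonoidHom.mem_ker, ← hRψ]; exact Subgroup.subset_normalClosure r.2)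
  let π : Monoid.Coprod N (FreeGroup (Fin n)) →* G := Monoid.Coprod.lift N.subtype l
  haveI := hR.to_subtype
  haveI := hXf.to_subtype
  refine fpres_of_rel inferInstance π ?_
    (Set.range (fun p : Fin n × X => Monoid.Coprod.inr (FreeGroup.of p.1) * Monoid.Coprod.inl p.2.1 *
        (Monoid.Coprod.inr (FreeGroup.of p.1))⁻¹ *
        (Monoid.Coprod.inl (MulAut.conjNormal (l (FreeGroup.of p.1)) p.2.1))⁻¹) ∪
      Set.range (fun r : R => Monoid.Coprod.inr r.1 * (Monoid.Coprod.inl ⟨l r, hRN r⟩)⁻¹))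
    ((Set.finite_range _).union (Set.finite_range _)) ?_ ?_
  · intro g
    obtain ⟨w, hw⟩ := hψ (QuotientGroup.mk' N g)
    have : g * (l w)⁻¹ ∈ N := by
      rw [← QuotientGroup.eq_one_iff, ← QuotientGroup.mk'_apply, map_mul, map_inv, hl, hw,
        mul_inv_cancel]
    exact ⟨Monoid.Coprod.inl ⟨_, this⟩ * Monoid.Coprod.inr w, by simp [π]⟩
  · rintro _ (⟨p, rfl⟩ | ⟨r, rfl⟩) <;> simp [π]
  · intro E _ q hq f hf
    have h1 := ext_conj N l (q.comp Monoid.Coprod.inl) (q.comp Monoid.Coprod.inr) (fun i =>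
      conj_of_gens hX _ ((q.comp Monoid.Coprod.inl).comp
        (MulAut.conjNormal (l (FreeGroup.of i))).toMonoidHom) _ fun x hx => by
        have := hq _ (Or.inl ⟨(i, ⟨x, hx⟩), rfl⟩)
        simpa [mul_inv_eq_one] using this)
    obtain ⟨x, w, h2, h3⟩ := ext_nf N l q π h1 (fun w x => by simp [π]) f
    have h4 : (x : G) * l w = 1 := by simpa [π, hf] using h3.symm
    have h5 : w ∈ Subgroup.normalClosure R := by
      rw [hRψ, MonoidHom.mem_ker, ← hmem, eq_inv_of_mul_eq_one_right h4]
      exact N.inv_mem x.2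
    let K : Subgroup (FreeGroup (Fin n)) :=
      { carrier := {w | ∃ x : N, q (Monoid.Coprod.inr w) = q (Monoid.Coprod.inl x) ∧ l w = x}
        one_mem' := ⟨1, by simp, by simp⟩
        mul_mem' := by
          rintro u v ⟨x, h1, h2⟩ ⟨x', h3, h4⟩
          exact ⟨x * x', by simp [h1, h3], by simp [h2, h4]⟩
        inv_mem' := by
          rintro u ⟨x, h1, h2⟩
          exact ⟨x⁻¹, by simp [h1], by simp [h2]⟩ }
    haveI : K.Normal := ⟨by
      rintro u ⟨x, h6, h7⟩ g
      refine ⟨MulAut.conjNormal (l g) x, ?_, by simp [h7]⟩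
      have := h1 g x
      simp only [MonoidHom.comp_apply] at this
      rw [← this]; simp [h6]⟩
    obtain ⟨x', h6, h7⟩ : w ∈ K := Subgroup.normalClosure_le_normal (N := K) (fun r hr =>
      ⟨⟨l r, hRN ⟨r, hr⟩⟩, by
        have := hq _ (Or.inr ⟨⟨r, hr⟩, rfl⟩)
        simpa [mul_inv_eq_one] using this, rfl⟩) h5
    have h8 : x * x' = 1 := Subtype.ext (by simpa [h7] using h4)
    rw [h2, h6, ← map_mul, ← map_mul, h8]; simp

theorem fpres_of_finiteIndex {G : Type} [Group G] (N : Subgroup G) [N.Normal] [N.FiniteIndex]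
    (hN : Group.IsFinitelyPresented N) : Group.IsFinitelyPresented G := by
  exact fpres_ext N hN inferInstance

theorem fpres_fg {G : Type} [Group G] (h : Group.IsFinitelyPresented G) : Group.FG G := by
  exact fpres_fg' h

theorem fpres_prod {G H : Type} [Group G] [Group H] (hG : Group.IsFinitelyPresented G)
    (hH : Group.IsFinitelyPresented H) : Group.IsFinitelyPresented (G × H) := by
  let N := (MonoidHom.snd G H).ker
  refine fpres_ext N ?_ ?_
  · have e : (MonoidHom.inl G H).range = N := by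
      ext ⟨g, h⟩
      simp [N, Prod.ext_iff, eq_comm, Subgroup.mem_prod]
    exact Group.IsFinitelyPresented.equiv ((MonoidHom.ofInjective (f := MonoidHom.inl G H)
      fun a b hab => congrArg Prod.fst hab).trans (MulEquiv.subgroupCongr e))
  · exact Group.IsFinitelyPresented.equiv (QuotientGroup.quotientKerEquivOfSurjective
      (MonoidHom.snd G H) Prod.snd_surjective).symm

theorem fpres_pi {ι : Type} [Finite ι] {A : ι → Type} [∀ i, Group (A i)]
    (h : ∀ i, Group.IsFinitelyPresented (A i)) : Group.IsFinitelyPresented (∀ i, A i) := by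
  revert A
  refine Finite.induction_empty_option (P := fun ι => ∀ {A : ι → Type} [∀ i, Group (A i)],
    (∀ i, Group.IsFinitelyPresented (A i)) → Group.IsFinitelyPresented (∀ i, A i)) ?_ ?_ ?_ ι
  · intro α β e ih A _ h
    have := ih (A := fun a => A (e.symm.symm a)) fun a => h _
    exact Group.IsFinitelyPresented.equiv
      (MulEquiv.mk (Equiv.piCongrLeft' A e.symm) fun _ _ => rfl).symm
  · intro A _ _
    infer_instance
  · intro α _ ih A _ h
    have := fpres_prod (h none) (ih fun a => h (some a))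
    exact Group.IsFinitelyPresented.equiv
      (MulEquiv.mk (Equiv.piOptionEquivProd (β := A)) fun _ _ => rfl).symm

/-- A retract of a finitely presented group is finitely presented. -/
theorem fpres_retract {G E : Type} [Group G] [Group E] (hE : Group.IsFinitelyPresented E)
    (π : E →* G) (ρ : G →* E) (h : ∀ g, π (ρ g) = g) : Group.IsFinitelyPresented G := by
  obtain ⟨X, hX, hXf⟩ := Group.fg_iff.1 (fpres_fg hE)
  refine fpres_of_rel hE π (fun g => ⟨ρ g, h g⟩) ((fun x => x⁻¹ * ρ (π x)) '' X) (hXf.image _) ?_ ?_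
  · rintro _ ⟨x, -, rfl⟩; simp [h]
  · intro E' _ q hq x hx
    have := DFunLike.congr_fun (MonoidHom.eq_of_eqOn_dense hX (f := q) (g := q.comp (ρ.comp π))
      fun y hy => by
        have := hq _ ⟨y, hy, rfl⟩
        simpa [inv_mul_eq_one] using this) x
    simpa [hx] using this

section Meinert

open Monoid Monoid.Coprod Multiplicative

variable {A D : Type} [Group A] [Group D] (χ : A →* Multiplicative ℤ) (ω : D →* Multiplicative ℤ)

/-- `a ↦ s ^ (- χ a)`. -/
def negPow (s : D) : A →* D := (zpowersHom D s⁻¹).comp χ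

theorem negPow_apply (s : D) (a : A) : negPow χ s a = s⁻¹ ^ (χ a).toAdd := rfl

theorem chi_negPow {s : D} (hs : ω s = ofAdd 1) (a : A) : ω (negPow χ s a) = (χ a)⁻¹ := by
  rw [negPow_apply, map_zpow, map_inv, hs]
  apply Multiplicative.toAdd.injective
  simp

/-- The map `A ∗ D → A × D`. -/
def mPi (t : A) (s : D) : Coprod A D →* A × D :=
  Coprod.lift ((MonoidHom.id A).prod (negPow χ s)) ((negPow ω t).prod (MonoidHom.id D))

theorem mPi_range {t : A} {s : D} (ht : χ t = ofAdd 1) (hs : ω s = ofAdd 1) :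
    (mPi χ ω t s).range = (χ.coprod ω).ker := by
  apply le_antisymm
  · rintro _ ⟨f, rfl⟩
    induction f using Coprod.induction_on with
    | inl a => simp [mPi, chi_negPow χ ω hs]
    | inr d => simp [mPi, chi_negPow ω χ ht]
    | mul f g ihf ihg => rw [map_mul]; exact mul_mem ihf ihg
  · rintro ⟨a, d⟩ h
    have h1 : ω ((negPow χ s a)⁻¹ * d) = 1 := by
      simpa [chi_negPow χ ω hs] using h
    refine ⟨inl a * inr ((negPow χ s a)⁻¹ * d), ?_⟩
    simp only [mPi, map_mul (Coprod.lift _ _), lift_apply_inl, lift_apply_inr,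
      MonoidHom.prod_apply, MonoidHom.id_apply, negPow_apply ω, h1]
    simp

theorem ker_coprod_fg (hA : Group.IsFinitelyPresented A) (hD : Group.IsFinitelyPresented D)
    {t : A} {s : D} (ht : χ t = ofAdd 1) (hs : ω s = ofAdd 1) : Group.FG (χ.coprod ω).ker := by
  rw [← mPi_range χ ω ht hs]
  haveI := fpres_fg (inferInstance : Group.IsFinitelyPresented (Coprod A D))
  infer_instance

theorem mein_nf {E : Type} [Group E] {t : A} {s : D} (ht : χ t = ofAdd 1) (hs : ω s = ofAdd 1)
    {X : Set A} (hX : Subgroup.closure X = ⊤) {Y : Set ω.ker} (hY : Subgroup.closure Y = ⊤)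
    (q : Coprod A D →* E) (h1 : q (inl t) * q (inr s) = 1)
    (h2 : ∀ x ∈ X, ∀ y ∈ Y, q (inl (x * negPow χ t x)) * q (inr y.1) *
      (q (inl (x * negPow χ t x)))⁻¹ = q (inr y.1)) (f : Coprod A D) :
    ∃ a b, ω b = 1 ∧ q f = q (inl a) * q (inr b) := by
  have h3 : q (inl t) = q (inr s⁻¹) := by rw [map_inv, map_inv]; exact eq_inv_of_mul_eq_one_left h1
  have h4 : ∀ k : ℤ, q (inl (t ^ k)) = q (inr (s⁻¹ ^ k)) := fun k => by
    simp only [map_zpow, h3]
  let K : Subgroup A :=
    { carrier := {a | ∀ b, ω b = 1 → q (inl a) * q (inr b) * (q (inl a))⁻¹ =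
        q (inr (negPow χ s a * b * (negPow χ s a)⁻¹))}
      one_mem' := fun b _ => by simp
      mul_mem' := by
        intro a a' ha ha' b hb
        have := ha (negPow χ s a' * b * (negPow χ s a')⁻¹) (by simp [hb])
        rw [← ha' b hb] at this
        simp only [map_mul, map_inv, mul_inv_rev, mul_assoc] at this ⊢
        exact this
      inv_mem' := by
        intro a ha b hb
        have := ha ((negPow χ s a)⁻¹ * b * negPow χ s a) (by simp [hb])
        simp only [map_mul, map_inv, mul_assoc, mul_inv_cancel_left, mul_inv_cancel, mul_one,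
          inv_inv] at this ⊢
        conv_lhs => rw [← this]
        group }
  have hK : ∀ a, a ∈ K := by
    have htK : t ∈ K := fun b _ => by
      have : negPow χ s t = s⁻¹ := by simp [negPow_apply, ht]
      rw [this, h3]; simp only [map_mul, map_inv]
    rw [← Subgroup.eq_top_iff', eq_top_iff, ← hX, Subgroup.closure_le]
    intro x hx
    have h5 : x * negPow χ t x ∈ K := fun b hb => by
      have h6 : negPow χ s (x * negPow χ t x) = 1 := by
        rw [negPow_apply, map_mul, chi_negPow χ χ ht]; simp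
      rw [h6, one_mul, inv_one, mul_one]
      exact conj_of_gens hY (q.comp (inr.comp ω.ker.subtype)) (q.comp (inr.comp ω.ker.subtype)) _
        (h2 x hx) ⟨b, hb⟩
    have h6 : negPow χ t x ∈ K := zpow_mem (inv_mem htK) _
    simpa using mul_mem h5 (inv_mem h6)
  induction f using Coprod.induction_on with
  | inl a => exact ⟨a, 1, by simp, by simp⟩
  | inr d =>
    refine ⟨negPow ω t d, negPow ω s d * d, by simp [chi_negPow ω ω hs], ?_⟩
    rw [negPow_apply, negPow_apply, inv_zpow', h4, ← map_mul, ← map_mul]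
    simp
  | mul f g ihf ihg =>
    obtain ⟨a, b, h5, h6⟩ := ihf
    obtain ⟨a', b', h7, h8⟩ := ihg
    refine ⟨a * a', negPow χ s a'⁻¹ * b * (negPow χ s a'⁻¹)⁻¹ * b', by simp [h5, h7], ?_⟩
    rw [map_mul, h6, h8, map_mul inr, map_mul q (inr _), ← hK a'⁻¹ b h5]
    simp [mul_assoc]

theorem ker_coprod_fp (hA : Group.IsFinitelyPresented A) (hD : Group.IsFinitelyPresented D)
    {t : A} {s : D} (ht : χ t = ofAdd 1) (hs : ω s = ofAdd 1) (hB : Group.FG ω.ker) :
    Group.IsFinitelyPresented (χ.coprod ω).ker := by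
  rw [← mPi_range χ ω ht hs]
  obtain ⟨X, hX, hXf⟩ := Group.fg_iff.1 (fpres_fg hA)
  obtain ⟨Y, hY, hYf⟩ := Group.fg_iff.1 hB
  have hπ1 : mPi χ ω t s (inl t) * mPi χ ω t s (inr s) = 1 := by
    simp [mPi, negPow_apply, ht, hs]
  have hπ2 : ∀ (x : A) (y : ω.ker), mPi χ ω t s (inl (x * negPow χ t x)) * mPi χ ω t s (inr y.1) *
      (mPi χ ω t s (inl (x * negPow χ t x)))⁻¹ = mPi χ ω t s (inr y.1) := by
    intro x y
    have h6 : negPow χ s (x * negPow χ t x) = 1 := by
      rw [negPow_apply, map_mul, chi_negPow χ χ ht]; simp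
    have h7 : negPow ω t y.1 = 1 := by
      rw [negPow_apply, show ω y.1 = 1 from y.2]; simp
    simp only [mPi, lift_apply_inl, lift_apply_inr, MonoidHom.prod_apply, MonoidHom.id_apply, h6, h7]
    simp
  refine fpres_of_rel inferInstance (mPi χ ω t s).rangeRestrict
    (MonoidHom.rangeRestrict_surjective _)
    (insert (inl t * inr s) ((fun p : A × ω.ker => inl (p.1 * negPow χ t p.1) * inr p.2.1 *
      (inl (p.1 * negPow χ t p.1))⁻¹ * (inr p.2.1)⁻¹) '' (X ×ˢ Y)))
    (((hXf.prod hYf).image _).insert _) ?_ ?_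
  · rintro _ (rfl | ⟨p, -, rfl⟩)
    · exact Subtype.ext (by rw [MonoidHom.coe_rangeRestrict, map_mul, hπ1]; rfl)
    · refine Subtype.ext ?_
      rw [MonoidHom.coe_rangeRestrict, map_mul, map_mul, map_mul, map_inv, map_inv, hπ2]
      simp
  · intro E _ q hq f hf
    have hf' : mPi χ ω t s f = 1 := congrArg Subtype.val hf
    obtain ⟨a, b, h1, h2⟩ := mein_nf χ ω ht hs hX hY (q.prod (mPi χ ω t s))
      (Prod.ext (by simpa using hq _ (Or.inl rfl)) hπ1) (fun x hx y hy => Prod.ext (by
        have := hq _ (Or.inr ⟨(x, y), ⟨hx, hy⟩, rfl⟩)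
        rw [map_mul, map_mul, map_mul, map_inv, map_inv, mul_inv_eq_one] at this
        exact this) (hπ2 x y)) f
    have h3 : q f = q (inl a) * q (inr b) := congrArg Prod.fst h2
    have h4 : mPi χ ω t s f = mPi χ ω t s (inl a) * mPi χ ω t s (inr b) := congrArg Prod.snd h2
    rw [hf'] at h4
    have h5 : a = 1 := by
      have := congrArg Prod.fst h4
      simpa [mPi, negPow_apply, h1] using this.symm
    subst h5
    have h6 : b = 1 := by
      have := congrArg Prod.snd h4
      simpa [mPi] using this.symm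
    subst h6
    simpa using h3

theorem sumChar_surj {ι : Type} [Fintype ι] {A : ι → Type} [∀ i, Group (A i)]
    (χ : ∀ i, A i →* Multiplicative ℤ) (hχ : ∀ i, ∃ a, χ i a = Multiplicative.ofAdd 1)
    (i : ι) : ∃ a, sumChar χ a = Multiplicative.ofAdd 1 := by
  classical
  obtain ⟨a, ha⟩ := hχ i
  refine ⟨Pi.mulSingle i a, ?_⟩
  change ∏ j, χ j (Pi.mulSingle (M := A) i a j) = _
  rw [Finset.prod_eq_single i (fun j _ hj => by simp [Pi.mulSingle_eq_of_ne hj]) (by simp)]
  simpa using ha

theorem sumChar_split {ι : Type} [Fintype ι] {A : ι → Type} [∀ i, Group (A i)]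
    (χ : ∀ i, A i →* Multiplicative ℤ) (p : ι → Prop) [DecidablePred p] :
    Nonempty (((sumChar fun i : {i // p i} => χ i).coprod
      (sumChar fun i : {i // ¬ p i} => χ i)).ker ≃* (sumChar χ).ker) := by
  let e : (∀ i, A i) ≃* (∀ i : {i // p i}, A i) × (∀ i : {i // ¬ p i}, A i) :=
    MulEquiv.mk (Equiv.piEquivPiSubtypeProd p A) fun _ _ => rfl
  refine ⟨(e.symm.subgroupMap _).trans (MulEquiv.subgroupCongr ?_)⟩
  ext a
  refine (Subgroup.mem_map_equiv (f := e.symm)).trans ?_
  rw [MonoidHom.mem_ker, MonoidHom.mem_ker]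
  change (∏ i : {i // p i}, χ i (a i)) * (∏ i : {i // ¬ p i}, χ i (a i)) = 1 ↔
    ∏ i, χ i (a i) = 1
  rw [Fintype.prod_subtype_mul_prod_subtype p fun i => χ i (a i)]

theorem meinert_fg {ι : Type} [Fintype ι] {A : ι → Type} [∀ i, Group (A i)]
    (χ : ∀ i, A i →* Multiplicative ℤ) (hχ : ∀ i, ∃ a, χ i a = Multiplicative.ofAdd 1)
    (hA : ∀ i, Group.IsFinitelyPresented (A i)) (hk : 2 ≤ Fintype.card ι) :
    Group.FG (sumChar χ).ker := by
  classical
  have key : ∀ (p : ι → Prop) [DecidablePred p] (_ : {k // p k}) (_ : {k // ¬ p k}),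
      Group.FG (sumChar χ).ker := by
    intro p _ i j
    obtain ⟨e⟩ := sumChar_split χ p
    obtain ⟨t, ht⟩ := sumChar_surj (fun k : {k // p k} => χ k) (fun k => hχ k) i
    obtain ⟨s, hs⟩ := sumChar_surj (fun k : {k // ¬ p k} => χ k) (fun k => hχ k) j
    exact Group.fg_of_surjective
      (hG := ker_coprod_fg _ _ (fpres_pi fun k => hA _) (fpres_pi fun k => hA _) ht hs)
      (f := e.toMonoidHom) e.surjective
  obtain ⟨i, j, hij⟩ := Fintype.exists_pair_of_one_lt_card hk
  exact key (· = i) ⟨i, rfl⟩ ⟨j, hij.symm⟩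

end Meinert

theorem meinert_fp {ι : Type} [Fintype ι] {A : ι → Type} [∀ i, Group (A i)]
    (χ : ∀ i, A i →* Multiplicative ℤ) (hχ : ∀ i, ∃ a, χ i a = Multiplicative.ofAdd 1)
    (hA : ∀ i, Group.IsFinitelyPresented (A i)) (hk : 3 ≤ Fintype.card ι) :
    Group.IsFinitelyPresented (sumChar χ).ker := by
  classical
  have key : ∀ (p : ι → Prop) [DecidablePred p] (_ : {k // p k}) (_ : {k // ¬ p k}),
      2 ≤ Fintype.card {k // ¬ p k} → Group.IsFinitelyPresented (sumChar χ).ker := by
    intro p _ i j h2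
    obtain ⟨e⟩ := sumChar_split χ p
    obtain ⟨t, ht⟩ := sumChar_surj (fun k : {k // p k} => χ k) (fun k => hχ k) i
    obtain ⟨s, hs⟩ := sumChar_surj (fun k : {k // ¬ p k} => χ k) (fun k => hχ k) j
    exact Group.IsFinitelyPresented.equiv (h := ker_coprod_fp _ _ (fpres_pi fun k => hA _)
      (fpres_pi fun k => hA _) ht hs (meinert_fg _ (fun k => hχ _) (fun k => hA _) h2)) e
  obtain ⟨i, j, hij⟩ := Fintype.exists_pair_of_one_lt_card (α := ι) (by omega)
  exact key (· = i) ⟨i, rfl⟩ ⟨j, hij.symm⟩ (by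
    rw [Fintype.card_subtype_compl, Fintype.card_subtype_eq]; omega)

open Monoid Monoid.Coprod in
theorem hnn_nf {E E' : Type} [Group E] [Group E'] (ψ : E →* E)
    (q : Coprod E (Multiplicative ℤ) →* E') (τ : E') (hτ : q (inr (Multiplicative.ofAdd 1)) = τ)
    (h : ∀ e, τ * q (inl e) * τ⁻¹ = q (inl (ψ e))) (f : Coprod E (Multiplicative ℤ)) :
    ∃ (i j : ℕ) (e : E), q f = (τ ^ i)⁻¹ * q (inl e) * τ ^ j := by
  have h1 : ∀ (i : ℕ) e, τ ^ i * q (inl e) * (τ ^ i)⁻¹ = q (inl (ψ^[i] e)) := by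
    intro i
    induction i with
    | zero => simp
    | succ i ih =>
      intro e
      rw [Function.iterate_succ_apply', ← h, ← ih, pow_succ']
      simp [mul_assoc]
  induction f using Coprod.induction_on with
  | inl e => exact ⟨0, 0, e, by simp⟩
  | inr n =>
    have h2 : q (inr n) = τ ^ n.toAdd := by
      rw [← hτ, ← map_zpow, ← map_zpow, ← ofAdd_zsmul]; simp
    obtain ⟨k, hk | hk⟩ := Int.eq_nat_or_neg n.toAdd
    · exact ⟨0, k, 1, by simp [h2, hk]⟩
    · exact ⟨k, 0, 1, by simp [h2, hk]⟩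
  | mul f g ihf ihg =>
    obtain ⟨i, j, e, h2⟩ := ihf
    obtain ⟨i', j', e', h3⟩ := ihg
    refine ⟨i + i', j + j', ψ^[i'] e * ψ^[j] e', ?_⟩
    rw [map_mul, h2, h3, map_mul, map_mul, ← h1, ← h1]
    group

theorem AscHNN.fpres {Γ : Type} [Group Γ] {A : Subgroup Γ} {t : Γ} {χ : Γ →* Multiplicative ℤ}
    {φ : A →* A} (h : AscHNN A t χ φ) (hfac : FacFP φ) : Group.IsFinitelyPresented Γ := by
  obtain ⟨E, _, hE, α, β, hαβ⟩ := hfac
  obtain ⟨X, hX, hXf⟩ := Group.fg_iff.1 (fpres_fg hE)
  let π : Monoid.Coprod E (Multiplicative ℤ) →* Γ :=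
    Monoid.Coprod.lift (A.subtype.comp β) (zpowersHom Γ t)
  let T : Monoid.Coprod E (Multiplicative ℤ) := Monoid.Coprod.inr (Multiplicative.ofAdd 1)
  have hT : π T = t := by simp [π, T]
  have hπ : ∀ e, π (Monoid.Coprod.inl e) = β e := fun e => by simp [π]
  have hc : ∀ e, t * π (Monoid.Coprod.inl e) * t⁻¹ = π (Monoid.Coprod.inl ((α.comp β) e)) := by
    intro e
    rw [hπ, hπ, h.conj, MonoidHom.comp_apply, hαβ]
  refine fpres_of_rel inferInstance π ?_
    ((fun x => T * Monoid.Coprod.inl x * T⁻¹ * (Monoid.Coprod.inl (α (β x)))⁻¹) '' X)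
    (hXf.image _) ?_ ?_
  · rw [← MonoidHom.range_eq_top, eq_top_iff]
    have ht : t ∈ π.range := ⟨T, hT⟩
    have hA : ∀ a ∈ A, a ∈ π.range := by
      intro a ha
      have h1 : t * a * t⁻¹ ∈ π.range :=
        ⟨Monoid.Coprod.inl (α ⟨a, ha⟩), by rw [hπ, hαβ, ← h.conj]⟩
      simpa [mul_assoc] using mul_mem (mul_mem (inv_mem ht) h1) ht
    intro g _
    obtain ⟨n, hn⟩ := h.ker (g * (t ^ (χ g).toAdd)⁻¹) (by
      rw [map_mul, map_inv, map_zpow, h.chi_t, ← ofAdd_zsmul]; simp)
    simpa [mul_assoc] using mul_mem (mul_mem (mul_mem (inv_mem (pow_mem ht n)) (hA _ hn))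
      (pow_mem ht n)) (zpow_mem ht (χ g).toAdd)
  · rintro _ ⟨x, -, rfl⟩
    rw [map_mul, map_mul, map_mul, map_inv, map_inv, hT, hc]; simp
  · intro E' _ q hq f hf
    have h1 : ∀ e, q T * q (Monoid.Coprod.inl e) * (q T)⁻¹ = q (Monoid.Coprod.inl ((α.comp β) e)) :=
      conj_of_gens hX (q.comp Monoid.Coprod.inl) ((q.comp Monoid.Coprod.inl).comp (α.comp β)) _
        fun x hx => by
          have := hq _ ⟨x, hx, rfl⟩
          simpa [mul_inv_eq_one] using this
    obtain ⟨i, j, e, h2⟩ := hnn_nf (α.comp β) (q.prod π) (q T, t) (Prod.ext rfl hT)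
      (fun e => Prod.ext (h1 e) (hc e)) f
    have h3 : q f = (q T ^ i)⁻¹ * q (Monoid.Coprod.inl e) * q T ^ j := congrArg Prod.fst h2
    have h4 : π f = (t ^ i)⁻¹ * π (Monoid.Coprod.inl e) * t ^ j := congrArg Prod.snd h2
    rw [hf, hπ] at h4
    have h5 : i = j := by
      have := congrArg (fun g => (χ g).toAdd) h4
      simp [h.chi_t, h.chi_A _ (β e).2] at this
      omega
    subst h5
    have h6 : β e = 1 := by
      apply Subtype.ext
      have : (β e : Γ) = t ^ i * ((t ^ i)⁻¹ * β e * t ^ i) * (t ^ i)⁻¹ := by group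
      rw [this, ← h4]; simp
    have h7 := h1 e
    rw [MonoidHom.comp_apply, h6, map_one, map_one, map_one, mul_inv_eq_one, mul_eq_left] at h7
    rw [h3, h7]; simp

end Crest.Agent.R185
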