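import Crest.Agent.R185.Obj

/-!
# Row 185: composition of layers and the fixed point theorem (task R185-Fix)

PLAN.  `comp`: `a (e,T) (i,g) = a₂ (e, T') (i,g)` with `T'` = filter of `a₁ (e,T)` over `Bool × ball (r₂ (norm g))` (`computable_filter`, `primrec_ball`);
apply the hypotheses at `n' = norm g ≤ n` (monotonicity of `r₁,r₂`, `Reg`, `Correct`, `C`).
`homog`: patch the algorithm to answer `true` on `g = 1`; `Reg _ 0` is trivial.
`fix`: `T e 0 = [(false,1),(true,1)]`, `T e (n+1)` = filter of `a (e, T e n)` over `Bool × ball (n+1)` (`Computable.nat_rec`).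
`f c x` halts iff `decode x = some w` and `(false, mk w) ∈ T (encode c) (norm (mk w))`; `Nat.Partrec.Code.fixed_point₂` gives `c`, `e = encode c`, so
`g ∈ relSet (univU Y) e ↔ (false,g) ∈ T e (norm g)`.  `O 0` arbitrary, `O (k+1) = L e (O k)`.  Strong induction: for all `k ≥ n`, `Reg (O k) n` and
`Correct (T e n) (O k) n`.  `O∞.H i = {g | ∀ᶠ k, g ∈ (O k).H i}`; `T e n` is correct for `O∞`, `O∞` is regular and sound at all scales, and `L e O∞`
has the same tables.
-/

set_option autoImplicit false

namespace Crest.Agent.R185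

variable {X Y Z : Type} [DecidableEq X] [Primcodable X] [DecidableEq Y] [Primcodable Y]
  [DecidableEq Z] [Primcodable Z]

theorem univU_re (Y : Type) [Primcodable Y] : REPred (univU Y) :=
  (Nat.Partrec.Code.eval_part.comp ((Computable.ofNat Nat.Partrec.Code).comp Computable.fst)
    (Computable.encode.comp Computable.snd)).dom_re

/-- All pairs `(i, g)` with `g` of norm `≤ n`. -/
noncomputable def fixPts (Y : Type) [Fintype Y] (n : ℕ) : Table Y :=
  (ball Y n).map (Prod.mk false) ++ (ball Y n).map (Prod.mk true)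

omit [Primcodable Y] in
theorem mem_fixPts [Fintype Y] {n : ℕ} {i : Bool} {g : FreeGroup Y} :
    (i, g) ∈ fixPts Y n ↔ g.norm ≤ n := by
  cases i <;> simp [fixPts, mem_ball]

theorem primrec_fixPts [Fintype Y] : Primrec (fixPts Y) :=
  Primrec.list_append.comp
    (Primrec.list_map primrec_ball (Primrec.pair (Primrec.const false) Primrec.snd).to₂)
    (Primrec.list_map primrec_ball (Primrec.pair (Primrec.const true) Primrec.snd).to₂)

omit [Primcodable X] in
theorem Correct.mono {T : Table X} {O : Obj X} {m n : ℕ} (h : Correct T O n) (hmn : m ≤ n) :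
    Correct T O m := fun i g hg => h i g (hg.trans hmn)

omit [Primcodable Y] in
theorem correct_filter [Fintype Y] {p : Bool × FreeGroup Y → Bool} {O : Obj Y} {n : ℕ}
    (h : ∀ i g, g.norm ≤ n → (p (i, g) = true ↔ g ∈ O.H i)) :
    Correct ((fixPts Y n).filter p) O n := fun i g hg => by
  rw [List.mem_filter, mem_fixPts, ← h i g hg]
  exact ⟨fun h => h.2, fun h => ⟨hg, h⟩⟩

theorem LayerOK.comp [Fintype Y] {L₁ : ℕ → Obj X → Obj Y} {L₂ : ℕ → Obj Y → Obj Z}
    {r₁ r₂ : ℕ → ℕ} {C : ℕ → Obj X → ℕ → Prop} (h₁ : LayerOK L₁ r₁ C) (h₂ : LayerOK L₂ r₂ NoC)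
    (m₁ : Monotone r₁) (m₂ : Monotone r₂) (c₂ : Computable r₂)
    (hC : ∀ e O m n, m ≤ n → C e O n → C e O m) :
    LayerOK (fun e O => L₂ e (L₁ e O)) (fun n => r₁ (r₂ n)) C := by
  refine ⟨fun e O n h1 h2 => h₂.reg e _ n (h₁.reg e O _ h1 h2) trivial, ?_⟩
  obtain ⟨a₁, ca₁, ha₁⟩ := h₁.alg
  obtain ⟨a₂, ca₂, ha₂⟩ := h₂.alg
  refine ⟨fun p q => a₂ (p.1, (fixPts Y (r₂ q.2.norm)).filter (a₁ p)) q, ?_, ?_⟩
  · have h1 : Computable fun x : (ℕ × Table X) × (Bool × FreeGroup Z) =>
        (fixPts Y (r₂ x.2.2.norm)).filter (a₁ x.1) :=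
      computable_filter (primrec_fixPts.to_comp.comp (c₂.comp
        (primrec_norm.to_comp.comp (Computable.snd.comp Computable.snd))))
        (ca₁.comp (Computable.fst.comp Computable.fst) Computable.snd).to₂
    exact ca₂.comp ((Computable.fst.comp Computable.fst).pair h1) Computable.snd
  · intro e O n T h1 h2 h3 i g hg
    have hle : r₁ (r₂ g.norm) ≤ r₁ (r₂ n) := m₁ (m₂ hg)
    have h1' := h1.mono hle
    have h2' := hC e O _ _ hle h2
    exact ha₂ e (L₁ e O) g.norm _ (h₁.reg e O _ h1' h2') trivial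
      (correct_filter (ha₁ e O _ T h1' h2' (h3.mono hle))) i g le_rfl

theorem LayerOK.homog {L : ℕ → Obj X → Obj Y} {r r' : ℕ → ℕ} {C : ℕ → Obj X → ℕ → Prop}
    (h : LayerOK L r C) (hr : ∀ n, 1 ≤ n → r n ≤ r' n) (hm : Monotone r')
    (hC : ∀ e O m n, m ≤ n → C e O n → C e O m) : LayerOK L r' C := by
  refine ⟨fun e O n h1 h2 => ?_, ?_⟩
  · rcases Nat.eq_zero_or_pos n with rfl | hn
    · exact Reg.zero _
    · exact h.reg e O n (h1.mono (hr n hn)) (hC e O _ _ (hr n hn) h2)
  · obtain ⟨a, ca, ha⟩ := h.alg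
    refine ⟨fun p q => cond (decide (q.2.norm = 0)) true (a p q), ?_, ?_⟩
    · have h1 : Primrec fun x : (ℕ × Table X) × (Bool × FreeGroup Y) => decide (x.2.2.norm = 0) :=
        (Primrec.eq.comp (primrec_norm.comp (Primrec.snd.comp Primrec.snd))
          (Primrec.const 0)).decide
      exact Computable.cond h1.to_comp (Computable.const true) ca
    · intro e O n T h1 h2 h3 i g hg
      by_cases h0 : g.norm = 0
      · obtain rfl : g = 1 := by simpa using h0
        simp
      · have hn : 1 ≤ n := (Nat.pos_of_ne_zero h0).trans_le hg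
        simp only [h0, decide_false, cond_false]
        exact ha e O n T (h1.mono (hr n hn)) (hC e O _ _ (hr n hn) h2) (h3.mono (hr n hn)) i g hg

theorem fix [Fintype Y] {L : ℕ → Obj Y → Obj Y} {r : ℕ → ℕ}
    (h : LayerOK L r fun e O n => Sound (relSet (univU Y) e) O n) (hr : ∀ n, r (n + 1) ≤ n) :
    ∃ e O, O.IsTrue ∧ L e O = O ∧ relSet (univU Y) e = (O.H false : Set (FreeGroup Y)) := by
  obtain ⟨a, ca, ha⟩ := h.alg
  let T : ℕ → ℕ → Table Y := fun e n =>
    Nat.rec (motive := fun _ => Table Y) (fixPts Y 0)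
      (fun m S => (fixPts Y (m + 1)).filter (a (e, S))) n
  have hT0 : ∀ e, T e 0 = fixPts Y 0 := fun e => rfl
  have hTs : ∀ e n, T e (n + 1) = (fixPts Y (n + 1)).filter (a (e, T e n)) := fun e n => rfl
  have cT : Computable₂ T := by
    have h1 : Computable₂ fun (x : ℕ × ℕ) (p : ℕ × Table Y) =>
        (fixPts Y (p.1 + 1)).filter (a (x.1, p.2)) :=
      computable_filter (α := (ℕ × ℕ) × (ℕ × Table Y))
        (primrec_fixPts.to_comp.comp (Computable.succ.comp (Computable.fst.comp Computable.snd)))
        (ca.comp ((Computable.fst.comp (Computable.fst.comp Computable.fst)).pair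
          (Computable.snd.comp (Computable.snd.comp Computable.fst))) Computable.snd).to₂
    exact Computable.nat_rec Computable.snd (Computable.const (fixPts Y 0)) h1
  let b : ℕ → Word Y → Bool := fun e w =>
    decide (0 < ((T e (FreeGroup.mk w).norm).filter
      fun q => decide (q = (false, FreeGroup.mk w))).length)
  have hb : ∀ e w, b e w = true ↔ (false, FreeGroup.mk w) ∈ T e (FreeGroup.mk w).norm := by
    intro e w
    simp [b, List.length_pos_iff_exists_mem]
  have cb : Computable₂ b := by
    have h1 : Computable fun x : ℕ × Word Y => (T x.1 (FreeGroup.mk x.2).norm).filter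
        fun q => decide (q = (false, FreeGroup.mk x.2)) :=
      computable_filter (cT.comp Computable.fst
        ((primrec_norm.comp (primrec_mk.comp Primrec.snd)).to_comp))
        (Primrec.eq.comp Primrec.snd (Primrec.pair (Primrec.const false)
          (primrec_mk.comp (Primrec.snd.comp Primrec.fst)))).decide.to_comp.to₂
    have h2 : Primrec fun n : ℕ => decide (0 < n) :=
      (Primrec.nat_lt.comp (Primrec.const 0) Primrec.id).decide
    exact h2.to_comp.comp (Computable.list_length.comp h1)
  let b' : Nat.Partrec.Code → ℕ → Bool := fun c x =>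
    b (Encodable.encode c) ((Encodable.decode (α := Word Y) x).getD [])
  have cb' : Computable₂ b' :=
    cb.comp (Computable.encode.comp Computable.fst)
      (Computable.option_getD (Computable.decode.comp Computable.snd) (Computable.const []))
  have pf : Partrec₂ fun (c : Nat.Partrec.Code) (x : ℕ) =>
      Nat.rfind fun _ => (Part.some (b' c x) : Part Bool) :=
    Partrec.rfind (α := Nat.Partrec.Code × ℕ) (p := fun p _ => Part.some (b' p.1 p.2))
      (cb'.comp (Computable.fst.comp Computable.fst) (Computable.snd.comp Computable.fst)).partrec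
  obtain ⟨c, hc⟩ := Nat.Partrec.Code.fixed_point₂ pf
  set e := Encodable.encode c with he
  have hW : ∀ g, g ∈ relSet (univU Y) e ↔ (false, g) ∈ T e g.norm := by
    have h1 : ∀ w, univU Y (e, w) ↔ b e w = true := by
      intro w
      simp only [univU, he, Denumerable.ofNat_encode, hc, Nat.rfind_dom]
      simp [b']
    intro g
    constructor
    · rintro ⟨w, hw, rfl⟩
      exact (hb e w).1 ((h1 w).1 hw)
    · intro hg
      refine ⟨g.toWord, (h1 _).2 ((hb e _).2 ?_), FreeGroup.mk_toWord.symm⟩
      rwa [FreeGroup.mk_toWord]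
  have hzero : ∀ O : Obj Y, Reg O 0 ∧ Correct (T e 0) O 0 := fun O =>
    ⟨Reg.zero O, fun i g hg => by
      obtain rfl : g = 1 := by simpa using hg
      rw [hT0, mem_fixPts]; simp⟩
  have hstep : ∀ (O : Obj Y) (n : ℕ), (∀ m ≤ n, Reg O m ∧ Correct (T e m) O m) →
      Reg (L e O) (n + 1) ∧ Correct (T e (n + 1)) (L e O) (n + 1) := by
    intro O n hO
    have h1 : Reg O (r (n + 1)) := (hO n le_rfl).1.mono (hr n)
    have h2 : Sound (relSet (univU Y) e) O (r (n + 1)) := fun g hg hgn =>
      ((hO g.norm (hgn.trans (hr n))).2 false g le_rfl).1 ((hW g).1 hg)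
    refine ⟨h.reg e O _ h1 h2, ?_⟩
    rw [hTs]
    exact correct_filter (ha e O _ _ h1 h2 ((hO n le_rfl).2.mono (hr n)))
  let O : ℕ → Obj Y := fun k => (L e)^[k] ⟨fun _ => ⊤⟩
  have hO : ∀ k n, n ≤ k → Reg (O k) n ∧ Correct (T e n) (O k) n := by
    intro k
    induction k with
    | zero => intro n hn; obtain rfl : n = 0 := by omega
              exact hzero _
    | succ k ih =>
      intro n hn
      cases n with
      | zero => exact hzero _
      | succ n =>
        have : O (k + 1) = L e (O k) := Function.iterate_succ_apply' _ _ _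
        rw [this]
        exact hstep _ n fun m hm => ih m (by omega)
  let Oi : Obj Y := ⟨fun i =>
    { carrier := {g | ∀ᶠ k in Filter.atTop, g ∈ (O k).H i}
      one_mem' := Filter.Eventually.of_forall fun k => one_mem _
      mul_mem' := fun h1 h2 => (Filter.Eventually.and h1 h2).mono fun k hk => mul_mem hk.1 hk.2
      inv_mem' := fun h1 => Filter.Eventually.mono h1 fun k hk => inv_mem hk }⟩
  have hOi : ∀ i g, g ∈ Oi.H i ↔ ∀ᶠ k in Filter.atTop, g ∈ (O k).H i := fun i g => Iff.rfl
  have hall : ∀ n, Reg Oi n ∧ Correct (T e n) Oi n := by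
    intro n
    constructor
    · intro w hw h1 i u h2
      rw [hOi] at hw ⊢
      filter_upwards [hw, Filter.eventually_ge_atTop n] with k hk hk'
      exact (hO k n hk').1 w hk h1 i u h2
    · intro i g hg
      rw [hOi]
      constructor
      · intro h1
        filter_upwards [Filter.eventually_ge_atTop n] with k hk'
        exact ((hO k n hk').2 i g hg).1 h1
      · intro h1
        obtain ⟨k, hk, hk'⟩ := (h1.and (Filter.eventually_ge_atTop n)).exists
        exact ((hO k n hk').2 i g hg).2 hk
  refine ⟨e, Oi, isTrue_iff_reg.2 fun n => (hall n).1, ?_, ?_⟩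
  · ext i g
    rw [← (hall (g.norm + 1)).2 i g (Nat.le_succ _),
      ← (hstep Oi g.norm fun m _ => hall m).2 i g (Nat.le_succ _)]
  · ext g
    rw [hW]
    exact (hall g.norm).2 false g le_rfl

end Crest.Agent.R185
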