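import Crest.Agent.R185.GM_C

/-!
# Row 185: every c.e. set is generated by a machine (task R185-GM; split it if you like)

PLAN.  Three phases.  GUESS (state `q0`, `post = false`): for each letter `(y,ε)` an instruction with `lab = of y^ε`, `δ = 1`, pushing a nonzero
digit for the letter on a register `code` (`z ↦ digit + B z`) and the digit `1` on a register `stk` (`z ↦ 1 + 2 z`); after guessing
`l₁,…,l_n` the output is `mk [l_n,…,l₁]`, `τ = n`.  VERIFY (`lab = 1`, `δ = 0`, `post = false`): a machine that can reach its accepting state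
from registers `(e, code w)` iff `U (e, w)`.  DRAIN (`post = true`, state `qf`): pop `stk` (`1 + 2 z ↦ z`, impossible at `0`), `δ = -1`.
It is convenient to use arbitrary finite types for states/registers/instructions first and transport to `Fin` at the end.
VERIFY, option A (counter programs): nondeterministic programs `inc r | dec r | zero r | seq | alt | star` (and if useful the one–step
affine instructions, which give stacks: push/pop digits, multiplication/division by constants) with relational semantics on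
`registers → ℤ`; compile to instructions by structural recursion on state types (`entry/exit` states); show that graphs of `Nat.Partrec`
functions are realised (closure under pair/comp/prec/rfind, fresh scratch registers returned to zero; or use `Nat.Partrec'`/`Nat.Primrec'` on vectors).
Option B: Mathlib's `Turing.ToPartrec.Code.exists_code`, `PartrecToTM2.tr_eval`, `TM2to1.tr_eval`, `TM1to0.tr_eval` + `tr_supports`, and simulate a `TM0` machine by two
stack registers (base `B`, blank `= 0`) with the head symbol in the state; or simulate the `ToPartrec.Cont` machine / `TM2` directly (stacks = registers).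
`U (e,w) ↔ (f (pair e (code w))).Dom` for a partial recursive `f` since `code` has a computable left inverse (or `rfind` over encodings of words).
-/

set_option autoImplicit false

namespace Crest.Agent.R185

namespace GMA

open Relation

section Verify

@[simp] theorem emb_0 (c k : ℤ) (L : St) : emb c k L 0 = c := rfl
@[simp] theorem emb_1 (c k : ℤ) (L : St) : emb c k L 1 = k := rfl
@[simp] theorem emb_2 (c k : ℤ) (L : St) : emb c k L 2 = encN (L 0) := rfl
@[simp] theorem emb_3 (c k : ℤ) (L : St) : emb c k L 3 = encN (L 1) := rfl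
@[simp] theorem emb_4 (c k : ℤ) (L : St) : emb c k L 4 = encN (L 2) := rfl
@[simp] theorem emb_5 (c k : ℤ) (L : St) : emb c k L 5 = encN (L 3) := rfl

theorem ext6 {x y : Fin 6 → ℤ} : x = y ↔
    x 0 = y 0 ∧ x 1 = y 1 ∧ x 2 = y 2 ∧ x 3 = y 3 ∧ x 4 = y 4 ∧ x 5 = y 5 := by
  constructor
  · rintro rfl; simp
  · rintro ⟨h0, h1, h2, h3, h4, h5⟩
    funext j
    fin_cases j
    exacts [h0, h1, h2, h3, h4, h5]

def decPush : Ins 6 :=
  ⟨![1, 0, 0, 0, 0, 0], ![0, 0, 1, 0, 0, 0], ![1, 1, 1, 1, 1, 1], ![1, 1, 4, 1, 1, 1], by decide⟩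

def test0 : Ins 6 :=
  ⟨![0, 0, 0, 0, 0, 0], ![0, 0, 0, 0, 0, 0], ![0, 1, 1, 1, 1, 1], ![0, 1, 1, 1, 1, 1], by decide⟩

def drain : Ins 6 :=
  ⟨![0, 1, 0, 0, 0, 0], ![0, 0, 0, 0, 0, 0], ![1, 2, 1, 1, 1, 1], ![1, 1, 1, 1, 1, 1], by decide⟩

def guess (d B : ℕ) : Ins 6 :=
  ⟨![0, 0, 0, 0, 0, 0], ![d, 1, 0, 0, 0, 0], ![1, 1, 1, 1, 1, 1], ![B + 1, 2, 1, 1, 1, 1], by
    intro r; fin_cases r <;> simp⟩

theorem test0_rel {x y : Fin 6 → ℤ} : test0.Rel x y ↔ x 0 = 0 ∧ y = x := by
  constructor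
  · rintro ⟨z, rfl, rfl⟩
    simp [test0, ext6]
  · rintro ⟨h, rfl⟩
    exact ⟨y, by simp [test0, ext6, h], by simp [test0, ext6, h]⟩

theorem guess_rel {d B : ℕ} {c k : ℤ} {L : St} {y : Fin 6 → ℤ} :
    (guess d B).Rel (emb c k L) y ↔ y = emb (d + (B + 1) * c) (1 + 2 * k) L := by
  constructor
  · rintro ⟨z, h, rfl⟩
    simp only [guess, ext6] at h ⊢
    simp at h ⊢
    obtain ⟨h0, h1, h2, h3, h4, h5⟩ := h
    simp [h0, h1, h2, h3, h4, h5]
  · rintro rfl
    exact ⟨emb c k L, by simp [guess, ext6], by simp [guess, ext6]⟩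

theorem drain_rel {x y : Fin 6 → ℤ} (h : drain.Rel x y) : x 1 = 1 + 2 * y 1 := by
  obtain ⟨z, rfl, rfl⟩ := h
  simp [drain]

theorem drain_rel' (c k : ℤ) (L : St) : drain.Rel (emb c (1 + 2 * k) L) (emb c k L) :=
  ⟨emb c k L, by simp [drain, ext6], by simp [drain, ext6]⟩

theorem sim_decPush (k : ℤ) (e : ℕ) :
    Sim (fun p : ℤ × ℕ => emb p.1 k (stE [] [p.2, e])) decPush.Rel
      fun p p' => p' = (p.1 - 1, p.2 + 1) := by
  intro p y
  simp only [exists_eq_left]
  constructor
  · rintro ⟨z, h, rfl⟩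
    simp only [decPush, ext6] at h ⊢
    simp [stE] at h ⊢
    obtain ⟨h0, h1, h2, h3, h4, h5⟩ := h
    simp [h0, h1, ← h2, ← h3, ← h4, ← h5, enc, List.replicate_succ, encN, G.dig]
  · rintro rfl
    refine ⟨emb (p.1 - 1) k (stE [] [p.2, e]), by simp [decPush, ext6], ?_⟩
    simp [decPush, ext6, stE, enc, List.replicate_succ, encN, G.dig]

theorem rtg_dec (p p' : ℤ × ℕ) :
    ReflTransGen (fun p p' : ℤ × ℕ => p' = (p.1 - 1, p.2 + 1)) p p' ↔
      ∃ i : ℕ, p' = (p.1 - i, p.2 + i) := by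
  constructor
  · intro h
    induction h with
    | refl => exact ⟨0, by simp⟩
    | tail _ h ih =>
      obtain ⟨i, rfl⟩ := ih
      exact ⟨i + 1, by rw [h]; ext <;> simp <;> ring⟩
  · rintro ⟨i, rfl⟩
    induction i with
    | zero => simp; exact ReflTransGen.refl
    | succ i ih => exact ih.tail (by ext <;> simp <;> ring)

theorem exists_verify (c : Turing.ToPartrec.Code) : ∃ P : Prog 6, ∀ (N e : ℕ) (k : ℤ) y,
    P.Rel (emb N k (stE [] [e])) y ↔ ∃ v ∈ c.eval [N, e], y = emb 0 k (stE [] v) := by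
  obtain ⟨R, ⟨p, hp⟩, hR⟩ := real_code c
  obtain ⟨p1, hp1⟩ := real_push 0 G.Z
  refine ⟨.seq p1 (.seq (.star (.op decPush)) (.seq (.op test0) p)), fun N e k y => ?_⟩
  have h1 : Function.update (stE [] [e]) 0 (G.Z :: stE [] [e] 0) = stE [] [0, e] :=
    st_ext (by simp [stE, enc]) (by simp [stE]) (by simp [stE]) (by simp [stE])
  have h2 := (sim_decPush k e).star (N, 0)
  constructor
  · rintro ⟨x1, hx1, x2, hx2, x3, hx3, hx4⟩
    obtain ⟨L, hL, rfl⟩ := (hp1 _ _ _ _).1 hx1
    rw [Push, h1] at hL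
    subst hL
    obtain ⟨q, hq, rfl⟩ := (h2 x2).1 hx2
    obtain ⟨i, rfl⟩ := (rtg_dec _ _).1 hq
    obtain ⟨h3, rfl⟩ := test0_rel.1 hx3
    obtain rfl : N = i := by simp at h3; omega
    simp only [sub_self, zero_add] at hx4
    obtain ⟨L, hL, rfl⟩ := (hp _ _ _ _).1 hx4
    obtain ⟨v, hv, rfl⟩ := (hR [] _ _).1 hL
    exact ⟨v, hv, rfl⟩
  · rintro ⟨v, hv, rfl⟩
    refine ⟨_, (hp1 _ _ _ _).2 ⟨_, h1.symm, rfl⟩, emb 0 k (stE [] [N, e]),
      (h2 _).2 ⟨(0, N), (rtg_dec _ _).2 ⟨N, by simp⟩, rfl⟩, _, test0_rel.2 ⟨rfl, rfl⟩, ?_⟩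
    exact (hp _ _ _ _).2 ⟨_, (hR [] _ _).2 ⟨v, hv, rfl⟩, rfl⟩

end Verify

section Code

variable {A : Type} [Primcodable A]

/-- Base `B + 1` code of a word. -/
def code (B : ℕ) : List A → ℕ
  | [] => 0
  | a :: w => (Encodable.encode a + 1) + (B + 1) * code B w

theorem code_inj {B : ℕ} (hB : ∀ a : A, Encodable.encode a + 1 ≤ B) :
    ∀ w w' : List A, code B w = code B w' → w = w' := by
  intro w
  induction w with
  | nil =>
    intro w' h
    rcases w' with _ | ⟨a, w'⟩
    · rfl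
    · simp [code] at h; omega
  | cons a w ih =>
    intro w' h
    rcases w' with _ | ⟨a', w'⟩
    · simp [code] at h
    · simp only [code] at h
      have h1 := congrArg (· % (B + 1)) h
      simp only [Nat.add_mul_mod_self_left] at h1
      rw [Nat.mod_eq_of_lt (Nat.lt_succ_of_le (hB a)),
        Nat.mod_eq_of_lt (Nat.lt_succ_of_le (hB a'))] at h1
      obtain rfl : a = a' := Encodable.encode_injective (by omega)
      rw [ih w' (Nat.eq_of_mul_eq_mul_left (Nat.succ_pos B) (Nat.add_left_cancel h))]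

theorem primrec_code (B : ℕ) : Primrec (code B : List A → ℕ) := by
  have h : Primrec₂ fun (_ : List A) (p : A × ℕ) => (Encodable.encode p.1 + 1) + (B + 1) * p.2 :=
    Primrec.nat_add.comp (Primrec.succ.comp (Primrec.encode.comp (Primrec.fst.comp Primrec.snd)))
      (Primrec.nat_mul.comp (Primrec.const _) (Primrec.snd.comp Primrec.snd))
  refine (Primrec.list_foldr Primrec.id (Primrec.const 0) h).of_eq fun l => ?_
  induction l with
  | nil => rfl
  | cons a l ih => simp only [id, List.foldr_cons, code] at ih ⊢; rw [ih]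

theorem exists_code_dom {B : ℕ} (hB : ∀ a : A, Encodable.encode a + 1 ≤ B)
    (U : ℕ × List A → Prop) (hU : REPred U) : ∃ c : Turing.ToPartrec.Code,
      ∀ e w, (∃ v, v ∈ c.eval [code B w, e]) ↔ U (e, w) := by
  let F : ℕ × ℕ → ℕ → Option (List A) := fun p n =>
    (Encodable.decode n : Option (List A)).bind fun w => if code B w = p.1 then some w else none
  have hF : Computable₂ F := by
    refine Primrec₂.to_comp (Primrec.option_bind (Primrec.decode.comp Primrec.snd) ?_)
    exact Primrec.ite (Primrec.eq.comp ((primrec_code B).comp Primrec.snd)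
      (Primrec.fst.comp (Primrec.fst.comp Primrec.fst))) (Primrec.option_some.comp Primrec.snd)
      (Primrec.const none)
  let f : ℕ → ℕ →. ℕ := fun N e => ((Nat.rfindOpt (F (N, e))).bind fun w =>
    Part.assert (U (e, w)) fun _ => Part.some ()).map fun _ => 0
  have hf : Partrec₂ f := by
    refine Partrec.map (Partrec.bind (Partrec.rfindOpt hF) ?_) (Computable.const 0).to₂
    exact (Partrec.comp hU ((Computable.snd.comp Computable.fst).pair Computable.snd)).to₂
  obtain ⟨c, hc⟩ := Turing.ToPartrec.Code.exists_code (Nat.Partrec'.part_iff₂.2 hf)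
  refine ⟨c, fun e w => ?_⟩
  have h1 := hc ⟨[code B w, e], rfl⟩
  have h2 : c.eval [code B w, e] = pure <$> f (code B w) e := h1
  rw [h2]
  simp only [Part.map_eq_map, Part.mem_map_iff, f, Part.mem_bind_iff, Part.mem_assert_iff]
  have h3 : ∀ w', w' ∈ Nat.rfindOpt (F (code B w, e)) → w' = w := by
    intro w' h
    obtain ⟨n, hn⟩ := Nat.rfindOpt_spec h
    simp only [F, Option.mem_def, Option.bind_eq_some_iff, Option.ite_none_right_eq_some,
      Option.some.injEq] at hn
    obtain ⟨w'', -, h4, rfl⟩ := hn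
    exact code_inj hB _ _ h4
  constructor
  · rintro ⟨v, a, ⟨u, ⟨w', h4, h5, -⟩, -⟩, -⟩
    rwa [h3 w' h4] at h5
  · intro h
    have h4 : (Nat.rfindOpt (F (code B w, e))).Dom :=
      Nat.rfindOpt_dom.2 ⟨Encodable.encode w, w, by simp [F]⟩
    have h5 := Part.get_mem h4
    rw [h3 _ h5] at h5
    exact ⟨_, 0, ⟨(), ⟨w, h5, h, Part.mem_some _⟩, rfl⟩, rfl⟩

end Code

/-- The unary stack counter. -/
def gk : ℕ → ℤ
  | 0 => 0
  | n + 1 => 1 + 2 * gk n

theorem primrec_natCast : Primrec (fun n : ℕ => (n : ℤ)) := by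
  rw [← Primrec.encode_iff]
  exact (Primrec.nat_mul.comp (Primrec.const 2) Primrec.id).of_eq fun n => rfl

theorem primrec_ini : Primrec fun e : ℕ => emb 0 0 (stE [] [e]) := by
  have h : Primrec fun e : ℕ => encN (enc [e]) := by
    have h1 : Primrec₂ fun (_ : ℕ) (p : ℕ × ℕ) => 1 + 4 * p.2 :=
      Primrec.nat_add.comp (Primrec.const 1)
        (Primrec.nat_mul.comp (Primrec.const 4) (Primrec.snd.comp Primrec.snd))
    refine (Primrec.nat_rec' Primrec.id (Primrec.const 2) h1).of_eq fun n => ?_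
    induction n with
    | zero => rfl
    | succ n ih =>
      simp only [id] at ih ⊢
      rw [ih]; simp [enc, List.replicate_succ, encN, G.dig]
  rw [Primrec.fin_curry]
  refine Primrec₂.swap (f := fun (i : Fin 6) (e : ℕ) => emb 0 0 (stE [] [e]) i)
    (Primrec.fin_curry₁.2 fun i => ?_)
  fin_cases i
  · exact Primrec.const (0 : ℤ)
  · exact Primrec.const (0 : ℤ)
  · exact primrec_natCast.comp h
  · exact Primrec.const (0 : ℤ)
  · exact Primrec.const (0 : ℤ)
  · exact Primrec.const (0 : ℤ)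

section Machine

variable {Y : Type} [Primcodable Y] (P : Prog 6) (B : ℕ)

abbrev QT : Type := Option (Option (allStates P))
abbrev JT (Y : Type) : Type := (Y × Bool) ⊕ Unit ⊕ (allStates P × Bool) ⊕ Unit ⊕ Unit

def mach : PM Y (QT P) (JT P Y) 6 where
  q0 := none
  qf := some none
  post
    | some none => true
    | _ => false
  src
    | .inl _ => none
    | .inr (.inl _) => none
    | .inr (.inr (.inl s)) => some (some s.1)
    | .inr (.inr (.inr (.inl _))) => some (some ⟨[], Or.inl rfl⟩)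
    | .inr (.inr (.inr (.inr _))) => some none
  tgt
    | .inl _ => none
    | .inr (.inl _) => some (some ⟨[P], Or.inr (self_mem_states _ _)⟩)
    | .inr (.inr (.inl s)) => some (some ⟨next s.1.1 s.2, allStates_closed P s.1.2 s.2⟩)
    | .inr (.inr (.inr (.inl _))) => some none
    | .inr (.inr (.inr (.inr _))) => some none
  ins
    | .inl l => guess (Encodable.encode l + 1) B
    | .inr (.inl _) => Ins.id 6
    | .inr (.inr (.inl s)) => ins s.1.1
    | .inr (.inr (.inr (.inl _))) => Ins.id 6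
    | .inr (.inr (.inr (.inr _))) => drain
  lab
    | .inl l => FreeGroup.mk [l]
    | .inr _ => 1
  δ
    | .inl _ => 1
    | .inr (.inr (.inr (.inr _))) => -1
    | _ => 0
  ini e := emb 0 0 (stE [] [e])

def X0 (e : ℕ) (w : Word Y) : Fin 6 → ℤ := emb (code B w : ℕ) (gk w.length) (stE [] [e])

def Inv (U : ℕ × Word Y → Prop) (e : ℕ) : QT P × (Fin 6 → ℤ) × FreeGroup Y × ℤ → Prop
  | (none, x, κ, τ) => ∃ w, κ = FreeGroup.mk w ∧ τ = w.length ∧ x = X0 B e w
  | (some (some s), x, κ, τ) => ∃ w, κ = FreeGroup.mk w ∧ τ = w.length ∧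
      ∀ y, RelL s.1 x y → P.Rel (X0 B e w) y
  | (some none, x, κ, τ) => ∃ w, κ = FreeGroup.mk w ∧ U (e, w) ∧ ∃ n : ℕ, τ = n ∧ x 1 = gk n

theorem guess_X0 (e : ℕ) (l : Y × Bool) (w : Word Y) (y : Fin 6 → ℤ) :
    (guess (Encodable.encode l + 1) B).Rel (X0 B e w) y ↔ y = X0 B e (l :: w) := by
  rw [X0, guess_rel, X0]
  simp [code, gk]

variable {P B}

theorem inv_step {U : ℕ × Word Y → Prop} {e : ℕ}
    (hP : ∀ w y, P.Rel (X0 B e w) y → U (e, w) ∧ y 1 = gk w.length)
    {c c' : QT P × (Fin 6 → ℤ) × FreeGroup Y × ℤ} (h : Inv P B U e c)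
    (hs : (mach P B).Step c c') : Inv P B U e c' := by
  obtain ⟨q, x, κ, τ⟩ := c
  obtain ⟨q', x', κ', τ'⟩ := c'
  obtain ⟨j, h1, h2, h3, h4, h5⟩ := hs
  dsimp only at h1 h2 h3 h4 h5
  subst h1 h2 h4 h5
  rcases j with l | _ | ⟨s, b⟩ | _ | _
  · obtain ⟨w, rfl, rfl, rfl⟩ := h
    exact ⟨l :: w, FreeGroup.mul_mk, by simp [mach], (guess_X0 B e l w _).1 h3⟩
  · obtain ⟨w, rfl, rfl, rfl⟩ := h
    obtain rfl := Ins.id_rel.1 h3
    refine ⟨w, one_mul _, add_zero _, ?_⟩
    rintro y ⟨u, h4, rfl⟩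
    exact h4
  · obtain ⟨w, rfl, rfl, h4⟩ := h
    exact ⟨w, one_mul _, add_zero _, fun y hy => h4 y (sound _ b h3 hy)⟩
  · obtain ⟨w, rfl, rfl, h4⟩ := h
    obtain rfl := Ins.id_rel.1 h3
    obtain ⟨h5, h6⟩ := hP w x' (h4 x' rfl)
    exact ⟨w, one_mul _, h5, w.length, add_zero _, h6⟩
  · obtain ⟨w, rfl, h4, n, rfl, h5⟩ := h
    have h6 := drain_rel h3
    rw [h5] at h6
    rcases n with _ | n
    · simp only [gk] at h6; omega
    · simp only [gk] at h6
      exact ⟨w, one_mul _, h4, n, by simp [mach], by omega⟩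

theorem reach_guess (e : ℕ) (w : Word Y) :
    ReflTransGen (mach P B).Step (none, X0 B e ([] : Word Y), 1, 0)
      (none, X0 B e w, FreeGroup.mk w, w.length) := by
  induction w with
  | nil => exact ReflTransGen.refl
  | cons l w ih =>
    exact ih.tail ⟨.inl l, rfl, rfl, (guess_X0 B e l w _).2 rfl,
      (FreeGroup.mul_mk (L₁ := [l]) (L₂ := w)).symm,
      by simp [mach]⟩

theorem reach_ver (κ : FreeGroup Y) (τ : ℤ) {c c' : List (Prog 6) × (Fin 6 → ℤ)}
    (h : ReflTransGen Step c c') (hc : c.1 ∈ allStates P) : ∃ hc' : c'.1 ∈ allStates P,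
      ReflTransGen (mach P B).Step (some (some ⟨c.1, hc⟩), c.2, κ, τ)
        (some (some ⟨c'.1, hc'⟩), c'.2, κ, τ) := by
  induction h with
  | refl => exact ⟨hc, ReflTransGen.refl⟩
  | @tail c1 c2 _ hs ih =>
    obtain ⟨hc1, ih⟩ := ih
    obtain ⟨b, h1, h2⟩ := hs
    refine ⟨h1 ▸ allStates_closed P hc1 b, ih.tail ⟨.inr (.inr (.inl (⟨c1.1, hc1⟩, b))), rfl, ?_,
      h2, (one_mul _).symm, (add_zero _).symm⟩⟩
    simp [mach, h1]

theorem reach_drain (κ : FreeGroup Y) (c : ℤ) (L : St) (n : ℕ) :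
    ReflTransGen (mach P B).Step (some none, emb c (gk n) L, κ, n)
      (some none, emb c 0 L, κ, 0) := by
  induction n with
  | zero => exact ReflTransGen.refl
  | succ n ih =>
    refine ReflTransGen.head ?_ ih
    exact ⟨.inr (.inr (.inr (.inr ()))), rfl, rfl, drain_rel' c (gk n) L,
      (one_mul _).symm, by simp [mach]⟩

end Machine

end GMA

open GMA Relation in
theorem exists_GM {Y : Type} [DecidableEq Y] [Fintype Y] [Primcodable Y] (U : ℕ × Word Y → Prop)
    (hU : REPred U) : ∃ M : GM Y, M.Good U := by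
  obtain ⟨B, hB⟩ : ∃ B, ∀ a : Y × Bool, Encodable.encode a + 1 ≤ B :=
    ⟨Finset.univ.sup fun a : Y × Bool => Encodable.encode a + 1, fun a =>
      Finset.le_sup (f := fun a : Y × Bool => Encodable.encode a + 1) (Finset.mem_univ a)⟩
  obtain ⟨c, hc⟩ := exists_code_dom hB U hU
  obtain ⟨P, hP⟩ := exists_verify c
  haveI : Finite (allStates P) := (allStates_finite P).to_subtype
  refine (mach (Y := Y) P B).exists_good U ?_ ?_ primrec_ini rfl ?_ ?_
  · rintro (l | _)
    · exact FreeGroup.norm_mk_le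
    · simp [mach]
  · rintro (l | _ | _ | _ | _) <;> simp [mach]
  · intro e c' h
    have hI : Inv P B U e c' := by
      induction h with
      | refl => exact ⟨[], rfl, rfl, rfl⟩
      | tail _ hs ih =>
        refine inv_step (fun w y hy => ?_) ih hs
        obtain ⟨v, hv, rfl⟩ := (hP _ _ _ _).1 hy
        exact ⟨(hc e w).1 ⟨v, hv⟩, rfl⟩
    obtain ⟨_ | _ | s, x, κ, τ⟩ := c'
    · obtain ⟨w, rfl, rfl, -⟩ := hI
      exact ⟨by simp, fun _ => Int.ofNat_le.2 (FreeGroup.norm_mk_le (L₁ := w)), by simp [mach]⟩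
    · obtain ⟨w, rfl, h1, n, rfl, -⟩ := hI
      exact ⟨by simp, by simp [mach], fun _ => ⟨w, h1, rfl⟩⟩
    · obtain ⟨w, rfl, rfl, -⟩ := hI
      exact ⟨by simp, fun _ => Int.ofNat_le.2 (FreeGroup.norm_mk_le (L₁ := w)), by simp [mach]⟩
  · rintro e κ ⟨w, hw, rfl⟩
    obtain ⟨v, hv⟩ := (hc e w).2 hw
    have h1 : P.Rel (X0 B e w) _ := (hP _ _ _ _).2 ⟨v, hv, rfl⟩
    obtain ⟨h2, h3⟩ := reach_ver (P := P) (B := B) (FreeGroup.mk w) (w.length : ℤ)
      (complete P [] h1) (Or.inr (self_mem_states _ _))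
    refine ⟨emb 0 0 (stE [] v), ((((reach_guess e w).tail ?_).trans h3).tail ?_).trans
      (reach_drain _ 0 (stE [] v) w.length)⟩
    · exact ⟨.inr (.inl ()), rfl, rfl, Ins.id_rel.2 rfl, (one_mul _).symm, (add_zero _).symm⟩
    · exact ⟨.inr (.inr (.inr (.inl ()))), rfl, rfl, Ins.id_rel.2 rfl, (one_mul _).symm,
        (add_zero _).symm⟩

end Crest.Agent.R185
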