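import Crest.Agent.R185.FGPrim

/-!
# Row 185: generator machines

A nondeterministic machine with finitely many states `Fin nQ`, integer registers `Fin nK` and instructions
`Fin nJ`.  Instruction `j` goes from state `src j` to `tgt j`, and acts on register `r` by the partial injection
`a + m z ↦ d + m' z` (`m = m' = 0`: test `= a` and set to `d`).  It multiplies the output `κ ∈ F(Y)` on the left by `lab j`
and adds `δ j` to the clock `τ`.
-/

set_option autoImplicit false

namespace Crest.Agent.R185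

structure GM (Y : Type) where
  nQ : ℕ
  nK : ℕ
  nJ : ℕ
  q0 : Fin nQ
  qf : Fin nQ
  post : Fin nQ → Bool
  src : Fin nJ → Fin nQ
  tgt : Fin nJ → Fin nQ
  a : Fin nJ → Fin nK → ℤ
  d : Fin nJ → Fin nK → ℤ
  m : Fin nJ → Fin nK → ℕ
  m' : Fin nJ → Fin nK → ℕ
  lab : Fin nJ → FreeGroup Y
  δ : Fin nJ → ℤ
  ini : ℕ → Fin nK → ℤ

/-- `Run e js q x κ τ`: executing the instructions `js` (last executed first in the list) from the initial
configuration for the parameter `e` is possible and ends in state `q`, registers `x`, output `κ`, clock `τ`. -/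
inductive GM.Run {Y : Type} (M : GM Y) (e : ℕ) :
    List (Fin M.nJ) → Fin M.nQ → (Fin M.nK → ℤ) → FreeGroup Y → ℤ → Prop
  | nil : GM.Run M e [] M.q0 (M.ini e) 1 0
  | cons {js : List (Fin M.nJ)} {κ : FreeGroup Y} {τ : ℤ} (j : Fin M.nJ) (z : Fin M.nK → ℤ) :
      GM.Run M e js (M.src j) (fun r => M.a j r + M.m j r * z r) κ τ →
      GM.Run M e (j :: js) (M.tgt j) (fun r => M.d j r + M.m' j r * z r) (M.lab j * κ) (τ + M.δ j)

/-- The relator set attached to a predicate on (parameter, word). -/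
def relSet {Y : Type} (U : ℕ × Word Y → Prop) (e : ℕ) : Set (FreeGroup Y) :=
  {g | ∃ w, U (e, w) ∧ g = FreeGroup.mk w}

structure GM.Good {Y : Type} [DecidableEq Y] (M : GM Y) (U : ℕ × Word Y → Prop) : Prop where
  zero_iff : ∀ j r, M.m j r = 0 ↔ M.m' j r = 0
  lab_le : ∀ j, (M.lab j).norm ≤ 1
  δ_le : ∀ j, |M.δ j| ≤ 1
  ini_prim : Primrec M.ini
  post_qf : M.post M.qf = true
  inv : ∀ e js q x κ τ, M.Run e js q x κ τ → 0 ≤ τ ∧
    (M.post q = false → (κ.norm : ℤ) ≤ τ) ∧ (M.post q = true → κ ∈ relSet U e)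
  complete : ∀ e, ∀ κ ∈ relSet U e, ∃ js x, M.Run e js M.qf x κ 0

end Crest.Agent.R185
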