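import Crest.Agent.R185.GMDefs

/-!
# Row 185 (task R185-GM), part A: nondeterministic register programs and their compilation
-/

set_option autoImplicit false

namespace Crest.Agent.R185
namespace GMA

/-- A one-step affine instruction. -/
structure Ins (n : ℕ) where
  a : Fin n → ℤ
  d : Fin n → ℤ
  m : Fin n → ℕ
  m' : Fin n → ℕ
  ok : ∀ r, m r = 0 ↔ m' r = 0

def Ins.Rel {n : ℕ} (i : Ins n) (x y : Fin n → ℤ) : Prop :=
  ∃ z : Fin n → ℤ, x = (fun r => i.a r + i.m r * z r) ∧ y = fun r => i.d r + i.m' r * z r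

def Ins.id (n : ℕ) : Ins n := ⟨fun _ => 0, fun _ => 0, fun _ => 1, fun _ => 1, fun _ => Iff.rfl⟩

theorem Ins.id_rel {n : ℕ} {x y : Fin n → ℤ} : (Ins.id n).Rel x y ↔ y = x := by
  constructor
  · rintro ⟨z, rfl, rfl⟩; rfl
  · rintro rfl; exact ⟨y, by funext r; simp [Ins.id], by funext r; simp [Ins.id]⟩

inductive Prog (n : ℕ) : Type
  | op : Ins n → Prog n
  | seq : Prog n → Prog n → Prog n
  | alt : Prog n → Prog n → Prog n
  | star : Prog n → Prog n

variable {n : ℕ}

def Prog.Rel : Prog n → (Fin n → ℤ) → (Fin n → ℤ) → Prop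
  | .op i => i.Rel
  | .seq p q => Relation.Comp p.Rel q.Rel
  | .alt p q => fun x y => p.Rel x y ∨ q.Rel x y
  | .star p => Relation.ReflTransGen p.Rel

/-- Semantics of a continuation. -/
def RelL : List (Prog n) → (Fin n → ℤ) → (Fin n → ℤ) → Prop
  | [] => fun x y => y = x
  | p :: k => Relation.Comp p.Rel (RelL k)

def next : List (Prog n) → Bool → List (Prog n)
  | [], _ => []
  | .op _ :: k, _ => k
  | .seq p q :: k, _ => p :: q :: k
  | .alt p _ :: k, false => p :: k
  | .alt _ q :: k, true => q :: k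
  | .star _ :: k, false => k
  | .star p :: k, true => p :: .star p :: k

def ins : List (Prog n) → Ins n
  | .op i :: _ => i
  | _ => Ins.id n

theorem sound (s : List (Prog n)) (b : Bool) {x x' y : Fin n → ℤ} (h : (ins s).Rel x x')
    (h' : RelL (next s b) x' y) : RelL s x y := by
  rcases s with _ | ⟨p, k⟩
  · obtain rfl := Ins.id_rel.1 h; exact h'
  · cases p with
    | op i => exact ⟨x', h, h'⟩
    | seq p q =>
      obtain rfl := Ins.id_rel.1 h
      obtain ⟨u, h1, v, h2, h3⟩ := h'
      exact ⟨v, ⟨u, h1, h2⟩, h3⟩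
    | alt p q =>
      obtain rfl := Ins.id_rel.1 h
      cases b
      · obtain ⟨u, h1, h2⟩ := h'; exact ⟨u, Or.inl h1, h2⟩
      · obtain ⟨u, h1, h2⟩ := h'; exact ⟨u, Or.inr h1, h2⟩
    | star p =>
      obtain rfl := Ins.id_rel.1 h
      cases b
      · exact ⟨x', Relation.ReflTransGen.refl, h'⟩
      · obtain ⟨u, h1, v, h2, h3⟩ := h'
        exact ⟨v, Relation.ReflTransGen.head h1 h2, h3⟩

/-- One step of the continuation machine. -/
def Step (c c' : List (Prog n) × (Fin n → ℤ)) : Prop :=
  ∃ b, c'.1 = next c.1 b ∧ (ins c.1).Rel c.2 c'.2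

theorem complete (p : Prog n) : ∀ (k : List (Prog n)) {x y : Fin n → ℤ}, p.Rel x y →
    Relation.ReflTransGen Step (p :: k, x) (k, y) := by
  induction p with
  | op i => intro k x y h; exact Relation.ReflTransGen.single ⟨false, rfl, h⟩
  | seq p q ihp ihq =>
    rintro k x y ⟨u, h1, h2⟩
    exact Relation.ReflTransGen.head (b := (p :: q :: k, x)) ⟨false, rfl, Ins.id_rel.2 rfl⟩
      ((ihp _ h1).trans (ihq _ h2))
  | alt p q ihp ihq =>
    rintro k x y (h | h)
    · exact Relation.ReflTransGen.head (b := (p :: k, x)) ⟨false, rfl, Ins.id_rel.2 rfl⟩ (ihp _ h)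
    · exact Relation.ReflTransGen.head (b := (q :: k, x)) ⟨true, rfl, Ins.id_rel.2 rfl⟩ (ihq _ h)
  | star p ih =>
    intro k x y h
    induction h using Relation.ReflTransGen.head_induction_on with
    | refl => exact Relation.ReflTransGen.single ⟨false, rfl, Ins.id_rel.2 rfl⟩
    | @head u v h1 _ ih2 =>
      exact Relation.ReflTransGen.head (b := (p :: .star p :: k, u))
        ⟨true, rfl, Ins.id_rel.2 rfl⟩ ((ih _ h1).trans ih2)

/-- The continuations met while running `p` with continuation `k`. -/
def states : Prog n → List (Prog n) → Set (List (Prog n))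
  | .op i, k => {.op i :: k}
  | .seq p q, k => {.seq p q :: k} ∪ states p (q :: k) ∪ states q k
  | .alt p q, k => {.alt p q :: k} ∪ states p k ∪ states q k
  | .star p, k => {.star p :: k} ∪ states p (.star p :: k)

theorem states_finite (p : Prog n) : ∀ k, (states p k).Finite := by
  induction p with
  | op i => intro k; simp [states]
  | seq p q ihp ihq => intro k; simp [states, ihp, ihq]
  | alt p q ihp ihq => intro k; simp [states, ihp, ihq]
  | star p ih => intro k; simp [states, ih]

theorem self_mem_states (p : Prog n) (k : List (Prog n)) : p :: k ∈ states p k := by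
  cases p <;> simp [states]

theorem states_closed (p : Prog n) : ∀ k, ∀ s ∈ states p k, ∀ b,
    next s b ∈ states p k ∨ next s b = k := by
  induction p with
  | op i => rintro k s rfl b; right; rfl
  | seq p q ihp ihq =>
    rintro k s ((rfl | h) | h) b
    · left; left; right; exact self_mem_states _ _
    · rcases ihp _ s h b with h | h
      · left; left; right; exact h
      · left; right; rw [h]; exact self_mem_states _ _
    · rcases ihq _ s h b with h | h
      · left; right; exact h
      · right; exact h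
  | alt p q ihp ihq =>
    rintro k s ((rfl | h) | h) b
    · cases b
      · left; left; right; exact self_mem_states _ _
      · left; right; exact self_mem_states _ _
    · rcases ihp _ s h b with h | h
      · left; left; right; exact h
      · right; exact h
    · rcases ihq _ s h b with h | h
      · left; right; exact h
      · right; exact h
  | star p ih =>
    rintro k s (rfl | h) b
    · cases b
      · right; rfl
      · left; right; exact self_mem_states _ _
    · rcases ih _ s h b with h | h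
      · left; right; exact h
      · left; left; exact h

/-- All states of the compiled program. -/
def allStates (p : Prog n) : Set (List (Prog n)) := insert [] (states p [])

theorem allStates_finite (p : Prog n) : (allStates p).Finite := (states_finite p []).insert _

theorem allStates_closed (p : Prog n) {s : List (Prog n)} (h : s ∈ allStates p) (b : Bool) :
    next s b ∈ allStates p := by
  rcases h with rfl | h
  · left; rfl
  · rcases states_closed p [] s h b with h | h
    · right; exact h
    · left; exact h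

/-! ### Machines over arbitrary finite types -/

structure PM (Y Q J : Type) (n : ℕ) where
  q0 : Q
  qf : Q
  post : Q → Bool
  src : J → Q
  tgt : J → Q
  ins : J → Ins n
  lab : J → FreeGroup Y
  δ : J → ℤ
  ini : ℕ → Fin n → ℤ

def PM.Step {Y Q J : Type} (M : PM Y Q J n)
    (c c' : Q × (Fin n → ℤ) × FreeGroup Y × ℤ) : Prop :=
  ∃ j, c.1 = M.src j ∧ c'.1 = M.tgt j ∧ (M.ins j).Rel c.2.1 c'.2.1 ∧
    c'.2.2.1 = M.lab j * c.2.2.1 ∧ c'.2.2.2 = c.2.2.2 + M.δ j

theorem PM.exists_good {Y Q J : Type} [DecidableEq Y] [Finite Q] [Finite J] (M : PM Y Q J n)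
    (U : ℕ × Word Y → Prop) (hlab : ∀ j, (M.lab j).norm ≤ 1) (hδ : ∀ j, |M.δ j| ≤ 1)
    (hini : Primrec M.ini) (hqf : M.post M.qf = true)
    (hinv : ∀ e c, Relation.ReflTransGen M.Step (M.q0, M.ini e, 1, 0) c → 0 ≤ c.2.2.2 ∧
      (M.post c.1 = false → (c.2.2.1.norm : ℤ) ≤ c.2.2.2) ∧
      (M.post c.1 = true → c.2.2.1 ∈ relSet U e))
    (hc : ∀ e, ∀ κ ∈ relSet U e, ∃ x,
      Relation.ReflTransGen M.Step (M.q0, M.ini e, 1, 0) (M.qf, x, κ, 0)) :
    ∃ M' : GM Y, M'.Good U := by
  obtain ⟨nQ, ⟨eQ⟩⟩ := Finite.exists_equiv_fin Q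
  obtain ⟨nJ, ⟨eJ⟩⟩ := Finite.exists_equiv_fin J
  let M' : GM Y :=
    { nQ := nQ, nK := n, nJ := nJ, q0 := eQ M.q0, qf := eQ M.qf
      post := fun q => M.post (eQ.symm q)
      src := fun j => eQ (M.src (eJ.symm j))
      tgt := fun j => eQ (M.tgt (eJ.symm j))
      a := fun j => (M.ins (eJ.symm j)).a
      d := fun j => (M.ins (eJ.symm j)).d
      m := fun j => (M.ins (eJ.symm j)).m
      m' := fun j => (M.ins (eJ.symm j)).m'
      lab := fun j => M.lab (eJ.symm j)
      δ := fun j => M.δ (eJ.symm j)
      ini := M.ini }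
  have h1 : ∀ e js q x κ τ, M'.Run e js q x κ τ →
      Relation.ReflTransGen M.Step (M.q0, M.ini e, 1, 0) (eQ.symm q, x, κ, τ) := by
    intro e js q x κ τ h
    induction h with
    | nil => simp only [M', Equiv.symm_apply_apply]; exact Relation.ReflTransGen.refl
    | cons j z _ ih =>
      refine ih.tail ⟨eJ.symm j, ?_, ?_, ⟨z, rfl, rfl⟩, rfl, rfl⟩
      · simp [M']
      · simp [M']
  have h2 : ∀ e c, Relation.ReflTransGen M.Step (M.q0, M.ini e, 1, 0) c →
      ∃ js, M'.Run e js (eQ c.1) c.2.1 c.2.2.1 c.2.2.2 := by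
    intro e c h
    induction h with
    | refl => exact ⟨[], GM.Run.nil⟩
    | @tail c c' _ hs ih =>
      obtain ⟨js, ih⟩ := ih
      obtain ⟨j, h1, h2, ⟨z, h3, h4⟩, h5, h6⟩ := hs
      have := GM.Run.cons (M := M') (e := e) (js := js) (κ := c.2.2.1) (τ := c.2.2.2) (eJ j) z
        (by
          simp only [M', Equiv.symm_apply_apply]
          rw [← h1, ← h3]; exact ih)
      simp only [M', Equiv.symm_apply_apply] at this
      rw [h2, h4, h5, h6]
      exact ⟨_, this⟩
  refine ⟨M', ⟨fun j r => (M.ins _).ok r, fun j => hlab _, fun j => hδ _, hini, ?_, ?_, ?_⟩⟩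
  · simp [M', hqf]
  · intro e js q x κ τ h
    exact hinv e _ (h1 e js q x κ τ h)
  · intro e κ hκ
    obtain ⟨x, hx⟩ := hc e κ hκ
    obtain ⟨js, h⟩ := h2 e _ hx
    exact ⟨js, x, h⟩

end GMA
end Crest.Agent.R185
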