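import Crest.Agent.R185.GM_A

/-!
# Row 185 (task R185-GM), part B: stack programs and simulation of `ToPartrec.Code`
-/

set_option autoImplicit false

namespace Crest.Agent.R185
namespace GMA

open Relation

/-- `R` simulates `r` along `emb`. -/
def Sim {α β : Type} (emb : α → β) (R : β → β → Prop) (r : α → α → Prop) : Prop :=
  ∀ a y, R (emb a) y ↔ ∃ a', r a a' ∧ y = emb a'

section Sim
variable {α β : Type} {emb : α → β} {R S : β → β → Prop} {r s : α → α → Prop}

theorem Sim.comp (h : Sim emb R r) (h' : Sim emb S s) : Sim emb (Comp R S) (Comp r s) := by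
  intro a y
  constructor
  · rintro ⟨u, h1, h2⟩
    obtain ⟨a', h3, rfl⟩ := (h a u).1 h1
    obtain ⟨a'', h4, rfl⟩ := (h' a' y).1 h2
    exact ⟨a'', ⟨a', h3, h4⟩, rfl⟩
  · rintro ⟨a'', ⟨a', h3, h4⟩, rfl⟩
    exact ⟨emb a', (h a _).2 ⟨a', h3, rfl⟩, (h' a' _).2 ⟨a'', h4, rfl⟩⟩

theorem Sim.alt (h : Sim emb R r) (h' : Sim emb S s) :
    Sim emb (fun x y => R x y ∨ S x y) (fun x y => r x y ∨ s x y) := by
  intro a y
  beta_reduce
  rw [h a y, h' a y]
  constructor
  · rintro (⟨a', h1, h2⟩ | ⟨a', h1, h2⟩)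
    · exact ⟨a', Or.inl h1, h2⟩
    · exact ⟨a', Or.inr h1, h2⟩
  · rintro ⟨a', h1 | h1, h2⟩
    · exact Or.inl ⟨a', h1, h2⟩
    · exact Or.inr ⟨a', h1, h2⟩

theorem Sim.star (h : Sim emb R r) : Sim emb (ReflTransGen R) (ReflTransGen r) := by
  intro a y
  constructor
  · intro h1
    induction h1 with
    | refl => exact ⟨a, ReflTransGen.refl, rfl⟩
    | tail _ h2 ih =>
      obtain ⟨a', h3, rfl⟩ := ih
      obtain ⟨a'', h4, rfl⟩ := (h a' _).1 h2
      exact ⟨a'', h3.tail h4, rfl⟩
  · rintro ⟨a', h1, rfl⟩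
    induction h1 with
    | refl => exact ReflTransGen.refl
    | tail _ h2 ih => exact ih.tail ((h _ _).2 ⟨_, h2, rfl⟩)

theorem Sim.congr (h : Sim emb R r) (hs : ∀ a a', r a a' ↔ s a a') : Sim emb R s := by
  intro a y
  rw [h a y]
  simp only [hs]

end Sim

/-! ### Stacks -/

inductive G | U | Z | H
  deriving DecidableEq

def G.dig : G → ℕ
  | .U => 1
  | .Z => 2
  | .H => 3

def encN : List G → ℕ
  | [] => 0
  | g :: l => g.dig + 4 * encN l

theorem encN_append (p l : List G) : encN (p ++ l) = encN p + 4 ^ p.length * encN l := by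
  induction p with
  | nil => simp [encN]
  | cons g p ih => simp [encN, ih, pow_succ]; ring

theorem encN_eq_zero {l : List G} (h : encN l = 0) : l = [] := by
  rcases l with _ | ⟨g, l⟩
  · rfl
  · cases g <;> simp [encN, G.dig] at h

theorem encN_split (p : List G) : ∀ (l : List G) (z : ℤ),
    (encN l : ℤ) = encN p + (4 ^ p.length : ℕ) * z → ∃ l', l = p ++ l' ∧ z = encN l' := by
  induction p with
  | nil => intro l z h; exact ⟨l, rfl, by simpa [encN] using h.symm⟩
  | cons g p ih =>
    intro l z h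
    have h4 : ((4 ^ (g :: p).length : ℕ) : ℤ) * z = 4 * ((4 ^ p.length : ℕ) * z) := by
      simp [pow_succ]; ring
    rw [h4] at h
    generalize hw : ((4 ^ p.length : ℕ) : ℤ) * z = w at h
    rcases l with _ | ⟨g', l⟩
    · exfalso
      cases g <;> simp [encN, G.dig] at h <;> omega
    · have hg : g' = g ∧ (encN l : ℤ) = encN p + w := by
        cases g <;> cases g' <;> simp [encN, G.dig] at h ⊢ <;> omega
      obtain ⟨rfl, h2⟩ := hg
      obtain ⟨l', rfl, rfl⟩ := ih l z (by rw [h2, hw])
      exact ⟨l', rfl, rfl⟩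

abbrev St : Type := Fin 4 → List G

/-- Embedding of stack states into register states. -/
def emb (c k : ℤ) (L : St) : Fin 6 → ℤ :=
  Fin.cons c (Fin.cons k fun i => (encN (L i) : ℤ))

/-- Realisable relations. -/
def Real (r : St → St → Prop) : Prop := ∃ p : Prog 6, ∀ c k, Sim (emb c k) p.Rel r

theorem Real.comp {r s : St → St → Prop} (h : Real r) (h' : Real s) : Real (Comp r s) := by
  obtain ⟨p, hp⟩ := h; obtain ⟨q, hq⟩ := h'
  exact ⟨.seq p q, fun c k => (hp c k).comp (hq c k)⟩

theorem Real.alt {r s : St → St → Prop} (h : Real r) (h' : Real s) :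
    Real fun x y => r x y ∨ s x y := by
  obtain ⟨p, hp⟩ := h; obtain ⟨q, hq⟩ := h'
  exact ⟨.alt p q, fun c k => (hp c k).alt (hq c k)⟩

theorem Real.star {r : St → St → Prop} (h : Real r) : Real (ReflTransGen r) := by
  obtain ⟨p, hp⟩ := h
  exact ⟨.star p, fun c k => (hp c k).star⟩

theorem Real.congr {r s : St → St → Prop} (h : Real r) (hs : ∀ a a', r a a' ↔ s a a') :
    Real s := by
  obtain ⟨p, hp⟩ := h
  exact ⟨p, fun c k => (hp c k).congr hs⟩

/-- Pop the words `p i`, test emptiness where `e i`, push the words `q i`. -/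
def Prim (p q : St) (e : Fin 4 → Bool) (L L' : St) : Prop :=
  ∃ z : St, (∀ i, e i = true → z i = []) ∧ (∀ i, L i = p i ++ z i) ∧ ∀ i, L' i = q i ++ z i

def primIns (p q : St) (e : Fin 4 → Bool) : Ins 6 where
  a := Fin.cons 0 (Fin.cons 0 fun i => (encN (p i) : ℤ))
  d := Fin.cons 0 (Fin.cons 0 fun i => (encN (q i) : ℤ))
  m := Fin.cons 1 (Fin.cons 1 fun i => if e i then 0 else 4 ^ (p i).length)
  m' := Fin.cons 1 (Fin.cons 1 fun i => if e i then 0 else 4 ^ (q i).length)
  ok r := by
    refine Fin.cases (by simp) (fun r => Fin.cases (by simp) (fun i => ?_) r) r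
    simp only [Fin.cons_succ]
    cases e i <;> simp

theorem real_prim (p q : St) (e : Fin 4 → Bool) : Real (Prim p q e) := by
  refine ⟨.op (primIns p q e), fun c k L y => ?_⟩
  constructor
  · rintro ⟨z, h1, rfl⟩
    have h0 : z 0 = c := by simpa [emb, primIns] using (congrFun h1 0).symm
    have h0' : z (Fin.succ 0) = k := by
      have := congrFun h1 (Fin.succ 0)
      simp only [emb, primIns, Fin.cons_succ, Fin.cons_zero] at this
      simpa using this.symm
    have h2 : ∀ i : Fin 4, ∃ l', (e i = true → l' = []) ∧ L i = p i ++ l' ∧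
        ((if e i then 0 else 4 ^ (q i).length : ℕ) : ℤ) * z i.succ.succ =
          (4 ^ (q i).length : ℕ) * (encN l' : ℤ) := by
      intro i
      have := congrFun h1 i.succ.succ
      simp only [emb, primIns, Fin.cons_succ] at this
      cases he : e i
      · simp only [he, Bool.false_eq_true, if_false] at this ⊢
        obtain ⟨l', h3, h4⟩ := encN_split _ _ _ this
        exact ⟨l', by simp, h3, by rw [h4]⟩
      · simp only [he, if_true, Nat.cast_zero, zero_mul, add_zero] at this ⊢
        obtain ⟨l', h3, h4⟩ := encN_split (p i) (L i) 0 (by simpa using this)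
        obtain rfl : l' = [] := encN_eq_zero (by exact_mod_cast h4.symm)
        exact ⟨[], by simp, h3, by simp [encN]⟩
    choose z' h3 h4 h5 using h2
    refine ⟨fun i => q i ++ z' i, ⟨z', h3, h4, fun _ => rfl⟩, ?_⟩
    funext r
    refine Fin.cases ?_ (fun r => Fin.cases ?_ (fun i => ?_) r) r
    · simp [emb, primIns, h0]
    · simp only [emb, primIns, Fin.cons_succ, Fin.cons_zero, h0']; simp
    · simp only [emb, primIns, Fin.cons_succ, h5, encN_append]; push_cast; ring
  · rintro ⟨L', ⟨z, h1, h2, h3⟩, rfl⟩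
    refine ⟨emb c k z, ?_, ?_⟩
    · funext r
      refine Fin.cases ?_ (fun r => Fin.cases ?_ (fun i => ?_) r) r
      · simp [emb, primIns]
      · simp only [emb, primIns, Fin.cons_succ, Fin.cons_zero]; simp
      · simp only [emb, primIns, Fin.cons_succ, h2, encN_append]
        cases he : e i
        · simp
        · simp [h1 i he, encN]
    · funext r
      refine Fin.cases ?_ (fun r => Fin.cases ?_ (fun i => ?_) r) r
      · simp [emb, primIns]
      · simp only [emb, primIns, Fin.cons_succ, Fin.cons_zero]; simp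
      · simp only [emb, primIns, Fin.cons_succ, h3, encN_append]
        cases he : e i
        · simp
        · simp [h1 i he, encN]

def Push (i : Fin 4) (g : G) (L L' : St) : Prop := L' = Function.update L i (g :: L i)

def Pop (i : Fin 4) (g : G) (L L' : St) : Prop := ∃ z, L i = g :: z ∧ L' = Function.update L i z

def Emp (i : Fin 4) (L L' : St) : Prop := L i = [] ∧ L' = L

theorem real_push (i : Fin 4) (g : G) : Real (Push i g) := by
  refine (real_prim (fun _ => []) (fun j => if j = i then [g] else []) fun _ => false).congr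
    fun L L' => ⟨?_, ?_⟩
  · rintro ⟨z, -, h2, h3⟩
    funext j
    by_cases h : j = i
    · subst h; simp [h2, h3]
    · simp [h2, h3, h]
  · rintro rfl
    refine ⟨L, by simp, by simp, fun j => ?_⟩
    by_cases h : j = i
    · subst h; simp
    · simp [h]

theorem real_pop (i : Fin 4) (g : G) : Real (Pop i g) := by
  refine (real_prim (fun j => if j = i then [g] else []) (fun _ => []) fun _ => false).congr
    fun L L' => ⟨?_, ?_⟩
  · rintro ⟨z, -, h2, h3⟩
    refine ⟨z i, by simp [h2], ?_⟩
    funext j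
    by_cases h : j = i
    · subst h; simp [h3]
    · simp [h2, h3, h]
  · rintro ⟨z, h1, rfl⟩
    refine ⟨Function.update L i z, by simp, fun j => ?_, by simp⟩
    by_cases h : j = i
    · subst h; simp [h1]
    · simp [h]

theorem real_emp (i : Fin 4) : Real (Emp i) := by
  refine (real_prim (fun _ => []) (fun _ => []) fun j => decide (j = i)).congr
    fun L L' => ⟨?_, ?_⟩
  · rintro ⟨z, h1, h2, h3⟩
    refine ⟨by simp [h2, h1 i], ?_⟩
    funext j
    simp [h2, h3]
  · rintro ⟨h1, rfl⟩
    refine ⟨L', fun j hj => ?_, by simp, by simp⟩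
    obtain rfl : j = i := by simpa using hj
    exact h1

/-- Result of moving the word `w` from `i` to the registers in `J`. -/
def mvd (i : Fin 4) (J : Fin 4 → Bool) (w z : List G) (L : St) : St :=
  fun j => if j = i then z else if J j then w.reverse ++ L j else L j

def Mv1 (g : G) (i : Fin 4) (J : Fin 4 → Bool) (L L' : St) : Prop :=
  ∃ z, L i = g :: z ∧ L' = mvd i J [g] z L

theorem real_mv1 (g : G) (i : Fin 4) (J : Fin 4 → Bool) : Real (Mv1 g i J) := by
  refine (real_prim (fun j => if j = i then [g] else [])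
    (fun j => if j = i then [] else if J j then [g] else []) fun _ => false).congr
    fun L L' => ⟨?_, ?_⟩
  · rintro ⟨z, -, h2, h3⟩
    refine ⟨z i, by simp [h2], ?_⟩
    funext j
    by_cases h : j = i
    · subst h; simp [h3, mvd]
    · cases hJ : J j <;> simp [h2, h3, h, mvd, hJ]
  · rintro ⟨z, h1, rfl⟩
    refine ⟨Function.update L i z, by simp, fun j => ?_, fun j => ?_⟩
    · by_cases h : j = i
      · subst h; simp [h1]
      · simp [h]
    · by_cases h : j = i
      · subst h; simp [mvd]
      · cases hJ : J j <;> simp [h, mvd, hJ]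

/-- Move a word over `{U}` (`b = false`) or over `{U, Z}` (`b = true`). -/
def Mv (b : Bool) (i : Fin 4) (J : Fin 4 → Bool) (L L' : St) : Prop :=
  ∃ w z, (∀ g ∈ w, g = G.U ∨ (b = true ∧ g = G.Z)) ∧ L i = w ++ z ∧ L' = mvd i J w z L

theorem real_mv (b : Bool) (i : Fin 4) (J : Fin 4 → Bool) : Real (Mv b i J) := by
  have h1 : Real fun L L' => ∃ g, (g = G.U ∨ (b = true ∧ g = G.Z)) ∧ Mv1 g i J L L' := by
    cases b
    · exact (real_mv1 G.U i J).congr (by simp)
    · exact ((real_mv1 G.U i J).alt (real_mv1 G.Z i J)).congr (by simp)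
  refine h1.star.congr fun L L' => ⟨fun h => ?_, ?_⟩
  · induction h with
    | refl =>
      refine ⟨[], L i, by simp, by simp, ?_⟩
      funext j
      by_cases h : j = i
      · subst h; simp [mvd]
      · simp [mvd, h]
    | tail _ h2 ih =>
      obtain ⟨w, z, h3, h4, rfl⟩ := ih
      obtain ⟨g, hg, z', h5, rfl⟩ := h2
      have h6 : z = g :: z' := by simpa [mvd] using h5
      subst h6
      refine ⟨w ++ [g], z', ?_, by simp [h4], ?_⟩
      · intro g' hg'
        rcases List.mem_append.1 hg' with h | h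
        · exact h3 _ h
        · rw [List.mem_singleton.1 h]; exact hg
      · funext j
        by_cases h : j = i
        · subst h; simp [mvd]
        · cases hJ : J j <;> simp [mvd, h, hJ]
  · rintro ⟨w, z, h3, h4, rfl⟩
    induction w generalizing L with
    | nil =>
      have : mvd i J [] z L = L := by
        funext j
        by_cases h : j = i
        · subst h; simp [mvd, h4]
        · simp [mvd, h]
      rw [this]
    | cons g w ih =>
      refine ReflTransGen.head ⟨g, h3 g (by simp), w ++ z, by simpa using h4, rfl⟩ ?_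
      have := ih (mvd i J [g] (w ++ z) L) (fun g' hg' => h3 g' (by simp [hg'])) (by simp [mvd])
      convert this using 1
      funext j
      by_cases h : j = i
      · subst h; simp [mvd]
      · cases hJ : J j <;> simp [mvd, h, hJ]

/-- Deterministic behaviour at a state. -/
def Det (R : St → St → Prop) (L L₁ : St) : Prop := ∀ L', R L L' ↔ L' = L₁

theorem Det.comp_iff {R S : St → St → Prop} {L L₁ : St} (h : Det R L L₁) (L' : St) :
    Comp R S L L' ↔ S L₁ L' := by
  constructor
  · rintro ⟨u, h1, h2⟩; rwa [← (h u).1 h1]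
  · intro h2; exact ⟨L₁, (h _).2 rfl, h2⟩

theorem Det.comp {R S : St → St → Prop} {L L₁ L₂ : St} (h : Det R L L₁) (h' : Det S L₁ L₂) :
    Det (Comp R S) L L₂ := fun L' => (h.comp_iff L').trans (h' L')

theorem Det.of_eq {R : St → St → Prop} {L L₁ L₂ : St} (h : Det R L L₁) (e : L₁ = L₂) :
    Det R L L₂ := e ▸ h

theorem det_push (i : Fin 4) (g : G) (L : St) :
    Det (Push i g) L (Function.update L i (g :: L i)) := fun _ => Iff.rfl

theorem det_pop {i : Fin 4} {g : G} {L : St} {z : List G} (h : L i = g :: z) :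
    Det (Pop i g) L (Function.update L i z) := fun L' =>
  ⟨fun ⟨z', h1, h2⟩ => by rw [h2, (List.cons.inj (h.symm.trans h1)).2], fun h2 => ⟨z, h, h2⟩⟩

theorem det_mvAll {b : Bool} {i : Fin 4} (J : Fin 4 → Bool) {L : St}
    (h : ∀ g ∈ L i, g = G.U ∨ (b = true ∧ g = G.Z)) :
    Det (Comp (Mv b i J) (Emp i)) L (mvd i J (L i) [] L) := by
  intro L'
  constructor
  · rintro ⟨u, ⟨w, z, -, h2, rfl⟩, h3, rfl⟩
    obtain rfl : z = [] := by simpa [mvd] using h3
    rw [h2, List.append_nil]
  · rintro rfl
    exact ⟨_, ⟨L i, [], h, by simp, rfl⟩, by simp [mvd], rfl⟩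

theorem split_unique {A : G → Prop} {g : G} (hg : ¬ A g) : ∀ {w w' z z' : List G},
    (∀ x ∈ w, A x) → (∀ x ∈ w', A x) → w ++ g :: z = w' ++ g :: z' → w = w' ∧ z = z' := by
  intro w
  induction w with
  | nil =>
    intro w' z z' _ h2 h
    rcases w' with _ | ⟨x, w'⟩
    · simpa using h
    · simp only [List.nil_append, List.cons_append, List.cons.injEq] at h
      exact absurd (h.1 ▸ h2 x (by simp)) hg
  | cons x w ih =>
    intro w' z z' h1 h2 h
    rcases w' with _ | ⟨x', w'⟩
    · simp only [List.nil_append, List.cons_append, List.cons.injEq] at h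
      exact absurd (h.1 ▸ h1 x (by simp)) hg
    · simp only [List.cons_append, List.cons.injEq] at h
      obtain ⟨h3, h4⟩ := ih (fun y hy => h1 y (by simp [hy])) (fun y hy => h2 y (by simp [hy])) h.2
      exact ⟨by rw [h.1, h3], h4⟩

theorem det_mvTo {b : Bool} {i : Fin 4} (J : Fin 4 → Bool) {L : St} {g : G} {w z : List G}
    (hg : ¬ (g = G.U ∨ (b = true ∧ g = G.Z))) (h : ∀ g ∈ w, g = G.U ∨ (b = true ∧ g = G.Z))
    (hL : L i = w ++ g :: z) :
    Det (Comp (Mv b i J) (Pop i g)) L (mvd i J w z L) := by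
  have key : ∀ w z, Function.update (mvd i J w (g :: z) L) i z = mvd i J w z L := by
    intro w z
    funext j
    by_cases h : j = i
    · subst h; simp [mvd]
    · simp [mvd, h]
  intro L'
  constructor
  · rintro ⟨u, ⟨w', z', h1, h2, rfl⟩, z'', h3, rfl⟩
    obtain rfl : z' = g :: z'' := by simpa [mvd] using h3
    obtain ⟨rfl, rfl⟩ := split_unique (A := fun g => g = G.U ∨ (b = true ∧ g = G.Z)) hg h h1
      (hL.symm.trans h2)
    exact key _ _
  · rintro rfl
    exact ⟨_, ⟨w, g :: z, h, hL, rfl⟩, z, by simp [mvd], (key _ _).symm⟩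

end GMA
end Crest.Agent.R185
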