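import Crest.Agent.R185.GM_B

/-!
# Row 185 (task R185-GM), part C: simulation of `ToPartrec.Code` by stack programs
-/

set_option autoImplicit false

namespace Crest.Agent.R185
namespace GMA

open Relation Turing.ToPartrec

def S4 (m s t u : List G) : St := ![m, s, t, u]

@[simp] theorem S4_0 (m s t u : List G) : S4 m s t u 0 = m := rfl
@[simp] theorem S4_1 (m s t u : List G) : S4 m s t u 1 = s := rfl
@[simp] theorem S4_2 (m s t u : List G) : S4 m s t u 2 = t := rfl
@[simp] theorem S4_3 (m s t u : List G) : S4 m s t u 3 = u := rfl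

theorem st_ext {L L' : St} (h0 : L 0 = L' 0) (h1 : L 1 = L' 1) (h2 : L 2 = L' 2)
    (h3 : L 3 = L' 3) : L = L' := by
  funext j
  fin_cases j
  exacts [h0, h1, h2, h3]

def enc : List ℕ → List G
  | [] => []
  | n :: v => List.replicate n G.U ++ G.Z :: enc v

theorem enc_mem (v : List ℕ) : ∀ g ∈ enc v, g = G.U ∨ (true = true ∧ g = G.Z) := by
  induction v with
  | nil => simp [enc]
  | cons n v ih =>
    intro g hg
    simp only [enc, List.mem_append, List.mem_replicate, List.mem_cons] at hg
    rcases hg with h | h | h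
    · exact Or.inl h.2
    · exact Or.inr ⟨rfl, h⟩
    · exact ih g h

theorem rep_mem (n : ℕ) (b : Bool) : ∀ g ∈ List.replicate n G.U, g = G.U ∨ (b = true ∧ g = G.Z) :=
  fun _ hg => Or.inl (List.mem_replicate.1 hg).2

def J0 : Fin 4 → Bool := fun _ => false
def J1 (k : Fin 4) : Fin 4 → Bool := fun j => decide (j = k)
def J01 : Fin 4 → Bool := fun j => decide (j = 0 ∨ j = 1)

/-- Make the head explicit. -/
def normR (L L' : St) : Prop :=
  Comp (Emp 0) (Push 0 G.Z) L L' ∨ (Comp (Pop 0 G.U) (Push 0 G.U) L L' ∨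
    Comp (Pop 0 G.Z) (Push 0 G.Z) L L')

theorem real_norm : Real normR :=
  ((real_emp 0).comp (real_push 0 _)).alt (((real_pop 0 _).comp (real_push 0 _)).alt
    ((real_pop 0 _).comp (real_push 0 _)))

theorem popPush_iff (g : G) (L L' : St) :
    Comp (Pop 0 g) (Push 0 g) L L' ↔ (∃ z, L 0 = g :: z) ∧ L' = L := by
  constructor
  · rintro ⟨u, ⟨z, h1, rfl⟩, rfl⟩
    refine ⟨⟨z, h1⟩, ?_⟩
    simp [← h1]
  · rintro ⟨⟨z, h1⟩, rfl⟩
    refine ⟨_, ⟨z, h1, rfl⟩, ?_⟩
    simp [Push, ← h1]

theorem det_norm (v : List ℕ) (s t u : List G) :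
    Det normR (S4 (enc v) s t u) (S4 (enc (v.headI :: v.tail)) s t u) := by
  intro L'
  rw [normR, popPush_iff, popPush_iff]
  rcases v with _ | ⟨n, v⟩
  · have : Comp (Emp 0) (Push 0 G.Z) (S4 (enc []) s t u) L' ↔ L' = S4 [G.Z] s t u := by
      constructor
      · rintro ⟨_, ⟨-, rfl⟩, rfl⟩
        exact st_ext (by simp [enc]) (by simp) (by simp) (by simp)
      · rintro rfl
        exact ⟨_, ⟨rfl, rfl⟩, st_ext (by simp [enc]) (by simp) (by simp) (by simp)⟩
    rw [this]
    simp [enc]
  · have : ¬ Comp (Emp 0) (Push 0 G.Z) (S4 (enc (n :: v)) s t u) L' := by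
      rintro ⟨_, ⟨h, -⟩, -⟩
      simp [enc] at h
    simp only [this, false_or, List.headI_cons, List.tail_cons]
    rcases n with _ | n
    · simp [enc]
    · simp [enc, List.replicate_succ]

/-- Drop the head (explicit). -/
def dropR : St → St → Prop := Comp (Mv false 0 J0) (Pop 0 G.Z)

theorem real_drop : Real dropR := (real_mv _ _ _).comp (real_pop _ _)

theorem det_drop (n : ℕ) (v : List ℕ) (s t u : List G) :
    Det dropR (S4 (enc (n :: v)) s t u) (S4 (enc v) s t u) :=
  (det_mvTo J0 (w := List.replicate n G.U) (z := enc v) (by simp) (rep_mem n _) rfl).of_eq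
    (st_ext (by simp [mvd]) (by simp [mvd, J0]) (by simp [mvd, J0]) (by simp [mvd, J0]))

/-- Move the head to register `3` in unary and clear the main register. -/
def headR : St → St → Prop :=
  Comp normR (Comp (Comp (Mv false 0 (J1 3)) (Pop 0 G.Z)) (Comp (Mv true 0 J0) (Emp 0)))

theorem real_head : Real headR :=
  real_norm.comp (((real_mv _ _ _).comp (real_pop _ _)).comp ((real_mv _ _ _).comp (real_emp _)))

theorem det_head (v : List ℕ) (s t : List G) :
    Det headR (S4 (enc v) s t []) (S4 [] s t (List.replicate v.headI G.U)) := by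
  refine (det_norm v s t []).comp (Det.comp
    ((det_mvTo (J1 3) (w := List.replicate v.headI G.U) (z := enc v.tail) (by simp) (rep_mem _ _)
      rfl).of_eq (L₂ := S4 (enc v.tail) s t (List.replicate v.headI G.U))
      (st_ext (by simp [mvd]) (by simp [mvd, J1]) (by simp [mvd, J1]) (by simp [mvd, J1]))) ?_)
  exact (det_mvAll J0 (enc_mem _)).of_eq
    (st_ext (by simp [mvd]) (by simp [mvd, J0]) (by simp [mvd, J0]) (by simp [mvd, J0]))

def succR : St → St → Prop :=
  Comp headR (Comp (Push 0 G.Z) (Comp (Comp (Mv false 3 (J1 0)) (Emp 3)) (Push 0 G.U)))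

theorem real_succ : Real succR :=
  real_head.comp ((real_push _ _).comp (((real_mv _ _ _).comp (real_emp _)).comp (real_push _ _)))

theorem det_succ (v : List ℕ) (s : List G) :
    Det succR (S4 (enc v) s [] []) (S4 (enc [v.headI.succ]) s [] []) := by
  refine (det_head v s []).comp (Det.comp ((det_push _ _ _).of_eq
    (L₂ := S4 [G.Z] s [] (List.replicate v.headI G.U))
      (st_ext (by simp) (by simp) (by simp) (by simp))) (Det.comp
    ((det_mvAll (J1 0) (rep_mem _ _)).of_eq (L₂ := S4 (enc [v.headI]) s [] [])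
      (st_ext (by simp [mvd, J1, enc]) (by simp [mvd, J1]) (by simp [mvd, J1]) (by simp [mvd])))
    ((det_push _ _ _).of_eq
      (st_ext (by simp [enc, List.replicate_succ]) (by simp) (by simp) (by simp)))))

/-- Save a copy of the main register. -/
def dupR : St → St → Prop :=
  Comp (Comp (Mv true 0 (J1 2)) (Emp 0)) (Comp (Push 1 G.H) (Comp (Mv true 2 J01) (Emp 2)))

theorem real_dup : Real dupR :=
  ((real_mv _ _ _).comp (real_emp _)).comp ((real_push _ _).comp
    ((real_mv _ _ _).comp (real_emp _)))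

theorem det_dup (v : List ℕ) (s : List G) :
    Det dupR (S4 (enc v) s [] []) (S4 (enc v) (enc v ++ G.H :: s) [] []) := by
  refine Det.comp ((det_mvAll (J1 2) (enc_mem _)).of_eq (L₂ := S4 [] s (enc v).reverse [])
      (st_ext (by simp [mvd]) (by simp [mvd, J1]) (by simp [mvd, J1]) (by simp [mvd, J1])))
    (Det.comp ((det_push _ _ _).of_eq (L₂ := S4 [] (G.H :: s) (enc v).reverse [])
      (st_ext (by simp) (by simp) (by simp) (by simp)))
    ((det_mvAll J01 (fun g hg => enc_mem v g (by simpa using hg))).of_eq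
      (st_ext (by simp [mvd, J01]) (by simp [mvd, J01]) (by simp [mvd]) (by simp [mvd, J01]))))

/-- Keep the head of the main register on the save stack and restore the saved list. -/
def midR : St → St → Prop :=
  Comp headR (Comp (Comp (Mv true 1 (J1 2)) (Pop 1 G.H)) (Comp (Comp (Mv true 2 (J1 0)) (Emp 2))
    (Comp (Push 1 G.H) (Comp (Mv false 3 (J1 1)) (Emp 3)))))

theorem real_mid : Real midR :=
  real_head.comp (((real_mv _ _ _).comp (real_pop _ _)).comp
    (((real_mv _ _ _).comp (real_emp _)).comp ((real_push _ _).comp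
      ((real_mv _ _ _).comp (real_emp _)))))

theorem det_mid (v w : List ℕ) (s : List G) :
    Det midR (S4 (enc w) (enc v ++ G.H :: s) [] [])
      (S4 (enc v) (List.replicate w.headI G.U ++ G.H :: s) [] []) := by
  refine (det_head w _ []).comp (Det.comp
    ((det_mvTo (J1 2) (w := enc v) (z := s) (by simp) (enc_mem _) rfl).of_eq
      (L₂ := S4 [] s (enc v).reverse (List.replicate w.headI G.U))
      (st_ext (by simp [mvd, J1]) (by simp [mvd]) (by simp [mvd, J1]) (by simp [mvd, J1])))
    (Det.comp ((det_mvAll (J1 0) (fun g hg => enc_mem v g (by simpa using hg))).of_eq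
      (L₂ := S4 (enc v) s [] (List.replicate w.headI G.U))
      (st_ext (by simp [mvd, J1]) (by simp [mvd, J1]) (by simp [mvd]) (by simp [mvd, J1])))
    (Det.comp ((det_push _ _ _).of_eq (L₂ := S4 (enc v) (G.H :: s) [] (List.replicate w.headI G.U))
      (st_ext (by simp) (by simp) (by simp) (by simp)))
    ((det_mvAll (J1 1) (rep_mem _ _)).of_eq
      (st_ext (by simp [mvd, J1]) (by simp [mvd, J1]) (by simp [mvd, J1]) (by simp [mvd]))))))

/-- Push the saved number back. -/
def finR : St → St → Prop := Comp (Push 0 G.Z) (Comp (Mv false 1 (J1 0)) (Pop 1 G.H))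

theorem real_fin : Real finR := (real_push _ _).comp ((real_mv _ _ _).comp (real_pop _ _))

theorem det_fin (n : ℕ) (v : List ℕ) (s : List G) :
    Det finR (S4 (enc v) (List.replicate n G.U ++ G.H :: s) [] []) (S4 (enc (n :: v)) s [] []) := by
  refine Det.comp ((det_push _ _ _).of_eq
    (L₂ := S4 (G.Z :: enc v) (List.replicate n G.U ++ G.H :: s) [] [])
      (st_ext (by simp) (by simp) (by simp) (by simp)))
    ((det_mvTo (J1 0) (w := List.replicate n G.U) (z := s) (by simp) (rep_mem _ _) rfl).of_eq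
      (st_ext (by simp [mvd, J1, enc]) (by simp [mvd]) (by simp [mvd, J1]) (by simp [mvd, J1])))

def stE (s : List G) (v : List ℕ) : St := S4 (enc v) s [] []

theorem sim_of_det {R : St → St → Prop} {f : List ℕ → List ℕ} {s : List G}
    (h : ∀ v, Det R (stE s v) (stE s (f v))) : Sim (stE s) R fun v v' => v' = f v := by
  intro v y
  rw [h v y]
  simp

theorem sim_popZ (s : List G) :
    Sim (stE s) (Comp normR (Pop 0 G.Z)) fun v v' => v.headI = 0 ∧ v' = v.tail := by
  intro v y
  rw [stE, (det_norm v s [] []).comp_iff]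
  beta_reduce
  rcases h : v.headI with _ | n
  · rw [det_pop (z := enc v.tail) (by simp [enc]) y]
    have : Function.update (S4 (enc (0 :: v.tail)) s [] []) 0 (enc v.tail) = stE s v.tail :=
      st_ext (by simp [stE]) (by simp [stE]) (by simp [stE]) (by simp [stE])
    simp [this]
  · simp [Pop, enc, List.replicate_succ]

theorem sim_popU (s : List G) :
    Sim (stE s) (Comp normR (Pop 0 G.U)) fun v v' => ∃ n, v.headI = n + 1 ∧ v' = n :: v.tail := by
  intro v y
  rw [stE, (det_norm v s [] []).comp_iff]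
  beta_reduce
  rcases h : v.headI with _ | n
  · simp [Pop, enc]
  · rw [det_pop (z := enc (n :: v.tail)) (by simp [enc, List.replicate_succ]) y]
    have : Function.update (S4 (enc ((n + 1) :: v.tail)) s [] []) 0 (enc (n :: v.tail)) =
        stE s (n :: v.tail) :=
      st_ext (by simp [stE]) (by simp [stE]) (by simp [stE]) (by simp [stE])
    simp [this]

theorem sim_tail (s : List G) : Sim (stE s) (Comp normR dropR) fun v v' => v' = v.tail :=
  sim_of_det fun v => (det_norm v s [] []).comp (det_drop _ _ s [] [])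

theorem mem_fix_iff' {α β : Type} (F : α →. β ⊕ α) (a : α) (b : β) :
    b ∈ F.fix a ↔ ∃ w, ReflTransGen (fun x y => Sum.inr y ∈ F x) a w ∧ Sum.inl b ∈ F w := by
  constructor
  · intro h
    refine PFun.fixInduction' h (fun a' h' => ⟨a', ReflTransGen.refl, h'⟩) ?_
    rintro a₀ a₁ - h1 ⟨w, h2, h3⟩
    exact ⟨w, h2.head h1, h3⟩
  · rintro ⟨w, h1, h2⟩
    induction h1 using ReflTransGen.head_induction_on with
    | refl => exact PFun.mem_fix_iff.2 (Or.inl h2)
    | head h _ ih => exact PFun.mem_fix_iff.2 (Or.inr ⟨_, h, ih⟩)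

theorem real_code (c : Code) :
    ∃ R, Real R ∧ ∀ s, Sim (stE s) R fun v v' => v' ∈ c.eval v := by
  induction c with
  | zero' =>
    refine ⟨_, real_push 0 G.Z, fun s => (sim_of_det (f := fun v => 0 :: v) fun v =>
      (det_push _ _ _).of_eq ?_).congr (by simp)⟩
    exact st_ext (by simp [stE, enc]) (by simp [stE]) (by simp [stE]) (by simp [stE])
  | succ =>
    exact ⟨_, real_succ, fun s => (sim_of_det (f := fun v => [v.headI.succ]) fun v =>
      det_succ v s).congr (by simp)⟩
  | tail => exact ⟨_, real_norm.comp real_drop, fun s => (sim_tail s).congr (by simp)⟩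
  | cons f fs ihf ihfs =>
    obtain ⟨R, hR, hf⟩ := ihf
    obtain ⟨S, hS, hfs⟩ := ihfs
    refine ⟨_, real_dup.comp (hR.comp (real_mid.comp (hS.comp real_fin))), fun s v y => ?_⟩
    rw [stE, (det_dup v s).comp_iff]
    constructor
    · rintro ⟨L1, h1, h2⟩
      obtain ⟨w, h3, rfl⟩ := (hf _ v L1).1 h1
      rw [stE, (det_mid v w s).comp_iff] at h2
      obtain ⟨L2, h4, h5⟩ := h2
      obtain ⟨ns, h6, rfl⟩ := (hfs _ v L2).1 h4
      rw [stE, det_fin _ ns s y] at h5
      refine ⟨w.headI :: ns, ?_, h5⟩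
      simp only [Code.cons_eval, Part.bind_eq_bind, Part.mem_bind_iff, Part.pure_eq_some,
        Part.mem_some_iff]
      exact ⟨w, h3, ns, h6, rfl⟩
    · rintro ⟨v', h, rfl⟩
      simp only [Code.cons_eval, Part.bind_eq_bind, Part.mem_bind_iff, Part.pure_eq_some,
        Part.mem_some_iff] at h
      obtain ⟨w, h3, ns, h6, rfl⟩ := h
      refine ⟨_, (hf _ v _).2 ⟨w, h3, rfl⟩, ?_⟩
      rw [stE, (det_mid v w s).comp_iff]
      exact ⟨_, (hfs _ v _).2 ⟨ns, h6, rfl⟩, (det_fin _ ns s _).2 rfl⟩
  | comp f g ihf ihg =>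
    obtain ⟨R, hR, hf⟩ := ihf
    obtain ⟨S, hS, hg⟩ := ihg
    refine ⟨_, hS.comp hR, fun s => ((hg s).comp (hf s)).congr fun v v' => ?_⟩
    simp [Comp]
  | case f g ihf ihg =>
    obtain ⟨R, hR, hf⟩ := ihf
    obtain ⟨S, hS, hg⟩ := ihg
    refine ⟨_, ((real_norm.comp (real_pop 0 G.Z)).comp hR).alt
      ((real_norm.comp (real_pop 0 G.U)).comp hS), fun s =>
      (((sim_popZ s).comp (hf s)).alt ((sim_popU s).comp (hg s))).congr fun v v' => ?_⟩
    simp only [Comp, Code.case_eval]
    rcases v.headI with _ | n <;> simp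
  | fix f ih =>
    obtain ⟨R, hR, hf⟩ := ih
    refine ⟨_, (hR.comp ((real_norm.comp (real_pop 0 G.U)).comp
      (real_norm.comp real_drop))).star.comp (hR.comp (real_norm.comp (real_pop 0 G.Z))),
      fun s => ((((hf s).comp ((sim_popU s).comp (sim_tail s))).star).comp
        ((hf s).comp (sim_popZ s))).congr fun v v' => ?_⟩
    rw [Code.fix_eval, mem_fix_iff']
    have h1 : (Comp (fun v v' => v' ∈ f.eval v)
        (Comp (fun v v' : List ℕ => ∃ n, v.headI = n + 1 ∧ v' = n :: v.tail)
          fun v v' => v' = v.tail)) = fun x y => Sum.inr y ∈ (f.eval x).map fun v =>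
            if v.headI = 0 then (Sum.inl v.tail : List ℕ ⊕ List ℕ) else Sum.inr v.tail := by
      funext x y
      simp only [Comp, Part.mem_map_iff, eq_iff_iff]
      constructor
      · rintro ⟨w, h1, _, ⟨n, h2, rfl⟩, rfl⟩
        exact ⟨w, h1, by simp [h2]⟩
      · rintro ⟨w, h1, h2⟩
        rcases h3 : w.headI with _ | n
        · simp [h3] at h2
        · simp only [h3, Nat.succ_ne_zero, if_false, Sum.inr.injEq] at h2
          exact ⟨w, h1, _, ⟨n, h3, rfl⟩, by simp [h2]⟩
    rw [h1]
    refine exists_congr fun w => and_congr Iff.rfl ?_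
    simp only [Comp, Part.mem_map_iff]
    refine exists_congr fun u => and_congr Iff.rfl ?_
    by_cases h : u.headI = 0
    · simp [h, eq_comm]
    · simp [h]

end GMA
end Crest.Agent.R185
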