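import Crest.Agent.R185.Mod

/-!
# Row 185: `FP` for groups, permutation modules, Brown's lemma, Meinert's trick (task R185-Grp)

PLAN.
* `MFP_perm`: first the *induction* lemma: for `H ≤ G` and a `ℤH`-module `M` that is `MFP k`, the
  induced module is `MFP k` over `ℤG`.  Model `Ind M` as `(G ⧸ H) →₀ M` with the twisted action through
  a section (or as `ZG G ⊗[ZG H] M` / coinvariants, whatever is easiest): it is an exact functor (exact
  since additively it is `Finsupp.mapRange`), additive, and `Ind (ZG H) ≅ ZG G`.  Induct on `k` over all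
  `M`.  `Ind ℤ ≅ ℤ[G/H]`.  A `G`-set with finitely many orbits is a finite disjoint union of `G/H_i`
  (`MFP.pi`), or induct on the number of orbits with `ses_mid`.
* `FP.ext`: `ℤ[G/N]` (= `ZG (G ⧸ N)` as `ZG G`-module) is `MFP k` by `MFP_perm`; `MFP.restrict`.
* `FP.finite`: `ZG G` is module-finite over `ℤ`, hence Noetherian; `MFP.noeth`.
* `FP.int`: `0 → R → R → ℤ → 0` (multiplication by `t - 1`), or `ZG ℤ` Noetherian
  (`AddMonoidAlgebra`/Laurent polynomials are finite type over `ℤ`; `Multiplicative ℤ` is f.g. commutative).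
* `FP.pi`: induction on the index type with `FP.ext` (`Finite.induction_empty_option`).
* `brown`: `C_n` = permutation module on `{l ∈ K | length = n+1}`; `Z_{-1} = ℤ`, `Z_n = ker ∂`;
  `0 → Z_n → C_n → Z_{n-1} → 0`; `Z_k` is a quotient of `C_{k+1}` so finite; go down with `ses_quot`.
  (`bd ∘ bd = 0`, equivariance of `bdL` under `List.map`, supports of `bdL l` are sublists of length
  `length l - 1` are needed: put such general facts on `bdL` in `R185/ListCx.lean`.)
* `meinert`: induction on the number of factors.  Step: `A'` (product of the others, `FP∞`), `C`, with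
  `χ'`, `χ_C` onto, `B = ker χ'` is `FP k`; `N = {(a,c) | χ' a * χ_C c = 1}`; `s ∈ C` with `χ_C s = 1`;
  `H = {(a, s^(-χ' a))} ≅ A'`.  `N` acts on `C ⧸ zpowers s` through `N ↠ C` (kernel `B`) transitively with
  stabiliser `H`, so `ℤ[C/⟨s⟩]` is `MFP (k+1)` over `ℤN`.  Let `I` be the augmentation kernel
  `0 → I → ℤ[C/⟨s⟩] → ℤ → 0`.  Over `ℤC` the middle is `MFP ∞` (stabiliser `≅ ℤ`), `ℤ` is `MFP (k+1)`, so `I` is
  `MFP k` over `ℤC` (`ses_sub`); `ℤC = ℤ[N/B]` is `MFP k` over `ℤN`; `restrict` ⇒ `I` is `MFP k` over `ℤN`;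
  `ses_quot` ⇒ `ℤ` is `MFP (k+1)` over `ℤN`.  Base: `FP _ 0` always holds.
-/

set_option autoImplicit false

namespace Crest.Agent.R185

open Function

/-! ### Linearity over group rings -/

theorem ZG.smul_compat {G : Type} [Group G] {R' M N : Type} [Ring R'] [AddCommGroup M]
    [Module (ZG G) M] [AddCommGroup N] [Module R' N] (σ : ZG G →+* R') (φ : M →+ N)
    (h : ∀ g m, φ ((MonoidAlgebra.single g 1 : ZG G) • m) = σ (MonoidAlgebra.single g 1) • φ m)
    (r : ZG G) (m : M) : φ (r • m) = σ r • φ m := by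
  induction r using MonoidAlgebra.induction_linear with
  | zero => simp
  | add f g hf hg => simp only [add_smul, map_add, hf, hg]
  | single g z =>
    have : (MonoidAlgebra.single g z : ZG G) = (z : ZG G) * MonoidAlgebra.single g 1 := by
      rw [← zsmul_eq_mul]
      simp
    rw [this, mul_smul, Int.cast_smul_eq_zsmul, map_zsmul, h, map_mul, map_intCast, mul_smul,
      Int.cast_smul_eq_zsmul]

/-- An equivariant additive map is `ℤG`-linear. -/
def ZG.mkLin {G : Type} [Group G] {M N : Type} [AddCommGroup M]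
    [Module (ZG G) M] [AddCommGroup N] [Module (ZG G) N] (φ : M →+ N)
    (h : ∀ g m, φ ((MonoidAlgebra.single g 1 : ZG G) • m) =
      (MonoidAlgebra.single g 1 : ZG G) • φ m) : M →ₗ[ZG G] N where
  toFun := φ
  map_add' := φ.map_add
  map_smul' := ZG.smul_compat (G := G) (RingHom.id (ZG G)) φ h

@[simp] theorem ZG.mkLin_apply {G : Type} [Group G] {M N : Type} [AddCommGroup M]
    [Module (ZG G) M] [AddCommGroup N] [Module (ZG G) N] (φ : M →+ N) (h) (m : M) :
    ZG.mkLin (G := G) φ h m = φ m := rfl

theorem MFP.of_addEquiv {G : Type} [Group G] {M N : Type} [AddCommGroup M]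
    [Module (ZG G) M] [AddCommGroup N] [Module (ZG G) N] {k : ℕ} (e : M ≃+ N)
    (h : ∀ g m, e ((MonoidAlgebra.single g 1 : ZG G) • m) =
      (MonoidAlgebra.single g 1 : ZG G) • e m) (hM : MFP (ZG G) k M) : MFP (ZG G) k N :=
  MFP.of_ringEquiv (RingEquiv.refl _) e
    (ZG.smul_compat (G := G) (RingHom.id (ZG G)) e.toAddMonoidHom h) hM

theorem asModule_single_smul {G V : Type} [Group G] [AddCommGroup V] (ρ : Representation ℤ G V)
    (g : G) (v : ρ.asModule) :
    ρ.asModuleEquiv ((MonoidAlgebra.single g 1 : ZG G) • v) = ρ g (ρ.asModuleEquiv v) := by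
  rw [Representation.asModuleEquiv_map_smul, Representation.asAlgebraHom_single_one]

theorem Triv.single_smul {G : Type} [Group G] (g : G) (v : Triv G) :
    (MonoidAlgebra.single g 1 : ZG G) • v = v := by
  apply (Representation.trivial ℤ G ℤ).asModuleEquiv.injective
  rw [asModule_single_smul]
  rfl

/-- `ℤ ≃ Triv G`. -/
noncomputable def Triv.equiv (G : Type) [Group G] : ℤ ≃+ Triv G :=
  (Representation.trivial ℤ G ℤ).asModuleEquiv.symm.toAddEquiv

/-- The permutation module `ℤ[X]`. -/
abbrev PermMod (G X : Type) [Group G] [MulAction G X] : Type :=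
  (Representation.ofMulAction ℤ G X).asModule

/-- `(X →₀ ℤ) ≃ PermMod G X`. -/
noncomputable def PermMod.equiv (G X : Type) [Group G] [MulAction G X] :
    (X →₀ ℤ) ≃+ PermMod G X :=
  (MonoidAlgebra.coeffAddEquiv (R := ℤ) (M := X)).symm.trans
    (Representation.ofMulAction ℤ G X).asModuleEquiv.symm.toAddEquiv

theorem PermMod.smul_equiv {G X : Type} [Group G] [MulAction G X] (g : G) (c : X →₀ ℤ) :
    (MonoidAlgebra.single g 1 : ZG G) • PermMod.equiv G X c =
      PermMod.equiv G X (Finsupp.mapDomain (g • ·) c) := by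
  apply (Representation.ofMulAction ℤ G X).asModuleEquiv.injective
  rw [asModule_single_smul]
  rfl

theorem PermMod.symm_smul {G X : Type} [Group G] [MulAction G X] (g : G) (c : PermMod G X) :
    (PermMod.equiv G X).symm ((MonoidAlgebra.single g 1 : ZG G) • c) =
      Finsupp.mapDomain (g • ·) ((PermMod.equiv G X).symm c) := by
  obtain ⟨c, rfl⟩ := (PermMod.equiv G X).surjective c
  rw [PermMod.smul_equiv, AddEquiv.symm_apply_apply, AddEquiv.symm_apply_apply]

theorem mapDomain_smul_apply {G X : Type} [Group G] [MulAction G X] (g : G) (c : X →₀ ℤ) (x : X) :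
    Finsupp.mapDomain (g • ·) c x = c (g⁻¹ • x) := by
  conv_lhs => rw [← smul_inv_smul g x]
  exact Finsupp.mapDomain_apply (MulAction.injective g) c _

/-! ### Base change along a ring map that is free on the right -/

/-- `(m_j) ↦ ∑ b_j • ι m_j`. -/
noncomputable def indMap {R' J M N : Type} [Ring R'] [AddCommGroup M] [AddCommGroup N]
    [Module R' N] (b : J → R') (ι : M →+ N) : (J →₀ M) →+ N :=
  Finsupp.liftAddHom fun j => (DistribSMul.toAddMonoidHom N (b j)).comp ι

@[simp] theorem indMap_single {R' J M N : Type} [Ring R'] [AddCommGroup M] [AddCommGroup N]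
    [Module R' N] (b : J → R') (ι : M →+ N) (j : J) (m : M) :
    indMap b ι (Finsupp.single j m) = b j • ι m := by
  simp [indMap]

theorem indMap_nat {R' J M N M' N' : Type} [Ring R'] [AddCommGroup M] [AddCommGroup N]
    [Module R' N] [AddCommGroup M'] [AddCommGroup N'] [Module R' N'] (b : J → R') (ι : M →+ N)
    (ι' : M' →+ N') (f : M →+ M') (f' : N →ₗ[R'] N') (h : ∀ m, f' (ι m) = ι' (f m))
    (c : J →₀ M) : f' (indMap b ι c) = indMap b ι' (Finsupp.mapRange.addMonoidHom f c) := by
  induction c using Finsupp.induction_linear with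
  | zero => simp
  | add c d hc hd => simp only [map_add, hc, hd]
  | single j m => simp [h]

theorem indMap_bij {R' J M N X Y : Type} [Ring R'] [AddCommGroup M] [AddCommGroup N]
    [Module R' N] (b : J → R') (ι : M →+ N) (eM : (Y →₀ ℤ) ≃+ M) (eN : (X →₀ ℤ) ≃+ N)
    (β : J × Y ≃ X)
    (h : ∀ j y, b j • ι (eM (Finsupp.single y 1)) = eN (Finsupp.single (β (j, y)) 1)) :
    Bijective (indMap b ι) := by
  classical
  let E : (J × Y →₀ ℤ) ≃+ (J →₀ M) :=
    (Finsupp.curryAddEquiv).trans (Finsupp.mapRange.addEquiv eM)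
  have : (indMap b ι).comp E.toAddMonoidHom =
      ((Finsupp.domCongr β).trans eN).toAddMonoidHom := by
    refine Finsupp.addHom_ext' fun ⟨j, y⟩ => AddMonoidHom.ext_int ?_
    simp [E, h]
  have h2 : Bijective (indMap b ι ∘ E) := by
    have h3 : indMap b ι ∘ E = ((Finsupp.domCongr β).trans eN) :=
      funext fun c => DFunLike.congr_fun this c
    rw [h3]
    exact AddEquiv.bijective _
  exact (Bijective.of_comp_iff _ E.bijective).1 h2

theorem indMap_pi {R R' J : Type} [Ring R] [Ring R'] (b : J → R') (φ : R →+* R')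
    (hb : Bijective (indMap b φ.toAddMonoidHom)) (n : ℕ) :
    Bijective (indMap b (φ.toAddMonoidHom.compLeft (Fin n))) := by
  classical
  have key : ∀ (c : J →₀ (Fin n → R)) i, indMap b (φ.toAddMonoidHom.compLeft (Fin n)) c i =
      indMap b φ.toAddMonoidHom
        (Finsupp.mapRange.addMonoidHom (Pi.evalAddMonoidHom (fun _ : Fin n => R) i) c) :=
    fun c i => indMap_nat b (φ.toAddMonoidHom.compLeft (Fin n)) φ.toAddMonoidHom
      (Pi.evalAddMonoidHom (fun _ : Fin n => R) i) (LinearMap.proj i) (fun _ => rfl) c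
  constructor
  · rw [injective_iff_map_eq_zero]
    intro c hc
    ext j i
    have h1 := key c i
    rw [hc] at h1
    have h2 := (injective_iff_map_eq_zero _).1 hb.1 _ h1.symm
    exact DFunLike.congr_fun h2 j
  · intro y
    choose c hc using fun i => hb.2 (y i)
    refine ⟨Finsupp.onFinset (Finset.univ.biUnion fun i => (c i).support) (fun j i => c i j) ?_, ?_⟩
    · intro j hj
      by_contra hcon
      apply hj
      funext i
      by_contra h
      exact hcon (Finset.mem_biUnion.2 ⟨i, Finset.mem_univ _, Finsupp.mem_support_iff.2 h⟩)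
    · funext i
      rw [key, ← hc i]
      congr 1
      ext j
      rfl

theorem MFP.baseChange {R R' J : Type} [Ring R] [Ring R'] (b : J → R') (φ : R →+* R')
    (hb : Bijective (indMap b φ.toAddMonoidHom)) {k : ℕ} {M N : Type} [AddCommGroup M]
    [Module R M] [AddCommGroup N] [Module R' N] (ι : M →+ N)
    (hι : ∀ r m, ι (r • m) = φ r • ι m) (hbij : Bijective (indMap b ι)) (h : MFP R k M) :
    MFP R' k N := by
  classical
  have cover : ∀ {M N : Type} [AddCommGroup M] [Module R M] [AddCommGroup N] [Module R' N]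
      (ι : M →+ N) (_ : ∀ r m, ι (r • m) = φ r • ι m) (_ : Bijective (indMap b ι)) (n : ℕ)
      (f : (Fin n → R) →ₗ[R] M) (_ : Surjective f), ∃ f' : (Fin n → R') →ₗ[R'] N,
        Surjective f' ∧ ∀ x, f' (φ.toAddMonoidHom.compLeft (Fin n) x) = ι (f x) := by
    intro M N _ _ _ _ ι hι hbij n f hf
    let f' : (Fin n → R') →ₗ[R'] N :=
      Fintype.linearCombination R' fun i => ι (f (Pi.single i 1))
    have hf' : ∀ x, f' (φ.toAddMonoidHom.compLeft (Fin n) x) = ι (f x) := by
      intro x
      have hx : x = ∑ i, x i • Pi.single i (1 : R) := by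
        ext j
        simp [Pi.single_apply]
      conv_rhs => rw [hx]
      simp only [f', Fintype.linearCombination_apply, map_sum, map_smul, hι]
      rfl
    refine ⟨f', ?_, hf'⟩
    intro y
    obtain ⟨c, rfl⟩ := hbij.2 y
    obtain ⟨d, rfl⟩ := Finsupp.mapRange_surjective f f.map_zero hf c
    exact ⟨_, indMap_nat b _ ι f.toAddMonoidHom f' hf' d⟩
  induction k generalizing M N with
  | zero =>
    have : Module.Finite R M := h
    obtain ⟨n, f, hf⟩ := Module.Finite.exists_fin' R M
    obtain ⟨f', hf', -⟩ := cover ι hι hbij n f hf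
    exact Module.Finite.of_surjective f' hf'
  | succ k ih =>
    obtain ⟨n, f, hf, hk⟩ := h
    obtain ⟨f', hf', hc⟩ := cover ι hι hbij n f hf
    refine ⟨n, f', hf', ?_⟩
    let ι' : LinearMap.ker f →+ LinearMap.ker f' :=
      ((φ.toAddMonoidHom.compLeft (Fin n)).comp (LinearMap.ker f).subtype.toAddMonoidHom).codRestrict
        (LinearMap.ker f') (fun x => by
          have : f x.1 = 0 := x.2
          rw [LinearMap.mem_ker]
          change f' (φ.toAddMonoidHom.compLeft (Fin n) x.1) = 0
          rw [hc, this, map_zero])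
    have hnat := indMap_nat b ι' (φ.toAddMonoidHom.compLeft (Fin n))
      (LinearMap.ker f).subtype.toAddMonoidHom (LinearMap.ker f').subtype (fun _ => rfl)
    have hpi := indMap_pi b φ hb n
    refine ih ι' ?_ ⟨?_, ?_⟩ hk
    · intro r m
      ext i
      exact φ.map_mul r (m.1 i)
    · rw [injective_iff_map_eq_zero]
      intro c hc0
      have h1 := hnat c
      rw [hc0, map_zero] at h1
      have h2 := (injective_iff_map_eq_zero _).1 hpi.1 _ h1.symm
      ext j : 1
      exact Subtype.ext (DFunLike.congr_fun h2 j)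
    · rintro ⟨y, hy⟩
      obtain ⟨c, rfl⟩ := hpi.2 y
      rw [LinearMap.mem_ker, indMap_nat b _ ι f.toAddMonoidHom f' hc c] at hy
      have h2 := (injective_iff_map_eq_zero _).1 hbij.1 _ hy
      have h3 : ∀ j, c j ∈ LinearMap.ker f := fun j => DFunLike.congr_fun h2 j
      refine ⟨Finsupp.onFinset c.support (fun j => ⟨c j, h3 j⟩) ?_, Subtype.ext ?_⟩
      · intro j hj
        rw [Finsupp.mem_support_iff]
        intro h
        exact hj (Subtype.ext h)
      · refine (hnat _).trans ?_
        congr 1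
        ext j
        rfl

/-- The bijection `G ⧸ H × H ≃ G`. -/
noncomputable def quotProdEquiv {G : Type} [Group G] (H : Subgroup G) : (G ⧸ H) × H ≃ G :=
  Equiv.ofBijective (fun p => p.1.out * p.2) (by
    constructor
    · rintro ⟨j, h⟩ ⟨j', h'⟩ e
      have e' : j.out * (h : G) = j'.out * h' := e
      have : j = j' := by
        have h1 := congrArg (QuotientGroup.mk (s := H)) e'
        rwa [QuotientGroup.mk_mul_of_mem _ h.2, QuotientGroup.mk_mul_of_mem _ h'.2,
          QuotientGroup.out_eq', QuotientGroup.out_eq'] at h1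
      subst this
      rw [Subtype.ext (mul_left_cancel e')]
    · intro g
      refine ⟨(QuotientGroup.mk g, ⟨(QuotientGroup.mk g : G ⧸ H).out⁻¹ * g, ?_⟩), by simp⟩
      rw [← QuotientGroup.eq, QuotientGroup.out_eq'])

theorem indMap_subgroup {G : Type} [Group G] (H : Subgroup G) :
    Bijective (indMap (fun j : G ⧸ H => (MonoidAlgebra.single j.out 1 : ZG G))
      (MonoidAlgebra.mapDomainRingHom ℤ H.subtype).toAddMonoidHom) := by
  refine indMap_bij _ _ MonoidAlgebra.coeffAddEquiv.symm MonoidAlgebra.coeffAddEquiv.symm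
    (quotProdEquiv H) fun j y => ?_
  simp [quotProdEquiv, MonoidAlgebra.single_mul_single]

theorem MFP_perm_trans {G X : Type} [Group G] [MulAction G X] {k : ℕ} (x : X)
    (htr : ∀ y, ∃ g : G, g • x = y) (hst : FP (MulAction.stabilizer G x) k) :
    MFP (ZG G) k (PermMod G X) := by
  let H := MulAction.stabilizer G x
  let ι : Triv H →+ PermMod G X :=
    (PermMod.equiv G X).toAddMonoidHom.comp
      ((Finsupp.singleAddHom x).comp (Triv.equiv H).symm.toAddMonoidHom)
  have hι : ∀ m, ι m = PermMod.equiv G X (Finsupp.single x ((Triv.equiv H).symm m)) :=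
    fun _ => rfl
  let β : (G ⧸ H) × Unit ≃ X := Equiv.ofBijective (fun p => p.1.out • x) (by
    constructor
    · rintro ⟨j, u⟩ ⟨j', u'⟩ e
      have e' : j.out • x = j'.out • x := e
      have : j = j' := by
        rw [← QuotientGroup.out_eq' j, ← QuotientGroup.out_eq' j', QuotientGroup.eq,
          MulAction.mem_stabilizer_iff, mul_smul, ← e', inv_smul_smul]
      rw [this]
    · intro y
      obtain ⟨g, rfl⟩ := htr y
      refine ⟨(QuotientGroup.mk g, ()), ?_⟩
      obtain ⟨h, hh⟩ := QuotientGroup.mk_out_eq_mul H g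
      change (QuotientGroup.mk g : G ⧸ H).out • x = g • x
      rw [hh, mul_smul, MulAction.mem_stabilizer_iff.1 h.2])
  refine MFP.baseChange _ _ (indMap_subgroup H) ι ?_ ?_ hst
  · refine ZG.smul_compat _ ι fun g m => ?_
    rw [Triv.single_smul, hι]
    have : (MonoidAlgebra.mapDomainRingHom ℤ H.subtype) (MonoidAlgebra.single g 1) =
        MonoidAlgebra.single (g : G) 1 := by simp
    rw [this, PermMod.smul_equiv, Finsupp.mapDomain_single, MulAction.mem_stabilizer_iff.1 g.2]
  · refine indMap_bij _ _ ((Finsupp.uniqueAddEquiv ()).trans (Triv.equiv H))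
      (PermMod.equiv G X) β fun j y => ?_
    rw [hι, PermMod.smul_equiv, Finsupp.mapDomain_single]
    simp [β]

theorem FP.zero (G : Type) [Group G] : FP G 0 := by
  have : Module.Finite ℤ (Triv G) := Module.Finite.equiv (Triv.equiv G).toIntLinearEquiv
  exact Module.Finite.of_restrictScalars_finite ℤ (ZG G) (Triv G)

theorem FP.mono {G : Type} [Group G] {k l : ℕ} (hkl : k ≤ l) (h : FP G l) : FP G k :=
  MFP.mono hkl h

theorem FP.of_equiv {G H : Type} [Group G] [Group H] (e : G ≃* H) {k : ℕ} (h : FP G k) :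
    FP H k := by
  refine MFP.of_ringEquiv (MonoidAlgebra.mapDomainRingEquiv ℤ e)
    ((Triv.equiv G).symm.trans (Triv.equiv H)) ?_ h
  refine ZG.smul_compat (MonoidAlgebra.mapDomainRingEquiv ℤ e).toRingHom
    ((Triv.equiv G).symm.trans (Triv.equiv H)).toAddMonoidHom fun g m => ?_
  have : (MonoidAlgebra.mapDomainRingEquiv ℤ e).toRingHom (MonoidAlgebra.single g 1) =
      MonoidAlgebra.single (e g) 1 := MonoidAlgebra.mapDomainRingEquiv_single e 1 g
  rw [this, Triv.single_smul, Triv.single_smul]

theorem MFP_perm {G X : Type} [Group G] [MulAction G X] {k : ℕ}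
    (hfin : Finite (MulAction.orbitRel.Quotient G X))
    (hst : ∀ x : X, FP (MulAction.stabilizer G x) k) : MFP (ZG G) k (PermMod G X) := by
  classical
  have h1 : ∀ ω : MulAction.orbitRel.Quotient G X, MFP (ZG G) k (PermMod G ω.orbit) := by
    intro ω
    obtain ⟨x, hx⟩ := ω.nonempty_orbit
    refine MFP_perm_trans ⟨x, hx⟩ ?_ ?_
    · rintro ⟨y, hy⟩
      rw [MulAction.orbitRel.Quotient.mem_orbit] at hx hy
      obtain ⟨g, hg⟩ : y ∈ MulAction.orbit G x := by
        rw [← MulAction.orbitRel_apply, ← Quotient.eq'']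
        exact hy.trans hx.symm
      exact ⟨g, Subtype.ext hg⟩
    · refine FP.of_equiv (MulEquiv.subgroupCongr ?_) (hst x)
      ext g
      simp [MulAction.mem_stabilizer_iff, Subtype.ext_iff]
  let Ψ : PermMod G X →+ ∀ ω : MulAction.orbitRel.Quotient G X, PermMod G ω.orbit :=
    AddMonoidHom.pi fun ω => (PermMod.equiv G ω.orbit).toAddMonoidHom.comp
      ((Finsupp.subtypeDomainAddMonoidHom).comp (PermMod.equiv G X).symm.toAddMonoidHom)
  have hΨ : ∀ c ω y, (PermMod.equiv G ω.orbit).symm (Ψ c ω) y = (PermMod.equiv G X).symm c y.1 := by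
    intro c ω y
    change (PermMod.equiv G ω.orbit).symm ((PermMod.equiv G ω.orbit) _) y = _
    rw [AddEquiv.symm_apply_apply]
    rfl
  have hmem : ∀ x : X, x ∈ MulAction.orbitRel.Quotient.orbit (G := G) (Quotient.mk'' x) :=
    fun x => MulAction.orbitRel.Quotient.mem_orbit.2 rfl
  have hbij : Bijective Ψ := by
    constructor
    · rw [injective_iff_map_eq_zero]
      intro c hc
      apply (PermMod.equiv G X).symm.injective
      ext x
      rw [← hΨ c _ ⟨x, hmem x⟩, hc, Pi.zero_apply, map_zero, map_zero]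
      rfl
    · intro d
      have := Fintype.ofFinite (MulAction.orbitRel.Quotient G X)
      refine ⟨PermMod.equiv G X (Finsupp.onFinset
        (Finset.univ.biUnion fun ω =>
          ((PermMod.equiv G ω.orbit).symm (d ω)).support.image Subtype.val)
        (fun x => (PermMod.equiv G _).symm (d (Quotient.mk'' x)) ⟨x, hmem x⟩) ?_), ?_⟩
      · intro x hx
        exact Finset.mem_biUnion.2 ⟨_, Finset.mem_univ _,
          Finset.mem_image.2 ⟨⟨x, hmem x⟩, Finsupp.mem_support_iff.2 hx, rfl⟩⟩
      · funext ω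
        apply (PermMod.equiv G ω.orbit).symm.injective
        ext ⟨y, hy⟩
        rw [hΨ, AddEquiv.symm_apply_apply]
        obtain rfl := MulAction.orbitRel.Quotient.mem_orbit.1 hy
        rfl
  let L := ZG.mkLin (G := G) Ψ (fun g c => by
    funext ω
    apply (PermMod.equiv G ω.orbit).symm.injective
    ext y
    rw [hΨ, PermMod.symm_smul, Pi.smul_apply, PermMod.symm_smul, mapDomain_smul_apply,
      mapDomain_smul_apply, hΨ]
    rfl)
  exact MFP.of_equiv (LinearEquiv.ofBijective L hbij).symm (MFP.pi h1)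

/-- A version of `MFP_perm` for an abstract permutation module. -/
theorem MFP_perm' {G X M : Type} [Group G] [MulAction G X] [AddCommGroup M] [Module (ZG G) M]
    {k : ℕ} (e : (X →₀ ℤ) ≃+ M)
    (he : ∀ (g : G) c, (MonoidAlgebra.single g 1 : ZG G) • e c = e (Finsupp.mapDomain (g • ·) c))
    (hfin : Finite (MulAction.orbitRel.Quotient G X))
    (hst : ∀ x : X, FP (MulAction.stabilizer G x) k) : MFP (ZG G) k M := by
  refine MFP.of_addEquiv ((PermMod.equiv G X).symm.trans e) (fun g c => ?_) (MFP_perm hfin hst)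
  rw [AddEquiv.trans_apply, AddEquiv.trans_apply, he, PermMod.symm_smul]

theorem MFP.restrict' {R R' : Type} [Ring R] [Ring R'] (σ : R →+* R') {k : ℕ} {P M N : Type}
    [AddCommGroup P] [Module R P] (eP : P ≃+ R') (heP : ∀ r p, eP (r • p) = σ r * eP p)
    (hP : MFP R k P) [AddCommGroup M] [Module R' M] [AddCommGroup N] [Module R N] (e : N ≃+ M)
    (he : ∀ r n, e (r • n) = σ r • e n) (h : MFP R' k M) : MFP R k N := by
  let : Module R R' := Module.compHom R' σ
  let : Module R M := Module.compHom M σ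
  have : IsScalarTower R R' R' := ⟨fun a b c => mul_assoc (σ a) b c⟩
  have : IsScalarTower R R' M := ⟨fun a b c => mul_smul (σ a) b c⟩
  have h1 : MFP R k R' := MFP.of_ringEquiv (RingEquiv.refl R) eP heP hP
  have h2 : MFP R k M := MFP.restrict h1 h
  refine MFP.of_ringEquiv (RingEquiv.refl R) e.symm (fun r m => ?_) h2
  apply e.injective
  rw [AddEquiv.apply_symm_apply, he, AddEquiv.apply_symm_apply]
  rfl

/-- Restriction along a surjection of groups whose kernel is `FP k`. -/
theorem MFP.restrict_hom {G Q : Type} [Group G] [Group Q] (π : G →* Q) (hπ : Surjective π)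
    {k : ℕ} (hker : FP π.ker k) {M N : Type} [AddCommGroup M] [Module (ZG Q) M] [AddCommGroup N]
    [Module (ZG G) N] (e : N ≃+ M)
    (he : ∀ g n, e ((MonoidAlgebra.single g 1 : ZG G) • n) =
      (MonoidAlgebra.single (π g) 1 : ZG Q) • e n)
    (h : MFP (ZG Q) k M) : MFP (ZG G) k N := by
  let : MulAction G Q := MulAction.compHom Q π
  have hsm : ∀ (g : G) (q : Q), g • q = π g * q := fun _ _ => rfl
  have hσ : ∀ g, MonoidAlgebra.mapDomainRingHom ℤ π (MonoidAlgebra.single g 1) =
      MonoidAlgebra.single (π g) 1 := fun g => by simp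
  have hP : MFP (ZG G) k (PermMod G Q) := by
    refine MFP_perm_trans (1 : Q) (fun y => ?_) (FP.of_equiv (MulEquiv.subgroupCongr ?_) hker)
    · obtain ⟨g, rfl⟩ := hπ y
      exact ⟨g, by rw [hsm, mul_one]⟩
    · ext g
      rw [MulAction.mem_stabilizer_iff, hsm, mul_one, MonoidHom.mem_ker]
  refine MFP.restrict' (MonoidAlgebra.mapDomainRingHom ℤ π)
    ((PermMod.equiv G Q).symm.trans MonoidAlgebra.coeffAddEquiv.symm) ?_ hP e ?_ h
  · refine ZG.smul_compat (N := ZG Q) (MonoidAlgebra.mapDomainRingHom ℤ π)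
      ((PermMod.equiv G Q).symm.trans MonoidAlgebra.coeffAddEquiv.symm).toAddMonoidHom
      fun g c => ?_
    obtain ⟨c, rfl⟩ := (PermMod.equiv G Q).surjective c
    rw [hσ, PermMod.smul_equiv]
    simp only [AddEquiv.toAddMonoidHom_eq_coe, AddMonoidHom.coe_coe, AddEquiv.trans_apply,
      AddEquiv.symm_apply_apply]
    induction c using Finsupp.induction_linear with
    | zero => simp
    | add c d hc hd => rw [Finsupp.mapDomain_add, map_add, map_add, smul_add, hc, hd]
    | single q z => simp [hsm, MonoidAlgebra.single_mul_single]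
  · refine ZG.smul_compat _ e.toAddMonoidHom fun g n => ?_
    rw [hσ]
    exact he g n

theorem FP.ext' {G Q : Type} [Group G] [Group Q] (π : G →* Q) (hπ : Surjective π) {k : ℕ}
    (hker : FP π.ker k) (hQ : FP Q k) : FP G k :=
  MFP.restrict_hom π hπ hker ((Triv.equiv G).symm.trans (Triv.equiv Q))
    (fun g n => by rw [Triv.single_smul, Triv.single_smul]) hQ

theorem FP.ext {G : Type} [Group G] (N : Subgroup G) [N.Normal] {k : ℕ} (hN : FP N k)
    (hQ : FP (G ⧸ N) k) : FP G k :=
  FP.ext' (QuotientGroup.mk' N) (QuotientGroup.mk'_surjective N)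
    (FP.of_equiv (MulEquiv.subgroupCongr (QuotientGroup.ker_mk' N).symm) hN) hQ

theorem FP.finite (G : Type) [Group G] [Finite G] (k : ℕ) : FP G k := by
  have : IsNoetherianRing (ZG G) :=
    isNoetherian_of_tower ℤ (inferInstance : IsNoetherian ℤ (ZG G))
  have : Module.Finite (ZG G) (Triv G) := FP.zero G
  exact MFP.noeth

theorem FP.int (k : ℕ) : FP (Multiplicative ℤ) k := by
  have : Algebra.FiniteType ℤ (ZG (Multiplicative ℤ)) :=
    MonoidAlgebra.finiteType_iff_group_fg.2 inferInstance
  have : IsNoetherianRing (ZG (Multiplicative ℤ)) :=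
    Algebra.FiniteType.isNoetherianRing ℤ _
  have : Module.Finite (ZG (Multiplicative ℤ)) (Triv (Multiplicative ℤ)) := FP.zero _
  exact MFP.noeth

theorem FP.of_finiteIndex {G : Type} [Group G] (N : Subgroup G) [N.Normal] [N.FiniteIndex]
    {k : ℕ} (hN : FP N k) : FP G k :=
  FP.ext N hN (FP.finite _ k)

theorem FP.prod {A B : Type} [Group A] [Group B] {k : ℕ} (hA : FP A k) (hB : FP B k) :
    FP (A × B) k := by
  refine FP.ext' (MonoidHom.snd A B) Prod.snd_surjective (FP.of_equiv ?_ hA) hB
  exact
    { toFun := fun a => ⟨(a, 1), rfl⟩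
      invFun := fun x => x.1.1
      left_inv := fun _ => rfl
      right_inv := fun x => Subtype.ext (Prod.ext rfl (Eq.symm x.2))
      map_mul' := fun a b => Subtype.ext (Prod.ext rfl (mul_one _).symm) }

theorem FP.pi {ι : Type} [Finite ι] {A : ι → Type} [∀ i, Group (A i)] {k : ℕ}
    (h : ∀ i, FP (A i) k) : FP (∀ i, A i) k := by
  revert A
  refine Finite.induction_empty_option
    (P := fun ι => ∀ {A : ι → Type} [∀ i, Group (A i)], (∀ i, FP (A i) k) → FP (∀ i, A i) k)
    ?_ ?_ ?_ ι
  · intro α β e ih A _ h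
    refine FP.of_equiv ?_ (ih (A := fun a => A (e a)) fun a => h (e a))
    exact MulEquiv.symm { (Equiv.piCongrLeft A e).symm with map_mul' := fun _ _ => rfl }
  · intro A _ _
    exact FP.finite _ k
  · intro α _ ih A _ h
    refine FP.of_equiv ?_ (FP.prod (h none) (ih (A := fun a => A (some a)) fun a => h (some a)))
    exact MulEquiv.symm { Equiv.piOptionEquivProd with map_mul' := fun _ _ => rfl }

end Crest.Agent.R185
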