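import Crest.Agent.R185.ListCx

/-!
# Row 185: idempotent calculus, 1-finiteness (task R185-Idem; plan in the header of `Kill.lean`)
-/

set_option autoImplicit false

namespace Crest.Agent.R185

section Idem

variable {p : ℕ} {M : Type} [AddCommGroup M]

theorem Orth.add_right {e a b : M3 p} (h1 : Orth e a) (h2 : Orth e b) (h3 : Orth a b) :
    Orth e (a + b) := by
  obtain ⟨h11, h12, h13, h14⟩ := h1
  obtain ⟨-, h22, h23, h24⟩ := h2
  obtain ⟨-, -, h33, h34⟩ := h3
  refine ⟨h11, ?_, ?_, ?_⟩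
  · rw [add_mul, mul_add, mul_add, h12, h22, h33, h34]; simp
  · rw [mul_add, h13, h23, add_zero]
  · rw [add_mul, h14, h24, add_zero]

theorem idem_three (F : M3 p → M) (hF : ∀ e e', Orth e e' → F (e + e') = F e + F e')
    {a b c : M3 p} (hab : Orth a b) (hac : Orth a c) (hbc : Orth b c) (h : a + (b + c) = 1) :
    F a + F b + F c = F 1 := by
  rw [← h, hF _ _ (hab.add_right hac hbc), hF _ _ hbc, add_assoc]

/-- `e₁ ⊗ (e₁* + x e₂* + y e₃*)`. -/
def mA (x y : ZMod p) : M3 p := !![1, x, y; 0, 0, 0; 0, 0, 0]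
def mB (x : ZMod p) : M3 p := !![0, -x, 0; 0, 1, 0; 0, 0, 0]
def mC (y : ZMod p) : M3 p := !![0, 0, -y; 0, 0, 0; 0, 0, 1]
def mB' (x : ZMod p) : M3 p := !![0, -x, 0; 0, 1, 0; 0, 1, 0]
def mC' (y : ZMod p) : M3 p := !![0, y, -y; 0, 0, 0; 0, -1, 1]

theorem idem_std (F : M3 p → M) (hF : ∀ e e', Orth e e' → F (e + e') = F e + F e')
    (x y : ZMod p) : F (mA x y) + F (mB x) + F (mC y) = F 1 := by
  refine idem_three F hF ⟨?_, ?_, ?_, ?_⟩ ⟨?_, ?_, ?_, ?_⟩ ⟨?_, ?_, ?_, ?_⟩ ?_ <;>
    ext i j <;> fin_cases i <;> fin_cases j <;>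
    simp [mA, mB, mC, Matrix.mul_apply, Fin.sum_univ_three]

theorem idem_shear (F : M3 p → M) (hF : ∀ e e', Orth e e' → F (e + e') = F e + F e')
    (x y : ZMod p) : F (mA (x - y) y) + F (mB' x) + F (mC' y) = F 1 := by
  refine idem_three F hF ⟨?_, ?_, ?_, ?_⟩ ⟨?_, ?_, ?_, ?_⟩ ⟨?_, ?_, ?_, ?_⟩ ?_ <;>
    ext i j <;> fin_cases i <;> fin_cases j <;>
    simp [mA, mB', mC', Matrix.mul_apply, Fin.sum_univ_three]
  ring

theorem idem_mA_add (F : M3 p → M) (hF : ∀ e e', Orth e e' → F (e + e') = F e + F e')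
    (x z : ZMod p) : F (mA (x + z) 0) + F (mA 0 0) = F (mA x 0) + F (mA z 0) := by
  have h1 := idem_shear F hF x (-z)
  have h2 := idem_shear F hF x 0
  have h3 := idem_shear F hF 0 (-z)
  have h4 := idem_shear F hF 0 0
  have k1 := idem_std F hF (x + z) (-z)
  have k2 := idem_std F hF (x + z) 0
  have k3 := idem_std F hF z (-z)
  have k4 := idem_std F hF z 0
  simp only [sub_neg_eq_add, sub_zero, zero_add] at h1 h2 h3 h4
  linear_combination (norm := abel1) h1 - h2 - h3 + h4 - k1 + k2 + k3 - k4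

theorem idem_step (F : M3 p → M) (hF : ∀ e e', Orth e e' → F (e + e') = F e + F e') :
    p • F (mA 1 0) = p • F (mA 0 0) := by
  have key : ∀ n : ℕ, F (mA (n : ZMod p) 0) + n • F (mA 0 0) = F (mA 0 0) + n • F (mA 1 0) := by
    intro n
    induction n with
    | zero => simp
    | succ n ih =>
      have h := idem_mA_add F hF (n : ZMod p) 1
      rw [Nat.cast_succ, succ_nsmul, succ_nsmul]
      linear_combination (norm := abel1) ih + h
  have h := key p
  rw [ZMod.natCast_self] at h
  exact (add_left_cancel h).symm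

theorem Orth.conj {e e' : M3 p} (h : Orth e e') (g g' : M3 p) (hg : g' * g = 1) :
    Orth (g * e * g') (g * e' * g') := by
  have key : ∀ a b : M3 p, g * a * g' * (g * b * g') = g * (a * b) * g' := by
    intro a b
    calc g * a * g' * (g * b * g') = g * a * (g' * g) * b * g' := by simp only [mul_assoc]
      _ = g * (a * b) * g' := by rw [hg, mul_one]; simp only [mul_assoc]
  obtain ⟨h1, h2, h3, h4⟩ := h
  refine ⟨?_, ?_, ?_, ?_⟩
  · rw [key, h1]
  · rw [key, h2]
  · rw [key, h3]; simp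
  · rw [key, h4]; simp

theorem Orth.transpose {e e' : M3 p} (h : Orth e e') : Orth e.transpose e'.transpose := by
  obtain ⟨h1, h2, h3, h4⟩ := h
  refine ⟨?_, ?_, ?_, ?_⟩
  · rw [← Matrix.transpose_mul, h1]
  · rw [← Matrix.transpose_mul, h2]
  · rw [← Matrix.transpose_mul, h4, Matrix.transpose_zero]
  · rw [← Matrix.transpose_mul, h3, Matrix.transpose_zero]

def mS : M3 p := !![0, 1, 0; 1, 0, 0; 0, 0, 1]
def mG : M3 p := !![1, -1, 0; 0, 1, 0; 0, 0, 1]
def mG' : M3 p := !![1, 1, 0; 0, 1, 0; 0, 0, 1]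

theorem idem_add' (F : M3 p → M)
    (hF : ∀ e e', Orth e e' → F (e + e') = F e + F e') : p • F (E11 p) = p • F (E22 p) := by
  have hS : (mS : M3 p) * mS = 1 := by
    ext i j; fin_cases i <;> fin_cases j <;> simp [mS, Matrix.mul_apply, Fin.sum_univ_three]
  have hG : (mG' : M3 p) * mG = 1 := by
    ext i j; fin_cases i <;> fin_cases j <;> simp [mG, mG', Matrix.mul_apply, Fin.sum_univ_three]
  have h1 := idem_step F hF
  have h2 := idem_step (fun e => F (mS * e * mS)) (fun e e' h => by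
    rw [mul_add, add_mul, hF _ _ (h.conj _ _ hS)])
  have h3 := idem_step (fun e => F (mG * e.transpose * mG')) (fun e e' h => by
    rw [Matrix.transpose_add, mul_add, add_mul, hF _ _ (h.transpose.conj _ _ hG)])
  have e1 : (mA 0 0 : M3 p) = E11 p := by
    ext i j; fin_cases i <;> fin_cases j <;> simp [mA, E11]
  have e2 : (mS * mA 0 0 * mS : M3 p) = E22 p := by
    ext i j; fin_cases i <;> fin_cases j <;>
      simp [mA, mS, E22, Matrix.mul_apply, Fin.sum_univ_three]
  have t0 : (mA 0 0 : M3 p).transpose = !![1, 0, 0; 0, 0, 0; 0, 0, 0] := by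
    ext i j; fin_cases i <;> fin_cases j <;> rfl
  have t1 : (mA 1 0 : M3 p).transpose = !![1, 0, 0; 1, 0, 0; 0, 0, 0] := by
    ext i j; fin_cases i <;> fin_cases j <;> rfl
  have e3 : (mG * (mA 0 0).transpose * mG' : M3 p) = mA 1 0 := by
    rw [t0]
    ext i j; fin_cases i <;> fin_cases j <;>
      simp [mA, mG, mG', Matrix.mul_apply, Fin.sum_univ_three]
  have e4 : (mG * (mA 1 0).transpose * mG' : M3 p) = mS * mA 1 0 * mS := by
    rw [t1]
    ext i j; fin_cases i <;> fin_cases j <;>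
      simp [mA, mG, mG', mS, Matrix.mul_apply, Fin.sum_univ_three]
  simp only [e3, e4] at h3
  simp only [e2] at h2
  rw [e1] at h1
  rw [← h1, ← h3, h2]

end Idem

theorem idem_add {p : ℕ} (hp : p = 2 ∨ p = 3) {M : Type} [AddCommGroup M] (F : M3 p → M)
    (hF : ∀ e e', Orth e e' → F (e + e') = F e + F e') : p • F (E11 p) = p • F (E22 p) := by
  have _ := hp
  exact idem_add' F hF

theorem pow_of_sys {U V : Type} [Group U] [Group V] (ι : U →* V) {p : ℕ} (h : HasSys p ι)
    (u : U) : Abelianization.of (ι u) ^ p = 1 := by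
  obtain ⟨fA, fB, hs⟩ := h
  have hA := idem_add' (fun e => Additive.ofMul (Abelianization.of (fA e u))) (fun e e' h => by
    rw [hs.famA.add e e' h, map_mul, ofMul_mul])
  have hB := idem_add' (fun e => Additive.ofMul (Abelianization.of (fB e u))) (fun e e' h => by
    rw [hs.famB.add e e' h, map_mul, ofMul_mul])
  simp only [hs.e11, hs.e22, map_mul, ofMul_mul, nsmul_add] at hA
  rw [← hB, add_eq_right, ← ofMul_pow] at hA
  exact hA

theorem comm_of_sys {U V : Type} [Group U] [Group V] (ι : U →* V) (h2 : HasSys 2 ι)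
    (h3 : HasSys 3 ι) (u : U) : ι u ∈ commutator V := by
  have k2 := pow_of_sys ι h2 u
  have k3 := pow_of_sys ι h3 u
  rw [pow_succ, k2, one_mul] at k3
  rw [← Abelianization.ker_of]
  exact k3

open Finsupp

/-- Controlled chains of edges. -/
def CtrlEdge {V : Type} [Group V] (D : Set V) (c : List V →₀ ℤ) : Prop :=
  ∀ m ∈ c.support, m.length = 2 ∧ ∀ a ∈ m, ∀ b ∈ m, a⁻¹ * b ∈ D

theorem CtrlEdge.push {V : Type} [Group V] {D : Set V} {c : List V →₀ ℤ} (h : CtrlEdge D c)
    (v : V) : CtrlEdge D (push (v * ·) c) := by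
  intro m hm
  obtain ⟨l, hl, rfl⟩ := mem_support_push hm
  obtain ⟨h1, h2⟩ := h l hl
  refine ⟨by simpa using h1, ?_⟩
  intro a ha b hb
  obtain ⟨a, ha', rfl⟩ := List.mem_map.1 ha
  obtain ⟨b, hb', rfl⟩ := List.mem_map.1 hb
  simpa [mul_assoc] using h2 a ha' b hb'

theorem exists_path {V E : Type} [Group V] [Group E] (hE : Group.FG E) (β : E →* V) :
    ∃ D : Set V, D.Finite ∧ 1 ∈ D ∧ ∀ x : E, ∃ c : List V →₀ ℤ, CtrlEdge D c ∧
      bd c = single [β x] 1 - single [1] 1 := by
  classical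
  obtain ⟨S, hS, hfin⟩ := Group.fg_iff.1 hE
  refine ⟨{1} ∪ (β '' S ∪ (β '' S)⁻¹), (Set.finite_singleton _).union
    ((hfin.image β).union (hfin.image β).inv), by simp, ?_⟩
  intro x
  have hx : x ∈ Subgroup.closure S := by rw [hS]; trivial
  induction hx using Subgroup.closure_induction with
  | mem s hs =>
    refine ⟨single [1, β s] 1, ?_, by simp [bdL_cons]⟩
    intro m hm
    have := Finset.mem_singleton.1 (Finsupp.support_single_subset hm)
    subst this
    refine ⟨rfl, ?_⟩
    have h1 : β s ∈ β '' S := ⟨s, hs, rfl⟩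
    intro a ha b hb
    simp only [List.mem_cons, List.not_mem_nil, or_false] at ha hb
    rcases ha with rfl | rfl <;> rcases hb with rfl | rfl
    · left; simp
    · right; left; simpa using h1
    · right; right; simpa using h1
    · left; simp
  | one => exact ⟨0, by simp [CtrlEdge], by simp⟩
  | mul x y _ _ hx hy =>
    obtain ⟨c, hc, hc'⟩ := hx
    obtain ⟨d, hd, hd'⟩ := hy
    refine ⟨c + push (β x * ·) d, ?_, ?_⟩
    · intro m hm
      rcases Finset.mem_union.1 (Finsupp.support_add hm) with h | h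
      · exact hc m h
      · exact hd.push _ m h
    · rw [map_add, ← push_bd, hc', hd']
      simp
  | inv x _ hx =>
    obtain ⟨c, hc, hc'⟩ := hx
    refine ⟨-push (β x⁻¹ * ·) c, ?_, ?_⟩
    · intro m hm
      rw [Finsupp.support_neg] at hm
      exact hc.push _ m hm
    · rw [map_neg, ← push_bd, hc']
      simp

/-- The chain map in degrees `≤ 1`. -/
noncomputable def oneMap {U V : Type} [Group U] [Group V] (f : U →* V)
    (c : U → (List V →₀ ℤ)) : List U → (List V →₀ ℤ)
  | [] => single [] 1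
  | [u] => single [f u] 1
  | [a, b] => push (f a * ·) (c (a⁻¹ * b))
  | _ => 0

theorem KFin.one {U V : Type} [Group U] [Group V] {f : U →* V} {E : Type} [Group E]
    (hE : Group.FG E) (α : U →* E) (β : E →* V) (h : ∀ u, β (α u) = f u) : KFin 1 f := by
  classical
  obtain ⟨D, hD, h1, hc⟩ := exists_path hE β
  choose c hc hc' using hc
  refine ⟨oneMap f (fun u => c (α u)), D, hD, rfl, fun _ => rfl, ?_⟩
  intro l hl
  match l, hl with
  | [], _ =>
    refine ⟨?_, ?_, ?_⟩
    · intro m hm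
      have := Finset.mem_singleton.1 (Finsupp.support_single_subset hm)
      subst this
      simp
    · intro u
      simp [oneMap]
    · simp [oneMap]
  | [u], _ =>
    refine ⟨?_, ?_, ?_⟩
    · intro m hm
      have := Finset.mem_singleton.1 (Finsupp.support_single_subset hm)
      subst this
      simpa using h1
    · intro u
      simp [oneMap]
    · simp [oneMap, bdL_cons]
  | [a, b], _ =>
    refine ⟨(hc _).push _, ?_, ?_⟩
    · intro u
      simp only [oneMap, List.map_cons, List.map_nil, push_push]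
      have e1 : (u * a)⁻¹ * (u * b) = a⁻¹ * b := by group
      have e2 : (fun x => f (u * a) * x) = (fun x => f u * x) ∘ fun x => f a * x := by
        funext x; simp [mul_assoc]
      rw [e1, e2]
    · simp only [oneMap]
      rw [← push_bd, hc', h]
      simp [bdL_cons, oneMap]
  | _ :: _ :: _ :: _, hl => simp at hl

end Crest.Agent.R185
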