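import Crest.Agent.R185.Kill_A

/-!
# Row 185: primitivity of controlled cycles
-/

set_option autoImplicit false

namespace Crest.Agent.R185

open Finsupp TensorProduct
open scoped Pointwise

attribute [local instance 10000] TensorProduct.instModule

variable {U V V' : Type} [Group U] [Group V] [Group V']

/-- controlled lists -/
def CL (D : Set V) (n : ℕ) : Set (List V) :=
  {m | m.length = n ∧ ∀ a ∈ m, ∀ b ∈ m, a⁻¹ * b ∈ D}

/-- a witness of `KFin` -/
structure Wit (k : ℕ) (f : U →* V) (α : List U → Ch V) (D : Set V) : Prop where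
  nil : α [] = single [] 1
  one : ∀ u, α [u] = single [f u] 1
  ctl : ∀ l : List U, l.length ≤ k + 1 → α l ∈ Sp (CL D l.length)
  eqv : ∀ l : List U, l.length ≤ k + 1 → ∀ u, α (l.map (u * ·)) = push (f u * ·) (α l)
  bd : ∀ l : List U, l.length ≤ k + 1 → bd (α l) = ext α (bdL l)

theorem kfin_iff {k : ℕ} {f : U →* V} : KFin k f ↔ ∃ α D, D.Finite ∧ Wit k f α D := by
  constructor
  · rintro ⟨α, D, hD, h0, h1, h⟩
    exact ⟨α, D, hD, h0, h1, fun l hl => (h l hl).1, fun l hl => (h l hl).2.1,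
      fun l hl => (h l hl).2.2⟩
  · rintro ⟨α, D, hD, h⟩
    exact ⟨α, D, hD, h.nil, h.one, fun l hl => ⟨h.ctl l hl, h.eqv l hl, h.bd l hl⟩⟩

theorem finite_lists {X : Type} {D : Set X} (hD : D.Finite) (n : ℕ) :
    {l : List X | l.length ≤ n ∧ ∀ b ∈ l, b ∈ D}.Finite := by
  have := hD.to_subtype
  refine ((List.finite_length_le D n).image (List.map Subtype.val)).subset ?_
  rintro l ⟨h1, h2⟩
  exact ⟨l.pmap Subtype.mk h2, by simpa using h1, by simp [List.map_pmap]⟩

theorem sg_apply_nil {X : Type} (x : Ch X) : sg x [] = x [] :=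
  eq_of_supp (L := lapply [] ∘ₗ sg) (L' := lapply []) fun l _ => by
    rcases l with _ | ⟨a, l⟩ <;> simp [sg_single]

theorem apply_nil_of_len {X : Type} {x : Ch X} (hx : x ∈ Sp {l | l ≠ []}) : x [] = 0 := by
  by_contra h
  exact hx (Finsupp.mem_support_iff.2 h) rfl

theorem CL.ez {A B : Type} [Group A] [Group B] {D : Set A} {D' : Set B} {p q n : ℕ} {x : Ch A}
    {y : Ch B} (hx : x ∈ Sp (CL D p)) (hy : y ∈ Sp (CL D' q)) (h : p + q = n + 1) :
    EZ x y ∈ Sp (CL (D ×ˢ D') n) :=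
  Sp.EZ hx hy fun l hl l' hl' m hm hp => ⟨by have := hl.1; have := hl'.1; omega,
    fun a ha b hb => ⟨hl.2 _ (hp a ha).1 _ (hp b hb).1, hl'.2 _ (hp a ha).2 _ (hp b hb).2⟩⟩

namespace Wit

variable {k : ℕ} {ψ : V →* V'} {α : List V → Ch V'} {D' : Set V'} (hw : Wit k ψ α D')
include hw

theorem bd_ext {x : Ch V} (hx : x ∈ Sp {l | l.length ≤ k + 1}) :
    R185.bd (ext α x) = ext α (R185.bd x) :=
  eq_of_supp (L := R185.bd ∘ₗ ext α) (L' := ext α ∘ₗ R185.bd) fun l hl => by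
    simpa using hw.bd l (hx hl)

theorem sg_ext {x : Ch V} (hx : x ∈ Sp {l | l.length ≤ k + 1}) : sg (ext α x) = ext α (sg x) :=
  eq_of_supp (L := sg ∘ₗ ext α) (L' := ext α ∘ₗ sg) fun l hl => by
    simp only [LinearMap.comp_apply, ext_single, one_smul, sg_single, map_smul]
    exact sg_of_len (Sp.mono (hw.ctl l (hx hl)) fun _ h => h.1)

theorem ext_nil {x : Ch V} (hx : x ∈ Sp {l | l.length ≤ k + 1}) : ext α x [] = x [] :=
  eq_of_supp (L := lapply [] ∘ₗ ext α) (L' := lapply []) fun l hl => by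
    rcases l with _ | ⟨a, l⟩
    · simp [hw.nil]
    · simpa using apply_nil_of_len (Sp.mono (hw.ctl _ (hx hl)) fun m h e => by
        have := h.1; simp [e] at this)

theorem push_ext {x : Ch V} (hx : x ∈ Sp {l | l.length ≤ k + 1}) (u : V) :
    ext α (push (u * ·) x) = push (ψ u * ·) (ext α x) :=
  eq_of_supp (L := ext α ∘ₗ push (u * ·)) (L' := push (ψ u * ·) ∘ₗ ext α) fun l hl => by
    simpa using hw.eqv l (hx hl) u

theorem exists_car {D : Set V} (hD : D.Finite) : ∃ D₂ : Set V', D₂.Finite ∧ 1 ∈ D₂ ∧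
    ∀ l : List V, l.length ≤ k + 1 → (∀ a ∈ l, ∀ b ∈ l, a⁻¹ * b ∈ D) →
      α l ∈ Sp {m | m.length = l.length ∧ ∀ w ∈ m, ∃ a ∈ l, (ψ a)⁻¹ * w ∈ D₂} := by
  refine ⟨insert 1 (⋃ l ∈ {l : List V | l.length ≤ k + 1 ∧ ∀ b ∈ l, b ∈ D},
    ⋃ m ∈ ((α l).support : Set (List V')), {w | w ∈ m}), ?_, Set.mem_insert _ _,
    fun l hl hD m hm => ⟨(hw.ctl l hl hm).1, fun w hw' => ?_⟩⟩
  · exact ((finite_lists hD _).biUnion fun l _ => (Finset.finite_toSet _).biUnion fun m _ =>
      List.finite_toSet m).insert 1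
  rcases l with _ | ⟨a, l⟩
  · have := List.length_eq_zero_iff.1 (hw.ctl _ hl hm).1
    simp [this] at hw'
  have e : a :: l = ((a :: l).map (a⁻¹ * ·)).map (a * ·) := by
    rw [List.map_map]; simp [Function.comp_def]
  rw [e, hw.eqv _ (by simpa using hl)] at hm
  obtain ⟨m₀, hm₀, rfl⟩ := mem_support_push hm
  obtain ⟨w₀, hw₀, rfl⟩ := List.mem_map.1 hw'
  refine ⟨a, by simp, Set.mem_insert_of_mem _ ?_⟩
  simp only [Set.mem_iUnion]
  refine ⟨_, ⟨by simpa using hl, fun b hb => ?_⟩, m₀, hm₀, by simpa using hw₀⟩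
  obtain ⟨b', hb', rfl⟩ := List.mem_map.1 hb
  exact hD a (by simp) b' hb'

/-- comparison of the shuffle of the Alexander–Whitney map with the diagonal -/
theorem diag {D : Set V} (hD : D.Finite) : ∃ E : Set (V' × V'), E.Finite ∧
    ∀ z ∈ Sp (CL D (k + 1)), R185.bd z = 0 → ∃ w ∈ Sp (CL E (k + 2)), R185.bd w =
      XT (map (ext α) (ext α) (AW z)) - push (fun v => (v, v)) (ext α z) := by
  obtain ⟨D₂, hD₂, h1, hcar⟩ := hw.exists_car hD
  let K : Set (List V) := {l | l.length ≤ k + 1 ∧ ∀ a ∈ l, ∀ b ∈ l, a⁻¹ * b ∈ D}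
  have hK : ∀ l ∈ K, ∀ l' : List V, l'.Sublist l → l' ∈ K := fun l hl l' h =>
    ⟨h.length_le.trans hl.1, fun a ha b hb => hl.2 a (h.subset ha) b (h.subset hb)⟩
  let C : List V → Set V' := fun l => {w | ∃ a ∈ l, (ψ a)⁻¹ * w ∈ D₂}
  have hC : ∀ l l' : List V, l'.Sublist l → C l' ⊆ C l := fun l l' h w ⟨a, ha, hw⟩ =>
    ⟨a, h.subset ha, hw⟩
  let F : Ch V →ₗ[ℤ] Ch (V' × V') := XT ∘ₗ map (ext α) (ext α) ∘ₗ AW +
    (lapply ([] : List V)).smulRight (single [] 1) - push (fun v => (v, v)) ∘ₗ ext α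
  have hFa : ∀ x, F x = XT (map (ext α) (ext α) (AW x)) + x [] • single [] 1 -
    push (fun v => (v, v)) (ext α x) := fun x => rfl
  have key := carried K hK (fun l => C l ×ˢ C l)
    (fun l l' h => Set.prod_mono (hC l l' h) (hC l l' h)) (fun a => (ψ a, ψ a))
    (fun a l => ⟨⟨a, by simp, by simpa using h1⟩, ⟨a, by simp, by simpa using h1⟩⟩) F
    (by simp [hFa, aw, hw.nil]) (fun l hl => ?_) (fun l hl => ?_) (k + 1)
  · obtain ⟨h, hh⟩ := key
    let E : Set V' := D₂⁻¹ * ψ '' D * D₂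
    have hE : E.Finite := (hD₂.inv.mul (hD.image _)).mul hD₂
    have hCE : ∀ l ∈ K, ∀ a ∈ C l, ∀ b ∈ C l, a⁻¹ * b ∈ E := by
      rintro l hl a ⟨a', ha', ha⟩ b ⟨b', hb', hb⟩
      refine ⟨_, ⟨_, Set.inv_mem_inv.2 ha, _, ⟨_, hl.2 a' ha' b' hb', rfl⟩, rfl⟩, _, hb, ?_⟩
      simp only [map_mul, map_inv]; group
    refine ⟨E ×ˢ E, hE.prod hE, fun z hz hz0 => ⟨ext h z, Sp.ext hz fun l hl => ?_, ?_⟩⟩
    · have hl' : l ∈ K := ⟨hl.1.le, hl.2⟩
      refine Sp.mono (hh l hl' hl.1.le).2 fun m hm => ⟨by rw [hm.1, hl.1], fun a ha b hb => ?_⟩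
      exact ⟨hCE l hl' _ (hm.2 a ha).1 _ (hm.2 b hb).1, hCE l hl' _ (hm.2 a ha).2 _ (hm.2 b hb).2⟩
    · have : R185.bd (ext h z) = F z - ext h (R185.bd z) :=
        eq_of_supp (L := R185.bd ∘ₗ ext h) (L' := F - ext h ∘ₗ R185.bd) fun l hl => by
          simpa using (hh l ⟨(hz hl).1.le, (hz hl).2⟩ (hz hl).1.le).1
      rw [this, hz0, hFa, apply_nil_of_len (Sp.mono hz fun m hm e => by
        have := hm.1; simp [e] at this)]
      simp
  · have s1 : ∀ l' : List V, l'.Sublist l → single l' (1 : ℤ) ∈ Sp {l | l.length ≤ k + 1} :=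
      fun l' h => single_mem_Sp (h.length_le.trans hl.1) 1
    have s2 : bdL l ∈ Sp {l | l.length ≤ k + 1} :=
      Sp.mono (bdL_mem l) fun m hm => hm.1.length_le.trans hl.1
    have e1 : dT (map (ext α) (ext α) (aw l)) = map (ext α) (ext α) (dT (aw l)) :=
      aw_eq l (dT ∘ₗ map (ext α) (ext α)) (map (ext α) (ext α) ∘ₗ dT) fun l₁ l₂ h1 h2 _ _ _ => by
        simp only [LinearMap.comp_apply, map_tmul, dT_tmul, map_sub, hw.bd_ext (s1 _ h1),
          hw.bd_ext (s1 _ h2), hw.sg_ext (s1 _ h1)]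
    have e2 := dT_AW (single l 1)
    rw [AW_single, one_smul] at e2
    rw [hFa, hFa, map_sub, map_add, bd_XT, AW_single, one_smul, e1, e2, ← push_bd,
      hw.bd_ext (s1 _ (List.Sublist.refl _))]
    simp only [map_sub, map_add, map_tmul, XT_tmul, ext_single, one_smul, hw.nil, EZ_nil,
      EZ_nil_right, bd_single, map_zsmul, bdL_nil, smul_zero, add_zero]
    rw [hw.bd_ext (Sp.sg (s1 _ (List.Sublist.refl _))), bd_sg, bd_single, one_smul, map_neg,
      Finsupp.neg_apply, hw.ext_nil (Sp.sg s2), sg_apply_nil, neg_smul, sub_neg_eq_add]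
  · rw [hFa]
    refine sub_mem (add_mem ?_ ?_) ?_
    · rw [AW_single, one_smul]
      refine aw_mem l (XT ∘ₗ map (ext α) (ext α)) fun l₁ l₂ h1 h2 _ _ h5 => ?_
      simp only [LinearMap.comp_apply, map_tmul, XT_tmul, ext_single, one_smul]
      refine Sp.EZ (hcar l₁ (hK l hl _ h1).1 (hK l hl _ h1).2)
        (hcar l₂ (hK l hl _ h2).1 (hK l hl _ h2).2) fun m₁ hm₁ m₂ hm₂ m hm hp =>
          ⟨by have := hm₁.1; have := hm₂.1; omega, fun p hp' =>
            ⟨hC _ _ h1 (hm₁.2 _ (hp p hp').1), hC _ _ h2 (hm₂.2 _ (hp p hp').2)⟩⟩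
    · rcases l with _ | ⟨a, l⟩
      · exact Submodule.smul_mem _ _ (single_mem_Sp (by simp) 1)
      · simp
    · rw [ext_single, one_smul]
      refine Sp.push (hcar l hl.1 hl.2) _ fun m hm => ⟨by simpa using hm.1, fun p hp => ?_⟩
      obtain ⟨v, hv, rfl⟩ := List.mem_map.1 hp
      exact ⟨hm.2 v hv, hm.2 v hv⟩

/-- pushing the shuffle of the Alexander–Whitney map to the extreme bidegrees -/
theorem extreme (hk : 1 ≤ k) {z : Ch V} (hz : z ∈ Sp {l | l.length = k + 1})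
    (hz0 : R185.bd z = 0) : ∃ w ∈ Sp (CL (D' ×ˢ D') (k + 2)), R185.bd w =
      XT (map (ext α) (ext α) (AW z)) - push (fun v => (v, 1)) (ext α z) -
        push (fun v => (1, v)) (ext α z) := by
  let s : List V → Ch V' := fun l => if l.length ≤ k then α (1 :: l) else 0
  let c : Ch V →ₗ[ℤ] Ch V' := ext α - R185.bd ∘ₗ ext s - ext s ∘ₗ R185.bd
  have hc : ∀ x, c x = ext α x - R185.bd (ext s x) - ext s (R185.bd x) := fun _ => rfl
  have hs : ∀ l, s l ∈ Sp (CL D' (l.length + 1)) := fun l => by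
    simp only [s]
    split_ifs with h
    · exact hw.ctl (1 :: l) (by simpa using h)
    · exact zero_mem _
  have hs0 : s [] = single [1] 1 := by simp [s, hw.one]
  have hsz : ∀ {x : Ch V}, x ∈ Sp {l | l.length = k + 1} → ext s x = 0 := fun hx =>
    eq_of_supp (L' := 0) fun l hl => by
      have : l.length = k + 1 := hx hl
      simp [s, this]
  have hsg : ∀ x, sg (ext s x) = -ext s (sg x) := fun x =>
    eq_of_supp (L := sg ∘ₗ ext s) (L' := -ext s ∘ₗ sg) fun l _ => by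
      simp only [LinearMap.comp_apply, LinearMap.neg_apply, ext_single, one_smul, sg_single,
        map_smul]
      rw [sg_of_len (Sp.mono (hs l) fun _ h => h.1), pow_succ]; simp
  have hc0 : ∀ l : List V, l.length ≤ k → c (single l 1) = 0 := fun l hl => by
    have : ext α (cone 1 (bdL l)) = ext s (bdL l) :=
      eq_of_supp (L := ext α ∘ₗ cone 1) fun m hm => by
        have := (mem_support_bdL hm).2
        simp [s, show m.length ≤ k by omega]
    rw [hc, ext_single, ext_single, bd_single, one_smul, one_smul, one_smul]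
    simp only [s, if_pos hl]
    rw [hw.bd _ (by simpa using hl), bdL_cons, map_sub, this]; simp [s]
  have hc1 : ∀ l : List V, l.length ≤ k + 1 → R185.bd (c (single l 1)) = 0 := fun l hl => by
    have : c (bdL l) = 0 := eq_of_supp (L' := 0) fun m hm => by
      have := (mem_support_bdL hm).2
      exact hc0 m (by omega)
    rw [hc, bd_bdL, map_zero, sub_zero, sub_eq_zero] at this
    rw [hc, map_sub, map_sub, bd_bd, bd_single, one_smul, ← this, ext_single, one_smul, hw.bd l hl]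
    simp
  have hc2 : ∀ l : List V, l.length = k + 1 → c (single l 1) ∈ Sp (CL D' (k + 1)) := fun l hl => by
    rw [hc, hsz (single_mem_Sp hl 1), map_zero, sub_zero, ext_single, one_smul, bd_single, one_smul]
    refine sub_mem (hl ▸ hw.ctl l hl.le) (Sp.ext (bdL_mem l) fun m hm => ?_)
    have := hs m
    rwa [hm.2, hl] at this
  let y : List V → Ch (V' × V') := fun m => EZ (sg (c (single m 1))) (s [m.getLastD 1])
  have hβ : ext α z ∈ Sp {l | l ≠ []} := Sp.ext hz fun l hl =>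
    Sp.mono (hw.ctl l hl.le) fun m hm e => by
      have := hm.1.trans hl; simp [e] at this
  have e1 : dT (map (ext s) (ext α) (AW z)) = map (ext α) (ext α) (AW z) -
      map c (ext α) (AW z) - map (ext s) (ext α) (dT (AW z)) :=
    eq_of_supp (L := dT ∘ₗ map (ext s) (ext α) ∘ₗ AW) (L' := map (ext α) (ext α) ∘ₗ AW -
      map c (ext α) ∘ₗ AW - map (ext s) (ext α) ∘ₗ dT ∘ₗ AW) fun l hl => by
      simp only [LinearMap.comp_apply, LinearMap.sub_apply, AW_single, one_smul]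
      refine aw_eq l (dT ∘ₗ map (ext s) (ext α)) (map (ext α) (ext α) - map c (ext α) -
        map (ext s) (ext α) ∘ₗ dT) fun l₁ l₂ _ h2 _ _ _ => ?_
      have : single l₂ (1 : ℤ) ∈ Sp {l | l.length ≤ k + 1} :=
        single_mem_Sp (h2.length_le.trans (hz hl).le) 1
      simp only [LinearMap.comp_apply, LinearMap.sub_apply, map_tmul, dT_tmul, map_sub,
        hw.bd_ext this, hsg, hc, sub_tmul, neg_tmul]
      abel
  have e2 : R185.bd (ext y z) = EZ (c z) (single [1] 1) - XT (map c (ext α) (AW z)) :=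
    eq_of_supp (L := R185.bd ∘ₗ ext y) (L' := LinearMap.flip EZ (single [1] 1) ∘ₗ c -
      XT ∘ₗ map c (ext α) ∘ₗ AW) fun l hl => by
      have hl' : l.length = k + 1 := hz hl
      obtain ⟨m, v, rfl⟩ : ∃ m v, l = m ++ [v] := by
        rcases List.eq_nil_or_concat l with rfl | ⟨m, v, rfl⟩
        · simp at hl'
        · exact ⟨m, v, by simp⟩
      have h1 := aw_top m v (XT ∘ₗ map c (ext α)) fun l y hl => by
        have : l.length ≤ k := by simp at hl'; omega
        simp [hc0 l this]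
      have h2 := hc0 [v] (by simpa using hk)
      rw [hc, bd_single, bdL_one, one_smul, ext_single s, ext_single s, one_smul, one_smul, hs0,
        sub_sub, sub_eq_zero] at h2
      simp only [LinearMap.comp_apply, map_tmul, XT_tmul] at h1
      simp only [LinearMap.comp_apply, LinearMap.sub_apply, LinearMap.flip_apply, AW_single,
        one_smul, h1, h2, ext_single y, y, List.getLastD_concat, bd_EZ, bd_sg, hc1 _ hl'.le, sg_sg,
        map_add]
      simp
  refine ⟨XT (map (ext s) (ext α) (AW z)) - ext y z, sub_mem ?_ (Sp.ext hz fun l hl => ?_), ?_⟩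
  · refine mem_of_supp (L := XT ∘ₗ map (ext s) (ext α) ∘ₗ AW) fun l hl => ?_
    simp only [LinearMap.comp_apply, AW_single, one_smul]
    refine aw_mem l (XT ∘ₗ map (ext s) (ext α)) fun l₁ l₂ _ h2 _ _ h5 => ?_
    simp only [LinearMap.comp_apply, map_tmul, XT_tmul, ext_single, one_smul]
    have hl' : l.length = k + 1 := hz hl
    exact CL.ez (hs l₁) (hw.ctl l₂ (h2.length_le.trans hl'.le)) (by omega)
  · exact CL.ez (Sp.sg (hc2 l hl)) (hs _) (by simp)
  · rw [map_sub, bd_XT, e1, e2, dT_AW, hz0, hc, hsz hz, hz0]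
    simp only [map_sub, map_zero, zero_add, sub_zero, map_tmul, XT_tmul, hsz (Sp.sg hz),
      ext_single s, one_smul, hs0, EZ_one_left, EZ_one_right _ hβ, LinearMap.zero_apply]
    abel

theorem prim (hk : 1 ≤ k) (hD' : D'.Finite) {D : Set V} (hD : D.Finite) :
    ∃ E : Set (V' × V'), E.Finite ∧
    ∀ z ∈ Sp (CL D (k + 1)), R185.bd z = 0 → ∃ w ∈ Sp (CL E (k + 2)), R185.bd w =
      push (fun v => (v, v)) (ext α z) - push (fun v => (v, 1)) (ext α z) -
        push (fun v => (1, v)) (ext α z) := by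
  obtain ⟨E, hE, h⟩ := hw.diag hD
  refine ⟨E ∪ D' ×ˢ D', hE.union (hD'.prod hD'), fun z hz hz0 => ?_⟩
  obtain ⟨w, hw1, hw2⟩ := h z hz hz0
  obtain ⟨w', hw1', hw2'⟩ := hw.extreme hk (Sp.mono hz fun _ h => h.1) hz0
  refine ⟨w' - w, sub_mem (Sp.mono hw1' fun m hm => ⟨hm.1, fun a ha b hb => Or.inr (hm.2 a ha b hb)⟩)
    (Sp.mono hw1 fun m hm => ⟨hm.1, fun a ha b hb => Or.inl (hm.2 a ha b hb)⟩), ?_⟩
  rw [map_sub, hw2, hw2']; abel

end Wit

end Crest.Agent.R185
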