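import Crest.Agent.R185.Idem
import Crest.Agent.R185.Kill_B

/-!
# Row 185: killing systems raise finiteness (task R185-Kill)

PLAN.
* `idem_add`: `F` additive on orthogonal idempotent pairs.  For a functional `v ∈ F_p²` put
  `a_v = e11 + v₁ e12 + v₂ e13` (idempotent with image `⟨e₁⟩`).  For a basis `(u₂,u₃)` of the span of `e₂,e₃` with
  dual basis, `1 - a_v` splits as a sum of two orthogonal idempotents depending on `v(u₂)`, `v(u₃)` only
  (for the standard basis: `(e22 - x e12) + (e33 - y e13)`), so `A v := F a_v - F a_0` satisfies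
  `A (v + w) = A v + A w` for independent `v, w`, hence always, hence `p • A v = 0`.  (A cheap way: it is enough to
  get `p • F (T e T⁻¹) = p • F e` for the needed concrete `e, T`; the hypothesis on `F` is invariant under
  `e ↦ g e g⁻¹` and under transposition.  E.g. with `b x = F(e22 - x e12)`, `c y = F (e33 - y e13)`:
  `A (x,y) = A (x,0) + A (0,y)`; conjugating by `g` fixing `e₁` and shearing `e₂,e₃` gives
  `A (x, y + x)= A (x,x) + A (0,y)`, so `A(0,y+x) + A(x,0) = A(x,0) + A(0,x) + A(0,y)`: `y ↦ A (0,y)` is additive;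
  symmetric for `x`.)  So `p • F e` depends only on the image of the rank one idempotent `e`, and (transpose) only on
  the kernel: `e11 ~ e11 + e12 ~ e22 + e21 ~ e22`.  For `p = 2, 3` one may also brute force with `decide`d matrix identities.
* `KFin.one`: `f = β α`, `E` generated by a finite symmetric set: for `[1,u]` choose an edge path from `1` to
  `α u` in the Cayley graph of `E`, push by `β`; extend equivariantly (`[a,b] ↦ f a • path (a⁻¹ b)`).
* `KFin.step` (`k ≥ 1`).  Let `α, D` witness `KFin k ψ`.  For `σ = 1 :: l` of length `k+2` let `z_σ = ext α (bdL σ)`, a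
  `D`-controlled cycle of degree `k` in `C(V)`.  Call two families `(x_σ)`, `(y_σ)` of chains *equivalent* if
  `x_σ - y_σ = ∂ w_σ` with all `w_σ` controlled by one finite set (and of length `k+2`); get an abelian group `𝓗`
  of controlled families of cycles modulo this.
  PRIMITIVITY: for a `D`-controlled family of `k`-cycles `z` in `C(V)` and `ψ' : V →* V'` `k`-finite (witness `α'`),
  in `C(V' × V')`:  `Δ ψ' z ~ i₁ ψ' z + i₂ ψ' z` (`i₁ v = (v,1)`, `i₂ v = (1,v)`).  Proof: use the tensor complex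
  `C ⊗ C` modelled on pairs of *nonempty* lists `(List V × List V →₀ ℤ)`, the Alexander–Whitney map
  `AW (v₀…v_n) = Σ_i (v₀…v_i) ⊗ (v_i…v_n)` and any chain map `EZ : C(V) ⊗ C(V) → C(V × V)` with
  `EZ (l ⊗ [b]) = l × b`, `EZ ([a] ⊗ l) = a × l` and *carried* by `l × l'` (vertices of `EZ(l ⊗ l')` lie in
  `l ×ˢ l'`; define it recursively by cones: `EZ (a::l ⊗ b::l') = cone (a,b) (EZ ∂(a::l ⊗ b::l'))`); `EZ ∘ AW ≃ Δ`
  by a carried homotopy (cones at the first vertex).  Carried maps preserve control.  `push ψ' ≃ α'` by an equivariant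
  homotopy (cones), which is controlled on `D`-controlled lists (finitely many orbits).
  `s l = α' (1 :: l)` is controlled for *all* `l` of length `≤ k` and `∂ s + s ∂ = α' - (base point)`; use `s ⊗ 1`
  to push the cycle `(α' ⊗ 1) AW z` to the two extreme bidegrees, `1 ⊗ s` symmetrically.
  (Alternatively organise everything as one acyclic–carrier lemma.)
  For commuting `f g : V' →* W`, `μ = f × g : V' × V' →* W` maps controlled to controlled, so
  `[f·g] = [f] + [g]` in `𝓗`, where `[f] = (push f (push ψ' z_σ))_σ`.  With the systems of `φ`: `idem_add` gives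
  `p [fA e11] = p [fA e22] = p [fB e22] = p [fB e11]`, `[fA e11] = [φ] + [fB e11]`, so `p [φ] = 0` for `p = 2, 3`,
  so `[φ] = 0`: there are uniformly controlled `w_σ` with `∂ w_σ = push (φ ψ') z_σ`.  The new witness is
  `push (φ ψ') ∘ α` in degrees `≤ k`, and `a :: l ↦ (φψ'ψ a) • w_{1 :: a⁻¹ l}` in degree `k+1`.
* `comm_of_sys`: `idem_add` in the abelianisation.
-/

set_option autoImplicit false

namespace Crest.Agent.R185

open Finsupp

theorem CL.push {V W : Type} [Group V] [Group W] {D : Set V} {n : ℕ} {x : Ch V}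
    (hx : x ∈ Sp (CL D n)) (f : V →* W) : push f x ∈ Sp (CL (f '' D) n) :=
  Sp.push hx f fun l hl => ⟨by simpa using hl.1, fun a ha b hb => by
    obtain ⟨a, ha', rfl⟩ := List.mem_map.1 ha
    obtain ⟨b, hb', rfl⟩ := List.mem_map.1 hb
    exact ⟨_, hl.2 a ha' b hb', by simp⟩⟩

theorem CL.mul {V : Type} [Group V] {D : Set V} {n : ℕ} {x : Ch V}
    (hx : x ∈ Sp (CL D n)) (u : V) : R185.push (u * ·) x ∈ Sp (CL D n) :=
  Sp.push hx _ fun l hl => ⟨by simpa using hl.1, fun a ha b hb => by
    obtain ⟨a, ha', rfl⟩ := List.mem_map.1 ha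
    obtain ⟨b, hb', rfl⟩ := List.mem_map.1 hb
    simpa [mul_assoc] using hl.2 a ha' b hb'⟩

theorem CL.mono {V : Type} [Group V] {D D' : Set V} {n : ℕ} {x : Ch V}
    (hx : x ∈ Sp (CL D n)) (h : D ⊆ D') : x ∈ Sp (CL D' n) :=
  Sp.mono hx fun _ hl => ⟨hl.1, fun a ha b hb => h (hl.2 a ha b hb)⟩

/-- families bounding controlled families -/
def Bdy (I W : Type) [Group W] (n : ℕ) : AddSubgroup (I → Ch W) where
  carrier := {y | ∃ D : Set W, D.Finite ∧ ∀ i, ∃ w ∈ Sp (CL D n), bd w = y i}
  zero_mem' := ⟨∅, Set.finite_empty, fun _ => ⟨0, zero_mem _, map_zero _⟩⟩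
  add_mem' := by
    rintro y y' ⟨D, hD, h⟩ ⟨D', hD', h'⟩
    refine ⟨D ∪ D', hD.union hD', fun i => ?_⟩
    obtain ⟨w, h1, h2⟩ := h i
    obtain ⟨w', h1', h2'⟩ := h' i
    exact ⟨w + w', add_mem (CL.mono h1 Set.subset_union_left) (CL.mono h1' Set.subset_union_right),
      by rw [map_add, h2, h2']; rfl⟩
  neg_mem' := by
    rintro y ⟨D, hD, h⟩
    refine ⟨D, hD, fun i => ?_⟩
    obtain ⟨w, h1, h2⟩ := h i
    exact ⟨-w, neg_mem h1, by rw [map_neg, h2]; rfl⟩

theorem kill {I V W : Type} [Group V] [Group W] {n : ℕ} (x : I → Ch V)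
    (hx : (fun i => push (fun v => (v, v)) (x i) - push (fun v => (v, 1)) (x i) -
      push (fun v => (1, v)) (x i)) ∈ Bdy I (V × V) n) {φ : V →* W} (h2 : HasSys 2 φ)
    (h3 : HasSys 3 φ) : (fun i => push φ (x i)) ∈ Bdy I W n := by
  let cls : (V →* W) → (I → Ch W) ⧸ Bdy I W n := fun f =>
    QuotientAddGroup.mk fun i => push f (x i)
  have hadd : ∀ f g fg : V →* W, (∀ u u', Commute (f u) (g u')) → (∀ u, fg u = f u * g u) →
      cls fg = cls f + cls g := fun f g fg hc he => by
    obtain ⟨D, hD, h⟩ := hx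
    simp only [cls]
    rw [← QuotientAddGroup.mk_add, eq_comm, QuotientAddGroup.eq]
    refine ⟨f.noncommCoprod g hc '' D, hD.image _, fun i => ?_⟩
    obtain ⟨w, h1, h2⟩ := h i
    refine ⟨_, CL.push h1 _, ?_⟩
    rw [← push_bd, h2]
    simp only [map_sub, push_push, Function.comp_def, MonoidHom.noncommCoprod_apply, map_one,
      mul_one, one_mul, ← he, Pi.add_apply, Pi.neg_apply]
    abel
  have hp : ∀ p : ℕ, p = 2 ∨ p = 3 → HasSys p φ → p • cls φ = 0 := by
    rintro p hp ⟨fA, fB, h⟩
    have a1 := idem_add hp (fun e => cls (fA e)) fun e e' he =>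
      hadd _ _ _ (h.famA.comm e e' he) (h.famA.add e e' he)
    have a2 := idem_add hp (fun e => cls (fB e)) fun e e' he =>
      hadd _ _ _ (h.famB.comm e e' he) (h.famB.add e e' he)
    have a3 := hadd _ _ _ h.comm11 h.e11
    simp only [a3, h.e22, ← a2] at a1
    rw [nsmul_add] at a1
    simpa using a1
  have e2 := hp 2 (Or.inl rfl) h2
  have e3 := hp 3 (Or.inr rfl) h3
  rw [succ_nsmul, e2, zero_add] at e3
  exact (QuotientAddGroup.eq_zero_iff _).1 e3

theorem KFin.step {U V V' W : Type} [Group U] [Group V] [Group V'] [Group W] {k : ℕ} (hk : 1 ≤ k)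
    {ψ : U →* V} {ψ' : V →* V'} {φ : V' →* W} (hψ : KFin k ψ) (hψ' : KFin k ψ')
    (h2 : HasSys 2 φ) (h3 : HasSys 3 φ) : KFin (k + 1) (φ.comp (ψ'.comp ψ)) := by
  obtain ⟨α, D, hD, hw⟩ := kfin_iff.1 hψ
  obtain ⟨α', D', hD', hw'⟩ := kfin_iff.1 hψ'
  obtain ⟨E, hE, hprim⟩ := hw'.prim hk hD' hD
  have hbl : ∀ l : List U, l.length ≤ k + 2 → bdL l ∈ Sp {l | l.length ≤ k + 1} := fun l hl =>
    Sp.mono (bdL_mem l) fun m hm => by have := hm.2; change m.length ≤ k + 1; omega
  have hα : ∀ {x : Ch U}, x ∈ Sp {l | l.length ≤ k + 1} →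
      ext α x ∈ Sp {l | l.length ≤ k + 1} := fun hx =>
    Sp.ext hx fun l hl => Sp.mono (hw.ctl l hl) fun m hm => hm.1.trans_le hl
  let z : List U → Ch V := fun l => if l.length = k + 1 then ext α (bdL (1 :: l)) else 0
  have hz : ∀ l, z l ∈ Sp (CL D (k + 1)) ∧ bd (z l) = 0 := fun l => by
    simp only [z]
    split_ifs with h
    · refine ⟨Sp.ext (bdL_mem _) fun m hm => ?_, ?_⟩
      · have e : m.length = k + 1 := by have := hm.2; simp at this; omega
        exact e ▸ hw.ctl m e.le
      · rw [hw.bd_ext (hbl _ (by simp [h])), bd_bdL, map_zero]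
    · exact ⟨zero_mem _, map_zero _⟩
  obtain ⟨D₁, hD₁, hw₁⟩ := kill (n := k + 2) (fun l => ext α' (z l))
    ⟨E, hE, fun l => hprim _ (hz l).1 (hz l).2⟩ h2 h3
  choose w hw1 hw2 using hw₁
  let F := φ.comp (ψ'.comp ψ)
  let γ : Ch U →ₗ[ℤ] Ch W := push φ ∘ₗ ext α' ∘ₗ ext α
  have hγ : ∀ x, γ x = push φ (ext α' (ext α x)) := fun _ => rfl
  have γbd : ∀ {x : Ch U}, x ∈ Sp {l | l.length ≤ k + 1} → bd (γ x) = γ (bd x) := fun hx => by
    rw [hγ, hγ, ← push_bd, hw'.bd_ext (hα hx), hw.bd_ext hx]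
  have γeq : ∀ {x : Ch U}, x ∈ Sp {l | l.length ≤ k + 1} → ∀ u,
      γ (push (u * ·) x) = push (F u * ·) (γ x) := fun hx u => by
    rw [hγ, hγ, hw.push_ext hx, hw'.push_ext (hα hx), push_push, push_push]
    congr 2; funext v; simp [F]
  let β : List U → Ch W := fun l => if l.length ≤ k + 1 then γ (single l 1) else
    match l with
    | [] => 0
    | a :: l₀ => push (F a * ·) (w (l₀.map (a⁻¹ * ·)))
  have hβ : ∀ {x : Ch U}, x ∈ Sp {l | l.length ≤ k + 1} → ext β x = γ x := fun hx =>
    eq_of_supp fun l hl => by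
      have : l.length ≤ k + 1 := hx hl
      simp only [ext_single, one_smul, β, if_pos this]
  refine kfin_iff.2 ⟨β, φ '' D' ∪ D₁, (hD'.image _).union hD₁, ?_, fun u => ?_, fun l hl => ?_,
    fun l hl u => ?_, fun l hl => ?_⟩
  · simp [β, hγ, hw.nil, hw'.nil]
  · simp [β, hγ, hw.one, hw'.one]
  · simp only [β]
    split_ifs with h
    · refine CL.mono (CL.push ?_ φ) Set.subset_union_left
      rw [LinearMap.comp_apply, ext_single, one_smul]
      refine Sp.ext (hw.ctl l h) fun m hm => ?_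
      exact hm.1 ▸ hw'.ctl m (hm.1.trans_le h)
    · rcases l with _ | ⟨a, l⟩
      · exact zero_mem _
      · rw [show (a :: l).length = k + 2 by omega]
        exact CL.mono (CL.mul (hw1 _) _) Set.subset_union_right
  · simp only [β, List.length_map]
    split_ifs with h
    · rw [← γeq (single_mem_Sp h 1), push_single]
    · rcases l with _ | ⟨a, l⟩
      · simp
      · simp only [List.map_cons, List.map_map, push_push]
        congr 2
        · funext v; simp [F, mul_assoc]
        · congr 1; funext v; simp [mul_assoc]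
  · rw [hβ (hbl l hl)]
    simp only [β]
    split_ifs with h
    · rw [γbd (single_mem_Sp h 1), bd_single, one_smul]
    · rcases l with _ | ⟨a, l⟩
      · simp
      · have e : l.length = k + 1 := by simp at h hl; omega
        simp only
        rw [← push_bd, hw2]
        simp only [z, List.length_map, if_pos e]
        rw [← hγ, ← γeq (hbl _ (by simp [e])), push_bdL]
        simp [List.map_map, Function.comp_def]

theorem kfin_pow {U : Type} [Group U] (φ : Monoid.End U) (hE : KFin 1 (φ : U →* U))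
    (h2 : HasSys 2 (φ : U →* U)) (h3 : HasSys 3 (φ : U →* U)) (k : ℕ) :
    ∃ r : ℕ, KFin (k + 1) ((φ ^ r : Monoid.End U) : U →* U) := by
  induction k with
  | zero => exact ⟨1, by simpa using hE⟩
  | succ k ih =>
    obtain ⟨r, hr⟩ := ih
    refine ⟨1 + (r + r), ?_⟩
    have := KFin.step (k := k + 1) (by omega) hr hr h2 h3
    convert this using 1
    rw [pow_add, pow_add, pow_one]
    rfl

end Crest.Agent.R185
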