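import Crest.Agent.R185.ListCx

/-!
# Row 185: Eilenberg–Zilber and Alexander–Whitney maps on list chains, carried homotopies
-/

set_option autoImplicit false

namespace Crest.Agent.R185

open Finsupp TensorProduct

attribute [local instance 10000] TensorProduct.instModule

variable {V W A B : Type}

/-- chains -/
abbrev Ch (V : Type) : Type := List V →₀ ℤ

theorem mem_of_supp {M : Type} [AddCommGroup M] [Module ℤ M] {L : Ch V →ₗ[ℤ] M}
    {N : Submodule ℤ M} {x : Ch V}
    (h : ∀ l ∈ x.support, L (single l 1) ∈ N) : L x ∈ N := by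
  rw [← Finsupp.sum_single x, Finsupp.sum, map_sum]
  refine sum_mem fun l hl => ?_
  rw [← Finsupp.smul_single_one, map_zsmul]
  exact zsmul_mem (h l hl) _

theorem eq_of_supp {M : Type} [AddCommGroup M] [Module ℤ M] {L L' : Ch V →ₗ[ℤ] M} {x : Ch V}
    (h : ∀ l ∈ x.support, L (single l 1) = L' (single l 1)) : L x = L' x := by
  have := mem_of_supp (L := L - L') (N := ⊥) (x := x) fun l hl => by simp [h l hl]
  simpa [sub_eq_zero] using this

/-- chains supported in a set of lists -/
abbrev Sp (S : Set (List V)) : Submodule ℤ (Ch V) := Finsupp.supported ℤ ℤ S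

theorem mem_Sp {S : Set (List V)} {x : Ch V} : x ∈ Sp S ↔ ∀ l ∈ x.support, l ∈ S := Iff.rfl

theorem single_mem_Sp {S : Set (List V)} {l : List V} (h : l ∈ S) (c : ℤ) : single l c ∈ Sp S :=
  Finsupp.single_mem_supported ℤ c h

theorem Sp.mono {S S' : Set (List V)} {x : Ch V} (hx : x ∈ Sp S) (h : ∀ l ∈ S, l ∈ S') :
    x ∈ Sp S' := fun l hl => h l (hx hl)

theorem Sp.push {S : Set (List V)} {S' : Set (List W)} {x : Ch V} (hx : x ∈ Sp S) (f : V → W)
    (h : ∀ l ∈ S, l.map f ∈ S') : push f x ∈ Sp S' :=
  mem_of_supp fun l hl => by rw [push_single]; exact single_mem_Sp (h l (hx hl)) 1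

theorem Sp.cone {S S' : Set (List V)} {x : Ch V} (hx : x ∈ Sp S) (a : V)
    (h : ∀ l ∈ S, a :: l ∈ S') : cone a x ∈ Sp S' :=
  mem_of_supp fun l hl => by rw [cone_single]; exact single_mem_Sp (h l (hx hl)) 1

theorem Sp.ext {S : Set (List V)} {N : Submodule ℤ (Ch W)} {x : Ch V} (hx : x ∈ Sp S)
    {α : List V → Ch W} (h : ∀ l ∈ S, α l ∈ N) : ext α x ∈ N :=
  mem_of_supp fun l hl => by rw [ext_single, one_smul]; exact h l (hx hl)

theorem bdL_mem (l : List V) : bdL l ∈ Sp {m | m.Sublist l ∧ m.length + 1 = l.length} :=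
  fun _ hm => mem_support_bdL hm

theorem bdL_one (a : V) : bdL [a] = single [] 1 := by simp [bdL_cons]

/-! ### signs -/

/-- the sign operator -/
noncomputable def sg : Ch V →ₗ[ℤ] Ch V := ext fun l => (-1 : ℤ) ^ l.length • single l 1

theorem sg_single (l : List V) (c : ℤ) : sg (single l c) = (-1 : ℤ) ^ l.length • single l c := by
  simp [sg, mul_comm]

theorem sg_of_len {n : ℕ} {x : Ch V} (hx : x ∈ Sp {l | l.length = n}) :
    sg x = (-1 : ℤ) ^ n • x :=
  eq_of_supp (L' := (-1 : ℤ) ^ n • LinearMap.id) fun l hl => by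
    rw [sg_single, show l.length = n from hx hl]; rfl

theorem sg_cone (a : V) (x : Ch V) : sg (cone a x) = -cone a (sg x) := by
  induction x using Finsupp.induction_linear with
  | zero => simp
  | add f g hf hg => simp only [map_add, hf, hg]; abel
  | single l c => simp only [cone_single, sg_single, map_smul, List.length_cons, pow_succ,
      mul_neg_one, neg_smul]

theorem sg_sg (x : Ch V) : sg (sg x) = x := by
  induction x using Finsupp.induction_linear with
  | zero => simp
  | add f g hf hg => simp only [map_add, hf, hg]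
  | single l c => simp only [sg_single, map_smul, smul_smul, ← mul_pow]; simp

theorem bd_sg (x : Ch V) : bd (sg x) = -sg (bd x) := by
  induction x using Finsupp.induction_linear with
  | zero => simp
  | add f g hf hg => simp only [map_add, hf, hg]; abel
  | single l c =>
    rcases l with _ | ⟨a, l⟩
    · simp [sg_single]
    · rw [sg_single, map_smul, bd_single, map_smul,
        sg_of_len (n := l.length) (Sp.mono (bdL_mem _) fun m hm => by simpa using hm.2)]
      simp only [List.length_cons, pow_succ, mul_neg_one, neg_smul, smul_comm c]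

theorem Sp.sg {S : Set (List V)} {x : Ch V} (hx : x ∈ Sp S) : sg x ∈ Sp S :=
  mem_of_supp fun l hl => by
    rw [sg_single]; exact Submodule.smul_mem _ _ (single_mem_Sp (hx hl) 1)

/-! ### the shuffle product -/

/-- shuffle product of lists -/
noncomputable def ez : List A → List B → Ch (A × B)
  | [], _ => 0
  | _ :: l, [] => (single l (1 : ℤ) : Ch A) [] • single [] 1
  | a :: l, b :: l' => cone (a, b) (ez l (b :: l') + (-1 : ℤ) ^ l.length • ez (a :: l) l')
termination_by l l' => l.length + l'.length

/-- shuffle product of chains -/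
noncomputable def EZ : Ch A →ₗ[ℤ] Ch B →ₗ[ℤ] Ch (A × B) :=
  Finsupp.linearCombination ℤ fun l => ext (ez l)

theorem EZ_single (l : List A) (l' : List B) (c c' : ℤ) :
    EZ (single l c) (single l' c') = c • c' • ez l l' := by simp [EZ]

theorem EZ_nil (y : Ch B) : EZ (single ([] : List A) 1) y = 0 := by
  induction y using Finsupp.induction_linear with
  | zero => simp
  | add f g hf hg => simp only [map_add, hf, hg, add_zero]
  | single l c => simp [EZ_single, ez]

theorem EZ_cone (a : A) (b : B) (x : Ch A) (y : Ch B) : EZ (cone a x) (cone b y) =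
    cone (a, b) (EZ x (cone b y) + EZ (cone a (sg x)) y) := by
  induction x using Finsupp.induction_linear with
  | zero => simp
  | add f g hf hg => simp only [map_add, LinearMap.add_apply, hf, hg]; abel
  | single l c =>
    induction y using Finsupp.induction_linear with
    | zero => simp
    | add f g hf hg => simp only [map_add, hf, hg]; abel
    | single l' c' =>
      simp only [cone_single, EZ_single, sg_single, map_smul, LinearMap.smul_apply, ez, map_add,
        smul_add, smul_comm ((-1 : ℤ) ^ l.length)]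

theorem cone_apply_nil (a : V) (x : Ch V) : cone a x [] = 0 := by
  by_contra h
  obtain ⟨l, -, h⟩ := mem_support_cone (Finsupp.mem_support_iff.2 h)
  cases h

theorem EZ_nil_right (x : Ch A) :
    EZ x (single ([] : List B) 1) = bd x [] • single [] 1 := by
  induction x using Finsupp.induction_linear with
  | zero => simp
  | add f g hf hg => simp only [map_add, LinearMap.add_apply, hf, hg, Finsupp.add_apply, add_smul]
  | single l c =>
    rcases l with _ | ⟨a, l⟩
    · simp [EZ_single, ez]
    · simp only [EZ_single, ez, bd_single, bdL_cons, Finsupp.smul_apply, Finsupp.sub_apply,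
        cone_apply_nil, one_mul, sub_zero, smul_smul, smul_eq_mul]

theorem bd_ez (l : List A) (l' : List B) : bd (EZ (single l 1) (single l' 1)) =
    EZ (bd (single l 1)) (single l' 1) - EZ (sg (single l 1)) (bd (single l' 1)) := by
  induction l, l' using ez.induct with
  | case1 l' => simp [EZ_nil, sg_single]
  | case2 a l => simp [EZ_nil_right, bd_bdL]
  | case3 a l b l' ih1 ih2 =>
    have e1 : (single (a :: l) 1 : Ch A) = cone a (single l 1) := by simp
    have e2 : (single (b :: l') 1 : Ch B) = cone b (single l' 1) := by simp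
    have ih3 : bd (EZ (cone a (sg (single l 1))) (single l' 1)) =
        EZ (bd (cone a (sg (single l 1)))) (single l' 1) -
          EZ (sg (cone a (sg (single l 1)))) (bd (single l' 1)) := by
      simp only [sg_single l, map_smul, LinearMap.smul_apply, ← e1, ih2, smul_sub]
    rw [e2] at ih1
    rw [e1, e2, EZ_cone, bd_cone, map_add, ih1, ih3]
    simp only [bd_cone, sg_cone, sg_sg, bd_sg, map_sub, map_neg, map_add, LinearMap.sub_apply,
      LinearMap.neg_apply, EZ_cone a b (bd _), EZ_cone a b (sg _) (bd _)]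
    abel

theorem bd_EZ (x : Ch A) (y : Ch B) : bd (EZ x y) = EZ (bd x) y - EZ (sg x) (bd y) := by
  induction x using Finsupp.induction_linear with
  | zero => simp
  | add f g hf hg => simp only [map_add, LinearMap.add_apply, hf, hg]; abel
  | single l c =>
    induction y using Finsupp.induction_linear with
    | zero => simp
    | add f g hf hg => simp only [map_add, hf, hg]; abel
    | single l' c' =>
      rw [← Finsupp.smul_single_one l, ← Finsupp.smul_single_one l']
      simp only [map_smul, LinearMap.smul_apply, bd_ez, smul_sub]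

theorem ez_mem (l : List A) (l' : List B) : ez l l' ∈
    Sp {m | m.length + 1 = l.length + l'.length ∧ ∀ p ∈ m, p.1 ∈ l ∧ p.2 ∈ l'} := by
  induction l, l' using ez.induct with
  | case1 l' => simp [ez]
  | case2 a l =>
    rcases l with _ | ⟨a', l⟩
    · rw [ez]; exact Submodule.smul_mem _ _ (single_mem_Sp (by simp) 1)
    · simp [ez]
  | case3 a l b l' ih1 ih2 =>
    rw [ez, map_add, map_smul]
    refine add_mem (Sp.cone ih1 _ fun m hm => ⟨?_, ?_⟩)
      (Submodule.smul_mem _ _ (Sp.cone ih2 _ fun m hm => ⟨?_, ?_⟩))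
    · have := hm.1; simp at this ⊢; omega
    · intro p hp
      rcases List.mem_cons.1 hp with rfl | hp
      · simp
      · exact ⟨List.mem_cons_of_mem _ (hm.2 p hp).1, (hm.2 p hp).2⟩
    · have := hm.1; simp at this ⊢; omega
    · intro p hp
      rcases List.mem_cons.1 hp with rfl | hp
      · simp
      · exact ⟨(hm.2 p hp).1, List.mem_cons_of_mem _ (hm.2 p hp).2⟩

theorem Sp.EZ {S : Set (List A)} {S' : Set (List B)} {T : Set (List (A × B))} {x : Ch A}
    {y : Ch B} (hx : x ∈ Sp S) (hy : y ∈ Sp S')
    (h : ∀ l ∈ S, ∀ l' ∈ S', ∀ m : List (A × B), m.length + 1 = l.length + l'.length →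
      (∀ p ∈ m, p.1 ∈ l ∧ p.2 ∈ l') → m ∈ T) : EZ x y ∈ Sp T := by
  refine mem_of_supp (L := LinearMap.flip R185.EZ y) fun l hl => ?_
  refine mem_of_supp (L := R185.EZ (single l 1)) fun l' hl' => ?_
  rw [EZ_single, one_smul, one_smul]
  exact Sp.mono (ez_mem l l') fun m hm => h l (hx hl) l' (hy hl') m hm.1 hm.2

theorem EZ_one_left (a : A) (y : Ch B) : EZ (single [a] 1) y = push (fun b => (a, b)) y := by
  refine eq_of_supp fun l hl => ?_
  clear hl
  rw [EZ_single, one_smul, one_smul, push_single]
  induction l with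
  | nil => simp [ez]
  | cons b l ih => simp [ez, ih]

theorem EZ_one_right (b : B) {x : Ch A} (hx : x ∈ Sp {l | l ≠ []}) :
    EZ x (single [b] 1) = push (fun a => (a, b)) x := by
  refine eq_of_supp (L := LinearMap.flip EZ (single [b] 1)) fun l hl => ?_
  have h : l ≠ [] := hx hl
  clear hl
  rw [LinearMap.flip_apply, EZ_single, one_smul, one_smul, push_single]
  induction l with
  | nil => exact absurd rfl h
  | cons a l ih =>
    rcases l with _ | ⟨a', l⟩
    · simp [ez]
    · rw [ez, ih (by simp)]; simp [ez]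

/-! ### Alexander–Whitney -/

/-- Alexander–Whitney on lists -/
noncomputable def aw : List V → Ch V ⊗[ℤ] Ch V
  | [] => 0
  | a :: l => single [a] 1 ⊗ₜ single (a :: l) 1 + (cone a).rTensor _ (aw l)

/-- Alexander–Whitney on chains -/
noncomputable def AW : Ch V →ₗ[ℤ] Ch V ⊗[ℤ] Ch V := Finsupp.linearCombination ℤ aw

@[simp] theorem AW_single (l : List V) (c : ℤ) : AW (single l c) = c • aw l := by simp [AW]

theorem AW_cone (a : V) (x : Ch V) :
    AW (cone a x) = single [a] 1 ⊗ₜ cone a x + (cone a).rTensor _ (AW x) := by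
  induction x using Finsupp.induction_linear with
  | zero => simp
  | add f g hf hg => simp only [map_add, hf, hg, tmul_add]; abel
  | single l c =>
    rw [← Finsupp.smul_single_one l]
    simp only [map_zsmul, cone_single, AW_single, aw, one_smul, smul_add, tmul_smul]

/-- the differential of the tensor product -/
noncomputable def dT : Ch A ⊗[ℤ] Ch B →ₗ[ℤ] Ch A ⊗[ℤ] Ch B :=
  (bd : Ch A →ₗ[ℤ] Ch A).rTensor _ - TensorProduct.map sg bd

theorem dT_tmul (x : Ch A) (y : Ch B) : dT (x ⊗ₜ y) = bd x ⊗ₜ y - sg x ⊗ₜ bd y := by simp [dT]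

theorem dT_cone (a : A) (t : Ch A ⊗[ℤ] Ch B) :
    dT ((cone a).rTensor _ t) = t - (cone a).rTensor _ (dT t) := by
  induction t with
  | zero => simp
  | add f g hf hg => simp only [map_add, hf, hg]; abel
  | tmul x y =>
    simp only [LinearMap.rTensor_tmul, dT_tmul, bd_cone, sg_cone, map_sub, sub_tmul, neg_tmul]
    abel

theorem dT_AW (x : Ch V) :
    dT (AW x) = AW (bd x) + single [] 1 ⊗ₜ x - sg x ⊗ₜ single [] 1 := by
  induction x using Finsupp.induction_linear with
  | zero => simp
  | add f g hf hg => simp only [map_add, hf, hg, tmul_add, add_tmul]; abel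
  | single l c =>
    rw [← Finsupp.smul_single_one l]
    simp only [map_zsmul, tmul_smul, ← smul_tmul', ← smul_add, ← smul_sub]
    congr 1
    induction l with
    | nil => simp [aw, sg_single]
    | cons a l ih =>
      have e1 : (single (a :: l) 1 : Ch V) = cone a (single l 1) := by simp
      have e2 : sg (single [a] 1 : Ch V) = -single [a] 1 := by simp [sg_single]
      have e3 : bd (single [a] 1 : Ch V) = single [] 1 := by simp [bdL_one]
      have e4 : cone a (single [] 1 : Ch V) = single [a] 1 := by simp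
      rw [e1, AW_cone, map_add, dT_cone, ih, dT_tmul, e2, e3]
      simp only [bd_cone, map_sub, map_add, AW_cone, LinearMap.rTensor_tmul, sg_cone, e4,
        tmul_sub, neg_tmul]
      abel

theorem aw_mem {M : Type} [AddCommGroup M] [Module ℤ M] {N : Submodule ℤ M} (m : List V)
    (L : Ch V ⊗[ℤ] Ch V →ₗ[ℤ] M) (h : ∀ l l' : List V, l.Sublist m → l'.Sublist m → l ≠ [] →
      l' ≠ [] → l.length + l'.length = m.length + 1 → L (single l 1 ⊗ₜ single l' 1) ∈ N) :
    L (aw m) ∈ N := by
  induction m generalizing L with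
  | nil => simp [aw]
  | cons a m ih =>
    rw [aw, map_add]
    refine add_mem (h _ _ (by simp) (List.Sublist.refl _) (by simp) (by simp) (by simp; omega)) ?_
    refine ih (L ∘ₗ (cone a).rTensor _) fun l l' h1 h2 _ h4 h5 => ?_
    simp only [LinearMap.comp_apply, LinearMap.rTensor_tmul, cone_single]
    exact h _ _ (h1.cons_cons a) (h2.cons a) (by simp) h4 (by simp; omega)

theorem aw_eq {M : Type} [AddCommGroup M] [Module ℤ M] (m : List V)
    (L L' : Ch V ⊗[ℤ] Ch V →ₗ[ℤ] M) (h : ∀ l l' : List V, l.Sublist m → l'.Sublist m → l ≠ [] →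
      l' ≠ [] → l.length + l'.length = m.length + 1 →
      L (single l 1 ⊗ₜ single l' 1) = L' (single l 1 ⊗ₜ single l' 1)) :
    L (aw m) = L' (aw m) := by
  have := aw_mem (N := ⊥) m (L - L') fun l l' h1 h2 h3 h4 h5 => by simp [h l l' h1 h2 h3 h4 h5]
  simpa [sub_eq_zero] using this

theorem aw_top {M : Type} [AddCommGroup M] [Module ℤ M] (m : List V) (v : V)
    (L : Ch V ⊗[ℤ] Ch V →ₗ[ℤ] M) (h : ∀ (l : List V) (y : Ch V), l.length ≤ m.length →
      L (single l 1 ⊗ₜ y) = 0) :
    L (aw (m ++ [v])) = L (single (m ++ [v]) 1 ⊗ₜ single [v] 1) := by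
  induction m generalizing L with
  | nil => simp [aw]
  | cons a m ih =>
    rw [List.cons_append, aw, map_add, h _ _ (by simp), zero_add]
    have := ih (L ∘ₗ (cone a).rTensor _) fun l y hl => by
      simp only [LinearMap.comp_apply, LinearMap.rTensor_tmul, cone_single]
      exact h _ _ (by simpa using hl)
    simpa only [LinearMap.comp_apply, LinearMap.rTensor_tmul, cone_single] using this

/-- the shuffle map on the tensor product -/
noncomputable def XT : Ch A ⊗[ℤ] Ch B →ₗ[ℤ] Ch (A × B) := TensorProduct.lift EZ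

@[simp] theorem XT_tmul (x : Ch A) (y : Ch B) : XT (x ⊗ₜ y) = EZ x y := by simp [XT]

theorem bd_XT (t : Ch A ⊗[ℤ] Ch B) : bd (XT t) = XT (dT t) := by
  induction t with
  | zero => simp
  | add f g hf hg => simp only [map_add, hf, hg]
  | tmul x y => simp only [XT_tmul, bd_EZ, dT_tmul, map_sub]

/-! ### carried homotopies -/

theorem carried (K : Set (List V)) (hK : ∀ l ∈ K, ∀ l' : List V, l'.Sublist l → l' ∈ K)
    (Car : List V → Set W) (hC : ∀ l l' : List V, l'.Sublist l → Car l' ⊆ Car l)
    (b : V → W) (hb : ∀ a l, b a ∈ Car (a :: l)) (F : Ch V →ₗ[ℤ] Ch W)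
    (hF0 : F (single [] 1) = 0) (hF : ∀ l ∈ K, bd (F (single l 1)) = F (bdL l))
    (hFC : ∀ l ∈ K, F (single l 1) ∈ Sp {m | m.length = l.length ∧ ∀ w ∈ m, w ∈ Car l}) (n : ℕ) :
    ∃ h : List V → Ch W, ∀ l ∈ K, l.length ≤ n →
      bd (h l) = F (single l 1) - ext h (bdL l) ∧
      h l ∈ Sp {m | m.length = l.length + 1 ∧ ∀ w ∈ m, w ∈ Car l} := by
  induction n with
  | zero =>
    refine ⟨fun _ => 0, fun l _ hl => ?_⟩
    obtain rfl := List.length_eq_zero_iff.1 (Nat.le_zero.1 hl)
    simp [hF0]
  | succ n ih =>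
    obtain ⟨h, hh⟩ := ih
    let h' : List V → Ch W := fun l => if l.length ≤ n then h l else
      match l with
      | [] => 0
      | a :: l₀ => cone (b a) (F (single (a :: l₀) 1) - ext h (bdL (a :: l₀)))
    have e1 : ∀ l : List V, l.length ≤ n + 1 → ext h' (bdL l) = ext h (bdL l) := fun l hl =>
      eq_of_supp fun m hm => by
        have := (mem_support_bdL hm).2
        simp only [ext_single, h', if_pos (show m.length ≤ n by omega)]
    refine ⟨h', fun l hlK hl => ?_⟩
    rw [e1 l hl]
    by_cases hn : l.length ≤ n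
    · simp only [h', if_pos hn]; exact hh l hlK hn
    rcases l with _ | ⟨a, l₀⟩
    · simp at hn
    simp only [h', if_neg hn]
    have e2 : bd (ext h (bdL (a :: l₀))) =
        F (bdL (a :: l₀)) - ext h (bd (bdL (a :: l₀))) :=
      eq_of_supp (L := bd ∘ₗ ext h) (L' := F - ext h ∘ₗ bd) fun m hm => by
        have := mem_support_bdL hm
        simpa using (hh m (hK _ hlK _ this.1) (by have := this.2; omega)).1
    constructor
    · rw [bd_cone, map_sub, hF _ hlK, e2, bd_bdL]; simp
    · refine Sp.cone (S := {m | m.length = (a :: l₀).length ∧ ∀ w ∈ m, w ∈ Car (a :: l₀)})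
        (sub_mem (hFC _ hlK) (Sp.ext (bdL_mem _) fun m hm => ?_)) _ fun m hm => ⟨?_, ?_⟩
      · refine Sp.mono (hh m (hK _ hlK _ hm.1) (by have := hm.2; omega)).2 fun m' hm' =>
          ⟨hm'.1.trans hm.2, fun w hw => hC _ _ hm.1 (hm'.2 w hw)⟩
      · simpa using hm.1
      · intro w hw
        rcases List.mem_cons.1 hw with rfl | hw
        · exact hb a l₀
        · exact hm.2 w hw

end Crest.Agent.R185
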