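import Crest.Agent.R185.Obj

/-!
# Row 185: the layer `Q = FSym(S') ⋊ (P × G')`, `S' = Pt O ⊔ G'` (tasks R185-L1, R185-L1Alg)

PLAN (`L1_reg`).  Every `w` acts on `S'` as `π_w ∘ (prX w, prG w)` where `π_w` is a product of `≤ |w|` transpositions `(u • b_i, g)` with `|u| ≤ |w|`.
For `w ∈ H false` (`|w| ≤ n`), `actS w = actS (inX (prX w))` fixes `inr _` and all `inl (u • b_i)`, `|u| ≤ r n`.  `H true`: `u • inr 1` is `inr _` or `inl` of radius `≤ n`.
`H false`: `u⁻¹ w u`: `prX` part by `Reg`, `prG` part trivial, and `actS u = π_u ∘ (p,g)` with `π_u` supported in radius `≤ n`, so it commutes with `actS w`.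
`L1_pack`: `S' = Pt O ⊕ G'`; the swaps `u (b_i, 1) u⁻¹` give all transpositions `(inl s, inr g)`, these generate all transpositions; `ν x = pt true w` for any `w` with `actS w (inr 1) = x`.
An element acting trivially on `S'` lies in `H false` (= core, the layer is true) because `G'` and `F/H false ≅ Grp O` are infinite free orbits and `π_w` is finitary.
PLAN (`L1_alg`).  Simulate the action on *names* `(Bool × FreeGroup X) ⊕ FreeGroup (Fin k)` with equality tests by the table `T` and by a table for `G'`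
(`gtab n` = filter of `ball n`, computable by `computable_filter`); `w ∈ H true` iff the name `inr 1` returns to an equal name; `w ∈ H false` iff `prX w ∈ T`, `prG w = 1`
and `w` fixes all names `inl (i, u)`, `inr g` with `|u|,|g| ≤ |w|` (then `π_w` fixes its potential support).
-/

set_option autoImplicit false

namespace Crest.Agent.R185

open scoped Classical

variable {X G : Type} [Group G] {k : ℕ}

/-- `inl x`, `inr (inl j)` (generators of `G`), `inr (inr i)` (the swap of `b_i` and `1 ∈ G`). -/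
abbrev XQ (X : Type) (k : ℕ) : Type := X ⊕ Fin k ⊕ Bool

def inX : FreeGroup X →* FreeGroup (XQ X k) := FreeGroup.map .inl
def inG : FreeGroup (Fin k) →* FreeGroup (XQ X k) := FreeGroup.map fun j => .inr (.inl j)
def prX : FreeGroup (XQ X k) →* FreeGroup X := FreeGroup.lift (Sum.elim FreeGroup.of fun _ => 1)
def prG (s : Fin k → G) : FreeGroup (XQ X k) →* G :=
  FreeGroup.lift (Sum.elim (fun _ => 1) (Sum.elim s fun _ => 1))

noncomputable def actS (s : Fin k → G) (O : Obj X) :
    FreeGroup (XQ X k) →* Equiv.Perm (O.Pt ⊕ G) :=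
  FreeGroup.lift (Sum.elim
    (fun x => Equiv.sumCongr (MulAction.toPerm (FreeGroup.of x)) (Equiv.refl _))
    (Sum.elim (fun j => Equiv.sumCongr (Equiv.refl _) (Equiv.mulLeft (s j)))
      fun i => Equiv.swap (.inl (O.pt i 1)) (.inr 1)))

noncomputable def L1 (s : Fin k → G) (O : Obj X) : Obj (XQ X k) :=
  ⟨fun i => cond i ((MulAction.stabilizer (Equiv.Perm (O.Pt ⊕ G)) (Sum.inr 1 : O.Pt ⊕ G)).comap
      (actS s O))
    ((O.H false).comap prX ⊓ (prG s).ker ⊓ (actS s O).eqLocus ((actS s O).comp (inX.comp prX)))⟩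

theorem L1_prX_inX (g : FreeGroup X) : prX (inX g : FreeGroup (XQ X k)) = g := by
  have : (prX : FreeGroup (XQ X k) →* _).comp inX = MonoidHom.id _ := by
    ext x; simp [prX, inX]
  exact DFunLike.congr_fun this g

theorem L1_prG_inX (s : Fin k → G) (g : FreeGroup X) : prG s (inX g : FreeGroup (XQ X k)) = 1 := by
  have : (prG s : FreeGroup (XQ X k) →* _).comp inX = 1 := by
    ext x; simp [prG, inX]
  exact DFunLike.congr_fun this g

theorem L1_prX_inG (g : FreeGroup (Fin k)) : prX (inG g : FreeGroup (XQ X k)) = 1 := by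
  have : (prX : FreeGroup (XQ X k) →* _).comp inG = 1 := by
    ext x; simp [prX, inG]
  exact DFunLike.congr_fun this g

theorem L1_prG_inG (s : Fin k → G) (g : FreeGroup (Fin k)) :
    prG s (inG g : FreeGroup (XQ X k)) = FreeGroup.lift s g := by
  have : (prG s : FreeGroup (XQ X k) →* _).comp inG = FreeGroup.lift s := by
    ext x; simp [prG, inG]
  exact DFunLike.congr_fun this g

/-- The action without the swaps. -/
noncomputable def L1β (s : Fin k → G) (O : Obj X) : FreeGroup (XQ X k) →* Equiv.Perm (O.Pt ⊕ G) where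
  toFun w := Equiv.sumCongr (MulAction.toPerm (prX w)) (Equiv.mulLeft (prG s w))
  map_one' := by ext x; rcases x with x | x <;> simp
  map_mul' a b := by ext x; rcases x with x | x <;> simp [mul_smul, mul_assoc]

@[simp] theorem L1β_inl (s : Fin k → G) (O : Obj X) (w : FreeGroup (XQ X k)) (x : O.Pt) :
    L1β s O w (.inl x) = .inl (prX w • x) := rfl

@[simp] theorem L1β_inr (s : Fin k → G) (O : Obj X) (w : FreeGroup (XQ X k)) (x : G) :
    L1β s O w (.inr x) = .inr (prG s w * x) := rfl

theorem L1_act_inX (s : Fin k → G) (O : Obj X) (g : FreeGroup X) :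
    actS s O (inX g) = L1β s O (inX g) := by
  have : (actS s O).comp inX = (L1β s O).comp inX := by
    ext x y; rcases y with y | y <;> simp [actS, inX, prX, prG]
  exact DFunLike.congr_fun this g

theorem L1_act_inG (s : Fin k → G) (O : Obj X) (g : FreeGroup (Fin k)) :
    actS s O (inG g) = L1β s O (inG g) := by
  have : (actS s O).comp inG = (L1β s O).comp inG := by
    ext x y; rcases y with y | y <;> simp [actS, inG, prX, prG]
  exact DFunLike.congr_fun this g

theorem L1_act_swap (s : Fin k → G) (O : Obj X) (i : Bool) :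
    actS s O (FreeGroup.of (.inr (.inr i))) = Equiv.swap (.inl (O.pt i 1)) (.inr 1) := by
  simp [actS]

theorem L1β_swap (s : Fin k → G) (O : Obj X) (i : Bool) :
    L1β s O (FreeGroup.of (.inr (.inr i))) = 1 := by
  ext y; rcases y with y | y <;> simp [prX, prG]

theorem L1_mem_false (s : Fin k → G) (O : Obj X) (w : FreeGroup (XQ X k)) :
    w ∈ (L1 s O).H false ↔ prX w ∈ O.H false ∧ prG s w = 1 ∧ actS s O w = L1β s O w := by
  have h : prG s w = 1 → actS s O (inX (prX w)) = L1β s O w := by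
    intro h
    rw [L1_act_inX]
    ext y; rcases y with y | y <;> simp [L1_prX_inX, L1_prG_inX, h]
  change (prX w ∈ O.H false ∧ prG s w = 1) ∧ actS s O w = actS s O (inX (prX w)) ↔ _
  constructor
  · rintro ⟨⟨h1, h2⟩, h3⟩
    exact ⟨h1, h2, h3.trans (h h2)⟩
  · rintro ⟨h1, h2, h3⟩
    exact ⟨⟨h1, h2⟩, h3.trans (h h2).symm⟩

theorem L1_mem_true (s : Fin k → G) (O : Obj X) (w : FreeGroup (XQ X k)) :
    w ∈ (L1 s O).H true ↔ actS s O w (.inr 1) = .inr 1 := Iff.rfl

/-- The finitary part. -/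
noncomputable def L1π (s : Fin k → G) (O : Obj X) (w : FreeGroup (XQ X k)) :
    Equiv.Perm (O.Pt ⊕ G) := actS s O w * (L1β s O w)⁻¹

theorem L1π_mul (s : Fin k → G) (O : Obj X) (a w : FreeGroup (XQ X k)) :
    L1π s O (a * w) = L1π s O a * (L1β s O a * L1π s O w * (L1β s O a)⁻¹) := by
  simp only [L1π, map_mul]; group

theorem L1π_letter (s : Fin k → G) (O : Obj X) (z : XQ X k × Bool) :
    L1π s O (FreeGroup.mk [z]) = 1 ∨
      ∃ i, L1π s O (FreeGroup.mk [z]) = Equiv.swap (.inl (O.pt i 1)) (.inr 1) := by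
  obtain ⟨z, b⟩ := z
  have hb : FreeGroup.mk [(z, b)] = FreeGroup.of z ∨ FreeGroup.mk [(z, b)] = (FreeGroup.of z)⁻¹ := by
    cases b
    · right; rfl
    · left; rfl
  rcases z with x | j | i
  · left
    have h : actS s O (FreeGroup.of (.inl x)) = L1β s O (FreeGroup.of (.inl x)) :=
      L1_act_inX s O (FreeGroup.of x)
    rcases hb with hb | hb <;> rw [hb] <;> simp [L1π, h]
  · left
    have h : actS s O (FreeGroup.of (.inr (.inl j))) = L1β s O (FreeGroup.of (.inr (.inl j))) :=
      L1_act_inG s O (FreeGroup.of j)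
    rcases hb with hb | hb <;> rw [hb] <;> simp [L1π, h]
  · right
    refine ⟨i, ?_⟩
    rcases hb with hb | hb <;> rw [hb] <;> simp [L1π, L1_act_swap, L1β_swap]

theorem L1_mk_cons {Y : Type} (z : Y × Bool) (L : List (Y × Bool)) :
    FreeGroup.mk (z :: L) = FreeGroup.mk [z] * FreeGroup.mk L := by
  rw [FreeGroup.mul_mk]; rfl

theorem L1π_finite (s : Fin k → G) (O : Obj X) (w : FreeGroup (XQ X k)) :
    {x | L1π s O w x ≠ x}.Finite := by
  rw [← FreeGroup.mk_toWord (x := w)]
  induction w.toWord with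
  | nil =>
    have : (FreeGroup.mk [] : FreeGroup (XQ X k)) = 1 := rfl
    simp [this, L1π]
  | cons z L ih =>
    rw [L1_mk_cons, L1π_mul]
    have h1 : {x | L1π s O (FreeGroup.mk [z]) x ≠ x}.Finite := by
      rcases L1π_letter s O z with h | ⟨i, h⟩
      · simp [h]
      · rw [h]
        refine ((Set.finite_singleton (Sum.inr 1)).insert (Sum.inl (O.pt i 1))).subset ?_
        intro x hx
        by_contra hcon
        simp only [Set.mem_insert_iff, Set.mem_singleton_iff, not_or] at hcon
        exact hx (Equiv.swap_apply_of_ne_of_ne hcon.1 hcon.2)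
    refine (h1.union (ih.image (L1β s O (FreeGroup.mk [z])))).subset ?_
    intro x hx
    by_contra hcon
    simp only [Set.mem_union, Set.mem_setOf_eq, not_or, not_not] at hcon
    apply hx
    have h2 : L1π s O (FreeGroup.mk L) ((L1β s O (FreeGroup.mk [z]))⁻¹ x) =
        (L1β s O (FreeGroup.mk [z]))⁻¹ x := by
      by_contra h3
      exact hcon.2 ⟨_, h3, by simp⟩
    simp only [Equiv.Perm.mul_apply, h2]
    simpa using hcon.1

section Reg
variable [DecidableEq X]

theorem L1_norm_letter (z : XQ X k × Bool) : (prX (FreeGroup.mk [z])).norm ≤ 1 := by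
  obtain ⟨z, b⟩ := z
  have hb : FreeGroup.mk [(z, b)] = FreeGroup.of z ∨ FreeGroup.mk [(z, b)] = (FreeGroup.of z)⁻¹ := by
    cases b
    · right; rfl
    · left; rfl
  rcases z with x | j <;> rcases hb with hb | hb <;> rw [hb] <;> simp [prX]

theorem L1_norm_prX_mk (L : List (XQ X k × Bool)) : (prX (FreeGroup.mk L)).norm ≤ L.length := by
  induction L with
  | nil =>
    have : (FreeGroup.mk [] : FreeGroup (XQ X k)) = 1 := rfl
    simp [this]
  | cons z L ih =>
    rw [L1_mk_cons, map_mul, List.length_cons]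
    have := FreeGroup.norm_mul_le (prX (FreeGroup.mk [z])) (prX (FreeGroup.mk L))
    have := L1_norm_letter z
    omega

theorem L1_norm_prX [DecidableEq (XQ X k)] (w : FreeGroup (XQ X k)) : (prX w).norm ≤ w.norm := by
  conv_lhs => rw [← FreeGroup.mk_toWord (x := w)]
  exact L1_norm_prX_mk _

/-- The potential support at radius `n`. -/
def L1A (G : Type) (O : Obj X) (n : ℕ) : Set (O.Pt ⊕ G) :=
  {x | (∃ i u, u.norm ≤ n ∧ x = .inl (O.pt i u)) ∨ ∃ g, x = .inr g}

theorem L1π_supp_mk (s : Fin k → G) (O : Obj X) (L : List (XQ X k × Bool)) :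
    ∀ x ∉ L1A G O L.length, L1π s O (FreeGroup.mk L) x = x := by
  induction L with
  | nil =>
    have : (FreeGroup.mk [] : FreeGroup (XQ X k)) = 1 := rfl
    simp [this, L1π]
  | cons z L ih =>
    intro x hx
    rw [L1_mk_cons, L1π_mul]
    have h2 : (L1β s O (FreeGroup.mk [z]))⁻¹ x ∉ L1A G O L.length := by
      intro h
      apply hx
      have h3 : x = L1β s O (FreeGroup.mk [z]) ((L1β s O (FreeGroup.mk [z]))⁻¹ x) := by simp
      rcases h with ⟨i, u, hu, h⟩ | ⟨g, h⟩
      · rw [h, L1β_inl, Obj.smul_pt] at h3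
        refine Or.inl ⟨i, _, ?_, h3⟩
        have := FreeGroup.norm_mul_le (prX (FreeGroup.mk [z])) u
        have := L1_norm_letter z
        rw [List.length_cons]
        omega
      · rw [h, L1β_inr] at h3
        exact Or.inr ⟨_, h3⟩
    simp only [Equiv.Perm.mul_apply, ih _ h2]
    have h4 : L1π s O (FreeGroup.mk [z]) x = x := by
      rcases L1π_letter s O z with h | ⟨i, h⟩
      · simp [h]
      · rw [h]
        refine Equiv.swap_apply_of_ne_of_ne (fun h5 => hx ?_) (fun h5 => hx ?_)
        · exact Or.inl ⟨i, 1, by simp, h5⟩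
        · exact Or.inr ⟨1, h5⟩
    simpa using h4

theorem L1π_supp [DecidableEq (XQ X k)] (s : Fin k → G) (O : Obj X) {w : FreeGroup (XQ X k)} {n : ℕ}
    (hw : w.norm ≤ n) : ∀ x ∉ L1A G O n, L1π s O w x = x := by
  intro x hx
  rw [← FreeGroup.mk_toWord (x := w)]
  refine L1π_supp_mk s O _ x fun h => hx ?_
  rcases h with ⟨i, u, hu, h⟩ | h
  · exact Or.inl ⟨i, u, hu.trans hw, h⟩
  · exact Or.inr h

end Reg

theorem L1_reg [DecidableEq X] (s : Fin k → G) (O : Obj X) (n : ℕ) (h : Reg O (4 * n)) :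
    Reg (L1 s O) n := by
  intro w hw hwn i u hun
  have h' : Reg O n := h.mono (by omega)
  obtain ⟨h1, h2, h3⟩ := (L1_mem_false s O w).1 hw
  have hpw : (prX w).norm ≤ n := (L1_norm_prX w).trans hwn
  have hpu : (prX u).norm ≤ n := (L1_norm_prX u).trans hun
  have hfix : ∀ x ∈ L1A G O n, actS s O w x = x := by
    rintro x (⟨i, v, hv, rfl⟩ | ⟨g, rfl⟩)
    · rw [h3, L1β_inl, h'.smul h1 hpw i hv]
    · rw [h3, L1β_inr, h2, one_mul]
  have hsupp := L1π_supp s O hun
  have hu : actS s O u = L1π s O u * L1β s O u := by simp [L1π]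
  cases i
  · rw [L1_mem_false]
    refine ⟨?_, ?_, ?_⟩
    · rw [map_mul, map_mul, map_inv]
      exact h' _ h1 hpw false _ hpu
    · simp [h2]
    · have hc : Commute (actS s O w) (L1π s O u) := by
        refine Equiv.Perm.Disjoint.commute fun x => ?_
        by_cases hx : x ∈ L1A G O n
        · exact Or.inl (hfix x hx)
        · exact Or.inr (hsupp x hx)
      rw [map_mul, map_mul, map_mul, map_mul, map_inv, map_inv, ← h3, hu]
      calc (L1π s O u * L1β s O u)⁻¹ * actS s O w * (L1π s O u * L1β s O u)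
          = (L1β s O u)⁻¹ * ((L1π s O u)⁻¹ * (actS s O w * L1π s O u)) * L1β s O u := by group
        _ = _ := by rw [hc.eq]; group
  · rw [L1_mem_true, map_mul, map_mul, map_inv]
    have hm : actS s O u (.inr 1) ∈ L1A G O n := by
      by_contra hcon
      have h5 := hsupp _ hcon
      rw [hu, Equiv.Perm.mul_apply, (L1π s O u).injective.eq_iff] at h5
      apply hcon
      rw [hu, Equiv.Perm.mul_apply, h5]
      exact Or.inr ⟨_, rfl⟩
    simp only [Equiv.Perm.mul_apply, hfix _ hm]
    simp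

theorem L1_inX (s : Fin k → G) (O : Obj X) (g : FreeGroup X) :
    inX g ∈ (L1 s O).H false ↔ g ∈ O.H false := by
  rw [L1_mem_false, L1_prX_inX, L1_prG_inX, L1_act_inX]
  simp

theorem L1_inG (s : Fin k → G) (O : Obj X) (g : FreeGroup (Fin k)) :
    inG g ∈ (L1 s O).H false ↔ FreeGroup.lift s g = 1 := by
  rw [L1_mem_false, L1_prX_inG, L1_prG_inG, L1_act_inG]
  simp

theorem L1_isTrue (s : Fin k → G) (O : Obj X) (hO : O.IsTrue) : (L1 s O).IsTrue :=
  isTrue_iff_reg.2 fun n => L1_reg s O n (isTrue_iff_reg.1 hO _)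

theorem L1_core_iff (s : Fin k → G) [Infinite G] (O : Obj X) (hO : O.IsTrue) [Infinite O.Grp]
    (w : FreeGroup (XQ X k)) : w ∈ (L1 s O).core ↔ actS s O w = 1 := by
  rw [(L1_isTrue s O hO).core_eq, L1_mem_false]
  have key : prX w ∈ O.H false → prG s w = 1 → L1β s O w = 1 := by
    intro h1 h2
    ext y
    rcases y with y | y
    · rw [L1β_inl, O.mem_core.1 (hO h1)]; rfl
    · rw [L1β_inr, h2, one_mul]; rfl
  constructor
  · rintro ⟨h1, h2, h3⟩
    rw [h3, key h1 h2]
  · intro h
    have hfin : {x | L1β s O w x ≠ x}.Finite := by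
      refine (L1π_finite s O w).subset fun x hx h5 => hx ?_
      rw [L1π, h, one_mul] at h5
      conv_lhs => rw [← h5]
      simp
    have h2 : prG s w = 1 := by
      by_contra hcon
      refine Set.infinite_of_injective_forall_mem (f := (Sum.inr : G → O.Pt ⊕ G))
        Sum.inr_injective (fun g => ?_) hfin
      simpa using hcon
    have h1 : prX w ∈ O.H false := by
      by_contra hcon
      refine Set.infinite_of_injective_forall_mem
        (f := fun q : O.Grp => (Sum.inl (q • O.pt false 1) : O.Pt ⊕ G)) ?_ (fun q => ?_) hfin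
      · intro a b hab
        obtain ⟨a, rfl⟩ := QuotientGroup.mk_surjective a
        obtain ⟨b, rfl⟩ := QuotientGroup.mk_surjective b
        have h6 := Sum.inl_injective hab
        rw [O.mk_smul, O.mk_smul, O.smul_pt, O.smul_pt, O.pt_eq, mul_one, mul_one] at h6
        exact QuotientGroup.eq.2 (hO h6.2)
      · obtain ⟨a, rfl⟩ := QuotientGroup.mk_surjective q
        intro h6
        rw [L1β_inl, O.mk_smul, O.smul_pt, O.smul_pt, mul_one] at h6
        have h7 := (O.pt_eq.1 (Sum.inl_injective h6).symm).2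
        have h8 := (inferInstance : O.core.Normal).conj_mem _ (hO h7) a
        apply hcon
        apply O.core_le
        convert h8 using 1
        group
    exact ⟨h1, h2, h.trans (key h1 h2).symm⟩

theorem L1_trans (s : Fin k → G) (hs : Function.Surjective (FreeGroup.lift s)) (O : Obj X)
    (x : O.Pt ⊕ G) : ∃ w, actS s O w (.inr 1) = x := by
  rcases x with x | g
  · obtain ⟨i, u, rfl⟩ := O.pt_surj x
    refine ⟨inX u * FreeGroup.of (.inr (.inr i)), ?_⟩
    rw [map_mul, Equiv.Perm.mul_apply, L1_act_swap, Equiv.swap_apply_right, L1_act_inX, L1β_inl,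
      L1_prX_inX, O.smul_pt, mul_one]
  · obtain ⟨v, rfl⟩ := hs g
    exact ⟨inG v, by rw [L1_act_inG, L1β_inr, L1_prG_inG, mul_one]⟩

theorem L1_swap_range (s : Fin k → G) (hs : Function.Surjective (FreeGroup.lift s)) (O : Obj X)
    (a b : O.Pt ⊕ G) : Equiv.swap a b ∈ (actS s O).range := by
  have h0 : ∀ (x : O.Pt) (g : G), Equiv.swap (Sum.inl x) (Sum.inr g) ∈ (actS s O).range := by
    intro x g
    obtain ⟨i, u, rfl⟩ := O.pt_surj x
    obtain ⟨v, rfl⟩ := hs g
    refine ⟨(inX u * inG v) * FreeGroup.of (.inr (.inr i)) * (inX u * inG v)⁻¹, ?_⟩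
    rw [map_mul, map_mul, map_inv, L1_act_swap, ← Equiv.swap_apply_apply, map_mul, L1_act_inX,
      L1_act_inG]
    simp [L1_prX_inX, L1_prG_inX, L1_prX_inG, L1_prG_inG, O.smul_pt]
  have hconj : ∀ f ∈ (actS s O).range, ∀ a b, Equiv.swap a b ∈ (actS s O).range →
      Equiv.swap (f a) (f b) ∈ (actS s O).range := by
    intro f hf a b hab
    rw [Equiv.swap_apply_apply]
    exact mul_mem (mul_mem hf hab) (inv_mem hf)
  by_cases hab : a = b
  · rw [hab, Equiv.swap_self]; exact one_mem _
  rcases a with a | a <;> rcases b with b | b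
  · have := hconj _ (h0 b 1) _ _ (h0 a 1)
    rwa [Equiv.swap_apply_right, Equiv.swap_apply_of_ne_of_ne hab (by simp)] at this
  · exact h0 a b
  · rw [Equiv.swap_comm]; exact h0 b a
  · have := hconj _ (h0 (O.pt true 1) a) _ _ (h0 (O.pt true 1) b)
    rwa [Equiv.swap_apply_left, Equiv.swap_apply_of_ne_of_ne (by simp) (Ne.symm hab)] at this

theorem L1_pack (s : Fin k → G) (hs : Function.Surjective (FreeGroup.lift s)) [Infinite G]
    (O : Obj X) (hO : O.IsTrue) [Infinite O.Grp] (hc : O.core ≤ (L1 s O).core.comap inX) :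
    ∃ (S' : Type) (_ : DecidableEq S') (_ : MulAction (L1 s O).Grp S') (j : O.Pt → S')
      (ν : S' → (L1 s O).Pt), FaithfulSMul (L1 s O).Grp S' ∧ Function.Injective j ∧
      Function.Injective ν ∧ (∀ (p : O.Grp) x, j (p • x) = Obj.map inX hc p • j x) ∧
      (∀ (q : (L1 s O).Grp) x, ν (q • x) = q • ν x) ∧ (Set.range j)ᶜ.Infinite ∧
      (∀ (p : O.Grp), ∀ x ∉ Set.range j, Obj.map inX hc p • x = x) ∧
      ∀ a b : S', ∃ q : (L1 s O).Grp, ∀ x, q • x = Equiv.swap a b x := by
  let ρ : (L1 s O).Grp →* Equiv.Perm (O.Pt ⊕ G) :=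
    QuotientGroup.lift _ (actS s O) fun w hw => (L1_core_iff s O hO w).1 hw
  letI act : MulAction (L1 s O).Grp (O.Pt ⊕ G) := MulAction.compHom _ ρ
  have hsm : ∀ (w : FreeGroup (XQ X k)) (x : O.Pt ⊕ G),
      (QuotientGroup.mk w : (L1 s O).Grp) • x = actS s O w x := fun w x => rfl
  choose c hcw using L1_trans s hs O
  have hν : ∀ w, (L1 s O).pt true (c (actS s O w (.inr 1))) = (L1 s O).pt true w := by
    intro w
    rw [Obj.pt_eq, L1_mem_true, map_mul, map_inv, Equiv.Perm.mul_apply]
    refine ⟨rfl, ?_⟩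
    rw [Equiv.Perm.inv_eq_iff_eq, hcw]
  refine ⟨O.Pt ⊕ G, inferInstance, act, Sum.inl, fun x => (L1 s O).pt true (c x), ⟨?_⟩,
    Sum.inl_injective, ?_, ?_, ?_, ?_, ?_, ?_⟩
  · intro a b h
    obtain ⟨a, rfl⟩ := QuotientGroup.mk_surjective a
    obtain ⟨b, rfl⟩ := QuotientGroup.mk_surjective b
    refine QuotientGroup.eq.2 ((L1_core_iff s O hO _).2 ?_)
    rw [map_mul, map_inv, inv_mul_eq_one]
    exact Equiv.ext h
  · intro a b h
    have h1 := (Obj.pt_eq _).1 h
    have h2 := h1.2
    rw [L1_mem_true, map_mul, map_inv, Equiv.Perm.mul_apply, Equiv.Perm.inv_eq_iff_eq, hcw,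
      hcw] at h2
    exact h2.symm
  · intro p x
    obtain ⟨g, rfl⟩ := QuotientGroup.mk_surjective p
    change _ = actS s O (inX g) (Sum.inl x)
    rw [L1_act_inX, L1β_inl, L1_prX_inX, O.mk_smul]
  · intro q x
    obtain ⟨w, rfl⟩ := QuotientGroup.mk_surjective q
    rw [hsm, Obj.mk_smul, Obj.smul_pt, ← hν (w * c x), map_mul, Equiv.Perm.mul_apply, hcw]
  · refine Set.infinite_of_injective_forall_mem (f := (Sum.inr : G → O.Pt ⊕ G))
      Sum.inr_injective fun g => ?_
    simp
  · intro p x hx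
    obtain ⟨g, rfl⟩ := QuotientGroup.mk_surjective p
    change actS s O (inX g) x = x
    rcases x with x | x
    · exact absurd ⟨x, rfl⟩ hx
    · rw [L1_act_inX, L1β_inr, L1_prG_inX, one_mul]
  · intro a b
    obtain ⟨w, hw⟩ := L1_swap_range s hs O a b
    exact ⟨QuotientGroup.mk w, fun x => by rw [hsm, hw]⟩

end Crest.Agent.R185
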