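import Crest.Agent.R185.FGPrim

/-!
# Row 185: `fun_prop` support for `Primrec`
-/

set_option autoImplicit false

namespace Crest.Agent.R185

attribute [fun_prop] Primrec

variable {α β γ σ : Type} [Primcodable α] [Primcodable β] [Primcodable γ] [Primcodable σ]

@[fun_prop] theorem pr_id : Primrec fun a : α => a := Primrec.id
@[fun_prop] theorem pr_const (b : β) : Primrec fun _ : α => b := Primrec.const b
@[fun_prop] theorem pr_comp {f : β → γ} {g : α → β} (hf : Primrec f) (hg : Primrec g) :
    Primrec fun a => f (g a) := hf.comp hg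
@[fun_prop] theorem pr_fst {f : α → β × γ} (hf : Primrec f) : Primrec fun a => (f a).1 :=
  Primrec.fst.comp hf
@[fun_prop] theorem pr_snd {f : α → β × γ} (hf : Primrec f) : Primrec fun a => (f a).2 :=
  Primrec.snd.comp hf
@[fun_prop] theorem pr_pair {f : α → β} {g : α → γ} (hf : Primrec f) (hg : Primrec g) :
    Primrec fun a => (f a, g a) := hf.pair hg
@[fun_prop] theorem pr_add {f g : α → ℕ} (hf : Primrec f) (hg : Primrec g) :
    Primrec fun a => f a + g a := Primrec.nat_add.comp hf hg
@[fun_prop] theorem pr_sub {f g : α → ℕ} (hf : Primrec f) (hg : Primrec g) :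
    Primrec fun a => f a - g a := Primrec.nat_sub.comp hf hg
@[fun_prop] theorem pr_mul {f g : α → ℕ} (hf : Primrec f) (hg : Primrec g) :
    Primrec fun a => f a * g a := Primrec.nat_mul.comp hf hg
@[fun_prop] theorem pr_mod {f g : α → ℕ} (hf : Primrec f) (hg : Primrec g) :
    Primrec fun a => f a % g a := Primrec.nat_mod.comp hf hg
@[fun_prop] theorem pr_not {f : α → Bool} (hf : Primrec f) : Primrec fun a => !(f a) :=
  Primrec.not.comp hf
@[fun_prop] theorem pr_and {f g : α → Bool} (hf : Primrec f) (hg : Primrec g) :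
    Primrec fun a => f a && g a := Primrec.and.comp hf hg
@[fun_prop] theorem pr_or {f g : α → Bool} (hf : Primrec f) (hg : Primrec g) :
    Primrec fun a => f a || g a := Primrec.or.comp hf hg
@[fun_prop] theorem pr_cond {c : α → Bool} {f g : α → β} (hc : Primrec c) (hf : Primrec f)
    (hg : Primrec g) : Primrec fun a => cond (c a) (f a) (g a) := Primrec.cond hc hf hg
@[fun_prop] theorem pr_length {f : α → List β} (hf : Primrec f) : Primrec fun a => (f a).length :=
  Primrec.list_length.comp hf
@[fun_prop] theorem pr_cons {f : α → β} {g : α → List β} (hf : Primrec f) (hg : Primrec g) :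
    Primrec fun a => f a :: g a := Primrec.list_cons.comp hf hg
@[fun_prop] theorem pr_append {f g : α → List β} (hf : Primrec f) (hg : Primrec g) :
    Primrec fun a => f a ++ g a := Primrec.list_append.comp hf hg
@[fun_prop] theorem pr_inl {f : α → β} (hf : Primrec f) :
    Primrec fun a => (Sum.inl (f a) : β ⊕ γ) := Primrec.sumInl.comp hf
@[fun_prop] theorem pr_inr {f : α → γ} (hf : Primrec f) :
    Primrec fun a => (Sum.inr (f a) : β ⊕ γ) := Primrec.sumInr.comp hf
@[fun_prop] theorem pr_some {f : α → β} (hf : Primrec f) : Primrec fun a => some (f a) :=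
  Primrec.option_some.comp hf
@[fun_prop] theorem pr_map {f : α → List β} {g : α → β → σ} (hf : Primrec f)
    (hg : Primrec fun p : α × β => g p.1 p.2) : Primrec fun a => (f a).map (g a) :=
  Primrec.list_map hf hg
@[fun_prop] theorem pr_flatMap {f : α → List β} {g : α → β → List σ} (hf : Primrec f)
    (hg : Primrec fun p : α × β => g p.1 p.2) : Primrec fun a => (f a).flatMap (g a) :=
  Primrec.list_flatMap hf hg
@[fun_prop] theorem pr_elim {f : α → β ⊕ γ} {g : α → β → σ} {h : α → γ → σ} (hf : Primrec f)
    (hg : Primrec fun p : α × β => g p.1 p.2) (hh : Primrec fun p : α × γ => h p.1 p.2) :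
    Primrec fun a => Sum.elim (g a) (h a) (f a) :=
  (Primrec.sumCasesOn hf hg hh).of_eq fun a => by cases f a <;> rfl
@[fun_prop] theorem pr_foldr {f : α → List β} {g : α → σ} {h : α → β → σ → σ} (hf : Primrec f)
    (hg : Primrec g) (hh : Primrec fun p : α × β × σ => h p.1 p.2.1 p.2.2) :
    Primrec fun a => (f a).foldr (h a) (g a) :=
  Primrec.list_foldr (h := fun a p => h a p.1 p.2) hf hg hh
@[fun_prop] theorem pr_foldl {f : α → List β} {g : α → σ} {h : α → σ → β → σ} (hf : Primrec f)
    (hg : Primrec g) (hh : Primrec fun p : α × σ × β => h p.1 p.2.1 p.2.2) :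
    Primrec fun a => (f a).foldl (h a) (g a) :=
  Primrec.list_foldl (h := fun a p => h a p.1 p.2) hf hg hh
@[fun_prop] theorem pr_all {f : α → List β} {g : α → β → Bool} (hf : Primrec f)
    (hg : Primrec fun p : α × β => g p.1 p.2) : Primrec fun a => (f a).all (g a) :=
  (pr_foldr (h := fun a b s => g a b && s) (g := fun _ => true) hf (Primrec.const _)
    (Primrec.and.comp (hg.comp (Primrec.fst.pair (Primrec.fst.comp Primrec.snd)))
      (Primrec.snd.comp Primrec.snd))).of_eq fun a => by
    induction f a with
    | nil => rfl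
    | cons b l ih => simp only [List.foldr_cons, List.all_cons, ih]
@[fun_prop] theorem pr_sum {f : α → List ℕ} (hf : Primrec f) : Primrec fun a => (f a).sum :=
  (pr_foldr (h := fun _ b s => b + s) (g := fun _ => 0) hf (Primrec.const _)
    (by fun_prop)).of_eq fun a => by
    induction f a with
    | nil => rfl
    | cons b l ih => simp only [List.foldr_cons, List.sum_cons, ih]

/-- Boolean equality test. -/
def beq' [DecidableEq β] (a b : β) : Bool := decide (a = b)

omit [Primcodable β] in
@[simp] theorem beq'_iff [DecidableEq β] {a b : β} : beq' a b = true ↔ a = b := by simp [beq']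

@[fun_prop] theorem pr_beq' [DecidableEq β] {f g : α → β} (hf : Primrec f) (hg : Primrec g) :
    Primrec fun a => beq' (f a) (g a) := (Primrec.eq.comp hf hg).decide

/-- Boolean membership test. -/
def bmem [DecidableEq β] (a : β) (l : List β) : Bool := decide (a ∈ l)

omit [Primcodable β] in
@[simp] theorem bmem_iff [DecidableEq β] {a : β} {l : List β} : bmem a l = true ↔ a ∈ l := by
  simp [bmem]

@[fun_prop] theorem pr_bmem [DecidableEq β] {f : α → β} {g : α → List β} (hf : Primrec f)
    (hg : Primrec g) : Primrec fun a => bmem (f a) (g a) :=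
  (((PrimrecRel.exists_mem_list (R := fun a b : β => a = b) Primrec.eq).comp hg hf).of_eq
    fun a => by simp).decide

/-- Boolean order test. -/
def ble' (a b : ℕ) : Bool := decide (a ≤ b)

@[simp] theorem ble'_iff {a b : ℕ} : ble' a b = true ↔ a ≤ b := by simp [ble']

@[fun_prop] theorem pr_ble' {f g : α → ℕ} (hf : Primrec f) (hg : Primrec g) :
    Primrec fun a => ble' (f a) (g a) := (Primrec.nat_le.comp hf hg).decide

variable {X : Type} [DecidableEq X] [Primcodable X]

@[fun_prop] theorem pr_fgmul {f g : α → FreeGroup X} (hf : Primrec f) (hg : Primrec g) :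
    Primrec fun a => f a * g a := primrec_mul.comp hf hg
@[fun_prop] theorem pr_fginv {f : α → FreeGroup X} (hf : Primrec f) :
    Primrec fun a => (f a)⁻¹ := primrec_inv.comp hf
@[fun_prop] theorem pr_fgof {f : α → X} (hf : Primrec f) :
    Primrec fun a => FreeGroup.of (f a) := primrec_of.comp hf
@[fun_prop] theorem pr_fgnorm {f : α → FreeGroup X} (hf : Primrec f) :
    Primrec fun a => (f a).norm := primrec_norm.comp hf
@[fun_prop] theorem pr_fgtoWord {f : α → FreeGroup X} (hf : Primrec f) :
    Primrec fun a => (f a).toWord := primrec_toWord.comp hf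
@[fun_prop] theorem pr_fgball [Fintype X] {f : α → ℕ} (hf : Primrec f) :
    Primrec fun a => ball X (f a) := primrec_ball.comp hf

/-- The letter `x^{±1}`. -/
def lt' {G : Type} [Group G] (ε : Bool) (g : G) : G := cond ε g g⁻¹

@[fun_prop] theorem pr_lt' {c : α → Bool} {f : α → FreeGroup X} (hc : Primrec c) (hf : Primrec f) :
    Primrec fun a => lt' (c a) (f a) := by
  unfold lt'; fun_prop

omit [DecidableEq X] [Primcodable X] in
theorem lift_mk_cons {G : Type} [Group G] (f : X → G) (x : X × Bool) (l : Word X) :
    FreeGroup.lift f (FreeGroup.mk (x :: l)) = lt' x.2 (f x.1) * FreeGroup.lift f (FreeGroup.mk l) := by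
  simp [FreeGroup.lift_mk, lt']

omit [DecidableEq X] [Primcodable X] in
theorem mk_cons' (x : X × Bool) (l : Word X) :
    FreeGroup.mk (x :: l) = lt' x.2 (FreeGroup.of x.1) * FreeGroup.mk l := by
  have := lift_mk_cons (FreeGroup.of : X → FreeGroup X) x l
  rwa [FreeGroup.lift_of_eq_id, MonoidHom.id_apply, MonoidHom.id_apply] at this

theorem map_lt' {G H : Type} [Group G] [Group H] (φ : G →* H) (ε : Bool) (g : G) :
    φ (lt' ε g) = lt' ε (φ g) := by
  cases ε <;> simp [lt']

omit [Primcodable X] in
theorem norm_lt'_of (ε : Bool) (x : X) : (lt' ε (FreeGroup.of x)).norm = 1 := by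
  cases ε <;> simp [lt']

omit [Primcodable X] in
theorem norm_lt'_mul_le (ε : Bool) (x : X) (u : FreeGroup X) :
    (lt' ε (FreeGroup.of x) * u).norm ≤ u.norm + 1 := by
  have := FreeGroup.norm_mul_le (lt' ε (FreeGroup.of x)) u
  rw [norm_lt'_of] at this; omega

end Crest.Agent.R185
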