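import Crest.Agent.R185.L1
import Crest.Agent.R185.PrT
import Crest.Agent.R185.Fix

/-!
# Row 185: the layer `L1` is locally computable (task R185-L1Alg; plan in `L1.lean`)
-/

set_option autoImplicit false

namespace Crest.Agent.R185

theorem norm_hom_le_of {A B : Type} [DecidableEq A] [DecidableEq B] (φ : FreeGroup A →* FreeGroup B)
    (h : ∀ z, (φ (FreeGroup.of z)).norm ≤ 1) (l : Word A) : (φ (FreeGroup.mk l)).norm ≤ l.length := by
  induction l with
  | nil => simp [← FreeGroup.one_eq_mk]
  | cons a l ih =>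
    rw [mk_cons', map_mul, map_lt']
    have h1 : (lt' a.2 (φ (FreeGroup.of a.1))).norm ≤ 1 := by
      have := h a.1
      obtain ⟨z, ε⟩ := a
      cases ε <;> simpa [lt'] using this
    have := FreeGroup.norm_mul_le (lt' a.2 (φ (FreeGroup.of a.1))) (φ (FreeGroup.mk l))
    simp only [List.length_cons]; omega

namespace L1A

variable {X G : Type} [Group G] {k : ℕ}

/-- Names of points. -/
abbrev Nm (X : Type) (k : ℕ) : Type := (Bool × FreeGroup X) ⊕ FreeGroup (Fin k)

def prF : FreeGroup (XQ X k) →* FreeGroup (Fin k) :=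
  FreeGroup.lift (Sum.elim (fun _ => 1) (Sum.elim FreeGroup.of fun _ => 1))

theorem lift_prF (s : Fin k → G) (w : FreeGroup (XQ X k)) : FreeGroup.lift s (prF w) = prG s w := by
  have : (FreeGroup.lift s).comp prF = prG (X := X) s := by
    ext z
    rcases z with z | z | z <;> simp [prF, prG]
  exact DFunLike.congr_fun this w

def den (s : Fin k → G) (O : Obj X) : Nm X k → O.Pt ⊕ G :=
  Sum.map (fun p => O.pt p.1 p.2) (FreeGroup.lift s)

/-- The non-finitary part. -/
def base (s : Fin k → G) (O : Obj X) (w : FreeGroup (XQ X k)) : O.Pt ⊕ G → O.Pt ⊕ G :=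
  Sum.map (prX w • ·) (prG s w * ·)

theorem actS_inX (s : Fin k → G) (O : Obj X) (u : FreeGroup X) (x : O.Pt ⊕ G) :
    actS s O (inX u) x = Sum.map (u • ·) id x := by
  induction u using FreeGroup.induction_on generalizing x with
  | C1 => rcases x with x | x <;> simp
  | of z => rcases x with x | x <;> simp [inX, actS]
  | inv_of z ih =>
    rw [map_inv, map_inv, Equiv.Perm.inv_eq_iff_eq, ih]
    rcases x with x | x <;> simp
  | mul a b iha ihb =>
    rw [map_mul, map_mul, Equiv.Perm.mul_apply, iha, ihb]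
    rcases x with x | x <;> simp [mul_smul]

open scoped Classical in
theorem actS_letter (s : Fin k → G) (O : Obj X) (a : XQ X k × Bool) (x : O.Pt ⊕ G) :
    actS s O (lt' a.2 (FreeGroup.of a.1)) x = Sum.elim
      (fun z => Sum.map (lt' a.2 (FreeGroup.of z) • ·) id x)
      (Sum.elim (fun j => Sum.map id (lt' a.2 (s j) * ·) x)
        fun i => Equiv.swap (.inl (O.pt i 1)) (.inr 1) x) a.1 := by
  obtain ⟨z, ε⟩ := a
  rw [map_lt', actS, FreeGroup.lift_apply_of]
  rcases z with z | j | i
  · cases ε
    · simp only [lt', cond_false, Sum.elim_inl]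
      rw [Equiv.Perm.inv_eq_iff_eq]
      rcases x with x | x <;> simp
    · rcases x with x | x <;> simp [lt']
  · cases ε
    · simp only [lt', cond_false, Sum.elim_inl, Sum.elim_inr]
      rw [Equiv.Perm.inv_eq_iff_eq]
      rcases x with x | x <;> simp
    · rcases x with x | x <;> simp [lt']
  · cases ε <;> simp [lt']

variable [DecidableEq X]

def sz : Nm X k → ℕ := Sum.elim (fun p => p.2.norm) FreeGroup.norm

theorem norm_prX (l : Word (XQ X k)) : (prX (FreeGroup.mk l)).norm ≤ l.length :=
  norm_hom_le_of _ (fun z => by rcases z with z | z <;> simp [prX]) l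

omit [DecidableEq X] in
theorem norm_prF (l : Word (XQ X k)) : (prF (FreeGroup.mk l)).norm ≤ l.length := by
  classical
  exact norm_hom_le_of _ (fun z => by rcases z with z | z | z <;> simp [prF]) l

open scoped Classical in
theorem actS_base (s : Fin k → G) (O : Obj X) (l : Word (XQ X k)) (x : O.Pt ⊕ G)
    (hx : ∀ a, sz a ≤ l.length → den s O a ≠ x) :
    actS s O (FreeGroup.mk l) x = base s O (FreeGroup.mk l) x := by
  induction l with
  | nil => rcases x with x | x <;> simp [base, ← FreeGroup.one_eq_mk]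
  | cons a l ih =>
    rw [mk_cons', map_mul, Equiv.Perm.mul_apply, ih fun b hb => hx b (hb.trans (Nat.le_succ _)),
      actS_letter]
    obtain ⟨z, ε⟩ := a
    simp only [base, map_mul, map_lt']
    rcases z with z | j | i
    · rcases x with x | x <;> cases ε <;> simp [prX, prG, mul_smul, lt']
    · rcases x with x | x <;> cases ε <;> simp [prX, prG, mul_assoc, lt']
    · have e1 : lt' ε (prX (FreeGroup.of (Sum.inr (Sum.inr i) : XQ X k))) = 1 := by
        cases ε <;> simp [prX, lt']
      have e2 : lt' ε (prG s (FreeGroup.of (Sum.inr (Sum.inr i) : XQ X k))) = 1 := by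
        cases ε <;> simp [prG, lt']
      simp only [Sum.elim_inr, e1, e2, one_mul]
      refine Equiv.swap_apply_of_ne_of_ne (fun h => ?_) fun h => ?_
      · refine hx (Sum.inl (i, (prX (FreeGroup.mk l))⁻¹)) ?_ ?_
        · simpa [sz] using (norm_prX l).trans (Nat.le_succ _)
        · rcases x with x | x
          · simp only [Sum.map_inl, Sum.inl.injEq] at h
            simp only [den, Sum.map_inl, Sum.inl.injEq]
            rw [← mul_one (prX _)⁻¹, ← Obj.smul_pt, ← h, inv_smul_smul]
          · simp at h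
      · refine hx (Sum.inr (prF (FreeGroup.mk l))⁻¹) ?_ ?_
        · simpa [sz] using (norm_prF l).trans (Nat.le_succ _)
        · rcases x with x | x
          · simp at h
          · simp only [Sum.map_inr, Sum.inr.injEq] at h
            simp only [den, Sum.map_inr, Sum.inr.injEq, map_inv, lift_prF]
            exact inv_eq_of_mul_eq_one_right h

/-- Equality test for names. -/
def eqN (T : Table X) (TG : List (FreeGroup (Fin k))) (a b : Nm X k) : Bool :=
  Sum.elim
    (fun p => Sum.elim (fun q => beq' p.1 q.1 && bmem (p.1, p.2⁻¹ * q.2) T) (fun _ => false) b)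
    (fun g => Sum.elim (fun _ => false) (fun h => bmem (g⁻¹ * h) TG) b) a

def step (T : Table X) (TG : List (FreeGroup (Fin k))) (a : XQ X k × Bool) (x : Nm X k) : Nm X k :=
  Sum.elim
    (fun z => Sum.elim (fun p => .inl (p.1, lt' a.2 (FreeGroup.of z) * p.2)) (fun g => .inr g) x)
    (fun y => Sum.elim
      (fun j => Sum.elim (fun p => .inl p) (fun g => .inr (lt' a.2 (FreeGroup.of j) * g)) x)
      (fun i => cond (eqN T TG x (.inl (i, 1))) (.inr 1) (cond (eqN T TG x (.inr 1)) (.inl (i, 1)) x))
      y) a.1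

section Spec

variable {s : Fin k → G} {O : Obj X} {T : Table X} {TG : List (FreeGroup (Fin k))} {R : ℕ}
  (hT : Correct T O R) (hG : ∀ g : FreeGroup (Fin k), g.norm ≤ R → (g ∈ TG ↔ FreeGroup.lift s g = 1))

include hT hG

theorem eqN_spec {a b : Nm X k} (h : sz a + sz b ≤ R) :
    eqN T TG a b = true ↔ den s O a = den s O b := by
  rcases a with ⟨i, u⟩ | g <;> rcases b with ⟨j, v⟩ | g'
  · have h1 : (u⁻¹ * v).norm ≤ R := by
      have := FreeGroup.norm_mul_le u⁻¹ v
      simp only [sz, Sum.elim_inl, FreeGroup.norm_inv_eq] at h this; omega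
    simp [eqN, den, Obj.pt_eq, hT i _ h1]
  · simp [eqN, den]
  · simp [eqN, den]
  · have h1 : (g⁻¹ * g').norm ≤ R := by
      have := FreeGroup.norm_mul_le g⁻¹ g'
      simp only [sz, Sum.elim_inr, FreeGroup.norm_inv_eq] at h this; omega
    simp [eqN, den, hG _ h1, inv_mul_eq_one]

theorem step_spec (a : XQ X k × Bool) {x : Nm X k} (h : sz x ≤ R) :
    den s O (step T TG a x) = actS s O (lt' a.2 (FreeGroup.of a.1)) (den s O x) ∧
      sz (step T TG a x) ≤ sz x + 1 := by
  classical
  rw [actS_letter]
  obtain ⟨z, ε⟩ := a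
  rcases z with z | j | i
  · rcases x with ⟨i, u⟩ | g
    · exact ⟨rfl, norm_lt'_mul_le _ _ _⟩
    · exact ⟨rfl, Nat.le_succ _⟩
  · rcases x with ⟨i, u⟩ | g
    · exact ⟨rfl, Nat.le_succ _⟩
    · refine ⟨?_, norm_lt'_mul_le _ _ _⟩
      simp [step, den, map_lt']
  · have h1 := eqN_spec hT hG (a := x) (b := .inl (i, 1)) (by simpa [sz] using h)
    have h2 := eqN_spec hT hG (a := x) (b := .inr 1) (by simpa [sz] using h)
    have e1 : den s O (.inl (i, 1)) = .inl (O.pt i 1) := rfl
    have e2 : den s O (.inr 1) = .inr 1 := by simp [den]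
    simp only [step, Sum.elim_inr]
    cases h3 : eqN T TG x (.inl (i, 1))
    · cases h4 : eqN T TG x (.inr 1)
      · refine ⟨(Equiv.swap_apply_of_ne_of_ne (fun h => ?_) fun h => ?_).symm, Nat.le_succ _⟩
        · rw [h1.2 h] at h3; cases h3
        · rw [h2.2 (h.trans e2.symm)] at h4; cases h4
      · rw [h2.1 h4, e2, Equiv.swap_apply_right]
        exact ⟨rfl, by simp [sz]⟩
    · rw [h1.1 h3, e1, Equiv.swap_apply_left]
      exact ⟨e2, by simp [sz]⟩

theorem run_spec (l : Word (XQ X k)) {x : Nm X k} (h : sz x + l.length ≤ R) :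
    den s O (l.foldr (step T TG) x) = actS s O (FreeGroup.mk l) (den s O x) ∧
      sz (l.foldr (step T TG) x) ≤ sz x + l.length := by
  induction l with
  | nil => simp [← FreeGroup.one_eq_mk]
  | cons a l ih =>
    rw [List.length_cons] at h
    obtain ⟨h1, h2⟩ := ih (by omega)
    obtain ⟨h3, h4⟩ := step_spec hT hG a (x := l.foldr (step T TG) x) (by omega)
    rw [List.foldr_cons, h3, h1, mk_cons', map_mul, Equiv.Perm.mul_apply, List.length_cons]
    exact ⟨rfl, by omega⟩

end Spec

variable [Fintype X]

noncomputable def names (X : Type) [Fintype X] (k n : ℕ) : List (Nm X k) :=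
  (fixPts X n).map Sum.inl ++ (ball (Fin k) n).map Sum.inr

theorem mem_names {n : ℕ} {a : Nm X k} : a ∈ names X k n ↔ sz a ≤ n := by
  rcases a with ⟨i, u⟩ | g <;> simp [names, sz, mem_fixPts, mem_ball]

noncomputable def alg (T : Table X) (TG : List (FreeGroup (Fin k))) (i : Bool)
    (w : FreeGroup (XQ X k)) : Bool :=
  cond i (eqN T TG (w.toWord.foldr (step T TG) (.inr 1)) (.inr 1))
    (bmem (false, prX w) T && bmem (prF w) TG && (names X k w.norm).all fun a =>
      eqN T TG (w.toWord.foldr (step T TG) a)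
        (Sum.elim (fun p => .inl (p.1, prX w * p.2)) (fun g => .inr g) a))

theorem alg_spec {s : Fin k → G} {O : Obj X} {T : Table X} {TG : List (FreeGroup (Fin k))}
    (i : Bool) (w : FreeGroup (XQ X k)) (hT : Correct T O (4 * w.norm))
    (hG : ∀ g : FreeGroup (Fin k), g.norm ≤ 4 * w.norm → (g ∈ TG ↔ FreeGroup.lift s g = 1)) :
    alg T TG i w = true ↔ w ∈ (L1 s O).H i := by
  have hl : w.toWord.length = w.norm := rfl
  have hrun : ∀ x, sz x ≤ w.norm →
      den s O (w.toWord.foldr (step T TG) x) = actS s O w (den s O x) ∧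
      sz (w.toWord.foldr (step T TG) x) ≤ sz x + w.norm := fun x hx => by
    have := run_spec hT hG w.toWord (x := x) (by omega)
    rwa [FreeGroup.mk_toWord] at this
  have hX : (prX w).norm ≤ w.norm := by
    have := norm_prX w.toWord
    rwa [FreeGroup.mk_toWord] at this
  have hF : (prF w).norm ≤ w.norm := by
    have := norm_prF w.toWord
    rwa [FreeGroup.mk_toWord] at this
  cases i with
  | true =>
    have h0 : sz (.inr 1 : Nm X k) = 0 := by simp [sz]
    obtain ⟨h1, h2⟩ := hrun (.inr 1) (by omega)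
    have e2 : den s O (.inr 1) = .inr 1 := by simp [den]
    rw [alg, cond_true, eqN_spec hT hG (by omega), h1, e2]
    rfl
  | false =>
    have hmem : w ∈ (L1 s O).H false ↔ (prX w ∈ O.H false ∧ prG s w = 1) ∧
        actS s O w = actS s O (inX (prX w)) := Iff.rfl
    rw [alg, cond_false, Bool.and_eq_true, Bool.and_eq_true, bmem_iff, bmem_iff,
      hT _ _ (by omega), hG _ (by omega), lift_prF, hmem]
    refine and_congr_right fun h => ?_
    have key : ∀ a, sz a ≤ w.norm → (eqN T TG (w.toWord.foldr (step T TG) a)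
        (Sum.elim (fun p => .inl (p.1, prX w * p.2)) (fun g => .inr g) a) = true ↔
        actS s O w (den s O a) = actS s O (inX (prX w)) (den s O a)) := by
      intro a ha
      obtain ⟨h1, h2⟩ := hrun a ha
      have h3 : sz (Sum.elim (fun p => .inl (p.1, prX w * p.2)) (fun g => .inr g) a : Nm X k) ≤
          sz a + w.norm := by
        rcases a with ⟨i, u⟩ | g
        · have := FreeGroup.norm_mul_le (prX w) u
          simp only [sz, Sum.elim_inl]; omega
        · simp [sz]
      rw [eqN_spec hT hG (by omega), h1, actS_inX]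
      rcases a with ⟨i, u⟩ | g <;> rfl
    rw [List.all_eq_true]
    constructor
    · intro H
      ext1 x
      by_cases hx : ∃ a, sz a ≤ w.norm ∧ den s O a = x
      · obtain ⟨a, ha, rfl⟩ := hx
        exact (key a ha).1 (H a (mem_names.2 ha))
      · have := actS_base s O w.toWord x fun a ha h => hx ⟨a, ha, h⟩
        rw [FreeGroup.mk_toWord] at this
        rw [this, actS_inX, base, h.2]
        rcases x with x | x <;> simp
    · intro H a ha
      exact (key a (mem_names.1 ha)).2 (by rw [← H])

variable [Primcodable X]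

omit [Fintype X] in
@[fun_prop] theorem primrec_eqN {α : Type} [Primcodable α] {T : α → Table X}
    {TG : α → List (FreeGroup (Fin k))} {a b : α → Nm X k} (h1 : Primrec T) (h2 : Primrec TG)
    (h3 : Primrec a) (h4 : Primrec b) : Primrec fun x => eqN (T x) (TG x) (a x) (b x) := by
  unfold eqN
  refine pr_elim h3 (pr_elim (by fun_prop) (by fun_prop) (by fun_prop))
    (pr_elim (by fun_prop) (by fun_prop) (by fun_prop))

omit [Fintype X] in
@[fun_prop] theorem primrec_step {α : Type} [Primcodable α] {T : α → Table X}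
    {TG : α → List (FreeGroup (Fin k))} {a : α → XQ X k × Bool} {b : α → Nm X k} (h1 : Primrec T)
    (h2 : Primrec TG) (h3 : Primrec a) (h4 : Primrec b) :
    Primrec fun x => step (T x) (TG x) (a x) (b x) := by
  unfold step
  refine pr_elim (by fun_prop) (pr_elim (by fun_prop) (by fun_prop) (by fun_prop))
    (pr_elim (by fun_prop) (pr_elim (by fun_prop) (by fun_prop) (by fun_prop)) (by fun_prop))

theorem primrec_alg : Primrec fun q : (Table X × List (FreeGroup (Fin k))) × Bool × FreeGroup (XQ X k) =>
    alg q.1.1 q.1.2 q.2.1 q.2.2 := by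
  have c1 : Primrec fun u : FreeGroup (XQ X k) => prX u := primrec_hom _
  have c2 : Primrec fun u : FreeGroup (XQ X k) => prF u := primrec_hom _
  have c3 : Primrec (names X k) :=
    pr_append (pr_map primrec_fixPts (by fun_prop)) (pr_map primrec_ball (by fun_prop))
  unfold alg
  refine pr_cond (by fun_prop) (primrec_eqN (by fun_prop) (by fun_prop)
    (pr_foldr (by fun_prop) (by fun_prop) (by fun_prop)) (by fun_prop)) (pr_and (pr_and
      (pr_bmem (pr_pair (by fun_prop) (c1.comp (by fun_prop))) (by fun_prop))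
      (pr_bmem (c2.comp (by fun_prop)) (by fun_prop))) (pr_all (c3.comp (by fun_prop)) ?_))
  exact primrec_eqN (by fun_prop) (by fun_prop) (pr_foldr (by fun_prop) (by fun_prop) (by fun_prop))
    (pr_elim (by fun_prop) (pr_inl (pr_pair (by fun_prop)
      (pr_fgmul (c1.comp (by fun_prop)) (by fun_prop)))) (by fun_prop))

end L1A

theorem L1_ok {X G : Type} [Group G] {k : ℕ} [DecidableEq X] [Fintype X] [Primcodable X]
    (s : Fin k → G) (hs : Function.Surjective (FreeGroup.lift s))
    (hdec : ComputablePred fun g : FreeGroup (Fin k) => FreeGroup.lift s g = 1) :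
    LayerOK (fun _ (O : Obj X) => L1 s O) (fun n => 4 * n) NoC := by
  refine ⟨fun _ O n h _ => L1_reg s O n h, ?_⟩
  obtain ⟨_, hd⟩ := hdec
  obtain ⟨A, cA, hA⟩ : ∃ A : (Table X × List (FreeGroup (Fin k))) × Bool × FreeGroup (XQ X k) → Bool,
      Primrec A ∧ ∀ q, A q = L1A.alg q.1.1 q.1.2 q.2.1 q.2.2 := ⟨_, L1A.primrec_alg, fun _ => rfl⟩
  refine ⟨fun p q => A ((p.2, (ball (Fin k) (4 * q.2.norm)).filter
    fun g => decide (FreeGroup.lift s g = 1)), q), ?_, ?_⟩
  · have h1 : Computable fun x : (ℕ × Table X) × (Bool × FreeGroup (XQ X k)) =>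
        (ball (Fin k) (4 * x.2.2.norm)).filter fun g => decide (FreeGroup.lift s g = 1) :=
      computable_filter (Primrec.to_comp (by fun_prop)) (hd.comp Computable.snd).to₂
    exact cA.to_comp.comp (((Computable.snd.comp Computable.fst).pair h1).pair Computable.snd)
  · intro e O n T _ _ h3 i g hg
    simp only [hA]
    exact L1A.alg_spec i g (h3.mono (by omega)) fun u hu => by simp [mem_ball, hu]

end Crest.Agent.R185
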