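import Crest.Agent.R185.Defs

/-!
# Row 185: abstract assembly of loop data (task R185-Loop)

PLAN.  `φ₀ = β α`, `τ₀ = ν j`, `φ = φ₀²`, `τ = τ₀²`.  Finite products of swaps: `Q` realises every finitely supported permutation of `S'`;
in particular it is highly transitive (`tuples`: `p = β q`).  `fac F`: `β = β₀ α₀` through `E`; `F₁ = j (τ₀ F)`; pick `F₂ ⊆ (range j)ᶜ` of the same size and
`c ∈ Q` acting as the involution exchanging `F₁` and `F₂`; `α_F a = α₀ (α a)`, `β_F x = β (c * α (β₀ x) * c⁻¹)`.  For `a` fixing `F`, `α (φ₀ a)` fixes `F₁ ∪ F₂`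
pointwise, so commutes with `c` (faithfulness); `c α(..) c⁻¹` fixes `F₁`.  `sys`: `fA' e = fA e ∘ α β α` (cf. `HasSys.comp` in `WU.lean`).
-/

set_option autoImplicit false

namespace Crest.Agent.R185

theorem loop_tuples {Q S' : Type} [Group Q] [MulAction Q S'] [DecidableEq S']
    (hswap : ∀ a b : S', ∃ q : Q, ∀ x, q • x = Equiv.swap a b x) (n : ℕ) (a b : Fin n → S')
    (ha : Function.Injective a) (hb : Function.Injective b) : ∃ q : Q, ∀ i, q • a i = b i := by
  induction n with
  | zero => exact ⟨1, fun i => i.elim0⟩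
  | succ n ih =>
    obtain ⟨q, hq⟩ := ih (fun i => a i.succ) (fun i => b i.succ)
      (ha.comp (Fin.succ_injective n)) (hb.comp (Fin.succ_injective n))
    obtain ⟨s, hs⟩ := hswap (q • a 0) (b 0)
    refine ⟨s * q, fun i => ?_⟩
    rw [mul_smul, hs]
    refine Fin.cases ?_ (fun i => ?_) i
    · exact Equiv.swap_apply_left _ _
    · rw [Equiv.swap_apply_of_ne_of_ne, hq]
      · intro h
        exact Fin.succ_ne_zero i (ha (smul_left_cancel q h))
      · rw [hq]
        exact fun h => Fin.succ_ne_zero i (hb h)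

theorem loop_move {Q S' : Type} [Group Q] [MulAction Q S'] [DecidableEq S']
    (hswap : ∀ a b : S', ∃ q : Q, ∀ x, q • x = Equiv.swap a b x) {R : Set S'}
    (hinf : Rᶜ.Infinite) (F : Finset S') :
    ∃ d : Q, (∀ x ∈ F, d • x ∉ R) ∧ ∀ x, d • x = x ∨ x ∈ F ∨ x ∉ R := by
  induction F using Finset.induction_on with
  | empty => exact ⟨1, by simp, fun x => Or.inl (one_smul _ _)⟩
  | insert y F _ ih =>
    obtain ⟨d, h1, h2⟩ := ih
    by_cases hy : d • y ∈ R
    · obtain ⟨w, hw, hw'⟩ := hinf.exists_notMem_finset (F.image fun x => d • x)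
      obtain ⟨s, hs⟩ := hswap (d • y) w
      refine ⟨s * d, fun x hx => ?_, fun x => ?_⟩
      · rw [mul_smul, hs]
        rcases Finset.mem_insert.1 hx with rfl | hx
        · rw [Equiv.swap_apply_left]; exact hw
        · rw [Equiv.swap_apply_of_ne_of_ne]
          · exact h1 x hx
          · exact fun h => h1 x hx (h ▸ hy)
          · exact fun h => hw' (Finset.mem_image.2 ⟨x, hx, h⟩)
      · by_cases hxR : x ∈ R
        · by_cases hxy : x = y
          · exact Or.inr (Or.inl (hxy ▸ Finset.mem_insert_self _ _))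
          · rcases h2 x with h | h | h
            · left
              rw [mul_smul, hs, Equiv.swap_apply_of_ne_of_ne, h]
              · exact fun h' => hxy (smul_left_cancel d h')
              · rw [h]; exact fun h' => hw (h' ▸ hxR)
            · exact Or.inr (Or.inl (Finset.mem_insert_of_mem h))
            · exact absurd hxR h
        · exact Or.inr (Or.inr hxR)
    · refine ⟨d, fun x hx => ?_, fun x => ?_⟩
      · rcases Finset.mem_insert.1 hx with rfl | hx
        · exact hy
        · exact h1 x hx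
      · rcases h2 x with h | h | h
        · exact Or.inl h
        · exact Or.inr (Or.inl (Finset.mem_insert_of_mem h))
        · exact Or.inr (Or.inr h)

theorem loop_of_data {P Q S S' : Type} [Group P] [Group Q] [MulAction P S] [MulAction Q S']
    [DecidableEq S'] [FaithfulSMul Q S'] (α : P →* Q) (j : S → S') (β : Q →* P) (ν : S' → S)
    (hj : Function.Injective j) (hν : Function.Injective ν)
    (hjs : ∀ (p : P) s, j (p • s) = α p • j s) (hνs : ∀ (q : Q) s, ν (q • s) = β q • ν s)
    (hinf : (Set.range j)ᶜ.Infinite) (hfix : ∀ (p : P), ∀ x ∉ Set.range j, α p • x = x)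
    (hswap : ∀ a b : S', ∃ q : Q, ∀ x, q • x = Equiv.swap a b x)
    (hmoves : ∀ p : P, p ≠ 1 → {s : S | p • s ≠ s}.Infinite) (hfac : FacFP β)
    (hsys : ∀ p : ℕ, p = 2 ∨ p = 3 → ∃ fA fB : M3 p → Q →* P, IsSys p β fA fB ∧
      ∀ e q s, e * e = e → q • s = s → fA e q • ν s = ν s ∧ fB e q • ν s = ν s) :
    ∃ (L : LoopData) (f : P →* L.P), Function.Injective f := by
  let γ : P →* Q := α.comp (β.comp α)
  let k : S → S' := fun s => j (ν (j s))
  have hk : Function.Injective k := hj.comp (hν.comp hj)
  have hks : ∀ (p : P) s, k (p • s) = γ p • k s := fun p s => by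
    simp only [k, γ, hjs, hνs, MonoidHom.comp_apply]
  refine ⟨
    { P := P
      S := S
      φ := β.comp γ
      τ := fun s => ν (k s)
      τ_inj := hν.comp hk
      τ_smul := fun p s => by rw [hks, hνs]; rfl
      moves := hmoves
      compl := ?_
      tuples := ?_
      fac := ?_
      sys := ?_ }, MonoidHom.id P, Function.injective_id⟩
  · refine (hinf.image hν.injOn).mono ?_
    rintro _ ⟨x, hx, rfl⟩ ⟨s, hs⟩
    exact hx ⟨_, hν hs⟩
  · intro n a b ha hb
    obtain ⟨q, hq⟩ := loop_tuples hswap n _ _ (hk.comp ha) (hk.comp hb)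
    exact ⟨β q, fun i => by rw [← hνs]; exact congrArg ν (hq i)⟩
  · intro F
    obtain ⟨E, _, hE, α₀, β₀, h0⟩ := hfac
    obtain ⟨d, h1, h2⟩ := loop_move hswap hinf (F.image k)
    refine ⟨E, inferInstance, hE, α₀.comp (α.comp (Subgroup.subtype _)),
      β.comp ((MulAut.conj d⁻¹).toMonoidHom.comp (α.comp β₀)), fun a => ?_, fun x s hs => ?_⟩
    · have hg : ∀ x, d • x = x ∨ γ a • x = x := fun x => by
        rcases h2 x with h | h | h
        · exact Or.inl h
        · obtain ⟨s, hs, rfl⟩ := Finset.mem_image.1 h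
          right
          rw [← hks, (mem_fixingSubgroup_iff P).1 a.2 s hs]
        · exact Or.inr (hfix _ x h)
      have hc : d * γ a = γ a * d := by
        apply MulAction.toPerm_injective (β := S')
        have : Equiv.Perm.Disjoint (MulAction.toPerm d : Equiv.Perm S') (MulAction.toPerm (γ a)) :=
          hg
        have h3 := this.commute
        ext x
        simp only [MulAction.toPerm_apply, mul_smul]
        exact congrArg (fun σ : Equiv.Perm S' => σ x) h3
      show β (d⁻¹ * α (β₀ (α₀ (α a))) * d⁻¹⁻¹) = β (γ a)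
      rw [h0, inv_inv]
      show β (d⁻¹ * γ a * d) = β (γ a)
      rw [mul_assoc, ← hc, inv_mul_cancel_left]
    · show β (d⁻¹ * α (β₀ x) * d⁻¹⁻¹) • ν (k s) = ν (k s)
      rw [← hνs, inv_inv, mul_smul, mul_smul,
        hfix _ _ (h1 _ (Finset.mem_image_of_mem k hs)), inv_smul_smul]
  · intro p hp
    obtain ⟨fA, fB, h, hf⟩ := hsys p hp
    refine ⟨fun e => (fA e).comp γ, fun e => (fB e).comp γ,
      ⟨⟨fun e e' he u u' => h.famA.comm e e' he _ _, fun e e' he u => h.famA.add e e' he _⟩,
       ⟨fun e e' he u u' => h.famB.comm e e' he _ _, fun e e' he u => h.famB.add e e' he _⟩, ?_,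
       fun u u' => h.comm11 _ _, fun u => h.e11 _⟩, fun e q s he hq => ?_⟩
    · simp only [h.e22]
    · exact hf e (γ q) (k s) he (by rw [← hks, hq])

end Crest.Agent.R185
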