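import Crest.Agent.R185.PrT

/-!
# Row 185: `F(Ω) ⋊ B` for a `B`-set `Ω` (task R185-SD: the computability lemma)

PLAN.  For `g` with reduced word `z₁^{ε₁} ⋯ z_n^{ε_n}` the `left` component of the value is the product of the letters `pr(prefix) • x z` (`ε = +`: prefix before the letter;
`ε = -`: prefix including the letter).  Compute the list of *names* `((z, prefix), ε)` (skipping `x z = none`) by a fold, reduce it by the stack algorithm of `FreeGroup.reduce` with the
given equality test in place of `=` (show that mapping names to their denotations commutes with this), and test for emptiness (`FreeGroup.toWord_eq_nil_iff`).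
-/

set_option autoImplicit false

namespace Crest.Agent.R185

def permAut (B Ω : Type) [Group B] [MulAction B Ω] : B →* MulAut (FreeGroup Ω) where
  toFun b := FreeGroup.freeGroupCongr (MulAction.toPerm b)
  map_one' := by
    apply MulEquiv.toMonoidHom_injective
    ext x; simp
  map_mul' a b := by
    apply MulEquiv.toMonoidHom_injective
    ext x; simp [mul_smul]

abbrev SD (B Ω : Type) [Group B] [MulAction B Ω] : Type := FreeGroup Ω ⋊[permAut B Ω] B

/-- The element `x · v` (`x` an optional free generator). -/
def SD.letter {B Ω : Type} [Group B] [MulAction B Ω] (x : Option Ω) (v : B) : SD B Ω :=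
  SemidirectProduct.inl (x.elim 1 FreeGroup.of) * SemidirectProduct.inr v

section Aux

variable {α N : Type} [Primcodable α] [Primcodable N]

/-- Free reduction with an abstract equality test. -/
def redE (E : N → N → Bool) (l : List (N × Bool)) : List (N × Bool) :=
  l.foldr (fun x r => List.casesOn (motive := fun _ => List (N × Bool)) r [x] fun hd tl =>
    cond (E x.1 hd.1 && beq' x.2 (!hd.2)) tl (x :: hd :: tl)) []

omit [Primcodable N] in
theorem redE_map {Ω : Type} [DecidableEq Ω] (E : N → N → Bool) (den : N → Ω)
    (hE : ∀ a b, E a b = true ↔ den a = den b) (l : List (N × Bool)) :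
    (redE E l).map (fun n => (den n.1, n.2)) = FreeGroup.reduce (l.map fun n => (den n.1, n.2)) := by
  induction l with
  | nil => rfl
  | cons x l ih =>
    rw [List.map_cons, FreeGroup.reduce.cons, ← ih]
    have : redE E (x :: l) = List.casesOn (motive := fun _ => List (N × Bool)) (redE E l) [x]
        fun hd tl => cond (E x.1 hd.1 && beq' x.2 (!hd.2)) tl (x :: hd :: tl) := rfl
    rw [this]
    cases redE E l with
    | nil => rfl
    | cons hd tl =>
      by_cases h : den x.1 = den hd.1 ∧ x.2 = !hd.2
      · have h' : (E x.1 hd.1 && beq' x.2 (!hd.2)) = true := by simp [hE, h.1, h.2]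
        simp only [h', cond_true, List.map_cons, if_pos h]
      · have h' : (E x.1 hd.1 && beq' x.2 (!hd.2)) = false := by
          rw [Bool.eq_false_iff]
          simpa [hE] using h
        simp only [h', cond_false, List.map_cons, if_neg h]

theorem primrec_redE {E : α → N → N → Bool} (hE : Primrec fun p : α × N × N => E p.1 p.2.1 p.2.2)
    {L : α → List (N × Bool)} (hL : Primrec L) : Primrec fun a => redE (E a) (L a) := by
  refine pr_foldr hL (Primrec.const _) ?_
  refine Primrec.list_casesOn (f := fun q : α × (N × Bool) × List (N × Bool) => q.2.2)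
    (g := fun q => [q.2.1])
    (h := fun q r => cond (E q.1 q.2.1.1 r.1.1 && beq' q.2.1.2 (!r.1.2)) r.2 (q.2.1 :: r.1 :: r.2))
    (by fun_prop) (by fun_prop) ?_
  have h1 : Primrec fun p : (α × (N × Bool) × List (N × Bool)) × (N × Bool) × List (N × Bool) =>
      E p.1.1 p.1.2.1.1 p.2.1.1 :=
    hE.comp (g := fun p : (α × (N × Bool) × List (N × Bool)) × (N × Bool) × List (N × Bool) =>
      (p.1.1, p.1.2.1.1, p.2.1.1)) (by fun_prop)
  exact Primrec.cond (pr_and h1 (by fun_prop)) (by fun_prop) (by fun_prop)

theorem primrec_mk_eq_one {Ω : α → Type} (den : ∀ a, N → Ω a)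
    (hE : PrimrecPred fun p : α × N × N => den p.1 p.2.1 = den p.1 p.2.2)
    {L : α → List (N × Bool)} (hL : Primrec L) :
    PrimrecPred fun a => FreeGroup.mk ((L a).map fun n => (den a n.1, n.2)) = 1 := by
  classical
  have h1 := primrec_redE (E := fun a m n => decide (den a m = den a n)) hE.decide hL
  refine (Primrec.eq.comp h1 (Primrec.const [])).of_eq fun a => ?_
  rw [← FreeGroup.toWord_eq_nil_iff, FreeGroup.toWord_mk,
    ← redE_map (fun m n => decide (den a m = den a n)) (den a) (by simp), List.map_eq_nil_iff]

variable {Z : Type}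

/-- The names of the free letters of a word. -/
def sdNames (nn : Z → Bool) (l : Word Z) : List ((Z × FreeGroup Z) × Bool) :=
  l.foldr (fun a r => cond (nn a.1) [] [((a.1, cond a.2 1 (FreeGroup.of a.1)⁻¹), a.2)] ++
    r.map fun n => ((n.1.1, lt' a.2 (FreeGroup.of a.1) * n.1.2), n.2)) []

theorem sd_left {B Ω : Type} [Group B] [MulAction B Ω] (x : Z → Option Ω) (v : Z → B)
    (nn : Z → Bool) (hnn : ∀ z, nn z = true ↔ x z = none) (l : Word Z) :
    FreeGroup.map some (FreeGroup.lift (fun z => SD.letter (x z) (v z)) (FreeGroup.mk l)).left =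
      FreeGroup.mk ((sdNames nn l).map fun n =>
        ((x n.1.1).map (FreeGroup.lift v n.1.2 • ·), n.2)) := by
  have hperm : ∀ (b : B) (w : FreeGroup Ω), FreeGroup.map some (permAut B Ω b w) =
      FreeGroup.map (Option.map (b • ·)) (FreeGroup.map some w) := by
    intro b w
    show FreeGroup.map some (FreeGroup.map (MulAction.toPerm b) w) = _
    rw [FreeGroup.map.comp, FreeGroup.map.comp]
    rfl
  induction l with
  | nil => simp [sdNames, ← FreeGroup.one_eq_mk]
  | cons a l ih =>
    have hs : sdNames nn (a :: l) =
        cond (nn a.1) [] [((a.1, cond a.2 1 (FreeGroup.of a.1)⁻¹), a.2)] ++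
        (sdNames nn l).map fun n => ((n.1.1, lt' a.2 (FreeGroup.of a.1) * n.1.2), n.2) := rfl
    have hr : (lt' a.2 (SD.letter (x a.1) (v a.1))).right = lt' a.2 (v a.1) := by
      obtain ⟨z, ε⟩ := a
      cases ε <;> simp [lt', SD.letter]
    rw [lift_mk_cons, SemidirectProduct.mul_left, map_mul, hperm, ih, hr, hs, List.map_append,
      ← FreeGroup.mul_mk, FreeGroup.map.mk, List.map_map, List.map_map]
    congr 1
    · obtain ⟨z, ε⟩ := a
      cases hx : x z with
      | none =>
        rw [(hnn z).2 hx]
        cases ε <;> simp [lt', SD.letter, ← FreeGroup.one_eq_mk]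
      | some o =>
        have : nn z = false := by
          rw [Bool.eq_false_iff, Ne, hnn, hx]; simp
        rw [this]
        cases ε
        · simp only [lt', SD.letter, cond_false, hx, Option.elim, mul_inv_rev, ← map_inv,
            SemidirectProduct.mul_left, SemidirectProduct.left_inr, SemidirectProduct.right_inr,
            SemidirectProduct.left_inl, one_mul, List.map_cons, List.map_nil, Option.map_some]
          rw [hperm]
          simp only [map_inv, FreeGroup.map.of, FreeGroup.lift_apply_of, Option.map_some]
          rfl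
        · simp only [lt', SD.letter, cond_true, cond_false, hx, Option.elim,
            SemidirectProduct.mul_left, SemidirectProduct.left_inr,
            SemidirectProduct.left_inl, map_one, mul_one, List.map_cons, List.map_nil,
            Option.map_some, one_smul, FreeGroup.map.of]
          rfl
    · congr 1
      refine List.map_congr_left fun n _ => ?_
      simp only [Function.comp, map_mul, map_lt', FreeGroup.lift_apply_of, Option.map_map,
        mul_smul]
      rfl

end Aux

theorem SD_primrec {Z : Type} [DecidableEq Z] [Primcodable Z] (B Ω : ℕ → Type)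
    [∀ e, Group (B e)] [∀ e, MulAction (B e) (Ω e)] (x : ∀ e, Z → Option (Ω e))
    (v : ∀ e, Z → B e) (h1 : PrimrecPred fun p : ℕ × Z => x p.1 p.2 = none)
    (h2 : PrimrecPred fun p : ℕ × (Z × FreeGroup Z) × (Z × FreeGroup Z) =>
      (x p.1 p.2.1.1).map (FreeGroup.lift (v p.1) p.2.1.2 • ·) =
        (x p.1 p.2.2.1).map (FreeGroup.lift (v p.1) p.2.2.2 • ·)) :
    PrimrecPred fun p : ℕ × FreeGroup Z =>
      (FreeGroup.lift (fun z => SD.letter (x p.1 z) (v p.1 z)) p.2).left = 1 := by
  classical
  have hnn : Primrec fun p : ℕ × Z => decide (x p.1 p.2 = none) := h1.decide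
  have hL : Primrec fun p : ℕ × FreeGroup Z =>
      sdNames (fun z => decide (x p.1 z = none)) p.2.toWord := by
    refine pr_foldr (by fun_prop) (Primrec.const _) (pr_append (pr_cond ?_ ?_ ?_) ?_)
    · exact hnn.comp (g := fun q : (ℕ × FreeGroup Z) × (Z × Bool) × List ((Z × FreeGroup Z) × Bool) =>
        (q.1.1, q.2.1.1)) (by fun_prop)
    · fun_prop
    · fun_prop
    · fun_prop
  have h3 := primrec_mk_eq_one (α := ℕ × FreeGroup Z) (N := Z × FreeGroup Z)
    (fun p n => (x p.1 n.1).map (FreeGroup.lift (v p.1) n.2 • ·))
    (h2.comp (f := fun q : (ℕ × FreeGroup Z) × (Z × FreeGroup Z) × (Z × FreeGroup Z) =>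
      (q.1.1, q.2)) (by fun_prop)) hL
  refine h3.of_eq fun p => ?_
  rw [← sd_left (x p.1) (v p.1) _ (by simp), FreeGroup.mk_toWord]
  exact map_eq_one_iff _ (FreeGroup.map_injective (Option.some_injective _))

end Crest.Agent.R185
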