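import Crest.Agent.R185.Plus
import Crest.Agent.R185.SD

/-!
# Row 185: the machine interface and the main layer (definitions)
-/

set_option autoImplicit false

namespace Crest.Agent.R185

open scoped Classical

structure MI (Y ZB : Type) where
  B : Type
  [grp : Group B]
  b : ZB → B
  pib : B →* FreeGroup Y
  F : Subgroup B
  L : Subgroup B
  D : Set B
  fa : B → FreeGroup Y
  fb : Bool → B → FreeGroup Y

attribute [instance] MI.grp

variable {Y ZB : Type}

def MI.val (M : MI Y ZB) : FreeGroup ZB →* M.B := FreeGroup.lift M.b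

/-- The subgroup generated by the relators of norm `≤ n`. -/
def relBall [DecidableEq Y] (W : Set (FreeGroup Y)) (n : ℕ) : Subgroup (FreeGroup Y) :=
  Subgroup.closure {g | g ∈ W ∧ g.norm ≤ n}

structure MI.Good [DecidableEq Y] [DecidableEq ZB] (M : MI Y ZB) (c : ℕ)
    (W : Set (FreeGroup Y)) : Prop where
  pib_le : ∀ z, (M.pib (M.b z)).norm ≤ 1
  one_mem : (1 : M.B) ∈ M.D
  fa_one : M.fa 1 = 1
  fb_one : ∀ i, M.fb i 1 = 1
  right : ∀ x ∈ M.D, ∀ l ∈ M.L,
    x * l ∈ M.D ∧ M.fa (x * l) = (M.pib l)⁻¹ * M.fa x ∧ ∀ i, M.fb i (x * l) = M.fb i x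
  left : ∀ w w', M.val w ∈ M.D → M.val w' ∈ M.F → M.val w' * M.val w ∈ M.D ∧
    (M.fa (M.val w) * M.fb false (M.val w))⁻¹ *
      (M.fa (M.val w' * M.val w) * M.fb false (M.val w' * M.val w)) ∈
        relBall W (c * (w.norm + w'.norm))
  rel : ∀ w, M.val w ∈ M.D →
    (M.fb false (M.val w))⁻¹ * M.fb true (M.val w) ∈ relBall W (c * w.norm) ∧
    ((M.fb false (M.val w))⁻¹ * M.fb true (M.val w)).norm ≤ c * w.norm
  lip : ∀ x ∈ M.D, ∀ w, M.val w * x ∈ M.D →
    ((M.fa x)⁻¹ * M.fa (M.val w * x)).norm ≤ c * w.norm ∧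
    ∃ i, (M.fb i x * (M.fb i (M.val w * x))⁻¹).norm ≤ c * w.norm

structure MI.Prim [DecidableEq Y] [DecidableEq ZB] [Primcodable Y] [Primcodable ZB]
    (M : ℕ → MI Y ZB) : Prop where
  one : PrimrecPred fun p : ℕ × FreeGroup ZB => (M p.1).val p.2 = 1
  memF : PrimrecPred fun p : ℕ × FreeGroup ZB => (M p.1).val p.2 ∈ (M p.1).F
  memL : PrimrecPred fun p : ℕ × FreeGroup ZB => (M p.1).val p.2 ∈ (M p.1).L
  memD : PrimrecPred fun p : ℕ × FreeGroup ZB => (M p.1).val p.2 ∈ (M p.1).D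
  pib : Primrec fun p : ℕ × FreeGroup ZB => (M p.1).pib ((M p.1).val p.2)
  fa : ∃ f : ℕ × FreeGroup ZB → FreeGroup Y, Primrec f ∧
    ∀ e w, (M e).val w ∈ (M e).D → f (e, w) = (M e).fa ((M e).val w)
  fb : ∃ f : ℕ × Bool × FreeGroup ZB → FreeGroup Y, Primrec f ∧
    ∀ e i w, (M e).val w ∈ (M e).D → f (e, i, w) = (M e).fb i ((M e).val w)

/-- Finite presentation data: the relators in `W` are *derived* from finitely many relations. -/
def MI.Pres (M : MI Y ZB) (W : Set (FreeGroup Y)) : Prop :=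
  ∃ (I : Type) (_ : Finite I) (ρ : I → FreeGroup ZB) (l : I → ZB) (Rel : Set (FreeGroup ZB)),
    Rel.Finite ∧ (∀ r ∈ Rel, M.val r = 1) ∧ (∀ i, M.val (ρ i) ∈ M.F) ∧ (∀ i, M.b (l i) ∈ M.L) ∧
    ∀ u ∈ W, ∃ f : FreeGroup I,
      FreeGroup.lift ρ f * (FreeGroup.map l f)⁻¹ ∈ Subgroup.normalClosure Rel ∧
      M.pib (M.val (FreeGroup.map l f)) = u

/-- Move letters of the main layer: `inl z`, `inr (inl false) = p`, `inr (inl true) = 𝔭`,
`inr (inr y) = c_y`. -/
abbrev ZM (Y ZB : Type) : Type := ZB ⊕ Bool ⊕ Y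

namespace MI

variable [DecidableEq Y] (M : MI Y ZB)

noncomputable def Sh (x x' : M.B) : FreeGroup Y :=
  if (M.fb false x * (M.fb false x')⁻¹).norm ≤ (M.fb true x * (M.fb true x')⁻¹).norm then
    M.fb false x * (M.fb false x')⁻¹ else M.fb true x * (M.fb true x')⁻¹

/-- State: prefix `x`, last point `xl ∈ D`, accumulated `B̃`, output. -/
noncomputable def mainStep :
    M.B × M.B × FreeGroup Y × FreeGroup (Option (ZP Y)) → ZM Y ZB × Bool →
      M.B × M.B × FreeGroup Y × FreeGroup (Option (ZP Y))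
  | (x, xl, Bt, out), (.inl z, ε) => (x * cond ε (M.b z) (M.b z)⁻¹, xl, Bt, out)
  | (x, xl, Bt, out), (.inr (.inl false), ε) =>
      if x⁻¹ ∈ M.D then (x, x⁻¹, (M.Sh xl x⁻¹)⁻¹ * Bt,
        out * Zel ((M.fa xl)⁻¹ * M.fa x⁻¹, M.Sh xl x⁻¹) * cond ε tt tt⁻¹)
      else (x, xl, Bt, out)
  | s, _ => s

noncomputable def theta0 [DecidableEq ZB] (g : FreeGroup (ZM Y ZB)) : FreeGroup (Option (ZP Y)) :=
  let s := g.toWord.foldl M.mainStep (1, 1, 1, 1)
  s.2.2.2 * Zel ((M.fa s.2.1)⁻¹ * M.pib s.1, s.2.2.1)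

/-- Projection to the machine letters. -/
def prB : FreeGroup (ZM Y ZB) →* FreeGroup ZB := FreeGroup.lift (Sum.elim FreeGroup.of fun _ => 1)

noncomputable def mainD [DecidableEq ZB] : RData (Option (ZP Y)) (ZM Y ZB) where
  A := SD M.B (M.B ⧸ M.F)
  a := fun z => SD.letter
    (Sum.elim (fun _ => none) (Sum.elim (fun b => cond b none (some (QuotientGroup.mk 1)))
      fun _ => none) z) (Sum.elim M.b (fun _ => 1) z)
  y := Sum.elim (fun z => zeta (M.pib (M.b z))) (Sum.elim (fun b => cond b tt 1)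
    fun y => cP (FreeGroup.of y))
  Ao := M.L.comap SemidirectProduct.rightHom
  θ := fun ε g => cond ε (zeta (M.pib (M.val (prB g)))) (M.theta0 g)

/-- Plus followed by Main. -/
noncomputable def MP [DecidableEq ZB] (O : Obj Y) : Obj (Option (ZM Y ZB)) := M.mainD.R (Plus O)

end MI

def cM : FreeGroup Y →* FreeGroup (Option (ZM Y ZB)) := FreeGroup.map fun y => some (.inr (.inr y))

end Crest.Agent.R185
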