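import Crest.Agent.R185.RS
import Crest.Agent.R185.MI

/-!
# Row 185: the rule system and machine interface of a generator machine (definitions)

Configurations `(κ, κ'', state, τ, registers)`; the register `none` records the history.  States: `0` = line, `2q+1` = forward copy of `q`, `2q+2` = mirror copy of `q`.
Rules: `wr y` (write on the line), `start`, `mstart`, `switch`, forward instructions `(false, j)`, mirror instructions `(true, j)`.
-/

set_option autoImplicit false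

namespace Crest.Agent.R185

open scoped Classical
open SemidirectProduct

/-- Affine maps `x ↦ s + u x` of `ℚ`. -/
@[ext] structure Aff where
  s : ℚ
  u : ℚˣ

instance : Group Aff where
  mul a b := ⟨a.s + a.u * b.s, a.u * b.u⟩
  one := ⟨0, 1⟩
  inv a := ⟨-((a.u⁻¹ : ℚˣ) * a.s), a.u⁻¹⟩
  mul_assoc a b c := Aff.ext (by
    show a.s + a.u * b.s + ((a.u * b.u : ℚˣ) : ℚ) * c.s = a.s + a.u * (b.s + b.u * c.s)
    push_cast; ring) (mul_assoc _ _ _)
  one_mul a := Aff.ext (by show (0 : ℚ) + ((1 : ℚˣ) : ℚ) * a.s = a.s; simp) (one_mul _)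
  mul_one a := Aff.ext (by show a.s + a.u * (0 : ℚ) = a.s; simp) (mul_one _)
  inv_mul_cancel a := Aff.ext (by
    show -((a.u⁻¹ : ℚˣ) * a.s) + ((a.u⁻¹ : ℚˣ) : ℚ) * a.s = 0; simp) (inv_mul_cancel _)

@[simp] theorem Aff.mul_s (a b : Aff) : (a * b).s = a.s + a.u * b.s := rfl
@[simp] theorem Aff.mul_u (a b : Aff) : (a * b).u = a.u * b.u := rfl
@[simp] theorem Aff.one_s : (1 : Aff).s = 0 := rfl
@[simp] theorem Aff.one_u : (1 : Aff).u = 1 := rfl
@[simp] theorem Aff.inv_s (a : Aff) : a⁻¹.s = -((a.u⁻¹ : ℚˣ) * a.s) := rfl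
@[simp] theorem Aff.inv_u (a : Aff) : a⁻¹.u = a.u⁻¹ := rfl

namespace GM

variable {Y : Type} (M : GM Y)

abbrev Reg' : Type := Option (Fin M.nK)
/-- Rules: `inl y = wr y`; `inr (inl 0) = start`, `inr (inl 1) = mstart`, `inr (inl 2) = switch`;
`inr (inr (false, j))` forward, `inr (inr (true, j))` mirror. -/
abbrev Rule : Type := Y ⊕ Fin 3 ⊕ Bool × Fin M.nJ

instance instDecEqRule [DecidableEq Y] : DecidableEq M.Rule :=
  @instDecidableEqSum _ _ _ (@instDecidableEqSum _ _ (instDecidableEqFin 3)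
    (@instDecidableEqProd _ _ instDecidableEqBool (instDecidableEqFin _)))
instance instFintypeRule [Fintype Y] : Fintype M.Rule := inferInstanceAs (Fintype (_ ⊕ _))
instance instPrimRule [Primcodable Y] : Primcodable M.Rule := inferInstanceAs (Primcodable (_ ⊕ _))

/-- Integral configurations. -/
abbrev V0 : Type :=
  (FreeGroup Y × FreeGroup Y) × Multiplicative ℤ × Multiplicative ℤ × (M.Reg' → Multiplicative ℤ)
abbrev V1 : Type := (FreeGroup Y × FreeGroup Y) × Multiplicative ℤ × Multiplicative ℤ × (M.Reg' → Aff)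

def c0 (κ : FreeGroup Y × FreeGroup Y) (st τ : ℤ) (x : M.Reg' → ℤ) : M.V0 :=
  (κ, Multiplicative.ofAdd st, Multiplicative.ofAdd τ, fun r => Multiplicative.ofAdd (x r))

def cfg : M.V0 →* M.V1 where
  toFun α := (α.1, α.2.1, α.2.2.1, fun r => ⟨((α.2.2.2 r).toAdd : ℤ), 1⟩)
  map_one' := by ext <;> simp
  map_mul' α β := by ext <;> simp

/-- history register and machine registers. -/
def regs (h : ℤ) (x : Fin M.nK → ℤ) : M.Reg' → ℤ := fun r => r.elim h x

def kind : M.Rule → Subgroup (FreeGroup Y × FreeGroup Y)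
  | .inl _ => (⊤ : Subgroup _).prod ⊥
  | .inr (.inl 0) => ⊥
  | .inr (.inl 1) => (⊤ : Subgroup _).prod ⊥
  | .inr (.inl 2) => (MonoidHom.fst _ _).eqLocus (MonoidHom.snd _ _)
  | .inr (.inr _) => ⊤

def tfree : M.Rule → Bool
  | .inr (.inr _) => true
  | _ => false

def mm : M.Rule → M.Reg' → ℕ
  | .inr (.inl 2), _ => 1
  | .inr (.inr p), r => r.elim 1 (M.m p.2)
  | _, _ => 0

def mm' : M.Rule → M.Reg' → ℕ
  | .inr (.inl 2), _ => 1
  | .inr (.inr p), r => r.elim (M.nJ + 1) (M.m' p.2)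
  | _, _ => 0

def a0 : M.Rule → M.V0
  | .inr (.inl 2) => M.c0 1 (2 * (M.qf : ℕ) + 1) 0 0
  | .inr (.inr (b, j)) => M.c0 1 (2 * (M.src j : ℕ) + cond b 2 1) 0 (M.regs 0 (M.a j))
  | _ => 1

def d0 (e : ℕ) : M.Rule → M.V0
  | .inl y => M.c0 (FreeGroup.of y, 1) 0 0 0
  | .inr (.inl 0) => M.c0 1 (2 * (M.q0 : ℕ) + 1) 0 (M.regs 0 (M.ini e))
  | .inr (.inl 1) => M.c0 1 (2 * (M.q0 : ℕ) + 2) 0 (M.regs 0 (M.ini e))
  | .inr (.inl 2) => M.c0 1 (2 * (M.qf : ℕ) + 2) 0 0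
  | .inr (.inr (b, j)) => M.c0 (cond b 1 (M.lab j), M.lab j) (2 * (M.tgt j : ℕ) + cond b 2 1)
      (cond b (-M.δ j) (M.δ j)) (M.regs ((j : ℕ) + 1) (M.d j))

def piR : M.Rule → FreeGroup Y
  | .inl y => FreeGroup.of y
  | _ => 1

def UU (i : M.Rule) : Subgroup M.V1 where
  carrier := {v | v.1 ∈ M.kind i ∧ v.2.1 = 1 ∧ (M.tfree i = false → v.2.2.1 = 1) ∧
    ∀ r, (v.2.2.2 r).u = 1 ∧ ∃ z : ℤ, (v.2.2.2 r).s = M.mm' i r * z}
  one_mem' := ⟨one_mem _, rfl, fun _ => rfl, fun _ => ⟨rfl, 0, by simp⟩⟩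
  mul_mem' := by
    rintro a b ⟨a1, a2, a3, a4⟩ ⟨b1, b2, b3, b4⟩
    refine ⟨mul_mem a1 b1, by simp [a2, b2], fun h => by simp [a3 h, b3 h], fun r => ?_⟩
    obtain ⟨h1, z, h2⟩ := a4 r
    obtain ⟨h3, z', h4⟩ := b4 r
    exact ⟨by simp [h1, h3], z + z', by simp [h1, h2, h4, mul_add]⟩
  inv_mem' := by
    rintro a ⟨a1, a2, a3, a4⟩
    refine ⟨inv_mem a1, by simp [a2], fun h => by simp [a3 h], fun r => ?_⟩
    obtain ⟨h1, z, h2⟩ := a4 r
    exact ⟨by simp [h1], -z, by simp [h1, h2]⟩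

def mu (i : M.Rule) : M.V1 :=
  (1, 1, 1, fun r => ⟨0, if h : M.mm i r ≠ 0 ∧ M.mm' i r ≠ 0 then
    Units.mk0 ((M.mm' i r : ℚ) / M.mm i r)
      (div_ne_zero (Nat.cast_ne_zero.2 h.2) (Nat.cast_ne_zero.2 h.1)) else 1⟩)

def rs (e : ℕ) : RS M.Rule where
  V := M.V1
  U := M.UU
  μ := M.mu
  a := fun i => M.cfg (M.a0 i)
  d := fun i => M.cfg (M.d0 e i)

/-- The history number of a list of instructions. -/
def hist : List (Fin M.nJ) → ℤ
  | [] => 0
  | j :: js => ((j : ℕ) + 1) + (M.nJ + 1) * hist js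

def kap (v : M.V1) : FreeGroup Y := v.1.1
def st (v : M.V1) : ℤ := v.2.1.toAdd
def tau (v : M.V1) : ℤ := v.2.2.1.toAdd

/-- `mu0 false` is `κ` on mirror/line states and `1` on forward states; `mu0 true` is `κ` also on
forward `post` states. -/
noncomputable def mu0 (i : Bool) (v : M.V1) : FreeGroup Y :=
  if Even (M.st v) ∨ (i = true ∧ ∃ q : Fin M.nQ, M.post q = true ∧ M.st v = 2 * (q : ℕ) + 1)
  then M.kap v else 1

/-- Integral steps. -/
def Step0 (e : ℕ) (i : M.Rule) (α β : M.V0) : Prop :=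
  ∃ k ∈ M.kind i, ∃ t : ℤ, (M.tfree i = false → t = 0) ∧ ∃ z : M.Reg' → ℤ,
    α = M.a0 i * M.c0 k 0 t (fun r => M.mm i r * z r) ∧
    β = M.d0 e i * M.c0 k 0 t (fun r => M.mm' i r * z r)

inductive Path0 (e : ℕ) : FreeGroup M.Rule → M.V0 → Prop
  | nil : Path0 e 1 1
  | fwd {f α β} (i : M.Rule) : Path0 e f α → M.Step0 e i α β → Path0 e (FreeGroup.of i * f) β
  | bwd {f α β} (i : M.Rule) : Path0 e f β → M.Step0 e i α β → Path0 e ((FreeGroup.of i)⁻¹ * f) α

/-- Machine letters: `κ_y`, `κ''_y`, state (`false`) / clock (`true`), registers, `ℓ_i`. -/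
abbrev ZB : Type := Y ⊕ Y ⊕ Bool ⊕ M.Reg' ⊕ M.Rule

instance instDecEqZB [DecidableEq Y] : DecidableEq M.ZB :=
  @instDecidableEqSum _ _ _ (@instDecidableEqSum _ _ _ (@instDecidableEqSum _ _ instDecidableEqBool
    (@instDecidableEqSum _ _ (@Option.instDecidableEq _ (instDecidableEqFin _)) M.instDecEqRule)))
instance instFintypeZB [Fintype Y] : Fintype M.ZB := inferInstanceAs (Fintype (_ ⊕ _))
instance instPrimZB [Primcodable Y] : Primcodable M.ZB := inferInstanceAs (Primcodable (_ ⊕ _))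

/-- The integral configuration of a letter. -/
def gen0 : M.ZB → M.V0
  | .inl y => M.c0 (FreeGroup.of y, 1) 0 0 0
  | .inr (.inl y) => M.c0 (1, FreeGroup.of y) 0 0 0
  | .inr (.inr (.inl b)) => M.c0 1 (cond b 0 1) (cond b 1 0) 0
  | .inr (.inr (.inr (.inl r))) => M.c0 1 0 0 (Pi.single r 1)
  | .inr (.inr (.inr (.inr _))) => 1

def letX (e : ℕ) : M.ZB → Option (M.rs e).Om
  | .inr (.inr (.inr (.inr i))) => some ((M.rs e).om i)
  | _ => none

def letV : M.ZB → M.V1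
  | .inr (.inr (.inr (.inr i))) => M.mu i
  | z => M.cfg (M.gen0 z)

def lz (i : M.Rule) : M.ZB := .inr (.inr (.inr (.inr i)))

/-- A word for an integral configuration. -/
noncomputable def vw (α : M.V0) : FreeGroup M.ZB :=
  FreeGroup.map .inl α.1.1 * FreeGroup.map (fun y => .inr (.inl y)) α.1.2 *
    FreeGroup.of (.inr (.inr (.inl false))) ^ α.2.1.toAdd *
    FreeGroup.of (.inr (.inr (.inl true))) ^ α.2.2.1.toAdd *
    ((Finset.univ : Finset M.Reg').toList.map fun r =>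
      FreeGroup.of (.inr (.inr (.inr (.inl r))) : M.ZB) ^ (α.2.2.2 r).toAdd).prod

noncomputable def rhow (e : ℕ) (i : M.Rule) : FreeGroup M.ZB :=
  M.vw (M.d0 e i) * FreeGroup.of (M.lz i) * (M.vw (M.a0 i))⁻¹

variable [DecidableEq Y]

/-- The minimal decomposition (junk outside `D`). -/
noncomputable def dec (e : ℕ) (x : (M.rs e).B) : FreeGroup M.Rule × M.V1 × FreeGroup M.Rule :=
  if h : ∃ p : FreeGroup M.Rule × M.V1 × FreeGroup M.Rule, (M.rs e).Min x p.1 p.2.1 p.2.2 then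
    h.choose else (1, 1, 1)

noncomputable def mi (e : ℕ) : MI Y M.ZB where
  B := (M.rs e).B
  b := fun z => SD.letter (M.letX e z) (M.letV z)
  pib := (FreeGroup.lift M.piR).comp (M.rs e).ret
  F := (M.rs e).ρ.range
  L := (M.rs e).ℓ.range
  D := (M.rs e).D
  fa := fun x => (FreeGroup.lift M.piR (M.dec e x).2.2)⁻¹ *
    (M.kap ((M.rs e).ρ (M.dec e x).1).right)⁻¹
  fb := fun i x => M.kap ((M.rs e).ρ (M.dec e x).1).right * M.mu0 i (M.dec e x).2.1

end GM

end Crest.Agent.R185
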