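import Crest.Agent.R185.MachInv

/-!
# Row 185: the machine interface is good (task R185-MachGood)

PLAN.  `dec e x = (f,v,g)` whenever `Min x f v g` (`min_unique`).  `κ = kap ∘ right`, `τ = tau ∘ right` are homomorphisms on `B`, trivial on `ℓ_i`; `|κ(ρ_i)| ≤ 1`, `|τ(ρ_i)| ≤ 1`, `|piR i| ≤ 1`;
for a letter `z`: `|left| ≤ 1`, `|κ| ≤ 1`, `|τ| ≤ 1`, so these are `≤ |w|` on `val w`.  `fa x * fb false x = (π g)⁻¹ * mu0 false v`.
`left`: `val w' = ρ f₀` with `f₀ = ret (val w')`, `|f₀| ≤ |w'|`; induct on the word of `f₀` with `min_left`, `step_val` (`step_neg` for inverse letters); the relator used is `κ` of the current element (`f = 1`), of norm `≤ |w| + |w'|`.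
`rel`: `comp_type`, `|κ v| ≤ |κ ρ f| + |κ x| ≤ 2|w|` (`min_norm`).
`lip` (`d = |w|`): `dichotomy`.  `(fa x)⁻¹ fa x' = κf₁ κp πg₁ (πg₁')⁻¹ (κp)⁻¹ (κf₁')⁻¹`, norm `≤ 2d` in both cases.  Both states odd: `i = false`, `κf₁ (κf₁')⁻¹`.  Both `mu0 true = κ`: `i = true`, `fb true x = κ x`, get `(κ β)⁻¹`.
Otherwise one is even and the other odd non post, so `p = 1` (states differ; `st` kills all `UU i`), `|κ v| ≤ τ v ≤ τ v - τ v' ≤ 3d`, `i = false`, total `≤ 6d`.
-/

set_option autoImplicit false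

namespace Crest.Agent.R185.GM

namespace Gd

theorem len_le_norm {X G : Type} [DecidableEq X] [Group G] (N : G → ℕ) (h1 : N 1 = 0)
    (hmul : ∀ a b, N (a * b) ≤ N a + N b) (hinv : ∀ a, N a⁻¹ = N a) (φ : FreeGroup X →* G)
    (hφ : ∀ z, N (φ (FreeGroup.of z)) ≤ 1) (w : FreeGroup X) : N (φ w) ≤ w.norm := by
  conv_lhs => rw [← FreeGroup.mk_toWord (x := w)]
  rw [FreeGroup.norm]
  induction w.toWord with
  | nil => rw [← FreeGroup.one_eq_mk, map_one, h1]; rfl
  | cons a l ih =>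
    rw [RS.mk_cons', map_mul, List.length_cons, add_comm]
    refine (hmul _ _).trans (add_le_add ?_ ih)
    obtain ⟨z, _ | _⟩ := a
    · rw [RS.mk_neg, map_inv, hinv]; exact hφ z
    · exact hφ z

theorem norm_hom_le {X Z : Type} [DecidableEq X] [DecidableEq Z] (φ : FreeGroup X →* FreeGroup Z)
    (hφ : ∀ z, (φ (FreeGroup.of z)).norm ≤ 1) (w : FreeGroup X) : (φ w).norm ≤ w.norm :=
  len_le_norm _ FreeGroup.norm_one FreeGroup.norm_mul_le (fun _ => FreeGroup.norm_inv_eq) φ hφ w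

theorem abs_hom_le {X : Type} [DecidableEq X] (φ : FreeGroup X →* Multiplicative ℤ)
    (hφ : ∀ z, (φ (FreeGroup.of z)).toAdd.natAbs ≤ 1) (w : FreeGroup X) :
    (φ w).toAdd.natAbs ≤ w.norm :=
  len_le_norm (fun x : Multiplicative ℤ => x.toAdd.natAbs) rfl (fun _ _ => Int.natAbs_add_le _ _)
    (fun _ => Int.natAbs_neg _) φ hφ w

theorem norm3 {Z : Type} [DecidableEq Z] (a b c : FreeGroup Z) :
    (a * b * c).norm ≤ a.norm + b.norm + c.norm :=
  (FreeGroup.norm_mul_le _ _).trans (by have := FreeGroup.norm_mul_le a b; omega)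

theorem norm4 {Z : Type} [DecidableEq Z] (a b c d : FreeGroup Z) :
    (a * b * c * d).norm ≤ a.norm + b.norm + c.norm + d.norm :=
  (FreeGroup.norm_mul_le _ _).trans (by have := norm3 a b c; omega)

open scoped Classical in
/-- number of free letters. -/
noncomputable def len {I : Type} (S : RS I) (x : S.B) : ℕ := x.left.norm

open scoped Classical in
theorem len_hom_le {I X : Type} [DecidableEq X] (S : RS I) (φ : FreeGroup X →* S.B)
    (hφ : ∀ z, len S (φ (FreeGroup.of z)) ≤ 1) (w : FreeGroup X) : len S (φ w) ≤ w.norm := by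
  refine len_le_norm _ rfl (fun a b => ?_) (fun a => ?_) φ hφ w
  · rw [len, SemidirectProduct.mul_left]
    exact (FreeGroup.norm_mul_le _ _).trans (add_le_add le_rfl (S.length_perm _ _).le)
  · rw [len, SemidirectProduct.inv_left]
    exact (S.length_perm _ _).trans FreeGroup.norm_inv_eq

theorem len_letter {I : Type} (S : RS I) (o : Option S.Om) (v : S.V) :
    len S (SD.letter o v) ≤ 1 := by
  cases o <;> simp [len, SD.letter]

variable {Y : Type} [DecidableEq Y] {M : GM Y} {U : ℕ × Word Y → Prop} {e : ℕ}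

variable (M e) in
/-- `val` with values in `(M.rs e).B`. -/
noncomputable def vB : FreeGroup M.ZB →* (M.rs e).B := (M.mi e).val

variable (M e) in
/-- `κ` on `B`. -/
def kB : (M.rs e).B →* FreeGroup Y :=
  ((MonoidHom.fst _ _).comp (MonoidHom.fst _ _) : M.V1 →* FreeGroup Y).comp
    SemidirectProduct.rightHom

variable (M e) in
/-- `τ` on `B`. -/
def tB : (M.rs e).B →* Multiplicative ℤ :=
  ((MonoidHom.fst _ _).comp ((MonoidHom.snd _ _).comp (MonoidHom.snd _ _)) :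
    M.V1 →* Multiplicative ℤ).comp SemidirectProduct.rightHom

omit [DecidableEq Y] in
theorem kB_ℓ (g : FreeGroup M.Rule) : kB M e ((M.rs e).ℓ g) = 1 := by
  have : (kB M e).comp (M.rs e).ℓ = 1 := FreeGroup.ext_hom _ _ fun i => by
    rw [MonoidHom.comp_apply, RS.ℓ, FreeGroup.lift_apply_of]
    exact congrArg M.kap ((M.rs e).right_ell i)
  exact DFunLike.congr_fun this g

omit [DecidableEq Y] in
theorem tB_ℓ (g : FreeGroup M.Rule) : tB M e ((M.rs e).ℓ g) = 1 := by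
  have : (tB M e).comp (M.rs e).ℓ = 1 := FreeGroup.ext_hom _ _ fun i => by
    rw [MonoidHom.comp_apply, RS.ℓ, FreeGroup.lift_apply_of]
    exact congrArg (fun v : M.V1 => v.2.2.1) ((M.rs e).right_ell i)
  exact DFunLike.congr_fun this g

theorem kB_min {x f v g} (h : (M.rs e).Min x f v g) :
    kB M e x = kB M e ((M.rs e).ρ f) * M.kap v := by
  rw [h.2.1, map_mul, map_mul, kB_ℓ, mul_one]; rfl

theorem tB_min {x f v g} (h : (M.rs e).Min x f v g) :
    (tB M e x).toAdd = (tB M e ((M.rs e).ρ f)).toAdd + M.tau v := by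
  rw [h.2.1, map_mul (tB M e), map_mul (tB M e), tB_ℓ, mul_one]; rfl

theorem kB_ρ (hM : M.Good U) (f : FreeGroup M.Rule) : (kB M e ((M.rs e).ρ f)).norm ≤ f.norm := by
  refine norm_hom_le ((kB M e).comp (M.rs e).ρ) (fun i => ?_) f
  have : kB M e ((M.rs e).ρ (FreeGroup.of i)) = (M.d0 e i).1.1 * 1 * ((M.a0 i).1.1)⁻¹ :=
    congrArg M.kap ((M.rs e).right_ρ_pos i)
  rw [MonoidHom.comp_apply, this]
  rcases i with y | i | ⟨_ | _, j⟩
  · simp [d0, a0, c0]
  · fin_cases i <;> simp [d0, a0, c0]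
  · simpa [d0, a0, c0] using hM.lab_le j
  · simp [d0, a0, c0]

theorem tB_ρ (hM : M.Good U) (f : FreeGroup M.Rule) :
    (tB M e ((M.rs e).ρ f)).toAdd.natAbs ≤ f.norm := by
  refine abs_hom_le ((tB M e).comp (M.rs e).ρ) (fun i => ?_) f
  have : tB M e ((M.rs e).ρ (FreeGroup.of i)) = (M.d0 e i).2.2.1 * 1 * ((M.a0 i).2.2.1)⁻¹ :=
    congrArg (fun v : M.V1 => v.2.2.1) ((M.rs e).right_ρ_pos i)
  rw [MonoidHom.comp_apply, this]
  rcases i with y | i | ⟨b, j⟩
  · simp [d0, a0, c0]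
  · fin_cases i <;> simp [d0, a0, c0]
  · have := abs_le.1 (hM.δ_le j)
    cases b <;> simp [d0, a0, c0] <;> omega

theorem piR_le (g : FreeGroup M.Rule) : (FreeGroup.lift M.piR g).norm ≤ g.norm := by
  refine norm_hom_le _ (fun i => ?_) g
  rcases i with y | i <;> simp [piR]

theorem vB_of (z : M.ZB) : vB M e (FreeGroup.of z) =
    SD.letter (B := (M.rs e).V) (M.letX e z) (M.letV z) := FreeGroup.lift_apply_of

theorem right_vB (z : M.ZB) : (vB M e (FreeGroup.of z)).right = M.letV z := by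
  rw [vB_of]
  exact one_mul (M.letV z)

theorem kB_vB (w : FreeGroup M.ZB) : (kB M e (vB M e w)).norm ≤ w.norm := by
  refine norm_hom_le ((kB M e).comp (vB M e)) (fun z => ?_) w
  have : kB M e (vB M e (FreeGroup.of z)) = (M.letV z).1.1 := congrArg M.kap (right_vB z)
  rw [MonoidHom.comp_apply, this]
  rcases z with y | y | b | r | i <;> simp [letV, gen0, cfg, c0, mu]

theorem tB_vB (w : FreeGroup M.ZB) : (tB M e (vB M e w)).toAdd.natAbs ≤ w.norm := by
  refine abs_hom_le ((tB M e).comp (vB M e)) (fun z => ?_) w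
  have : tB M e (vB M e (FreeGroup.of z)) = (M.letV z).2.2.1 :=
    congrArg (fun v : M.V1 => v.2.2.1) (right_vB z)
  rw [MonoidHom.comp_apply, this]
  rcases z with y | y | (_ | _) | r | i <;> simp [letV, gen0, cfg, c0, mu]

theorem len_vB (w : FreeGroup M.ZB) : len _ (vB M e w) ≤ w.norm := by
  refine len_hom_le _ _ (fun z => ?_) w
  rw [vB_of]
  exact len_letter _ _ _

theorem dec_eq {x f v g} (h : (M.rs e).Min x f v g) : M.dec e x = (f, v, g) := by
  have h' : ∃ p : FreeGroup M.Rule × M.V1 × FreeGroup M.Rule, (M.rs e).Min x p.1 p.2.1 p.2.2 :=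
    ⟨(f, v, g), h⟩
  obtain ⟨h1, h2, h3⟩ := (M.rs e).min_unique h'.choose_spec h
  rw [dec, dif_pos h']
  exact Prod.ext h1 (Prod.ext h2 h3)

theorem fa_eq {x f v g} (h : (M.rs e).Min x f v g) :
    (M.mi e).fa x = (FreeGroup.lift M.piR g)⁻¹ * (kB M e ((M.rs e).ρ f))⁻¹ := by
  simp only [mi, dec_eq h]; rfl

theorem fb_eq {x f v g} (h : (M.rs e).Min x f v g) (i : Bool) :
    (M.mi e).fb i x = kB M e ((M.rs e).ρ f) * M.mu0 i v := by
  simp only [mi, dec_eq h]; rfl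

theorem fab_eq {x f v g} (h : (M.rs e).Min x f v g) :
    (M.mi e).fa x * (M.mi e).fb false x = (FreeGroup.lift M.piR g)⁻¹ * M.mu0 false v := by
  rw [fa_eq h, fb_eq h, mul_assoc, inv_mul_cancel_left]

theorem min_one : (M.rs e).Min 1 1 1 1 :=
  ⟨(M.rs e).one_mem_comp, by simp, by simp⟩

theorem left_step (hM : M.Good U) {y : (M.rs e).B} (hy : y ∈ (M.rs e).D) (s : M.Rule × Bool) :
    (M.rs e).ρ (FreeGroup.mk [s]) * y ∈ (M.rs e).D ∧
      ((M.mi e).fa y * (M.mi e).fb false y)⁻¹ * ((M.mi e).fa ((M.rs e).ρ (FreeGroup.mk [s]) * y) *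
        (M.mi e).fb false ((M.rs e).ρ (FreeGroup.mk [s]) * y)) ∈
          relBall (relSet U e) (kB M e y).norm := by
  obtain ⟨f, v, g, h⟩ := (M.rs e).exists_min hy
  rcases (M.rs e).min_left h s with h' | ⟨rfl, v', hs, h'⟩
  · refine ⟨h'.mem_D, ?_⟩
    rw [fab_eq h, fab_eq h', inv_mul_cancel]
    exact one_mem _
  refine ⟨h'.mem_D, ?_⟩
  have hk := kB_min h
  rw [map_one, map_one, one_mul] at hk
  rw [fab_eq h, fab_eq h', map_mul, hk]
  simp only [mul_inv_rev, inv_inv, mul_assoc, mul_inv_cancel_left]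
  obtain ⟨i, _ | _⟩ := s
  · rw [RS.mk_neg, map_inv, inv_inv, FreeGroup.lift_apply_of]
    rcases step_val hM e i v' v h'.1 (((M.rs e).step_neg _ _ _).1 hs) with a | ⟨a1, a2, a3, a4, a5⟩
    · rw [← a, mul_inv_cancel_left, inv_mul_cancel]; exact one_mem _
    · rw [a1, a2, a3, mul_one, mul_one, a4]
      exact inv_mem (Subgroup.subset_closure ⟨a5, le_rfl⟩)
  · rw [RS.mk_pos, FreeGroup.lift_apply_of]
    rcases step_val hM e i v v' h.1 hs with a | ⟨a1, a2, a3, a4, a5⟩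
    · rw [a, inv_mul_cancel]; exact one_mem _
    · rw [a1, a2, a3, inv_one, one_mul, one_mul]
      exact Subgroup.subset_closure ⟨a5, le_rfl⟩

theorem relBall_mono (W : Set (FreeGroup Y)) {m n : ℕ} (h : m ≤ n) : relBall W m ≤ relBall W n :=
  Subgroup.closure_mono fun _ hg => ⟨hg.1, hg.2.trans h⟩

theorem left_word (hM : M.Good U) {y : (M.rs e).B} (hy : y ∈ (M.rs e).D)
    (L : List (M.Rule × Bool)) :
    (M.rs e).ρ (FreeGroup.mk L) * y ∈ (M.rs e).D ∧
      ((M.mi e).fa y * (M.mi e).fb false y)⁻¹ * ((M.mi e).fa ((M.rs e).ρ (FreeGroup.mk L) * y) *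
        (M.mi e).fb false ((M.rs e).ρ (FreeGroup.mk L) * y)) ∈
          relBall (relSet U e) ((kB M e y).norm + L.length) := by
  induction L with
  | nil =>
    rw [← FreeGroup.one_eq_mk, map_one, one_mul, inv_mul_cancel]
    exact ⟨hy, one_mem _⟩
  | cons s L ih =>
    obtain ⟨h1, h2⟩ := left_step hM ih.1 s
    rw [RS.mk_cons', map_mul, mul_assoc ((M.rs e).ρ _)]
    refine ⟨h1, ?_⟩
    have := mul_mem (relBall_mono _ (Nat.le_succ _) ih.2) (relBall_mono _ (by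
      rw [map_mul]
      have a1 := FreeGroup.norm_mul_le (kB M e ((M.rs e).ρ (FreeGroup.mk L))) (kB M e y)
      have a2 := (kB_ρ (e := e) hM (FreeGroup.mk L)).trans FreeGroup.norm_mk_le
      omega) h2)
    rwa [mul_assoc _ _ (_ * _), mul_inv_cancel_left] at this

theorem lip (hM : M.Good U) {x β : (M.rs e).B} {d : ℕ} (h1 : len _ β ≤ d) (h2 : (kB M e β).norm ≤ d)
    (h3 : (tB M e β).toAdd.natAbs ≤ d) (hx : x ∈ (M.rs e).D) (hx' : β * x ∈ (M.rs e).D) :
    (((M.mi e).fa x)⁻¹ * (M.mi e).fa (β * x)).norm ≤ 8 * d ∧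
      ∃ i, ((M.mi e).fb i x * ((M.mi e).fb i (β * x))⁻¹).norm ≤ 8 * d := by
  obtain ⟨f, v, g, h⟩ := (M.rs e).exists_min hx
  obtain ⟨f', v', g', h'⟩ := (M.rs e).exists_min hx'
  obtain ⟨f₁, f₁', p, g₁, g₁', q, rfl, rfl, rfl, rfl, a1, a2, a3⟩ := (M.rs e).dichotomy h h'
  replace a1 : f₁.norm + g₁.norm ≤ d := a1.trans h1
  replace a2 : f₁'.norm + g₁'.norm ≤ d := a2.trans h1
  have b1 := kB_ρ (e := e) hM f₁
  have b2 := kB_ρ (e := e) hM f₁'
  have b3 := FreeGroup.norm_mul_le (kB M e ((M.rs e).ρ f₁)) (kB M e ((M.rs e).ρ f₁'))⁻¹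
  rw [FreeGroup.norm_inv_eq] at b3
  have k1 := kB_min h
  have k2 := kB_min h'
  rw [map_mul, k1] at k2
  have t1 := tB_min h
  have t2 := tB_min h'
  rw [map_mul, toAdd_mul, t1] at t2
  have hp : ¬ (Even (M.st v) ↔ Even (M.st v')) → p = 1 := fun hne => a3.resolve_right fun a => hne (by
    have := a.2.2 ((MonoidHom.fst _ _).comp (MonoidHom.snd _ _) : M.V1 →* Multiplicative ℤ)
      fun j u hu => hu.2.1
    rw [show M.st v = M.st v' from congrArg Multiplicative.toAdd this])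
  refine ⟨?_, ?_⟩
  · rw [fa_eq h, fa_eq h']
    rcases a3 with rfl | ⟨rfl, rfl, -⟩
    · simp only [mul_one, map_mul, mul_inv_rev, inv_inv, mul_assoc, mul_inv_cancel_left]
      simp only [← mul_assoc]
      have c1 := piR_le g₁
      have c2 := piR_le g₁'
      refine (norm4 _ _ _ _).trans ?_
      simp only [FreeGroup.norm_inv_eq]
      omega
    · simp only [one_mul, map_mul, mul_inv_rev, inv_inv, mul_assoc, mul_inv_cancel_left]
      omega
  have odd : Odd (M.st v) → Odd (M.st v') →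
      ∃ i, ((M.mi e).fb i x * ((M.mi e).fb i (β * x))⁻¹).norm ≤ 8 * d := fun o o' => ⟨false, by
    rw [fb_eq h, fb_eq h', mu0_odd o, mu0_odd o']
    simp only [mul_one, map_mul, mul_inv_rev, mul_assoc, mul_inv_cancel_left]
    omega⟩
  have tr : M.mu0 true v = M.kap v → M.mu0 true v' = M.kap v' →
      ∃ i, ((M.mi e).fb i x * ((M.mi e).fb i (β * x))⁻¹).norm ≤ 8 * d := fun o o' => ⟨true, by
    rw [fb_eq h, fb_eq h', o, o', ← k2, mul_inv_rev, mul_inv_cancel_left, FreeGroup.norm_inv_eq]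
    omega⟩
  rcases comp_type hM e v h.1 with ⟨c1, c2, c3⟩ | ⟨c1, -, c3, -⟩ | ⟨c1, c2, c3⟩ <;>
    rcases comp_type hM e v' h'.1 with ⟨c1', c2', c3'⟩ | ⟨c1', -, c3', -⟩ | ⟨c1', c2', c3'⟩
  · exact tr (c3 _) (c3' _)
  · exact tr (c3 _) c3'
  · obtain rfl := hp fun a => Int.not_even_iff_odd.2 c1' (a.1 c1)
    refine ⟨false, ?_⟩
    simp only [mul_one] at h h' k2 t2
    rw [fb_eq h, fb_eq h', c3, c2', mul_one, eq_inv_mul_iff_mul_eq.2 k2, ← mul_assoc]
    have u1 := tB_ρ (e := e) hM f₁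
    have u2 := tB_ρ (e := e) hM f₁'
    refine (norm4 _ _ _ _).trans ?_
    simp only [FreeGroup.norm_inv_eq]
    omega
  · exact tr c3 (c3' _)
  · exact odd c1 c1'
  · exact odd c1 c1'
  · obtain rfl := hp fun a => Int.not_even_iff_odd.2 c1 (a.2 c1')
    refine ⟨false, ?_⟩
    simp only [mul_one] at h h' k2 t2
    rw [fb_eq h, fb_eq h', c3', c2, mul_one, ← k2, mul_inv_rev, mul_inv_rev, ← mul_assoc,
      ← mul_assoc]
    have u1 := tB_ρ (e := e) hM f₁
    have u2 := tB_ρ (e := e) hM f₁'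
    refine (norm4 _ _ _ _).trans ?_
    simp only [FreeGroup.norm_inv_eq]
    omega
  · exact odd c1 c1'
  · exact odd c1 c1'

theorem rel (hM : M.Good U) {x : (M.rs e).B} {d : ℕ} (h1 : len _ x ≤ d) (h2 : (kB M e x).norm ≤ d)
    (hx : x ∈ (M.rs e).D) :
    ((M.mi e).fb false x)⁻¹ * (M.mi e).fb true x ∈ relBall (relSet U e) (8 * d) ∧
      (((M.mi e).fb false x)⁻¹ * (M.mi e).fb true x).norm ≤ 8 * d := by
  obtain ⟨f, v, g, h⟩ := (M.rs e).exists_min hx
  rw [fb_eq h, fb_eq h, mul_inv_rev, mul_assoc, inv_mul_cancel_left]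
  rcases comp_type hM e v h.1 with ⟨-, -, c3⟩ | ⟨-, c2, c3, c4⟩ | ⟨-, c2, -⟩
  · rw [c3, c3, inv_mul_cancel]; exact ⟨one_mem _, Nat.zero_le _⟩
  · have a1 : f.norm + g.norm ≤ d := ((M.rs e).min_norm h).ge.trans h1
    have a2 := kB_ρ (e := e) hM f
    have a3 := FreeGroup.norm_mul_le (kB M e ((M.rs e).ρ f))⁻¹ (kB M e x)
    rw [FreeGroup.norm_inv_eq, inv_mul_eq_iff_eq_mul.2 (kB_min h)] at a3
    rw [c2, c3, inv_one, one_mul]
    exact ⟨Subgroup.subset_closure ⟨c4, by omega⟩, by omega⟩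
  · rw [c2, c2, inv_mul_cancel]; exact ⟨one_mem _, Nat.zero_le _⟩

theorem right {x : (M.rs e).B} (hx : x ∈ (M.rs e).D) (k : FreeGroup M.Rule) :
    x * (M.rs e).ℓ k ∈ (M.rs e).D ∧
      (M.mi e).fa (x * (M.rs e).ℓ k) = (FreeGroup.lift M.piR k)⁻¹ * (M.mi e).fa x ∧
      ∀ i, (M.mi e).fb i (x * (M.rs e).ℓ k) = (M.mi e).fb i x := by
  obtain ⟨f, v, g, h⟩ := (M.rs e).exists_min hx
  have h' : (M.rs e).Min (x * (M.rs e).ℓ k) f v (g * k) :=
    ⟨h.1, by rw [map_mul, ← mul_assoc, ← h.2.1], h.2.2⟩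
  exact ⟨h'.mem_D, by rw [fa_eq h, fa_eq h', map_mul, mul_inv_rev, mul_assoc],
    fun i => by rw [fb_eq h, fb_eq h']⟩

end Gd

open Gd in
theorem mi_good {Y : Type} [DecidableEq Y] {M : GM Y} {U : ℕ × Word Y → Prop} (hM : M.Good U)
    (e : ℕ) : (M.mi e).Good 8 (relSet U e) := by
  refine ⟨fun z => ?_, min_one.mem_D, ?_, fun i => ?_, ?_, fun w w' hw hw' => ?_,
    fun w hw => rel hM (len_vB w) (kB_vB w) hw,
    fun x hx w hw => lip hM (len_vB w) (kB_vB w) (tB_vB w) hx hw⟩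
  · have := (piR_le _).trans (((M.rs e).norm_ret_le _).trans (len_vB (e := e) (FreeGroup.of z)))
    rwa [vB_of] at this
  · exact (fa_eq min_one).trans (by simp)
  · exact (fb_eq min_one i).trans (by
      rw [map_one, map_one, one_mul]; exact mu0_even (v := 1) Even.zero i)
  · rintro x hx _ ⟨k, rfl⟩
    have := right hx k
    refine ⟨this.1, this.2.1.trans ?_, this.2.2⟩
    exact congrArg (fun t => (FreeGroup.lift M.piR t)⁻¹ * (M.mi e).fa x) ((M.rs e).ret_ℓ k).symm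
  · obtain ⟨f, hf⟩ := hw'
    have a1 : f.norm ≤ w'.norm := by
      rw [← (M.rs e).ret_ρ f, hf]
      exact ((M.rs e).norm_ret_le _).trans (len_vB w')
    have a2 := kB_vB (e := e) w
    obtain ⟨b1, b2⟩ := left_word hM hw f.toWord
    rw [FreeGroup.mk_toWord, hf] at b1 b2
    refine ⟨b1, relBall_mono _ ?_ b2⟩
    change (kB M e (vB M e w)).norm + f.norm ≤ _
    omega

end Crest.Agent.R185.GM
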