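import Crest.Agent.R185.MachDefs

/-!
# Row 185: reachable configurations (task R185-MachInv)

PLAN.  `step_iff`: by `RS.step_pos`; `μ u μ⁻¹` multiplies the shift in register `r` by `m'/m` (use `zero_iff`).  `comp_char`: `RS.comp_ind`, `RS.step_neg`; case analysis on the rule and on the three shapes
(the state separates them: `0`, odd, even positive).  Backward instruction `j` at a run `js`: `hist js = j + 1 + (nJ+1) z` forces `js = j :: js'` (digits `1..nJ`, `hist ≥ 0`, `hist = 0 ↔ js = []`), then invert `Run`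
(`m' z = m' z₀ → m z = m z₀` by `zero_iff`).  `path_*`: induction on `Run` / on the reduced word.  `loop`: line to `u` by `wr`, `mstart`, mirror run, `switch` backwards, forward run backwards, `start` backwards.
-/

set_option autoImplicit false

namespace Crest.Agent.R185.GM

variable {Y : Type} [DecidableEq Y] {M : GM Y} {U : ℕ × Word Y → Prop}

section aux
omit [DecidableEq Y]

theorem c0_mul (κ κ' : FreeGroup Y × FreeGroup Y) (s s' t t' : ℤ) (x x' : M.Reg' → ℤ) :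
    M.c0 κ s t x * M.c0 κ' s' t' x' = M.c0 (κ * κ') (s + s') (t + t') (x + x') := rfl

theorem c0_one : M.c0 1 0 0 0 = 1 := rfl

theorem c0_inj {κ κ' : FreeGroup Y × FreeGroup Y} {s s' t t' : ℤ} {x x' : M.Reg' → ℤ} :
    M.c0 κ s t x = M.c0 κ' s' t' x' ↔ κ = κ' ∧ s = s' ∧ t = t' ∧ x = x' := by
  simp [c0, funext_iff]

theorem regs_inj {h h' : ℤ} {x x' : Fin M.nK → ℤ} :
    M.regs h x = M.regs h' x' ↔ h = h' ∧ x = x' := by
  simp [regs, funext_iff, Option.forall]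

theorem step0_wr {e : ℕ} {y : Y} {α β : M.V0} : M.Step0 e (.inl y) α β ↔
    ∃ κ, α = M.c0 (κ, 1) 0 0 0 ∧ β = M.c0 (FreeGroup.of y * κ, 1) 0 0 0 := by
  constructor
  · rintro ⟨⟨k, k'⟩, ⟨-, hk⟩, t, ht, z, rfl, rfl⟩
    obtain rfl : k' = 1 := hk
    obtain rfl := ht rfl
    exact ⟨k, by simp [a0, mm, c0_inj, funext_iff], by simp [d0, mm', c0_mul, c0_inj, funext_iff]⟩
  · rintro ⟨κ, rfl, rfl⟩
    exact ⟨(κ, 1), ⟨trivial, rfl⟩, 0, fun _ => rfl, 0, by simp [a0, c0_inj, funext_iff],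
      by simp [d0, c0_mul, c0_inj, funext_iff]⟩

theorem step0_start {e : ℕ} {α β : M.V0} : M.Step0 e (.inr (.inl 0)) α β ↔
    α = M.c0 (1, 1) 0 0 0 ∧ β = M.c0 (1, 1) (2 * (M.q0 : ℕ) + 1) 0 (M.regs 0 (M.ini e)) := by
  constructor
  · rintro ⟨k, hk, t, ht, z, rfl, rfl⟩
    obtain rfl : k = 1 := hk
    obtain rfl := ht rfl
    exact ⟨by simp [a0, mm, c0_inj, funext_iff]; rfl,
      by simp [d0, mm', c0_mul, c0_inj, funext_iff, Prod.one_eq_mk]⟩
  · rintro ⟨rfl, rfl⟩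
    exact ⟨1, rfl, 0, fun _ => rfl, 0, by simp [a0, c0_inj, funext_iff],
      by simp [d0, c0_mul, c0_inj, funext_iff]⟩

theorem step0_mstart {e : ℕ} {α β : M.V0} : M.Step0 e (.inr (.inl 1)) α β ↔
    ∃ κ, α = M.c0 (κ, 1) 0 0 0 ∧ β = M.c0 (κ, 1) (2 * (M.q0 : ℕ) + 2) 0 (M.regs 0 (M.ini e)) := by
  constructor
  · rintro ⟨⟨k, k'⟩, ⟨-, hk⟩, t, ht, z, rfl, rfl⟩
    obtain rfl : k' = 1 := hk
    obtain rfl := ht rfl
    exact ⟨k, by simp [a0, mm, c0_inj, funext_iff], by simp [d0, mm', c0_mul, c0_inj, funext_iff]⟩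
  · rintro ⟨κ, rfl, rfl⟩
    exact ⟨(κ, 1), ⟨trivial, rfl⟩, 0, fun _ => rfl, 0, by simp [a0, c0_inj, funext_iff],
      by simp [d0, c0_mul, c0_inj, funext_iff]⟩

theorem step0_switch {e : ℕ} {α β : M.V0} : M.Step0 e (.inr (.inl 2)) α β ↔
    ∃ κ z, α = M.c0 (κ, κ) (2 * (M.qf : ℕ) + 1) 0 z ∧ β = M.c0 (κ, κ) (2 * (M.qf : ℕ) + 2) 0 z := by
  constructor
  · rintro ⟨⟨k, k'⟩, hk, t, ht, z, rfl, rfl⟩
    obtain rfl : k = k' := hk
    obtain rfl := ht rfl
    exact ⟨k, z, by simp [a0, mm, c0_mul], by simp [d0, mm', c0_mul]⟩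
  · rintro ⟨κ, z, rfl, rfl⟩
    exact ⟨(κ, κ), rfl, 0, fun _ => rfl, z, by simp [a0, mm, c0_mul], by simp [d0, mm', c0_mul]⟩

theorem step0_ins {e : ℕ} {b : Bool} {j : Fin M.nJ} {α β : M.V0} :
    M.Step0 e (.inr (.inr (b, j))) α β ↔ ∃ (κ₀ κ : FreeGroup Y) (t h : ℤ) (z : Fin M.nK → ℤ),
      α = M.c0 (κ₀, κ) (2 * (M.src j : ℕ) + cond b 2 1) t
        (M.regs h fun r => M.a j r + M.m j r * z r) ∧
      β = M.c0 (cond b 1 (M.lab j) * κ₀, M.lab j * κ) (2 * (M.tgt j : ℕ) + cond b 2 1)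
        (cond b (-M.δ j) (M.δ j) + t)
        (M.regs (((j : ℕ) + 1) + (M.nJ + 1) * h) fun r => M.d j r + M.m' j r * z r) := by
  constructor
  · rintro ⟨⟨k, k'⟩, -, t, -, z, rfl, rfl⟩
    exact ⟨k, k', t, z none, fun r => z (some r),
      by simp [a0, mm, c0_mul, c0_inj, funext_iff, regs, Option.forall],
      by simp [d0, mm', c0_mul, c0_inj, funext_iff, regs, Option.forall]⟩
  · rintro ⟨κ₀, κ, t, h, z, rfl, rfl⟩
    exact ⟨(κ₀, κ), trivial, t, by simp [tfree], M.regs h z,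
      by simp [a0, mm, c0_mul, c0_inj, funext_iff, regs, Option.forall],
      by simp [d0, mm', c0_mul, c0_inj, funext_iff, regs, Option.forall]⟩

theorem length_le_hist (js : List (Fin M.nJ)) : (js.length : ℤ) ≤ M.hist js := by
  induction js with
  | nil => simp [hist]
  | cons j js ih =>
    have : (0 : ℤ) ≤ M.nJ * M.hist js := mul_nonneg (by omega) (le_trans (by omega) ih)
    simp only [hist, List.length_cons, Nat.cast_succ]
    nlinarith

theorem hist_eq {js : List (Fin M.nJ)} {j : Fin M.nJ} {h : ℤ}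
    (hh : ((j : ℕ) + 1) + (M.nJ + 1) * h = M.hist js) : ∃ js', js = j :: js' ∧ M.hist js' = h := by
  have key : ∀ a b x y : ℤ, 0 ≤ a → a ≤ M.nJ → 0 ≤ b → b ≤ M.nJ →
      a + (M.nJ + 1) * x = b + (M.nJ + 1) * y → a = b ∧ x = y := fun a b x y h1 h2 h3 h4 h5 => by
    have : x = y := by
      rcases lt_trichotomy x y with h | h | h
      · nlinarith
      · exact h
      · nlinarith
    subst this
    exact ⟨by linarith, rfl⟩
  have hj := j.2
  cases js with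
  | nil =>
    have := (key ((j : ℕ) + 1) 0 h 0 (by omega) (by omega) le_rfl (by omega)
      (by simpa [hist] using hh)).1
    omega
  | cons j' js =>
    have hj' := j'.2
    obtain ⟨h1, h2⟩ := key _ _ _ _ (by omega) (by omega) (by omega) (by omega) hh
    exact ⟨js, by rw [Fin.ext (by omega : (j' : ℕ) = j)], h2.symm⟩

/-- the word of a list of instructions. -/
def insW (b : Bool) (js : List (Fin M.nJ)) : FreeGroup M.Rule :=
  FreeGroup.mk (js.map fun j => (.inr (.inr (b, j)), true))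

theorem piR_insW (b : Bool) (js : List (Fin M.nJ)) : FreeGroup.lift M.piR (insW b js) = 1 := by
  simp [insW, FreeGroup.lift_mk, piR, Function.comp_def]

theorem piR_map_inl (κ : FreeGroup Y) : FreeGroup.lift M.piR (FreeGroup.map .inl κ) = κ := by
  have : (FreeGroup.lift M.piR).comp (FreeGroup.map .inl) = MonoidHom.id _ := by
    ext y; simp [piR]
  exact DFunLike.congr_fun this κ

theorem path_line (e : ℕ) (κ : FreeGroup Y) :
    M.Path0 e (FreeGroup.map .inl κ) (M.c0 (κ, 1) 0 0 0) := by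
  obtain ⟨l, rfl⟩ : ∃ l, κ = FreeGroup.mk l := Quot.inductionOn κ fun l => ⟨l, rfl⟩
  induction l with
  | nil => exact Path0.nil
  | cons x l ih =>
    obtain ⟨y, _ | _⟩ := x
    · have e1 : FreeGroup.mk ((y, false) :: l) = (FreeGroup.of y)⁻¹ * FreeGroup.mk l := rfl
      rw [e1, map_mul, map_inv, FreeGroup.map.of]
      exact ih.bwd _ (step0_wr.2 ⟨_, rfl, by rw [mul_inv_cancel_left]⟩)
    · have e1 : FreeGroup.mk ((y, true) :: l) = FreeGroup.of y * FreeGroup.mk l := rfl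
      rw [e1, map_mul, FreeGroup.map.of]
      exact ih.fwd _ (step0_wr.2 ⟨_, rfl, rfl⟩)

theorem path_run {e : ℕ} (b : Bool) {js q x κ τ} (h : M.Run e js q x κ τ) {f κ₀}
    (hf : M.Path0 e f (M.c0 (κ₀, 1) (2 * (M.q0 : ℕ) + cond b 2 1) 0 (M.regs 0 (M.ini e)))) :
    M.Path0 e (insW b js * f) (M.c0 (cond b 1 κ * κ₀, κ) (2 * (q : ℕ) + cond b 2 1)
      (cond b (-τ) τ) (M.regs (M.hist js) x)) := by
  induction h with
  | nil => cases b <;> simpa [insW, ← FreeGroup.one_eq_mk, hist] using hf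
  | @cons js κ τ j z _ ih =>
    have e1 : insW b (j :: js) = FreeGroup.of (.inr (.inr (b, j))) * insW b js := rfl
    rw [e1, mul_assoc]
    refine ih.fwd _ (step0_ins.2 ⟨_, _, _, _, z, rfl, ?_⟩)
    cases b <;> simp [hist, mul_assoc, add_comm]

theorem Path0.back {e : ℕ} {g : FreeGroup M.Rule} {β : M.V0} (hg : M.Path0 e g β) :
    ∀ {f}, M.Path0 e f β → M.Path0 e (g⁻¹ * f) 1 := by
  induction hg with
  | nil => intro f hf; simpa using hf
  | fwd i _ hs ih => intro f hf; simpa [mul_assoc] using ih (hf.bwd i hs)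
  | bwd i _ hs ih => intro f hf; simpa [mul_assoc] using ih (hf.fwd i hs)

theorem path_fwd {e : ℕ} {js q x κ τ} (h : M.Run e js q x κ τ) :
    M.Path0 e (insW false js * FreeGroup.of (.inr (.inl 0)))
      (M.c0 (κ, κ) (2 * (q : ℕ) + 1) τ (M.regs (M.hist js) x)) := by
  simpa using path_run false h (Path0.nil.fwd _ (step0_start.2 ⟨rfl, rfl⟩))

theorem path_mir {e : ℕ} {js q x κ τ} (h : M.Run e js q x κ τ) (κ₀ : FreeGroup Y) :
    M.Path0 e (insW true js * (FreeGroup.of (.inr (.inl 1)) * FreeGroup.map .inl κ₀))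
      (M.c0 (κ₀, κ) (2 * (q : ℕ) + 2) (-τ) (M.regs (M.hist js) x)) := by
  simpa using path_run true h ((path_line e κ₀).fwd _ (step0_mstart.2 ⟨_, rfl, rfl⟩))

theorem kap_c0 (κ : FreeGroup Y × FreeGroup Y) (s t : ℤ) (x : M.Reg' → ℤ) :
    M.kap (M.cfg (M.c0 κ s t x)) = κ.1 := rfl

theorem st_c0 (κ : FreeGroup Y × FreeGroup Y) (s t : ℤ) (x : M.Reg' → ℤ) :
    M.st (M.cfg (M.c0 κ s t x)) = s := rfl

theorem tau_c0 (κ : FreeGroup Y × FreeGroup Y) (s t : ℤ) (x : M.Reg' → ℤ) :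
    M.tau (M.cfg (M.c0 κ s t x)) = t := rfl

theorem mu0_even {v : M.V1} (h : Even (M.st v)) (i : Bool) : M.mu0 i v = M.kap v :=
  if_pos (Or.inl h)

theorem mu0_odd {v : M.V1} (h : Odd (M.st v)) : M.mu0 false v = 1 :=
  if_neg (by simpa using h)

end aux

theorem mm_eq_zero_iff (hM : M.Good U) (i : M.Rule) (r : M.Reg') : M.mm i r = 0 ↔ M.mm' i r = 0 := by
  rcases i with y | i | ⟨b, j⟩
  · rfl
  · fin_cases i <;> rfl
  · cases r with
    | none => simp [mm, mm']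
    | some r => exact hM.zero_iff j r

theorem mu_conj (hM : M.Good U) (i : M.Rule) (k : FreeGroup Y × FreeGroup Y) (t : ℤ)
    (z : M.Reg' → ℤ) : M.mu i * M.cfg (M.c0 k 0 t fun r => M.mm i r * z r) * (M.mu i)⁻¹ =
      M.cfg (M.c0 k 0 t fun r => M.mm' i r * z r) := by
  refine Prod.ext (by simp [mu, cfg, c0]) (Prod.ext (by simp [mu, cfg, c0])
    (Prod.ext (by simp [mu, cfg, c0]) (funext fun r => Aff.ext ?_ ?_)))
  · simp only [mu, cfg, c0]
    by_cases h : M.mm i r = 0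
    · simp [h, (mm_eq_zero_iff hM i r).1 h]
    · have h' := mt (mm_eq_zero_iff hM i r).2 h
      simp [h, h']
      field_simp
  · simp [mu, cfg, c0]

theorem run_inv (hM : M.Good U) {e : ℕ} {js q x κ τ} (h : M.Run e js q x κ τ) {j : Fin M.nJ} {w : ℤ}
    {z : Fin M.nK → ℤ} (hh : ((j : ℕ) + 1) + (M.nJ + 1) * w = M.hist js)
    (hx : (fun r => M.d j r + M.m' j r * z r) = x) : ∃ js' κ' τ',
      M.Run e js' (M.src j) (fun r => M.a j r + M.m j r * z r) κ' τ' ∧ M.hist js' = w ∧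
        κ = M.lab j * κ' ∧ τ = τ' + M.δ j := by
  obtain ⟨js', rfl, h2⟩ := hist_eq hh
  cases h with
  | @cons _ κ' τ' _ z' h =>
    refine ⟨js', κ', τ', ?_, h2, rfl, rfl⟩
    convert h using 2 with r
    have := congrFun hx r
    by_cases h0 : M.m j r = 0
    · simp [h0]
    · have h1 := mt (hM.zero_iff j r).2 h0
      simp only [add_right_inj, mul_eq_mul_left_iff, Nat.cast_eq_zero, h1, or_false] at this
      rw [this]

/-- the three shapes of reachable configurations. -/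
def Shape (M : GM Y) (e : ℕ) (α : M.V0) : Prop :=
  (∃ κ, α = M.c0 (κ, 1) 0 0 0) ∨
    (∃ js q x κ τ, M.Run e js q x κ τ ∧
      α = M.c0 (κ, κ) (2 * (q : ℕ) + 1) τ (M.regs (M.hist js) x)) ∨
    (∃ js q x κ τ κ₀, M.Run e js q x κ τ ∧
      α = M.c0 (κ₀, κ) (2 * (q : ℕ) + 2) (-τ) (M.regs (M.hist js) x))

omit [DecidableEq Y] in
theorem shape_fwd {e : ℕ} {κ₀ κ : FreeGroup Y} {q : Fin M.nQ} {t : ℤ} {z : M.Reg' → ℤ} :
    M.Shape e (M.c0 (κ₀, κ) (2 * (q : ℕ) + 1) t z) ↔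
      κ₀ = κ ∧ ∃ js x, M.Run e js q x κ t ∧ z = M.regs (M.hist js) x := by
  constructor
  · rintro (⟨κ', h⟩ | ⟨js, q', x, κ', τ, hr, h⟩ | ⟨js, q', x, κ', τ, κ₁, hr, h⟩) <;>
      simp only [c0_inj, Prod.mk.injEq] at h
    · omega
    · obtain ⟨⟨rfl, rfl⟩, h1, rfl, rfl⟩ := h
      obtain rfl : q = q' := Fin.ext (by omega)
      exact ⟨rfl, js, x, hr, rfl⟩
    · omega
  · rintro ⟨rfl, js, x, hr, rfl⟩
    exact Or.inr (Or.inl ⟨js, q, x, _, _, hr, rfl⟩)

omit [DecidableEq Y] in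
theorem shape_mir {e : ℕ} {κ₀ κ : FreeGroup Y} {q : Fin M.nQ} {t : ℤ} {z : M.Reg' → ℤ} :
    M.Shape e (M.c0 (κ₀, κ) (2 * (q : ℕ) + 2) t z) ↔
      ∃ js x, M.Run e js q x κ (-t) ∧ z = M.regs (M.hist js) x := by
  constructor
  · rintro (⟨κ', h⟩ | ⟨js, q', x, κ', τ, hr, h⟩ | ⟨js, q', x, κ', τ, κ₁, hr, h⟩) <;>
      simp only [c0_inj, Prod.mk.injEq] at h
    · omega
    · omega
    · obtain ⟨⟨rfl, rfl⟩, h1, rfl, rfl⟩ := h
      obtain rfl : q = q' := Fin.ext (by omega)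
      exact ⟨js, x, by rwa [neg_neg], rfl⟩
  · rintro ⟨js, x, hr, rfl⟩
    exact Or.inr (Or.inr ⟨js, q, x, _, _, κ₀, hr, by rw [neg_neg]⟩)

theorem shape_step (hM : M.Good U) {e : ℕ} {i : M.Rule} {α β : M.V0} (h : M.Step0 e i α β) :
    M.Shape e α ↔ M.Shape e β := by
  rcases i with y | i | ⟨_ | _, j⟩
  · obtain ⟨κ, rfl, rfl⟩ := step0_wr.1 h
    exact iff_of_true (Or.inl ⟨_, rfl⟩) (Or.inl ⟨_, rfl⟩)
  · fin_cases i
    · obtain ⟨rfl, rfl⟩ := step0_start.1 h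
      exact iff_of_true (Or.inl ⟨_, rfl⟩) (shape_fwd.2 ⟨rfl, [], _, .nil, rfl⟩)
    · obtain ⟨κ, rfl, rfl⟩ := step0_mstart.1 h
      exact iff_of_true (Or.inl ⟨_, rfl⟩) (shape_mir.2 ⟨[], _, .nil, rfl⟩)
    · obtain ⟨κ, z, rfl, rfl⟩ := step0_switch.1 h
      simp [shape_fwd, shape_mir]
  · obtain ⟨κ₀, κ, t, w, z, rfl, rfl⟩ := step0_ins.1 h
    simp only [cond_false, shape_fwd, regs_inj]
    constructor
    · rintro ⟨rfl, js, x, hr, rfl, rfl⟩
      exact ⟨rfl, j :: js, _, add_comm t _ ▸ hr.cons j z, rfl, rfl⟩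
    · rintro ⟨h0, js, x, hr, h1, h2⟩
      obtain ⟨js', κ', τ', a1, a2, a3, a4⟩ := run_inv hM hr h1 h2
      obtain rfl := mul_left_cancel a3
      obtain rfl : t = τ' := by omega
      exact ⟨mul_left_cancel h0, js', _, a1, a2.symm, rfl⟩
  · obtain ⟨κ₀, κ, t, w, z, rfl, rfl⟩ := step0_ins.1 h
    simp only [cond_true, shape_mir, regs_inj]
    constructor
    · rintro ⟨js, x, hr, rfl, rfl⟩
      exact ⟨j :: js, _, by convert hr.cons j z using 1; ring, rfl, rfl⟩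
    · rintro ⟨js, x, hr, h1, h2⟩
      obtain ⟨js', κ', τ', a1, a2, a3, a4⟩ := run_inv hM hr h1 h2
      obtain rfl := mul_left_cancel a3
      obtain rfl : τ' = -t := by omega
      exact ⟨js', _, a1, a2.symm, rfl⟩

theorem step_iff (hM : M.Good U) (e : ℕ) (i : M.Rule) (v v' : M.V1) :
    (M.rs e).Step (i, true) v v' ↔ ∃ α β, M.Step0 e i α β ∧ v = M.cfg α ∧ v' = M.cfg β := by
  refine ((M.rs e).step_pos i v v').trans ?_
  change M.mu i * ((M.cfg (M.a0 i))⁻¹ * v) * (M.mu i)⁻¹ ∈ M.UU i ∧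
    v' = M.cfg (M.d0 e i) * (M.mu i * ((M.cfg (M.a0 i))⁻¹ * v) * (M.mu i)⁻¹) ↔ _
  constructor
  · rintro ⟨⟨h1, h2, h3, h4⟩, h5⟩
    choose h6 z hz using h4
    generalize hw : M.mu i * ((M.cfg (M.a0 i))⁻¹ * v) * (M.mu i)⁻¹ = w at *
    have e1 : w = M.cfg (M.c0 w.1 0 w.2.2.1.toAdd fun r => M.mm' i r * z r) :=
      Prod.ext rfl (Prod.ext h2 (Prod.ext rfl (funext fun r =>
        Aff.ext ((hz r).trans (Int.cast_mul (M.mm' i r) (z r)).symm) (h6 r))))
    refine ⟨_, _, ⟨w.1, h1, w.2.2.1.toAdd, fun h => by rw [h3 h]; rfl, z, rfl, rfl⟩, ?_, ?_⟩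
    · rw [e1, ← mu_conj hM] at hw
      rw [map_mul]
      exact inv_mul_eq_iff_eq_mul.1 (mul_left_cancel (mul_right_cancel hw))
    · rw [h5, map_mul, ← e1]
  · rintro ⟨α, β, ⟨k, hk, t, ht, z, rfl, rfl⟩, rfl, rfl⟩
    rw [map_mul, inv_mul_cancel_left, mu_conj hM]
    exact ⟨⟨hk, rfl, fun h => by rw [ht h]; rfl, fun r => ⟨rfl, z r, Int.cast_mul (M.mm' i r) (z r)⟩⟩,
      map_mul _ _ _⟩

omit [DecidableEq Y] in
theorem cfg_inj : Function.Injective M.cfg := by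
  rintro ⟨a, b, c, x⟩ ⟨a', b', c', x'⟩ h
  simpa [cfg, funext_iff] using h

theorem path_ρ (hM : M.Good U) {e : ℕ} {f : FreeGroup M.Rule} {α : M.V0} (h : M.Path0 e f α) :
    (M.rs e).ρ f = (SemidirectProduct.inr (M.cfg α) : (M.rs e).B) * (M.rs e).ℓ f := by
  induction h with
  | nil => rw [map_one, map_one, map_one, mul_one]; exact (map_one _).symm
  | fwd i _ hs ih =>
    have := (step_iff hM e i _ _).2 ⟨_, _, hs, rfl, rfl⟩
    rw [map_mul, map_mul, ih, ← mul_assoc, ← mul_assoc]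
    exact congrArg (· * _) this
  | bwd i _ hs ih =>
    have := (step_iff hM e i _ _).2 ⟨_, _, hs, rfl, rfl⟩
    rw [map_mul, map_mul, ih, ← mul_assoc, ← mul_assoc, map_inv, map_inv]
    refine congrArg (· * _) ?_
    rw [inv_mul_eq_iff_eq_mul, ← mul_assoc, eq_mul_inv_iff_mul_eq]
    exact this.symm

theorem comp_shape (hM : M.Good U) (e : ℕ) (v : M.V1) (hv : v ∈ (M.rs e).Comp) :
    ∃ α, v = M.cfg α ∧ M.Shape e α := by
  refine (M.rs e).comp_ind (P := fun v => ∃ α, v = M.cfg α ∧ M.Shape e α)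
    ⟨1, (map_one _).symm, Or.inl ⟨1, rfl⟩⟩ ?_ v hv
  rintro ⟨i, _ | _⟩ v v' - ⟨γ, rfl, hγ⟩ hs
  · obtain ⟨α, β, h, rfl, h2⟩ := (step_iff hM e i _ _).1 (((M.rs e).step_neg _ _ _).1 hs)
    exact ⟨α, rfl, (shape_step hM h).2 (cfg_inj h2 ▸ hγ)⟩
  · obtain ⟨α, β, h, h2, rfl⟩ := (step_iff hM e i _ _).1 hs
    exact ⟨β, rfl, (shape_step hM h).1 (cfg_inj h2 ▸ hγ)⟩

theorem comp_char (hM : M.Good U) (e : ℕ) (v : M.V1) (hv : v ∈ (M.rs e).Comp) :
    (∃ κ, v = M.cfg (M.c0 (κ, 1) 0 0 0)) ∨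
    (∃ js q x κ τ, M.Run e js q x κ τ ∧
      v = M.cfg (M.c0 (κ, κ) (2 * (q : ℕ) + 1) τ (M.regs (M.hist js) x))) ∨
    (∃ js q x κ τ κ₀, M.Run e js q x κ τ ∧
      v = M.cfg (M.c0 (κ₀, κ) (2 * (q : ℕ) + 2) (-τ) (M.regs (M.hist js) x))) := by
  obtain ⟨α, rfl, h⟩ := comp_shape hM e v hv
  simpa only [cfg_inj.eq_iff, Shape] using h

theorem norm_map_le' {A B : Type} [DecidableEq A] [DecidableEq B] (φ : A → B) (g : FreeGroup A) :
    (FreeGroup.map φ g).norm ≤ g.norm := by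
  conv_lhs => rw [← FreeGroup.mk_toWord (x := g), FreeGroup.map.mk]
  exact FreeGroup.norm_mk_le.trans (List.length_map _).le

theorem norm_insW (b : Bool) (js : List (Fin M.nJ)) : (insW b js).norm ≤ js.length :=
  FreeGroup.norm_mk_le.trans (List.length_map _).le

theorem comp_bound (hM : M.Good U) (e : ℕ) (v : M.V1) (hv : v ∈ (M.rs e).Comp) :
    ∃ f, (M.rs e).ρ f = (SemidirectProduct.inr v : (M.rs e).B) * (M.rs e).ℓ f ∧
      f.norm ≤ (M.kap v).norm + (v.2.2.2 none).s.num.natAbs + 1 := by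
  have k : ∀ js x κ s t, js.length ≤
      ((M.cfg (M.c0 κ s t (M.regs (M.hist js) x))).2.2.2 none).s.num.natAbs := fun js x κ s t => by
    have := length_le_hist js
    simp only [cfg, c0, regs, MonoidHom.coe_mk, OneHom.coe_mk, Option.elim, toAdd_ofAdd,
      Rat.num_intCast]
    omega
  rcases comp_char hM e v hv with ⟨κ, rfl⟩ | ⟨js, q, x, κ, τ, h, rfl⟩ | ⟨js, q, x, κ, τ, κ₀, h, rfl⟩
  · refine ⟨_, path_ρ hM (path_line e κ), ?_⟩
    have := norm_map_le' (Sum.inl : Y → M.Rule) κ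
    rw [kap_c0]; dsimp only; omega
  · refine ⟨_, path_ρ hM (path_fwd h), (FreeGroup.norm_mul_le _ _).trans ?_⟩
    have := (norm_insW false js).trans (k js x (κ, κ) (2 * (q : ℕ) + 1) τ)
    rw [FreeGroup.norm_of]; omega
  · refine ⟨_, path_ρ hM (path_mir h κ₀), (FreeGroup.norm_mul_le _ _).trans ?_⟩
    have := (norm_insW true js).trans (k js x (κ₀, κ) (2 * (q : ℕ) + 2) (-τ))
    have h1 := norm_map_le' (Sum.inl : Y → M.Rule) κ₀
    have h2 := FreeGroup.norm_mul_le (FreeGroup.of (.inr (.inl 1) : M.Rule)) (FreeGroup.map .inl κ₀)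
    rw [FreeGroup.norm_of] at h2
    rw [kap_c0]; dsimp only; omega

theorem step_val (hM : M.Good U) (e : ℕ) (i : M.Rule) (v v' : M.V1) (hv : v ∈ (M.rs e).Comp)
    (h : (M.rs e).Step (i, true) v v') :
    (M.piR i)⁻¹ * M.mu0 false v' = M.mu0 false v ∨
      (M.piR i = 1 ∧ M.mu0 false v = 1 ∧ M.mu0 false v' = M.kap v ∧ M.kap v' = M.kap v ∧
        M.kap v ∈ relSet U e) := by
  obtain ⟨α, β, hs, rfl, rfl⟩ := (step_iff hM e i _ _).1 h
  rcases i with y | i | ⟨_ | _, j⟩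
  · obtain ⟨κ, rfl, rfl⟩ := step0_wr.1 hs
    left
    rw [mu0_even (by simp [st_c0]), mu0_even (by simp [st_c0]), kap_c0, kap_c0]
    exact inv_mul_cancel_left _ _
  · fin_cases i
    · obtain ⟨rfl, rfl⟩ := step0_start.1 hs
      left
      rw [mu0_odd (by simp [st_c0]), mu0_even (by simp [st_c0]), kap_c0]
      simp [piR]
    · obtain ⟨κ, rfl, rfl⟩ := step0_mstart.1 hs
      left
      rw [mu0_even (by simp [st_c0]), mu0_even (by simp [st_c0]), kap_c0, kap_c0]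
      simp [piR]
    · obtain ⟨κ, z, rfl, rfl⟩ := step0_switch.1 hs
      obtain ⟨γ, h1, h2⟩ := comp_shape hM e _ hv
      rw [← cfg_inj h1] at h2
      obtain ⟨-, js, x, hr, -⟩ := shape_fwd.1 h2
      exact Or.inr ⟨rfl, mu0_odd (by simp [st_c0]), mu0_even (by simp [st_c0]) _, rfl,
        (hM.inv _ _ _ _ _ _ hr).2.2 hM.post_qf⟩
  · obtain ⟨κ₀, κ, t, w, z, rfl, rfl⟩ := step0_ins.1 hs
    left
    rw [mu0_odd (by simp [st_c0]), mu0_odd (by simp [st_c0])]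
    simp [piR]
  · obtain ⟨κ₀, κ, t, w, z, rfl, rfl⟩ := step0_ins.1 hs
    left
    rw [mu0_even (by simp [st_c0]), mu0_even (by simp [st_c0]), kap_c0, kap_c0]
    simp [piR]

theorem comp_type (hM : M.Good U) (e : ℕ) (v : M.V1) (hv : v ∈ (M.rs e).Comp) :
    (Even (M.st v) ∧ M.tau v ≤ 0 ∧ ∀ i, M.mu0 i v = M.kap v) ∨
    (Odd (M.st v) ∧ M.mu0 false v = 1 ∧ M.mu0 true v = M.kap v ∧ M.kap v ∈ relSet U e) ∨
    (Odd (M.st v) ∧ (∀ i, M.mu0 i v = 1) ∧ ((M.kap v).norm : ℤ) ≤ M.tau v) := by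
  rcases comp_char hM e v hv with ⟨κ, rfl⟩ | ⟨js, q, x, κ, τ, h, rfl⟩ | ⟨js, q, x, κ, τ, κ₀, h, rfl⟩
  · exact Or.inl ⟨by simp [st_c0], le_rfl, mu0_even (by simp [st_c0])⟩
  · have ho : Odd (M.st (M.cfg (M.c0 (κ, κ) (2 * (q : ℕ) + 1) τ (M.regs (M.hist js) x)))) := by
      simp [st_c0]
    obtain ⟨-, h1, h2⟩ := hM.inv _ _ _ _ _ _ h
    cases hq : M.post q
    · refine Or.inr (Or.inr ⟨ho, fun i => if_neg ?_, h1 hq⟩)
      rintro (h3 | ⟨-, q', h3, h4⟩)
      · exact Int.not_odd_iff_even.2 h3 ho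
      · rw [st_c0] at h4
        obtain rfl : q = q' := Fin.ext (by omega)
        simp [hq] at h3
    · exact Or.inr (Or.inl ⟨ho, mu0_odd ho, if_pos (Or.inr ⟨rfl, q, hq, rfl⟩), h2 hq⟩)
  · exact Or.inl ⟨by simp [st_c0], neg_nonpos.2 (hM.inv _ _ _ _ _ _ h).1,
      mu0_even (by simp [st_c0])⟩

theorem loop (hM : M.Good U) (e : ℕ) (u : FreeGroup Y) (hu : u ∈ relSet U e) :
    ∃ f, M.Path0 e f 1 ∧ FreeGroup.lift M.piR f = u := by
  obtain ⟨js, x, h⟩ := hM.complete e u hu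
  refine ⟨_, ((path_fwd h).fwd _ (step0_switch.2 ⟨_, _, rfl, rfl⟩)).back (path_mir h u), ?_⟩
  simp [piR_insW, piR_map_inl, piR]

theorem val_vw (e : ℕ) (α : M.V0) :
    (M.mi e).val (M.vw α) = SemidirectProduct.inr (M.cfg α) := by
  obtain ⟨⟨κ, κ'⟩, s, t, x⟩ := α
  let φ : M.V0 →* (M.mi e).B := SemidirectProduct.inr.comp M.cfg
  have e1 : (M.mi e).val.comp (FreeGroup.map .inl) = φ.comp ((MonoidHom.inl _ _).comp
      (MonoidHom.inl _ _)) := FreeGroup.ext_hom _ _ fun y => by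
    simp only [MonoidHom.comp_apply, FreeGroup.map.of, MI.val, FreeGroup.lift_apply_of]
    exact one_mul _
  have e2 : (M.mi e).val.comp (FreeGroup.map fun y => .inr (.inl y)) = φ.comp
      ((MonoidHom.inl _ _).comp (MonoidHom.inr _ _)) := FreeGroup.ext_hom _ _ fun y => by
    simp only [MonoidHom.comp_apply, FreeGroup.map.of, MI.val, FreeGroup.lift_apply_of]
    exact one_mul _
  have e3 : ∀ b, (M.mi e).val (FreeGroup.of (.inr (.inr (.inl b)))) =
      φ (M.c0 1 (cond b 0 1) (cond b 1 0) 0) := fun b => by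
    simp only [MI.val, FreeGroup.lift_apply_of]
    exact one_mul _
  have e4 : ∀ r, (M.mi e).val (FreeGroup.of (.inr (.inr (.inr (.inl r))))) =
      φ (M.c0 1 0 0 (Pi.single r 1)) := fun r => by
    simp only [MI.val, FreeGroup.lift_apply_of]
    exact one_mul _
  let ψ : (M.Reg' → Multiplicative ℤ) →* M.V0 :=
    (MonoidHom.inr _ _).comp ((MonoidHom.inr _ _).comp (MonoidHom.inr _ _))
  have e5 : (M.mi e).val ((Finset.univ : Finset M.Reg').toList.map fun r =>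
      FreeGroup.of (.inr (.inr (.inr (.inl r))) : M.ZB) ^ (x r).toAdd).prod = φ (ψ x) := by
    conv_rhs => rw [← Finset.univ_prod_mulSingle x, ← Finset.prod_map_toList, map_list_prod,
      map_list_prod]
    rw [map_list_prod, List.map_map, List.map_map, List.map_map]
    refine congrArg _ (List.map_congr_left fun r _ => ?_)
    simp only [Function.comp_apply, map_zpow, e4]
    rw [← map_zpow]
    congr 1
    refine Prod.ext (by simp [c0, ψ]) (Prod.ext (by simp [c0, ψ]) (Prod.ext (by simp [c0, ψ])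
      (funext fun r' => ?_)))
    by_cases h : r' = r
    · subst h; simp [c0, ψ, ← ofAdd_zsmul]
    · simp [c0, ψ, h]
  have e6 := DFunLike.congr_fun e1 κ
  have e7 := DFunLike.congr_fun e2 κ'
  simp only [MonoidHom.comp_apply] at e6 e7
  simp only [vw, map_mul, map_zpow, e3, e5, e6, e7]
  simp only [← map_zpow, ← map_mul]
  refine congrArg φ ?_
  simp [c0, ψ, ← ofAdd_zsmul, Prod.ext_iff, funext_iff]

theorem val_lz (e : ℕ) (i : M.Rule) : (M.mi e).b (M.lz i) = (M.rs e).ell i := rfl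

theorem val_rhow (e : ℕ) (i : M.Rule) : (M.mi e).val (M.rhow e i) = (M.rs e).rho i := by
  rw [rhow, map_mul, map_mul, map_inv, val_vw, val_vw, MI.val, FreeGroup.lift_apply_of]
  rfl

end Crest.Agent.R185.GM
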