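import Crest.Agent.R185.MachInv
import Crest.Agent.R185.FPres

/-!
# Row 185: finite presentation data of the machine interface (task R185-MachPres)

PLAN.  `I = Rule`, `ρ = rhow e`, `l = lz`.  `Rel` = (a) commutators of the configuration letters of different kinds (`κ_y` with `κ''_y'`; state, clock, register letters with all configuration letters), so that
`ν : V0 → E = F(ZB)/⟨⟨Rel⟩⟩`, `α ↦ [vw α]` is a homomorphism; (b) `lz i * vw (src u) * (lz i)⁻¹ * (vw (tgt u))⁻¹` for the finitely many generators `u` of the parameter group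
`kind i × (clock if tfree) × (Reg' → ℤ)`, where `src (k,t,z) = c0 k 0 t (mm * z)`, `tgt = c0 k 0 t (mm' * z)` are homomorphisms; so it holds for all `u`.  (A slick way: `V0` is finitely presented / the set of all such relators is in the normal
closure of finitely many; or take for `Rel` any finite set whose normal closure contains these.)  All are trivial in `B` (`val_vw`, `step_iff` or direct computation: `ω_i` commutes with `UU i`).
Then `Step0 i α β` gives `ρ_i ν α = ν β ℓ_i` in `E`, `Path0 f α` gives `lift ρ f = ν α * map l f`; finish with `loop`, `ret_ℓ`.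
-/

set_option autoImplicit false

namespace Crest.Agent.R185.GM

open Monoid Monoid.Coprod

/-- The kernel of a surjection from a f.g. free group onto a finitely presented group is finitely
normally generated. -/
theorem ker_fng {X G : Type} [Finite X] [Group G] (hG : Group.IsFinitelyPresented G)
    (π : FreeGroup X →* G) (hπ : Function.Surjective π) : π.ker.IsFinitelyNormallyGenerated := by
  obtain ⟨n, φ, hφ, R, hR, hRφ⟩ := hG.out
  choose y hy using fun i => hπ (φ (FreeGroup.of i))
  choose w hw using fun x => hφ (π (FreeGroup.of x))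
  let σ : FreeGroup (Fin n) →* FreeGroup X := FreeGroup.lift y
  have hσ : ∀ u, π (σ u) = φ u := fun u =>
    DFunLike.congr_fun (show π.comp σ = φ by ext i; simp [σ, hy]) u
  let S : Set (FreeGroup X) := σ '' R ∪ Set.range fun x => (FreeGroup.of x)⁻¹ * σ (w x)
  refine ⟨S, (hR.image _).union (Set.finite_range _),
    le_antisymm (Subgroup.normalClosure_le_normal ?_) fun f hf => ?_⟩
  · rintro _ (⟨r, hr, rfl⟩ | ⟨x, rfl⟩)
    · have : r ∈ φ.ker := hRφ ▸ Subgroup.subset_normalClosure hr
      simpa [hσ] using this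
    · simp [hσ, hw]
  · let q := QuotientGroup.mk' (Subgroup.normalClosure S)
    have h1 : q = q.comp (σ.comp (FreeGroup.lift w)) := by
      ext x
      simp only [MonoidHom.comp_apply, FreeGroup.lift_apply_of]
      exact QuotientGroup.eq.2 (Subgroup.subset_normalClosure (Or.inr ⟨x, rfl⟩))
    have h2 : φ.comp (FreeGroup.lift w) = π := by ext x; simp [hw]
    have h3 : FreeGroup.lift w f ∈ Subgroup.normalClosure R := by
      rw [hRφ, MonoidHom.mem_ker, ← MonoidHom.comp_apply, h2]; exact hf
    have h4 : Subgroup.normalClosure R ≤ (q.comp σ).ker :=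
      Subgroup.normalClosure_le_normal fun r hr =>
        (QuotientGroup.eq_one_iff _).2 (Subgroup.subset_normalClosure (Or.inl ⟨r, hr, rfl⟩))
    rw [← QuotientGroup.eq_one_iff]
    exact (DFunLike.congr_fun h1 f).trans (h4 h3)

variable {Y : Type} (M : GM Y)

/-- The letters in `V0 ∗ F(Rule)`. -/
def piLet : M.ZB → Coprod M.V0 (FreeGroup M.Rule)
  | .inr (.inr (.inr (.inr i))) => inr (FreeGroup.of i)
  | z => inl (M.gen0 z)

def piE : FreeGroup M.ZB →* Coprod M.V0 (FreeGroup M.Rule) := FreeGroup.lift M.piLet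

theorem piE_vw (α : M.V0) : M.piE (M.vw α) = inl α := by
  obtain ⟨⟨a, b⟩, s, t, x⟩ := α
  have h1 : M.piE (FreeGroup.map .inl a) = inl (((a, 1), 1, 1, 1) : M.V0) :=
    DFunLike.congr_fun (show M.piE.comp (FreeGroup.map .inl) =
      inl.comp ((MonoidHom.inl _ _).comp (MonoidHom.inl _ _)) by
        refine FreeGroup.ext_hom _ _ fun y => ?_
        simp only [MonoidHom.comp_apply, FreeGroup.map.of, piE, FreeGroup.lift_apply_of]
        rfl) a
  have h2 : M.piE (FreeGroup.map (fun y => .inr (.inl y)) b) = inl (((1, b), 1, 1, 1) : M.V0) :=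
    DFunLike.congr_fun (show M.piE.comp (FreeGroup.map fun y => .inr (.inl y)) =
      inl.comp ((MonoidHom.inl _ _).comp (MonoidHom.inr _ _)) by
        refine FreeGroup.ext_hom _ _ fun y => ?_
        simp only [MonoidHom.comp_apply, FreeGroup.map.of, piE, FreeGroup.lift_apply_of]
        rfl) b
  have h3 : M.piE (FreeGroup.of (.inr (.inr (.inl false))) ^ s.toAdd) =
      inl ((1, s, 1, 1) : M.V0) := by
    rw [map_zpow, piE, FreeGroup.lift_apply_of, piLet, ← map_zpow]
    · congr 1
      ext <;> simp [gen0, c0, ← ofAdd_zsmul]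
    · simp
  have h4 : M.piE (FreeGroup.of (.inr (.inr (.inl true))) ^ t.toAdd) =
      inl ((1, 1, t, 1) : M.V0) := by
    rw [map_zpow, piE, FreeGroup.lift_apply_of, piLet, ← map_zpow]
    · congr 1
      ext <;> simp [gen0, c0, ← ofAdd_zsmul]
    · simp
  have h5 : M.piE ((Finset.univ : Finset M.Reg').toList.map fun r =>
      FreeGroup.of (.inr (.inr (.inr (.inl r))) : M.ZB) ^ (x r).toAdd).prod =
      inl ((1, 1, 1, x) : M.V0) := by
    let j : (M.Reg' → Multiplicative ℤ) →* Coprod M.V0 (FreeGroup M.Rule) :=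
      inl.comp ((MonoidHom.inr _ _).comp ((MonoidHom.inr _ _).comp (MonoidHom.inr _ _)))
    have h6 : ∀ r, M.piE (FreeGroup.of (.inr (.inr (.inr (.inl r))) : M.ZB) ^ (x r).toAdd) =
        j (Pi.mulSingle r (x r)) := by
      intro r
      rw [map_zpow, piE, FreeGroup.lift_apply_of, piLet, ← map_zpow]
      · change inl _ = inl ((1, 1, 1, Pi.mulSingle r (x r)) : M.V0)
        congr 1
        refine Prod.ext (by simp [gen0, c0]) (Prod.ext (by simp [gen0, c0])
          (Prod.ext (by simp [gen0, c0]) (funext fun r' => ?_)))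
        by_cases h : r' = r
        · subst h; simp [gen0, c0, ← ofAdd_zsmul]
        · simp [gen0, c0, h]
      · simp
    rw [map_list_prod, List.map_map]
    have h7 : (M.piE ∘ fun r => FreeGroup.of (.inr (.inr (.inr (.inl r))) : M.ZB) ^ (x r).toAdd) =
        j ∘ fun r => Pi.mulSingle r (x r) := funext h6
    rw [h7, ← List.map_map, ← map_list_prod, Finset.prod_map_toList, Finset.univ_prod_mulSingle]
    rfl
  simp only [vw, map_mul, h1, h2, h3, h4, h5]
  rw [← map_mul, ← map_mul, ← map_mul, ← map_mul]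
  simp

theorem piE_lz (f : FreeGroup M.Rule) : M.piE (FreeGroup.map M.lz f) = inr f :=
  DFunLike.congr_fun (show M.piE.comp (FreeGroup.map M.lz) = inr by
    ext i; simp [piE, lz, piLet]) f

theorem piE_surj : Function.Surjective M.piE := by
  intro x
  induction x using Coprod.induction_on with
  | inl α => exact ⟨_, M.piE_vw α⟩
  | inr f => exact ⟨_, M.piE_lz f⟩
  | mul x y hx hy =>
    obtain ⟨a, rfl⟩ := hx
    obtain ⟨b, rfl⟩ := hy
    exact ⟨a * b, map_mul _ _ _⟩

theorem kind_range (i : M.Rule) :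
    ∃ κ : FreeGroup Y × FreeGroup Y →* FreeGroup Y × FreeGroup Y, κ.range = M.kind i := by
  have h1 : ((MonoidHom.inl (FreeGroup Y) (FreeGroup Y)).comp (MonoidHom.fst _ (FreeGroup Y))).range
      = (⊤ : Subgroup _).prod ⊥ := by
    ext ⟨a, b⟩
    simp [Subgroup.mem_prod, Prod.ext_iff, eq_comm]
  rcases i with y | i | i
  · exact ⟨_, h1⟩
  · fin_cases i
    · exact ⟨1, by ext; simp [kind, eq_comm]⟩
    · exact ⟨_, h1⟩
    · refine ⟨(MonoidHom.fst _ _).prod (MonoidHom.fst _ _), ?_⟩
      ext ⟨a, b⟩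
      change _ ↔ a = b
      simp only [MonoidHom.mem_range, MonoidHom.prod_apply, MonoidHom.coe_fst, Prod.mk.injEq,
        Prod.exists]
      constructor
      · rintro ⟨c, -, rfl, rfl⟩; rfl
      · rintro rfl; exact ⟨a, a, rfl, rfl⟩
  · exact ⟨MonoidHom.id _, by ext; simp [kind]⟩

/-- The parameter group. -/
abbrev PP : Type := (FreeGroup Y × FreeGroup Y) × Multiplicative ℤ × (M.Reg' → Multiplicative ℤ)

def parHom (κ : FreeGroup Y × FreeGroup Y →* FreeGroup Y × FreeGroup Y) (b : Bool)
    (m : M.Reg' → ℕ) : M.PP →* M.V0 where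
  toFun u := M.c0 (κ u.1) 0 (cond b u.2.1.toAdd 0) fun r => m r * (u.2.2 r).toAdd
  map_one' := by cases b <;> ext <;> simp [c0]
  map_mul' u v := by cases b <;> ext <;> simp [c0, mul_add, ofAdd_add]

theorem fp_V0 [Finite Y] : Group.IsFinitelyPresented M.V0 :=
  fpres_prod (fpres_prod inferInstance inferInstance) (fpres_prod inferInstance
    (fpres_prod inferInstance (fpres_pi fun _ => inferInstance)))

theorem fg_PP [Finite Y] : Group.FG M.PP :=
  fpres_fg (fpres_prod (fpres_prod inferInstance inferInstance)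
    (fpres_prod inferInstance (fpres_pi fun _ => inferInstance)))

def inC (e : ℕ) : M.V0 →* (M.rs e).B :=
  (SemidirectProduct.inr : (M.rs e).V →* (M.rs e).B).comp M.cfg

theorem step_conj [DecidableEq Y] {U : ℕ × Word Y → Prop} (hM : M.Good U) (e : ℕ) (i : M.Rule)
    (α β : M.V0) (h : M.Step0 e i (M.a0 i * α) (M.d0 e i * β)) :
    (M.rs e).ell i * M.inC e α * ((M.rs e).ell i)⁻¹ * (M.inC e β)⁻¹ = 1 := by
  have h0 := (step_iff hM e i _ _).2 ⟨_, _, h, rfl, rfl⟩
  have h1 : (M.rs e).ρ (FreeGroup.mk [(i, true)]) = (M.rs e).rho i := FreeGroup.lift_apply_of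
  have h2 : (M.rs e).ℓ (FreeGroup.mk [(i, true)]) = (M.rs e).ell i := FreeGroup.lift_apply_of
  rw [RS.Step, h1, h2] at h0
  have h3 : M.inC e (M.d0 e i) * (M.rs e).ell i * (M.inC e (M.a0 i))⁻¹ * M.inC e (M.a0 i * α) =
      M.inC e (M.d0 e i * β) * (M.rs e).ell i := h0
  rw [map_mul, map_mul, mul_assoc, inv_mul_cancel_left, mul_assoc, mul_assoc, mul_right_inj] at h3
  rw [h3]; simp

theorem mi_pres {Y : Type} [DecidableEq Y] [Finite Y] {M : GM Y} {U : ℕ × Word Y → Prop}
    (hM : M.Good U) (e : ℕ) : (M.mi e).Pres (relSet U e) := by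
  choose κ hκ using M.kind_range
  obtain ⟨X, hX, hXf⟩ := Group.fg_iff.1 M.fg_PP
  let src : M.Rule → M.PP →* M.V0 := fun i => M.parHom (κ i) (M.tfree i) (M.mm i)
  let tgt : M.Rule → M.PP →* M.V0 := fun i => M.parHom (κ i) (M.tfree i) (M.mm' i)
  have hstep : ∀ i α β, M.Step0 e i α β ↔ ∃ u, α = M.a0 i * src i u ∧ β = M.d0 e i * tgt i u := by
    intro i α β
    constructor
    · rintro ⟨k, hk, t, ht, z, rfl, rfl⟩
      rw [← hκ] at hk
      obtain ⟨k, rfl⟩ := hk
      have : cond (M.tfree i) t 0 = t := by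
        cases h : M.tfree i
        · exact (ht h).symm
        · rfl
      refine ⟨(k, Multiplicative.ofAdd t, fun r => Multiplicative.ofAdd (z r)), ?_, ?_⟩
      · simp [src, parHom, this]
      · simp [tgt, parHom, this]
    · rintro ⟨u, rfl, rfl⟩
      exact ⟨κ i u.1, hκ i ▸ ⟨_, rfl⟩, cond (M.tfree i) u.2.1.toAdd 0, fun h => by simp [h],
        fun r => (u.2.2 r).toAdd, rfl, rfl⟩
  let S : Set (Coprod M.V0 (FreeGroup M.Rule)) :=
    (fun p : M.Rule × M.PP => inr (FreeGroup.of p.1) * inl (src p.1 p.2) *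
      (inr (FreeGroup.of p.1))⁻¹ * (inl (tgt p.1 p.2))⁻¹) '' (Set.univ ×ˢ X)
  have hS : S.Finite := (Set.finite_univ.prod hXf).image _
  haveI := M.fp_V0
  obtain ⟨Rel, hRel, hN⟩ := Subgroup.IsFinitelyNormallyGenerated.comap
    (N := Subgroup.normalClosure S) ⟨S, hS, rfl⟩ M.piE_surj
    (ker_fng inferInstance M.piE M.piE_surj)
  let ψ : Coprod M.V0 (FreeGroup M.Rule) →* (M.rs e).B := Coprod.lift (M.inC e) (M.rs e).ℓ
  have hψ : ∀ g, (M.mi e).val g = ψ (M.piE g) := by
    refine fun g => DFunLike.congr_fun (f := (M.mi e).val) (g := ψ.comp M.piE)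
      (FreeGroup.ext_hom _ _ fun z => ?_) g
    have h1 : (M.mi e).val (FreeGroup.of z) = (M.mi e).b z := FreeGroup.lift_apply_of
    have h2 : M.piE (FreeGroup.of z) = M.piLet z := FreeGroup.lift_apply_of
    have h3 : ∀ α, ψ (inl α) = SD.letter (B := (M.rs e).V) none (M.cfg α) := fun α => by
      simp only [ψ, lift_apply_inl, SD.letter, Option.elim, map_one, one_mul]; rfl
    refine h1.trans (Eq.trans ?_ (congrArg ψ h2).symm)
    rcases z with y | y | b | r | i
    · exact (h3 _).symm
    · exact (h3 _).symm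
    · exact (h3 _).symm
    · exact (h3 _).symm
    · exact ((lift_apply_inr (M.inC e) (M.rs e).ℓ (FreeGroup.of i)).trans
        FreeGroup.lift_apply_of).symm
  have hψS : Subgroup.normalClosure S ≤ ψ.ker := by
    refine Subgroup.normalClosure_le_normal ?_
    rintro _ ⟨⟨i, u⟩, -, rfl⟩
    have h2 : (M.rs e).ℓ (FreeGroup.of i) = (M.rs e).ell i := FreeGroup.lift_apply_of
    simp only [SetLike.mem_coe, MonoidHom.mem_ker, map_mul, map_inv, ψ, lift_apply_inl,
      lift_apply_inr, h2]
    exact M.step_conj hM e i _ _ ((hstep i _ _).2 ⟨u, rfl, rfl⟩)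
  have hℓ : ∀ f, (M.mi e).val (FreeGroup.map M.lz f) = (M.rs e).ℓ f := fun f => by
    rw [hψ, piE_lz]; exact lift_apply_inr _ _ _
  refine ⟨M.Rule, inferInstance, M.rhow e, M.lz, Rel, hRel, fun r hr => ?_, fun i => ?_,
    fun i => ⟨FreeGroup.of i, FreeGroup.lift_apply_of⟩, fun u hu => ?_⟩
  · have : r ∈ (Subgroup.normalClosure S).comap M.piE := hN ▸ Subgroup.subset_normalClosure hr
    exact (hψ r).trans (hψS this)
  · rw [val_rhow]; exact ⟨FreeGroup.of i, FreeGroup.lift_apply_of⟩
  · obtain ⟨f, hf, rfl⟩ := loop hM e u hu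
    refine ⟨f, ?_, ?_⟩
    · let q := QuotientGroup.mk' (Subgroup.normalClosure S)
      have h1 : ∀ i u, q (inr (FreeGroup.of i)) * q (inl (src i u)) * (q (inr (FreeGroup.of i)))⁻¹ =
          q (inl (tgt i u)) := fun i =>
        conj_of_gens hX (q.comp (inl.comp (src i))) (q.comp (inl.comp (tgt i))) _ fun x hx => by
          have : q (inr (FreeGroup.of i) * inl (src i x) * (inr (FreeGroup.of i))⁻¹ *
              (inl (tgt i x))⁻¹) = 1 := (QuotientGroup.eq_one_iff _).2
            (Subgroup.subset_normalClosure (s := S) ⟨(i, x), ⟨trivial, hx⟩, rfl⟩)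
          rw [map_mul, map_mul, map_mul, map_inv, map_inv, mul_inv_eq_one] at this
          exact this
      have h2 : ∀ i α β, M.Step0 e i α β →
          q (M.piE (M.rhow e i)) * q (inl α) = q (inl β) * q (inr (FreeGroup.of i)) := by
        intro i α β h
        obtain ⟨u, rfl, rfl⟩ := (hstep i α β).1 h
        have h3 : M.piE (FreeGroup.of (M.lz i)) = inr (FreeGroup.of i) := M.piE_lz (FreeGroup.of i)
        simp only [rhow, map_mul, map_inv, piE_vw, h3, ← h1]
        group
      have h3 : ∀ f α, M.Path0 e f α →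
          q (M.piE (FreeGroup.lift (M.rhow e) f)) = q (inl α) * q (inr f) := by
        intro f α h
        induction h with
        | nil => simp
        | fwd i _ hs ih =>
          simp only [map_mul, FreeGroup.lift_apply_of, ih]
          rw [← mul_assoc, h2 _ _ _ hs, mul_assoc]
        | bwd i _ hs ih =>
          simp only [map_mul, map_inv, FreeGroup.lift_apply_of, ih]
          rw [← mul_assoc, eq_mul_inv_of_mul_eq (h2 _ _ _ hs).symm]
          group
      rw [hN, Subgroup.mem_comap, ← QuotientGroup.eq_one_iff]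
      change q _ = 1
      rw [map_mul, map_mul, map_inv, map_inv, h3 f 1 hf, piE_lz]
      simp
    · rw [hℓ]
      change FreeGroup.lift M.piR ((M.rs e).ret ((M.rs e).ℓ f)) = _
      rw [RS.ret_ℓ]

end Crest.Agent.R185.GM
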