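import Crest.Agent.R185.RS
import Crest.Agent.Lib.PrimrecRat

/-!
# Row 185: generic computability tools for rule systems (helper file of R185-MachPrim)
-/

set_option autoImplicit false

namespace Crest.Agent.R185

open SemidirectProduct

section tools

variable {α β σ : Type} [Primcodable α] [Primcodable β] [Primcodable σ]

theorem pp_ex {L : α → List β} (hL : Primrec L) {R : α → β → Prop}
    (hR : PrimrecPred fun p : α × β => R p.1 p.2) : PrimrecPred fun a => ∃ b ∈ L a, R a b :=
  (PrimrecRel.exists_mem_list (R := fun b a => R a b)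
    (hR.comp (Primrec.snd.pair Primrec.fst))).comp hL Primrec.id

theorem pp_const (p : Prop) : PrimrecPred fun _ : α => p := by
  classical exact (Primrec.const (decide p)).primrecPred

theorem pp_imp {p q : α → Prop} (hp : PrimrecPred p) (hq : PrimrecPred q) :
    PrimrecPred fun a => p a → q a :=
  (hp.not.or hq).of_eq fun _ => imp_iff_not_or.symm

theorem pp_all_fin {ι : Type} [Finite ι] {R : ι → α → Prop} (h : ∀ i, PrimrecPred (R i)) :
    PrimrecPred fun a => ∀ i, R i a := by
  obtain ⟨l, -, hl⟩ := Finite.exists_univ_list ι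
  have : ∀ l : List ι, PrimrecPred fun a => ∀ i ∈ l, R i a := by
    intro l
    induction l with
    | nil => exact (pp_const True).of_eq fun a => by simp
    | cons i l ih => exact ((h i).and ih).of_eq fun a => by simp
  exact (this l).of_eq fun a => by simp [hl]

theorem pp_ex_fin {ι : Type} [Finite ι] {R : ι → α → Prop} (h : ∀ i, PrimrecPred (R i)) :
    PrimrecPred fun a => ∃ i, R i a :=
  (pp_all_fin fun i => (h i).not).not.of_eq fun a => by simp

theorem pr_fin₂ [Finite β] {f : α → β → σ} (h : ∀ b, Primrec fun a => f a b) :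
    Primrec fun p : α × β => f p.1 p.2 := by
  classical
  obtain ⟨l, -, hl⟩ := Finite.exists_univ_list β
  have : ∀ l : List β, Primrec fun p : α × β => if p.2 ∈ l then some (f p.1 p.2) else none := by
    intro l
    induction l with
    | nil => exact (Primrec.const none).of_eq fun a => by simp
    | cons i l ih =>
      refine (Primrec.ite (Primrec.eq.comp Primrec.snd (Primrec.const i))
        (Primrec.option_some.comp ((h i).comp Primrec.fst)) ih).of_eq fun p => ?_
      by_cases hp : p.2 = i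
      · simp [hp]
      · simp [hp]
  exact Primrec.option_some_iff.1 ((this l).of_eq fun p => by simp [hl])

theorem pr_find (b₀ : β) {L : α → List β} (hL : Primrec L) {R : α → β → Prop}
    (hR : PrimrecPred fun p : α × β => R p.1 p.2) :
    ∃ P : α → β, Primrec P ∧ ∀ a, (∃ b ∈ L a, R a b) → R a (P a) := by
  classical
  refine ⟨fun a => (L a).foldr (fun b r => if R a b then b else r) b₀,
    pr_foldr hL (Primrec.const _) (Primrec.ite (hR.comp (f := fun p : α × β × β => (p.1, p.2.1))
      (by fun_prop)) (by fun_prop) (by fun_prop)), fun a => ?_⟩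
  dsimp only
  induction L a with
  | nil => simp
  | cons b l ih =>
    intro h
    rw [List.foldr_cons]
    split_ifs with hb
    · exact hb
    · refine ih ?_
      simpa [hb] using h

theorem pr_list_prod {W ι : Type} [DecidableEq W] [Primcodable W] (l : List ι)
    {f : α → ι → FreeGroup W} (h : ∀ i, Primrec fun a => f a i) :
    Primrec fun a => (l.map (f a)).prod := by
  induction l with
  | nil => exact Primrec.const 1
  | cons i l ih => exact (primrec_mul.comp (h i) ih).of_eq fun a => by simp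

theorem pr_fg_zpow {W : Type} [DecidableEq W] [Primcodable W] (g : FreeGroup W) :
    Primrec fun n : ℤ => g ^ n := by
  have hp : Primrec fun n : ℕ => g ^ n := by
    have h : Primrec₂ fun (_ : ℕ) (p : ℕ × FreeGroup W) => p.2 * g :=
      primrec_mul.comp (Primrec.snd.comp Primrec.snd) (Primrec.const g)
    refine (Primrec.nat_rec' Primrec.id (Primrec.const 1) h).of_eq fun n => ?_
    induction n with
    | zero => rfl
    | succ n ih => simp only [id] at ih ⊢; rw [ih, pow_succ]
  refine (primrec_mul.comp (hp.comp Lib.PrimrecRat.int_toNat)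
    (primrec_inv.comp (hp.comp Lib.PrimrecRat.int_negToNat))).of_eq fun n => ?_
  rw [← zpow_natCast, ← zpow_natCast, ← zpow_sub, Int.toNat_sub_toNat_neg]

/-- A multiplicative code of the image of a homomorphism. -/
theorem pr_code {Z G : Type} [DecidableEq Z] [Primcodable Z] [Finite Z] [Group G] (c : G → σ)
    (m : σ → σ → σ) (hm : Primrec fun p : σ × σ => m p.1 p.2)
    (hc : ∀ a b, c (a * b) = m (c a) (c b)) (v : Z → G) :
    Primrec fun g => c (FreeGroup.lift v g) := by
  have h1 : Primrec fun x : Z × Bool => c (cond x.2 (v x.1) (v x.1)⁻¹) := Primrec.dom_finite _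
  refine (pr_foldr (f := FreeGroup.toWord) (g := fun _ => c 1)
    (h := fun _ x r => m (c (cond x.2 (v x.1) (v x.1)⁻¹)) r) primrec_toWord (Primrec.const _)
    (hm.comp ((h1.comp (Primrec.fst.comp Primrec.snd)).pair
      (Primrec.snd.comp Primrec.snd)))).of_eq fun g => ?_
  rw [lift_eq_foldr]
  induction g.toWord with
  | nil => rfl
  | cons x l ih => rw [List.foldr_cons, List.foldr_cons, hc, ih]

end tools

theorem norm_map_le'' {A B : Type} [DecidableEq A] [DecidableEq B] (φ : A → B) (g : FreeGroup A) :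
    (FreeGroup.map φ g).norm ≤ g.norm := by
  conv_lhs => rw [← FreeGroup.mk_toWord (x := g), FreeGroup.map.mk]
  exact FreeGroup.norm_mk_le.trans (List.length_map _).le

theorem sd_left_norm {Z B Ω : Type} [DecidableEq Z] [DecidableEq Ω] [Group B] [MulAction B Ω]
    (x : Z → Option Ω) (v : Z → B) (g : FreeGroup Z) :
    (FreeGroup.lift (fun z => SD.letter (x z) (v z)) g).left.norm ≤ g.norm := by
  have hp : ∀ (b : B) (w : FreeGroup Ω), (permAut B Ω b w).norm ≤ w.norm := fun b w =>
    norm_map_le'' (MulAction.toPerm b) w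
  have h1 : ∀ z, (SD.letter (x z) (v z)).left.norm ≤ 1 := fun z => by
    cases x z <;> simp [SD.letter]
  conv_lhs => rw [← FreeGroup.mk_toWord (x := g)]
  change _ ≤ g.toWord.length
  induction g.toWord with
  | nil => simp [← FreeGroup.one_eq_mk]
  | cons a l ih =>
    rw [lift_mk_cons, mul_left, List.length_cons]
    refine (FreeGroup.norm_mul_le _ _).trans ?_
    have h2 := (hp (lt' a.2 (SD.letter (x a.1) (v a.1))).right _).trans ih
    have h3 : (lt' a.2 (SD.letter (x a.1) (v a.1))).left.norm ≤ 1 := by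
      cases a.2
      · rw [lt', cond_false, inv_left]
        exact (hp _ _).trans (by rw [FreeGroup.norm_inv_eq]; exact h1 _)
      · exact h1 _
    omega

theorem sd_eq_inr {B Ω : Type} [Group B] [MulAction B Ω] {x : SD B Ω} (h : x.left = 1) :
    x = inr x.right := SemidirectProduct.ext (by simpa using h) (by simp)

/-- The search for minimal decompositions in a computable family of rule systems. -/
theorem rs_search {I Z : Type} [DecidableEq I] [Fintype I] [Primcodable I] [DecidableEq Z]
    [Primcodable Z] (S : ℕ → RS I) (val : ∀ e, FreeGroup Z →* (S e).B)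
    (h1 : PrimrecPred fun p : ℕ × FreeGroup Z => val p.1 p.2 = 1)
    (h2 : PrimrecPred fun p : ℕ × FreeGroup Z => (val p.1 p.2).left = 1)
    (rw' : ℕ → FreeGroup I → FreeGroup Z) (hrw : Primrec fun p : ℕ × FreeGroup I => rw' p.1 p.2)
    (hρ : ∀ e f, val e (rw' e f) = (S e).ρ f)
    (lw : FreeGroup I → FreeGroup Z) (hlw : Primrec lw) (hℓ : ∀ e f, val e (lw f) = (S e).ℓ f)
    (N : FreeGroup Z → ℕ) (hN : Primrec N)
    (hNb : ∀ e g, (val e g).right ∈ (S e).Comp →
      ∃ f, (S e).ρ f = inr (val e g).right * (S e).ℓ f ∧ f.norm ≤ N g)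
    (hn : ∀ e g f v h, (S e).Min (val e g) f v h → f.norm + h.norm ≤ g.norm) :
    (PrimrecPred fun p : ℕ × FreeGroup Z => val p.1 p.2 ∈ (S p.1).D) ∧
    ∃ P : ℕ × FreeGroup Z → FreeGroup I × FreeGroup I, Primrec P ∧ ∀ e g, val e g ∈ (S e).D →
      (S e).Min (val e g) (P (e, g)).1
        (val e ((rw' e (P (e, g)).1)⁻¹ * g * (lw (P (e, g)).2)⁻¹)).right (P (e, g)).2 := by
  have hrw' : ∀ {α : Type} [Primcodable α] {f : α → ℕ} {g : α → FreeGroup I}, Primrec f →
      Primrec g → Primrec fun a => rw' (f a) (g a) := fun hf hg => hrw.comp (hf.pair hg)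
  -- `val g` is a computation
  have hC : PrimrecPred fun p : ℕ × FreeGroup Z =>
      (val p.1 p.2).left = 1 ∧ (val p.1 p.2).right ∈ (S p.1).Comp := by
    refine (h2.and (pp_ex (L := fun p : ℕ × FreeGroup Z => ball I (N p.2)) (by fun_prop)
      (R := fun p k => val p.1 ((rw' p.1 k)⁻¹ * p.2 * lw k) = 1)
      (h1.comp (f := fun q : (ℕ × FreeGroup Z) × FreeGroup I =>
        (q.1.1, (rw' q.1.1 q.2)⁻¹ * q.1.2 * lw q.2)) ?_))).of_eq fun p => and_congr_right fun hp => ?_
    · exact pr_pair (by fun_prop) (pr_fgmul (pr_fgmul (pr_fginv (hrw' (by fun_prop) (by fun_prop)))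
        (by fun_prop)) (by fun_prop))
    · simp only [map_mul, map_inv, hρ, hℓ, mem_ball, mul_assoc, inv_mul_eq_one]
      constructor
      · rintro ⟨k, -, hk⟩
        exact ⟨k, by rw [hk, ← sd_eq_inr hp]⟩
      · intro h
        obtain ⟨k, hk, hk'⟩ := hNb _ _ h
        exact ⟨k, hk', by rw [hk, ← sd_eq_inr hp]⟩
  let R : ℕ × FreeGroup Z → FreeGroup I × FreeGroup I → Prop := fun p q =>
    (val p.1 ((rw' p.1 q.1)⁻¹ * p.2 * (lw q.2)⁻¹)).left = 1 ∧
    (S p.1).Min (val p.1 p.2) q.1 (val p.1 ((rw' p.1 q.1)⁻¹ * p.2 * (lw q.2)⁻¹)).right q.2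
  have hg' : Primrec fun q : (ℕ × FreeGroup Z) × FreeGroup I × FreeGroup I =>
      (rw' q.1.1 q.2.1)⁻¹ * q.1.2 * (lw q.2.2)⁻¹ :=
    pr_fgmul (pr_fgmul (pr_fginv (hrw' (by fun_prop) (by fun_prop))) (by fun_prop)) (by fun_prop)
  have hR : PrimrecPred fun p : (ℕ × FreeGroup Z) × FreeGroup I × FreeGroup I => R p.1 p.2 := by
    refine ((hC.comp (pr_pair (f := fun q : (ℕ × FreeGroup Z) × FreeGroup I × FreeGroup I => q.1.1)
      (by fun_prop) hg')).and (pp_all_fin (ι := I × Bool)
      (R := fun s (q : (ℕ × FreeGroup Z) × FreeGroup I × FreeGroup I) =>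
        q.2.1.toWord[q.2.1.toWord.length - 1]? = some s →
        ¬ (val q.1.1 (rw' q.1.1 (FreeGroup.mk [s]) * ((rw' q.1.1 q.2.1)⁻¹ * q.1.2 * (lw q.2.2)⁻¹) *
          (lw (FreeGroup.mk [s]))⁻¹)).left = 1) fun s => pp_imp ?_ ?_)).of_eq fun q => ?_
    · exact Primrec.eq.comp (Primrec.list_getElem?.comp (by fun_prop) (by fun_prop)) (by fun_prop)
    · refine PrimrecPred.not (h2.comp
        (f := fun q : (ℕ × FreeGroup Z) × FreeGroup I × FreeGroup I => (q.1.1,
          rw' q.1.1 (FreeGroup.mk [s]) * ((rw' q.1.1 q.2.1)⁻¹ * q.1.2 * (lw q.2.2)⁻¹) *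
          (lw (FreeGroup.mk [s]))⁻¹)) (pr_pair (by fun_prop) ?_))
      exact pr_fgmul (pr_fgmul (hrw' (by fun_prop) (by fun_prop)) hg') (by fun_prop)
    · obtain ⟨⟨e, g⟩, f, h⟩ := q
      simp only [R, RS.Min, and_assoc]
      refine and_congr_right fun hl => and_congr_right fun _ => ?_
      have hx := sd_eq_inr hl
      generalize (val e ((rw' e f)⁻¹ * g * (lw h)⁻¹)).right = v at hx
      have h3 : val e g = (S e).ρ f * inr v * (S e).ℓ h := by
        rw [← hx]; simp only [map_mul, map_inv, hρ, hℓ]; group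
      rw [and_iff_right h3, List.getLast?_eq_getElem?]
      refine forall_congr' fun s => imp_congr Iff.rfl ?_
      rw [map_mul, map_mul, hx, map_inv, hρ, hℓ, ← not_exists]
      refine not_congr ⟨fun h4 => ⟨_, mul_inv_eq_iff_eq_mul.1 (sd_eq_inr h4)⟩, fun ⟨v', h4⟩ => ?_⟩
      rw [RS.Step] at h4
      rw [h4, mul_inv_cancel_right, left_inr]
  let L : ℕ × FreeGroup Z → List (FreeGroup I × FreeGroup I) := fun p =>
    (ball I p.2.norm).flatMap fun f => (ball I p.2.norm).map fun h => (f, h)
  have hL : Primrec L := by fun_prop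
  have key : ∀ p : ℕ × FreeGroup Z, val p.1 p.2 ∈ (S p.1).D → ∃ q ∈ L p, R p q := by
    rintro ⟨e, g⟩ hp
    obtain ⟨f, v, h, hm⟩ := (S e).exists_min hp
    have h3 := hn e g _ _ _ hm
    have h4 : val e ((rw' e f)⁻¹ * g * (lw h)⁻¹) = inr v := by
      simp only [map_mul, map_inv, hρ, hℓ]
      rw [hm.2.1]; group
    refine ⟨(f, h), ?_, ?_⟩
    · simp only [L, List.mem_flatMap, List.mem_map, mem_ball]
      exact ⟨f, by omega, h, by omega, rfl⟩
    · simp only [R, h4, left_inr, right_inr, true_and]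
      exact hm
  obtain ⟨P, hP, hP'⟩ := pr_find (1, 1) hL hR
  exact ⟨(pp_ex hL hR).of_eq fun p => ⟨fun ⟨q, _, hq⟩ => hq.2.mem_D, key p⟩, P, hP,
    fun e g h => (hP' _ (key (e, g) h)).2⟩

end Crest.Agent.R185
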