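import Crest.Agent.R185.MachInv
import Crest.Agent.R185.MachPrim_A

/-!
# Row 185: the machine interface is primitive recursive (task R185-MachPrim; split it if you like)

PLAN.  For a word `g` the `V1`-component `lift letV g` does not depend on `e`; each coordinate is primrec in `g`: `κ, κ''` (`primrec_hom`), state and clock (integer folds), and for each register the pair
`(s, u) ∈ ℚ × ℚ` (fold; `Crest/Agent/Lib/PrimrecRat.lean`).  So `lift letV g = 1` and `lift letV g ∈ UU i` are primrec (finite conjunctions; divisibility `∃ z, s = m z` iff `m = 0 ∧ s = 0` or `(s/m).den = 1`).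
`SD_primrec` gives `left = 1`, hence the word problem `one`.  `ret (val g)` is `lift` of a fixed substitution.  `memL`: `val g = ℓ (ret (val g))`, i.e. `val (g * (map lz f)⁻¹) = 1`; `memF` likewise with `lift (rhow e)` (primrec in `e`: `ini_prim`, `primrec_lift`, powers).
`v ∈ Comp` for `v` given by a word `g` with `left = 1`: bounded search over `ball (|κ| + |hist| + 1)` (`comp_bound`).  Validity of a signed step at `v`: `left = 1` for the word `ρ_s g ℓ_s⁻¹`.
`Min (val g) f v h` with `|f| + |h| ≤ |g|` (`min_norm`): search pairs `(f,h)` in `ball |g|` such that `g' = (lift rhow f)⁻¹ g (map lz h)⁻¹` has `left = 1`, lies in `Comp`, and the last letter of `f` is invalid; `memD` iff found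
(`exists_min`, `Min.mem_D`), and `fa`, `fb` are read off from the (unique) pair found (`List.find?`/`filter` + `head?`).
-/

set_option autoImplicit false

namespace Crest.Agent.R185.GM

open SemidirectProduct Lib.PrimrecRat

section aux

variable {Y : Type} (M : GM Y)

/-- The `V1`-component of the value of a word. -/
def ph : FreeGroup M.ZB →* M.V1 := FreeGroup.lift M.letV

/-- The rule attached to a letter. -/
def rz : M.ZB → Option M.Rule
  | .inr (.inr (.inr (.inr i))) => some i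
  | _ => none

theorem letX_eq (e : ℕ) (z : M.ZB) : M.letX e z = (M.rz z).map (M.rs e).om := by
  rcases z with y | y | b | r | i <;> rfl

def retW : FreeGroup M.ZB →* FreeGroup M.Rule :=
  FreeGroup.lift fun z => (M.rz z).elim 1 FreeGroup.of

variable [DecidableEq Y]

/-- The value of a word, typed in the rule system. -/
noncomputable def vl (e : ℕ) : FreeGroup M.ZB →* (M.rs e).B := (M.mi e).val

theorem vl_of (e : ℕ) (z : M.ZB) :
    M.vl e (FreeGroup.of z) = SD.letter (B := (M.rs e).V) (M.letX e z) (M.letV z) :=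
  FreeGroup.lift_apply_of

theorem vl_right (e : ℕ) (g : FreeGroup M.ZB) : (M.vl e g).right = M.ph g := by
  refine DFunLike.congr_fun (f := rightHom.comp (M.vl e)) (g := M.ph)
    (FreeGroup.ext_hom _ _ fun z => ?_) g
  have h : M.ph (FreeGroup.of z) = M.letV z := FreeGroup.lift_apply_of
  rw [MonoidHom.comp_apply, vl_of]
  exact (by simp [SD.letter] : _ = M.letV z).trans h.symm

theorem vl_ret (e : ℕ) (g : FreeGroup M.ZB) : (M.rs e).ret (M.vl e g) = M.retW g := by
  refine DFunLike.congr_fun (f := (M.rs e).ret.comp (M.vl e)) (g := M.retW)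
    (FreeGroup.ext_hom _ _ fun z => ?_) g
  rw [MonoidHom.comp_apply, vl_of, SD.letter, map_mul, RS.ret_inr, mul_one, retW,
    FreeGroup.lift_apply_of, letX_eq]
  cases M.rz z <;> simp [RS.ret, RS.om]

theorem vl_rw (e : ℕ) (f : FreeGroup M.Rule) :
    M.vl e (FreeGroup.lift (M.rhow e) f) = (M.rs e).ρ f := by
  refine DFunLike.congr_fun (f := (M.vl e).comp (FreeGroup.lift (M.rhow e))) (g := (M.rs e).ρ)
    (FreeGroup.ext_hom _ _ fun i => ?_) f
  rw [MonoidHom.comp_apply, FreeGroup.lift_apply_of, RS.ρ, FreeGroup.lift_apply_of]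
  exact val_rhow e i

theorem vl_lw (e : ℕ) (f : FreeGroup M.Rule) :
    M.vl e (FreeGroup.map M.lz f) = (M.rs e).ℓ f := by
  refine DFunLike.congr_fun (f := (M.vl e).comp (FreeGroup.map M.lz)) (g := (M.rs e).ℓ)
    (FreeGroup.ext_hom _ _ fun i => ?_) f
  rw [MonoidHom.comp_apply, FreeGroup.map.of, RS.ℓ, FreeGroup.lift_apply_of, vl_of]
  rfl

theorem dec_eq {e : ℕ} {x : (M.rs e).B} {f h : FreeGroup M.Rule} {v : M.V1}
    (hm : (M.rs e).Min x f v h) : M.dec e x = (f, v, h) := by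
  have hex : ∃ p : FreeGroup M.Rule × M.V1 × FreeGroup M.Rule, (M.rs e).Min x p.1 p.2.1 p.2.2 :=
    ⟨(f, v, h), hm⟩
  obtain ⟨a, b, c⟩ := (M.rs e).min_unique hex.choose_spec hm
  rw [dec, dif_pos hex]
  exact Prod.ext a (Prod.ext b c)

variable [Fintype Y] [Primcodable Y]

theorem pr_k1 : Primrec fun g => (M.ph g).1.1 :=
  pr_code (fun v : M.V1 => v.1.1) (· * ·) primrec_mul (fun _ _ => rfl) _

theorem pr_k2 : Primrec fun g => (M.ph g).1.2 :=
  pr_code (fun v : M.V1 => v.1.2) (· * ·) primrec_mul (fun _ _ => rfl) _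

theorem pr_st : Primrec fun g => (M.ph g).2.1.toAdd :=
  pr_code (fun v : M.V1 => v.2.1.toAdd) (· + ·) int_add (fun _ _ => rfl) _

theorem pr_tau : Primrec fun g => (M.ph g).2.2.1.toAdd :=
  pr_code (fun v : M.V1 => v.2.2.1.toAdd) (· + ·) int_add (fun _ _ => rfl) _

theorem pr_reg (r : M.Reg') : Primrec fun g => (((M.ph g).2.2.2 r).s, (((M.ph g).2.2.2 r).u : ℚ)) :=
  pr_code (fun v : M.V1 => ((v.2.2.2 r).s, ((v.2.2.2 r).u : ℚ)))
    (fun a b => (a.1 + a.2 * b.1, a.2 * b.2))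
    ((rat_add.comp (by fun_prop) (rat_mul.comp (by fun_prop) (by fun_prop))).pair
      (rat_mul.comp (by fun_prop) (by fun_prop))) (fun _ _ => rfl) _

theorem pp_ph_one : PrimrecPred fun g => M.ph g = 1 := by
  refine (((Primrec.eq.comp M.pr_k1 (Primrec.const 1)).and
    (Primrec.eq.comp M.pr_k2 (Primrec.const 1))).and
    ((Primrec.eq.comp M.pr_st (Primrec.const 0)).and
    ((Primrec.eq.comp M.pr_tau (Primrec.const 0)).and
    (pp_all_fin fun r => Primrec.eq.comp (M.pr_reg r) (Primrec.const (0, 1)))))).of_eq fun g => ?_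
  simp [Prod.ext_iff, funext_iff, Aff.ext_iff]

theorem rat_dvd_iff (s : ℚ) (m : ℕ) :
    (∃ z : ℤ, s = m * z) ↔ s = m * (s / m) ∧ (s / m).den = 1 := by
  constructor
  · rintro ⟨z, rfl⟩
    rcases Nat.eq_zero_or_pos m with rfl | hm
    · simp
    · have : (m : ℚ) ≠ 0 := by positivity
      rw [mul_div_cancel_left₀ _ this]
      simp
  · rintro ⟨h1, h2⟩
    exact ⟨(s / m).num, by rw [Rat.coe_int_num_of_den_eq_one h2]; exact h1⟩

theorem pp_kind (i : M.Rule) : PrimrecPred fun g => (M.ph g).1 ∈ M.kind i := by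
  have h1 := Primrec.eq.comp M.pr_k1 (Primrec.const 1)
  have h2 := Primrec.eq.comp M.pr_k2 (Primrec.const 1)
  rcases i with y | (⟨_ | _ | _ | n, hn⟩ | p)
  · exact h2.of_eq fun g => by simp [kind, Subgroup.mem_prod]
  · exact (h1.and h2).of_eq fun g => by simp [kind, Prod.ext_iff]
  · exact h2.of_eq fun g => by simp [kind, Subgroup.mem_prod]
  · exact (Primrec.eq.comp M.pr_k1 M.pr_k2).of_eq fun g => Iff.rfl
  · omega
  · exact (pp_const True).of_eq fun g => by simp [kind]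

theorem pp_UU (i : M.Rule) : PrimrecPred fun g => M.ph g ∈ M.UU i := by
  refine ((M.pp_kind i).and ((Primrec.eq.comp M.pr_st (Primrec.const 0)).and
    ((pp_imp (pp_const (M.tfree i = false)) (Primrec.eq.comp M.pr_tau (Primrec.const 0))).and
    (pp_all_fin (R := fun r g => ((M.ph g).2.2.2 r).u = 1 ∧
      ∃ z : ℤ, ((M.ph g).2.2.2 r).s = M.mm' i r * z) fun r => ?_)))).of_eq fun g => Iff.rfl
  have hs := Primrec.fst.comp (M.pr_reg r)
  have hd := rat_div.comp hs (Primrec.const (M.mm' i r : ℚ))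
  refine ((Primrec.eq.comp (Primrec.snd.comp (M.pr_reg r)) (Primrec.const 1)).and
    ((Primrec.eq.comp hs (rat_mul.comp (Primrec.const (M.mm' i r : ℚ)) hd)).and
      (Primrec.eq.comp (rat_den.comp hd) (Primrec.const 1)))).of_eq fun g => ?_
  rw [rat_dvd_iff, Units.val_eq_one]

theorem pp_left : PrimrecPred fun p : ℕ × FreeGroup M.ZB => (M.vl p.1 p.2).left = 1 := by
  refine SD_primrec (fun e => (M.rs e).V) (fun e => (M.rs e).Om) M.letX (fun _ => M.letV) ?_ ?_
  · exact (Primrec.eq.comp ((Primrec.dom_finite M.rz).comp Primrec.snd) (Primrec.const none)).of_eq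
      fun p => by simp [letX_eq]
  · have hz := Primrec.dom_finite M.rz
    refine ((Primrec.eq.comp (hz.comp (g := fun p : ℕ × (M.ZB × FreeGroup M.ZB) ×
      (M.ZB × FreeGroup M.ZB) => p.2.1.1) (by fun_prop)) (hz.comp (g := fun p : ℕ ×
      (M.ZB × FreeGroup M.ZB) × (M.ZB × FreeGroup M.ZB) => p.2.2.1) (by fun_prop))).and
      (pp_all_fin fun i => pp_imp (Primrec.eq.comp (hz.comp (g := fun p : ℕ ×
      (M.ZB × FreeGroup M.ZB) × (M.ZB × FreeGroup M.ZB) => p.2.1.1) (by fun_prop))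
      (Primrec.const (some i))) ((M.pp_UU i).comp (f := fun p : ℕ ×
      (M.ZB × FreeGroup M.ZB) × (M.ZB × FreeGroup M.ZB) => p.2.1.2⁻¹ * p.2.2.2)
      (by fun_prop)))).of_eq ?_
    rintro ⟨e, ⟨z, g⟩, z', g'⟩
    simp only [letX_eq]
    rcases M.rz z with _ | i <;> rcases M.rz z' with _ | j
    · simp
    · simp
    · simp
    · simp only [Option.some.injEq, Option.map_some, forall_eq', map_mul, map_inv]
      constructor
      · rintro ⟨rfl, h⟩
        exact ((M.rs e).smul_om_eq i _ _).2 h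
      · intro h
        obtain rfl : i = j := congrArg Sigma.fst h
        exact ⟨rfl, ((M.rs e).smul_om_eq i _ _).1 h⟩

theorem pp_one : PrimrecPred fun p : ℕ × FreeGroup M.ZB => M.vl p.1 p.2 = 1 :=
  (M.pp_left.and (M.pp_ph_one.comp Primrec.snd)).of_eq fun p => by
    rw [SemidirectProduct.ext_iff, vl_right]; rfl

theorem pr_vw {α : ℕ → M.V0} (h1 : Primrec fun e => (α e).1) (h2 : Primrec fun e => (α e).2.1.toAdd)
    (h3 : Primrec fun e => (α e).2.2.1.toAdd) (h4 : ∀ r, Primrec fun e => ((α e).2.2.2 r).toAdd) :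
    Primrec fun e => M.vw (α e) :=
  pr_fgmul (pr_fgmul (pr_fgmul (pr_fgmul ((primrec_hom _).comp (pr_fst h1))
    ((primrec_hom _).comp (pr_snd h1))) ((pr_fg_zpow _).comp h2)) ((pr_fg_zpow _).comp h3))
    (pr_list_prod _ fun r => (pr_fg_zpow _).comp (h4 r))

theorem pr_rhow (h : Primrec M.ini) : Primrec₂ M.rhow := by
  refine pr_fin₂ fun i => pr_fgmul (pr_fgmul ?_ (Primrec.const _)) (Primrec.const _)
  have hs : ∀ n : ℤ, Primrec fun e => M.vw (M.c0 1 n 0 (M.regs 0 (M.ini e))) := fun n =>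
    M.pr_vw (Primrec.const 1) (Primrec.const n) (Primrec.const 0) fun r => by
      rcases r with _ | r
      · exact Primrec.const 0
      · exact Primrec.fin_app.comp h (Primrec.const r)
  rcases i with y | (⟨_ | _ | _ | n, hn⟩ | ⟨b, j⟩)
  · exact Primrec.const (M.vw (M.d0 0 (.inl y)))
  · exact hs _
  · exact hs _
  · exact Primrec.const (M.vw (M.d0 0 (.inr (.inl 2))))
  · omega
  · exact Primrec.const (M.vw (M.d0 0 (.inr (.inr (b, j)))))

theorem pr_mu0 : Primrec fun p : Bool × FreeGroup M.ZB => M.mu0 p.1 (M.ph p.2) := by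
  classical
  have hst := M.pr_st.comp (Primrec.snd (α := Bool))
  refine Primrec.ite (PrimrecPred.or ?_ ((Primrec.eq.comp Primrec.fst (Primrec.const true)).and
    (pp_ex_fin fun q => (pp_const _).and (Primrec.eq.comp hst (Primrec.const _)))))
    (M.pr_k1.comp Primrec.snd) (Primrec.const 1)
  refine (Primrec.eq.comp (Primrec.nat_mod.comp (int_natAbs.comp hst) (Primrec.const 2))
    (Primrec.const 0)).of_eq fun p => ?_
  rw [← Nat.even_iff, Int.natAbs_even]
  rfl

theorem pr_rw (h : Primrec M.ini) {α : Type} [Primcodable α] {e : α → ℕ} {f : α → FreeGroup M.Rule}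
    (he : Primrec e) (hf : Primrec f) : Primrec fun a => FreeGroup.lift (M.rhow (e a)) (f a) :=
  primrec_lift (f := fun a => M.rhow (e a)) ((M.pr_rhow h).comp (he.comp Primrec.fst) Primrec.snd) hf

theorem pp_F (h : Primrec M.ini) :
    PrimrecPred fun p : ℕ × FreeGroup M.ZB => ∃ f, (M.rs p.1).ρ f = M.vl p.1 p.2 := by
  have hret : Primrec M.retW := primrec_hom _
  refine (M.pp_one.comp (f := fun p : ℕ × FreeGroup M.ZB =>
    (p.1, (FreeGroup.lift (M.rhow p.1) (M.retW p.2))⁻¹ * p.2)) (Primrec.fst.pair (pr_fgmul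
      (pr_fginv (M.pr_rw h Primrec.fst (hret.comp Primrec.snd))) Primrec.snd))).of_eq
    fun p => ?_
  rw [map_mul, map_inv, vl_rw, inv_mul_eq_one]
  refine ⟨fun h => ⟨_, h⟩, fun ⟨f, h⟩ => ?_⟩
  rw [← vl_ret M p.1, ← h, RS.ret_ρ]

theorem pp_L : PrimrecPred fun p : ℕ × FreeGroup M.ZB => ∃ f, (M.rs p.1).ℓ f = M.vl p.1 p.2 := by
  have hret : Primrec M.retW := primrec_hom _
  have hlw : Primrec (FreeGroup.map M.lz) := primrec_hom _
  refine (M.pp_one.comp (f := fun p : ℕ × FreeGroup M.ZB =>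
    (p.1, (FreeGroup.map M.lz (M.retW p.2))⁻¹ * p.2)) (Primrec.fst.pair (pr_fgmul
      (pr_fginv (hlw.comp (hret.comp Primrec.snd))) Primrec.snd))).of_eq fun p => ?_
  rw [map_mul, map_inv, vl_lw, inv_mul_eq_one]
  refine ⟨fun h => ⟨_, h⟩, fun ⟨f, h⟩ => ?_⟩
  rw [← vl_ret M p.1, ← h, RS.ret_ℓ]

theorem pr_dec {U : ℕ × Word Y → Prop} (hM : M.Good U) :
    (PrimrecPred fun p : ℕ × FreeGroup M.ZB => M.vl p.1 p.2 ∈ (M.rs p.1).D) ∧
    ∃ (P Q : ℕ × FreeGroup M.ZB → FreeGroup M.ZB) (H : ℕ × FreeGroup M.ZB → FreeGroup M.Rule),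
      Primrec P ∧ Primrec Q ∧ Primrec H ∧ ∀ e g, M.vl e g ∈ (M.rs e).D →
        M.kap ((M.rs e).ρ (M.dec e (M.vl e g)).1).right = (M.ph (P (e, g))).1.1 ∧
        (M.dec e (M.vl e g)).2.1 = M.ph (Q (e, g)) ∧ (M.dec e (M.vl e g)).2.2 = H (e, g) := by
  classical
  have hlw : Primrec (FreeGroup.map M.lz) := primrec_hom _
  obtain ⟨hD, P, hP, hP'⟩ := rs_search M.rs M.vl M.pp_one M.pp_left
    (fun e => FreeGroup.lift (M.rhow e)) (M.pr_rw hM.ini_prim Primrec.fst Primrec.snd) M.vl_rw _ hlw M.vl_lw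
    (fun g => (M.ph g).1.1.norm + ((M.ph g).2.2.2 none).s.num.natAbs + 1)
    (pr_add (pr_add (primrec_norm.comp M.pr_k1)
      (int_natAbs.comp (rat_num.comp (Primrec.fst.comp (M.pr_reg none))))) (Primrec.const 1))
    (fun e g h => by
      have := comp_bound hM e _ h
      rw [vl_right] at this ⊢
      exact this)
    (fun e g f v h hm => by
      rw [← (M.rs e).min_norm hm]
      exact sd_left_norm (B := (M.rs e).V) (M.letX e) M.letV g)
  have hf : Primrec fun p : ℕ × FreeGroup M.ZB => FreeGroup.lift (M.rhow p.1) (P p).1 :=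
    M.pr_rw hM.ini_prim Primrec.fst (Primrec.fst.comp hP)
  refine ⟨hD, _, fun p => (FreeGroup.lift (M.rhow p.1) (P p).1)⁻¹ * p.2 *
    (FreeGroup.map M.lz (P p).2)⁻¹, _, hf, pr_fgmul (pr_fgmul (pr_fginv hf) Primrec.snd)
      (pr_fginv (hlw.comp (Primrec.snd.comp hP))), Primrec.snd.comp hP, fun e g hg => ?_⟩
  rw [M.dec_eq (hP' e g hg), ← vl_rw, vl_right, vl_right]
  exact ⟨rfl, rfl, rfl⟩

end aux

theorem mi_prim {Y : Type} [DecidableEq Y] [Fintype Y] [Primcodable Y] {M : GM Y}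
    {U : ℕ × Word Y → Prop} (hM : M.Good U) : MI.Prim M.mi := by
  have hret : Primrec M.retW := primrec_hom _
  have hpi : Primrec (FreeGroup.lift M.piR) := primrec_hom _
  obtain ⟨hD, P, Q, H, hP, hQ, hH, h⟩ := M.pr_dec hM
  refine ⟨M.pp_one, M.pp_F hM.ini_prim, M.pp_L, hD, ?_,
    ⟨fun p => (FreeGroup.lift M.piR (H p))⁻¹ * ((M.ph (P p)).1.1)⁻¹, ?_, fun e w hw => ?_⟩,
    ⟨fun p => (M.ph (P (p.1, p.2.2))).1.1 * M.mu0 p.2.1 (M.ph (Q (p.1, p.2.2))), ?_,
      fun e i w hw => ?_⟩⟩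
  · refine (hpi.comp (hret.comp Primrec.snd)).of_eq fun p => ?_
    rw [← vl_ret M p.1]
    rfl
  · exact pr_fgmul (pr_fginv (hpi.comp hH)) (pr_fginv (M.pr_k1.comp hP))
  · obtain ⟨h1, -, h3⟩ := h e w hw
    change _ = (FreeGroup.lift M.piR (M.dec e (M.vl e w)).2.2)⁻¹ *
      (M.kap ((M.rs e).ρ (M.dec e (M.vl e w)).1).right)⁻¹
    rw [h1, h3]
  · have h1 : Primrec fun p : ℕ × Bool × FreeGroup M.ZB => (p.1, p.2.2) := by fun_prop
    exact pr_fgmul (M.pr_k1.comp (hP.comp h1))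
      (M.pr_mu0.comp ((Primrec.fst.comp Primrec.snd).pair (hQ.comp h1)))
  · obtain ⟨h1, h2, -⟩ := h e w hw
    change _ = M.kap ((M.rs e).ρ (M.dec e (M.vl e w)).1).right * M.mu0 i (M.dec e (M.vl e w)).2.1
    rw [h1, h2]

end Crest.Agent.R185.GM
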