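import Crest.Agent.R185.T3_A

/-!
# Row 185, T3: from loop data to a good action (task R185-T3)

PLAN.  `exists_asc`: `Γ = HNNExtension P ⊤ φ.range (..)` (Mathlib; `HNNExtension.of_injective`), `A = range of`, `χ` by
`HNNExtension.lift`; `ker`: every `g` is `t^(-i) a t^j` (induction).  (Check the orientation: Mathlib has `t * of a = of (φ a) * t`.)
`good_of_loop`: `φ` is injective (`moves`, `τ_inj`, `τ_smul`).  `S∞` = direct limit of `S →τ S →τ ⋯` = `(ℕ × S)/~`, `(n,s) ~ (n+1, τ s)`;
`p • [n,s] = [n, φ^n p • s]`, `t • [n,s] = [n, τ s]` (inverse `[n,s] ↦ [n+1,s]`); `i s = [0,s]`, so `t^n • [n,s] = i s`.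
All properties are checked after conjugating by `t^n` into level `0`.
* `moves`: `χ g = 0`: conjugate into `P`.  `χ g = m ≠ 0`: replace `g` by `g⁻¹` and conjugate: `g = a t^m`, `m > 0` maps `i S` into `i (τ S)`·, so moves `i (range τ)ᶜ`
  (`a t^m i s = t^m`-image up to `a`; use `g = t^m a'`-form or apply one more conjugation so that `a ∈ φ^m P`).
* `trans`: `tuples` after multiplying by `t^(n+1)`.
* stabilisers: for finite `F ⊆ S∞` conjugate so that `F = i (τ F₀)`; `tuples` gives `p ∈ P` with `p τ s = s` for `s ∈ τ F₀`; `t' = p t` fixes `F`;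
  `Γ_F` is the ascending HNN extension of `P_F` with stable letter `t'` along `φ' a = p φ(a) p⁻¹`; conjugate the factorisation and the systems
  by `p` (they fix `F` by `fac`, `sys`; for non idempotent `e` redefine the family to be trivial, or restrict with `if`).
  Apply `AscHNN.fpres`, `AscHNN.fpinf`; `ker` from `AscHNN.ker_le` with `F = ∅`.
-/

set_option autoImplicit false

namespace Crest.Agent.R185

section HNN

variable {P : Type} [Group P] (φ : P →* P) (hφ : Function.Injective φ)

/-- The isomorphism `⊤ ≃ range φ`. -/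
noncomputable def ascEquiv : (⊤ : Subgroup P) ≃* φ.range :=
  Subgroup.topEquiv.trans (MonoidHom.ofInjective hφ)

/-- The ascending HNN extension. -/
abbrev AscG : Type := HNNExtension P ⊤ φ.range (ascEquiv φ hφ)

theorem asc_conj (p : P) :
    (HNNExtension.t * HNNExtension.of p * HNNExtension.t⁻¹ : AscG φ hφ) = HNNExtension.of (φ p) :=
  (HNNExtension.equiv_eq_conj (φ := ascEquiv φ hφ) ⟨p, trivial⟩).symm

theorem asc_conj_pow (n : ℕ) (p : P) :
    (HNNExtension.t ^ n * HNNExtension.of p * (HNNExtension.t ^ n)⁻¹ : AscG φ hφ) =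
      HNNExtension.of (φ^[n] p) := by
  induction n with
  | zero => simp
  | succ n ih =>
    rw [Function.iterate_succ_apply', ← asc_conj φ hφ, ← ih]; group

/-- The exponent sum of the stable letter. -/
noncomputable def ascChi : AscG φ hφ →* Multiplicative ℤ :=
  HNNExtension.lift 1 (Multiplicative.ofAdd 1) fun _ => by simp

theorem ascChi_t : ascChi φ hφ HNNExtension.t = Multiplicative.ofAdd 1 :=
  HNNExtension.lift_t _ _ _

theorem ascChi_of (p : P) : ascChi φ hφ (HNNExtension.of p) = 1 :=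
  HNNExtension.lift_of _ _ _ _

theorem asc_nf (g : AscG φ hφ) : ∃ (m n : ℕ) (p : P),
    g = (HNNExtension.t ^ m)⁻¹ * HNNExtension.of p * HNNExtension.t ^ n := by
  induction g using HNNExtension.induction_on with
  | of g => exact ⟨0, 0, g, by simp⟩
  | t => exact ⟨0, 1, 1, by simp⟩
  | mul x y hx hy =>
    obtain ⟨m, n, p, rfl⟩ := hx
    obtain ⟨m', n', p', rfl⟩ := hy
    refine ⟨m + m', n + n', φ^[m'] p * φ^[n] p', ?_⟩
    rw [map_mul, ← asc_conj_pow φ hφ, ← asc_conj_pow φ hφ]; group
  | inv x hx =>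
    obtain ⟨m, n, p, rfl⟩ := hx
    exact ⟨n, m, p⁻¹, by rw [map_inv]; group⟩

theorem asc_ker (g : AscG φ hφ) (hg : ascChi φ hφ g = 1) : ∃ (n : ℕ) (p : P),
    HNNExtension.t ^ n * g * (HNNExtension.t ^ n)⁻¹ = HNNExtension.of p := by
  obtain ⟨m, n, p, rfl⟩ := asc_nf φ hφ g
  rw [map_mul, map_mul, map_inv, map_pow, map_pow, ascChi_t, ascChi_of, mul_one,
    inv_mul_eq_one, ← ofAdd_nsmul, ← ofAdd_nsmul] at hg
  obtain rfl : m = n := by simpa using hg
  exact ⟨m, p, by group⟩

end HNN

theorem exists_asc (P : Type) [Group P] (φ : P →* P) (hφ : Function.Injective φ) :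
    ∃ (Γ : Type) (_ : Group Γ) (A : Subgroup Γ) (t : Γ) (χ : Γ →* Multiplicative ℤ) (j : P ≃* A),
      AscHNN A t χ (j.toMonoidHom.comp (φ.comp j.symm.toMonoidHom)) := by
  have hinj : Function.Injective (HNNExtension.of : P →* AscG φ hφ) :=
    HNNExtension.of_injective _
  refine ⟨AscG φ hφ, inferInstance, HNNExtension.of.range, HNNExtension.t, ascChi φ hφ,
    MonoidHom.ofInjective hinj, fun a => ?_, ascChi_t φ hφ, ?_, fun g hg => ?_⟩
  · obtain ⟨p, rfl⟩ := (MonoidHom.ofInjective hinj).surjective a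
    simp only [MulEquiv.toMonoidHom_eq_coe, MonoidHom.comp_apply, MonoidHom.coe_coe,
      MulEquiv.symm_apply_apply]
    exact asc_conj φ hφ p
  · rintro _ ⟨p, rfl⟩
    exact ascChi_of φ hφ p
  · obtain ⟨n, p, hp⟩ := asc_ker φ hφ g hg
    exact ⟨n, p, hp.symm⟩

namespace LoopData

variable (L : LoopData)

theorem φ_inj : Function.Injective L.φ := by
  rw [injective_iff_map_eq_one]
  intro p hp
  by_contra h
  obtain ⟨s, hs⟩ := (L.moves p h).nonempty
  apply hs
  apply L.τ_inj
  rw [L.τ_smul, hp, one_smul]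

theorem iter_smul (n : ℕ) (p : L.P) (s : L.S) : L.τ^[n] (p • s) = L.φ^[n] p • L.τ^[n] s := by
  induction n with
  | zero => rfl
  | succ n ih =>
    rw [Function.iterate_succ_apply', Function.iterate_succ_apply', Function.iterate_succ_apply',
      ih, L.τ_smul]

theorem iter_comm {α : Type} (f : α → α) (m n : ℕ) (x : α) : f^[m] (f^[n] x) = f^[n] (f^[m] x) := by
  rw [← Function.iterate_add_apply, ← Function.iterate_add_apply, add_comm]

/-- The relation defining the direct limit. -/
def limSetoid : Setoid (ℕ × L.S) where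
  r a b := L.τ^[b.1] a.2 = L.τ^[a.1] b.2
  iseqv := ⟨fun _ => rfl, fun h => h.symm, fun {a b c} h1 h2 => by
    apply L.τ_inj.iterate b.1
    rw [iter_comm, h1, iter_comm, h2, iter_comm]⟩

/-- The direct limit. -/
def Lim : Type := Quotient L.limSetoid

/-- The class of `(n, s)`. -/
def lmk (n : ℕ) (s : L.S) : L.Lim := Quotient.mk L.limSetoid (n, s)

theorem lmk_eq {m n : ℕ} {s s' : L.S} : L.lmk m s = L.lmk n s' ↔ L.τ^[n] s = L.τ^[m] s' :=
  Quotient.eq (r := L.limSetoid)

theorem lmk_surj (x : L.Lim) : ∃ n s, x = L.lmk n s := by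
  obtain ⟨⟨n, s⟩, rfl⟩ := Quotient.exists_rep x
  exact ⟨n, s, rfl⟩

/-- Action of `P` on the limit. -/
def limAct (p : L.P) : L.Lim → L.Lim :=
  Quotient.map' (fun a => (a.1, L.φ^[a.1] p • a.2)) fun a b h => by
    show L.τ^[b.1] (L.φ^[a.1] p • a.2) = L.τ^[a.1] (L.φ^[b.1] p • b.2)
    have h' : L.τ^[b.1] a.2 = L.τ^[a.1] b.2 := h
    rw [L.iter_smul, L.iter_smul, h', iter_comm]

theorem limAct_mk (p : L.P) (n : ℕ) (s : L.S) :
    L.limAct p (L.lmk n s) = L.lmk n (L.φ^[n] p • s) := rfl

/-- Action of `P` on the limit. -/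
def limMulAction : MulAction L.P L.Lim where
  smul := L.limAct
  one_smul x := by
    obtain ⟨n, s, rfl⟩ := L.lmk_surj x
    show L.limAct 1 _ = _
    rw [limAct_mk, iterate_map_one, one_smul]
  mul_smul p q x := by
    obtain ⟨n, s, rfl⟩ := L.lmk_surj x
    show L.limAct _ _ = L.limAct _ (L.limAct _ _)
    rw [limAct_mk, limAct_mk, limAct_mk, iterate_map_mul, mul_smul]

/-- Action of `P` on the limit. -/
def limHom : L.P →* Equiv.Perm L.Lim :=
  letI := L.limMulAction
  MulAction.toPermHom L.P L.Lim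

theorem limHom_mk (p : L.P) (n : ℕ) (s : L.S) :
    L.limHom p (L.lmk n s) = L.lmk n (L.φ^[n] p • s) := rfl

/-- Action of the stable letter. -/
def limT : Equiv.Perm L.Lim where
  toFun := Quotient.map' (fun a => (a.1, L.τ a.2)) fun a b h => by
    show L.τ^[b.1] (L.τ a.2) = L.τ^[a.1] (L.τ b.2)
    have h' : L.τ^[b.1] a.2 = L.τ^[a.1] b.2 := h
    rw [← Function.iterate_succ_apply, ← Function.iterate_succ_apply,
      Function.iterate_succ_apply', Function.iterate_succ_apply', h']
  invFun := Quotient.map' (fun a => (a.1 + 1, a.2)) fun a b h => by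
    show L.τ^[b.1 + 1] a.2 = L.τ^[a.1 + 1] b.2
    have h' : L.τ^[b.1] a.2 = L.τ^[a.1] b.2 := h
    rw [Function.iterate_succ_apply', Function.iterate_succ_apply', h']
  left_inv x := by
    obtain ⟨n, s, rfl⟩ := L.lmk_surj x
    exact L.lmk_eq.2 rfl
  right_inv x := by
    obtain ⟨n, s, rfl⟩ := L.lmk_surj x
    exact L.lmk_eq.2 rfl

theorem limT_mk (n : ℕ) (s : L.S) : L.limT (L.lmk n s) = L.lmk n (L.τ s) := rfl

/-- Action of the HNN extension on the limit. -/
noncomputable def ascHom : AscG L.φ L.φ_inj →* Equiv.Perm L.Lim :=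
  HNNExtension.lift L.limHom L.limT fun a => by
    ext x
    obtain ⟨n, s, rfl⟩ := L.lmk_surj x
    show L.lmk n (L.τ (L.φ^[n] a • s)) = L.lmk n (L.φ^[n] (L.φ a) • L.τ s)
    rw [L.τ_smul, ← Function.iterate_succ_apply, Function.iterate_succ_apply']

end LoopData

theorem good_of_loop (L : LoopData) :
    ∃ (Γ S : Type) (_ : Group Γ) (_ : MulAction Γ S) (χ : Γ →* Multiplicative ℤ),
      Good Γ S χ ∧ ∃ j : L.P →* χ.ker, Function.Injective j := by
  letI : MulAction (AscG L.φ L.φ_inj) L.Lim := MulAction.compHom L.Lim L.ascHom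
  have hs : ∀ (g : AscG L.φ L.φ_inj) (x : L.Lim), g • x = L.ascHom g x := fun _ _ => rfl
  have ht : ∀ n s, (HNNExtension.t : AscG L.φ L.φ_inj) • L.lmk n s = L.lmk n (L.τ s) := by
    intro n s
    rw [hs, LoopData.ascHom, HNNExtension.lift_t, L.limT_mk]
  have hinj : Function.Injective (HNNExtension.of : L.P →* AscG L.φ L.φ_inj) :=
    HNNExtension.of_injective _
  have h : Setup L (ascChi L.φ L.φ_inj) HNNExtension.t HNNExtension.of (L.lmk 0) :=
    { inj := hinj
      conj := asc_conj _ _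
      chi_t := ascChi_t _ _
      chi_ι := ascChi_of _ _
      ker := asc_ker _ _
      i_inj := fun a b hab => L.lmk_eq.1 hab
      ι_smul := fun p s => by
        rw [hs, LoopData.ascHom, HNNExtension.lift_of, L.limHom_mk]; rfl
      t_smul := ht 0
      cover := fun x => by
        obtain ⟨n, s, rfl⟩ := L.lmk_surj x
        refine ⟨n, s, ?_⟩
        have : ∀ k, (HNNExtension.t : AscG L.φ L.φ_inj) ^ k • L.lmk n s = L.lmk n (L.τ^[k] s) := by
          intro k
          induction k with
          | zero => simp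
          | succ k ih => rw [pow_succ', mul_smul, ih, ht, Function.iterate_succ_apply']
        rw [this]
        exact L.lmk_eq.2 rfl }
  exact ⟨_, _, inferInstance, inferInstance, _, h.good,
    HNNExtension.of.codRestrict _ (ascChi_of _ _), fun a b hab => hinj (congrArg Subtype.val hab)⟩

end Crest.Agent.R185
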