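import Crest.Agent.R185.T4Vert

/-!
# Row 185, T4: constructing elements of `GG` (task R185-T4Match)

PLAN.  `IsChart.opn_compl`: let `Ent` be the set of `b ∈ φ.im` that are not of the form `b₀ ++ [y]` with `b₀ ∈ φ.im`.  It is finite: if `φ.r (a ++ [y]) b` then
`φ.r a b₀` for some `b₀` (`mem_D_of_append`), and `b` is a child of `b₀` unless `(a, b₀)` is one of the finitely many non-`Simple` pairs and `y` is one of the finitely many
exceptional letters of a (chosen) germ there; plus the image of `[]`.  If `p ∉ φ.im` and `p ++ u ∈ φ.im` then `p` is a prefix of an element of `Ent`, which moreover extends `p ++ [first letter of u]`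
(induction on `u` from the right, `List.reverseRecOn`).  A finite set of words has finitely many prefixes.
`match_exists`: `perm_of_rel` with `r a b := ∃ i q, (φ i).r q a ∧ (ψ i).r q b` (`Loc.inv`, `Loc.comp`, `Loc.iUnion`, `Opn.iInter`).
`stab_move`: `lab_exists` if the two tiles coincide, else `swap_exists`; other tiles are fixed (`Tile.gsmul_eq_of_fix`), `Vert.smul_eq_of_mem`.
`orbit_of_bij`: index by `u.T`; `φ t = t.rep`, `ψ t = γ_t • (β t).rep` with `exists_smul_set'`.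
`orbit_of_count`: `f = indicator of n` gives equal fibre cardinalities of `typ`; `Equiv.ofFiberEquiv`.
-/

set_option autoImplicit false

namespace Crest.Agent.R185.T4

open Pointwise

variable {Γ S : Type} [Group Γ] [MulAction Γ S]

theorem finite_prefixes {E : Set (Om S)} (hE : E.Finite) : {p : Om S | ∃ e ∈ E, p <+: e}.Finite := by
  have : {p : Om S | ∃ e ∈ E, p <+: e} = ⋃ e ∈ E, {p | p ∈ e.inits} := by ext; simp
  rw [this]
  exact hE.biUnion fun e _ => List.finite_toSet _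

theorem IsChart.finite_ent {φ : Chart S} (h : IsChart Γ φ) :
    {b | b ∈ φ.im ∧ ¬ ∃ b₀ y, b₀ ∈ φ.im ∧ b = b₀ ++ [y]}.Finite := by
  have h1 : ∀ a, {b | φ.r a b}.Finite := fun a =>
    Set.Subsingleton.finite fun b hb b' hb' => h.func _ _ _ hb hb'
  have h2 : ∀ p : Om S × Om S, φ.r p.1 p.2 → ∃ E : Set (Ltr S), E.Finite ∧
      ∀ y, y ∉ E → ∃ y', φ.r (p.1 ++ [y]) (p.2 ++ [y']) := fun p hp => by
    obtain ⟨γ, d, hf⟩ := h.loc.1 _ _ hp
    refine ⟨_, hf, fun y hy => ?_⟩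
    simp only [Set.mem_ofPred_eq, not_not] at hy
    obtain ⟨y', -, h3⟩ := hy
    exact ⟨y', by simpa using h3 []⟩
  choose! E hE hE' using h2
  refine ((h1 []).union (h.loc.2.biUnion fun p hp =>
    (hE p hp.1).biUnion fun y _ => h1 (p.1 ++ [y]))).subset ?_
  rintro b ⟨⟨q, hq⟩, hn⟩
  rcases List.eq_nil_or_concat q with rfl | ⟨a, y, rfl⟩
  · exact Or.inl hq
  · right
    rw [List.concat_eq_append] at hq
    obtain ⟨b₀, hb₀⟩ := (h.dom a).2 (mem_D_of_append (h.mem_D hq))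
    simp only [Set.mem_iUnion]
    refine ⟨(a, b₀), ⟨hb₀, ?_⟩, y, ?_, hq⟩
    · rintro ⟨γ, hγ⟩
      exact hn ⟨b₀, γ • y, ⟨_, hb₀⟩, h.func _ _ _ hq (by simpa using hγ [y])⟩
    · by_contra hy
      obtain ⟨y', hy'⟩ := hE' (a, b₀) hb₀ y hy
      exact hn ⟨b₀, y', ⟨_, hb₀⟩, h.func _ _ _ hq hy'⟩

theorem IsChart.opn_compl {φ : Chart S} (h : IsChart Γ φ) : Opn Γ φ.imᶜ := by
  have hP := finite_prefixes h.finite_ent
  have key : ∀ p y u, p ∉ φ.im → p ++ y :: u ∈ φ.im →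
      ∃ e ∈ {b | b ∈ φ.im ∧ ¬ ∃ b₀ y, b₀ ∈ φ.im ∧ b = b₀ ++ [y]}, p ++ [y] <+: e := by
    intro p y u hp
    induction u using List.reverseRecOn with
    | nil =>
      intro hu
      refine ⟨_, ⟨hu, ?_⟩, List.prefix_rfl⟩
      rintro ⟨b₀, y', h1, h2⟩
      exact hp ((List.append_inj' h2 rfl).1 ▸ h1)
    | append_singleton u z ih =>
      intro hu
      by_cases h1 : p ++ y :: u ∈ φ.im
      · exact ih h1
      · refine ⟨_, ⟨hu, ?_⟩, ⟨u ++ [z], by simp⟩⟩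
        rintro ⟨b₀, y', h2, h3⟩
        have : p ++ y :: u = b₀ := (List.append_inj' (t₁ := [z]) (t₂ := [y']) (by simpa using h3) rfl).1
        exact h1 (this ▸ h2)
  refine ⟨?_, (hP.image fun p => (p, p)).subset ?_⟩
  · rintro a b ⟨ha, rfl⟩
    refine ⟨1, 0, (hP.preimage (f := fun y => a ++ [y]) (fun y _ y' _ he => by
      simpa using he)).subset fun y hy => ?_⟩
    by_contra hc
    refine hy ⟨y, by simpa using LR.refl_smul (1 : Γ) y, fun u => ⟨fun hu => hc ?_, by simp⟩⟩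
    exact key a y u ha hu
  · rintro ⟨a, b⟩ ⟨⟨ha, he⟩, hn⟩
    simp only at ha he hn
    subst he
    refine ⟨a, ?_, rfl⟩
    by_contra hc
    refine hn ⟨1, fun u => ⟨fun hu => hc ?_, by simp⟩⟩
    rcases u with _ | ⟨y, u⟩
    · exact absurd (by simpa using hu) ha
    · obtain ⟨e, he, h1⟩ := key a y u ha hu
      exact ⟨e, he, (List.prefix_append _ _).trans h1⟩

theorem match_exists {ι : Type} [Finite ι] (φ ψ : ι → Chart S) (hφ : ∀ i, IsChart Γ (φ i))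
    (hψ : ∀ i, IsChart Γ (ψ i)) (hF : ∀ i, (φ i).F = (ψ i).F)
    (dφ : ∀ i j, i ≠ j → Disjoint (φ i).im (φ j).im)
    (dψ : ∀ i j, i ≠ j → Disjoint (ψ i).im (ψ j).im)
    (hU : ∀ p, (∃ i, p ∈ (φ i).im) ↔ ∃ i, p ∈ (ψ i).im) :
    ∃ g : GG Γ S, (∀ i, g • φ i = ψ i) ∧ ∀ p : Om S, (∀ i, p ∉ (φ i).im) → g • p = p := by
  have eφ : ∀ i j p, p ∈ (φ i).im → p ∈ (φ j).im → i = j := fun i j p h1 h2 => by
    by_contra hc; exact Set.disjoint_left.1 (dφ i j hc) h1 h2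
  have eψ : ∀ i j p, p ∈ (ψ i).im → p ∈ (ψ j).im → i = j := fun i j p h1 h2 => by
    by_contra hc; exact Set.disjoint_left.1 (dψ i j hc) h1 h2
  obtain ⟨g, hg, hg'⟩ := perm_of_rel (Γ := Γ)
    (r := fun a b => ∃ i, ∃ q, (φ i).r q a ∧ (ψ i).r q b) (U := {p | ∃ i, p ∈ (φ i).im})
    (Loc.iUnion fun i => (hφ i).loc.inv.comp (hψ i).loc
      (fun x x' y h1 h2 => (hφ i).func _ _ _ h1 h2) (hψ i).func)
    (by
      rintro a b b' ⟨i, q, h1, h2⟩ ⟨j, q', h3, h4⟩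
      obtain rfl := eφ i j a ⟨_, h1⟩ ⟨_, h3⟩
      obtain rfl := (hφ i).inj _ _ _ h1 h3
      exact (hψ i).func _ _ _ h2 h4)
    (by
      rintro a a' b ⟨i, q, h1, h2⟩ ⟨j, q', h3, h4⟩
      obtain rfl := eψ i j b ⟨_, h2⟩ ⟨_, h4⟩
      obtain rfl := (hψ i).inj _ _ _ h2 h4
      exact (hφ i).func _ _ _ h1 h3)
    (fun a => ⟨fun ⟨_, i, q, h1, _⟩ => ⟨i, q, h1⟩, fun ⟨i, q, h1⟩ => by
      obtain ⟨b, hb⟩ := ((hψ i).dom q).2 (hF i ▸ (hφ i).mem_D h1)
      exact ⟨b, i, q, h1, hb⟩⟩)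
    (fun b => ⟨fun ⟨_, i, q, _, h1⟩ => (hU b).2 ⟨i, q, h1⟩, fun hb => by
      obtain ⟨i, q, h1⟩ := (hU b).1 hb
      obtain ⟨a, ha⟩ := ((hφ i).dom q).2 ((hF i).symm ▸ (hψ i).mem_D h1)
      exact ⟨a, i, q, ha, h1⟩⟩)
    (by
      have : {p | ∃ i, p ∈ (φ i).im}ᶜ = ⋂ i, (φ i).imᶜ := by ext; simp
      rw [this]
      exact Opn.iInter fun i => (hφ i).opn_compl)
  refine ⟨g, fun i => ?_, fun p hp => hg' p (by simpa using hp)⟩
  ext q b
  · simp [hF i]
  · rw [gsmul_r]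
    constructor
    · intro h1
      obtain ⟨b', hb'⟩ := ((hψ i).dom q).2 (hF i ▸ (hφ i).mem_D h1)
      have := hg _ _ ⟨i, q, h1, hb'⟩
      rw [smul_inv_smul] at this
      rwa [this]
    · intro h1
      obtain ⟨a, ha⟩ := ((hφ i).dom q).2 ((hF i).symm ▸ (hψ i).mem_D h1)
      rwa [← hg _ _ ⟨i, q, ha, h1⟩, inv_smul_smul]

/-- `g` swaps the charts `φ`, `ψ` and is the identity elsewhere. -/
def IsSwap (g : GG Γ S) (φ ψ : Chart S) : Prop :=
  g • φ = ψ ∧ g • ψ = φ ∧ ∀ p : Om S, p ∉ φ.im → p ∉ ψ.im → g • p = p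

/-- `g` acts on the chart `φ` by the label `γ` and is the identity elsewhere. -/
def IsLab (g : GG Γ S) (φ : Chart S) (γ : Γ) : Prop :=
  g • φ = γ • φ ∧ ∀ p : Om S, p ∉ φ.im → g • p = p

theorem swap_exists {φ ψ : Chart S} (hφ : IsChart Γ φ) (hψ : IsChart Γ ψ) (hF : φ.F = ψ.F)
    (hd : Disjoint φ.im ψ.im) : ∃ g : GG Γ S, IsSwap g φ ψ := by
  obtain ⟨g, h1, h2⟩ := match_exists (Γ := Γ) (ι := Bool) (fun i => cond i φ ψ)
    (fun i => cond i ψ φ) (by rintro (_ | _) <;> simpa) (by rintro (_ | _) <;> simpa)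
    (by rintro (_ | _) <;> simp [hF]) (by rintro (_ | _) (_ | _) <;> simp [hd, hd.symm])
    (by rintro (_ | _) (_ | _) <;> simp [hd, hd.symm]) (by simp [or_comm])
  exact ⟨g, h1 true, h1 false, fun p hp hp' => h2 p (by rintro (_ | _) <;> simpa)⟩

theorem lab_exists {φ : Chart S} (hφ : IsChart Γ φ) {γ : Γ} (h : γ • φ.F = φ.F) :
    ∃ g : GG Γ S, IsLab g φ γ := by
  obtain ⟨g, h1, h2⟩ := match_exists (Γ := Γ) (ι := Unit) (fun _ => φ) (fun _ => γ • φ)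
    (fun _ => hφ) (fun _ => hφ.smul γ) (fun _ => h.symm) (by simp) (by simp) (by simp)
  exact ⟨g, h1 (), fun p hp => h2 p fun _ => hp⟩

theorem stab_move (u : Vert Γ S) {φ ψ : Chart S} (hφ : tl Γ φ ∈ u.T) (hψ : tl Γ ψ ∈ u.T)
    (hF : φ.F = ψ.F) : ∃ g : GG Γ S, g • u = u ∧ g • φ = ψ := by
  have cφ : IsChart Γ φ := by simpa using u.valid _ hφ
  have cψ : IsChart Γ ψ := by simpa using u.valid _ hψ
  by_cases he : tl Γ φ = tl Γ ψ
  · obtain ⟨γ, rfl⟩ := mk_eq_iff.1 he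
    obtain ⟨g, h1, h2⟩ := lab_exists cφ (γ := γ) hF.symm
    refine ⟨g, Vert.smul_eq_of_mem fun t ht => ?_, h1⟩
    by_cases h3 : t = tl Γ φ
    · rw [h3, gsmul_mk, h1]; exact hψ
    · rwa [Tile.gsmul_eq_of_fix fun p hp => h2 p fun hp' =>
        h3 (u.uniq _ ht _ hφ p hp (by simpa))]
  · obtain ⟨g, h1, h2, h3⟩ := swap_exists cφ cψ hF (by simpa using u.disjoint_im hφ hψ he)
    refine ⟨g, Vert.smul_eq_of_mem fun t ht => ?_, h1⟩
    by_cases h4 : t = tl Γ φ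
    · rw [h4, gsmul_mk, h1]; exact hψ
    by_cases h5 : t = tl Γ ψ
    · rw [h5, gsmul_mk, h2]; exact hφ
    rwa [Tile.gsmul_eq_of_fix fun p hp => h3 p
      (fun hp' => h4 (u.uniq _ ht _ hφ p hp (by simpa)))
      (fun hp' => h5 (u.uniq _ ht _ hψ p hp (by simpa)))]

theorem orbit_of_bij [Hyp Γ S] (u v : Vert Γ S) (β : Tile Γ S → Tile Γ S)
    (hβ : Set.BijOn β u.T v.T) (htyp : ∀ t ∈ u.T, (β t).typ = t.typ) :
    ∃ g : GG Γ S, g • u = v ∧ ∀ t ∈ u.T, g • t = β t := by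
  have h1 : ∀ t : u.T, ∃ γ : Γ, γ • (β t).rep.F = t.1.rep.F := fun t =>
    exists_smul_set' (IsChart.fin (v.valid _ (hβ.mapsTo t.2))) (IsChart.fin (u.valid _ t.2))
      (htyp _ t.2)
  choose γ hγ using h1
  obtain ⟨g, hg, -⟩ := match_exists (Γ := Γ) (ι := u.T) (fun t => t.1.rep)
    (fun t => γ t • (β t).rep) (fun t => u.valid _ t.2)
    (fun t => IsChart.smul (v.valid _ (hβ.mapsTo t.2)) _) (fun t => (hγ t).symm)
    (fun t t' hne => u.disjoint_im t.2 t'.2 fun he => hne (Subtype.ext he))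
    (fun t t' hne => by
      simp only [im_smul]
      exact v.disjoint_im (hβ.mapsTo t.2) (hβ.mapsTo t'.2) fun he =>
        hne (Subtype.ext (hβ.injOn t.2 t'.2 he)))
    (fun p => by
      refine iff_of_true ?_ ?_
      · obtain ⟨t, ht, hp⟩ := u.cover p
        exact ⟨⟨t, ht⟩, hp⟩
      · obtain ⟨t, ht, hp⟩ := v.cover p
        obtain ⟨t', ht', rfl⟩ := hβ.surjOn ht
        exact ⟨⟨t', ht'⟩, by rw [im_smul]; exact hp⟩)
  have h2 : ∀ t ∈ u.T, g • t = β t := fun t ht => by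
    have := congrArg (tl Γ) (hg ⟨t, ht⟩)
    rwa [← gsmul_mk, mk_smul, Tile.mk_rep, Tile.mk_rep] at this
  exact ⟨g, Vert.smul_eq_of_mem fun t ht => h2 t ht ▸ hβ.mapsTo ht, h2⟩

theorem orbit_of_count [Hyp Γ S] (u v : Vert Γ S)
    (h : ∀ f : ℕ → ℕ, ∑ t ∈ u.T, f t.typ = ∑ t ∈ v.T, f t.typ) : ∃ g : GG Γ S, g • u = v := by
  classical
  have hc : ∀ n : ℕ, Fintype.card {a : u.T // a.1.typ = n} = Fintype.card {a : v.T // a.1.typ = n} := by
    intro n
    have := h fun m => if m = n then 1 else 0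
    rw [Fintype.card_subtype, Fintype.card_subtype, Finset.card_filter, Finset.card_filter,
      Finset.sum_coe_sort u.T fun t => if t.typ = n then 1 else 0,
      Finset.sum_coe_sort v.T fun t => if t.typ = n then 1 else 0]
    exact this
  let e : u.T ≃ v.T := Equiv.ofFiberEquiv (f := fun a : u.T => a.1.typ) (g := fun a : v.T => a.1.typ)
    fun n => Fintype.equivOfCardEq (hc n)
  have he : ∀ a, (e a).1.typ = a.1.typ := fun a =>
    Equiv.ofFiberEquiv_map (f := fun a : u.T => a.1.typ) (g := fun a : v.T => a.1.typ) _ a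
  obtain ⟨g, hg, -⟩ := orbit_of_bij u v (fun t => if ht : t ∈ u.T then e ⟨t, ht⟩ else t)
    ⟨fun t ht => by simp [Finset.mem_coe.1 ht], fun t ht t' ht' h1 => by
      simp only [Finset.mem_coe.1 ht, Finset.mem_coe.1 ht', dite_true] at h1
      exact congrArg Subtype.val (e.injective (Subtype.ext h1)), fun t ht =>
      ⟨(e.symm ⟨t, ht⟩).1, (e.symm ⟨t, ht⟩).2, by simp⟩⟩
    (fun t ht => by simp [ht, he])
  exact ⟨g, hg⟩

end Crest.Agent.R185.T4
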