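import Crest.Agent.R185.T4Dir
import Crest.Agent.R185.T4Match

/-!
# Row 185, T4: `GG` is normally generated by the vertex stabilisers (task R185-T4Gen)

PLAN.  Fix `N` normal containing all stabilisers; `v ≈ w :↔ ∃ h ∈ N, h • v = w` (an equivalence relation, `GG`-invariant).
* (M1) `Exp u v φ s`, `Exp u w φ' s'`, `φ.F.ncard = φ'.F.ncard`, `s.isSome = s'.isSome` ⇒ `v ≈ w`: `exists_smul_set`/`exists_smul_set'` gives `γ` with `γ • φ'.F = φ.F`, `s'.map (γ • ·) = s`;
  `Exp.smul`, `stab_move`, `Exp.gsmul`, `Exp.unique`.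
* (cancel) `g • v = w`, `Exp v v₁ φ s`, `Exp w w₁ ψ s'` with equal types and `isSome`, and `v₁ ≈ w₁` ⇒ `v ≈ w`: `g • v₁ ≈ w₁` by (M1), so `h⁻¹ g` stabilises `v₁` for some `h ∈ N`, so `g ∈ N`.
* (M2, translation) two star expansions `Exp u v φ none`, `Exp u w φ' none` of different types are `≈`: induction on the difference of the types; say `φ.F.ncard < φ'.F.ncard` (so the tiles differ); pick `a ∉ φ.F`,
  `u₁` with `Exp u u₁ φ (some a)`; `diamond_same` gives `v₁` with `Exp v v₁ (root φ none) (some a)`, `Exp u₁ v₁ (root φ (some a)) none`; `diamond_diff` gives `w₁` with `Exp w w₁ φ (some a)`,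
  `Exp u₁ w₁ φ' none`; induction gives `v₁ ≈ w₁`; `v`, `w` are in one orbit (`orbit_of_count`, `Exp.sum`); (cancel).
  Hence (M): `KStep x u v`, `KStep x u w` ⇒ `v ≈ w`.
* (D) `KStep x u v`, `KStep y u w`, `x ≠ y` ⇒ `∃ z, KStep y v z ∧ KStep x w z` (`Exp.of_chart`, diamonds; if the tiles coincide then exactly one of the slots is the star slot).
* `Path : List (Option ℕ) → Vert → Vert → Prop` inductive.  (pull) `KStep x u u₁`, `Path β u w`, `x ∈ β` ⇒ `∃ w', Path (β.erase x) u₁ w' ∧ w' ≈ w` (induction on `β`).  Hence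
  `Path α u v`, `Path β u w`, `α ~ β` (`List.Perm`) ⇒ `v ≈ w`.
* (count) `Path α o v` ⇒ `α.count (some n) = ∑ t ∈ v.T, if n < t.typ then 1 else 0` and `α.count none = v.exc` (`Exp.sum`, `Exp.exc_eq`, `Exp.ncard_root`).
* For `g`: `z ≥ o, g⁻¹ • o` (`vert_directed`), so `o ≤ z`, `o ≤ g • z`; `le_path` gives paths with the same counts (`Vert.sum_smul`, `List.perm_iff_count`), `z ≈ g • z`, so `g ∈ N`.
-/

set_option autoImplicit false

namespace Crest.Agent.R185.T4

open Pointwise

variable {Γ S : Type} [Group Γ] [MulAction Γ S]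

/-- equivalence of vertices modulo `N` -/
def Eqv (N : Subgroup (GG Γ S)) (v w : Vert Γ S) : Prop := ∃ k ∈ N, k • v = w

theorem Eqv.refl (N : Subgroup (GG Γ S)) (v : Vert Γ S) : Eqv N v v := ⟨1, N.one_mem, one_smul _ _⟩

theorem Eqv.symm {N : Subgroup (GG Γ S)} {v w : Vert Γ S} (h : Eqv N v w) : Eqv N w v :=
  let ⟨k, hk, he⟩ := h
  ⟨k⁻¹, N.inv_mem hk, by rw [← he, inv_smul_smul]⟩

theorem Eqv.trans {N : Subgroup (GG Γ S)} {u v w : Vert Γ S} (h : Eqv N u v) (h' : Eqv N v w) :
    Eqv N u w :=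
  let ⟨k, hk, he⟩ := h
  let ⟨k', hk', he'⟩ := h'
  ⟨k' * k, N.mul_mem hk' hk, by rw [mul_smul, he, he']⟩

theorem KStep.gsmul {x : Option ℕ} {u v : Vert Γ S} (h : KStep x u v) (g : GG Γ S) :
    KStep x (g • u) (g • v) :=
  let ⟨φ, s, h1, h2⟩ := h
  ⟨g • φ, s, h1.gsmul g, h2⟩

/-- paths of expansions with prescribed kinds -/
inductive KPath : List (Option ℕ) → Vert Γ S → Vert Γ S → Prop
  | nil (u : Vert Γ S) : KPath [] u u
  | cons {x : Option ℕ} {β : List (Option ℕ)} {u u₁ w : Vert Γ S} :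
      KStep x u u₁ → KPath β u₁ w → KPath (x :: β) u w

theorem KPath.gsmul {α : List (Option ℕ)} {u v : Vert Γ S} (h : KPath α u v) (g : GG Γ S) :
    KPath α (g • u) (g • v) := by
  induction h with
  | nil u => exact .nil _
  | cons h _ ih => exact .cons (h.gsmul g) ih

theorem exists_kpath {u v : Vert Γ S} (h : u ≤ v) : ∃ α, KPath α u v := by
  have := le_path h
  clear h
  induction this using Relation.ReflTransGen.head_induction_on with
  | refl => exact ⟨[], .nil _⟩
  | head h _ ih =>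
    obtain ⟨φ, s, h⟩ := h
    obtain ⟨α, hα⟩ := ih
    exact ⟨kind φ s :: α, .cons ⟨φ, s, h, rfl⟩ hα⟩

theorem KStep.diamond {x y : Option ℕ} {u v w : Vert Γ S} (h : KStep x u v) (h' : KStep y u w)
    (hne : x ≠ y) : ∃ z, KStep y v z ∧ KStep x w z := by
  obtain ⟨φ, s, h, rfl⟩ := h
  obtain ⟨φ', s', h', rfl⟩ := h'
  by_cases he : tl Γ φ = tl Γ φ'
  · obtain ⟨s'', h'', hk, -⟩ := h'.of_chart he.symm
    rw [← hk] at hne ⊢
    obtain ⟨z, h1, h2⟩ := diamond_same h h'' (by rintro rfl; exact hne rfl)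
    refine ⟨z, ⟨_, _, h1, ?_⟩, ⟨_, _, h2, ?_⟩⟩ <;> cases s <;> cases s'' <;> simp_all [kind]
  · obtain ⟨z, h1, h2⟩ := diamond_diff h h' he
    exact ⟨z, ⟨_, _, h1, rfl⟩, ⟨_, _, h2, rfl⟩⟩

theorem KStep.count_some {x : Option ℕ} {u v : Vert Γ S} (h : KStep x u v) (n : ℕ) :
    ∑ t ∈ v.T, (if n < t.typ then 1 else 0) =
      ∑ t ∈ u.T, (if n < t.typ then 1 else 0) + if x = some n then 1 else 0 := by
  obtain ⟨φ, s, h, rfl⟩ := h
  have h1 := h.sum fun m => if n < m then 1 else 0
  rw [h.ncard_root] at h1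
  cases s with
  | none => simpa [kind] using h1
  | some w =>
    simp only [Option.isSome_some, if_true, Nat.not_lt_zero, if_false, mul_zero, add_zero] at h1
    simp only [kind, Option.map_some, Option.some.injEq]
    split_ifs at h1 ⊢ <;> omega

theorem KStep.count_none {x : Option ℕ} {u v : Vert Γ S} (h : KStep x u v) :
    v.exc = u.exc + if x = none then 1 else 0 := by
  obtain ⟨φ, s, h, rfl⟩ := h
  rw [h.exc_eq]
  cases s <;> simp [kind]

theorem KPath.count_some {α : List (Option ℕ)} {u v : Vert Γ S} (h : KPath α u v) (n : ℕ) :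
    ∑ t ∈ v.T, (if n < t.typ then 1 else 0) =
      ∑ t ∈ u.T, (if n < t.typ then 1 else 0) + α.count (some n) := by
  induction h with
  | nil u => simp
  | cons h _ ih =>
    rw [ih, h.count_some n, List.count_cons]
    simp only [beq_iff_eq]
    ring

theorem KPath.count_none {α : List (Option ℕ)} {u v : Vert Γ S} (h : KPath α u v) :
    v.exc = u.exc + α.count none := by
  induction h with
  | nil u => simp
  | cons h _ ih =>
    rw [ih, h.count_none, List.count_cons]
    simp only [beq_iff_eq]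
    push_cast
    ring

section
variable [Hyp Γ S] {N : Subgroup (GG Γ S)} (hN : ∀ (u : Vert Γ S) (g : GG Γ S), g • u = u → g ∈ N)
include hN

omit [Hyp Γ S] in
theorem mem_of_eqv {v : Vert Γ S} {g : GG Γ S} (h : Eqv N v (g • v)) : g ∈ N := by
  obtain ⟨k, hk, he⟩ := h
  have := hN v (k⁻¹ * g) (by rw [mul_smul, ← he, inv_smul_smul])
  simpa using N.mul_mem hk this

theorem eqv_of_same {u v w : Vert Γ S} {φ φ' : Chart S} {s s' : Option S} (h : Exp u v φ s)
    (h' : Exp u w φ' s') (hc : φ.F.ncard = φ'.F.ncard) (hs : s.isSome = s'.isSome) : Eqv N v w := by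
  obtain ⟨γ, hγ, rfl⟩ : ∃ γ : Γ, γ • φ'.F = φ.F ∧ s'.map (γ • ·) = s := by
    cases s with
    | none =>
      cases s' with
      | none =>
        obtain ⟨γ, hγ⟩ := exists_smul_set' (Γ := Γ) h'.chart.fin h.chart.fin hc.symm
        exact ⟨γ, hγ, rfl⟩
      | some w' => simp at hs
    | some w =>
      cases s' with
      | none => simp at hs
      | some w' =>
        obtain ⟨γ, hγ, hw⟩ := exists_smul_set (Γ := Γ) h'.chart.fin h.chart.fin hc.symm
          (w := w') (w' := w) (by simpa using h'.ok) (by simpa using h.ok)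
        exact ⟨γ, hγ, by simp [hw]⟩
  have h2 := h'.smul γ
  obtain ⟨g, hg, hφ⟩ := stab_move u h.mem h2.mem hγ.symm
  have h3 := h.gsmul g
  rw [hg, hφ] at h3
  exact ⟨g, hN u g hg, h3.unique h2⟩

theorem eqv_cancel {v w v₁ w₁ : Vert Γ S} {φ ψ : Chart S} {s s' : Option S} {g : GG Γ S}
    (hg : g • v = w) (h : Exp v v₁ φ s) (h' : Exp w w₁ ψ s') (hc : φ.F.ncard = ψ.F.ncard)
    (hs : s.isSome = s'.isSome) (he : Eqv N v₁ w₁) : Eqv N v w := by
  have h1 := h.gsmul g
  rw [hg] at h1
  exact ⟨g, mem_of_eqv hN (he.trans (eqv_of_same hN h1 h' hc hs).symm), hg⟩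

theorem eqv_star (d : ℕ) : ∀ {u v w : Vert Γ S} {φ φ' : Chart S}, Exp u v φ none →
    Exp u w φ' none → φ'.F.ncard = φ.F.ncard + d → Eqv N v w := by
  induction d with
  | zero => exact fun h h' hc => eqv_of_same hN h h' hc.symm rfl
  | succ d ih =>
    intro u v w φ φ' h h' hc
    have := Hyp.inf Γ (S := S)
    have hne : tl Γ φ ≠ tl Γ φ' := fun he => by
      have := congrArg Tile.typ he
      simp only [typ_mk] at this
      omega
    obtain ⟨a, ha⟩ := h.chart.fin.exists_notMem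
    obtain ⟨u₁, hu₁⟩ := exp_exists u h.chart h.mem (s := some a) (by simpa using ha)
    obtain ⟨v₁, hv₁, hv₁'⟩ := diamond_same h hu₁ (by simp)
    obtain ⟨w₁, hw₁', hw₁⟩ := diamond_diff hu₁ h' hne
    have h1 := ih hv₁' hw₁' (by rw [hu₁.ncard_root, hc]; simp only [Option.isSome_some, if_true]; ring)
    obtain ⟨g, hg⟩ := orbit_of_count v w fun f => by
      have e1 := h.sum f
      have e2 := h'.sum f
      rw [root_F_none] at e1 e2
      omega
    exact eqv_cancel hN hg hv₁ hw₁ rfl rfl h1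

theorem KStep.eqv {x : Option ℕ} {u v w : Vert Γ S} (h : KStep x u v) (h' : KStep x u w) :
    Eqv N v w := by
  obtain ⟨φ, s, h, rfl⟩ := h
  obtain ⟨φ', s', h', hk⟩ := h'
  cases s with
  | none =>
    cases s' with
    | none =>
      rcases le_total φ.F.ncard φ'.F.ncard with hle | hle
      · exact eqv_star hN _ h h' (Nat.add_sub_cancel' hle).symm
      · exact (eqv_star hN _ h' h (Nat.add_sub_cancel' hle).symm).symm
    | some w' => simp [kind] at hk
  | some w =>
    cases s' with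
    | none => simp [kind] at hk
    | some w' => exact eqv_of_same hN h h' (by simpa [kind] using hk.symm) rfl

theorem KPath.pull {β : List (Option ℕ)} {u w : Vert Γ S} (h : KPath β u w) :
    ∀ {x : Option ℕ} {u₁ : Vert Γ S}, KStep x u u₁ → x ∈ β →
      ∃ w', KPath (β.erase x) u₁ w' ∧ Eqv N w' w := by
  induction h with
  | nil u => intro x u₁ _ hx; simp at hx
  | @cons y β u u' w hy hp ih =>
    intro x u₁ hx hm
    by_cases he : y = x
    · subst he
      obtain ⟨k, hk, rfl⟩ := KStep.eqv hN hy hx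
      exact ⟨k • w, by simpa using hp.gsmul k, Eqv.symm ⟨k, hk, rfl⟩⟩
    · obtain ⟨z, h1, h2⟩ := hx.diamond hy (Ne.symm he)
      obtain ⟨w', h3, h4⟩ := ih h2 ((List.mem_cons.1 hm).resolve_left (Ne.symm he))
      exact ⟨w', by rw [List.erase_cons_tail (by simpa using he)]; exact .cons h1 h3, h4⟩

theorem KPath.eqv {α : List (Option ℕ)} {u v : Vert Γ S} (h : KPath α u v) :
    ∀ {β : List (Option ℕ)} {w : Vert Γ S}, KPath β u w → α.Perm β → Eqv N v w := by
  induction h with
  | nil u =>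
    intro β w h' hp
    obtain rfl := hp.nil_eq
    cases h'
    exact Eqv.refl _ _
  | cons hx _ ih =>
    intro β w h' hp
    obtain ⟨h1, h2⟩ := List.cons_perm_iff_perm_erase.1 hp
    obtain ⟨w', h3, h4⟩ := h'.pull hN hx h1
    exact (ih h3 h2).trans h4

end

theorem gen_of_stab [Hyp Γ S] (N : Subgroup (GG Γ S)) [N.Normal]
    (h : ∀ (u : Vert Γ S) (g : GG Γ S), g • u = u → g ∈ N) : N = ⊤ := by
  refine eq_top_iff.2 fun g _ => ?_
  obtain ⟨z, h1, h2⟩ := vert_directed (o Γ S) (g⁻¹ • o Γ S)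
  have h3 : o Γ S ≤ g • z := by simpa using Vert.smul_le h2 g
  obtain ⟨α, hα⟩ := exists_kpath h1
  obtain ⟨β, hβ⟩ := exists_kpath h3
  refine mem_of_eqv h (hα.eqv h hβ (List.perm_iff_count.2 fun x => ?_))
  cases x with
  | none =>
    have e1 := hα.count_none
    have e2 := hβ.count_none
    rw [Vert.exc_smul] at e2
    omega
  | some n =>
    have e1 := hα.count_some n
    have e2 := hβ.count_some n
    rw [Vert.sum_smul g z fun m => if n < m then 1 else 0] at e2
    omega

end Crest.Agent.R185.T4
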