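import Crest.Agent.R185.T4KillB
import Crest.Agent.R185.T4Gen

/-!
# Row 185, T4: Higman's trick and simplicity (task R185-T4Hig)

PLAN.  (S1) `1 ≠ x ∈ N` moves a point `p`; by the germ of `x` at `(p, x • p)` there are infinitely many letters `y` with `x` mapping `cone (p ++ [y])` onto `cone (x • p ++ [y'])` (`LR γ d y y'`);
two cones are disjoint unless one node is a prefix of the other (`List.prefix_or_prefix_of_prefix`); `p ++ [y] <+: x•p ++ [y']` forces `p ++ [y] <+: x • p` (at most one `y`) since `p ≠ x • p`, symmetrically at most one `y'`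
(`LR.inj`).  So some cone `Z = cone a` has `x Z ∩ Z = ∅`.  For `b, c` supported in `Z` (identity off `Z`): `n = b x b⁻¹ x⁻¹ ∈ N`, `x b⁻¹ x⁻¹` is supported in `x Z` and commutes with `b, c`, so
`⁅n, c⁆ = ⁅b, c⁆ ∈ N`.
(S2) for nodes `a, a'` there is `t ∈ GG` mapping the complement of `cone a'` into `cone a`: choose children `c = a' ++ [y']`, `e = a ++ [y]` with disjoint cones (infinitely many letters); `t₁` = the involution exchanging
`p ∉ cone a'` with `c ++ p` (`perm_of_rel` with `r₀ p q := p ∉ cone a' ∧ c ++ p = q`, `r = r₀ ∪ r₀⁻¹`; `Opn (cone b)ᶜ` is `IsChart.opn_compl` for `sub idc ⟨b,∅,0⟩` (`im_sub_idc`, `set_cone`), `Opn (cone b)` is easy (or the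
range of `loc_prefix`); the complement of the support is `cone a' ∩ ((cone c)ᶜ ∪ cone (c ++ a'))`); `t₂` = swap of the cones `c`, `e` (`swap_exists`).
(S3) the image of a chart contains a cone (a `Simple` pair: only finitely many of the infinitely many pairs `([n k], _)` are not simple).  So `x, s` fixing `β.im` fix a cone `a'` pointwise, their `t`-conjugates are supported in `Z`.
`GG` is nontrivial (swap of two cones).
-/

set_option autoImplicit false

namespace Crest.Agent.R185.T4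

open Pointwise

variable {Γ S : Type} [Group Γ] [MulAction Γ S]

theorem finite_child_prefix (p q : Om S) : {y : Ltr S | p ++ [y] <+: q}.Finite :=
  Set.Subsingleton.finite fun y hy y' hy' => by
    have h1 : p ++ [y] <+: p ++ [y'] := List.prefix_of_prefix_length_le hy hy' (by simp)
    simpa using h1.eq_of_length (by simp)

/-- (S1) a nontrivial element moves some cone off itself -/
theorem exists_moved_cone {x : GG Γ S} (hx : x ≠ 1) : ∃ a : Om S, ∀ q ∈ cone a, x • q ∉ cone a := by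
  obtain ⟨p, hp⟩ : ∃ p : Om S, x • p ≠ p := by
    by_contra hc
    push Not at hc
    exact hx (GG.ext' fun p => by rw [hc p, one_smul])
  obtain ⟨γ, d, hE⟩ := (GG.loc x).1 p _ rfl
  obtain ⟨y, hy⟩ := ((hE.union (finite_child_prefix p (x • p))).union
    (LR.finite_pre γ d (finite_child_prefix (x • p) p))).exists_notMem
  simp only [Set.mem_union, Set.mem_ofPred_eq, not_or, not_not] at hy
  obtain ⟨⟨⟨y', h1, h2⟩, h3⟩, h4⟩ := hy
  refine ⟨p ++ [y], ?_⟩
  rintro _ ⟨u, rfl⟩ hq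
  have h5 : x • (p ++ [y] ++ u) = x • p ++ [y'] ++ γ • u := by simpa using h2 u
  rw [h5] at hq
  rcases List.prefix_or_prefix_of_prefix hq (List.prefix_append _ _) with h | h
  · rcases List.prefix_concat_iff.1 h with h | h
    · exact hp (List.append_inj_left' h rfl).symm
    · exact h3 h
  · rcases List.prefix_concat_iff.1 h with h | h
    · exact hp (List.append_inj_left' h rfl)
    · exact h4 ⟨y', h, h1⟩

theorem GG.commute_of_disjoint {b e : GG Γ S} (h : ∀ p : Om S, b • p = p ∨ e • p = p) :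
    b * e = e * b :=
  Subtype.ext (Equiv.Perm.Disjoint.commute (f := (b : Equiv.Perm (Om S))) (g := e) h).eq

/-- Higman's trick -/
theorem comm_mem_of_moved (N : Subgroup (GG Γ S)) [N.Normal] {x : GG Γ S} (hx : x ∈ N)
    {Z : Set (Om S)} (hZ : ∀ q ∈ Z, x • q ∉ Z) {b c : GG Γ S} (hb : ∀ p ∉ Z, b • p = p)
    (hc : ∀ p ∉ Z, c • p = p) : b * c * b⁻¹ * c⁻¹ ∈ N := by
  have he : ∀ p ∈ Z, (x * b⁻¹ * x⁻¹) • p = p := fun p hp => by
    have : x⁻¹ • p ∉ Z := fun h => hZ _ h (by simpa using hp)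
    rw [mul_smul, mul_smul, inv_fix_pt (hb _ this), smul_inv_smul]
  have h1 : c * (x * b⁻¹ * x⁻¹) = (x * b⁻¹ * x⁻¹) * c := GG.commute_of_disjoint fun p => by
    by_cases hp : p ∈ Z
    exacts [Or.inr (he p hp), Or.inl (hc p hp)]
  have hn : b * x * b⁻¹ * x⁻¹ ∈ N :=
    N.mul_mem (‹N.Normal›.conj_mem x hx b) (N.inv_mem hx)
  have h2 := N.mul_mem hn (‹N.Normal›.conj_mem _ (N.inv_mem hn) c)
  have h3 : b * x * b⁻¹ * x⁻¹ * (c * (b * x * b⁻¹ * x⁻¹)⁻¹ * c⁻¹) =
      b * ((x * b⁻¹ * x⁻¹) * c) * (x * b⁻¹ * x⁻¹)⁻¹ * b⁻¹ * c⁻¹ := by group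
  rw [h3, ← h1] at h2
  convert h2 using 1
  group

/-- the standard chart of a cone -/
def cch (b : Om S) : Chart S := sub idc ⟨b, ∅, 0⟩

theorem isChart_cch (b : Om S) : IsChart Γ (cch b) :=
  isChart_idc.sub (valid_empty Set.finite_empty)

@[simp] theorem im_cch (b : Om S) : (cch b).im = cone b := by rw [cch, im_sub_idc, set_cone]

theorem opn_cone (b : Om S) : Opn Γ (cone b) := by
  have hs : ∀ a c : Om S, a ∈ cone b ∧ a = c → Simple Γ (fun a c => a ∈ cone b ∧ a = c) a c := by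
    rintro a _ ⟨ha, rfl⟩
    exact ⟨1, fun u => ⟨List.IsPrefix.trans ha (List.prefix_append _ _), by simp⟩⟩
  exact ⟨fun a c h => (hs a c h).germ, Set.finite_empty.subset fun p hp => hp.2 (hs _ _ hp.1)⟩

theorem opn_cone_compl (b : Om S) : Opn Γ (cone b)ᶜ := by
  simpa using (isChart_cch (Γ := Γ) b).opn_compl

theorem exists_into_child (a' : Om S) (y' : Ltr S) :
    ∃ t : GG Γ S, ∀ p ∉ cone a', t • p ∈ cone (a' ++ [y']) := by
  set c := a' ++ [y'] with hc
  have hcc : ∀ q : Om S, c ++ q ∈ cone a' := fun q => ⟨y' :: q, by simp [hc]⟩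
  have h0 : Loc Γ (fun p q => p ∈ (cone a')ᶜ ∧ c ++ p = q) :=
    (loc_prefix c).restrict (opn_cone_compl a') (by rintro _ _ _ rfl rfl; rfl)
  let r : Om S → Om S → Prop := fun p q =>
    (p ∈ (cone a')ᶜ ∧ c ++ p = q) ∨ (q ∈ (cone a')ᶜ ∧ c ++ q = p)
  have hr : Loc Γ r := h0.union h0.inv
  have hsymm : ∀ p q, r p q → r q p := fun p q h => h.symm
  have hfunc : ∀ y z z', r y z → r y z' → z = z' := by
    rintro y z z' (⟨h1, rfl⟩ | ⟨h1, rfl⟩) (⟨h2, h3⟩ | ⟨h2, h3⟩)
    · exact h3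
    · exact absurd (h3 ▸ hcc z') h1
    · exact absurd (hcc z) h2
    · exact (List.append_cancel_left h3).symm
  have hU : {a | ∃ b, r a b}ᶜ = cone a' ∩ ((cone c)ᶜ ∪ cone (c ++ a')) := by
    ext p
    simp only [Set.mem_compl_iff, Set.mem_ofPred_eq, Set.mem_inter_iff, Set.mem_union, r]
    constructor
    · intro h
      refine ⟨by_contra fun h1 => h ⟨_, Or.inl ⟨h1, rfl⟩⟩, ?_⟩
      by_cases h2 : p ∈ cone c
      · obtain ⟨q, rfl⟩ := h2
        obtain ⟨u, rfl⟩ : q ∈ cone a' := by_contra fun h1 => h ⟨_, Or.inr ⟨h1, rfl⟩⟩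
        exact Or.inr ⟨u, by simp⟩
      · exact Or.inl h2
    · rintro ⟨h1, h2⟩ ⟨q, ⟨h3, -⟩ | ⟨h3, rfl⟩⟩
      · exact h3 h1
      · rcases h2 with h2 | h2
        · exact h2 ⟨q, rfl⟩
        · exact h3 ((List.prefix_append_right_inj c).1 h2)
  obtain ⟨t, ht, -⟩ := perm_of_rel (U := {a | ∃ b, r a b}) hr hfunc
    (fun x x' y h h' => hfunc y x x' (hsymm _ _ h) (hsymm _ _ h')) (fun _ => Iff.rfl)
    (fun b => ⟨fun ⟨a, h⟩ => ⟨a, hsymm _ _ h⟩, fun ⟨a, h⟩ => ⟨a, hsymm _ _ h⟩⟩)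
    (by rw [hU]; exact (opn_cone a').inter ((opn_cone_compl c).union (opn_cone _)))
  exact ⟨t, fun p hp => by rw [ht p _ (Or.inl ⟨hp, rfl⟩)]; exact ⟨p, rfl⟩⟩

/-- (S2) the complement of a cone can be moved into any cone -/
theorem exists_into_cone (a a' : Om S) : ∃ t : GG Γ S, ∀ p ∉ cone a', t • p ∈ cone a := by
  obtain ⟨y', hy'⟩ := (finite_child_prefix a' a).exists_notMem
  obtain ⟨y, hy⟩ := (finite_child_prefix a (a' ++ [y'])).exists_notMem
  have hd : Disjoint (cone (a' ++ [y'])) (cone (a ++ [y])) := by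
    refine Set.disjoint_left.2 fun q h1 h2 => ?_
    rcases List.prefix_or_prefix_of_prefix h1 h2 with h | h
    · rcases List.prefix_concat_iff.1 h with h | h
      · exact hy (by rw [Set.mem_ofPred_eq, h])
      · exact hy' h
    · exact hy h
  obtain ⟨t₁, ht₁⟩ := exists_into_child (Γ := Γ) a' y'
  obtain ⟨t₂, ht₂⟩ := swap_exists (isChart_cch (Γ := Γ) (a' ++ [y'])) (isChart_cch (a ++ [y])) rfl
    (by simpa using hd)
  refine ⟨t₂ * t₁, fun p hp => ?_⟩
  have : (t₂ * t₁) • p ∈ (t₂ • cch (a' ++ [y'])).im := by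
    simpa [mul_smul] using ht₁ p hp
  rw [ht₂.1, im_cch] at this
  exact (List.prefix_append a [y]).trans this

/-- (S3) the image of a chart contains a cone -/
theorem IsChart.exists_cone {β : Chart S} (h : IsChart Γ β) : ∃ a, cone a ⊆ β.im := by
  choose b hb using fun k => (h.dom [Ltr.n k]).2 (by simp)
  have hinj : Function.Injective fun k => (([Ltr.n k] : Om S), b k) := fun k l hkl => by
    simpa using congrArg Prod.fst hkl
  obtain ⟨k, hk⟩ := (h.loc.2.preimage hinj.injOn).exists_notMem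
  simp only [Set.mem_preimage, Set.mem_ofPred_eq, not_and, not_not] at hk
  obtain ⟨γ, hγ⟩ := hk (hb k)
  refine ⟨b k, ?_⟩
  rintro _ ⟨u, rfl⟩
  exact ⟨_, by simpa using hγ (γ⁻¹ • u)⟩

theorem room_of_ne_bot (N : Subgroup (GG Γ S)) [N.Normal] (hN : N ≠ ⊥) : Room N := by
  obtain ⟨⟨x₀, hx₀⟩, hne⟩ := (Subgroup.ne_bot_iff_exists_ne_one).1 hN
  obtain ⟨a, ha⟩ := exists_moved_cone (x := x₀) (by simpa using hne)
  intro β hβ x s hx hs
  obtain ⟨a', ha'⟩ := hβ.exists_cone
  obtain ⟨t, ht⟩ := exists_into_cone (Γ := Γ) a a'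
  have key : ∀ g : GG Γ S, (∀ p ∈ β.im, g • p = p) → ∀ p ∉ cone a, (t * g * t⁻¹) • p = p := by
    intro g hg p hp
    have : t⁻¹ • p ∈ cone a' := by_contra fun hc => hp (by simpa using ht _ hc)
    rw [mul_smul, mul_smul, hg _ (ha' this), smul_inv_smul]
  have := ‹N.Normal›.conj_mem _ (comm_mem_of_moved N hx₀ ha (key s hs) (key x hx)) t⁻¹
  convert this using 1
  group

theorem GG_nontrivial : Nontrivial (GG Γ S) := by
  have hd := (isChart_idc (Γ := Γ) (S := S)).disj_leafn (k := 0) (l := 1) (by omega)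
  obtain ⟨g, hg⟩ := swap_exists ((isChart_idc (Γ := Γ) (S := S)).leafn 0) (isChart_idc.leafn 1) rfl hd
  refine ⟨g, 1, fun he => ?_⟩
  have h1 := hg.1
  rw [he, one_smul] at h1
  rw [h1, disjoint_self] at hd
  exact ((isChart_idc (Γ := Γ) (S := S)).leafn 1).im_nonempty.ne_empty hd

theorem GG_simple [Hyp Γ S] : IsSimpleGroup (GG Γ S) :=
  haveI := GG_nontrivial (Γ := Γ) (S := S)
  ⟨fun N _ => by
    by_cases hN : N = ⊥
    · exact Or.inl hN
    · exact Or.inr (gen_of_stab N (kill N (room_of_ne_bot N hN)))⟩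

end Crest.Agent.R185.T4
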