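import Crest.Agent.R185.T4Path

/-!
# Row 185, T4: the vertices form a directed poset (task R185-T4Dir)

PLAN.  `exists_piece`: first for root pieces `⟨[], F, j⟩` (induction on `j` and on the finite set `F \ φ.F`, expanding the root part with
`exp_exists`; `root (sub φ ⟨[],F,j⟩) s` is again `sub φ ⟨[],_,_⟩` by `sub_sub`), then induction on `π.b` (for all `u`, `φ`): for `π.b = y :: b'` first reach a vertex
containing `tl (leaf φ y)` (`y = s w i`: expand the slot `some w`; `y = n k`: reach the root piece `⟨[], φ.F, k⟩`, expand its star slot: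
`leaf (sub φ ⟨[],φ.F,k⟩) (n 0) = leaf φ (n k)`), and `sub φ π = sub (leaf φ y) ⟨b', π.F, π.j⟩`.
`exists_ge_o`: call a tile *small* if it is a subtile of a tile of `u`.  (i) every point `b` is the root of a small standard piece `tl (sub idc ⟨b, F, j⟩)`:
`φ.r a b` with `tl φ ∈ u.T`, germ `(γ, d)` at `(a, b)` with finite exceptional set `E`; take `F₀ ⊇ φ.F ∪ {w | s w i ∈ E}` finite, `j₀ >` all `k` with `n k ∈ E`, `j₀ + d ≥ 0`;
then `γ • sub φ ⟨a, F₀, j₀⟩ = sub idc ⟨b, γ • F₀, (j₀ + d).toNat⟩`.  (ii) for `b` outside a finite set `B` (second coordinates of the non-`Simple` pairs of the reps of the tiles of `u`) the full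
cone `tl (sub idc ⟨b, ∅, 0⟩)` is small.  By `exists_piece` (from `o`) and `join_above` there is `z ≥ o` above a vertex `z_b` containing the piece of (i) for every `b ∈ B`
(induction on the finite set).  A tile of `z` is `tl (sub idc π)`; if `π.b ∈ B` it is a subtile of the piece of (i) (`Vert.sub_of_le`, both contain `π.b`), otherwise of the cone.
-/

set_option autoImplicit false

namespace Crest.Agent.R185.T4

open Pointwise

variable {Γ S : Type} [Group Γ] [MulAction Γ S]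

theorem exists_root_piece (u : Vert Γ S) {φ : Chart S} (hφ : IsChart Γ φ) (hm : tl Γ φ ∈ u.T)
    {F : Set S} (hF : F.Finite) (hFF : φ.F ⊆ F) (j : ℕ) :
    ∃ z, u ≤ z ∧ tl Γ (sub φ ⟨[], F, j⟩) ∈ z.T := by
  have step : ∀ (F : Set S) (j : ℕ) (s : Option S), F.Finite → φ.F ⊆ F → Ok F s →
      (∃ z, u ≤ z ∧ tl Γ (sub φ ⟨[], F, j⟩) ∈ z.T) →
      ∃ z, u ≤ z ∧ tl Γ (sub φ ((⟨[], F, j⟩ : Piece S).comp (rootP F s))) ∈ z.T := by
    rintro F j s hF hFF ho ⟨z, h1, h2⟩
    obtain ⟨z', hz'⟩ := exp_exists z (hφ.sub (valid_root hF hFF j)) h2 ho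
    refine ⟨z', h1.trans hz'.le, ?_⟩
    rw [← sub_sub φ (valid_rootP hF s)]
    exact hz'.root_mem
  have h0 : ∀ E : Set S, E.Finite → ∃ z, u ≤ z ∧ tl Γ (sub φ ⟨[], φ.F ∪ E, 0⟩) ∈ z.T := by
    intro E hE
    induction E, hE using Set.Finite.induction_on with
    | empty => exact ⟨u, le_rfl, by simpa [hφ.sub_self] using hm⟩
    | @insert w E _ hE ih =>
      by_cases hw : w ∈ φ.F ∪ E
      · rwa [Set.union_insert, Set.insert_eq_of_mem hw]
      · have := step _ 0 (some w) (hφ.fin.union hE) Set.subset_union_left (by simpa using hw) ih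
        simpa [Piece.comp, rootP, Piece.emb] using this
  induction j with
  | zero => simpa [Set.union_eq_self_of_subset_left hFF] using h0 F hF
  | succ j ih => simpa [Piece.comp, rootP, Piece.emb] using step F j none hF hFF (by simp) ih

theorem exists_leaf (u : Vert Γ S) {φ : Chart S} (hφ : IsChart Γ φ) (hm : tl Γ φ ∈ u.T)
    {y : Ltr S} (hy : [y] ∈ D φ.F) : ∃ z, u ≤ z ∧ tl Γ (leaf φ y) ∈ z.T := by
  cases y with
  | s w i =>
    obtain ⟨z, hz⟩ := exp_exists u hφ hm (s := some w) (by simpa using hy)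
    exact ⟨z, hz.le, hz.leaf_mem (by cases i <;> simp [letters])⟩
  | n k =>
    obtain ⟨z, h1, h2⟩ := exists_root_piece u hφ hm hφ.fin le_rfl k
    obtain ⟨z', hz'⟩ := exp_exists z (hφ.sub (valid_root hφ.fin le_rfl k)) h2 (s := none) (by simp)
    refine ⟨z', h1.trans hz'.le, ?_⟩
    have := hz'.leaf_mem (y := Ltr.n 0) (by simp [letters])
    rw [leaf, sub_sub φ (valid_leafP (by simp))] at this
    simpa [Piece.comp, leafP, Piece.emb, leaf] using this

theorem exists_piece (u : Vert Γ S) {φ : Chart S} (hφ : IsChart Γ φ) (hm : tl Γ φ ∈ u.T)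
    {π : Piece S} (hπ : π.Valid φ.F) : ∃ z, u ≤ z ∧ tl Γ (sub φ π) ∈ z.T := by
  obtain ⟨b, F, j⟩ := π
  induction b generalizing u φ with
  | nil => exact exists_root_piece u hφ hm hπ.1 (hπ.subset_of_root rfl) j
  | cons y b ih =>
    have hy : [y] ∈ D φ.F := cons_mem_D _ hπ.b_mem
    obtain ⟨z, h1, h2⟩ := exists_leaf u hφ hm hy
    obtain ⟨z', h3, h4⟩ := ih z (hφ.leaf hy) h2 (valid_empty hπ.1)
    refine ⟨z', h1.trans h3, ?_⟩
    rw [leaf, sub_sub φ (π := leafP y) (valid_empty (π := ⟨b, F, j⟩) hπ.1)] at h4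
    simpa [Piece.comp, leafP, Piece.emb] using h4

theorem small_of_germ {φ : Chart S} (hφ : IsChart Γ φ) {a b : Om S} (hab : φ.r a b) :
    ∃ π : Piece S, π.F.Finite ∧ π.b = b ∧ (tl Γ (sub idc π)).Sub (tl Γ φ) := by
  obtain ⟨γ, d, hE⟩ := hφ.loc.1 a b hab
  set E := {y : Ltr S | ¬ ∃ y', LR γ d y y' ∧ ∀ u, φ.r (a ++ y :: u) (b ++ y' :: γ • u)} with hEdef
  have h1 : {w : S | ∃ i, Ltr.s w i ∈ E}.Finite := by
    have : {w : S | ∃ i, Ltr.s w i ∈ E} = ⋃ i : Bool, (fun w => Ltr.s w i) ⁻¹' E := by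
      ext; simp only [Set.mem_ofPred_eq, Set.mem_iUnion, Set.mem_preimage]
    rw [this]
    exact Set.finite_iUnion fun i => hE.preimage fun x _ y _ h => by simpa using h
  have h2 : (Ltr.n ⁻¹' E : Set ℕ).Finite := hE.preimage fun x _ y _ h => by simpa using h
  obtain ⟨k₀, hk₀⟩ := h2.bddAbove
  let j₀ := k₀ + 1 + (-d).toNat
  let F₀ := {w : S | ∃ i, Ltr.s w i ∈ E}
  have key : ∀ q ∈ D F₀, φ.r (a ++ shift j₀ q) (b ++ shift (j₀ + d).toNat (γ • q)) := by
    rintro (_ | ⟨⟨w, i⟩ | k, u⟩) hq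
    · simpa using hab
    · have : Ltr.s w i ∉ E := fun h => (s_mem_D _ _ _ _).1 hq ⟨i, h⟩
      simp only [hEdef, Set.mem_ofPred_eq, not_not] at this
      obtain ⟨y', h3, h4⟩ := this
      cases y' with
      | s w' i' => obtain ⟨rfl, rfl⟩ := h3; simpa using h4 u
      | n _ => exact h3.elim
    · have : Ltr.n (k + j₀) ∉ E := fun h => by
        have := hk₀ h
        omega
      simp only [hEdef, Set.mem_ofPred_eq, not_not] at this
      obtain ⟨y', h3, h4⟩ := this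
      cases y' with
      | s w' i' => exact h3.elim
      | n k' =>
        have h5 : k' = k + (j₀ + d).toNat := by
          simp only [LR] at h3
          omega
        simpa [h5] using h4 u
  have hv : (⟨a, F₀, j₀⟩ : Piece S).Valid φ.F := ⟨h1, fun q hq => hφ.mem_D (key q hq)⟩
  refine ⟨⟨b, γ • F₀, (j₀ + d).toNat⟩, h1.smul_set, rfl, ?_⟩
  have : sub idc ⟨b, γ • F₀, (j₀ + d).toNat⟩ = γ • sub φ ⟨a, F₀, j₀⟩ := by
    ext q c
    · rfl
    · simp only [sub_r, smul_r, mem_D_smul, idc, Piece.emb]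
      refine and_congr_right fun hq => ?_
      have := key _ hq
      rw [smul_inv_smul] at this
      exact ⟨fun h => h ▸ this, fun h => hφ.func _ _ _ this h⟩
  rw [this, mk_smul]
  exact Tile.sub_mk hφ hv

theorem small_of_simple {φ : Chart S} (hφ : IsChart Γ φ) {a b : Om S} (h : Simple Γ φ.r a b) :
    (tl Γ (sub idc ⟨b, ∅, 0⟩)).Sub (tl Γ φ) := by
  obtain ⟨γ, h⟩ := h
  have hv : (⟨a, ∅, 0⟩ : Piece S).Valid φ.F :=
    ⟨Set.finite_empty, fun q _ => by simpa [Piece.emb] using hφ.mem_D (h q)⟩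
  have : sub idc ⟨b, ∅, 0⟩ = γ • sub φ ⟨a, ∅, 0⟩ := by
    ext q c
    · simp
    · simp only [sub_r, smul_r, idc, Piece.emb, D_empty, Set.mem_univ, true_and, shift_zero]
      have := h (γ⁻¹ • q)
      rw [smul_inv_smul] at this
      exact ⟨fun h => h ▸ this, fun h => hφ.func _ _ _ this h⟩
  rw [this, mk_smul]
  exact Tile.sub_mk hφ hv

theorem exists_ge_o (u : Vert Γ S) : ∃ z, u ≤ z ∧ o Γ S ≤ z := by
  have hB : (⋃ t ∈ u.T, Prod.snd '' {p : Om S × Om S | t.rep.r p.1 p.2 ∧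
      ¬ Simple Γ t.rep.r p.1 p.2}).Finite :=
    u.T.finite_toSet.biUnion fun t ht => (IsChart.loc (u.valid t ht)).2.image _
  have h1 : ∀ B : Set (Om S), B.Finite → ∃ z, o Γ S ≤ z ∧ ∀ b ∈ B, ∀ τ ∈ z.T, b ∈ τ.im →
      ∃ t ∈ u.T, τ.Sub t := by
    intro B hB
    induction B, hB using Set.Finite.induction_on with
    | empty => exact ⟨_, le_rfl, by simp⟩
    | @insert b B _ _ ih =>
      obtain ⟨z, hz, hz'⟩ := ih
      obtain ⟨t, ht, a, hab⟩ := u.cover b
      obtain ⟨π, hπ, rfl, hs⟩ := small_of_germ (u.valid t ht) hab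
      obtain ⟨z₁, h2, h3⟩ := exists_piece (o Γ S) isChart_idc (by simp) (valid_empty hπ)
      obtain ⟨z₂, h4, h5⟩ := join_above hz h2
      refine ⟨z₂, hz.trans h4, ?_⟩
      rintro b' (rfl | hb') τ hτ hp
      · exact ⟨t, ht, (Vert.sub_of_le h5 h3 hτ (by
          rw [im_mk, im_sub_idc]; exact π.b_mem_set) hp).trans (by simpa using hs)⟩
      · obtain ⟨τ', h6, h7⟩ := h4 τ hτ
        obtain ⟨t', h8, h9⟩ := hz' b' hb' τ' h6 (h7.im_subset hp)
        exact ⟨t', h8, h7.trans h9⟩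
  obtain ⟨z, hz, hz'⟩ := h1 _ hB
  refine ⟨z, fun τ hτ => ?_, hz⟩
  obtain ⟨t₀, ht₀, h2⟩ := hz τ hτ
  obtain rfl := (mem_o _).1 ht₀
  obtain ⟨π, hπ, rfl⟩ := h2.exists_piece
  obtain ⟨t, ht, a, hab⟩ := u.cover π.b
  by_cases hs : Simple Γ t.rep.r a π.b
  · refine ⟨t, ht, (Tile.sub_of_set_subset isChart_idc hπ.1 (valid_empty Set.finite_empty) ?_).trans
      (by simpa using small_of_simple (u.valid t ht) hs)⟩
    rw [set_cone]; exact π.set_subset_cone
  · refine hz' π.b ?_ _ hτ (by rw [im_mk, im_sub_idc]; exact π.b_mem_set)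
    simp only [Set.mem_iUnion]
    exact ⟨t, ht, (a, π.b), ⟨hab, hs⟩, rfl⟩

theorem vert_directed (u v : Vert Γ S) : ∃ z, u ≤ z ∧ v ≤ z := by
  obtain ⟨a, ha, ha'⟩ := exists_ge_o u
  obtain ⟨b, hb, hb'⟩ := exists_ge_o v
  obtain ⟨z, h1, h2⟩ := join_above ha' hb'
  exact ⟨z, ha.trans h1, hb.trans h2⟩

theorem o_mem_YY : o Γ S ∈ YY Γ S := by simp [YY]

theorem YY_directed : DirectedOn (· ≤ ·) (YY Γ S) := fun u hu v _ =>
  let ⟨z, h1, h2⟩ := vert_directed u v
  ⟨z, le_trans (show (0 : ℤ) ≤ u.exc from hu) (exc_le_of_le h1), h1, h2⟩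

end Crest.Agent.R185.T4
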