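import Crest.Agent.R185.T4Path

/-!
# Row 185, T4: merge data (definitions)
-/

set_option autoImplicit false

namespace Crest.Agent.R185.T4

open Pointwise

variable {Γ S : Type} [Group Γ] [MulAction Γ S]

/-- merge data: a chart and a slot -/
abbrev MD (S : Type) : Type := Chart S × Option S

/-- `μ` is a (normalised) merge datum of `v`: all parts of the expansion `μ` are tiles of `v`. -/
structure MV (v : Vert Γ S) (μ : MD S) : Prop where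
  chart : IsChart Γ μ.1
  ok : Ok μ.1.F μ.2
  part : ∀ τ, IsPart Γ μ.1 μ.2 τ → τ ∈ v.T
  norm : (tl Γ (root μ.1 μ.2)).rep = root μ.1 μ.2

variable (Γ) in
def IsLeafOf (μ : MD S) (τ : Tile Γ S) : Prop := ∃ y ∈ letters μ.2, τ = tl Γ (leaf μ.1 y)

variable (Γ) in
structure Compat (μ μ' : MD S) : Prop where
  l : ∀ τ, IsLeafOf Γ μ τ → ¬ IsPart Γ μ'.1 μ'.2 τ
  r : ∀ τ, IsLeafOf Γ μ' τ → ¬ IsPart Γ μ.1 μ.2 τ
  slot : root μ.1 μ.2 = root μ'.1 μ'.2 → μ.2 ≠ μ'.2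

theorem Compat.symm {μ μ' : MD S} (h : Compat Γ μ μ') : Compat Γ μ' μ :=
  ⟨h.r, h.l, fun he => (h.slot he.symm).symm⟩

/-- `x` lies below the merge of `v` along `μ` -/
def Below (v : Vert Γ S) (μ : MD S) (x : Vert Γ S) : Prop :=
  MV v μ ∧ x ≤ v ∧ ∃ t ∈ x.T, (tl Γ μ.1).Sub t

/-- the merge `μ` can still be performed in `x` -/
def Avail (x : Vert Γ S) (μ : MD S) : Prop :=
  (∀ τ, IsLeafOf Γ μ τ → τ ∈ x.T) ∧ ∃ (ψ : Chart S) (j : ℕ), IsChart Γ ψ ∧ tl Γ ψ ∈ x.T ∧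
    ψ.F ⊆ (root μ.1 μ.2).F ∧ root μ.1 μ.2 = sub ψ ⟨[], (root μ.1 μ.2).F, j⟩ ∧
    (∀ w, μ.2 = some w → w ∈ ψ.F) ∧ (μ.2 = none → j = 0)

theorem MV.avail {v : Vert Γ S} {μ : MD S} (h : MV v μ) : Avail v μ :=
  ⟨fun τ hτ => h.part τ (Or.inr hτ), root μ.1 μ.2, 0, h.chart.root _, h.part _ (Or.inl rfl),
    le_rfl, (h.chart.root _).sub_self.symm, fun w hw => by rw [hw]; simp, fun _ => rfl⟩

theorem Below.down {v x y : Vert Γ S} {μ : MD S} (h : Below v μ x) (hy : y ≤ x) : Below v μ y :=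
  let ⟨h1, h2, t, ht, h3⟩ := h
  let ⟨t', ht', h4⟩ := hy t ht
  ⟨h1, hy.trans h2, t', ht', h3.trans h4⟩

theorem Below.lt {v x : Vert Γ S} {μ : MD S} (h : Below v μ x) : x < v := by
  obtain ⟨h1, h2, t, ht, h3⟩ := h
  refine lt_of_le_of_ne h2 ?_
  rintro rfl
  have h4 : IsPart Γ μ.1 μ.2 (tl Γ (root μ.1 μ.2)) := Or.inl rfl
  have := x.eq_of_sub (h1.part _ h4) ht ((h4.sub h1.chart h1.ok).trans h3)
  exact h4.not_sub h1.chart h1.ok (by simpa [this] using h3.im_subset)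

theorem exists_below {x v : Vert Γ S} (h : x < v) : ∃ μ, Below v μ x := by
  obtain ⟨c, φ, s, h1, h2⟩ := exists_last_step h
  obtain ⟨γ, hγ⟩ := rep_mk (Γ := Γ) (root φ s)
  have h3 := h2.smul γ
  refine ⟨(γ • φ, s.map (γ • ·)), ⟨h3.chart, h3.ok, fun τ hτ => h3.part_mem hτ, ?_⟩, h.le, ?_⟩
  · simp only [← smul_root, mk_smul, hγ]
  · exact h1 _ h3.mem

end Crest.Agent.R185.T4
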