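import Crest.Agent.R185.T4Glue
import Crest.Agent.R185.T4MDef

/-!
# Row 185, T4: existence of a ground of merges (task R185-T4Ground)

PLAN.  Let `L = v.T.filter (typ = 0)` (leaves; `typ = 0` iff `rep.F = ∅`).  `N ≤ |L| + sz` and `N = 1 + 2 sz + exc`, `exc ≥ 0`, so `|L| ≥ 2R`; choose an injection `lf : Fin R × Bool → L`.
If `e₀ ≤ exc`: `g i` = star merge with root chart `(lf (i, false)).rep` and leaf chart `(lf (i, true)).rep` (`glue_exists`, `s = none`).  Otherwise `sz ≥ R`: the finite set of slots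
`{(t, w) | t ∈ v.T, w ∈ t.rep.F}` has `sz` elements (`Finset.card_sigma`), choose `R` distinct slots `(t_i, w_i)`; `g i` = merge with root chart `t_i.rep`, slot `some w_i`, leaf charts `(lf (i, b)).rep`.
Counting: attach to `μ` the key set `{parts of μ}` (≤ 3 tiles, `parts`) and the key `(root μ, slot μ)`; every `i` with `¬ Compat μ (g i)` is determined by one of these ≤ 4 keys (a tile is `lf (i, _)` for at most one `i`; in
the second case a leaf of `μ` (type 0) is never the root tile `t_i` (type ≥ 1)).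
-/

set_option autoImplicit false

namespace Crest.Agent.R185.T4

open Pointwise

variable {Γ S : Type} [Group Γ] [MulAction Γ S]

theorem letters_two (s : Option S) : ∃ y₁ y₂, ∀ y ∈ letters s, y = y₁ ∨ y = y₂ := by
  cases s with
  | none => exact ⟨Ltr.n 0, Ltr.n 0, by simp [letters]⟩
  | some w => exact ⟨Ltr.s w false, Ltr.s w true, by simp [letters]⟩

theorem ncard_le_four {ι : Type} {A B₁ B₂ B₃ B₄ : Set ι} (h₁ : B₁.Subsingleton)
    (h₂ : B₂.Subsingleton) (h₃ : B₃.Subsingleton) (h₄ : B₄.Subsingleton)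
    (h : A ⊆ B₁ ∪ B₂ ∪ B₃ ∪ B₄) : A.ncard ≤ 4 := by
  have e : ∀ {B : Set ι}, B.Subsingleton → B.ncard ≤ 1 := fun hB =>
    (Set.ncard_le_one hB.finite).2 fun a ha b hb => hB ha hb
  have := Set.ncard_le_ncard h (((h₁.finite.union h₂.finite).union h₃.finite).union h₄.finite)
  have a1 := Set.ncard_union_le (B₁ ∪ B₂ ∪ B₃) B₄
  have a2 := Set.ncard_union_le (B₁ ∪ B₂) B₃
  have a3 := Set.ncard_union_le B₁ B₂
  have := e h₁
  have := e h₂
  have := e h₃
  have := e h₄
  omega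

theorem ground_aux {v : Vert Γ S} {R : ℕ} (t : Fin R → Tile Γ S) (s : Fin R → Option S)
    (lf : Fin R → Ltr S → Tile Γ S) (ht : ∀ i, t i ∈ v.T)
    (hs : ∀ i w, s i = some w → w ∈ (t i).rep.F)
    (hl : ∀ i, ∀ y ∈ letters (s i), lf i y ∈ v.T ∧ (lf i y).typ = 0)
    (hA : ∀ i j, ∀ y ∈ letters (s i), ∀ y' ∈ letters (s j), lf i y = lf j y' → i = j ∧ y = y')
    (hB : ∀ i j, ∀ y ∈ letters (s i), lf i y ≠ t j)
    (hC : ∀ i j, t i = t j → s i = s j → i = j)
    (hD : ∀ i j, t i = t j → (t i).typ = 0 → i = j) :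
    ∃ g : Fin R → MD S, (∀ i, MV v (g i)) ∧ (∀ i j, i ≠ j → Compat Γ (g i) (g j)) ∧
      (∀ i, (g i).2 = s i) ∧ ∀ μ, MV v μ → {i | ¬ Compat Γ μ (g i)}.ncard ≤ 4 := by
  have key : ∀ i, ∃ φ : Chart S, IsChart Γ φ ∧ Ok φ.F (s i) ∧ root φ (s i) = (t i).rep ∧
      ∀ y ∈ letters (s i), leaf φ y = (lf i y).rep := fun i =>
    glue_exists (v.valid _ (ht i)) (hs i) (fun y => (lf i y).rep) (fun y hy =>
      ⟨v.valid _ (hl i y hy).1,
        (Set.ncard_eq_zero (IsChart.fin (v.valid _ (hl i y hy).1))).1 (hl i y hy).2,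
        v.disjoint_im (ht i) (hl i y hy).1 (hB i i y hy).symm⟩)
      fun y hy y' hy' h => v.disjoint_im (hl i y hy).1 (hl i y' hy').1 fun he =>
        h (hA i i y hy y' hy' he).2
  choose φ h1 h2 h3 h4 using key
  have hleaf : ∀ i τ, IsLeafOf Γ (φ i, s i) τ ↔ ∃ y ∈ letters (s i), τ = lf i y := by
    intro i τ
    constructor <;> rintro ⟨y, hy, h⟩ <;> refine ⟨y, hy, ?_⟩
    · rwa [h4 i y hy, Tile.mk_rep] at h
    · rwa [h4 i y hy, Tile.mk_rep]
  have hpart : ∀ i τ, IsPart Γ (φ i) (s i) τ ↔ τ = t i ∨ ∃ y ∈ letters (s i), τ = lf i y := by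
    intro i τ
    rw [← hleaf, IsPart, h3, Tile.mk_rep]
    rfl
  have hl' : ∀ i j, i ≠ j → ∀ τ, IsLeafOf Γ (φ i, s i) τ → ¬ IsPart Γ (φ j) (s j) τ := by
    intro i j hij τ a b
    obtain ⟨y, hy, rfl⟩ := (hleaf _ _).1 a
    rcases (hpart _ _).1 b with h | ⟨y', hy', h⟩
    · exact hB i j y hy h
    · exact hij (hA i j y hy y' hy' h).1
  have hrt : ∀ i j, root (φ i) (s i) = root (φ j) (s j) → t i = t j := fun i j h => by
    rw [← (t i).mk_rep, ← (t j).mk_rep, ← h3, ← h3, h]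
  refine ⟨fun i => (φ i, s i), fun i => ⟨h1 i, h2 i, fun τ hτ => ?_, ?_⟩, fun i j hij =>
    ⟨hl' i j hij, hl' j i hij.symm, fun he hs => hij (hC i j (hrt i j he) hs)⟩,
    fun _ => rfl, fun μ _ => ?_⟩
  · rcases (hpart _ _).1 hτ with rfl | ⟨y, hy, rfl⟩
    exacts [ht i, (hl i y hy).1]
  · simp only [h3, Tile.mk_rep]
  · obtain ⟨y₁, y₂, hy⟩ := letters_two μ.2
    have sP : ∀ τ : Tile Γ S, τ.typ = 0 → {i | IsPart Γ (φ i) (s i) τ}.Subsingleton := by
      intro τ h0 i hi j hj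
      rcases (hpart _ _).1 hi with a | ⟨y, hy, a⟩ <;> rcases (hpart _ _).1 hj with b | ⟨y', hy', b⟩
      · exact hD i j (a.symm.trans b) (a ▸ h0)
      · exact absurd (b.symm.trans a) (hB j i y' hy')
      · exact absurd (a.symm.trans b) (hB i j y hy)
      · exact (hA i j y hy y' hy' (a.symm.trans b)).1
    refine ncard_le_four (sP (tl Γ (leaf μ.1 y₁)) (by simp)) (sP (tl Γ (leaf μ.1 y₂)) (by simp))
      (B₃ := {i | IsLeafOf Γ (φ i, s i) (tl Γ (root μ.1 μ.2))})
      (B₄ := {i | root μ.1 μ.2 = root (φ i) (s i) ∧ μ.2 = s i}) ?_ ?_ ?_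
    · intro i hi j hj
      obtain ⟨y, hy, a⟩ := (hleaf _ _).1 hi
      obtain ⟨y', hy', b⟩ := (hleaf _ _).1 hj
      exact (hA i j y hy y' hy' (a.symm.trans b)).1
    · intro i hi j hj
      exact hC i j (hrt i j (hi.1.symm.trans hj.1)) (hi.2.symm.trans hj.2)
    · intro i hi
      by_contra hn
      simp only [Set.mem_union, Set.mem_setOf_eq, not_or] at hn
      obtain ⟨⟨⟨n1, n2⟩, n3⟩, n4⟩ := hn
      have hL : ∀ τ, IsLeafOf Γ μ τ → ¬ IsPart Γ (φ i) (s i) τ := by
        rintro τ ⟨y, hy', rfl⟩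
        rcases hy y hy' with rfl | rfl
        exacts [n1, n2]
      refine hi ⟨hL, fun τ a b => ?_, fun he hs => n4 ⟨he, hs⟩⟩
      rcases b with rfl | b
      · exact n3 a
      · exact hL τ b (Or.inr a)

theorem exists_inj_of_card {α β : Type} [Fintype α] (A : Finset β) (h : Fintype.card α ≤ A.card) :
    ∃ f : α → β, Function.Injective f ∧ ∀ a, f a ∈ A := by
  obtain ⟨f⟩ : Nonempty (α ↪ A) := Function.Embedding.nonempty_of_card_le (by simpa using h)
  exact ⟨fun a => f a, fun a b h => f.injective (Subtype.ext h), fun a => (f a).2⟩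

theorem exists_ground {v : Vert Γ S} (hv : v ∈ YY Γ S) (R e₀ : ℕ) (hN : 4 * R + e₀ ≤ v.N) :
    ∃ g : Fin R → MD S, (∀ i, MV v (g i)) ∧ (∀ i j, i ≠ j → Compat Γ (g i) (g j)) ∧
      (∀ i, (g i).2.isSome ∨ (e₀ : ℤ) ≤ v.exc) ∧
      ∀ μ, MV v μ → {i | ¬ Compat Γ μ (g i)}.ncard ≤ 4 := by
  classical
  have hexc : 0 ≤ v.exc := hv
  have hcard : v.N ≤ (v.T.filter fun t => t.typ = 0).card + v.sz := by
    rw [Vert.N, Vert.sz, Finset.card_filter, ← Finset.sum_add_distrib, Finset.card_eq_sum_ones]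
    refine Finset.sum_le_sum fun t _ => ?_
    split_ifs <;> omega
  have hdef : v.exc = (v.N : ℤ) - 1 - 2 * v.sz := rfl
  obtain ⟨l, hl, hl'⟩ := exists_inj_of_card (α := Fin R × Bool) (v.T.filter fun t => t.typ = 0)
    (by simp only [Fintype.card_prod, Fintype.card_fin, Fintype.card_bool]; omega)
  simp only [Finset.mem_filter] at hl'
  by_cases he : (e₀ : ℤ) ≤ v.exc
  · obtain ⟨g, g1, g2, -, g4⟩ := ground_aux (v := v) (fun i => l (i, false)) (fun _ => none)
      (fun i _ => l (i, true)) (fun i => (hl' _).1) (by simp) (fun i _ _ => hl' _)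
      (fun i j y hy y' hy' h => ⟨(Prod.mk.inj (hl h)).1, by
        simp only [letters, List.mem_singleton] at hy hy'; rw [hy, hy']⟩)
      (fun i j _ _ h => by simpa using hl h) (fun i j h _ => (Prod.mk.inj (hl h)).1)
      fun i j h _ => (Prod.mk.inj (hl h)).1
    exact ⟨g, g1, g2, fun _ => Or.inr he, g4⟩
  · have hfin : ∀ t : v.T, (t.1.rep.F).Finite := fun t => IsChart.fin (v.valid _ t.2)
    obtain ⟨σ, hσ, hσ'⟩ := exists_inj_of_card (α := Fin R)
      ((Finset.univ : Finset v.T).sigma fun t => (hfin t).toFinset) (by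
        have : ∑ t : v.T, (hfin t).toFinset.card = v.sz := by
          rw [Vert.sz, ← Finset.sum_attach v.T]
          exact Finset.sum_congr rfl fun t _ => (Set.ncard_eq_toFinset_card _ _).symm
        rw [Finset.card_sigma, this, Fintype.card_fin]
        omega)
    simp only [Finset.mem_sigma, Finset.mem_univ, Set.Finite.mem_toFinset, true_and] at hσ'
    have hpos : ∀ i, (σ i).1.1.typ ≠ 0 := fun i h =>
      ((Set.ncard_eq_zero (hfin _)).1 h ▸ hσ' i : (σ i).2 ∈ (∅ : Set S))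
    obtain ⟨g, g1, g2, g3, g4⟩ := ground_aux (v := v) (fun i => (σ i).1.1)
      (fun i => some (σ i).2)
      (fun i y => l (i, match y with | Ltr.s _ b => b | Ltr.n _ => false)) (fun i => (σ i).1.2)
      (fun i w h => Option.some.inj h ▸ hσ' i) (fun i _ _ => hl' _)
      (fun i j y hy y' hy' h => by
        obtain ⟨rfl, h'⟩ := Prod.mk.inj (hl h)
        simp only [letters, List.mem_cons, List.not_mem_nil, or_false] at hy hy'
        rcases hy with rfl | rfl <;> rcases hy' with rfl | rfl <;> simp at h' ⊢)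
      (fun i j y _ h => hpos j (h ▸ (hl' _).2))
      (fun i j h h' => hσ (Sigma.ext (Subtype.ext h) (heq_of_eq (Option.some.inj h'))))
      fun i j _ h => absurd h (hpos i)
    exact ⟨g, g1, g2, fun i => Or.inl (by rw [g3]; rfl), g4⟩

end Crest.Agent.R185.T4
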