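import Crest.Agent.R185.T4HiDef

/-!
# Row 185, T4: flat cocycles and carriers (task R185-T4HiS)

PLAN.  `sconn_cone`: `f a := c x a`.
`sconn_dom`: key lemma (transport is canonical): if `B` is `ConnK` and `f`, `f'` both trivialise `c` on the
edges of `B` then `(f x)⁻¹ * f y = (f' x)⁻¹ * f' y` whenever `[x], [y] ∈ B` (`f' x * (f x)⁻¹` is constant along
edges).  For `[a] ∈ K` choose `p a` with `[p a] ∈ Φ [a]`.  Given `c` flat on `K'`, choose for every nonempty `l ∈ K` of length `≤ 3`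
a trivialisation `f_l` on `Φ l`; put `c' a b := (f_[a,b] (p a))⁻¹ * f_[a,b] (p b)`.  On `[a,b,d] ∈ K` all three values are computed by
`f_[a,b,d]` (key lemma, `Φmono`), so `c'` is flat, `c' a b = (F a)⁻¹ * F b`.  For `[x] ∈ K'` let `g_x` trivialise `c` on `Ψ [x]`, put
`T x := (g_x (p (lam x)))⁻¹ * g_x x` and `G x := F (lam x) * T x`; on an edge `[x,y] ∈ K'` compute everything with a
trivialisation on `Ψ [x,y] ⊇ Ψ [x], Ψ [y], Φ [lam x, lam y]`.  Connectedness: `x` is joined to `p (lam x)` inside `Ψ [x]`, and for an edge `[a,b] ∈ K`,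
`p a` is joined to `p b` inside `Φ [a,b]` (`ReflTransGen.mono`, the relation is symmetric).
`sconn_of_sconnK`: unfold; `[a,b,d] ∈ Cliq adj P` iff `a b d ∈ P` and pairwise adjacent; for `Conn` convert a path of the symmetric
relation.
-/

set_option autoImplicit false

namespace Crest.Agent.R185.T4

variable {V W : Type}

theorem sconn_cone (K : Set (List V)) (x : V) (hnil : [] ∈ K)
    (h : ∀ m ∈ K, m.length ≤ 2 → x :: m ∈ K) : SConnK K := by
  refine ⟨⟨⟨x, h [] hnil (by simp)⟩, fun a b ha hb => ?_⟩, fun G _ c hc => ⟨c x, fun a b hab => ?_⟩⟩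
  · exact (Relation.ReflTransGen.single (b := x) (Or.inr (h _ ha (by simp)))).tail
      (Or.inl (h _ hb (by simp)))
  · rw [← hc x a b (h _ hab (by simp)), inv_mul_cancel_left]

theorem ConnK.transport {G : Type} [Group G] {B : Set (List W)} (hB : ConnK B) {c : W → W → G}
    {f f' : W → G} (hf : ∀ a b, [a, b] ∈ B → c a b = (f a)⁻¹ * f b)
    (hf' : ∀ a b, [a, b] ∈ B → c a b = (f' a)⁻¹ * f' b) {x y : W} (hx : [x] ∈ B) (hy : [y] ∈ B) :
    (f x)⁻¹ * f y = (f' x)⁻¹ * f' y := by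
  have edge : ∀ a b, [a, b] ∈ B → f' a * (f a)⁻¹ = f' b * (f b)⁻¹ := by
    intro a b h
    have := (hf a b h).symm.trans (hf' a b h)
    rw [inv_mul_eq_iff_eq_mul] at this
    rw [this]
    group
  have key : f' x * (f x)⁻¹ = f' y * (f y)⁻¹ := by
    have := hB.2 x y hx hy
    clear hy
    induction this with
    | refl => rfl
    | tail _ h ih =>
      rcases h with h | h
      · exact ih.trans (edge _ _ h)
      · exact ih.trans (edge _ _ h).symm
  rw [eq_mul_inv_iff_mul_eq] at key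
  rw [← key]
  group

theorem ConnK.path {B K : Set (List W)} (hB : ConnK B) (h : B ⊆ K) {x y : W} (hx : [x] ∈ B)
    (hy : [y] ∈ B) : Relation.ReflTransGen (fun x y => [x, y] ∈ K ∨ [y, x] ∈ K) x y :=
  Relation.ReflTransGen.mono (fun _ _ h' => h'.imp (fun h1 => h h1) (fun h1 => h h1)) _ _
    (hB.2 x y hx hy)

theorem sconn_dom {K : Set (List V)} {K' : Set (List W)} {lam : W → V}
    {Φ : List V → Set (List W)} {Ψ : List W → Set (List W)} (D : Dom K K' lam Φ Ψ)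
    (hΦ : ∀ l ∈ K, l ≠ [] → l.length ≤ 3 → SConnK (Φ l))
    (hΨ : ∀ l ∈ K', l ≠ [] → l.length ≤ 2 → SConnK (Ψ l))
    (hK : SConnK K) : SConnK K' := by
  obtain ⟨a₀, ha₀⟩ := hK.1.1
  have hp : ∀ a, [a] ∈ K → ∃ x, [x] ∈ Φ [a] := fun a ha => (hΦ _ ha (by simp) (by simp)).1.1
  have : Nonempty W := ⟨(hp a₀ ha₀).choose⟩
  choose! p hp using hp
  have s1 : ∀ {X : Type} (a b : X), [a].Sublist [a, b] := fun a b => by simp
  have s2 : ∀ {X : Type} (a b : X), [b].Sublist [a, b] := fun a b => by simp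
  have hp1 : ∀ a b, [a, b] ∈ K → [p a] ∈ Φ [a, b] := fun a b h =>
    D.Φmono _ h _ (s1 a b) (hp a (D.subK _ h _ (s1 a b)))
  have hp2 : ∀ a b, [a, b] ∈ K → [p b] ∈ Φ [a, b] := fun a b h =>
    D.Φmono _ h _ (s2 a b) (hp b (D.subK _ h _ (s2 a b)))
  have hpx : ∀ x, [x] ∈ K' → [p (lam x)] ∈ Ψ [x] := fun x hx =>
    D.ΦΨ _ hx (by simp) (hp _ (D.map _ hx))
  refine ⟨⟨⟨p a₀, D.ΦK _ ha₀ (hp a₀ ha₀)⟩, fun x y hx hy => ?_⟩, fun G _ c hc => ?_⟩
  · have h1 := (hΨ _ hx (by simp) (by simp)).1.path (D.ΨK _ hx) (D.Ψself _ hx) (hpx x hx)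
    have h2 := (hΨ _ hy (by simp) (by simp)).1.path (D.ΨK _ hy) (hpx y hy) (D.Ψself _ hy)
    refine h1.trans (Relation.ReflTransGen.trans ?_ h2)
    have h3 := hK.1.2 _ _ (D.map _ hx) (D.map _ hy)
    generalize lam y = b at h3
    induction h3 with
    | refl => rfl
    | tail _ h ih =>
      refine ih.trans ?_
      rcases h with h | h
      · exact (hΦ _ h (by simp) (by simp)).1.path (D.ΦK _ h) (hp1 _ _ h) (hp2 _ _ h)
      · exact (hΦ _ h (by simp) (by simp)).1.path (D.ΦK _ h) (hp2 _ _ h) (hp1 _ _ h)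
  · have hF : ∀ l ∈ K, l ≠ [] → l.length ≤ 3 →
        ∃ f : W → G, ∀ a b, [a, b] ∈ Φ l → c a b = (f a)⁻¹ * f b := fun l hl h1 h2 =>
      (hΦ l hl h1 h2).2 G c fun a b d h => hc a b d (D.ΦK l hl h)
    have hg : ∀ l ∈ K', l ≠ [] → l.length ≤ 2 →
        ∃ f : W → G, ∀ a b, [a, b] ∈ Ψ l → c a b = (f a)⁻¹ * f b := fun l hl h1 h2 =>
      (hΨ l hl h1 h2).2 G c fun a b d h => hc a b d (D.ΨK l hl h)
    choose! F hF using hF
    choose! g hg using hg
    have hcomp : ∀ a b, [a, b] ∈ K → ∀ f : W → G,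
        (∀ x y, [x, y] ∈ Φ [a, b] → c x y = (f x)⁻¹ * f y) →
        (F [a, b] (p a))⁻¹ * F [a, b] (p b) = (f (p a))⁻¹ * f (p b) := fun a b h f hf =>
      (hΦ _ h (by simp) (by simp)).1.transport (hF _ h (by simp) (by simp)) hf (hp1 _ _ h)
        (hp2 _ _ h)
    obtain ⟨f₀, hf₀⟩ := hK.2 G (fun a b => (F [a, b] (p a))⁻¹ * F [a, b] (p b)) (by
      intro a b d h
      have key : ∀ u v, [u, v].Sublist [a, b, d] →
          (F [u, v] (p u))⁻¹ * F [u, v] (p v) = (F [a, b, d] (p u))⁻¹ * F [a, b, d] (p v) :=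
        fun u v huv => hcomp u v (D.subK _ h _ huv) _ fun x y hxy =>
          hF _ h (by simp) (by simp) x y (D.Φmono _ h _ huv hxy)
      rw [key a b (by simp), key b d (by simp), key a d (by simp)]
      group)
    refine ⟨fun x => f₀ (lam x) * ((g [x] (p (lam x)))⁻¹ * g [x] x), fun x y hxy => ?_⟩
    have hG := hg _ hxy (by simp) (by simp)
    have hT : ∀ u, [u].Sublist [x, y] →
        (g [u] (p (lam u)))⁻¹ * g [u] u = (g [x, y] (p (lam u)))⁻¹ * g [x, y] u := by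
      intro u hu
      have hu' := D.subK' _ hxy _ hu
      exact (hΨ _ hu' (by simp) (by simp)).1.transport (hg _ hu' (by simp) (by simp))
        (fun a b h => hG a b (D.Ψmono _ hxy _ hu h)) (hpx u hu') (D.Ψself _ hu')
    have hm : [lam x, lam y] ∈ K := D.map _ hxy
    have h1 := (hf₀ _ _ hm).symm.trans
      (hcomp _ _ hm (g [x, y]) fun a b h => hG a b (D.ΦΨ _ hxy (by simp) h))
    rw [inv_mul_eq_iff_eq_mul] at h1
    simp only
    rw [hT x (s1 x y), hT y (s2 x y), h1, hG x y (D.Ψself _ hxy)]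
    group

theorem sconn_of_sconnK (adj : V → V → Prop) (P : Set V) (hrefl : ∀ a ∈ P, adj a a)
    (hsymm : ∀ a b, adj a b → adj b a) (h : SConnK (Cliq adj P)) : SConn adj P := by
  obtain ⟨⟨⟨a₀, ha₀⟩, hconn⟩, hsc⟩ := h
  have h1 : ∀ a ∈ P, [a] ∈ Cliq adj P := fun a ha => ⟨by simpa using ha, by simpa using hrefl a ha⟩
  refine ⟨⟨⟨a₀, ha₀.1 a₀ (by simp)⟩, fun a ha b hb => ?_⟩, fun G _ c hc => ?_⟩
  · refine Relation.ReflTransGen.mono (fun x y h => ?_) _ _ (hconn a b (h1 a ha) (h1 b hb))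
    rcases h with h | h
    · exact ⟨h.1 y (by simp), h.2 x (by simp) y (by simp)⟩
    · exact ⟨h.1 y (by simp), h.2 x (by simp) y (by simp)⟩
  · obtain ⟨f, hf⟩ := hsc G c fun a b d h =>
      hc a (h.1 a (by simp)) b (h.1 b (by simp)) d (h.1 d (by simp))
        (h.2 a (by simp) b (by simp)) (h.2 b (by simp) d (by simp)) (h.2 a (by simp) d (by simp))
    refine ⟨f, fun a ha b hb hab => hf a b ⟨by simp [ha, hb], ?_⟩⟩
    simp [hrefl a ha, hrefl b hb, hab, hsymm a b hab]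

end Crest.Agent.R185.T4
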