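import Crest.Agent.R185.T4HiA
import Crest.Agent.R185.T4HiS

/-!
# Row 185, T4: cone, ground, Quillen, crosscut and Morse lemmas (task R185-T4Hi)

PLAN.
* `hi_ground`: `hi_dom` with `K := univ` on `Unit` (a cone), `lam := fun _ => ()`,
  `Φ _ := {m ∈ K | ∀ x ∈ m, x ∈ G}` (cone on the `g` given by `l = []`), `Ψ l := {m ∈ K | ∀ x ∈ m, x ∈ l ∨ x ∈ G}` (cone on `g l`).
* `hi_directed`: `Acyc`: the finitely many vertices in the support of a cycle have an upper bound `u ∈ P`; cone on `u`.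
  `SConnK`: fix `p₀ ∈ P`; `f a := c p₀ u * c u a`-like formula (note `c u a * c a u = c u u = 1`, lists such as `[u,a,u]` are chains) for an upper bound `u` of
  `p₀, a`, independent of `u` by directedness.
* `hi_quillen`: `hi_dom` with `K := Ch R`, `K' := Ch Q`, `lam := id`, `Φ l = Ψ l := Ch {q ∈ Q | ∃ x ∈ l, q ≤ x}`; a nonempty chain `l` has a
  largest element `x` (lemma), and then the set is `{q ∈ Q | q ≤ x}`.
* `hi_crosscut`: `K :=` the nerve, `K' := Ch P`, `lam x :=` chosen by `cover` (the nerve has a vertex, so `C` and `P` are nonempty),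
  `Φ l := Ch {x ∈ P | ∀ y ∈ P, (∀ μ ∈ l, B μ y) → y ≤ x}` (cone on the meet), `Ψ l := Ch {x ∈ P | ∃ y ∈ l, y ≤ x}` (cone on the least element of `l`).
* `hi_morse`: strong induction on `ht v`: `A v : Hi (Ch {x ∈ Y | ht x ≤ n ∧ x ≤ v})` for `v ∈ Y` (cone on `v` if `ht v ≤ n`; otherwise `hi_quillen` with
  `R := {x ∈ Y | x < v}`); finally `hi_quillen` with `R := Y` and `hi_directed`.
-/

set_option autoImplicit false

namespace Crest.Agent.R185.T4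

variable {V W : Type}

theorem hi_cone (K : Set (List V)) {k : ℕ} (hk : 1 ≤ k) (x : V) (hnil : [] ∈ K)
    (h : ∀ m ∈ K, m.length ≤ k + 1 → x :: m ∈ K) : Hi K k :=
  ⟨acyc_cone K k x h, sconn_cone K x hnil fun m hm hl => h m hm (by omega)⟩

theorem hi_dom {K : Set (List V)} {K' : Set (List W)} {lam : W → V}
    {Φ : List V → Set (List W)} {Ψ : List W → Set (List W)} (D : Dom K K' lam Φ Ψ) {k : ℕ}
    (hk : 1 ≤ k) (hΦ : ∀ l ∈ K, l ≠ [] → l.length ≤ k + 2 → Hi (Φ l) k)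
    (hΨ : ∀ l ∈ K', l ≠ [] → l.length ≤ k + 1 → Hi (Ψ l) k)
    (hK : Hi K k) : Hi K' k :=
  ⟨acyc_dom D k (fun l a b c => (hΦ l a b c).1) (fun l a b c => (hΨ l a b c).1) hK.1,
    sconn_dom D (fun l a b c => (hΦ l a b (by omega)).2) (fun l a b c => (hΨ l a b (by omega)).2)
      hK.2⟩

theorem cmp.symm' [Preorder V] {a b : V} (h : cmp a b) : cmp b a := Or.symm h

theorem cons_mem_ch [Preorder V] {S : Set V} {x : V} {m : List V} (hx : x ∈ S) (hm : m ∈ Ch S)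
    (h : ∀ a ∈ m, cmp x a) : x :: m ∈ Ch S := by
  refine ⟨fun a ha => ?_, fun a ha b hb => ?_⟩
  · rcases List.mem_cons.1 ha with rfl | ha
    · exact hx
    · exact hm.1 a ha
  · rcases List.mem_cons.1 ha with rfl | ha' <;> rcases List.mem_cons.1 hb with rfl | hb'
    · exact Or.inl le_rfl
    · exact h b hb'
    · exact (h a ha').symm'
    · exact hm.2 a ha' b hb'

theorem hi_ch_apex [Preorder V] {S : Set V} {k : ℕ} (hk : 1 ≤ k) {x : V} (hx : x ∈ S)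
    (h : ∀ a ∈ S, cmp x a) : Hi (Ch S) k :=
  hi_cone _ hk x (nil_mem_cliq _ _) fun _ hm _ => cons_mem_ch hx hm fun a ha => h a (hm.1 a ha)

theorem exists_top_of_total {r : V → V → Prop} (htr : ∀ a b c, r a b → r b c → r a c)
    (l : List V) (hne : l ≠ []) (h : ∀ a ∈ l, ∀ b ∈ l, r a b ∨ r b a) :
    ∃ x ∈ l, ∀ a ∈ l, r a x := by
  induction l with
  | nil => exact absurd rfl hne
  | cons a l ih =>
    have haa : r a a := (h a (by simp) a (by simp)).elim id id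
    by_cases hl : l = []
    · subst hl
      exact ⟨a, by simp, by simpa using haa⟩
    · obtain ⟨x, hx, hx'⟩ := ih hl fun u hu v hv => h u (by simp [hu]) v (by simp [hv])
      rcases h a (by simp) x (by simp [hx]) with h1 | h1
      · refine ⟨x, by simp [hx], fun b hb => ?_⟩
        rcases List.mem_cons.1 hb with rfl | hb
        · exact h1
        · exact hx' b hb
      · refine ⟨a, by simp, fun b hb => ?_⟩
        rcases List.mem_cons.1 hb with rfl | hb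
        · exact haa
        · exact htr _ _ _ (hx' b hb) h1

theorem ch_top [Preorder V] {S : Set V} {l : List V} (hl : l ∈ Ch S) (hne : l ≠ []) :
    ∃ x ∈ l, ∀ a ∈ l, a ≤ x :=
  exists_top_of_total (r := (· ≤ ·)) (fun _ _ _ => le_trans) l hne hl.2

theorem ch_bot [Preorder V] {S : Set V} {l : List V} (hl : l ∈ Ch S) (hne : l ≠ []) :
    ∃ x ∈ l, ∀ a ∈ l, x ≤ a :=
  exists_top_of_total (r := fun a b => b ≤ a) (fun _ _ _ h1 h2 => le_trans h2 h1) l hne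
    fun a ha b hb => (hl.2 a ha b hb).symm'

theorem hi_ground (K : Set (List V)) (hsub : SubCl K) (hnil : [] ∈ K) (G : Set V) {k : ℕ}
    (hk : 1 ≤ k) (h : ∀ l ∈ K, l.length ≤ k + 1 → ∃ g ∈ G, ∀ m ∈ K, m.length ≤ k + 1 →
      (∀ x ∈ m, x ∈ l ∨ x ∈ G) → g :: m ∈ K) : Hi K k := by
  refine hi_dom (K := (Set.univ : Set (List Unit))) (lam := fun _ => ())
    (Φ := fun _ => {m | m ∈ K ∧ ∀ x ∈ m, x ∈ G})
    (Ψ := fun l => {m | m ∈ K ∧ ∀ x ∈ m, x ∈ l ∨ x ∈ G})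
    ⟨fun _ _ _ _ => trivial, hsub, fun _ _ => trivial, fun _ _ _ hm => hm.1,
      fun _ _ _ _ => subset_rfl, ⟨hnil, by simp⟩, fun _ _ _ hm => hm.1,
      fun l _ l' hl' m hm => ⟨hm.1, fun x hx => (hm.2 x hx).imp_left fun h => hl'.subset h⟩,
      fun l hl => ⟨hl, fun x hx => Or.inl hx⟩,
      fun l _ _ m hm => ⟨hm.1, fun x hx => Or.inr (hm.2 x hx)⟩⟩ hk ?_ ?_
    (hi_cone _ hk () trivial fun _ _ _ => trivial)
  · intro _ _ _ _
    obtain ⟨g, hg, hg'⟩ := h [] hnil (by simp)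
    refine hi_cone _ hk g ⟨hnil, by simp⟩ fun m hm hl =>
      ⟨hg' m hm.1 hl fun x hx => Or.inr (hm.2 x hx), fun x hx => ?_⟩
    rcases List.mem_cons.1 hx with rfl | hx
    · exact hg
    · exact hm.2 x hx
  · intro l hl _ hlen
    obtain ⟨g, hg, hg'⟩ := h l hl hlen
    refine hi_cone _ hk g ⟨hnil, by simp⟩ fun m hm hl => ⟨hg' m hm.1 hl hm.2, fun x hx => ?_⟩
    rcases List.mem_cons.1 hx with rfl | hx
    · exact Or.inr hg
    · exact hm.2 x hx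

theorem hi_directed [Preorder V] (P : Set V) (hne : P.Nonempty) (hdir : DirectedOn (· ≤ ·) P)
    (k : ℕ) : Hi (Ch P) k := by
  classical
  have hub : ∀ F : Finset V, (∀ a ∈ F, a ∈ P) → ∃ u ∈ P, ∀ a ∈ F, a ≤ u := by
    intro F
    induction F using Finset.induction_on with
    | empty => exact fun _ => ⟨_, hne.choose_spec, by simp⟩
    | insert a F _ ih =>
      intro h
      obtain ⟨u, hu, hu'⟩ := ih fun b hb => h b (Finset.mem_insert_of_mem hb)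
      obtain ⟨w, hw, h1, h2⟩ := hdir a (h a (Finset.mem_insert_self _ _)) u hu
      refine ⟨w, hw, fun b hb => ?_⟩
      rcases Finset.mem_insert.1 hb with rfl | hb
      · exact h1
      · exact (hu' b hb).trans h2
  have h3 : ∀ a ∈ P, ∀ b ∈ P, ∀ d ∈ P, cmp a b → cmp b d → cmp a d → [a, b, d] ∈ Ch P := by
    intro a ha b hb d hd h1 h2 h3
    refine cons_mem_ch ha (cons_mem_ch hb (cons_mem_ch hd (nil_mem_cliq _ _) (by simp)) ?_) ?_
    · simpa using h2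
    · simpa using ⟨h1, h3⟩
  obtain ⟨p₀, hp₀⟩ := hne
  refine ⟨fun n hn z hz hb => ?_, ⟨⟨p₀, cons_mem_ch hp₀ (nil_mem_cliq _ _) (by simp)⟩,
    fun a b ha hb => ?_⟩, fun G _ c hc => ?_⟩
  · obtain ⟨u, hu, hu'⟩ := hub (z.support.biUnion List.toFinset) (by
      intro a ha
      obtain ⟨l, hl, ha⟩ := Finset.mem_biUnion.1 ha
      exact (hz l hl).1.1 a (List.mem_toFinset.1 ha))
    refine ⟨cone u z, fun m hm => ?_, by rw [bd_cone, hb, map_zero, sub_zero]⟩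
    obtain ⟨l, hl, rfl⟩ := mem_support_cone hm
    refine ⟨cons_mem_ch hu (hz l hl).1 fun a ha => Or.inr (hu' a ?_), by simp [(hz l hl).2]⟩
    exact Finset.mem_biUnion.2 ⟨l, hl, List.mem_toFinset.2 ha⟩
  · obtain ⟨u, hu, h1, h2⟩ := hdir a (ha.1 a (by simp)) b (hb.1 b (by simp))
    exact (Relation.ReflTransGen.single (b := u) (Or.inr (cons_mem_ch hu ha
      (by simpa [cmp] using Or.inr h1)))).tail
      (Or.inl (cons_mem_ch hu hb (by simpa [cmp] using Or.inr h2)))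
  · have hU : ∀ a ∈ P, ∃ u ∈ P, p₀ ≤ u ∧ a ≤ u := fun a ha => hdir p₀ hp₀ a ha
    choose! U hU hU1 hU2 using hU
    have key : ∀ a ∈ P, ∀ w ∈ P, U a ≤ w → c p₀ (U a) * c (U a) a = c p₀ w * c w a := by
      intro a ha w hw h
      have hu := hU a ha
      have e1 := hc _ _ _ (h3 p₀ hp₀ _ hu w hw (Or.inl (hU1 a ha)) (Or.inl h)
        (Or.inl ((hU1 a ha).trans h)))
      have e2 := hc _ _ _ (h3 _ hu w hw a ha (Or.inl h) (Or.inr ((hU2 a ha).trans h))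
        (Or.inr (hU2 a ha)))
      rw [← e1, ← e2, mul_assoc]
    refine ⟨fun a => c p₀ (U a) * c (U a) a, fun a b hab => ?_⟩
    have ha := hab.1 a (by simp)
    have hb := hab.1 b (by simp)
    obtain ⟨w, hw, h1, h2⟩ := hdir _ (hU a ha) _ (hU b hb)
    simp only
    rw [key a ha w hw h1, key b hb w hw h2, ← hc _ _ _ (h3 w hw a ha b hb
      (Or.inr ((hU2 a ha).trans h1)) (hab.2 a (by simp) b (by simp))
      (Or.inr ((hU2 b hb).trans h2)))]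
    group

theorem hi_quillen [Preorder V] {Q R : Set V} (hQR : Q ⊆ R) {k : ℕ} (hk : 1 ≤ k)
    (hfib : ∀ x ∈ R, Hi (Ch {q | q ∈ Q ∧ q ≤ x}) k) (hR : Hi (Ch R) k) : Hi (Ch Q) k := by
  have key : ∀ l ∈ Ch R, l ≠ [] → Hi (Ch {q | q ∈ Q ∧ ∃ x ∈ l, q ≤ x}) k := by
    intro l hl hne
    obtain ⟨x, hx, hx'⟩ := ch_top hl hne
    have : {q | q ∈ Q ∧ ∃ x ∈ l, q ≤ x} = {q | q ∈ Q ∧ q ≤ x} := by
      ext q
      exact and_congr_right fun _ => ⟨fun ⟨y, hy, h⟩ => h.trans (hx' y hy), fun h => ⟨x, hx, h⟩⟩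
    rw [this]
    exact hfib x (hl.1 x hx)
  have hmono : ∀ l l' : List V, l'.Sublist l →
      Ch {q | q ∈ Q ∧ ∃ x ∈ l', q ≤ x} ⊆ Ch {q | q ∈ Q ∧ ∃ x ∈ l, q ≤ x} := fun l l' h =>
    cliq_mono _ fun q ⟨h1, x, hx, h2⟩ => ⟨h1, x, h.subset hx, h2⟩
  refine hi_dom (lam := id) (Φ := fun l => Ch {q | q ∈ Q ∧ ∃ x ∈ l, q ≤ x})
    (Ψ := fun l => Ch {q | q ∈ Q ∧ ∃ x ∈ l, q ≤ x})
    ⟨subCl_cliq _ _, subCl_cliq _ _, fun l hl => by simpa using cliq_mono _ hQR hl,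
      fun _ _ => cliq_mono _ fun _ h => h.1, fun l _ l' h => hmono l l' h, nil_mem_cliq _ _,
      fun _ _ => cliq_mono _ fun _ h => h.1, fun l _ l' h => hmono l l' h,
      fun l hl => ⟨fun a ha => ⟨hl.1 a ha, a, ha, le_rfl⟩, hl.2⟩,
      fun l _ _ => by simp⟩ hk (fun l hl hne _ => key l hl hne)
    (fun l hl hne _ => key l (cliq_mono _ hQR hl) hne) hR

theorem hi_crosscut [Preorder V] {C : Type} (P : Set V) (B : C → V → Prop) {k : ℕ} (hk : 1 ≤ k)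
    (cover : ∀ x ∈ P, ∃ μ, B μ x)
    (down : ∀ μ, ∀ x ∈ P, ∀ y ∈ P, B μ x → y ≤ x → B μ y)
    (meet : ∀ l : List C, l ≠ [] → (∃ y ∈ P, ∀ μ ∈ l, B μ y) →
      ∃ m ∈ P, (∀ μ ∈ l, B μ m) ∧ ∀ y ∈ P, (∀ μ ∈ l, B μ y) → y ≤ m)
    (hK : Hi {l : List C | ∃ y ∈ P, ∀ μ ∈ l, B μ y} k) : Hi (Ch P) k := by
  obtain ⟨μ₀, y₀, hy₀, -⟩ := hK.2.1.1
  have : Nonempty C := ⟨μ₀⟩
  choose! lam hlam using cover
  have hbot : ∀ l ∈ Ch P, ∀ x ∈ l, (∀ a ∈ l, x ≤ a) → ∀ μ ∈ l.map lam, B μ x := by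
    intro l hl x hx hx' μ hμ
    obtain ⟨a, ha, rfl⟩ := List.mem_map.1 hμ
    exact down _ a (hl.1 a ha) x (hl.1 x hx) (hlam a (hl.1 a ha)) (hx' a ha)
  refine hi_dom (K := {l : List C | ∃ y ∈ P, ∀ μ ∈ l, B μ y}) (lam := lam)
    (Φ := fun l => Ch {x | x ∈ P ∧ ∀ y ∈ P, (∀ μ ∈ l, B μ y) → y ≤ x})
    (Ψ := fun l => Ch {x | x ∈ P ∧ ∃ y ∈ l, y ≤ x})
    ⟨fun l ⟨y, hy, h⟩ l' hl' => ⟨y, hy, fun μ hμ => h μ (hl'.subset hμ)⟩, subCl_cliq _ _,
      fun l hl => ?_, fun _ _ => cliq_mono _ fun _ h => h.1,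
      fun l _ l' hl' => cliq_mono _ fun x hx =>
        ⟨hx.1, fun y hy h => hx.2 y hy fun μ hμ => h μ (hl'.subset hμ)⟩,
      nil_mem_cliq _ _, fun _ _ => cliq_mono _ fun _ h => h.1,
      fun l _ l' hl' => cliq_mono _ fun x ⟨h1, y, hy, h2⟩ => ⟨h1, y, hl'.subset hy, h2⟩,
      fun l hl => ⟨fun a ha => ⟨hl.1 a ha, a, ha, le_rfl⟩, hl.2⟩,
      fun l hl hne => ?_⟩ hk ?_ ?_ hK
  · by_cases hne : l = []
    · subst hne
      exact ⟨y₀, hy₀, by simp⟩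
    · obtain ⟨x, hx, hx'⟩ := ch_bot hl hne
      exact ⟨x, hl.1 x hx, hbot l hl x hx hx'⟩
  · obtain ⟨x, hx, hx'⟩ := ch_bot hl hne
    exact cliq_mono _ fun a ha => ⟨ha.1, x, hx, ha.2 x (hl.1 x hx) (hbot l hl x hx hx')⟩
  · intro l hl hne _
    obtain ⟨m, hm, h1, h2⟩ := meet l hne hl
    exact hi_ch_apex hk (x := m) ⟨hm, h2⟩ fun a ha => Or.inl (ha.2 m hm h1)
  · intro l hl hne _
    obtain ⟨x, hx, hx'⟩ := ch_bot hl hne
    refine hi_ch_apex hk (x := x) ⟨hl.1 x hx, x, hx, le_rfl⟩ ?_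
    rintro a ⟨_, y, hy, h⟩
    exact Or.inl ((hx' y hy).trans h)

theorem hi_morse [PartialOrder V] (Y : Set V) (ht : V → ℕ) (n : ℕ) {k : ℕ} (hk : 1 ≤ k)
    (hht : ∀ x y, x < y → ht x < ht y) (hne : Y.Nonempty) (hdir : DirectedOn (· ≤ ·) Y)
    (hlink : ∀ v ∈ Y, n < ht v → Hi (Ch {x | x ∈ Y ∧ x < v}) k) :
    Hi (Ch {x | x ∈ Y ∧ ht x ≤ n}) k := by
  have key : ∀ N, ∀ v ∈ Y, ht v = N →
      Hi (Ch {q | q ∈ {x | x ∈ Y ∧ ht x ≤ n} ∧ q ≤ v}) k := by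
    intro N
    induction N using Nat.strong_induction_on with
    | _ N ih =>
      intro v hv hN
      by_cases h : ht v ≤ n
      · exact hi_ch_apex hk (x := v) ⟨⟨hv, h⟩, le_rfl⟩ fun a ha => Or.inr ha.2
      · refine hi_quillen (R := {x | x ∈ Y ∧ x < v}) ?_ hk ?_ (hlink v hv (by omega))
        · rintro q ⟨⟨h1, h2⟩, h3⟩
          refine ⟨h1, lt_of_le_of_ne h3 ?_⟩
          rintro rfl
          exact h h2
        · rintro x ⟨h1, h2⟩
          have : {q | q ∈ {q | q ∈ {x | x ∈ Y ∧ ht x ≤ n} ∧ q ≤ v} ∧ q ≤ x} =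
              {q | q ∈ {x | x ∈ Y ∧ ht x ≤ n} ∧ q ≤ x} := by
            ext q
            exact ⟨fun h => ⟨h.1.1, h.2⟩, fun h => ⟨⟨h.1, h.2.trans h2.le⟩, h.2⟩⟩
          rw [this]
          exact ih _ (hN ▸ hht x v h2) x h1 rfl
  exact hi_quillen (R := Y) (fun _ h => h.1) hk (fun v hv => key _ v hv rfl)
    (hi_directed Y hne hdir k)

end Crest.Agent.R185.T4
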