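import Crest.Agent.R185.T4Merge
import Crest.Agent.R185.T4Ground
import Crest.Agent.R185.T4Dir
import Crest.Agent.R185.T4Hi

/-!
# Row 185, T4: descending links and sublevel sets (task R185-T4Link)

PLAN.  `hi_link`: `hi_crosscut` with `B μ x := Below v μ x` (`exists_below`, `Below.down`, `compat_of_below`, `meet_list`, `exc_le_of_le`, `Below.lt`); the nerve is `Hi` by `hi_ground` with
`G = range g`, `exists_ground hv (4k+5) (k+2)`: for `l` in the nerve of length `≤ k+1` some `i` is compatible with all of `l` (pigeonhole); for `m` in the nerve with entries in `l ∪ G`, either `g i ∈ m`, or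
`g i` is compatible with all entries, available in the meet `m₀` of `m` (`0 ≤ exc m₀`, `exc v ≤ exc m₀ + length`), and `merge_step` gives a lower bound in `YY`.
-/

set_option autoImplicit false

namespace Crest.Agent.R185.T4

open Pointwise

variable {Γ S : Type} [Group Γ] [MulAction Γ S]

theorem ncard_bad_le {C ι : Type} [Finite ι] (bad : C → Set ι) (l : List C)
    (h : ∀ μ ∈ l, (bad μ).ncard ≤ 4) : {i | ∃ μ ∈ l, i ∈ bad μ}.ncard ≤ 4 * l.length := by
  induction l with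
  | nil => simp
  | cons a l ih =>
    have e : {i | ∃ μ ∈ a :: l, i ∈ bad μ} = bad a ∪ {i | ∃ μ ∈ l, i ∈ bad μ} := by ext; simp
    rw [e]
    have h1 := ih fun μ hμ => h μ (List.mem_cons_of_mem _ hμ)
    have h2 := h a (by simp)
    have h3 := Set.ncard_union_le (bad a) {i | ∃ μ ∈ l, i ∈ bad μ}
    simp only [List.length_cons]
    omega

theorem hi_link [Hyp Γ S] {k : ℕ} (hk : 1 ≤ k) {v : Vert Γ S} (hv : v ∈ YY Γ S)
    (hN : 17 * k + 22 < v.N) : Hi (Ch {x | x ∈ YY Γ S ∧ x < v}) k := by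
  obtain ⟨g, hg1, hg2, hg3, hg4⟩ := exists_ground hv (4 * k + 5) (k + 2) (by omega)
  have hv' : 0 ≤ v.exc := hv
  refine hi_crosscut _ (fun μ x => Below v μ x) hk (fun x hx => exists_below hx.2)
    (fun μ x _ y _ h hy => h.down hy) (fun l hne ⟨y, hy, hl⟩ => ?_)
    (hi_ground _ (fun l hl l' h => hl.imp fun y hy => ⟨hy.1, fun μ hμ => hy.2 μ (h.subset hμ)⟩) ?_
      (Set.range g) hk fun l hl' hlen => ?_)
  · obtain ⟨m, h1, h2, h3, -⟩ := meet_list l (fun μ hμ => (hl μ hμ).1)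
      fun μ hμ μ' hμ' => compat_of_below (hl μ hμ) (hl μ' hμ')
    obtain ⟨μ, hμ⟩ := List.exists_mem_of_ne_nil l hne
    exact ⟨m, ⟨le_trans hy.1 (exc_le_of_le (h3 y hy.2.le hl)), (h2 μ hμ).lt⟩, h2,
      fun y hy hl => h3 y hy.2.le hl⟩
  · obtain ⟨x, -, h2, h3, -⟩ := merge_step (hg1 0) le_rfl (hg1 0).avail
    refine ⟨x, ⟨?_, h3.lt⟩, by simp⟩
    have := hg3 0
    change 0 ≤ x.exc
    split_ifs at h2 with h
    · omega
    · have := this.resolve_left h
      push_cast at this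
      omega
  · obtain ⟨y, hy, hl⟩ := hl'
    obtain ⟨i, hi⟩ : ∃ i, ∀ μ ∈ l, Compat Γ μ (g i) := by
      by_contra hc
      push Not at hc
      have h1 := ncard_bad_le (fun μ => {i | ¬ Compat Γ μ (g i)}) l
        fun μ hμ => hg4 μ (hl μ hμ).1
      rw [Set.eq_univ_of_forall (s := {i | ∃ μ ∈ l, i ∈ {i | ¬ Compat Γ μ (g i)}}) hc,
        Set.ncard_univ, Nat.card_fin] at h1
      omega
    refine ⟨g i, ⟨i, rfl⟩, fun m ⟨y, hy, hm⟩ hlen hsub => ?_⟩
    by_cases hmem : g i ∈ m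
    · exact ⟨y, hy, fun μ hμ => hm μ ((List.mem_cons.1 hμ).elim (fun e => e ▸ hmem) id)⟩
    obtain ⟨m₀, h1, h2, h3, h4, h5⟩ := meet_list m (fun μ hμ => (hm μ hμ).1)
      fun μ hμ μ' hμ' => compat_of_below (hm μ hμ) (hm μ' hμ')
    obtain ⟨x, h6, h7, h8, -⟩ := merge_step (hg1 i) h1 (h5 _ (hg1 i) fun μ hμ => by
      rcases hsub μ hμ with h | ⟨j, rfl⟩
      · exact hi μ h
      · exact hg2 j i fun e => hmem (e ▸ hμ))
    refine ⟨x, ⟨?_, h8.lt⟩, fun μ hμ => ?_⟩
    · have h9 : 0 ≤ m₀.exc := le_trans hy.1 (exc_le_of_le (h3 y hy.2.le hm))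
      have := hg3 i
      change 0 ≤ x.exc
      split_ifs at h7 with h
      · omega
      · have := this.resolve_left h
        push_cast at this
        omega
    · rcases List.mem_cons.1 hμ with rfl | hμ
      · exact h8
      · exact (h2 μ hμ).down h6

theorem hi_sublevel [Hyp Γ S] {k : ℕ} (hk : 1 ≤ k) :
    Hi (Ch {x | x ∈ YY Γ S ∧ x.N ≤ 17 * k + 22}) k :=
  hi_morse _ Vert.N _ hk (fun _ _ => N_lt_of_lt) ⟨_, o_mem_YY⟩ YY_directed
    fun _ hv hN => hi_link hk hv hN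

end Crest.Agent.R185.T4
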