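import Crest.Agent.R185.ListCx

/-!
# Row 185, T4: generic combinatorics of list complexes — definitions
-/

set_option autoImplicit false

namespace Crest.Agent.R185.T4

variable {V W : Type}

/-- closed under sublists -/
def SubCl (K : Set (List V)) : Prop := ∀ l ∈ K, ∀ l' : List V, l'.Sublist l → l' ∈ K

/-- connected list complex -/
def ConnK (K : Set (List V)) : Prop :=
  (∃ a, [a] ∈ K) ∧ ∀ a b, [a] ∈ K → [b] ∈ K →
    Relation.ReflTransGen (fun x y => [x, y] ∈ K ∨ [y, x] ∈ K) a b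

/-- simply connected list complex (flat cocycles are trivial) -/
def SConnK (K : Set (List V)) : Prop :=
  ConnK K ∧ ∀ (G : Type) [Group G] (c : V → V → G),
    (∀ a b d, [a, b, d] ∈ K → c a b * c b d = c a d) →
    ∃ f : V → G, ∀ a b, [a, b] ∈ K → c a b = (f a)⁻¹ * f b

/-- `k`-acyclic and simply connected -/
def Hi (K : Set (List V)) (k : ℕ) : Prop := Acyc K k ∧ SConnK K

/-- Domination data: a simplicial map `lam : K' → K`, a carrier `Φ` from `K` to `K'` and a carrier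
`Ψ` from `K'` to `K'` carrying both the identity and `Φ ∘ lam`. -/
structure Dom (K : Set (List V)) (K' : Set (List W)) (lam : W → V)
    (Φ : List V → Set (List W)) (Ψ : List W → Set (List W)) : Prop where
  subK : SubCl K
  subK' : SubCl K'
  map : ∀ l ∈ K', l.map lam ∈ K
  ΦK : ∀ l ∈ K, Φ l ⊆ K'
  Φmono : ∀ l ∈ K, ∀ l' : List V, l'.Sublist l → Φ l' ⊆ Φ l
  Φnil : [] ∈ Φ []
  ΨK : ∀ l ∈ K', Ψ l ⊆ K'
  Ψmono : ∀ l ∈ K', ∀ l' : List W, l'.Sublist l → Ψ l' ⊆ Ψ l
  Ψself : ∀ l ∈ K', l ∈ Ψ l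
  ΦΨ : ∀ l ∈ K', l ≠ [] → Φ (l.map lam) ⊆ Ψ l

/-- comparability -/
def cmp [Preorder V] (a b : V) : Prop := a ≤ b ∨ b ≤ a

/-- the complex of chains in `P` -/
abbrev Ch [Preorder V] (P : Set V) : Set (List V) := Cliq cmp P

theorem subCl_cliq (adj : V → V → Prop) (P : Set V) : SubCl (Cliq adj P) :=
  fun _ hl _ h => ⟨fun a ha => hl.1 a (h.subset ha),
    fun a ha b hb => hl.2 a (h.subset ha) b (h.subset hb)⟩

theorem nil_mem_cliq (adj : V → V → Prop) (P : Set V) : [] ∈ Cliq adj P :=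
  ⟨by simp, by simp⟩

theorem cliq_mono (adj : V → V → Prop) {P Q : Set V} (h : P ⊆ Q) : Cliq adj P ⊆ Cliq adj Q :=
  fun _ hl => ⟨fun a ha => h (hl.1 a ha), hl.2⟩

end Crest.Agent.R185.T4
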