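import Crest.Agent.R185.T4Vert

/-!
# Row 185, T4: the order is generated by expansions; diamonds (task R185-T4Path)

PLAN.  `le_path`: strong induction on `v.N - u.N` (`Vert.N_le_of_le`, `Exp.N_eq`).  If every tile of `u` is in `v` then `u = v`
(`Vert.eq_of_subset`).  Otherwise take `t = tl φ ∈ u.T \ v.T` (`φ = t.rep`), `p` the root point (`IsChart.root_ex`), `τ ∈ v.T` containing `p`;
`τ.Sub t` (`Vert.sub_of_le`), `τ = tl (sub φ π)` (`Tile.Sub.exists_piece`), `[] ∈ π.set` so `π.b = []`, `φ.F ⊆ π.F`, and `π ≠ ⟨[], φ.F, 0⟩`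
(`IsChart.sub_self`).  Choose the slot `s = some w` (`w ∈ π.F \ φ.F`) or `s = none` (`π.j > 0`), expand (`exp_exists`) to `u'`.  Claim `u' ≤ v`: a tile `τ'` of `v`
below `t` is `tl (sub φ π')`; if `π'.b = []` then `τ' = τ` (both contain `p`), and `π.set ⊆ (rootP φ.F s).set`; otherwise `π'.set ⊆ cone [first letter]`, which lies in
`(leafP y).set` or in `(rootP φ.F s).set` (`mem_set_rootP`, `mem_set_leafP`); use `Tile.sub_of_set_subset`.
`diamond_*`: expand `v` by `exp_exists`, then check the second expansion with `exp_of_subset` (use `Exp.part_not_mem`, `Exp.iff`).  For `diamond_same`: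
`root (root φ s) s' = root (root φ s') s` and `leaf (root φ s) y = leaf φ y` for `y ∈ letters s'` (`sub_sub`, `Piece.comp`; note `s ≠ s'`).
`join_above`: `Relation.church_rosser` with the diamonds (`Exp.of_chart` to use the same chart, `Exp.unique`).
-/

set_option autoImplicit false

namespace Crest.Agent.R185.T4

open Pointwise

variable {Γ S : Type} [Group Γ] [MulAction Γ S]

theorem list_exists_min {V : Type} [Preorder V] (l : List V) (hne : l ≠ [])
    (h : ∀ a ∈ l, ∀ b ∈ l, a ≤ b ∨ b ≤ a) : ∃ u ∈ l, ∀ x ∈ l, u ≤ x := by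
  induction l with
  | nil => exact absurd rfl hne
  | cons a l ih =>
    by_cases hl : l = []
    · exact ⟨a, by simp, by simp [hl]⟩
    · obtain ⟨u, hu, hu'⟩ := ih hl fun x hx y hy => h x (by simp [hx]) y (by simp [hy])
      rcases h a (by simp) u (by simp [hu]) with h1 | h1
      · exact ⟨a, by simp, by
          intro x hx
          rcases List.mem_cons.1 hx with rfl | hx
          exacts [le_rfl, h1.trans (hu' x hx)]⟩
      · exact ⟨u, by simp [hu], by
          intro x hx
          rcases List.mem_cons.1 hx with rfl | hx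
          exacts [h1, hu' x hx]⟩

theorem cone_subset_part {F : Set S} {s : Option S} {y : Ltr S} {b : Om S} (hb : y :: b ∈ D F) :
    cone (y :: b) ⊆ (rootP F s).set ∨ ∃ y' ∈ letters s, cone (y :: b) ⊆ (leafP y').set := by
  by_cases hy : y ∈ letters s
  · refine Or.inr ⟨y, hy, ?_⟩
    rintro _ ⟨u, rfl⟩
    exact (mem_set_leafP _ _).2 ⟨_, rfl⟩
  · refine Or.inl ?_
    rintro _ ⟨u, rfl⟩
    refine (mem_set_rootP _).2 ⟨cons_mem_D _ hb, fun y' hy' u' he => hy ?_⟩
    rwa [(List.cons.inj he).1]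

theorem exists_step_le {u v : Vert Γ S} (h : u ≤ v) (hne : u ≠ v) :
    ∃ u' φ s, Exp u u' φ s ∧ u' ≤ v := by
  obtain ⟨t, ht, htv⟩ : ∃ t ∈ u.T, t ∉ v.T := by
    by_contra hc
    push Not at hc
    exact hne (Vert.eq_of_subset hc)
  obtain ⟨φ, rfl⟩ := t.exists_mk
  have hφ : IsChart Γ φ := by simpa using u.valid _ ht
  obtain ⟨p, hp⟩ := hφ.root_ex
  obtain ⟨τ, hτ, hpτ⟩ := v.cover p
  obtain ⟨π, hπ, rfl⟩ := (Vert.sub_of_le h ht hτ (by simpa using ⟨_, hp⟩) hpτ).exists_piece
  have hroot : ∀ π' : Piece S, π'.b = [] → p ∈ (tl Γ (sub φ π')).im := fun π' hb => by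
    rw [im_mk, hφ.mem_im_sub _ hp, ← hb]; exact π'.b_mem_set
  have hb : π.b = [] := by
    rw [im_mk, hφ.mem_im_sub _ hp] at hpτ
    simpa [cone] using π.set_subset_cone hpτ
  have hF := hπ.subset_of_root hb
  obtain ⟨s, ho, hs⟩ : ∃ s : Option S, Ok φ.F s ∧ π.set ⊆ (rootP φ.F s).set := by
    by_cases hj : π.j = 0
    · have : ¬ π.F ⊆ φ.F := fun hc => htv (by
        have : π = ⟨[], φ.F, 0⟩ := Piece.ext hb (hc.antisymm hF) hj
        rwa [this, hφ.sub_self] at hτ)
      obtain ⟨w, hw, hw'⟩ := Set.not_subset.1 this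
      refine ⟨some w, by simpa, fun a ha => (mem_set_rootP _).2 ⟨hπ.set_subset ha, ?_⟩⟩
      rintro y hy u rfl
      simp only [letters, List.mem_cons, List.not_mem_nil, or_false] at hy
      rcases hy with rfl | rfl <;> simp [Piece.mem_set, hb, hw] at ha
    · refine ⟨none, by simp, fun a ha => (mem_set_rootP _).2 ⟨hπ.set_subset ha, ?_⟩⟩
      rintro y hy u rfl
      simp only [letters, List.mem_singleton] at hy
      subst hy
      simp [Piece.mem_set, hb, hj] at ha
  obtain ⟨u', hu'⟩ := exp_exists u hφ ht ho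
  refine ⟨u', φ, s, hu', fun τ' hτ' => ?_⟩
  obtain ⟨t', ht', h1⟩ := h τ' hτ'
  by_cases he : t' = tl Γ φ
  · subst he
    obtain ⟨π', hπ', rfl⟩ := h1.exists_piece
    rcases hb' : π'.b with _ | ⟨y, b⟩
    · rw [v.uniq _ hτ' _ hτ p (hroot π' hb') hpτ]
      exact ⟨_, hu'.root_mem, Tile.sub_of_set_subset hφ hπ.1 (valid_rootP hφ.fin s) hs⟩
    · have h2 := π'.set_subset_cone
      rw [hb'] at h2
      rcases cone_subset_part (s := s) (hb' ▸ hπ'.b_mem) with h3 | ⟨y', hy', h3⟩
      · exact ⟨_, hu'.root_mem,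
          Tile.sub_of_set_subset hφ hπ'.1 (valid_rootP hφ.fin s) (h2.trans h3)⟩
      · exact ⟨_, hu'.leaf_mem hy',
          Tile.sub_of_set_subset hφ hπ'.1 (valid_leafP (ho.mem_D hy' _)) (h2.trans h3)⟩
  · exact ⟨t', hu'.mem_of_ne ht' he, h1⟩

theorem le_path {u v : Vert Γ S} (h : u ≤ v) : Relation.ReflTransGen Step u v := by
  induction hn : v.N - u.N using Nat.strong_induction_on generalizing u with
  | _ n ih =>
    by_cases hne : u = v
    · subst hne; exact .refl
    · obtain ⟨u', φ, s, h1, h2⟩ := exists_step_le h hne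
      have h3 := Vert.N_le_of_le h2
      have h4 := h1.N_eq
      refine .head ⟨φ, s, h1⟩ (ih (v.N - u'.N) ?_ h2 rfl)
      split_ifs at h4 <;> omega

theorem le_of_path {u v : Vert Γ S} (h : Relation.ReflTransGen Step u v) : u ≤ v := by
  induction h with
  | refl => exact le_rfl
  | tail _ h ih => obtain ⟨φ, s, h⟩ := h; exact ih.trans h.le

theorem exists_last_step {x v : Vert Γ S} (h : x < v) : ∃ c φ s, x ≤ c ∧ Exp c v φ s := by
  rcases (le_path h.le).cases_tail with h1 | ⟨c, h1, φ, s, h2⟩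
  · exact absurd h1 h.ne'
  · exact ⟨c, φ, s, le_of_path h1, h2⟩

theorem N_lt_of_lt {u v : Vert Γ S} (h : u < v) : u.N < v.N := by
  obtain ⟨c, φ, s, h1, h2⟩ := exists_last_step h
  have := Vert.N_le_of_le h1
  have := h2.N_eq
  split_ifs at this <;> omega

theorem exc_le_of_le {u v : Vert Γ S} (h : u ≤ v) : u.exc ≤ v.exc := by
  have := le_path h
  clear h
  induction this with
  | refl => exact le_rfl
  | tail _ h ih =>
    obtain ⟨φ, s, h⟩ := h
    have := h.exc_eq
    split_ifs at this <;> omega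

theorem diamond_diff {u v w : Vert Γ S} {φ φ' : Chart S} {s s' : Option S} (h : Exp u v φ s)
    (h' : Exp u w φ' s') (hne : tl Γ φ ≠ tl Γ φ') : ∃ z, Exp v z φ' s' ∧ Exp w z φ s := by
  obtain ⟨z, hz⟩ := exp_exists v h'.chart (h.mem_of_ne h'.mem hne.symm) h'.ok
  refine ⟨z, hz, exp_of_subset h.chart h.ok (h'.mem_of_ne h.mem hne) (fun τ hτ hn => ?_)
    fun τ hτ => hz.mem_of_ne (h.part_mem hτ) fun he => h.part_not_mem hτ (he ▸ h'.mem)⟩
  rcases (h'.iff τ).1 hτ with h1 | h1
  · exact hz.mem_of_ne (h.mem_of_ne h1.1 hn) h1.2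
  · exact hz.part_mem h1

theorem root_root {φ : Chart S} (hφ : φ.F.Finite) (s s' : Option S) :
    root (root φ s) s' = root (root φ s') s := by
  have h1 : ∀ s s' : Option S, root (root φ s) s' =
      sub φ ((rootP φ.F s).comp (rootP (rootP φ.F s).F s')) := fun s s' =>
    sub_sub φ (valid_rootP (valid_rootP hφ s).1 s')
  rw [h1, h1]
  congr 1
  cases s <;> cases s' <;> ext <;> simp [rootP, Piece.comp, Piece.emb, or_left_comm]

theorem leaf_root {φ : Chart S} {s s' : Option S} (hne : s ≠ s') (ho : Ok φ.F s') {y : Ltr S}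
    (hy : y ∈ letters s') : leaf (root φ s) y = leaf φ y := by
  have hD : [y] ∈ D (rootP φ.F s).F := by
    have := ho.mem_D hy []
    cases s with
    | none => exact this
    | some w =>
      cases s' with
      | none => simp only [letters, List.mem_singleton] at hy; simp [hy]
      | some w' =>
        simp only [letters, List.mem_cons, List.not_mem_nil, or_false] at hy
        rcases hy with rfl | rfl <;> simp_all [rootP, eq_comm]
  have h1 : leaf (root φ s) y = sub φ ((rootP φ.F s).comp (leafP y)) := sub_sub φ (valid_leafP hD)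
  rw [h1, leaf]
  congr 1
  cases s with
  | some w => ext <;> simp [rootP, leafP, Piece.comp, Piece.emb]
  | none =>
    cases s' with
    | none => exact absurd rfl hne
    | some w' =>
      simp only [letters, List.mem_cons, List.not_mem_nil, or_false] at hy
      rcases hy with rfl | rfl <;> ext <;> simp [rootP, leafP, Piece.comp, Piece.emb]

theorem Ok.root {φ : Chart S} {s s' : Option S} (hne : s ≠ s') (ho : Ok φ.F s') :
    Ok (root φ s).F s' := by
  cases s <;> cases s' <;> simp_all [eq_comm]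

theorem diamond_same {u v w : Vert Γ S} {φ : Chart S} {s s' : Option S} (h : Exp u v φ s)
    (h' : Exp u w φ s') (hne : s ≠ s') :
    ∃ z, Exp v z (root φ s) s' ∧ Exp w z (root φ s') s := by
  obtain ⟨z, hz⟩ := exp_exists v (h.chart.root s) h.root_mem (h'.ok.root hne)
  refine ⟨z, hz, exp_of_subset (h.chart.root s') (h.ok.root hne.symm) h'.root_mem
    (fun τ hτ hn => ?_) ?_⟩
  · rcases (h'.iff τ).1 hτ with h1 | rfl | ⟨y, hy, rfl⟩
    · exact hz.mem_of_ne (h.mem_of_ne h1.1 h1.2) fun he =>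
        h.part_not_mem (Or.inl rfl) (he ▸ h1.1)
    · exact absurd rfl hn
    · rw [← leaf_root hne h'.ok hy]; exact hz.leaf_mem hy
  · rintro τ (rfl | ⟨y, hy, rfl⟩)
    · rw [root_root h.chart.fin]; exact hz.root_mem
    · rw [leaf_root hne.symm h.ok hy]
      exact hz.mem_of_ne (h.leaf_mem hy) (root_ne_leaf h.chart hy).symm

theorem join_above {u v w : Vert Γ S} (h : u ≤ v) (h' : u ≤ w) : ∃ z, v ≤ z ∧ w ≤ z := by
  obtain ⟨z, h1, h2⟩ := Relation.church_rosser (r := Step) (by
    rintro a b c ⟨φ, s, hb⟩ ⟨φ', s', hc⟩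
    by_cases hne : tl Γ φ = tl Γ φ'
    · obtain ⟨s'', hc', -⟩ := hc.of_chart hne.symm
      by_cases hs : s = s''
      · subst hs
        exact ⟨b, .refl, by rw [hb.unique hc']⟩
      · obtain ⟨z, h1, h2⟩ := diamond_same hb hc' hs
        exact ⟨z, .single ⟨_, _, h1⟩, .single ⟨_, _, h2⟩⟩
    · obtain ⟨z, h1, h2⟩ := diamond_diff hb hc hne
      exact ⟨z, .single ⟨_, _, h1⟩, .single ⟨_, _, h2⟩⟩) (le_path h) (le_path h')
  exact ⟨z, le_of_path h1, le_of_path h2⟩

end Crest.Agent.R185.T4
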