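import Crest.Agent.R185.T4Match
import Crest.Agent.R185.T4Path
import Crest.Agent.R185.T4HiDef

/-!
# Row 185, T4: finitely many orbits of chains of bounded height (task R185-T4Orb)

PLAN.  `Pcs W n` = pieces `π` with `π.b.length ≤ n`, letters of `π.b` among `s w i` (`w ∈ W`), `n k` (`k < n`), `π.F ⊆ W`, `π.j ≤ n`; finite if `W` is finite.
For a family of charts `φ : Fin M → Chart S` say `Bnd φ W n x` if every tile of `x` is `tl (sub (φ i) π)` with `π ∈ Pcs W n` valid for `(φ i).F`.  One `Step` (written in the chart `sub (φ i) π` by `Exp.of_chart`) turns `Bnd φ W n` into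
`Bnd φ W' (n+1)` with `W ⊆ W'`, `ncard W' ≤ ncard W + 1` (`sub_sub`, `Piece.comp`); along a path (`le_path`) the number of steps is `≤ x.N - u.N` (`Exp.N_eq`; state the induction with `n = x.N`).
For a nonempty chain `l` with least element `u` (`list_exists_min`), `M = u.N ≤ n`, `φ` = reps of an enumeration of `u.T`, `W₀ = ⋃ (φ i).F` has `ncard ≤ u.sz ≤ n` (`0 ≤ exc`), so all `x ∈ l` are `Bnd φ W n` for one `W` with
`ncard W ≤ 2 n r`.  Fix a finite `S₀` with `2 n r` elements; `exists_smul_subset` gives `γ • W ⊆ S₀`; replace `φ` by `γ • φ` (`smul_sub`, `mk_smul`).  The datum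
`δ = (M, fun i => (φ i).F, l.map fun x => {(i, π) | π ∈ Pcs S₀ n valid, tl (sub (φ i) π) ∈ x.T})` (use `ℕ`-indexed families to avoid dependent types if convenient) ranges over a finite set, and two chains with the same datum are related by the `g` of `match_exists`
(`gsmul_sub`, `Vert.smul_eq_of_mem`).  Choose one chain for each datum.
-/

set_option autoImplicit false

namespace Crest.Agent.R185.T4

open Pointwise

variable {Γ S : Type} [Group Γ] [MulAction Γ S]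

theorem finite_lists {α : Type} {A : Set α} (hA : A.Finite) (n : ℕ) :
    {l : List α | l.length ≤ n ∧ ∀ a ∈ l, a ∈ A}.Finite := by
  have := hA.to_subtype
  refine ((List.finite_length_le A n).image (List.map Subtype.val)).subset ?_
  rintro l ⟨h1, h2⟩
  exact ⟨l.pmap (fun a h => ⟨a, h⟩) h2, by simpa using h1, by simp [List.map_pmap]⟩

theorem finite_reps {X Δ : Type} (P : X → Δ → Prop) (R : X → X → Prop) {A : Set Δ}
    (hA : A.Finite) (h : ∀ x y d, P x d → P y d → R x y) :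
    ∃ T : Set X, T.Finite ∧ ∀ x, ∀ d ∈ A, P x d → ∃ y ∈ T, R x y := by
  have h1 : ∀ d : {d | d ∈ A ∧ ∃ x, P x d}, ∃ x, P x d.1 := fun d => d.2.2
  choose f hf using h1
  have : Finite {d | d ∈ A ∧ ∃ x, P x d} := (hA.subset fun d hd => hd.1).to_subtype
  exact ⟨Set.range f, Set.finite_range f, fun x d hd hx =>
    ⟨_, ⟨⟨d, hd, x, hx⟩, rfl⟩, h _ _ _ hx (hf _)⟩⟩

theorem map_eq_of_map_eq {X Δ : Type} {f f' : X → Δ} {g : X → X} : ∀ {l l' : List X},
    l.map f = l'.map f' → (∀ x ∈ l, ∀ x' ∈ l', f x = f' x' → g x = x') → l.map g = l'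
  | [], [], _, _ => rfl
  | [], _ :: _, h, _ => by simp at h
  | _ :: _, [], h, _ => by simp at h
  | a :: l, b :: l', h, h' => by
    simp only [List.map_cons, List.cons.injEq] at h ⊢
    exact ⟨h' a (by simp) b (by simp) h.1,
      map_eq_of_map_eq h.2 fun x hx x' hx' => h' x (by simp [hx]) x' (by simp [hx'])⟩

/-- bounded letters -/
def LB (W : Set S) (n : ℕ) : Set (Ltr S) :=
  {y | (∃ w ∈ W, ∃ i, y = Ltr.s w i) ∨ ∃ k ≤ n, y = Ltr.n k}

/-- bounded pieces -/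
def Pcs (W : Set S) (n : ℕ) : Set (Piece S) :=
  {π | π.b.length ≤ n ∧ (∀ y ∈ π.b, y ∈ LB W n) ∧ π.F ⊆ W ∧ π.j ≤ n}

theorem LB_finite {W : Set S} (hW : W.Finite) (n : ℕ) : (LB W n).Finite := by
  refine (((hW.prod (Set.finite_univ (α := Bool))).image fun p => Ltr.s p.1 p.2).union
    ((Set.finite_le_nat n).image Ltr.n)).subset ?_
  rintro y (⟨w, hw, i, rfl⟩ | ⟨k, hk, rfl⟩)
  · exact Or.inl ⟨(w, i), ⟨hw, trivial⟩, rfl⟩
  · exact Or.inr ⟨k, hk, rfl⟩

theorem Pcs_finite {W : Set S} (hW : W.Finite) (n : ℕ) : (Pcs W n).Finite := by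
  refine (((finite_lists (LB_finite hW n) n).prod (hW.finite_subsets.prod
    (Set.finite_le_nat n))).image fun p => (⟨p.1, p.2.1, p.2.2⟩ : Piece S)).subset ?_
  rintro π ⟨h1, h2, h3, h4⟩
  exact ⟨(π.b, π.F, π.j), ⟨⟨h1, h2⟩, h3, h4⟩, rfl⟩

theorem LB_mono {W W' : Set S} {n n' : ℕ} (h : W ⊆ W') (h' : n ≤ n') : LB W n ⊆ LB W' n' := by
  rintro y (⟨w, hw, i, rfl⟩ | ⟨k, hk, rfl⟩)
  · exact Or.inl ⟨w, h hw, i, rfl⟩
  · exact Or.inr ⟨k, hk.trans h', rfl⟩

theorem Pcs_mono {W W' : Set S} {n n' : ℕ} (h : W ⊆ W') (h' : n ≤ n') : Pcs W n ⊆ Pcs W' n' :=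
  fun _ ⟨h1, h2, h3, h4⟩ => ⟨h1.trans h', fun y hy => LB_mono h h' (h2 y hy), h3.trans h, h4.trans h'⟩

theorem Pcs_smul {W : Set S} {n : ℕ} {π : Piece S} (h : π ∈ Pcs W n) (γ : Γ) :
    γ • π ∈ Pcs (γ • W) n := by
  obtain ⟨h1, h2, h3, h4⟩ := h
  refine ⟨by simpa using h1, fun y hy => ?_, Set.smul_set_mono h3, h4⟩
  obtain ⟨z, hz, rfl⟩ := List.mem_map.1 hy
  rcases h2 z hz with ⟨w, hw, i, rfl⟩ | ⟨k, hk, rfl⟩
  · exact Or.inl ⟨γ • w, Set.smul_mem_smul_set hw, i, rfl⟩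
  · exact Or.inr ⟨k, hk, rfl⟩

/-- all tiles of `x` are given by bounded pieces of the charts `φ` -/
def Bnd {ι : Type} (φ : ι → Chart S) (W : Set S) (n : ℕ) (x : Vert Γ S) : Prop :=
  ∀ τ ∈ x.T, ∃ i, ∃ π ∈ Pcs W n, τ = tl Γ (sub (φ i) π)

theorem Bnd.mono {ι : Type} {φ : ι → Chart S} {W W' : Set S} {n n' : ℕ} {x : Vert Γ S}
    (hx : Bnd φ W n x) (h : W ⊆ W') (h' : n ≤ n') : Bnd φ W' n' x := fun τ hτ =>
  let ⟨i, π, h1, h2⟩ := hx τ hτ
  ⟨i, π, Pcs_mono h h' h1, h2⟩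

theorem Bnd.smul {ι : Type} {φ : ι → Chart S} {W : Set S} {n : ℕ} {x : Vert Γ S}
    (hx : Bnd φ W n x) (γ : Γ) : Bnd (fun i => γ • φ i) (γ • W) n x := fun τ hτ =>
  let ⟨i, π, h1, h2⟩ := hx τ hτ
  ⟨i, γ • π, Pcs_smul h1 γ, by rw [h2, ← smul_sub, mk_smul]⟩

theorem Bnd.step {ι : Type} {φ : ι → Chart S} {W : Set S} {n : ℕ} {x y : Vert Γ S}
    (hx : Bnd φ W n x) (h : Step x y) :
    ∃ W', W ⊆ W' ∧ (W.Finite → W'.Finite) ∧ W'.ncard ≤ W.ncard + 1 ∧ Bnd φ W' (n + 1) y := by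
  obtain ⟨ψ, s, h⟩ := h
  obtain ⟨i, π, ⟨h1, h2, h3, h4⟩, he⟩ := hx _ h.mem
  obtain ⟨s, h, -⟩ := h.of_chart he
  have key : ∀ W', W ⊆ W' → (∀ w, s = some w → w ∈ W') → Bnd φ W' (n + 1) y := by
    intro W' hW hs τ hτ
    rcases (h.iff τ).1 hτ with h5 | rfl | ⟨z, hz, rfl⟩
    · exact hx.mono hW n.le_succ τ h5.1
    · refine ⟨i, π.comp (rootP π.F s), ?_, congrArg _ (sub_sub _ (valid_rootP h.chart.fin s))⟩
      refine ⟨by simp [Piece.comp]; omega, fun y hy => LB_mono hW n.le_succ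
        (h2 y (by simpa [Piece.comp] using hy)), ?_, ?_⟩
      · cases s with
        | none => exact h3.trans hW
        | some w => exact Set.insert_subset (hs w rfl) (h3.trans hW)
      · cases s <;> simp [Piece.comp, rootP] <;> omega
    · refine ⟨i, π.comp (leafP z), ?_, congrArg _ (sub_sub _ (valid_leafP (h.ok.mem_D hz [])))⟩
      refine ⟨by simp [Piece.comp, Piece.emb, leafP]; omega, fun y hy => ?_, by simp [leafP],
        by simp [Piece.comp, leafP]⟩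
      rcases List.mem_append.1 hy with hy | hy
      · exact LB_mono hW n.le_succ (h2 y hy)
      · cases s with
        | none =>
          simp only [letters, List.mem_singleton] at hz
          subst hz
          exact Or.inr ⟨π.j, by omega, by simpa [leafP] using hy⟩
        | some w =>
          simp only [letters, List.mem_cons, List.not_mem_nil, or_false] at hz
          rcases hz with rfl | rfl <;> exact Or.inl ⟨w, hs w rfl, _, by simpa [leafP] using hy⟩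
  cases s with
  | none => exact ⟨W, le_rfl, id, by omega, key W le_rfl (by simp)⟩
  | some w =>
    exact ⟨insert w W, Set.subset_insert _ _, fun h => h.insert w, Set.ncard_insert_le _ _,
      key _ (Set.subset_insert _ _) (by simp)⟩

theorem Bnd.path {ι : Type} {φ : ι → Chart S} {W : Set S} {u x : Vert Γ S}
    (hu : Bnd φ W u.N u) (hW : W.Finite) (h : u ≤ x) :
    ∃ W', W'.Finite ∧ W'.ncard ≤ W.ncard + x.N ∧ Bnd φ W' x.N x := by
  have := le_path h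
  clear h
  induction this with
  | refl => exact ⟨W, hW, by omega, hu⟩
  | tail _ h ih =>
    obtain ⟨W₁, h1, h2, h3⟩ := ih
    obtain ⟨W₂, -, h4, h5, h6⟩ := h3.step h
    obtain ⟨ψ, s, h⟩ := h
    have h7 := N_lt_of_lt h.lt
    exact ⟨W₂, h4 h1, by omega, h6.mono le_rfl h7⟩

theorem bnd_list {ι : Type} {φ : ι → Chart S} {W₀ : Set S} (hW : W₀.Finite) {c n : ℕ}
    (hc : W₀.ncard ≤ c) (l : List (Vert Γ S))
    (h : ∀ x ∈ l, ∃ W, W.Finite ∧ W.ncard ≤ c ∧ Bnd φ W n x) :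
    ∃ W, W₀ ⊆ W ∧ W.Finite ∧ W.ncard ≤ c * (l.length + 1) ∧ ∀ x ∈ l, Bnd φ W n x := by
  induction l with
  | nil => exact ⟨W₀, le_rfl, hW, by simpa, by simp⟩
  | cons a l ih =>
    obtain ⟨W, h1, h2, h3, h4⟩ := ih fun x hx => h x (by simp [hx])
    obtain ⟨W', h5, h6, h7⟩ := h a (by simp)
    refine ⟨W ∪ W', h1.trans Set.subset_union_left, h2.union h5, ?_, fun x hx => ?_⟩
    · have := Set.ncard_union_le W W'
      rw [List.length_cons, mul_add]
      omega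
    · rcases List.mem_cons.1 hx with rfl | hx
      · exact h7.mono Set.subset_union_right le_rfl
      · exact (h4 x hx).mono Set.subset_union_left le_rfl

variable (Γ) in
/-- a family of charts partitioning the words -/
def Fam {ι : Type} (φ : ι → Chart S) : Prop :=
  (∀ i, IsChart Γ (φ i)) ∧ (∀ i j, i ≠ j → Disjoint (φ i).im (φ j).im) ∧ ∀ p, ∃ i, p ∈ (φ i).im

theorem orbits_fam {ι : Type} [Finite ι] {S₀ : Set S} (hS : S₀.Finite) (n r : ℕ) :
    ∃ T : Set (List (Vert Γ S)), T.Finite ∧ ∀ l : List (Vert Γ S), l.length = r →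
      ∀ φ : ι → Chart S, Fam Γ φ → (∀ i, (φ i).F ⊆ S₀) → (∀ x ∈ l, Bnd φ S₀ n x) →
        ∃ g : GG Γ S, l.map (g • ·) ∈ T := by
  let E : (ι → Chart S) → Vert Γ S → Set (ι × Piece S) := fun φ x =>
    {e | e.2 ∈ Pcs S₀ n ∧ tl Γ (sub (φ e.1) e.2) ∈ x.T}
  obtain ⟨T, hT, h⟩ := finite_reps (X := List (Vert Γ S))
    (Δ := (ι → Set S) × List (Set (ι × Piece S)))
    (fun l d => ∃ φ, Fam Γ φ ∧ (∀ x ∈ l, Bnd φ S₀ n x) ∧ d = (fun i => (φ i).F, l.map (E φ)))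
    (fun l l' => ∃ g : GG Γ S, l.map (g • ·) = l')
    ((Set.Finite.pi' fun _ => hS.finite_subsets).prod
      (finite_lists ((Set.finite_univ (α := ι)).prod (Pcs_finite hS n)).finite_subsets r)) (by
      rintro l l' _ ⟨φ, hφ, h1, rfl⟩ ⟨ψ, hψ, -, h2⟩
      obtain ⟨h3, h4⟩ := Prod.mk.inj h2
      obtain ⟨g, hg, -⟩ := match_exists φ ψ hφ.1 hψ.1 (congrFun h3) hφ.2.1 hψ.2.1
        fun p => iff_of_true (hφ.2.2 p) (hψ.2.2 p)
      refine ⟨g, map_eq_of_map_eq h4 fun x hx x' _ he => Vert.smul_eq_of_mem fun τ hτ => ?_⟩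
      obtain ⟨i, π, h5, rfl⟩ := h1 x hx τ hτ
      have h6 : (i, π) ∈ E ψ x' := he ▸ ⟨h5, hτ⟩
      rw [gsmul_mk, gsmul_sub, hg]
      exact h6.2)
  refine ⟨T, hT, fun l hl φ hφ h1 h2 => ?_⟩
  obtain ⟨l', h3, g, rfl⟩ := h l (fun i => (φ i).F, l.map (E φ)) ⟨h1, by simp [hl], fun A hA => by
    obtain ⟨x, -, rfl⟩ := List.mem_map.1 hA
    exact fun e he => ⟨trivial, he.1⟩⟩ ⟨φ, hφ, h2, rfl⟩
  exact ⟨g, h3⟩

theorem orbits_finite [Hyp Γ S] (n r : ℕ) : ∃ T : Set (List (Vert Γ S)), T.Finite ∧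
    ∀ l ∈ Ch {x | x ∈ YY Γ S ∧ x.N ≤ n}, l.length = r → ∃ g : GG Γ S, l.map (g • ·) ∈ T := by
  have := Hyp.inf Γ (S := S)
  obtain ⟨S₀, -, hS, hc⟩ := (Set.infinite_univ (α := S)).exists_subset_ncard_eq (2 * n * (r + 1))
  choose T hT h using fun M => orbits_fam (Γ := Γ) (ι := Fin M) hS n r
  refine ⟨insert [] (⋃ M ∈ {M | M ≤ n}, T M),
    ((Set.finite_le_nat n).biUnion fun M _ => hT M).insert _, fun l hl hr => ?_⟩
  by_cases hne : l = []
  · exact ⟨1, by simp [hne]⟩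
  obtain ⟨u, hu, hle⟩ := list_exists_min l hne hl.2
  let e : Fin u.N ≃ u.T := u.T.equivFin.symm
  let φ : Fin u.N → Chart S := fun i => (e i).1.rep
  have hv : ∀ i, IsChart Γ (φ i) := fun i => u.valid _ (e i).2
  have hW : (⋃ t ∈ u.T, t.rep.F).Finite :=
    u.T.finite_toSet.biUnion fun t ht => IsChart.fin (u.valid t ht)
  have hW' : (⋃ t ∈ u.T, t.rep.F).ncard ≤ n := by
    have h1 : _ ≤ u.sz := u.T.set_ncard_biUnion_le fun t => t.rep.F
    have h2 : 0 ≤ u.exc := (hl.1 u hu).1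
    have h3 := (hl.1 u hu).2
    rw [Vert.exc] at h2
    omega
  have hF : ∀ i, (φ i).F ⊆ ⋃ t ∈ u.T, t.rep.F := fun i =>
    Set.subset_biUnion_of_mem (u := fun t : Tile Γ S => t.rep.F) (e i).2
  have hb : Bnd φ (⋃ t ∈ u.T, t.rep.F) u.N u := fun τ hτ => by
    refine ⟨e.symm ⟨τ, hτ⟩, ⟨[], _, 0⟩, ⟨by simp, by simp, hF (e.symm ⟨τ, hτ⟩), by simp⟩, ?_⟩
    rw [(hv _).sub_self]
    simp [φ]
  obtain ⟨W, h1, h2, h3, h4⟩ := bnd_list (φ := φ) (c := 2 * n) (n := n) hW (by omega) l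
    fun x hx => by
      obtain ⟨W, h1, h2, h3⟩ := hb.path hW (hle x hx)
      have h4 := (hl.1 x hx).2
      exact ⟨W, h1, by omega, h3.mono le_rfl h4⟩
  obtain ⟨γ, hγ⟩ := exists_smul_subset (Γ := Γ) h2 hS (by rw [hc, ← hr]; exact h3)
  obtain ⟨g, hg⟩ := h u.N l hr (fun i => γ • φ i) ⟨fun i => (hv i).smul γ, fun i j hij => by
      simp only [im_smul]
      exact u.disjoint_im (e i).2 (e j).2 fun he => hij (e.injective (Subtype.ext he)), fun p => by
      obtain ⟨t, ht, hp⟩ := u.cover p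
      exact ⟨e.symm ⟨t, ht⟩, by simpa [φ, Tile.im] using hp⟩⟩
    (fun i => (Set.smul_set_mono ((hF i).trans h1)).trans hγ)
    fun x hx => ((h4 x hx).smul γ).mono hγ le_rfl
  exact ⟨g, Or.inr (Set.mem_biUnion (hl.1 u hu).2 hg)⟩

end Crest.Agent.R185.T4
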