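import Crest.Agent.R185.T4Match
import Crest.Agent.R185.Grp
import Crest.Agent.R185.FPres

/-!
# Row 185, T4: stabilisers of chains (task R185-T4Stab)

PLAN.  For `t ∈ u.T` put `φ_t = t.rep` and `W t = φ_t.F ∪ ⋃ {π.F ∪ {w | s w i ∈ π.b} : π valid for φ_t.F, tl (sub φ_t π) ∈ x.T for some x ∈ l}`; finite by `IsChart.mk_sub_inj`.
`Λ : (∀ t : u.T, fixingSubgroup Γ (W t)) →* GG`, `Λ γ • φ_t = (γ t)⁻¹ • φ_t` (`match_exists`; an element is determined by its action on the charts `φ_t`: `IsChart.gsmul_eq_iff`, `Vert.cover`; note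
`gsmul_smul`), injective (`IsChart.smul_rigid`), with image in `St = fixingSubgroup GG {a | a ∈ l}` (`gsmul_sub`, `smul_sub`, `Vert.smul_eq_of_mem`, every tile of `x ∈ l` is `tl (sub φ_t π)`).
The finite set `Ξ = {p | φ_t.r [] p} ∪ {p | φ_t.r [n 0, s w false] p, w ∈ W t}` is `St`-invariant (`g • φ_t = γ • φ_t'` implies `γ⁻¹ • W t ⊆ W t'`), and the image of `Λ` is the pointwise fixator of `Ξ` in `St`, a normal
subgroup of finite index (generic lemma `normal_finiteIndex_fix`).  `FP.pi`, `fpres_pi`, `FP.of_equiv`, `Group.IsFinitelyPresented.equiv`, `FP.of_finiteIndex`, `fpres_of_finiteIndex`.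
-/

set_option autoImplicit false

namespace Crest.Agent.R185.T4

open Pointwise

variable {Γ S : Type} [Group Γ] [MulAction Γ S]

theorem normal_finiteIndex_fix {G X : Type} [Group G] [MulAction G X] (Ξ : Set X) (hΞ : Ξ.Finite)
    (hinv : ∀ g : G, ∀ x ∈ Ξ, g • x ∈ Ξ) :
    (fixingSubgroup G Ξ).Normal ∧ (fixingSubgroup G Ξ).FiniteIndex := by
  let Y : SubMulAction G X := ⟨Ξ, fun g {x} hx => hinv g x hx⟩
  have : Finite Y := hΞ.to_subtype
  have e : fixingSubgroup G Ξ = (MulAction.toPermHom G Y).ker := by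
    ext g
    rw [mem_fixingSubgroup_iff, MonoidHom.mem_ker, Equiv.ext_iff]
    exact ⟨fun h y => Subtype.ext (h y y.2), fun h y hy => congrArg Subtype.val (h ⟨y, hy⟩)⟩
  rw [e]
  exact ⟨inferInstance, inferInstance⟩

/-- the elements of `S` occurring in a piece -/
def Piece.supp (π : Piece S) : Set S := {w | w ∈ π.F ∨ ∃ i, Ltr.s w i ∈ π.b}

theorem Piece.supp_finite {π : Piece S} (h : π.F.Finite) : π.supp.Finite := by
  refine h.union (t := {w | ∃ i, Ltr.s w i ∈ π.b}) ?_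
  have : {w | ∃ i, Ltr.s w i ∈ π.b} = ⋃ i, (fun w => Ltr.s w i) ⁻¹' {y | y ∈ π.b} := by
    ext; simp
  rw [this]
  exact Set.finite_iUnion fun i => (List.finite_toSet _).preimage fun a _ b _ h => by simpa using h

theorem Piece.smul_mem_supp {π : Piece S} {w : S} (h : w ∈ π.supp) (γ : Γ) :
    γ • w ∈ (γ • π).supp :=
  h.imp (fun h => Set.smul_mem_smul_set h) fun ⟨i, h⟩ => ⟨i, List.mem_map.2 ⟨_, h, rfl⟩⟩

theorem Piece.smul_eq_of_fix {π : Piece S} {γ : Γ} (h : ∀ w ∈ π.supp, γ • w = w) : γ • π = π := by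
  refine Piece.ext ?_ ?_ rfl
  · rw [psmul_b, smul_def]
    refine (List.map_congr_left fun y hy => ?_).trans (List.map_id _)
    cases y with
    | s w i => simp [h w (Or.inr ⟨i, hy⟩)]
    | n k => rfl
  · rw [psmul_F]
    ext w
    constructor
    · rintro ⟨w', hw', rfl⟩
      simpa [h w' (Or.inl hw')] using hw'
    · exact fun hw => ⟨w, hw, h w (Or.inl hw)⟩

/-- the relevant elements of `S` for a chart -/
def WW (l : List (Vert Γ S)) (φ : Chart S) : Set S :=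
  {w | ∃ π : Piece S, (π.Valid φ.F ∧ ∃ x ∈ l, tl Γ (sub φ π) ∈ x.T) ∧ w ∈ π.supp}

theorem WW_finite (l : List (Vert Γ S)) {φ : Chart S} (h : IsChart Γ φ) : (WW l φ).Finite := by
  have h1 : {π : Piece S | π.Valid φ.F ∧ ∃ x ∈ l, tl Γ (sub φ π) ∈ x.T}.Finite := by
    refine Set.Finite.of_finite_image (f := fun π => tl Γ (sub φ π)) ?_
      fun π hπ π' hπ' e => h.mk_sub_inj hπ.1 hπ'.1 e
    refine ((List.finite_toSet l).biUnion fun x _ => x.T.finite_toSet).subset ?_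
    rintro _ ⟨π, ⟨-, x, hx, h⟩, rfl⟩
    exact Set.mem_biUnion hx h
  refine (h1.biUnion fun π hπ => Piece.supp_finite hπ.1.1).subset ?_
  rintro w ⟨π, hπ, hw⟩
  exact Set.mem_biUnion hπ hw

theorem WW_smul {l : List (Vert Γ S)} {φ : Chart S} {w : S} (h : w ∈ WW l φ) (γ : Γ) :
    γ • w ∈ WW l (γ • φ) := by
  obtain ⟨π, ⟨h1, x, hx, h2⟩, hw⟩ := h
  exact ⟨γ • π, ⟨h1.smul γ, x, hx, by rwa [← smul_sub, mk_smul]⟩, Piece.smul_mem_supp hw γ⟩

theorem WW_gsmul {l : List (Vert Γ S)} {φ : Chart S} {w : S} (h : w ∈ WW l φ) {g : GG Γ S}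
    (hg : ∀ x ∈ l, g • x = x) : w ∈ WW l (g • φ) := by
  obtain ⟨π, ⟨h1, x, hx, h2⟩, hw⟩ := h
  refine ⟨π, ⟨h1, x, hx, ?_⟩, hw⟩
  rw [← gsmul_sub, ← gsmul_mk, ← hg x hx]
  exact Vert.smul_mem_smul_T.2 h2

/-- the marked points -/
def Xi (l : List (Vert Γ S)) (u : Vert Γ S) : Set (Om S) :=
  {p | ∃ φ, tl Γ φ ∈ u.T ∧ (φ.r [] p ∨ ∃ w ∈ WW l φ, φ.r [Ltr.n 0, Ltr.s w false] p)}

theorem mem_Xi {l : List (Vert Γ S)} {u : Vert Γ S} {p : Om S} : p ∈ Xi l u ↔ ∃ t ∈ u.T,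
    t.rep.r [] p ∨ ∃ w ∈ WW l t.rep, t.rep.r [Ltr.n 0, Ltr.s w false] p := by
  refine ⟨?_, fun ⟨t, ht, h⟩ => ⟨t.rep, by simpa using ht, h⟩⟩
  rintro ⟨φ, hφ, h⟩
  obtain ⟨γ, e⟩ := rep_mk (Γ := Γ) φ
  refine ⟨_, hφ, ?_⟩
  rw [e]
  exact h.imp (fun h => by simpa using h) fun ⟨w, hw, h⟩ => ⟨_, WW_smul hw γ, by simpa using h⟩

theorem Xi_finite (l : List (Vert Γ S)) (u : Vert Γ S) : (Xi l u).Finite := by
  have h1 : ∀ t ∈ u.T, ∀ a, {p | t.rep.r a p}.Finite := fun t ht a =>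
    Set.Subsingleton.finite fun _ h _ h' => (u.valid t ht).func _ _ _ h h'
  refine (u.T.finite_toSet.biUnion (t := fun t => {p | t.rep.r [] p} ∪
    ⋃ w ∈ WW l t.rep, {p | t.rep.r [Ltr.n 0, Ltr.s w false] p}) fun t ht => (h1 t ht _).union
      ((WW_finite l (u.valid t ht)).biUnion fun w _ => h1 t ht _)).subset fun p hp => ?_
  obtain ⟨t, ht, h⟩ := mem_Xi.1 hp
  exact Set.mem_biUnion ht (h.imp id fun ⟨w, hw, h⟩ => Set.mem_biUnion hw h)

theorem stab_fin [Hyp Γ S]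
    (hfp : ∀ F : Finset S, Group.IsFinitelyPresented (fixingSubgroup Γ (F : Set S)))
    (hinf : ∀ F : Finset S, FPinf (fixingSubgroup Γ (F : Set S)))
    (l : List (Vert Γ S)) {u : Vert Γ S} (hu : u ∈ l) (hle : ∀ x ∈ l, u ≤ x) :
    Group.IsFinitelyPresented (fixingSubgroup (GG Γ S) {a | a ∈ l}) ∧
      FPinf (fixingSubgroup (GG Γ S) {a | a ∈ l}) := by
  set St := fixingSubgroup (GG Γ S) {a | a ∈ l}
  have hSt : ∀ g : St, ∀ x ∈ l, g.1 • x = x := fun g => (mem_fixingSubgroup_iff _).1 g.2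
  obtain ⟨hN1, hN2⟩ := normal_finiteIndex_fix (G := St) (Xi l u) (Xi_finite l u) (by
    rintro g p ⟨φ, hφ, h⟩
    refine ⟨g.1 • φ, ?_, h.imp (fun h => ?_) fun ⟨w, hw, h⟩ => ⟨w, WW_gsmul hw (hSt g), ?_⟩⟩
    · rw [← gsmul_mk, ← hSt g u hu]; exact Vert.smul_mem_smul_T.2 hφ
    · simpa [Subgroup.smul_def] using h
    · simpa [Subgroup.smul_def] using h)
  set N := fixingSubgroup St (Xi l u)
  have hN : ∀ g : N, ∀ p ∈ Xi l u, g.1.1 • p = p := fun g => (mem_fixingSubgroup_iff _).1 g.2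
  let A : u.T → Subgroup Γ := fun t => fixingSubgroup Γ (WW l t.1.rep)
  have hv : ∀ t : u.T, IsChart Γ t.1.rep := fun t => u.valid _ t.2
  have ex : ∀ (g : N) (t : u.T), ∃ δ : A t, g.1.1 • t.1.rep = δ.1⁻¹ • t.1.rep := fun g t => by
    obtain ⟨p, hp⟩ := (hv t).root_ex
    have h1 : g.1.1 • t.1 ∈ u.T := by
      have h : g.1.1 • t.1 ∈ (g.1.1 • u).T := Vert.smul_mem_smul_T.2 t.2
      rwa [hSt g.1 u hu] at h
    have h2 := hN g p (mem_Xi.2 ⟨t.1, t.2, Or.inl hp⟩)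
    have h3 : t.1 = g.1.1 • t.1 := u.uniq _ t.2 _ h1 p ⟨_, hp⟩ (by
      rw [Tile.mem_im_gsmul, inv_smul_eq_iff.2 h2.symm]; exact ⟨_, hp⟩)
    rw [← t.1.mk_rep, gsmul_mk] at h3
    obtain ⟨γ, hγ⟩ := mk_eq_iff.1 h3
    refine ⟨⟨γ⁻¹, (mem_fixingSubgroup_iff _).2 fun w hw => ?_⟩, by simpa using hγ.symm⟩
    obtain ⟨q, hq⟩ := ((hv t).dom [Ltr.n 0, Ltr.s w false]).2 (by simp)
    have h4 := hN g q (mem_Xi.2 ⟨t.1, t.2, Or.inr ⟨w, hw, hq⟩⟩)
    have h5 : (g.1.1 • t.1.rep).r [Ltr.n 0, Ltr.s w false] q := by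
      rw [gsmul_r, inv_smul_eq_iff.2 h4.symm]; exact hq
    rw [← hγ, smul_r] at h5
    simpa using (hv t).inj _ _ _ h5 hq
  choose δ hδ using ex
  have uniq : ∀ (t : u.T) (a b : A t), a.1⁻¹ • t.1.rep = b.1⁻¹ • t.1.rep → a = b := fun t a b h => by
    have := (hv t).smul_rigid (γ := b.1 * a.1⁻¹) (by rw [mul_smul, h, smul_inv_smul])
    exact Subtype.ext (mul_inv_eq_one.1 this).symm
  let Λ : N →* ∀ t, A t := MonoidHom.mk' δ fun g h => funext fun t => uniq t _ _ (by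
    rw [← hδ]
    change (g.1.1 * h.1.1) • _ = ((δ g t).1 * (δ h t).1)⁻¹ • _
    rw [mul_smul, hδ, gsmul_smul, hδ, mul_inv_rev, mul_smul])
  have hbij : Function.Bijective Λ := by
    constructor
    · rw [injective_iff_map_eq_one]
      intro g hg
      refine Subtype.ext (Subtype.ext (GG.ext' fun p => ?_))
      obtain ⟨t, ht, hp⟩ := u.cover p
      have h1 := hδ g ⟨t, ht⟩
      rw [show δ g ⟨t, ht⟩ = 1 from congrFun hg _] at h1
      simpa using (hv ⟨t, ht⟩).fix_of_gsmul_eq (by simpa using h1) p hp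
    · intro a
      have hfix : ∀ (t : u.T), ∀ w ∈ WW l t.1.rep, (a t).1⁻¹ • w = w := fun t =>
        (mem_fixingSubgroup_iff _).1 (inv_mem (a t).2)
      have hπ : ∀ (t : u.T) (π : Piece S), π.Valid t.1.rep.F → ∀ x ∈ l,
          tl Γ (sub t.1.rep π) ∈ x.T → (a t).1⁻¹ • π = π := fun t π h1 x hx h2 =>
        Piece.smul_eq_of_fix fun w hw => hfix t w ⟨π, ⟨h1, x, hx, h2⟩, hw⟩
      have hd : ∀ i j : u.T, i ≠ j → Disjoint i.1.rep.im j.1.rep.im := fun i j h =>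
        u.disjoint_im i.2 j.2 fun e => h (Subtype.ext e)
      obtain ⟨g, hg, -⟩ := match_exists (Γ := Γ) (fun t : u.T => t.1.rep)
        (fun t => (a t).1⁻¹ • t.1.rep) hv (fun t => (hv t).smul _) (fun t => by
          have := hπ t ⟨[], t.1.rep.F, 0⟩ (valid_root (hv t).fin le_rfl 0) u hu
            (by rw [(hv t).sub_self, Tile.mk_rep]; exact t.2)
          exact (congrArg Piece.F this).symm) hd (by simpa using hd) (by simp)
      have hg1 : g ∈ St := (mem_fixingSubgroup_iff _).2 fun x hx =>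
        Vert.smul_eq_of_mem fun τ hτ => by
          obtain ⟨t, ht, h⟩ := hle x hx τ hτ
          rw [← t.mk_rep] at h
          obtain ⟨π, h1, rfl⟩ := h.exists_piece
          have h2 := hπ ⟨t, ht⟩ π h1 x hx hτ
          rw [gsmul_mk, gsmul_sub, hg ⟨t, ht⟩, ← h2, ← smul_sub, mk_smul]
          exact hτ
      have hg2 : (⟨g, hg1⟩ : St) ∈ N := (mem_fixingSubgroup_iff _).2 fun p hp => by
        obtain ⟨t, ht, h⟩ := mem_Xi.1 hp
        have key : ∀ q, (a ⟨t, ht⟩).1 • q = q → t.rep.r q p → g • p = p := fun q h1 h2 => by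
          have h3 : (g • t.rep).r q (g • p) := by simpa using h2
          rw [hg ⟨t, ht⟩, smul_r, inv_inv, h1] at h3
          exact (hv ⟨t, ht⟩).func _ _ _ h3 h2
        rcases h with h | ⟨w, hw, h⟩
        · exact key _ rfl h
        · exact key _ (by simp [(mem_fixingSubgroup_iff _).1 (a ⟨t, ht⟩).2 w hw]) h
      exact ⟨⟨_, hg2⟩, funext fun t => uniq t _ _ ((hδ _ t).symm.trans (hg t))⟩
  let e := (MulEquiv.ofBijective Λ hbij).symm
  have hA : ∀ t, A t = fixingSubgroup Γ ((WW_finite l (hv t)).toFinset : Set S) := fun t => by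
    rw [Set.Finite.coe_toFinset]
  exact ⟨fpres_of_finiteIndex N ((fpres_pi fun t => hA t ▸ hfp _).equiv e),
    fun k => FP.of_finiteIndex N (FP.of_equiv e (FP.pi fun t => hA t ▸ hinf _ k))⟩

end Crest.Agent.R185.T4
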