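import Crest.Agent.R185.Brown
import Crest.Agent.R185.BrownFP
import Crest.Agent.R185.T4Link
import Crest.Agent.R185.T4Stab
import Crest.Agent.R185.T4Orb
import Crest.Agent.R185.T4Hig

/-!
# Row 185, T4: the final simple group

The group `T4.GG Γ S` of local permutations of the words over `(S × Bool) ⊔ ℕ` (see `T4Def.lean`) is simple (`T4Hig`), contains `Γ`
(diagonal action) and acts on the directed poset `YY` of partitions into tiles; the sublevel sets of the number of tiles are highly connected (`T4Link`),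
cocompact (`T4Orb`), with stabilisers commensurable to products of fixators of finite subsets of `S` (`T4Stab`).  Brown's criteria conclude.
-/

set_option autoImplicit false

namespace Crest.Agent.R185

open T4

theorem final_group {Γ S : Type} [Group Γ] [MulAction Γ S] {χ : Γ →* Multiplicative ℤ}
    (h : Good Γ S χ) :
    ∃ (H : Type) (_ : Group H) (f : χ.ker →* H), IsSimpleGroup H ∧ Group.IsFinitelyPresented H ∧
      FPinf H ∧ Function.Injective f := by
  haveI : Hyp Γ S :=
    ⟨fun γ hγ => by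
      by_contra hne
      obtain ⟨s, hs⟩ := (h.moves γ hne).nonempty
      exact hs (hγ s), h.inf, fun n a b ha hb =>
        let ⟨g, _, hg⟩ := h.trans n a b ha hb
        ⟨g, hg⟩⟩
  have hst : ∀ (n : ℕ), ∀ l ∈ Ch {x | x ∈ YY Γ S ∧ x.N ≤ n}, l ≠ [] →
      Group.IsFinitelyPresented (fixingSubgroup (GG Γ S) {a | a ∈ l}) ∧
        FPinf (fixingSubgroup (GG Γ S) {a | a ∈ l}) := fun n l hl hne => by
    obtain ⟨u, hu, hle⟩ := list_exists_min l hne hl.2
    exact stab_fin h.fp h.fpinf l hu hle
  have hP : ∀ (n : ℕ), ∀ a ∈ {x | x ∈ YY Γ S ∧ x.N ≤ n}, ∀ g : GG Γ S,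
      g • a ∈ {x | x ∈ YY Γ S ∧ x.N ≤ n} := fun n a ha g => by simpa [YY] using ha
  have hadj : ∀ a b : Vert Γ S, T4.cmp a b → ∀ g : GG Γ S, T4.cmp (g • a) (g • b) :=
    fun a b hab g => hab.imp (fun h => Vert.smul_le h g) fun h => Vert.smul_le h g
  refine ⟨GG Γ S, inferInstance, (diag Γ S).comp χ.ker.subtype, GG_simple, ?_, fun k => ?_,
    diag_injective.comp χ.ker.subtype_injective⟩
  · refine brown_fp T4.cmp {x | x ∈ YY Γ S ∧ x.N ≤ 17 * 1 + 22} (fun a _ => Or.inl le_rfl)
      (fun a b h => h.symm) (hP _) hadj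
      (sconn_of_sconnK _ _ (fun a _ => Or.inl le_rfl) (fun a b h => h.symm) (hi_sublevel le_rfl).2)
      (orbits_finite _ 3) (fun a ha => ?_) (fun a ha b hb hab => ?_)
    · have := (hst _ [a] ⟨by simpa using ha, by simp [T4.cmp]⟩ (by simp)).1
      have he : fixingSubgroup (GG Γ S) {x | x ∈ [a]} = MulAction.stabilizer (GG Γ S) a := by
        ext g; simp [mem_fixingSubgroup_iff]
      rwa [he] at this
    · have := (hst _ [a, b] ⟨by simpa using ⟨ha, hb⟩, by
        have := hab.symm
        simp only [List.mem_cons, List.not_mem_nil, or_false, forall_eq_or_imp, forall_eq]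
        exact ⟨⟨Or.inl le_rfl, hab⟩, this, Or.inl le_rfl⟩⟩ (by simp)).1
      have he : {x | x ∈ [a, b]} = ({a, b} : Set (Vert Γ S)) := by ext; simp
      rw [he] at this
      exact fpres_fg this
  · refine FP.mono (show k ≤ k + 1 + 1 by omega) ?_
    refine brown (Ch {x | x ∈ YY Γ S ∧ x.N ≤ 17 * (k + 1) + 22}) (k + 1) (nil_mem_cliq _ _)
      (subCl_cliq _ _) (fun l hl g => ⟨?_, ?_⟩) (hi_sublevel (by omega)).1
      (fun n _ => orbits_finite _ n) (fun l hl hne _ => (hst _ l hl hne).2 _)
    · simp only [List.mem_map]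
      rintro _ ⟨a, ha, rfl⟩
      exact hP _ a (hl.1 a ha) g
    · simp only [List.mem_map]
      rintro _ ⟨a, ha, rfl⟩ _ ⟨b, hb, rfl⟩
      exact hadj a b (hl.2 a ha b hb) g

end Crest.Agent.R185
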