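import Crest.Agent.R185.MainHom
import Crest.Agent.R185.Fix

/-!
# Row 185: the layer `MP` is locally computable (task R185-MainAlg)

PLAN.  Hypotheses of `R_alg`: `val g = 1 ↔ left = 1 ∧ M.val (prB g) = 1` (`SD_primrec`; the equality test is membership in `F`); `theta0`: replay `mainStep` on words
(`x, xl : FreeGroup ZB`), `Primrec.list_foldl`, `primrec_hom`.  `MP_ok`: compute the table of `Plus O` by `plus_ok.alg` + `computable_filter` + `primrec_ball` (as in `LayerOK.comp`), then `R_alg`,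
`RData.reg`, `main_hom`, `main_gauge`; `K = 16 * 800 * (c+1)`-ish.
-/

set_option autoImplicit false

namespace Crest.Agent.R185

section Aux

variable {Y ZB : Type} [DecidableEq Y] [DecidableEq ZB]

omit [DecidableEq Y] [DecidableEq ZB] in
theorem mainAlg_lift (M : MI Y ZB) (g : FreeGroup (ZM Y ZB)) :
    FreeGroup.lift (Sum.elim M.b (fun _ => 1) : ZM Y ZB → M.B) g = M.val (MI.prB g) := by
  have : FreeGroup.lift (Sum.elim M.b (fun _ => 1) : ZM Y ZB → M.B) = M.val.comp MI.prB := by
    ext z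
    rcases z with z | z <;> simp [MI.val, MI.prB]
  rw [this]; rfl

theorem mainAlg_right (M : MI Y ZB) (g : FreeGroup (ZM Y ZB)) :
    SemidirectProduct.rightHom (M.mainD.val g : SD M.B (M.B ⧸ M.F)) = M.val (MI.prB g) := by
  rw [← mainAlg_lift]
  have : (SemidirectProduct.rightHom : SD M.B (M.B ⧸ M.F) →* M.B).comp M.mainD.val =
      FreeGroup.lift (Sum.elim M.b (fun _ => 1) : ZM Y ZB → M.B) := by
    ext z
    have h1 : M.mainD.val (FreeGroup.of z) = M.mainD.a z := FreeGroup.lift_apply_of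
    rw [FreeGroup.lift_apply_of]
    refine (congrArg (SemidirectProduct.rightHom : SD M.B (M.B ⧸ M.F) →* M.B) h1).trans ?_
    show SemidirectProduct.rightHom (SD.letter (B := M.B) (Ω := M.B ⧸ M.F) _ _) = _
    simp [SD.letter]
  exact DFunLike.congr_fun this g

/-- `Sh` on words. -/
def ShW (fb : Bool → FreeGroup ZB → FreeGroup Y) (x x' : FreeGroup ZB) : FreeGroup Y :=
  cond (ble' (fb false x * (fb false x')⁻¹).norm (fb true x * (fb true x')⁻¹).norm)
    (fb false x * (fb false x')⁻¹) (fb true x * (fb true x')⁻¹)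

abbrev StW (Y ZB : Type) : Type :=
  FreeGroup ZB × FreeGroup ZB × FreeGroup Y × FreeGroup (Option (ZP Y))

/-- `mainStep` on words. -/
def stepW (md : FreeGroup ZB → Bool) (fa : FreeGroup ZB → FreeGroup Y)
    (fb : Bool → FreeGroup ZB → FreeGroup Y) (s : StW Y ZB) (a : ZM Y ZB × Bool) : StW Y ZB :=
  Sum.elim (fun z => (s.1 * lt' a.2 (FreeGroup.of z), s.2))
    (fun b => cond (beq' b (Sum.inl false) && md s.1⁻¹)
      (s.1, s.1⁻¹, (ShW fb s.2.1 s.1⁻¹)⁻¹ * s.2.2.1,
        s.2.2.2 * (zeta ((fa s.2.1)⁻¹ * fa s.1⁻¹) * zeta' (ShW fb s.2.1 s.1⁻¹)) * lt' a.2 tt) s) a.1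

theorem stepW_spec (M : MI Y ZB) (md : FreeGroup ZB → Bool) (fa : FreeGroup ZB → FreeGroup Y)
    (fb : Bool → FreeGroup ZB → FreeGroup Y) (hmd : ∀ w, md w = true ↔ M.val w ∈ M.D)
    (hfa : ∀ w, M.val w ∈ M.D → fa w = M.fa (M.val w))
    (hfb : ∀ i w, M.val w ∈ M.D → fb i w = M.fb i (M.val w)) (l : Word (ZM Y ZB))
    (s : StW Y ZB) (hs : M.val s.2.1 ∈ M.D) :
    M.val (l.foldl (stepW md fa fb) s).2.1 ∈ M.D ∧
      l.foldl M.mainStep (M.val s.1, M.val s.2.1, s.2.2) =
        (M.val (l.foldl (stepW md fa fb) s).1, M.val (l.foldl (stepW md fa fb) s).2.1,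
          (l.foldl (stepW md fa fb) s).2.2) := by
  induction l generalizing s with
  | nil => exact ⟨hs, rfl⟩
  | cons a l ih =>
    have key : M.val (stepW md fa fb s a).2.1 ∈ M.D ∧
        M.mainStep (M.val s.1, M.val s.2.1, s.2.2) a =
          (M.val (stepW md fa fb s a).1, M.val (stepW md fa fb s a).2.1,
            (stepW md fa fb s a).2.2) := by
      obtain ⟨x, xl, Bt, out⟩ := s
      obtain ⟨z, ε⟩ := a
      rcases z with z | b | y
      · refine ⟨hs, ?_⟩
        simp only [stepW, Sum.elim_inl, MI.mainStep, map_mul, map_lt']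
        simp [lt', MI.val]
      · cases b with
        | true => exact ⟨hs, rfl⟩
        | false =>
          by_cases hx : M.val x⁻¹ ∈ M.D
          · have h1 : md x⁻¹ = true := (hmd _).2 hx
            have h2 : beq' (Sum.inl false : Bool ⊕ Y) (Sum.inl false) = true := by simp
            have h3 : ShW fb xl x⁻¹ = M.Sh (M.val xl) (M.val x)⁻¹ := by
              rw [← map_inv]
              simp only [ShW, MI.Sh, hfb _ _ hs, hfb _ _ hx, ble']
              split_ifs with h
              · rw [decide_eq_true h, cond_true]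
              · rw [decide_eq_false h, cond_false]
            simp only [stepW, Sum.elim_inr, h1, h2, Bool.and_self, cond_true]
            refine ⟨hx, ?_⟩
            rw [map_inv] at hx
            simp only [MI.mainStep, if_pos hx, h3, hfa _ hs, map_inv, Zel]
            rw [hfa _ (by rwa [map_inv]), map_inv]
            rfl
          · have h1 : md x⁻¹ = false := by
              rw [Bool.eq_false_iff, Ne, hmd]; exact hx
            simp only [stepW, Sum.elim_inr, h1, Bool.and_false, cond_false]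
            rw [map_inv] at hx
            exact ⟨hs, by simp only [MI.mainStep, if_neg hx]⟩
      · exact ⟨hs, rfl⟩
    rw [List.foldl_cons, List.foldl_cons, key.2]
    exact ih _ key.1

variable [Primcodable Y] [Primcodable ZB] [Fintype Y] [Fintype ZB] {M : ℕ → MI Y ZB}

theorem mainAlg_theta0 (h1 : ∀ e, (1 : (M e).B) ∈ (M e).D) (hp : MI.Prim M) :
    Primrec fun p : ℕ × FreeGroup (ZM Y ZB) => (M p.1).theta0 p.2 := by
  classical
  obtain ⟨fa, cfa, hfa⟩ := hp.fa
  obtain ⟨fb, cfb, hfb⟩ := hp.fb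
  obtain ⟨md, cmd, hmd⟩ : ∃ md : ℕ × FreeGroup ZB → Bool, Primrec md ∧
      ∀ e w, md (e, w) = true ↔ (M e).val w ∈ (M e).D :=
    ⟨fun p => decide ((M p.1).val p.2 ∈ (M p.1).D), hp.memD.decide, by simp⟩
  obtain ⟨pb, cpb, hpb⟩ : ∃ pb : ℕ × FreeGroup ZB → FreeGroup Y, Primrec pb ∧
      ∀ e w, pb (e, w) = (M e).pib ((M e).val w) := ⟨_, hp.pib, fun _ _ => rfl⟩
  have cz : Primrec fun u : FreeGroup Y => zeta u := primrec_hom _
  have cz' : Primrec fun u : FreeGroup Y => zeta' u := primrec_hom _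
  have cS : Primrec fun q : ℕ × FreeGroup ZB × FreeGroup ZB =>
      ShW (fun i w => fb (q.1, i, w)) q.2.1 q.2.2 := by
    unfold ShW; fun_prop
  have cstep : Primrec fun q : (ℕ × FreeGroup (ZM Y ZB)) × StW Y ZB × (ZM Y ZB × Bool) =>
      stepW (fun w => md (q.1.1, w)) (fun w => fa (q.1.1, w)) (fun i w => fb (q.1.1, i, w))
        q.2.1 q.2.2 := by
    unfold stepW
    refine pr_elim (by fun_prop) (by fun_prop) ?_
    have h2 : Primrec fun p : ((ℕ × FreeGroup (ZM Y ZB)) × StW Y ZB × (ZM Y ZB × Bool)) × (Bool ⊕ Y) =>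
        ShW (fun i w => fb (p.1.1.1, i, w)) p.1.2.1.2.1 p.1.2.1.1⁻¹ :=
      cS.comp (g := fun p : ((ℕ × FreeGroup (ZM Y ZB)) × StW Y ZB × (ZM Y ZB × Bool)) × (Bool ⊕ Y) =>
        (p.1.1.1, p.1.2.1.2.1, p.1.2.1.1⁻¹)) (by fun_prop)
    refine pr_cond (by fun_prop) (pr_pair (by fun_prop) (pr_pair (by fun_prop) (pr_pair
      (pr_fgmul (pr_fginv h2) (by fun_prop)) (pr_fgmul (pr_fgmul (by fun_prop)
        (pr_fgmul (cz.comp (by fun_prop)) (cz'.comp h2))) (by fun_prop))))) (by fun_prop)
  obtain ⟨run, crun, hrun⟩ : ∃ run : ℕ × FreeGroup (ZM Y ZB) → StW Y ZB, Primrec run ∧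
      ∀ p, run p = p.2.toWord.foldl (stepW (fun w => md (p.1, w)) (fun w => fa (p.1, w))
        fun i w => fb (p.1, i, w)) (1, 1, 1, 1) :=
    ⟨_, pr_foldl (by fun_prop) (Primrec.const _) cstep, fun _ => rfl⟩
  have hfin : Primrec fun p : ℕ × FreeGroup (ZM Y ZB) => (run p).2.2.2 *
      (zeta ((fa (p.1, (run p).2.1))⁻¹ * pb (p.1, (run p).1)) * zeta' (run p).2.2.1) :=
    pr_fgmul (by fun_prop) (pr_fgmul (cz.comp (by fun_prop)) (cz'.comp (by fun_prop)))
  refine hfin.of_eq fun p => ?_
  obtain ⟨k1, k2⟩ := stepW_spec (M p.1) _ _ _ (hmd p.1) (hfa p.1) (hfb p.1) p.2.toWord (1, 1, 1, 1)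
    (by simpa using h1 p.1)
  rw [← hrun] at k1 k2
  simp only [map_one] at k2
  simp only [MI.theta0, k2, Zel, hfa _ _ k1, hpb]

theorem mainAlg_one (hp : MI.Prim M) :
    PrimrecPred fun p : ℕ × FreeGroup (ZM Y ZB) => (M p.1).mainD.val p.2 = 1 := by
  have cB : Primrec fun u : FreeGroup (ZM Y ZB) => (MI.prB u : FreeGroup ZB) := primrec_hom _
  have hnone : ∀ e (z : ZM Y ZB), (Sum.elim (fun _ => none) (Sum.elim
      (fun b => cond b none (some (QuotientGroup.mk 1))) fun _ => none) z :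
        Option ((M e).B ⧸ (M e).F)) = none ↔ ¬ z = Sum.inr (Sum.inl false) := by
    intro e z
    rcases z with z | b | y
    · simp
    · cases b <;> simp
    · simp
  have h1 := SD_primrec (Z := ZM Y ZB) (fun e => (M e).B) (fun e => (M e).B ⧸ (M e).F)
    (fun e z => Sum.elim (fun _ => none) (Sum.elim
      (fun b => cond b none (some (QuotientGroup.mk 1))) fun _ => none) z)
    (fun e z => Sum.elim (M e).b (fun _ => 1) z)
    ((Primrec.eq.comp Primrec.snd (Primrec.const _)).not.of_eq fun p => (hnone p.1 p.2).symm) (by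
      have e1 : PrimrecPred fun p : ℕ × (ZM Y ZB × FreeGroup (ZM Y ZB)) ×
          (ZM Y ZB × FreeGroup (ZM Y ZB)) => p.2.1.1 = Sum.inr (Sum.inl false) :=
        Primrec.eq.comp (by fun_prop) (Primrec.const _)
      have e2 : PrimrecPred fun p : ℕ × (ZM Y ZB × FreeGroup (ZM Y ZB)) ×
          (ZM Y ZB × FreeGroup (ZM Y ZB)) => p.2.2.1 = Sum.inr (Sum.inl false) :=
        Primrec.eq.comp (by fun_prop) (Primrec.const _)
      have e3 := hp.memF.comp (f := fun p : ℕ × (ZM Y ZB × FreeGroup (ZM Y ZB)) ×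
          (ZM Y ZB × FreeGroup (ZM Y ZB)) => (p.1, MI.prB (p.2.1.2⁻¹ * p.2.2.2)))
        (pr_pair (by fun_prop) (cB.comp (by fun_prop)))
      refine ((e1.not.and e2.not).or (e1.and (e2.and e3))).of_eq fun p => ?_
      obtain ⟨e, ⟨z, u⟩, ⟨z', u'⟩⟩ := p
      by_cases h1 : z = Sum.inr (Sum.inl false)
      · by_cases h2 : z' = Sum.inr (Sum.inl false)
        · subst h1 h2
          have k := mainAlg_lift (M e)
          simp only [not_true, false_and, true_and, false_or, Sum.elim_inr, Sum.elim_inl,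
            cond_false, Option.map_some, Option.some.injEq, map_mul, map_inv]
          rw [← k, ← k, MulAction.Quotient.smul_mk, MulAction.Quotient.smul_mk, QuotientGroup.eq]
          simp
        · rw [(hnone e z').2 h2]
          subst h1
          simp [h2]
      · rw [(hnone e z).2 h1]
        by_cases h2 : z' = Sum.inr (Sum.inl false)
        · subst h2
          simp [h1]
        · rw [(hnone e z').2 h2]
          simp [h1, h2])
  have h2 := hp.one.comp (f := fun p : ℕ × FreeGroup (ZM Y ZB) => (p.1, MI.prB p.2))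
    (pr_pair (by fun_prop) (cB.comp (by fun_prop)))
  refine (h1.and h2).of_eq fun p => ?_
  simp only [← mainAlg_right]
  exact ⟨fun h => SemidirectProduct.ext h.1 h.2, fun h => ⟨congrArg SemidirectProduct.left h,
    congrArg SemidirectProduct.right h⟩⟩

end Aux

theorem MP_ok {Y ZB : Type} [DecidableEq Y] [DecidableEq ZB] [Primcodable Y] [Primcodable ZB]
    [Fintype Y] [Fintype ZB] (M : ℕ → MI Y ZB) (c : ℕ) (W : ℕ → Set (FreeGroup Y))
    (h : ∀ e, (M e).Good c (W e)) (hp : MI.Prim M) :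
    ∃ K : ℕ, LayerOK (fun e O => (M e).MP O) (fun n => K * n) fun e O n => Sound (W e) O n := by
  have cB : Primrec fun u : FreeGroup (ZM Y ZB) => (MI.prB u : FreeGroup ZB) := primrec_hom _
  have cz : Primrec fun u : FreeGroup Y => zeta u := primrec_hom _
  have cc : Primrec fun u : FreeGroup Y => cP u := primrec_hom _
  obtain ⟨a, ca, ha⟩ := R_alg (fun e => (M e).mainD) (fun e => main_gauge (h e)) (mainAlg_one hp)
    ((hp.memL.comp (f := fun p : ℕ × FreeGroup (ZM Y ZB) => (p.1, MI.prB p.2))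
      (pr_pair (by fun_prop) (cB.comp (by fun_prop)))).of_eq fun p => by
        simp only [← mainAlg_right]; rfl)
    (pr_cond (by fun_prop)
      (cz.comp (hp.pib.comp (g := fun p : ℕ × Bool × FreeGroup (ZM Y ZB) => (p.1, MI.prB p.2.2))
        (pr_pair (by fun_prop) (cB.comp (by fun_prop)))))
      ((mainAlg_theta0 (fun e => (h e).one_mem) hp).comp
        (g := fun p : ℕ × Bool × FreeGroup (ZM Y ZB) => (p.1, p.2.2)) (by fun_prop)))
    (pr_elim (f := fun p : ℕ × ZM Y ZB => p.2)
      (g := fun p z => zeta ((M p.1).pib ((M p.1).b z)))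
      (h := fun _ => Sum.elim (fun b => cond b tt 1) fun y => cP (FreeGroup.of y)) (by fun_prop)
      (cz.comp ((hp.pib.comp (g := fun p : (ℕ × ZM Y ZB) × ZB => (p.1.1, FreeGroup.of p.2))
        (by fun_prop)).of_eq fun p => by simp [MI.val]))
      ((Primrec.dom_finite _).comp Primrec.snd))
  obtain ⟨aP, caP, haP⟩ := (plus_ok (Y := Y)).alg
  have key : ∀ e O n, Reg O (16 * (800 * (c + 1)) * n) → Sound (W e) O (16 * (800 * (c + 1)) * n) →
      Reg (Plus O) (4 * ((5 * c + 1) * (4 * n))) ∧ (M e).mainD.Hom ((Plus O).H false) (4 * n) := by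
    intro e O n h1 h2
    have h3 : Reg (Plus O) (200 * (c + 1) * (4 * n)) :=
      plus_ok.reg e O _ (h1.mono (le_of_eq (by ring))) trivial
    exact ⟨h3.mono (by nlinarith), main_hom (h e) O _ (h1.mono (by nlinarith)) h3
      fun g hg hn => h2 g hg (hn.trans (by nlinarith))⟩
  refine ⟨16 * (800 * (c + 1)), fun e O n h1 h2 => ?_, ?_⟩
  · exact RData.reg _ _ (main_gauge (h e)) (key e O n h1 h2).1 (key e O n h1 h2).2
  · refine ⟨fun p q => a (p.1, (fixPts _ (4 * ((5 * c + 1) * (4 * q.2.norm)))).filter (aP p)) q,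
      ?_, ?_⟩
    · have h1 : Computable fun x : (ℕ × Table Y) × (Bool × FreeGroup (Option (ZM Y ZB))) =>
          (fixPts _ (4 * ((5 * c + 1) * (4 * x.2.2.norm)))).filter (aP x.1) :=
        computable_filter (primrec_fixPts.comp (by fun_prop)).to_comp
          (caP.comp (Computable.fst.comp Computable.fst) Computable.snd).to₂
      exact ca.comp ((Computable.fst.comp Computable.fst).pair h1) Computable.snd
    · intro e O n T h1 h2 h3 i g hg
      have hle : 16 * (800 * (c + 1)) * g.norm ≤ 16 * (800 * (c + 1)) * n :=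
        Nat.mul_le_mul_left _ hg
      obtain ⟨k1, k2⟩ := key e O g.norm (h1.mono hle) fun w hw hn => h2 w hw (hn.trans hle)
      have hle' : 4 * (4 * (4 * ((5 * c + 1) * (4 * g.norm)))) ≤ 16 * (800 * (c + 1)) * n :=
        le_trans (by nlinarith) hle
      exact ha e (Plus O) g.norm _ k1 k2
        (correct_filter (haP e O _ T (h1.mono hle') trivial (h3.mono hle'))) i g le_rfl

end Crest.Agent.R185
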