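import Crest.Agent.R185.MainHom

/-!
# Row 185: the finitely presented group `P_M` (task R185-PM)

PLAN.  Letters: `t = tt`, `p`, `𝔭`, `c_y`, `z ∈ ZB` (embed `F(ZB)` by `map (some ∘ inl)`).  Relators: `Rel`, `[t, l i]`, `[p, ρ i]`, `p t p⁻¹ (t 𝔭)⁻¹`, `[l i, c_y]`,
`l i 𝔭 (l i)⁻¹ (𝔭 c(pib (b (l i))))⁻¹`.  `E = PresentedGroup`.  For `u ∈ W`, `f` as in `Pres`: `lift ρ f = map l f` in `E` commutes with `p` and `t`, hence with `𝔭 = t⁻¹ p t p⁻¹`, and
`(map l f) 𝔭 (map l f)⁻¹ = 𝔭 c(pib ..)` (induction on `f`), so `c u = 1`.  For a true object with `W ⊆ H false`: `Plus O` is true (`RData.isTrue`, `plus_hom`), `main_hom` holds at all scales, `MP O` is true; check that each relator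
acts trivially with `RModel` (`act_mv`, `Psi_eq_one`, `Tp_Psi`, `mem_core_of_act`): `yval (map inl r) = zeta (pib (val r))`; `theta0 (of (inl (l i))) = zeta (pib ..)`, `theta0 (of p) = 𝔭`;
`act_zeta_cP`, `act_Zel_tt`.
-/

set_option autoImplicit false

namespace Crest.Agent.R185

variable {Y ZB : Type} [DecidableEq Y] [DecidableEq ZB]

namespace PMx

open MH

set_option linter.unusedSectionVars false

variable {M : MI Y ZB} {c : ℕ} {W : Set (FreeGroup Y)}

/-- machine letters -/
def eZ : FreeGroup ZB →* FreeGroup (ZM Y ZB) := FreeGroup.map .inl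
/-- base letters -/
def eC : FreeGroup Y →* FreeGroup (ZM Y ZB) := FreeGroup.map fun y => .inr (.inr y)
/-- the letter `p` -/
def lpp : FreeGroup (ZM Y ZB) := FreeGroup.of (.inr (.inl false))
/-- the letter `𝔭` -/
def lq : FreeGroup (ZM Y ZB) := FreeGroup.of (.inr (.inl true))

theorem cM_eq (u : FreeGroup Y) : (cM u : FreeGroup (Option (ZM Y ZB))) = mv (eC u) :=
  DFunLike.congr_fun (show (cM : FreeGroup Y →* FreeGroup (Option (ZM Y ZB))) = mv.comp eC by
    ext y; simp [cM, mv, eC]) u

theorem V_eC (u : FreeGroup Y) : V M (eC u) = 1 :=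
  DFunLike.congr_fun (show (V M).comp eC = 1 from FreeGroup.ext_hom _ _ fun y => by
    simp [eC, val_c]) u

theorem V_eZ (w : FreeGroup ZB) : V M (eZ w) = SemidirectProduct.inr (M.val w) :=
  DFunLike.congr_fun (show (V M).comp eZ = SemidirectProduct.inr.comp M.val from
    FreeGroup.ext_hom _ _ fun y => by simp [eZ, val_inl, MI.val]) w

theorem yval_eC (u : FreeGroup Y) : M.mainD.yval (eC u) = cP u :=
  DFunLike.congr_fun (show M.mainD.yval.comp eC = cP from FreeGroup.ext_hom _ _ fun y => by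
    simp [eC, RData.yval, MI.mainD]) u

theorem yval_eZ (w : FreeGroup ZB) : M.mainD.yval (eZ w) = zeta (M.pib (M.val w)) :=
  DFunLike.congr_fun (show M.mainD.yval.comp eZ = zeta.comp (M.pib.comp M.val) from
    FreeGroup.ext_hom _ _ fun y => by simp [eZ, RData.yval, MI.mainD, MI.val]) w

theorem yval_lp : M.mainD.yval lpp = 1 := by simp [lpp, RData.yval, MI.mainD]

theorem yval_lq : M.mainD.yval lq = tt := by simp [lq, RData.yval, MI.mainD]

theorem prB_eZ (w : FreeGroup ZB) : MI.prB (eZ w : FreeGroup (ZM Y ZB)) = w :=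
  DFunLike.congr_fun (show (MI.prB (Y := Y)).comp eZ = MonoidHom.id _ from
    FreeGroup.ext_hom _ _ fun y => by simp [eZ, MI.prB]) w

theorem theta0_z (h : M.Good c W) (z : ZB) :
    M.theta0 (eZ (FreeGroup.of z)) = zeta (M.pib (M.b z)) := by
  simp [MI.theta0, eZ, FreeGroup.toWord_of, MI.mainStep, h.fa_one, Zel]

theorem theta0_p (h : M.Good c W) : M.theta0 lpp = tt := by
  simp [MI.theta0, lpp, FreeGroup.toWord_of, MI.mainStep, h.fa_one, Zel, h.one_mem, MI.Sh]

theorem act_mv_eq_one (O : Obj Y) {g : FreeGroup (ZM Y ZB)} (h1 : V M g = 1)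
    (h2 : (plusD Y).act O (M.mainD.yval g) = 1) : M.mainD.act (Plus O) (mv g) = 1 := by
  rw [RData.act_mv]
  exact RData.Psi_eq_one _ _ h1 (RData.mem_core_of_act _ _ h2)

theorem plus_isTrue {O : Obj Y} (hO : O.IsTrue) : (Plus O).IsTrue :=
  (plusD Y).isTrue O plus_gauge hO fun m ε g₁ g₂ g₃ a b c d e f =>
    (bot_le : (⊥ : Subgroup _) ≤ _) (plus_hom m ε g₁ g₂ g₃ a b c d e f)

theorem hom_all (h : M.Good c W) {O : Obj Y} (hO : O.IsTrue) (hW : W ⊆ O.H false) (m : ℕ) :
    M.mainD.Hom ((Plus O).H false) m :=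
  main_hom h O m (isTrue_iff_reg.1 hO _) (isTrue_iff_reg.1 (plus_isTrue hO) _)
    fun _ hg _ => hW hg

theorem commute_hom {I E : Type} [Group E] (φ : FreeGroup I →* E) (a : E)
    (h : ∀ i, Commute a (φ (FreeGroup.of i))) (f : FreeGroup I) : Commute a (φ f) := by
  induction f using FreeGroup.induction_on with
  | C1 => simp
  | of i => exact h i
  | inv_of i hi => rw [map_inv]; exact hi.inv_right
  | mul x y hx hy => rw [map_mul]; exact hx.mul_right hy

end PMx

open PMx MH

theorem MP_emb (M : MI Y ZB) (O : Obj Y) : Emb cM O (M.MP O) := by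
  intro i g
  rw [cM_eq, MI.MP, RData.mv_mem, yval_eC, plus_emb O i g]
  exact and_iff_right (V_eC g)

theorem MP_isTrue {M : MI Y ZB} {c : ℕ} {W : Set (FreeGroup Y)} (h : M.Good c W) {O : Obj Y}
    (hO : O.IsTrue) (hW : W ⊆ O.H false) : (M.MP O).IsTrue := by
  exact M.mainD.isTrue (Plus O) (main_gauge h) (plus_isTrue hO) (hom_all h hO hW)

theorem PM_pack [Finite Y] [Finite ZB] {M : MI Y ZB} {c : ℕ} {W : Set (FreeGroup Y)}
    (h : M.Good c W) (hP : M.Pres W) :
    ∃ N : Subgroup (FreeGroup (Option (ZM Y ZB))), ∃ _ : N.Normal,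
      Group.IsFinitelyPresented (FreeGroup (Option (ZM Y ZB)) ⧸ N) ∧ (∀ u ∈ W, cM u ∈ N) ∧
      ∀ O : Obj Y, O.IsTrue → W ⊆ O.H false → N ≤ (M.MP O).core := by
  obtain ⟨I, _, ρ, l, Rel, hRel, hRel1, hρ, hl, hder⟩ := hP
  let e : FreeGroup ZB →* FreeGroup (Option (ZM Y ZB)) := mv.comp eZ
  let p : FreeGroup (Option (ZM Y ZB)) := mv lpp
  let q : FreeGroup (Option (ZM Y ZB)) := mv lq
  let R : Set (FreeGroup (Option (ZM Y ZB))) := e '' Rel ∪
    Set.range (fun i => tt * e (FreeGroup.of (l i)) * (e (FreeGroup.of (l i)) * tt)⁻¹) ∪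
    Set.range (fun i => p * e (ρ i) * (e (ρ i) * p)⁻¹) ∪ {p * tt * (tt * q * p)⁻¹} ∪
    Set.range (fun x : I × Y => cM (FreeGroup.of x.2) * e (FreeGroup.of (l x.1)) *
      (e (FreeGroup.of (l x.1)) * cM (FreeGroup.of x.2))⁻¹) ∪
    Set.range (fun i => e (FreeGroup.of (l i)) * q * (e (FreeGroup.of (l i)))⁻¹ *
      (q * cM (M.pib (M.b (l i))))⁻¹)
  have hR : R.Finite := (((((hRel.image _).union (Set.finite_range _)).union
    (Set.finite_range _)).union (Set.finite_singleton _)).union (Set.finite_range _)).union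
    (Set.finite_range _)
  refine ⟨Subgroup.normalClosure R, inferInstance,
    Group.IsFinitelyPresented.quotient _ ⟨R, hR, rfl⟩, fun u hu => ?_, fun O hO hW => ?_⟩
  · let π := QuotientGroup.mk' (Subgroup.normalClosure R)
    have hπ : ∀ a b, a * b⁻¹ ∈ R → π a = π b := fun a b hab => by
      rw [← mul_inv_eq_one, ← map_inv, ← map_mul]
      exact (QuotientGroup.eq_one_iff _).2 (Subgroup.subset_normalClosure hab)
    obtain ⟨f, hf, rfl⟩ := hder u hu
    let lam : FreeGroup I →* _ := π.comp (e.comp (FreeGroup.map l))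
    let rho : FreeGroup I →* _ := π.comp (e.comp (FreeGroup.lift ρ))
    have h1 : rho f = lam f := by
      have : Subgroup.normalClosure Rel ≤ (π.comp e).ker :=
        Subgroup.normalClosure_le_normal fun r hr => (QuotientGroup.eq_one_iff _).2
          (Subgroup.subset_normalClosure
            (Or.inl (Or.inl (Or.inl (Or.inl (Or.inl ⟨r, hr, rfl⟩))))))
      have h2 := this hf
      rw [MonoidHom.mem_ker, map_mul, map_inv, mul_inv_eq_one] at h2
      exact h2
    have h2 : Commute (π tt) (lam f) := commute_hom lam _ (fun i => by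
      have := hπ _ _ (Or.inl (Or.inl (Or.inl (Or.inl (Or.inr ⟨i, rfl⟩)))))
      simpa [lam, Commute, SemiconjBy] using this) f
    have h3 : Commute (π p) (lam f) := h1 ▸ commute_hom rho _ (fun i => by
      have := hπ _ _ (Or.inl (Or.inl (Or.inl (Or.inr ⟨i, rfl⟩))))
      simpa [rho, Commute, SemiconjBy] using this) f
    have h4 : π q = (π tt)⁻¹ * π p * π tt * (π p)⁻¹ := by
      have := hπ _ _ (Or.inl (Or.inl (Or.inr rfl)))
      simp only [map_mul] at this
      rw [mul_assoc _ (π p), this]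
      group
    have h5 : Commute (π q) (lam f) := by
      rw [h4]
      exact ((h2.inv_left.mul_left h3).mul_left h2).mul_left h3.inv_left
    have h6 : ∀ f u, Commute (lam f) (π (cM u)) := fun f u =>
      commute_hom (π.comp cM) _ (fun y => (commute_hom lam _ (fun i => by
        have := hπ _ _ (Or.inl (Or.inr ⟨(i, y), rfl⟩))
        simpa [lam, Commute, SemiconjBy] using this) f).symm) u
    have h7 : ∀ f, lam f * π q * (lam f)⁻¹ =
        π q * π (cM (M.pib (M.val (FreeGroup.map l f)))) := by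
      intro f
      induction f using FreeGroup.induction_on with
      | C1 => simp
      | of i =>
        have := hπ _ _ (Or.inr ⟨i, rfl⟩)
        simpa [lam, MI.val] using this
      | inv_of i hi =>
        simp only [map_inv]
        have h8 := (h6 (FreeGroup.of i) (M.pib (M.val (FreeGroup.map l (FreeGroup.of i))))).eq
        generalize π (cM (M.pib (M.val (FreeGroup.map l (FreeGroup.of i))))) = C at hi h8
        generalize lam (FreeGroup.of i) = A at hi h8
        calc A⁻¹ * π q * A⁻¹⁻¹ = A⁻¹ * (π q * C) * A * (A⁻¹ * C⁻¹ * A) := by group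
          _ = π q * (A⁻¹ * C⁻¹ * A) := by rw [← hi]; group
          _ = π q * C⁻¹ := by rw [← mul_inv_rev, ← h8]; group
      | mul x y hx hy =>
        simp only [map_mul]
        have h8 := (h6 x (M.pib (M.val (FreeGroup.map l y)))).eq
        calc _ = lam x * (lam y * π q * (lam y)⁻¹) * (lam x)⁻¹ := by group
          _ = lam x * π q * (lam x)⁻¹ *
              (lam x * π (cM (M.pib (M.val (FreeGroup.map l y)))) * (lam x)⁻¹) := by
            rw [hy]; group
          _ = _ := by rw [hx, h8]; group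
    have h9 := h7 f
    rw [← h5.eq, mul_inv_cancel_right, left_eq_mul] at h9
    exact (QuotientGroup.eq_one_iff _).1 h9
  · have hθ : ∀ m, M.mainD.Hom (Plus O).core m := fun m => by
      rw [(plus_isTrue hO).core_eq]
      exact hom_all h hO hW m
    refine Subgroup.normalClosure_le_normal fun r hr => RData.mem_core_of_act _ _ ?_
    rcases hr with ((((⟨r, hr, rfl⟩ | ⟨i, rfl⟩) | ⟨i, rfl⟩) | rfl) | ⟨⟨i, y⟩, rfl⟩) | ⟨i, rfl⟩
    · exact act_mv_eq_one O (by rw [V_eZ, hRel1 r hr, map_one])
        (by rw [yval_eZ, hRel1 r hr, map_one, map_one, map_one])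
    · have h1 := M.mainD.Tp_Psi (Plus O) hθ (g := eZ (FreeGroup.of (l i)))
        (mem_Ao.2 (by rw [prB_eZ]; simpa [MI.val] using hl i))
      change _ * M.mainD.Psi (Plus O) (_, M.theta0 _) =
        M.mainD.Psi (Plus O) (_, zeta (M.pib (M.val (MI.prB _)))) * _ at h1
      rw [theta0_z h, prB_eZ] at h1
      simp only [map_mul, map_inv, mul_inv_eq_one, e, MonoidHom.comp_apply, RData.act_mv,
        RData.act_tt, yval_eZ]
      simpa [MI.val] using h1
    · have := act_mv_eq_one (M := M) O (g := lpp * eZ (ρ i) * (eZ (ρ i) * lpp)⁻¹) (by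
        rw [map_mul, map_inv, mul_inv_eq_one, map_mul, map_mul, V_eZ, lpp, val_p]
        ext
        · simp only [SemidirectProduct.mul_left, SemidirectProduct.left_inl,
            SemidirectProduct.right_inl, SemidirectProduct.left_inr, map_one, mul_one, one_mul,
            SemidirectProduct.right_inr, permAut_of]
          congr 1
          refine QuotientGroup.eq.2 ?_
          simpa using hρ i
        · simp) (by simp [yval_lp])
      simpa [e, p] using this
    · have h1 := M.mainD.Tp_Psi (Plus O) hθ (g := lpp)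
        (mem_Ao.2 (by simp [lpp, MI.prB]))
      change _ * M.mainD.Psi (Plus O) (_, M.theta0 _) =
        M.mainD.Psi (Plus O) (_, zeta (M.pib (M.val (MI.prB _)))) * _ at h1
      rw [theta0_p h] at h1
      have h2 : MI.prB (lpp : FreeGroup (ZM Y ZB)) = 1 := by simp [lpp, MI.prB]
      have h3 : M.mainD.Psi (Plus O) (lq, tt) = M.mainD.Psi (Plus O) (1, tt) :=
        RData.Psi_congr _ _ (val_pp.trans (map_one _).symm) _
      rw [h2, map_one, map_one, map_one] at h1
      simp only [map_mul, map_inv, mul_inv_eq_one, p, q, RData.act_mv, RData.act_tt, yval_lp,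
        yval_lq]
      rw [← h1, h3, mul_assoc, ← map_mul]
      simp
    · have := act_mv_eq_one (M := M) O (g := eC (FreeGroup.of y) * eZ (FreeGroup.of (l i)) *
        (eZ (FreeGroup.of (l i)) * eC (FreeGroup.of y))⁻¹) (by simp [V_eC]) (by
          simp only [map_mul, map_inv, mul_inv_eq_one, yval_eC, yval_eZ]
          simpa using (act_zeta_cP O _ _).symm)
      simpa [e, cM_eq] using this
    · have := act_mv_eq_one (M := M) O (g := eZ (FreeGroup.of (l i)) * lq *
        (eZ (FreeGroup.of (l i)))⁻¹ * (lq * eC (M.pib (M.b (l i))))⁻¹) (by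
          simp [V_eC, lq, val_pp]) (by
          have := act_Zel_tt O (M.pib (M.b (l i)), 1)
          simp only [map_mul, map_inv, mul_inv_eq_one, yval_eC, yval_eZ, yval_lq]
          simpa [Zel_left, MI.val] using this)
      simpa [e, q, cM_eq] using this

end Crest.Agent.R185
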