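import Crest.Agent.R185.RAlg
import Crest.Agent.Lib.PrimrecRat

/-!
# Row 185: the padding layer (task R185-Pad)

`A = F(ξ₀, ξ₁)` acts on `ℤ × ZMod (2(μ+1))`: `ξ₀ = of false` moves along the spine (`r = 0`), `ξ₁ = of true` goes round the loop at `i`, and crossing the middle edge
`μ → μ+1` of the loop at `i` multiplies the label by `lab i`.

PLAN.  `padAct` commutes with right multiplication on the label and covers `padBase`; hence `θ true` is an exact homomorphism on the stabiliser.
`gauge`: with `M = μ+1`, the potential `h (i,r,L) = 2M|L| + r (|lab i * L| - |L|)` for `r.val < M`, `2M|L| + (2M - r)(|(lab i)⁻¹ * L| - |L|)` for `r.val ≥ M` changes by at most `1`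
under each generator, so `2M |θ true g| ≤ |g|` on the stabiliser.  `emb`: `a_i = ξ₀^(-i) ξ₁^(2M) ξ₀^i` has `θ true a_i = lab i`; by `Tp_Psi`, `padSub μ i` acts as `Psi (1, lab i)`.
Computability: run the automaton on `g.toWord` (`lift_eq_foldr`) with state in `ℤ × ℕ × FreeGroup Y` (integer primrec facts: `Crest/Agent/Lib/PrimrecRat.lean`).
-/

set_option autoImplicit false

namespace Crest.Agent.R185

variable {Y : Type}

def padBase (μ : ℕ) : FreeGroup Bool →* Equiv.Perm (ℤ × ZMod (2 * (μ + 1))) :=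
  FreeGroup.lift fun b => cond b (Equiv.prodCongr (Equiv.refl _) (Equiv.addRight 1))
    (Equiv.prodCongrLeft fun r => if r = 0 then Equiv.addRight 1 else Equiv.refl _)

def padAct (μ : ℕ) (lab : ℤ → FreeGroup Y) :
    FreeGroup Bool →* Equiv.Perm ((ℤ × ZMod (2 * (μ + 1))) × FreeGroup Y) :=
  FreeGroup.lift fun b => cond b
    ((Equiv.prodCongr (padBase μ (FreeGroup.of true)) (Equiv.refl _)) *
      Equiv.prodCongrRight fun p => if p.2 = (μ : ZMod (2 * (μ + 1))) then Equiv.mulLeft (lab p.1)
        else Equiv.refl _)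
    (Equiv.prodCongr (padBase μ (FreeGroup.of false)) (Equiv.refl _))

def padD (μ : ℕ) (lab : ℤ → FreeGroup Y) : RData Y Bool where
  A := FreeGroup Bool
  a := FreeGroup.of
  y := fun _ => 1
  Ao := (MulAction.stabilizer (Equiv.Perm (ℤ × ZMod (2 * (μ + 1))))
    ((0, 0) : ℤ × ZMod (2 * (μ + 1)))).comap (padBase μ)
  θ := fun ε g => cond ε (padAct μ lab g ((0, 0), 1)).2 1

/-- The word acting as `lab i`. -/
def padSub (μ : ℕ) (i : ℤ) : FreeGroup (Option Bool) :=
  let a : FreeGroup Bool :=
    (FreeGroup.of false) ^ (-i) * (FreeGroup.of true) ^ (2 * (μ + 1)) * (FreeGroup.of false) ^ i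
  tt * mv a * tt⁻¹ * (mv a)⁻¹

section Aux

variable (μ : ℕ) (lab : ℤ → FreeGroup Y)

theorem padAct_true (i : ℤ) (r : ZMod (2 * (μ + 1))) (L : FreeGroup Y) :
    padAct μ lab (FreeGroup.of true) ((i, r), L) =
      ((i, r + 1), if r = (μ : ZMod (2 * (μ + 1))) then lab i * L else L) := by
  simp only [padAct, padBase, FreeGroup.lift_apply_of, cond_true, Equiv.Perm.mul_apply,
    Equiv.prodCongrRight_apply]
  split_ifs <;> simp

theorem padAct_false (i : ℤ) (r : ZMod (2 * (μ + 1))) (L : FreeGroup Y) :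
    padAct μ lab (FreeGroup.of false) ((i, r), L) = ((if r = 0 then i + 1 else i, r), L) := by
  simp only [padAct, padBase, FreeGroup.lift_apply_of, cond_false, Equiv.prodCongr_apply,
    Prod.map, Equiv.prodCongrLeft_apply]
  split_ifs <;> simp

theorem padAct_true_inv (i : ℤ) (r : ZMod (2 * (μ + 1))) (L : FreeGroup Y) :
    (padAct μ lab (FreeGroup.of true))⁻¹ ((i, r), L) =
      ((i, r - 1), if r - 1 = (μ : ZMod (2 * (μ + 1))) then (lab i)⁻¹ * L else L) := by
  rw [Equiv.Perm.inv_eq_iff_eq, padAct_true]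
  split_ifs <;> simp

theorem padAct_false_inv (i : ℤ) (r : ZMod (2 * (μ + 1))) (L : FreeGroup Y) :
    (padAct μ lab (FreeGroup.of false))⁻¹ ((i, r), L) = ((if r = 0 then i - 1 else i, r), L) := by
  rw [Equiv.Perm.inv_eq_iff_eq, padAct_false]
  split_ifs <;> simp

theorem padAct_fst (g : FreeGroup Bool) :
    ∀ y, (padAct μ lab g y).1 = padBase μ g y.1 := by
  induction g using FreeGroup.induction_on with
  | C1 => intro y; simp
  | of b =>
    intro y
    cases b <;> simp [padAct]
  | inv_of b ih =>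
    intro y
    rw [map_inv, map_inv, eq_comm, Equiv.Perm.inv_eq_iff_eq, ← ih]
    simp
  | mul u v ihu ihv => intro y; simp [ihu, ihv]

theorem padAct_comm (L' : FreeGroup Y) (g : FreeGroup Bool) :
    Commute (padAct μ lab g) (Equiv.prodCongr (Equiv.refl _) (Equiv.mulRight L')) := by
  induction g using FreeGroup.induction_on with
  | C1 => simp
  | of b =>
    refine Equiv.ext ?_
    rintro ⟨⟨i, r⟩, L⟩
    cases b
    · simp [padAct_false]
    · simp only [Equiv.Perm.mul_apply, Equiv.prodCongr_apply, Prod.map, Equiv.refl_apply,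
        padAct_true, Equiv.coe_mulRight]
      split_ifs <;> simp [mul_assoc]
  | inv_of b ih => rw [map_inv]; exact ih.inv_left
  | mul u v ihu ihv => rw [map_mul]; exact ihu.mul_left ihv

theorem padAct_eq (g : FreeGroup Bool) (x : ℤ × ZMod (2 * (μ + 1))) (L : FreeGroup Y) :
    padAct μ lab g (x, L) = (padBase μ g x, (padAct μ lab g (x, 1)).2 * L) := by
  have := DFunLike.congr_fun (padAct_comm μ lab L g).eq (x, 1)
  simp only [Equiv.Perm.mul_apply, Equiv.prodCongr_apply, Prod.map, Equiv.refl_apply,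
    Equiv.coe_mulRight, one_mul] at this
  rw [this, padAct_fst]

theorem pad_val (g : FreeGroup Bool) : (padD μ lab).val g = g :=
  DFunLike.congr_fun (show (padD μ lab).val = MonoidHom.id (FreeGroup Bool) from
    FreeGroup.ext_hom _ _ fun b => FreeGroup.lift_apply_of) g

theorem pad_yval (g : FreeGroup Bool) : (padD μ lab).yval g = 1 :=
  DFunLike.congr_fun (show (padD μ lab).yval = 1 from
    FreeGroup.ext_hom _ _ fun b => FreeGroup.lift_apply_of) g

theorem pad_mem (g : FreeGroup Bool) :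
    (padD μ lab).val g ∈ (padD μ lab).Ao ↔ padBase μ g (0, 0) = (0, 0) := by
  rw [pad_val]; rfl

theorem pot_word {X : Type} (A : FreeGroup Bool →* Equiv.Perm X) (h : X → ℤ)
    (hA : ∀ b x, |h (A (FreeGroup.of b) x) - h x| ≤ 1) (l : List (Bool × Bool)) (x : X) :
    |h (A (FreeGroup.mk l) x) - h x| ≤ l.length := by
  induction l with
  | nil => simp [← FreeGroup.one_eq_mk]
  | cons a l ih =>
    obtain ⟨b, ε⟩ := a
    have h1 : |h (A (FreeGroup.mk [(b, ε)]) (A (FreeGroup.mk l) x)) - h (A (FreeGroup.mk l) x)|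
        ≤ 1 := by
      cases ε
      · have h2 : FreeGroup.mk [(b, false)] = (FreeGroup.of b)⁻¹ := rfl
        have := hA b (A (FreeGroup.of b)⁻¹ (A (FreeGroup.mk l) x))
        rw [h2, abs_sub_comm]
        simpa using this
      · exact hA b _
    have h2 : FreeGroup.mk ((b, ε) :: l) = FreeGroup.mk [(b, ε)] * FreeGroup.mk l :=
      (FreeGroup.mul_mk (L₁ := [(b, ε)])).symm
    rw [h2, map_mul, Equiv.Perm.mul_apply, List.length_cons]
    rw [abs_le] at h1 ih ⊢
    push_cast
    constructor <;> linarith [h1.1, h1.2, ih.1, ih.2]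

/-- The potential. -/
def padPot [DecidableEq Y] (p : (ℤ × ZMod (2 * (μ + 1))) × FreeGroup Y) : ℤ :=
  if p.1.2.val ≤ μ then
    2 * (μ + 1) * p.2.norm + p.1.2.val * (((lab p.1.1 * p.2).norm : ℤ) - p.2.norm)
  else 2 * (μ + 1) * p.2.norm +
    (2 * (μ + 1) - p.1.2.val) * ((((lab p.1.1)⁻¹ * p.2).norm : ℤ) - p.2.norm)

theorem norm_mul_diff [DecidableEq Y] {a : FreeGroup Y} (ha : a.norm ≤ 1) (L : FreeGroup Y) :
    |((a * L).norm : ℤ) - L.norm| ≤ 1 := by
  have h1 := FreeGroup.norm_mul_le a L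
  have h2 := FreeGroup.norm_mul_le a⁻¹ (a * L)
  rw [inv_mul_cancel_left, FreeGroup.norm_inv_eq] at h2
  rw [abs_le]; omega

theorem padPot_step [DecidableEq Y] (hlab : ∀ i, (lab i).norm ≤ 1) (b : Bool)
    (x : (ℤ × ZMod (2 * (μ + 1))) × FreeGroup Y) :
    |padPot μ lab (padAct μ lab (FreeGroup.of b) x) - padPot μ lab x| ≤ 1 := by
  obtain ⟨⟨i, r⟩, L⟩ := x
  cases b
  · rw [padAct_false]
    by_cases hr : r = 0
    · subst hr; simp [padPot]
    · simp [hr]
  · rw [padAct_true]
    haveI : Fact (1 < 2 * (μ + 1)) := ⟨by omega⟩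
    have hv : (r + 1).val = (r.val + 1) % (2 * (μ + 1)) := by rw [ZMod.val_add, ZMod.val_one]
    have hlt : r.val < 2 * (μ + 1) := ZMod.val_lt r
    have hμ : r = (μ : ZMod (2 * (μ + 1))) ↔ r.val = μ := by
      rw [← (ZMod.val_injective _).eq_iff, ZMod.val_cast_of_lt (by omega)]
    have h1 := norm_mul_diff (hlab i) L
    have h2 := norm_mul_diff (a := (lab i)⁻¹) (by simpa using hlab i) L
    simp only [padPot, hμ]
    rcases lt_trichotomy r.val μ with h | h | h
    · rw [Nat.mod_eq_of_lt (by omega)] at hv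
      rw [if_neg h.ne, hv, if_pos (by omega), if_pos h.le]
      convert h1 using 2
      push_cast; ring
    · rw [Nat.mod_eq_of_lt (by omega)] at hv
      rw [if_pos h, hv, if_neg (by omega), if_pos h.le, inv_mul_cancel_left, h]
      convert h1 using 2
      push_cast; ring
    · rw [if_neg h.ne', if_neg (not_le.2 h)]
      rw [abs_sub_comm] at h2
      by_cases h3 : r.val + 1 = 2 * (μ + 1)
      · rw [h3, Nat.mod_self] at hv
        rw [hv, if_pos (Nat.zero_le _)]
        have h4 : (r.val : ℤ) = 2 * (μ + 1) - 1 := by omega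
        convert h2 using 2
        rw [h4]; push_cast; ring
      · rw [Nat.mod_eq_of_lt (by omega)] at hv
        rw [hv, if_neg (by omega)]
        convert h2 using 2
        push_cast; ring

theorem padAct_false_zpow (k j : ℤ) (L : FreeGroup Y) :
    padAct μ lab (FreeGroup.of false ^ k) ((j, 0), L) = ((j + k, 0), L) := by
  induction k using Int.induction_on with
  | zero => simp
  | succ k ih =>
    rw [add_comm (k : ℤ) 1, zpow_one_add, map_mul, Equiv.Perm.mul_apply, ih, padAct_false]
    simp; ring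
  | pred k ih =>
    rw [sub_eq_neg_add, zpow_add, map_mul, Equiv.Perm.mul_apply, ih, zpow_neg_one, map_inv,
      padAct_false_inv]
    simp; ring

theorem padAct_true_pow (i : ℤ) (L : FreeGroup Y) (n : ℕ) (hn : n ≤ 2 * (μ + 1)) :
    padAct μ lab (FreeGroup.of true ^ n) ((i, 0), L) =
      ((i, (n : ZMod (2 * (μ + 1)))), if n ≤ μ then L else lab i * L) := by
  induction n with
  | zero => simp
  | succ n ih =>
    have hμ : (n : ZMod (2 * (μ + 1))) = (μ : ZMod (2 * (μ + 1))) ↔ n = μ := by
      rw [← (ZMod.val_injective _).eq_iff, ZMod.val_cast_of_lt (by omega),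
        ZMod.val_cast_of_lt (by omega)]
    rw [pow_succ', map_mul, Equiv.Perm.mul_apply, ih (by omega), padAct_true]
    simp only [hμ, Nat.cast_add, Nat.cast_one, Prod.mk.injEq, true_and]
    rcases lt_trichotomy n μ with h | h | h
    · rw [if_neg h.ne, if_pos h.le, if_pos (by omega)]
    · rw [if_pos h, if_pos h.le, if_neg (by omega)]
    · rw [if_neg h.ne', if_neg (by omega), if_neg (by omega)]

theorem padAct_loop (i : ℤ) :
    padAct μ lab ((FreeGroup.of false) ^ (-i) * (FreeGroup.of true) ^ (2 * (μ + 1)) *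
      (FreeGroup.of false) ^ i) ((0, 0), 1) = ((0, 0), lab i) := by
  rw [map_mul, map_mul, Equiv.Perm.mul_apply, Equiv.Perm.mul_apply, padAct_false_zpow,
    padAct_true_pow _ _ _ _ _ le_rfl, ZMod.natCast_self, padAct_false_zpow, if_neg (by omega)]
  simp

theorem primrec_fg_pow {W : Type} [DecidableEq W] [Primcodable W] (g : FreeGroup W) :
    Primrec fun n : ℕ => g ^ n := by
  have h : Primrec₂ fun (_ : ℕ) (p : ℕ × FreeGroup W) => p.2 * g :=
    primrec_mul.comp (Primrec.snd.comp Primrec.snd) (Primrec.const g)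
  refine (Primrec.nat_rec' Primrec.id (Primrec.const 1) h).of_eq fun n => ?_
  induction n with
  | zero => rfl
  | succ n ih => simp only [id] at ih ⊢; rw [ih, pow_succ]

theorem primrec_fg_zpow {W : Type} [DecidableEq W] [Primcodable W] (g : FreeGroup W) :
    Primrec fun n : ℤ => g ^ n := by
  refine (primrec_mul.comp ((primrec_fg_pow g).comp Lib.PrimrecRat.int_toNat)
    (primrec_inv.comp ((primrec_fg_pow g).comp Lib.PrimrecRat.int_negToNat))).of_eq fun n => ?_
  rw [← zpow_natCast, ← zpow_natCast, ← zpow_sub, Int.toNat_sub_toNat_neg]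

end Aux

variable [DecidableEq Y]

theorem pad_gauge (μ : ℕ) (lab : ℤ → FreeGroup Y) (hlab : ∀ i, (lab i).norm ≤ 1) :
    (padD μ lab).Gauge fun n => n / (2 * (μ + 1)) := by
  refine ⟨fun m n => Nat.add_div_le_add_div _ _ _, fun z => by simp [padD], ?_⟩
  rintro (_ | _) g hg
  · simp [padD]
  · rw [pad_mem] at hg
    have h := pot_word _ _ (padPot_step μ lab hlab) g.toWord ((0, 0), 1)
    rw [FreeGroup.mk_toWord, padAct_eq, hg, mul_one] at h
    simp only [padPot, ZMod.val_zero, Nat.zero_le, if_true, Nat.cast_zero, zero_mul, add_zero,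
      FreeGroup.norm_one, mul_zero, sub_zero] at h
    rw [Nat.le_div_iff_mul_le (by omega), mul_comm]
    have h2 := (le_abs_self _).trans h
    exact_mod_cast h2

omit [DecidableEq Y] in
theorem pad_hom (μ : ℕ) (lab : ℤ → FreeGroup Y) (m : ℕ) : (padD μ lab).Hom ⊥ m := by
  intro ε g₁ g₂ g₃ _ _ _ _ h2 h3
  rw [pad_mem] at h2
  rw [pad_val, pad_val, pad_val] at h3
  obtain rfl : g₁ * g₂ = g₃ := h3
  rw [Subgroup.mem_bot, mul_inv_eq_one]
  cases ε
  · exact one_mul _
  · change (padAct μ lab g₁ ((0, 0), 1)).2 * (padAct μ lab g₂ ((0, 0), 1)).2 =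
      (padAct μ lab (g₁ * g₂) ((0, 0), 1)).2
    rw [map_mul, Equiv.Perm.mul_apply, padAct_eq μ lab g₂, h2, mul_one, padAct_eq μ lab g₁ _
      (padAct μ lab g₂ ((0, 0), 1)).2]

omit [DecidableEq Y] in
theorem pad_emb (μ : ℕ) (lab : ℤ → FreeGroup Y) (O : Obj Y) {I : Type} (idx : I → ℤ) (i : Bool)
    (u : FreeGroup I) : FreeGroup.lift (fun x => padSub μ (idx x)) u ∈ ((padD μ lab).R O).H i ↔
      FreeGroup.lift (fun x => lab (idx x)) u ∈ O.H i := by
  have h1 : ∀ k : ℤ, (padD μ lab).act O (padSub μ k) = (padD μ lab).Psi O (1, lab k) := by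
    intro k
    have h2 := padAct_loop μ lab k
    set a : FreeGroup Bool := (FreeGroup.of false) ^ (-k) * (FreeGroup.of true) ^ (2 * (μ + 1)) *
      (FreeGroup.of false) ^ k with ha
    have h := (padD μ lab).Tp_Psi O (fun m ε g₁ g₂ g₃ a b c d e f =>
      (bot_le : (⊥ : Subgroup _) ≤ _) (pad_hom μ lab m ε g₁ g₂ g₃ a b c d e f)) (g := a)
      ((pad_mem μ lab a).2 (by rw [← padAct_fst μ lab a ((0, 0), 1), h2]))
    rw [show (padD μ lab).θ true a = lab k from congrArg Prod.snd h2,
      show (padD μ lab).θ false a = 1 from rfl] at h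
    change (padD μ lab).act O (tt * mv a * tt⁻¹ * (mv a)⁻¹) = _
    rw [map_mul, map_mul, map_mul, map_inv, map_inv, RData.act_mv, RData.act_tt, pad_yval, h,
      mul_inv_cancel_right, ← map_inv, ← map_mul]
    simp
  have h2 : ((padD μ lab).act O).comp (FreeGroup.lift fun x => padSub μ (idx x)) =
      ((padD μ lab).Psi O).comp ((MonoidHom.inr _ _).comp
        (FreeGroup.lift fun x => lab (idx x))) := by
    ext1 x
    simp [h1]
  have h3 := DFunLike.congr_fun h2 u
  simp only [MonoidHom.comp_apply, MonoidHom.inr_apply] at h3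
  rw [RData.mem_R, h3, RData.Psi_base]
  simp

theorem pad_ok [Primcodable Y] (μ : ℕ) (lab : ℤ → FreeGroup Y) (hlab : ∀ i, (lab i).norm ≤ 1)
    (hp : Primrec lab) :
    LayerOK (fun _ O => (padD μ lab).R O) (fun n => 4 * (4 * n / (2 * (μ + 1)))) NoC := by
  letI : Primcodable (ZMod (2 * (μ + 1))) :=
    Primcodable.ofEquiv (Fin (Fintype.card (ZMod (2 * (μ + 1))))) (Fintype.equivFin _)
  have hrun : Primrec fun g : FreeGroup Bool => padAct μ lab g ((0, 0), 1) := by
    have hi : Primrec fun q : FreeGroup Bool × ((Bool × Bool) ×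
        ((ℤ × ZMod (2 * (μ + 1))) × FreeGroup Y)) => q.2.2.1.1 :=
      Primrec.fst.comp (Primrec.fst.comp (Primrec.snd.comp Primrec.snd))
    have hr : Primrec fun q : FreeGroup Bool × ((Bool × Bool) ×
        ((ℤ × ZMod (2 * (μ + 1))) × FreeGroup Y)) => q.2.2.1.2 :=
      Primrec.snd.comp (Primrec.fst.comp (Primrec.snd.comp Primrec.snd))
    have hL : Primrec fun q : FreeGroup Bool × ((Bool × Bool) ×
        ((ℤ × ZMod (2 * (μ + 1))) × FreeGroup Y)) => q.2.2.2 :=
      Primrec.snd.comp (Primrec.snd.comp Primrec.snd)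
    have hr1 := (Primrec.dom_finite fun r : ZMod (2 * (μ + 1)) => r + 1).comp hr
    have hr2 := (Primrec.dom_finite fun r : ZMod (2 * (μ + 1)) => r - 1).comp hr
    have hstep : Primrec₂ fun (_ : FreeGroup Bool) (q : (Bool × Bool) ×
        ((ℤ × ZMod (2 * (μ + 1))) × FreeGroup Y)) =>
        (cond q.1.2 (padAct μ lab (FreeGroup.of q.1.1)) (padAct μ lab (FreeGroup.of q.1.1))⁻¹)
          q.2 := by
      refine (Primrec.cond (Primrec.snd.comp (Primrec.fst.comp Primrec.snd))
        (Primrec.cond (Primrec.fst.comp (Primrec.fst.comp Primrec.snd))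
          ((hi.pair hr1).pair (Primrec.ite (Primrec.eq.comp hr (Primrec.const (μ : ZMod _)))
            (primrec_mul.comp (hp.comp hi) hL) hL))
          (((Primrec.ite (Primrec.eq.comp hr (Primrec.const 0))
            (Lib.PrimrecRat.int_add.comp hi (Primrec.const 1)) hi).pair hr).pair hL))
        (Primrec.cond (Primrec.fst.comp (Primrec.fst.comp Primrec.snd))
          ((hi.pair hr2).pair (Primrec.ite (Primrec.eq.comp hr2 (Primrec.const (μ : ZMod _)))
            (primrec_mul.comp (primrec_inv.comp (hp.comp hi)) hL) hL))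
          (((Primrec.ite (Primrec.eq.comp hr (Primrec.const 0))
            (Lib.PrimrecRat.int_sub.comp hi (Primrec.const 1)) hi).pair hr).pair hL))).of_eq ?_
      rintro ⟨_, ⟨_ | _, _ | _⟩, ⟨i, r⟩, L⟩
      · exact (padAct_false_inv μ lab i r L).symm
      · exact (padAct_false μ lab i r L).symm
      · exact (padAct_true_inv μ lab i r L).symm
      · exact (padAct_true μ lab i r L).symm
    refine (Primrec.list_foldr primrec_toWord (Primrec.const ((0, 0), 1)) hstep).of_eq fun g => ?_
    conv_rhs => rw [← FreeGroup.mk_toWord (x := g)]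
    induction g.toWord with
    | nil => simp [← FreeGroup.one_eq_mk]
    | cons a l ih =>
      obtain ⟨b, ε⟩ := a
      have h2 : FreeGroup.mk ((b, ε) :: l) = FreeGroup.mk [(b, ε)] * FreeGroup.mk l :=
        (FreeGroup.mul_mk (L₁ := [(b, ε)])).symm
      rw [List.foldr_cons, ih, h2, map_mul, Equiv.Perm.mul_apply]
      cases ε
      · have h3 : FreeGroup.mk [(b, false)] = (FreeGroup.of b)⁻¹ := rfl
        rw [h3, map_inv]; rfl
      · rfl
  refine R_layerOK (padD μ lab) (pad_gauge μ lab hlab) (pad_hom μ lab) ?_ ?_ ?_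
  · exact (Primrec.eq.comp Primrec.id (Primrec.const (1 : FreeGroup Bool))).of_eq fun g => by
      rw [pad_val]; rfl
  · exact (Primrec.eq.comp (Primrec.fst.comp hrun) (Primrec.const (0, 0))).of_eq fun g => by
      rw [pad_mem, padAct_fst]
  · exact Primrec.cond Primrec.fst (Primrec.snd.comp (hrun.comp Primrec.snd)) (Primrec.const 1)

theorem primrec_padSub (μ : ℕ) : Primrec (padSub μ) := by
  have ha : Primrec fun i : ℤ => mv ((FreeGroup.of false) ^ (-i) *
      (FreeGroup.of true) ^ (2 * (μ + 1)) * (FreeGroup.of false) ^ i) :=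
    (primrec_hom mv).comp (primrec_mul.comp (primrec_mul.comp
      ((primrec_fg_zpow _).comp Lib.PrimrecRat.int_neg) (Primrec.const _)) (primrec_fg_zpow _))
  exact primrec_mul.comp (primrec_mul.comp (primrec_mul.comp (Primrec.const _) ha)
    (Primrec.const _)) (primrec_inv.comp ha)

end Crest.Agent.R185
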