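import Crest.Agent.R185.BrownFPAux

/-!
# Row 185: a finitely presented overgroup with a `p`-system (task R185-WU)

PLAN.  `W` = free product of copies of `U` indexed by `Bool × M3 p` (finite; `Monoid.CoprodI`, or `PresentedGroup` on
`Bool × M3 p × generators`) modulo the finitely many relations on generators forcing `IsFam` for `fA = of (false,·)`,
`fB = of (true,·)`, `fA e22 = fB e22`, and with `ι u := fA e11 u * (fB e11 u)⁻¹`: `[ι x, fB e11 x'] = 1` on generators
(then `ι` is a homomorphism commuting with `fB e11`; relations on generators propagate because commuting homomorphisms multiply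
to homomorphisms).  Injectivity of `ι`: model in `Module.End`-units / `Equiv.Perm` of `M = (U × ℕ × Fin 3) →₀ ZMod p`:
for an idempotent endomorphism `E` of `(ℕ × Fin 3) →₀ ZMod p` put `f_E u = 1 - E + u ⊗ E`; `fA e = f_{1 ⊗ e}`, `fB e = f_{v e v*}` with
`v = x e11 + e22 + e33`, `v* = y e11 + e22 + e33` (`x` shift, `y` back shift, `y x = 1`); `ι u = f_{(1 - x y) e11} u` moves `[1,0,0]` to `[u,0,0]`.
(non idempotent `e` ↦ trivial homomorphism.)
-/

set_option autoImplicit false

namespace Crest.Agent.R185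

/-- A finitely presented cover in which all commutation, product and equality relations between
finitely many homomorphisms persist. -/
theorem exists_fp_cover {I U G : Type} [Finite I] [Group U] [Group G]
    (hU : Group.IsFinitelyPresented U) (j : I → U →* G) :
    ∃ (W : Type) (_ : Group W) (w : I → U →* W) (π : W →* G), Group.IsFinitelyPresented W ∧
      (∀ i u, π (w i u) = j i u) ∧
      (∀ i i', (∀ u u', Commute (j i u) (j i' u')) → ∀ u u', Commute (w i u) (w i' u')) ∧
      (∀ k i i', (∀ u u', Commute (j i u) (j i' u')) → (∀ u, j k u = j i u * j i' u) →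
        ∀ u, w k u = w i u * w i' u) ∧
      ∀ i i', j i = j i' → w i = w i' := by
  obtain ⟨F, _, σ, hF, hu⟩ := exists_fp_family (fun _ : I => U) (fun _ => hU)
  obtain ⟨π, hπ⟩ := hu G j
  obtain ⟨S, hS, hSf⟩ := Group.fg_iff.1 (fpres_fg hU)
  let X : Set F := (fun x : I × U => σ x.1 x.2) '' (Set.univ ×ˢ S)
  have hX : X.Finite := (Set.finite_univ.prod hSf).image _
  have hXm : ∀ i, ∀ s ∈ S, σ i s ∈ X := fun i s hs => ⟨(i, s), ⟨trivial, hs⟩, rfl⟩
  let R : Set F := ((fun t : F × F => t.1 * t.2 * (t.2 * t.1)⁻¹) '' (X ×ˢ X) ∪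
    (fun t : F × F × F => t.1 * (t.2.1 * t.2.2)⁻¹) '' (X ×ˢ X ×ˢ X) ∪
    (fun t : F × F => t.1 * t.2⁻¹) '' (X ×ˢ X)) ∩ π.ker
  obtain ⟨W, _, q, π', hW, hq, hR⟩ := exists_fp_quot hF π R
    (((((hX.prod hX).image _).union ((hX.prod (hX.prod hX)).image _)).union
      ((hX.prod hX).image _)).inter_of_left _) (fun r hr => hr.2)
  have hc : ∀ i i', (∀ u u', Commute (j i u) (j i' u')) →
      ∀ u u', Commute (q (σ i u)) (q (σ i' u')) := by
    intro i i' h
    have h1 : ∀ s ∈ S, ∀ s' ∈ S, Commute (q (σ i s)) (q (σ i' s')) := by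
      intro s hs s' hs'
      have := hR _ ⟨Or.inl (Or.inl ⟨(σ i s, σ i' s'), ⟨hXm i s hs, hXm i' s' hs'⟩, rfl⟩), by
        simp only [SetLike.mem_coe, MonoidHom.mem_ker, map_mul, map_inv, hπ]
        rw [(h s s').eq, mul_inv_cancel]⟩
      simp only [map_mul, map_inv] at this
      exact mul_inv_eq_one.1 this
    intro u u'
    have hu : u ∈ Subgroup.closure S := hS ▸ Subgroup.mem_top u
    have hu' : u' ∈ Subgroup.closure S := hS ▸ Subgroup.mem_top u'
    induction hu using Subgroup.closure_induction with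
    | mem s hs =>
      induction hu' using Subgroup.closure_induction with
      | mem s' hs' => exact h1 s hs s' hs'
      | one => simp
      | mul x y _ _ hx hy => rw [map_mul, map_mul]; exact hx.mul_right hy
      | inv x _ hx => rw [map_inv, map_inv]; exact hx.inv_right
    | one => simp
    | mul x y _ _ hx hy => rw [map_mul, map_mul]; exact hx.mul_left hy
    | inv x _ hx => rw [map_inv, map_inv]; exact hx.inv_left
  refine ⟨W, inferInstance, fun i => q.comp (σ i), π', hW, fun i u => (hq _).trans (hπ i u), hc,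
    fun k i i' h h' => ?_, fun i i' h => ?_⟩
  · let m : U →* W := MonoidHom.mk' (fun u => q (σ i u) * q (σ i' u)) (fun a b => by
      simp only [map_mul]
      exact (hc i i' h b a).mul_mul_mul_comm _ _)
    have : q.comp (σ k) = m := by
      refine MonoidHom.eq_of_eqOn_dense hS fun s hs => ?_
      have := hR _ ⟨Or.inl (Or.inr ⟨(σ k s, σ i s, σ i' s),
        ⟨hXm k s hs, hXm i s hs, hXm i' s hs⟩, rfl⟩), by
        simp only [SetLike.mem_coe, MonoidHom.mem_ker, map_mul, map_inv, hπ]
        rw [h' s, mul_inv_cancel]⟩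
      simp only [map_mul, map_inv] at this
      exact mul_inv_eq_one.1 this
    exact fun u => DFunLike.congr_fun this u
  · refine MonoidHom.eq_of_eqOn_dense hS fun s hs => ?_
    have := hR _ ⟨Or.inr ⟨(σ i s, σ i' s), ⟨hXm i s hs, hXm i' s hs⟩, rfl⟩, by
      simp only [SetLike.mem_coe, MonoidHom.mem_ker, map_mul, map_inv, hπ]
      rw [h, mul_inv_cancel]⟩
    simp only [map_mul, map_inv] at this
    exact mul_inv_eq_one.1 this

section Model

variable {A : Type} [Ring A]

open MonoidAlgebra in
/-- `u ↦ 1 - E + u E` for an idempotent `E`. -/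
noncomputable def idemHom (U : Type) [Group U] (E : A) (h : E * E = E) :
    U →* (MonoidAlgebra A U)ˣ :=
  MonoidHom.toHomUnits
    { toFun := fun u => 1 - single 1 E + single u E
      map_one' := by simp
      map_mul' := fun u u' => by
        simp only [mul_add, add_mul, mul_sub, sub_mul, one_mul, mul_one, single_mul_single, h]
        abel }

theorem idemHom_val {U : Type} [Group U] (E : A) (h : E * E = E) (u : U) :
    (idemHom U E h u : MonoidAlgebra A U) =
      1 - MonoidAlgebra.single 1 E + MonoidAlgebra.single u E := rfl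

theorem idemHom_comm {U : Type} [Group U] {E E' : A} (h : E * E = E) (h' : E' * E' = E')
    (h1 : E * E' = 0) (h2 : E' * E = 0) (u u' : U) :
    Commute (idemHom U E h u) (idemHom U E' h' u') := by
  apply Units.ext
  simp only [Units.val_mul, idemHom_val, mul_add, add_mul, mul_sub, sub_mul, one_mul, mul_one,
    MonoidAlgebra.single_mul_single, h1, h2, MonoidAlgebra.single_zero]
  abel

theorem idemHom_add {U : Type} [Group U] {E E' : A} (h : E * E = E) (h' : E' * E' = E')
    (h1 : E * E' = 0) (h3 : (E + E') * (E + E') = E + E') (u : U) :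
    idemHom U (E + E') h3 u = idemHom U E h u * idemHom U E' h' u := by
  apply Units.ext
  simp only [Units.val_mul, idemHom_val, mul_add, add_mul, mul_sub, sub_mul, one_mul, mul_one,
    MonoidAlgebra.single_mul_single, h1, MonoidAlgebra.single_zero, MonoidAlgebra.single_add]
  abel

theorem idemHom_inj {U : Type} [Group U] {E : A} (h : E * E = E) (hne : E ≠ 0) {u : U}
    (hu : idemHom U E h u = 1) : u = 1 := by
  have h1 := congrArg Units.val hu
  rw [idemHom_val, Units.val_one, sub_add, sub_eq_self, sub_eq_zero] at h1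
  exact ((MonoidAlgebra.single_left_inj hne).1 h1).symm

end Model

theorem exists_wu_ring (p : ℕ) [Fact p.Prime] :
    ∃ (A : Type) (_ : Ring A) (κ θ : M3 p → A) (E₀ : A),
      (∀ e e', κ (e + e') = κ e + κ e') ∧ (∀ e e', κ (e * e') = κ e * κ e') ∧
      (∀ e e', θ (e + e') = θ e + θ e') ∧ (∀ e e', θ (e * e') = θ e * θ e') ∧
      κ (E22 p) = θ (E22 p) ∧ κ (E11 p) = E₀ + θ (E11 p) ∧ E₀ * E₀ = E₀ ∧
      E₀ * θ (E11 p) = 0 ∧ θ (E11 p) * E₀ = 0 ∧ E₀ ≠ 0 := by
  let B := Module.End (ZMod p) (ℕ → ZMod p)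
  let x : B := LinearMap.pi fun n => Nat.casesOn n 0 fun m => LinearMap.proj m
  let y : B := LinearMap.pi fun n => LinearMap.proj (n + 1)
  have hyx : y * x = 1 := rfl
  have hxy : 1 - x * y ≠ 0 := by
    intro h
    have h1 := congrFun (LinearMap.congr_fun (sub_eq_zero.1 h) fun _ => 1) 0
    exact one_ne_zero (α := ZMod p) h1
  clear_value x y
  let κ : M3 p →+* Matrix (Fin 3) (Fin 3) B := (algebraMap (ZMod p) B).mapMatrix
  let v : Matrix (Fin 3) (Fin 3) B := Matrix.diagonal ![x, 1, 1]
  let w : Matrix (Fin 3) (Fin 3) B := Matrix.diagonal ![y, 1, 1]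
  have hwv : w * v = 1 := by
    rw [Matrix.diagonal_mul_diagonal, ← Matrix.diagonal_one]
    congr 1
    funext i
    fin_cases i <;> simp [hyx]
  have hκ : ∀ i j, κ (Matrix.single i j 1) = Matrix.single i j 1 := by
    intro i j
    change (Matrix.single i j (1 : ZMod p)).map (algebraMap (ZMod p) B) = _
    rw [Matrix.map_single, map_one]
  have hθ : ∀ i, v * Matrix.single i i (1 : B) * w =
      Matrix.single i i (![x, 1, 1] i * ![y, 1, 1] i) := by
    intro i
    ext a b : 2
    rw [Matrix.mul_diagonal, Matrix.diagonal_mul]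
    by_cases h : i = a ∧ i = b
    · obtain ⟨rfl, rfl⟩ := h
      simp
    · simp [Matrix.single_apply_of_ne _ _ _ _ _ h]
  have h11 : v * κ (E11 p) * w = Matrix.single 0 0 (x * y) := by
    rw [E11, hκ, hθ]
    rfl
  have hxyxy : x * y * (x * y) = x * y := by
    rw [mul_assoc, ← mul_assoc y, hyx, one_mul]
  refine ⟨Matrix (Fin 3) (Fin 3) B, inferInstance, κ, fun e => v * κ e * w,
    Matrix.single 0 0 (1 - x * y), κ.map_add, κ.map_mul, fun e e' => ?_, fun e e' => ?_,
    ?_, ?_, ?_, ?_, ?_, ?_⟩ <;> beta_reduce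
  · rw [map_add, mul_add, add_mul]
  · rw [map_mul]
    calc _ = v * κ e * (w * v) * κ e' * w := by rw [hwv]; simp only [mul_one, mul_assoc]
      _ = _ := by simp only [mul_assoc]
  · rw [E22, hκ, hθ]
    simp
  · rw [h11, E11, hκ, ← Matrix.single_add, sub_add_cancel]
  · rw [Matrix.single_mul_single_same]
    congr 1
    rw [sub_mul, one_mul, mul_sub, mul_one, hxyxy, sub_self, sub_zero]
  · rw [h11, Matrix.single_mul_single_same, sub_mul, one_mul, hxyxy, sub_self, Matrix.single_zero]
  · rw [h11, Matrix.single_mul_single_same, mul_sub, mul_one, hxyxy, sub_self, Matrix.single_zero]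
  · intro h
    apply hxy
    simpa using congrFun (congrFun h 0) 0

theorem exists_sys_overgroup (p : ℕ) [Fact p.Prime] (U : Type) [Group U]
    (hU : Group.IsFinitelyPresented U) :
    ∃ (W : Type) (_ : Group W) (ι : U →* W), Group.IsFinitelyPresented W ∧
      Function.Injective ι ∧ HasSys p ι := by
  classical
  obtain ⟨A, _, κ, θ, E₀, hκa, hκm, hθa, hθm, h22, h11, hE, hE1, hE2, hne⟩ := exists_wu_ring p
  let f : A → U →* (MonoidAlgebra A U)ˣ := fun E => if h : E * E = E then idemHom U E h else 1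
  have hcomm : ∀ E E' : A, E * E = E → E' * E' = E' → E * E' = 0 → E' * E = 0 →
      ∀ u u', Commute (f E u) (f E' u') := by
    intro E E' h h' h1 h2 u u'
    simp only [f, dif_pos h, dif_pos h']
    exact idemHom_comm h h' h1 h2 u u'
  have hadd : ∀ E E' : A, E * E = E → E' * E' = E' → E * E' = 0 → E' * E = 0 →
      ∀ u, f (E + E') u = f E u * f E' u := by
    intro E E' h h' h1 h2 u
    have h3 : (E + E') * (E + E') = E + E' := by
      rw [add_mul, mul_add, mul_add, h, h', h1, h2, add_zero, zero_add]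
    simp only [f, dif_pos h, dif_pos h', dif_pos h3]
    exact idemHom_add h h' h1 h3 u
  have h0 : ∀ {μ : M3 p → A}, (∀ e e', μ (e + e') = μ e + μ e') → μ 0 = 0 := by
    intro μ hμ
    have := hμ 0 0
    rw [add_zero] at this
    exact left_eq_add.1 this
  have hidem : E11 p * E11 p = E11 p := by simp [E11]
  let j : Option (Bool × M3 p) → U →* (MonoidAlgebra A U)ˣ := fun i => match i with
    | none => f E₀
    | some (false, e) => f (κ e)
    | some (true, e) => f (θ e)
  obtain ⟨W, _, w, π, hW, hπ, hc, hm, he⟩ := exists_fp_cover hU j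
  have fam : ∀ (b : Bool) (μ : M3 p → A), (∀ e e', μ (e + e') = μ e + μ e') →
      (∀ e e', μ (e * e') = μ e * μ e') → (∀ e, j (some (b, e)) = f (μ e)) →
      IsFam p fun e => w (some (b, e)) := by
    intro b μ ha hmu hj
    have hc' : ∀ e e', Orth e e' → ∀ u u', Commute (j (some (b, e)) u) (j (some (b, e')) u') := by
      rintro e e' ⟨h1, h2, h3, h4⟩
      rw [hj, hj]
      exact hcomm _ _ (by rw [← hmu, h1]) (by rw [← hmu, h2]) (by rw [← hmu, h3, h0 ha])
        (by rw [← hmu, h4, h0 ha])
    refine ⟨fun e e' h => hc _ _ (hc' e e' h), fun e e' h => hm _ _ _ (hc' e e' h) ?_⟩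
    obtain ⟨h1, h2, h3, h4⟩ := h
    rw [hj, hj, hj, ha]
    exact hadd _ _ (by rw [← hmu, h1]) (by rw [← hmu, h2]) (by rw [← hmu, h3, h0 ha])
      (by rw [← hmu, h4, h0 ha])
  have hθ11 : θ (E11 p) * θ (E11 p) = θ (E11 p) := by rw [← hθm, hidem]
  have hc11 : ∀ u u', Commute (j none u) (j (some (true, E11 p)) u') :=
    hcomm _ _ hE hθ11 hE1 hE2
  refine ⟨W, inferInstance, w none, hW, ?_, fun e => w (some (false, e)),
    fun e => w (some (true, e)), fam false κ hκa hκm fun _ => rfl, fam true θ hθa hθm fun _ => rfl,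
    he _ _ (congrArg f h22), hc _ _ hc11, hm _ _ _ hc11 ?_⟩
  · rw [injective_iff_map_eq_one]
    intro u hu
    have h1 := hπ none u
    rw [hu, map_one] at h1
    have h2 : idemHom U E₀ hE u = 1 := by
      have : j none = idemHom U E₀ hE := dif_pos hE
      rw [← this, h1]
    exact idemHom_inj hE hne h2
  · change ∀ u, f (κ (E11 p)) u = f E₀ u * f (θ (E11 p)) u
    rw [h11]
    exact hadd _ _ hE hθ11 hE1 hE2

theorem HasSys.comp {U' U V V' : Type} [Group U'] [Group U] [Group V] [Group V'] {p : ℕ}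
    {ι : U →* V} (h : HasSys p ι) (a : U' →* U) (b : V →* V') :
    HasSys p (b.comp (ι.comp a)) := by
  obtain ⟨fA, fB, h⟩ := h
  refine ⟨fun e => b.comp ((fA e).comp a), fun e => b.comp ((fB e).comp a),
    ⟨⟨fun e e' he u u' => (h.famA.comm e e' he _ _).map b, fun e e' he u => ?_⟩,
     ⟨fun e e' he u u' => (h.famB.comm e e' he _ _).map b, fun e e' he u => ?_⟩, ?_,
     fun u u' => (h.comm11 _ _).map b, fun u => ?_⟩⟩
  · simp [h.famA.add e e' he]
  · simp [h.famB.add e e' he]
  · simp [h.e22]
  · simp [h.e11]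

end Crest.Agent.R185
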