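import Crest.Agent.R185.Wp
import Crest.Agent.R185.PrT
import Crest.Agent.R185.Fix

/-!
# Row 185: the layer `WL` is locally computable (task R185-WpAlg; plan in `Wp.lean`)
-/

set_option autoImplicit false

namespace Crest.Agent.R185

namespace WA

open scoped Classical

variable {X : Type} (p : ℕ) [Fact p.Prime]

abbrev Q : Type := (ℕ × ℕ) × Fin 3
/-- Names of basis vectors. -/
abbrev Nm (X : Type) : Type := (Bool × FreeGroup X) × Q

/-- The vector denoted by a list. -/
noncomputable def lsum {A B : Type} (d : A → B) (l : List A) : B →₀ ZMod p :=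
  (l.map fun a => Finsupp.single (d a) (1 : ZMod p)).sum

@[simp] theorem lsum_nil {A B : Type} (d : A → B) : lsum p d [] = 0 := rfl
@[simp] theorem lsum_cons {A B : Type} (d : A → B) (a : A) (l : List A) :
    lsum p d (a :: l) = Finsupp.single (d a) 1 + lsum p d l := by simp [lsum]
@[simp] theorem lsum_append {A B : Type} (d : A → B) (l l' : List A) :
    lsum p d (l ++ l') = lsum p d l + lsum p d l' := by simp [lsum]
theorem lsum_map {A A' B : Type} (d : A → B) (f : A' → A) (l : List A') :
    lsum p d (l.map f) = lsum p (d ∘ f) l := by simp [lsum, Function.comp_def]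

theorem lsum_replicate {A B : Type} (d : A → B) (n : ℕ) (a : A) :
    lsum p d (List.replicate n a) = (n : ZMod p) • Finsupp.single (d a) 1 := by
  simp [lsum, Nat.cast_smul_eq_nsmul]

theorem map_lsum {A B A' B' : Type} (d : A → B) (d' : A' → B')
    (F : (B →₀ ZMod p) →ₗ[ZMod p] (B' →₀ ZMod p)) (f : A → List A')
    (h : ∀ a, F (Finsupp.single (d a) 1) = lsum p d' (f a)) (l : List A) :
    F (lsum p d l) = lsum p d' (l.flatMap f) := by
  induction l with
  | nil => simp
  | cons a l ih => simp [h, ih]

theorem mapDomain_lsum {A B B' : Type} (d : A → B) (g : B → B') (l : List A) :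
    Finsupp.lmapDomain (ZMod p) (ZMod p) g (lsum p d l) = lsum p (g ∘ d) l := by
  induction l with
  | nil => simp
  | cons a l ih =>
    rw [lsum_cons, lsum_cons, map_add, ih, Finsupp.lmapDomain_apply, Finsupp.mapDomain_single]; rfl

def negL {A : Type} (l : List A) : List A := l.flatMap fun a => (List.range (p - 1)).map fun _ => a

theorem lsum_negL {A B : Type} (d : A → B) (l : List A) : lsum p d (negL p l) = -lsum p d l := by
  have hp : ((p - 1 : ℕ) : ZMod p) = -1 := by
    rw [Nat.cast_sub (Fact.out : p.Prime).one_le]; simp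
  induction l with
  | nil => simp [negL]
  | cons a l ih =>
    have : negL p (a :: l) = List.replicate (p - 1) a ++ negL p l := by simp [negL]
    rw [this, lsum_append, ih, lsum_replicate, hp, lsum_cons, neg_add, neg_smul, one_smul]

omit [Fact p.Prime] in
theorem mem_negL {A : Type} {l : List A} {a : A} (h : a ∈ negL p l) : a ∈ l := by
  simp only [negL, List.mem_flatMap, List.mem_map] at h
  obtain ⟨b, hb, _, _, rfl⟩ := h
  exact hb

noncomputable def matL (e : M3 p) (j : Fin 3) : List (Fin 3) :=
  if e * e = e then (List.finRange 3).flatMap fun i => List.replicate (e i j).val i else []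

def o0 (β' β : ℕ × ℕ) (j : Fin 3) : ℕ × ℕ := cond (beq' j 0) β' β
def byW (β : ℕ × ℕ) : ℕ × ℕ := cond (beq' β.1 0) (0, β.2 + 1) (β.1 - 1, β.2)

theorem byW_eq (β : ℕ × ℕ) : byW β = by' β := by
  obtain ⟨a, b⟩ := β
  cases a <;> simp [byW, by', beq']

noncomputable def EL (b : Bool) (e : M3 p) (q : Q) : List Q :=
  (matL p e q.2).map fun i => (cond b (o0 ((o0 (byW q.1) q.1 q.2).1 + 1, (o0 (byW q.1) q.1 q.2).2)
    (o0 (byW q.1) q.1 q.2) i) q.1, i)

theorem EA_single (e : M3 p) (he : e * e = e) (q : Q) :
    EA p e (Finsupp.single q 1) = lsum p (fun i => (q.1, i)) (matL p e q.2) := by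
  rw [EA, Finsupp.linearCombination_single, one_smul, matL, if_pos he]
  simp [List.finRange_succ, lsum_replicate, Fin.sum_univ_three, add_assoc]

theorem EE_single (b : Bool) (e : M3 p) (q : Q) :
    EE p b e (Finsupp.single q 1) = lsum p id (EL p b e q) := by
  rw [EL, lsum_map]
  by_cases he : e * e = e
  · rw [EE, if_pos he]
    cases b
    · exact EA_single p e he q
    · have h1 : on0 p by' (Finsupp.single q 1) = Finsupp.single (o0 (byW q.1) q.1 q.2, q.2) 1 := by
        rw [on0, Finsupp.lmapDomain_apply, Finsupp.mapDomain_single, byW_eq]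
        congr 1
        by_cases h : q.2 = 0 <;> simp [o0, beq', h]
      rw [cond_true, Module.End.mul_apply, Module.End.mul_apply, h1, EA_single p e he, on0,
        mapDomain_lsum]
      congr 1
      funext i
      by_cases h : i = 0 <;> simp [o0, beq', h, bx]
  · simp [EE, matL, he]

def den (O : Obj X) (a : Nm X) : O.Pt × Q := (O.pt a.1.1 a.1.2, a.2)

noncomputable def step (z : XW p X × Bool) (a : Nm X) : List (Nm X) :=
  a :: negL p ((EL p z.1.1.1 z.1.1.2 a.2).map fun q => (a.1, q)) ++
    (EL p z.1.1.1 z.1.1.2 a.2).map fun q => ((a.1.1, lt' z.2 (FreeGroup.of z.1.2) * a.1.2), q)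

theorem actW_letter (O : Obj X) (z : XW p X × Bool) :
    (actW p O (lt' z.2 (FreeGroup.of z.1)) : Module.End (ZMod p) (MB p O)) =
      fE O (EE p z.1.1.1 z.1.1.2) (lt' z.2 (FreeGroup.of z.1.2)) := by
  obtain ⟨z, ε⟩ := z
  rw [map_lt', actW, FreeGroup.lift_apply_of]
  cases ε <;> rfl

theorem step_spec (O : Obj X) (z : XW p X × Bool) (a : Nm X) :
    fE O (EE p z.1.1.1 z.1.1.2) (lt' z.2 (FreeGroup.of z.1.2)) (Finsupp.single (den O a) 1) =
      lsum p (den O) (step p z a) := by
  have h1 : mapE O (EE p z.1.1.1 z.1.1.2) (Finsupp.single (den O a) 1) =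
      lsum p (fun q => (O.pt a.1.1 a.1.2, q)) (EL p z.1.1.1 z.1.1.2 a.2) := by
    rw [mapE, Finsupp.linearCombination_single, one_smul, EE_single, tens, mapDomain_lsum]; rfl
  rw [fE, LinearMap.add_apply, LinearMap.sub_apply, Module.End.mul_apply, h1, mapU, mapDomain_lsum,
    step, lsum_append, lsum_cons, lsum_negL, lsum_map, lsum_map, sub_eq_add_neg]
  rfl

noncomputable def run (l : Word (XW p X)) (v : List (Nm X)) : List (Nm X) :=
  l.foldr (fun z r => r.flatMap (step p z)) v

theorem run_spec (O : Obj X) (l : Word (XW p X)) (v : List (Nm X)) :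
    actW p O (FreeGroup.mk l) • lsum p (den O) v = lsum p (den O) (run p l v) := by
  induction l with
  | nil => simp [run, ← FreeGroup.one_eq_mk]
  | cons z l ih =>
    rw [mk_cons', map_mul, mul_smul, ih]
    show (actW p O (lt' z.2 (FreeGroup.of z.1)) : Module.End (ZMod p) (MB p O)) _ = _
    rw [actW_letter]
    exact map_lsum p _ _ _ _ (step_spec p O z) _

variable [DecidableEq X]

theorem run_norm (l : Word (XW p X)) (v : List (Nm X)) (hv : ∀ a ∈ v, a.1.2 = 1) :
    ∀ a ∈ run p l v, a.1.2.norm ≤ l.length := by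
  induction l with
  | nil => intro a ha; simp [hv a ha]
  | cons z l ih =>
    intro a ha
    obtain ⟨b, hb, hab⟩ := List.mem_flatMap.1 (show a ∈ (run p l v).flatMap (step p z) from ha)
    have := ih b hb
    rw [List.length_cons]
    rcases List.mem_append.1 hab with h | h
    · rcases List.mem_cons.1 h with rfl | h
      · omega
      · obtain ⟨q, -, rfl⟩ := List.mem_map.1 (mem_negL p h)
        exact this.trans (Nat.le_succ _)
    · obtain ⟨q, -, rfl⟩ := List.mem_map.1 h
      exact (norm_lt'_mul_le _ _ _).trans (by omega)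

def eqN (T : Table X) (a b : Nm X) : Bool :=
  beq' a.1.1 b.1.1 && bmem (a.1.1, a.1.2⁻¹ * b.1.2) T && beq' a.2 b.2

def cnt (T : Table X) (a : Nm X) (l : List (Nm X)) : ℕ :=
  (l.map fun b => cond (eqN T a b) 1 0).sum

def eqV (T : Table X) (l l' : List (Nm X)) : Bool :=
  (l ++ l').all fun a => beq' (cnt T a l % p) (cnt T a l' % p)

section Spec

variable {O : Obj X} {T : Table X} {n : ℕ} (hT : Correct T O (4 * n))
include hT

theorem eqN_spec {a b : Nm X} (ha : a.1.2.norm ≤ n) (hb : b.1.2.norm ≤ n) :
    eqN T a b = true ↔ den O a = den O b := by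
  have h1 : (a.1.2⁻¹ * b.1.2).norm ≤ 4 * n := by
    have := FreeGroup.norm_mul_le a.1.2⁻¹ b.1.2
    rw [FreeGroup.norm_inv_eq] at this; omega
  simp only [eqN, Bool.and_eq_true, beq'_iff, bmem_iff, hT _ _ h1, den, Prod.mk.injEq, Obj.pt_eq]

theorem cnt_spec {a : Nm X} (ha : a.1.2.norm ≤ n) (l : List (Nm X))
    (hl : ∀ b ∈ l, b.1.2.norm ≤ n) : lsum p (den O) l (den O a) = cnt T a l := by
  induction l with
  | nil => simp [cnt]
  | cons b l ih =>
    have h1 := eqN_spec hT ha (hl b List.mem_cons_self)
    rw [lsum_cons, Finsupp.add_apply, ih fun c hc => hl c (List.mem_cons_of_mem _ hc)]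
    simp only [cnt, List.map_cons, List.sum_cons, Nat.cast_add]
    congr 1
    cases h : eqN T a b
    · rw [Finsupp.single_eq_of_ne (fun h' => by rw [h1.2 h'] at h; cases h)]; simp
    · rw [h1.1 h]; simp

omit hT [DecidableEq X] in
theorem lsum_out {x : O.Pt × Q} (l : List (Nm X)) (hl : ∀ b ∈ l, den O b ≠ x) :
    lsum p (den O) l x = 0 := by
  induction l with
  | nil => simp
  | cons b l ih =>
    rw [lsum_cons, Finsupp.add_apply, ih fun c hc => hl c (List.mem_cons_of_mem _ hc),
      Finsupp.single_eq_of_ne (hl b List.mem_cons_self).symm, add_zero]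

theorem eqV_spec {l l' : List (Nm X)} (hl : ∀ b ∈ l, b.1.2.norm ≤ n)
    (hl' : ∀ b ∈ l', b.1.2.norm ≤ n) :
    eqV p T l l' = true ↔ lsum p (den O) l = lsum p (den O) l' := by
  have key : ∀ a ∈ l ++ l', (beq' (cnt T a l % p) (cnt T a l' % p) = true ↔
      lsum p (den O) l (den O a) = lsum p (den O) l' (den O a)) := by
    intro a ha
    have ha' : a.1.2.norm ≤ n := (List.mem_append.1 ha).elim (hl a) (hl' a)
    rw [beq'_iff, cnt_spec p hT ha' l hl, cnt_spec p hT ha' l' hl', ZMod.natCast_eq_natCast_iff']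
  rw [eqV, List.all_eq_true]
  constructor
  · intro H
    ext x
    by_cases hx : ∃ a ∈ l ++ l', den O a = x
    · obtain ⟨a, ha, rfl⟩ := hx
      exact (key a ha).1 (H a ha)
    · rw [lsum_out p l fun b hb h => hx ⟨b, List.mem_append_left _ hb, h⟩,
        lsum_out p l' fun b hb h => hx ⟨b, List.mem_append_right _ hb, h⟩]
  · intro H a ha
    exact (key a ha).2 (by rw [H])

end Spec

/-- The base vectors. -/
def bases (i : Bool) : List (List (Nm X)) :=
  cond i [((true, 1), (0, 0), 0) :: negL p [((true, 1), (1, 1), 0)]]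
    ((List.finRange 3).map fun j => [((false, 1), (0, 0), j)])

noncomputable def alg (T : Table X) (q : Bool × FreeGroup (XW p X)) : Bool :=
  (bases p q.1).all fun v => eqV p T (run p q.2.toWord v) v

theorem alg_spec {O : Obj X} {T : Table X} {n : ℕ} (hT : Correct T O (4 * n)) (i : Bool)
    (w : FreeGroup (XW p X)) (hw : w.norm ≤ n) : alg p T (i, w) = true ↔ w ∈ (WL p O).H i := by
  have key : ∀ v : List (Nm X), (∀ a ∈ v, a.1.2 = 1) → (eqV p T (run p w.toWord v) v = true ↔
      actW p O w • lsum p (den O) v = lsum p (den O) v) := by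
    intro v hv
    rw [eqV_spec p hT (fun b hb => (run_norm p _ v hv b hb).trans hw)
      (fun b hb => by simp [hv b hb]), ← run_spec, FreeGroup.mk_toWord]
  rw [alg, List.all_eq_true]
  cases i with
  | true =>
    have h1 : lsum p (den O) (((true, 1), (0, 0), 0) :: negL p [((true, 1), (1, 1), 0)]) =
        tens (O.pt true 1) (v0 p) := by
      rw [lsum_cons, lsum_negL, lsum_cons, lsum_nil, add_zero, v0, map_sub, tens,
        Finsupp.lmapDomain_apply, Finsupp.lmapDomain_apply, Finsupp.mapDomain_single,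
        Finsupp.mapDomain_single, sub_eq_add_neg]
      rfl
    simp only [bases, cond_true, List.mem_singleton, forall_eq]
    rw [key _ (fun a ha => ?_), h1]
    · rfl
    · rcases List.mem_cons.1 ha with rfl | ha
      · rfl
      · rw [List.mem_singleton.1 (mem_negL p ha)]
  | false =>
    have h1 : ∀ j : Fin 3, lsum p (den O) [((false, 1), (0, 0), j)] =
        tens (O.pt false 1) (Finsupp.single ((0, 0), j) (1 : ZMod p)) := fun j => by
      rw [lsum_cons, lsum_nil, add_zero, tens, Finsupp.lmapDomain_apply, Finsupp.mapDomain_single]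
      rfl
    simp only [bases, cond_false, List.mem_map, List.mem_finRange, true_and, forall_exists_index,
      forall_apply_eq_imp_iff, WL, Subgroup.mem_iInf]
    refine forall_congr' fun j => ?_
    rw [key _ (fun a ha => by rw [List.mem_singleton.1 ha]), h1]
    rfl

variable [Primcodable X]

omit [Fact p.Prime] in
theorem primrec_negL {α A : Type} [Primcodable α] [Primcodable A] {l : α → List A}
    (h : Primrec l) : Primrec fun a => negL p (l a) := by
  unfold negL; fun_prop

theorem primrec_EL : Primrec fun q : (Bool × M3 p) × Q => EL p q.1.1 q.1.2 q.2 := by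
  have h1 : Primrec fun q : M3 p × Fin 3 => matL p q.1 q.2 := Primrec.dom_finite _
  unfold EL o0 byW
  exact pr_map (h1.comp (g := fun q : (Bool × M3 p) × Q => (q.1.2, q.2.2)) (by fun_prop))
    (by fun_prop)

theorem primrec_step : Primrec fun q : (XW p X × Bool) × Nm X => step p q.1 q.2 := by
  have h1 : Primrec fun q : (XW p X × Bool) × Nm X => EL p q.1.1.1.1 q.1.1.1.2 q.2.2 :=
    (primrec_EL p).comp (g := fun q : (XW p X × Bool) × Nm X => (q.1.1.1, q.2.2)) (by fun_prop)
  unfold step
  exact pr_append (pr_cons (by fun_prop) (primrec_negL p (pr_map h1 (by fun_prop))))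
    (pr_map h1 (by fun_prop))

theorem primrec_run : Primrec fun q : Word (XW p X) × List (Nm X) => run p q.1 q.2 := by
  unfold run
  refine pr_foldr (by fun_prop) (by fun_prop) (pr_flatMap (by fun_prop) ?_)
  exact (primrec_step p).comp (g := fun q : ((Word (XW p X) × List (Nm X)) × (XW p X × Bool) ×
    List (Nm X)) × Nm X => (q.1.2.1, q.2)) (by fun_prop)

omit [Fact p.Prime] in
theorem primrec_eqV : Primrec fun q : Table X × List (Nm X) × List (Nm X) =>
    eqV p q.1 q.2.1 q.2.2 := by
  unfold eqV cnt eqN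
  refine pr_all (by fun_prop) (pr_beq' (pr_mod (pr_sum (pr_map (by fun_prop) (by fun_prop)))
    (by fun_prop)) (pr_mod (pr_sum (pr_map (by fun_prop) (by fun_prop))) (by fun_prop)))

theorem primrec_alg : Primrec fun q : Table X × Bool × FreeGroup (XW p X) => alg p q.1 q.2 := by
  have h1 : Primrec (bases (X := X) p) := Primrec.dom_finite _
  unfold alg
  refine pr_all (h1.comp (by fun_prop)) ?_
  have h2 : Primrec fun q : (Table X × Bool × FreeGroup (XW p X)) × List (Nm X) =>
      run p q.1.2.2.toWord q.2 :=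
    (primrec_run p).comp (g := fun q : (Table X × Bool × FreeGroup (XW p X)) × List (Nm X) =>
      (q.1.2.2.toWord, q.2)) (by fun_prop)
  exact (primrec_eqV p).comp (g := fun q : (Table X × Bool × FreeGroup (XW p X)) × List (Nm X) =>
    (q.1.1, run p q.1.2.2.toWord q.2, q.2)) (pr_pair (by fun_prop) (pr_pair h2 (by fun_prop)))

end WA

theorem W_ok {X : Type} [DecidableEq X] [Fintype X] [Primcodable X] (p : ℕ) [Fact p.Prime] :
    LayerOK (fun _ (O : Obj X) => WL p O) (fun n => 4 * n) NoC := by
  refine ⟨fun _ O n h _ => W_reg p O n h, ?_⟩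
  obtain ⟨A, cA, hA⟩ : ∃ A : Table X × Bool × FreeGroup (XW p X) → Bool,
      Primrec A ∧ ∀ q, A q = WA.alg p q.1 q.2 := ⟨_, WA.primrec_alg p, fun _ => rfl⟩
  refine ⟨fun a q => A (a.2, q),
    cA.to_comp.comp ((Computable.snd.comp Computable.fst).pair Computable.snd), ?_⟩
  intro e O n T _ _ h3 i g hg
  simp only [hA]
  exact WA.alg_spec p h3 i g hg

end Crest.Agent.R185
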