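import Crest.Agent.R185.GM
import Crest.Agent.R185.MachGood
import Crest.Agent.R185.MachPres
import Crest.Agent.R185.MachPrim
import Crest.Agent.R185.PM
import Crest.Agent.R185.Pad
import Crest.Agent.R185.MainAlg
import Crest.Agent.R185.L1Alg
import Crest.Agent.R185.WpAlg
import Crest.Agent.R185.Loop
import Crest.Agent.R185.WU
import Crest.Agent.Lib.PrimrecRat

/-!
# Row 185, T5: loop data from a solvable word problem
-/

set_option autoImplicit false

namespace Crest.Agent.R185

variable {X Y : Type}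

theorem Obj.map_mk (σ : FreeGroup X →* FreeGroup Y) {O : Obj X} {O' : Obj Y}
    (h : O.core ≤ O'.core.comap σ) (g : FreeGroup X) :
    Obj.map σ h (QuotientGroup.mk g) = QuotientGroup.mk (σ g) := rfl

theorem Obj.map_inj {σ : FreeGroup X →* FreeGroup Y} {O : Obj X} {O' : Obj Y} (hO : O.IsTrue)
    (hE : ∀ g, σ g ∈ O'.H false → g ∈ O.H false) (h : O.core ≤ O'.core.comap σ) :
    Function.Injective (Obj.map σ h) := by
  rw [injective_iff_map_eq_one]
  intro g hg
  obtain ⟨g, rfl⟩ := QuotientGroup.mk_surjective g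
  rw [Obj.map_mk, QuotientGroup.eq_one_iff] at hg
  exact (QuotientGroup.eq_one_iff _).2 (hO (hE g (O'.core_le _ hg)))

theorem Obj.moves {O : Obj X} (hO : O.IsTrue) [Infinite O.Grp] (p : O.Grp) (hp : p ≠ 1) :
    {s : O.Pt | p • s ≠ s}.Infinite := by
  have free : ∀ q : O.Grp, q • O.pt false 1 = O.pt false 1 → q = 1 := by
    intro q hq
    obtain ⟨q, rfl⟩ := QuotientGroup.mk_surjective q
    rw [O.mk_smul, O.smul_pt, eq_comm, O.pt_eq] at hq
    exact (QuotientGroup.eq_one_iff _).2 (hO (by simpa using hq.2))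
  refine Set.infinite_of_injective_forall_mem (f := fun q : O.Grp => q • O.pt false 1) ?_ ?_
  · intro a b hab
    have := free (b⁻¹ * a) (by rw [mul_smul, inv_smul_eq_iff]; exact hab)
    exact (inv_mul_eq_one.1 this).symm
  · intro q hq
    have := free (q⁻¹ * p * q) (by rw [mul_smul, mul_smul, inv_smul_eq_iff]; exact hq)
    apply hp
    have h2 : p = q * (q⁻¹ * p * q) * q⁻¹ := by group
    rw [h2, this]; simp

theorem IsSys.comp {U' U V V' : Type} [Group U'] [Group U] [Group V] [Group V'] {p : ℕ}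
    {ι : U →* V} {fA fB : M3 p → U →* V} (h : IsSys p ι fA fB) (a : U' →* U) (b : V →* V') :
    IsSys p (b.comp (ι.comp a)) (fun e => b.comp ((fA e).comp a))
      (fun e => b.comp ((fB e).comp a)) := by
  refine ⟨⟨fun e e' he u u' => (h.famA.comm e e' he _ _).map b, fun e e' he u => ?_⟩,
     ⟨fun e e' he u u' => (h.famB.comm e e' he _ _).map b, fun e e' he u => ?_⟩, ?_,
     fun u u' => (h.comm11 _ _).map b, fun u => ?_⟩
  · simp [h.famA.add e e' he]
  · simp [h.famB.add e e' he]
  · simp [h.e22]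
  · simp [h.e11]

/-- The labelling of the spine by a finite alphabet. -/
noncomputable def labOf (X : Type) [Fintype X] (i : ℤ) : FreeGroup X :=
  ((Finset.univ : Finset X).toList[i.natAbs]?).elim 1 FreeGroup.of

theorem labOf_norm [Fintype X] [DecidableEq X] (i : ℤ) : (labOf X i).norm ≤ 1 := by
  unfold labOf
  cases (Finset.univ : Finset X).toList[i.natAbs]? <;> simp

theorem labOf_prim [Fintype X] [DecidableEq X] [Primcodable X] : Primrec (labOf X) :=
  (Primrec.option_casesOn (Primrec.list_getElem?.comp (Primrec.const _) Crest.Agent.Lib.PrimrecRat.int_natAbs)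
    (Primrec.const 1) (primrec_of.comp Primrec.snd).to₂).of_eq fun i => by
    unfold labOf
    cases (Finset.univ : Finset X).toList[i.natAbs]? <;> rfl

noncomputable def idxOf [Fintype X] [DecidableEq X] (x : X) : ℤ :=
  ((Finset.univ : Finset X).toList.idxOf x : ℕ)

theorem labOf_idx [Fintype X] [DecidableEq X] (x : X) : labOf X (idxOf x) = FreeGroup.of x := by
  unfold labOf idxOf
  rw [Int.natAbs_natCast, List.getElem?_idxOf (by simp)]
  rfl

set_option synthInstance.maxSize 4096 in
theorem loop_inf (G : Type) [Group G] [Infinite G] (k : ℕ) (s : Fin k → G)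
    (hs : Function.Surjective (FreeGroup.lift s))
    (hdec : ComputablePred fun g : FreeGroup (Fin k) => FreeGroup.lift s g = 1) :
    ∃ (L : LoopData) (f : G →* L.P), Function.Injective f := by
  have : Fact (Nat.Prime 2) := ⟨Nat.prime_two⟩
  have : Fact (Nat.Prime 3) := ⟨Nat.prime_three⟩
  obtain ⟨M, hM⟩ := exists_GM (univU (Option Bool)) (univU_re _)
  obtain ⟨K, hK⟩ := MP_ok M.mi 8 _ (GM.mi_good hM) (GM.mi_prim hM)
  have hC : ∀ (e : ℕ) (O : Obj (Option Bool)) m n, m ≤ n →
      Sound (relSet (univU (Option Bool)) e) O n → Sound (relSet (univU (Option Bool)) e) O m :=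
    fun e O m n hmn h g hg h1 => h g hg (h1.trans hmn)
  have m4 : Monotone fun n => 4 * n := fun a b h => Nat.mul_le_mul_left _ h
  have c4 : Computable fun n => 4 * n := (Primrec.nat_mul.comp (Primrec.const 4) Primrec.id).to_comp
  have mK : Monotone fun n => K * n := fun a b h => Nat.mul_le_mul_left _ h
  have h1 := hK.comp (L1_ok s hs hdec) mK m4 c4 hC
  have h2 := h1.comp (W_ok 2) (mK.comp m4) m4 c4 hC
  have h3 := h2.comp (W_ok 3) (mK.comp (m4.comp m4)) m4 c4 hC
  let μ := 1024 * K
  have h4 := h3.comp (pad_ok μ (labOf _) labOf_norm labOf_prim) (mK.comp (m4.comp (m4.comp m4)))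
    (fun a b h => Nat.mul_le_mul_left _ (Nat.div_le_div_right (Nat.mul_le_mul_left _ h)))
    (Primrec.nat_mul.comp (Primrec.const 4) (Primrec.nat_div.comp
      (Primrec.nat_mul.comp (Primrec.const 4) Primrec.id) (Primrec.const _))).to_comp hC
  obtain ⟨e, O, hO, hfix, hW⟩ := fix h4 (fun n => by
    have := Nat.div_mul_le_self (4 * (n + 1)) (2 * (μ + 1))
    generalize 4 * (n + 1) / (2 * (μ + 1)) = q at this ⊢
    have h5 : q * (2 * (μ + 1)) = 2048 * (K * q) + 2 * q := by simp only [μ]; ring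
    have h6 : K * (4 * (4 * (4 * (4 * q)))) = 256 * (K * q) := by ring
    rw [h5] at this
    rw [h6]
    omega)
  set OX := (M.mi e).MP O with hOX
  have tX : OX.IsTrue := MP_isTrue (GM.mi_good hM e) hO hW.le
  set OQ := L1 s OX with hOQ
  have tQ : OQ.IsTrue := isTrue_iff_reg.2 fun n => L1_reg s OX n (isTrue_iff_reg.1 tX _)
  set O2 := WL 2 OQ with hO2
  have t2 : O2.IsTrue := isTrue_iff_reg.2 fun n => W_reg 2 OQ n (isTrue_iff_reg.1 tQ _)
  set O3 := WL 3 O2 with hO3
  have t3 : O3.IsTrue := isTrue_iff_reg.2 fun n => W_reg 3 O2 n (isTrue_iff_reg.1 t2 _)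
  have E2 : Emb (wSub 2) OQ O2 := W_emb 2 OQ
  have E3 : Emb (wSub 3) O2 O3 := W_emb 3 O2
  have EP : Emb (FreeGroup.lift fun x => padSub μ (idxOf x)) O3 O := by
    intro i g
    rw [← hfix]
    refine (pad_emb μ (labOf _) O3 idxOf i g).trans ?_
    simp only [labOf_idx, FreeGroup.lift_of_eq_id, MonoidHom.id_apply]
  have EM : Emb cM O OX := MP_emb _ O
  let m2 := Obj.map _ (E2.core_le t2)
  let m3 := Obj.map _ (E3.core_le t3)
  let mP := Obj.map _ (EP.core_le hO)
  let mM := Obj.map _ (EM.core_le tX)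
  let β : OQ.Grp →* OX.Grp := mM.comp (mP.comp (m3.comp m2))
  have iM : Function.Injective mM := Obj.map_inj hO (fun g => (EM false g).1) _
  have iP : Function.Injective mP := Obj.map_inj t3 (fun g => (EP false g).1) _
  have i3 : Function.Injective m3 := Obj.map_inj t2 (fun g => (E3 false g).1) _
  have i2 : Function.Injective m2 := Obj.map_inj tQ (fun g => (E2 false g).1) _
  have hβ : Function.Injective β := fun a b h => i2 (i3 (iP (iM h)))
  -- the group `G` embeds
  have hker : (FreeGroup.lift s).ker ≤ OQ.core.comap inG := fun g hg => tQ ((L1_inG s OX g).2 hg)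
  let γ : G →* OQ.Grp := (QuotientGroup.map _ _ inG hker).comp
    (QuotientGroup.quotientKerEquivOfSurjective _ hs).symm.toMonoidHom
  have hγ : Function.Injective γ := by
    have : Function.Injective (QuotientGroup.map _ _ inG hker) := by
      rw [injective_iff_map_eq_one]
      intro g hg
      obtain ⟨g, rfl⟩ := QuotientGroup.mk_surjective g
      exact (QuotientGroup.eq_one_iff _).2 ((L1_inG s OX g).1
        (OQ.core_le _ ((QuotientGroup.eq_one_iff _).1 hg)))
    exact this.comp (QuotientGroup.quotientKerEquivOfSurjective _ hs).symm.injective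
  have : Infinite OX.Grp := Infinite.of_injective _ (hβ.comp hγ)
  have hc : OX.core ≤ OQ.core.comap inX := fun g hg => tQ ((L1_inX s OX g).2 (OX.core_le _ hg))
  obtain ⟨S', _, _, j, ν, _, hj, hν, hjs, hνs, hinf, hfx, hswap⟩ := L1_pack s hs OX tX hc
  obtain ⟨N, _, hN, hWN, hcore⟩ := PM_pack (GM.mi_good hM e) (GM.mi_pres hM e)
  have hfac : FacFP β := by
    have a1 : O.core ≤ N.comap cM := fun g hg => hWN g (hW ▸ O.core_le _ hg)
    have a2 : N ≤ OX.core.comap (MonoidHom.id _) := hcore O hO hW.le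
    refine ⟨_, inferInstance, hN, (QuotientGroup.map _ _ cM a1).comp (mP.comp (m3.comp m2)),
      QuotientGroup.map _ _ _ a2, fun u => ?_⟩
    show _ = mM (mP (m3 (m2 u)))
    show QuotientGroup.map _ _ _ a2 (QuotientGroup.map _ _ cM a1 (mP (m3 (m2 u)))) = _
    obtain ⟨g, hg⟩ := QuotientGroup.mk_surjective (mP (m3 (m2 u)))
    rw [← hg]; rfl
  obtain ⟨L, f, hf⟩ := loop_of_data (Obj.map inX hc) j β
    (EM.ptMap ∘ EP.ptMap ∘ E3.ptMap ∘ E2.ptMap ∘ ν) hj
    (EM.ptMap_inj.comp (EP.ptMap_inj.comp (E3.ptMap_inj.comp (E2.ptMap_inj.comp hν)))) hjs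
    (fun q x => by
      simp only [Function.comp, hνs, E2.ptMap_smul (E2.core_le t2), E3.ptMap_smul (E3.core_le t3),
        EP.ptMap_smul (EP.core_le hO), EM.ptMap_smul (EM.core_le tX)]
      rfl) hinf hfx hswap (Obj.moves tX) hfac (by
      rintro p (rfl | rfl)
      · obtain ⟨fA, fB, hs2, hfix2⟩ := W_sys 2 OQ tQ (E2.core_le t2)
        refine ⟨_, _, hs2.comp (MonoidHom.id _) (mM.comp (mP.comp m3)), fun e q x he hq => ?_⟩
        obtain ⟨a, b⟩ := hfix2 e q (ν x) he (by rw [← hνs, hq])
        constructor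
        · show mM (mP (m3 (fA e q))) • EM.ptMap (EP.ptMap (E3.ptMap (E2.ptMap (ν x)))) = _
          rw [← EM.ptMap_smul, ← EP.ptMap_smul, ← E3.ptMap_smul, a]; rfl
        · show mM (mP (m3 (fB e q))) • EM.ptMap (EP.ptMap (E3.ptMap (E2.ptMap (ν x)))) = _
          rw [← EM.ptMap_smul, ← EP.ptMap_smul, ← E3.ptMap_smul, b]; rfl
      · obtain ⟨fA, fB, hs3, hfix3⟩ := W_sys 3 O2 t2 (E3.core_le t3)
        refine ⟨_, _, hs3.comp m2 (mM.comp mP), fun e q x he hq => ?_⟩
        obtain ⟨a, b⟩ := hfix3 e (m2 q) (E2.ptMap (ν x)) he (by rw [← E2.ptMap_smul, ← hνs, hq])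
        constructor
        · show mM (mP (fA e (m2 q))) • EM.ptMap (EP.ptMap (E3.ptMap (E2.ptMap (ν x)))) = _
          rw [← EM.ptMap_smul, ← EP.ptMap_smul, a]; rfl
        · show mM (mP (fB e (m2 q))) • EM.ptMap (EP.ptMap (E3.ptMap (E2.ptMap (ν x)))) = _
          rw [← EM.ptMap_smul, ← EP.ptMap_smul, b]; rfl)
  exact ⟨L, f.comp (β.comp γ), hf.comp (hβ.comp hγ)⟩

theorem loop_exists (G : Type) [Group G] (k : ℕ) (s : Fin k → G)
    (hgen : Subgroup.closure (Set.range s) = ⊤)
    (hdec : ComputablePred fun w : List (Fin k × Bool) => FreeGroup.lift s (FreeGroup.mk w) = 1) :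
    ∃ (L : LoopData) (f : G →* L.P), Function.Injective f := by
  let s' : Fin (k + 1) → G × FreeGroup Unit := Fin.cons (1, FreeGroup.of ()) fun i => (s i, 1)
  let p₁ : FreeGroup (Fin (k + 1)) →* FreeGroup (Fin k) :=
    FreeGroup.lift (Fin.cons 1 FreeGroup.of)
  let p₂ : FreeGroup (Fin (k + 1)) →* FreeGroup Unit :=
    FreeGroup.lift (Fin.cons (FreeGroup.of ()) fun _ => 1)
  have hl : FreeGroup.lift s' = ((FreeGroup.lift s).comp p₁).prod p₂ := by
    ext i <;> cases i using Fin.cases <;> simp [s', p₁, p₂]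
  have hsurj : Function.Surjective (FreeGroup.lift s) := by
    rw [← MonoidHom.range_eq_top, FreeGroup.range_lift_eq_closure, hgen]
  have hs' : Function.Surjective (FreeGroup.lift s') := by
    rintro ⟨g, u⟩
    obtain ⟨w, rfl⟩ := hsurj g
    have a1 : (FreeGroup.lift s').comp (FreeGroup.map Fin.succ) =
        (MonoidHom.inl _ _).comp (FreeGroup.lift s) := by ext i <;> simp [s']
    have a2 : (FreeGroup.lift s').comp (FreeGroup.map fun _ : Unit => 0) = MonoidHom.inr _ _ := by
      ext i <;> simp [s']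
    refine ⟨FreeGroup.map Fin.succ w * FreeGroup.map (fun _ : Unit => 0) u, ?_⟩
    rw [map_mul]
    have b1 := DFunLike.congr_fun a1 w
    have b2 := DFunLike.congr_fun a2 u
    simp only [MonoidHom.comp_apply] at b1 b2
    rw [b1, b2]; simp
  have hdec' : ComputablePred fun g : FreeGroup (Fin (k + 1)) => FreeGroup.lift s' g = 1 := by
    obtain ⟨f, hf, hf'⟩ := ComputablePred.computable_iff.1 hdec
    have h2 : Computable fun g => decide (p₂ g = 1) :=
      (Primrec.eq.comp (primrec_hom p₂) (Primrec.const 1)).decide.to_comp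
    refine ComputablePred.computable_iff.2 ⟨fun g => f (p₁ g).toWord && decide (p₂ g = 1),
      Primrec.and.to_comp.comp (hf.comp (primrec_toWord.comp (primrec_hom p₁)).to_comp) h2, ?_⟩
    funext g
    have := congrFun hf' (p₁ g).toWord
    simp only [FreeGroup.mk_toWord] at this
    simp [hl, ← this, Prod.ext_iff]
  obtain ⟨L, f, hf⟩ := loop_inf (G × FreeGroup Unit) (k + 1) s' hs' hdec'
  exact ⟨L, f.comp (MonoidHom.inl _ _), hf.comp fun a b h => congrArg Prod.fst h⟩

end Crest.Agent.R185
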