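import Crest.Agent.R185.GM
import Crest.Agent.R185.MachGood
import Crest.Agent.R185.MachPres
import Crest.Agent.R185.PM
import Crest.Agent.R185.Pad

/-!
# Row 185, T6: a finitely presented group containing all finitely presented groups
-/

set_option autoImplicit false

namespace Crest.Agent.R185

open Primrec

/-- The relators with code `n`. -/
def relsOf (n : ℕ) : List (FreeGroup ℕ) := (Encodable.decode (α := List (FreeGroup ℕ)) n).getD []

/-- The substitution for the code `n`. -/
def subOf (n : ℕ) : FreeGroup ℕ →* FreeGroup (Option Bool) :=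
  FreeGroup.lift fun j => padSub 0 (Nat.pair n j : ℕ)

def univRel : ℕ × Word (Option Bool) → Prop :=
  fun p => ∃ n, p.2 ∈ (relsOf n).map fun r => (subOf n r).toWord

theorem int_natCast_prim : Primrec (fun n : ℕ => (n : ℤ)) :=
  (Primrec.of_equiv_symm (e := Equiv.intEquivNat)).comp (Primrec.nat_double) |>.of_eq fun n => by
    simp [Equiv.intEquivNat, Equiv.natSumNatEquivNat, Equiv.boolProdNatEquivNat,
      Equiv.intEquivNatSumNat, Equiv.boolProdEquivSum]

theorem univRel_re : REPred univRel := by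
  have h1 : Primrec relsOf := option_getD.comp Primrec.decode (const [])
  have h2 : Primrec₂ fun (n : ℕ) (r : FreeGroup ℕ) => (subOf n r).toWord :=
    primrec_toWord.comp (primrec_lift (α := ℕ × FreeGroup ℕ)
      (f := fun p j => padSub 0 (Nat.pair p.1 j : ℕ))
      ((primrec_padSub 0).comp (int_natCast_prim.comp
        (Primrec₂.natPair.comp (fst.comp fst) snd))).to₂ snd)
  have h3 : Primrec fun n => (relsOf n).map fun r => (subOf n r).toWord := list_map h1 h2
  have h4 : PrimrecRel fun (p : ℕ × Word (Option Bool)) (n : ℕ) =>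
      p.2 ∈ (relsOf n).map fun r => (subOf n r).toWord := by
    have := (PrimrecRel.exists_mem_list (R := fun (a b : Word (Option Bool)) => a = b)
      Primrec.eq).comp (h3.comp (snd (α := ℕ × Word (Option Bool)))) (snd.comp fst)
    exact this.of_eq fun p => by simp
  have h5 : Partrec fun p : ℕ × Word (Option Bool) => Nat.rfind fun n =>
      (Part.some (decide (p.2 ∈ (relsOf n).map fun r => (subOf n r).toWord))) :=
    Partrec.rfind (h4.decide.to_comp.partrec₂)
  refine h5.dom_re.of_eq fun p => ?_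
  refine (Nat.rfind_dom (p := fun n =>
    (Part.some (decide (p.2 ∈ (relsOf n).map fun r => (subOf n r).toWord))))).trans ?_
  simp [univRel]

theorem universal_fp : ∃ (U : Type) (_ : Group U), Group.IsFinitelyPresented U ∧
    ∀ (G : Type) [Group G], Group.IsFinitelyPresented G → ∃ f : G →* U, Function.Injective f := by
  obtain ⟨M, hM⟩ := exists_GM univRel univRel_re
  obtain ⟨N, _, hN, hW, hcore⟩ := PM_pack (GM.mi_good hM 0) (GM.mi_pres hM 0)
  refine ⟨_, inferInstance, hN, fun G _ hG => ?_⟩
  obtain ⟨k, rels, hrels, ⟨e⟩⟩ := hG.exists_mulEquiv_presentedGroup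
  let up : FreeGroup (Fin k) →* FreeGroup ℕ := FreeGroup.map Fin.val
  let n₀ : ℕ := Encodable.encode (hrels.toFinset.toList.map up)
  have hn₀ : relsOf n₀ = hrels.toFinset.toList.map up := by simp [relsOf, n₀]
  let lab : ℤ → FreeGroup (Fin k) := fun i =>
    if i.toNat.unpair.1 = n₀ then
      (if h : i.toNat.unpair.2 < k then FreeGroup.of ⟨_, h⟩ else 1) else 1
  have hlab : ∀ i, (lab i).norm ≤ 1 := fun i => by
    simp only [lab]; split_ifs <;> simp
  let OG : Obj (Fin k) := ⟨fun _ => Subgroup.normalClosure rels⟩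
  have hOG : OG.IsTrue := fun g hg => OG.mem_core'.2 fun _ u => by
    simpa using (Subgroup.normalClosure_normal (s := rels)).conj_mem g hg u⁻¹
  let O := (padD 0 lab).R OG
  have hO : O.IsTrue := RData.isTrue _ _ (pad_gauge 0 lab hlab) hOG
    fun m ε g₁ g₂ g₃ a b c d e f => (bot_le : (⊥ : Subgroup _) ≤ _) (pad_hom 0 lab m ε g₁ g₂ g₃ a b c d e f)
  have hup : ∀ g, FreeGroup.lift (fun j : ℕ => lab (Nat.pair n₀ j : ℕ)) (up g) = g := by
    intro g
    have : (FreeGroup.lift (fun j : ℕ => lab (Nat.pair n₀ j : ℕ))).comp up = MonoidHom.id _ := by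
      ext j; simp [up, lab]
    exact DFunLike.congr_fun this g
  have hsub : ∀ n r, subOf n r ∈ O.H false ↔
      FreeGroup.lift (fun j : ℕ => lab (Nat.pair n j : ℕ)) r ∈ Subgroup.normalClosure rels :=
    fun n r => pad_emb 0 lab OG (fun j : ℕ => (Nat.pair n j : ℕ)) false r
  have hWO : relSet univRel 0 ⊆ O.H false := by
    rintro _ ⟨w, ⟨n, hn⟩, rfl⟩
    obtain ⟨r, hr, rfl⟩ := List.mem_map.1 hn
    rw [FreeGroup.mk_toWord, SetLike.mem_coe, hsub]
    by_cases h : n = n₀
    · subst h
      rw [hn₀] at hr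
      obtain ⟨ρ, hρ, rfl⟩ := List.mem_map.1 hr
      rw [hup]
      exact Subgroup.subset_normalClosure (by simpa using hρ)
    · have : FreeGroup.lift (fun j : ℕ => lab (Nat.pair n j : ℕ)) = 1 := by
        ext j; simp [lab, h]
      rw [this]; exact one_mem _
  let ψ : FreeGroup (Fin k) →* _ := (QuotientGroup.mk' N).comp (cM.comp ((subOf n₀).comp up))
  have hψ : Subgroup.normalClosure rels ≤ ψ.ker := by
    refine Subgroup.normalClosure_le_normal fun ρ hρ => ?_
    refine (QuotientGroup.eq_one_iff _).2 (hW _ ⟨_, ⟨n₀, ?_⟩, FreeGroup.mk_toWord.symm⟩)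
    rw [hn₀]
    exact List.mem_map.2 ⟨up ρ, List.mem_map.2 ⟨ρ, by simpa using hρ, rfl⟩, rfl⟩
  suffices h : Function.Injective (QuotientGroup.lift _ ψ hψ) from
    ⟨(QuotientGroup.lift _ ψ hψ).comp e.toMonoidHom, h.comp e.injective⟩
  rw [injective_iff_map_eq_one]
  intro g hg
  obtain ⟨g, rfl⟩ := QuotientGroup.mk_surjective g
  have h1 : cM (subOf n₀ (up g)) ∈ N := (QuotientGroup.eq_one_iff _).1 hg
  have h2 := (MP_emb (M.mi 0) O false _).1 (Obj.core_le _ false (hcore O hO hWO h1))
  rw [hsub, hup] at h2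
  exact (QuotientGroup.eq_one_iff _).2 h2

end Crest.Agent.R185
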