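import Crest.Agent.R185.T1
import Crest.Agent.R185.T3
import Crest.Agent.R185.T4
import Crest.Agent.R185.T5
import Crest.Agent.R185.T6
import Crest.Agent.R185.WU

/-!
# Row 185: assembly
-/

set_option autoImplicit false

namespace Crest.Agent.R185

theorem main_simple (G : Type*) [Group G] (k : ℕ) (s : Fin k → G)
    (hgen : Subgroup.closure (Set.range s) = ⊤)
    (hdec : ComputablePred fun w : List (Fin k × Bool) => FreeGroup.lift s (FreeGroup.mk w) = 1) :
    ∃ (S : Type) (_ : Group S) (f : G →* S), IsSimpleGroup S ∧ Group.IsFinitelyPresented S ∧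
      FPinf S ∧ Function.Injective f := by
  have hsurj : Function.Surjective (FreeGroup.lift s) := by
    rw [← MonoidHom.range_eq_top, FreeGroup.range_lift_eq_closure, hgen]
  let e := QuotientGroup.quotientKerEquivOfSurjective (FreeGroup.lift s) hsurj
  have hl : FreeGroup.lift (fun i => e.symm (s i)) = e.symm.toMonoidHom.comp (FreeGroup.lift s) := by
    ext i; simp
  obtain ⟨L, f, hf⟩ := loop_exists (FreeGroup (Fin k) ⧸ (FreeGroup.lift s).ker) k
    (fun i => e.symm (s i)) (by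
      rw [← FreeGroup.range_lift_eq_closure, hl, MonoidHom.range_eq_top]
      exact e.symm.surjective.comp hsurj) (by
      convert hdec using 2
      rw [hl]; simp)
  obtain ⟨Γ, S, _, _, χ, hG, j, hj⟩ := good_of_loop L
  obtain ⟨H, _, g, h1, h2, h3, h4⟩ := final_group hG
  exact ⟨H, inferInstance, g.comp (j.comp (f.comp e.symm.toMonoidHom)), h1, h2, h3,
    h4.comp (hj.comp (hf.comp e.symm.injective))⟩

theorem main_universal : ∃ (H : Type) (_ : Group H), Group.IsFinitelyPresented H ∧ FPinf H ∧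
    ∀ (G : Type) [Group G], Group.IsFinitelyPresented G → ∃ f : G →* H, Function.Injective f := by
  obtain ⟨U, _, hU, huniv⟩ := universal_fp
  have : Fact (Nat.Prime 2) := ⟨Nat.prime_two⟩
  have : Fact (Nat.Prime 3) := ⟨Nat.prime_three⟩
  obtain ⟨W2, _, ι2, hW2, hι2, hs2⟩ := exists_sys_overgroup 2 U hU
  obtain ⟨W3, _, ι3, hW3, hι3, hs3⟩ := exists_sys_overgroup 3 W2 hW2
  obtain ⟨β, hβ⟩ := huniv W3 hW3
  let φ : U →* U := β.comp (ι3.comp ι2)
  obtain ⟨Γ, _, A, t, χ, j, hA⟩ := exists_asc U φ (hβ.comp (hι3.comp hι2))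
  have hfac : FacFP (j.toMonoidHom.comp (φ.comp j.symm.toMonoidHom)) :=
    ⟨U, inferInstance, hU, j.symm.toMonoidHom, j.toMonoidHom.comp φ, fun _ => rfl⟩
  have h2 : HasSys 2 (j.toMonoidHom.comp (φ.comp j.symm.toMonoidHom)) :=
    hs2.comp j.symm.toMonoidHom (j.toMonoidHom.comp (β.comp ι3))
  have h3 : HasSys 3 (j.toMonoidHom.comp (φ.comp j.symm.toMonoidHom)) :=
    hs3.comp (ι2.comp j.symm.toMonoidHom) (j.toMonoidHom.comp β)
  refine ⟨Γ, inferInstance, hA.fpres hfac, hA.fpinf hfac h2 h3, fun G _ hG => ?_⟩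
  obtain ⟨f, hf⟩ := huniv G hG
  exact ⟨A.subtype.comp (j.toMonoidHom.comp f),
    A.subtype_injective.comp (j.injective.comp hf)⟩

end Crest.Agent.R185
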