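import Crest.Agent.R185.MI

/-!
# Row 185: gauge and homomorphism property of the main layer (task R185-MainHom)

PLAN.  `(val g).right = M.val (prB g)`.  For a word let `Lst` be the list of entries `(Z, key, ε)`, one for each `p^ε` read with prefix `x`, `x⁻¹ ∈ D`: `Z = (fa x⁻¹, B̃⁻¹)` (`B̃` the new accumulator),
`key = x F ∈ B ⧸ F`.  Since `Z_{i-1}⁻¹ Z_i = (fa_{i-1}⁻¹ fa_i, Sh)`, in the action of the plus layer `theta0 g = plusProd Lst * zeta (pib x_end)` (`act_Zel_mul`).
INVARIANT: `B̃ = fb false (x⁻¹) * R` with `R ∈ relBall W (c |g|)` (`Sh = fb false xl * r * r'⁻¹ * (fb false η)⁻¹` by `rel`).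
`main_gauge`: `lip` with the inverse of the segment between consecutive points; for `x_end ∈ L`: `fa x_end⁻¹ = pib x_end` (`right`, `fa_one`); total `≤ (5c+1)|g|`.
`main_hom`: `ε = true` is exact.  `ε = false`: `θ g₁ θ g₂ (θ g₃)⁻¹` acts as `plusProd (Lst₁ ++ shift Lst₂ ++ revinv Lst₃)`, where `shift` multiplies `Z` by `(pib x₁, 1)` and the key by `x₁ ∈ L`
(`right`: the shifted entry is the entry of the prefix `x₁ x`).  The keys multiply to `1`: apply to `(val g₁ val g₂ (val g₃)⁻¹).left = 1` the endomorphism of `F(B ⧸ F)` killing the generators `x F` with `x⁻¹ ∉ D`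
(well defined by `left`).  `hrel`: if `x F = x' F` then with `η = x⁻¹`, `η' = x'⁻¹`, `η = f η'`, and `left` gives `(Z⁻¹Z').1 (Z⁻¹Z').2⁻¹ = fb false η * R * (fb false η)⁻¹`, `R ∈ relBall W (K m)`, `|fb false η| ≤ 2c|x|` (`lip` from `1`, `rel`);
generators of `relBall` lie in `H false` (`Sound`) and are short, so `Reg` applies.  The cost is `≤ (14c+3) m`.  (`m = 0` is trivial.)
-/

set_option autoImplicit false

namespace Crest.Agent.R185

variable {Y ZB : Type} [DecidableEq Y] [DecidableEq ZB]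

namespace MH

open scoped Classical

set_option linter.unusedSectionVars false

theorem relBall_mono (W : Set (FreeGroup Y)) {a b : ℕ} (h : a ≤ b) : relBall W a ≤ relBall W b :=
  Subgroup.closure_mono fun _ hg => ⟨hg.1, hg.2.trans h⟩

theorem norm_sym (a b : FreeGroup Y) : (b⁻¹ * a).norm = (a⁻¹ * b).norm := by
  rw [← FreeGroup.norm_inv_eq, mul_inv_rev, inv_inv]

section cost

variable {K : Type}

theorem cost_base (Z Z' : FreeGroup Y × FreeGroup Y)
    (L : List ((FreeGroup Y × FreeGroup Y) × K × Bool)) :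
    plusCost Z L ≤ (Z.1⁻¹ * Z'.1).norm + (Z.2⁻¹ * Z'.2).norm + plusCost Z' L := by
  rcases L with _ | ⟨e, L⟩
  · simp [plusCost]
  · have h1 := norm_tri Z.1 Z'.1 e.1.1
    have h2 := norm_tri Z.2 Z'.2 e.1.2
    simp only [plusCost]
    omega

theorem cost_append (L L' : List ((FreeGroup Y × FreeGroup Y) × K × Bool)) :
    ∀ Z, plusCost Z (L ++ L') ≤ 2 * plusCost Z L + plusCost Z L' := by
  induction L with
  | nil => intro Z; simp [plusCost]
  | cons e L ih =>
    intro Z
    have h1 := ih e.1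
    have h2 := cost_base e.1 Z L'
    rw [norm_sym Z.1, norm_sym Z.2] at h2
    simp only [List.cons_append, plusCost]
    omega

/-- reverse and invert -/
def revinv (L : List ((FreeGroup Y × FreeGroup Y) × K × Bool)) :
    List ((FreeGroup Y × FreeGroup Y) × K × Bool) :=
  (L.map fun e => (e.1, e.2.1, !e.2.2)).reverse

theorem revinv_cons (e : (FreeGroup Y × FreeGroup Y) × K × Bool)
    (L : List ((FreeGroup Y × FreeGroup Y) × K × Bool)) :
    revinv (e :: L) = revinv L ++ [(e.1, e.2.1, !e.2.2)] := by simp [revinv]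

theorem cost_revinv (L : List ((FreeGroup Y × FreeGroup Y) × K × Bool)) :
    ∀ Z L', plusCost Z (revinv L ++ L') ≤ 2 * plusCost Z L + plusCost Z L' := by
  induction L with
  | nil => intro Z L'; simp [plusCost, revinv]
  | cons e L ih =>
    intro Z L'
    have h1 := ih e.1 ((e.1, e.2.1, !e.2.2) :: L')
    have h2 := cost_base e.1 Z L'
    have h3 := cost_base Z e.1 (revinv L ++ (e.1, e.2.1, !e.2.2) :: L')
    rw [norm_sym Z.1, norm_sym Z.2] at h2
    rw [revinv_cons, List.append_assoc, List.singleton_append]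
    simp only [plusCost, inv_mul_cancel, FreeGroup.norm_one] at h1 ⊢
    omega

theorem plusProd_revinv (L : List ((FreeGroup Y × FreeGroup Y) × K × Bool)) :
    plusProd (revinv L) = (plusProd L)⁻¹ := by
  induction L with
  | nil => simp [plusProd, revinv]
  | cons e L ih =>
    rw [revinv_cons, plusProd_append, ih, plusProd_cons, plusProd_cons]
    cases e.2.2 <;> simp [plusProd, mul_assoc]

theorem key_revinv (L : List ((FreeGroup Y × FreeGroup Y) × K × Bool)) :
    FreeGroup.mk ((revinv L).map (·.2)) = (FreeGroup.mk (L.map (·.2)))⁻¹ := by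
  rw [FreeGroup.inv_mk]
  congr 1
  simp [revinv, FreeGroup.invRev, Function.comp_def]

theorem cost_shift (S : FreeGroup Y × FreeGroup Y) (f : K → K)
    (L : List ((FreeGroup Y × FreeGroup Y) × K × Bool)) :
    ∀ Z, plusCost (S * Z) (L.map fun e => (S * e.1, f e.2.1, e.2.2)) = plusCost Z L := by
  induction L with
  | nil => intro Z; rfl
  | cons e L ih =>
    intro Z
    simp only [List.map_cons, plusCost, ih, Prod.fst_mul, Prod.snd_mul, mul_inv_rev, mul_assoc,
      inv_mul_cancel_left]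

theorem act_shift (O : Obj Y) (S : FreeGroup Y × FreeGroup Y) (f : K → K)
    (L : List ((FreeGroup Y × FreeGroup Y) × K × Bool)) :
    (plusD Y).act O (plusProd (L.map fun e => (S * e.1, f e.2.1, e.2.2))) =
      (plusD Y).act O (Zel S * plusProd L * (Zel S)⁻¹) := by
  induction L with
  | nil => simp [plusProd]
  | cons e L ih =>
    rw [List.map_cons, plusProd_cons, plusProd_cons]
    simp only [map_mul, map_inv, ih, act_Zel_mul]
    group

end cost

theorem Zel_one : Zel (1 : FreeGroup Y × FreeGroup Y) = 1 := by simp [Zel]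

theorem Zel_left (a : FreeGroup Y) : Zel (a, 1) = zeta a := by simp [Zel]

variable {M : MI Y ZB} {c : ℕ} {W : Set (FreeGroup Y)}

/-- the value map with its concrete type -/
noncomputable def V (M : MI Y ZB) : FreeGroup (ZM Y ZB) →* SD M.B (M.B ⧸ M.F) := M.mainD.val

theorem V_of (z : ZM Y ZB) : V M (FreeGroup.of z) = SD.letter
    (Sum.elim (fun _ => none) (Sum.elim (fun b => cond b none (some (QuotientGroup.mk 1)))
      fun _ => none) z) (Sum.elim M.b (fun _ => 1) z) := FreeGroup.lift_apply_of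

theorem val_inl (z : ZB) : V M (FreeGroup.of (.inl z)) = SemidirectProduct.inr (M.b z) := by
  simp [V_of, SD.letter]

theorem val_p : V M (FreeGroup.of (.inr (.inl false))) =
    SemidirectProduct.inl (FreeGroup.of (QuotientGroup.mk 1)) := by
  simp [V_of, SD.letter]

theorem val_pp : V M (FreeGroup.of (.inr (.inl true))) = 1 := by
  simp [V_of, SD.letter]

theorem val_c (y : Y) : V M (FreeGroup.of (.inr (.inr y))) = 1 := by
  simp [V_of, SD.letter]

theorem val_right (g : FreeGroup (ZM Y ZB)) : (V M g).right = M.val (MI.prB g) := by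
  have : SemidirectProduct.rightHom.comp (V M) = M.val.comp MI.prB := by
    refine FreeGroup.ext_hom _ _ ?_
    rintro (z | (_ | _) | y)
    · rw [MonoidHom.comp_apply, val_inl]
      simp [MI.prB, MI.val]
    · rw [MonoidHom.comp_apply, val_p]
      simp [MI.prB]
    · rw [MonoidHom.comp_apply, val_pp]
      simp [MI.prB]
    · rw [MonoidHom.comp_apply, val_c]
      simp [MI.prB]
  exact DFunLike.congr_fun this g

theorem mem_Ao {g : FreeGroup (ZM Y ZB)} :
    M.mainD.val g ∈ M.mainD.Ao ↔ M.val (MI.prB g) ∈ M.L := by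
  rw [← val_right]
  rfl

theorem norm_prB (g : FreeGroup (ZM Y ZB)) : (MI.prB g).norm ≤ g.norm := by
  refine (plus_norm_lift _ 1 ?_ g).trans (by simp)
  rintro (z | z) <;> simp

theorem norm_pib (h : M.Good c W) (w : FreeGroup ZB) : (M.pib (M.val w)).norm ≤ w.norm := by
  have : M.pib.comp M.val = FreeGroup.lift fun z => M.pib (M.b z) :=
    FreeGroup.ext_hom _ _ fun z => by simp [MI.val]
  have h2 := DFunLike.congr_fun this w
  rw [MonoidHom.comp_apply] at h2
  rw [h2]
  exact (plus_norm_lift _ 1 h.pib_le w).trans (by simp)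

theorem norm_Sh (h : M.Good c W) {x : M.B} (hx : x ∈ M.D) (w : FreeGroup ZB)
    (hw : M.val w * x ∈ M.D) : (M.Sh x (M.val w * x)).norm ≤ c * w.norm := by
  obtain ⟨-, i, hi⟩ := h.lip x hx w hw
  unfold MI.Sh
  split_ifs with h1 <;> cases i <;> omega

theorem norm_fb (h : M.Good c W) {w : FreeGroup ZB} (hw : M.val w ∈ M.D) :
    (M.fb false (M.val w)).norm ≤ 2 * (c * w.norm) := by
  obtain ⟨-, i, hi⟩ := h.lip 1 h.one_mem w (by rwa [mul_one])
  rw [h.fb_one, one_mul, mul_one, FreeGroup.norm_inv_eq] at hi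
  cases i
  · omega
  · have h1 := (h.rel w hw).2
    have h2 := norm_tri' (M.fb true (M.val w)) (M.fb false (M.val w))
    rw [norm_sym] at h2
    omega

/-- entries -/
abbrev Ent (M : MI Y ZB) : Type := (FreeGroup Y × FreeGroup Y) × (M.B ⧸ M.F) × Bool

/-- controlled entries -/
def GoodEnt (M : MI Y ZB) (c : ℕ) (W : Set (FreeGroup Y)) (n : ℕ) (e : Ent M) : Prop :=
  ∃ w : FreeGroup ZB, w.norm ≤ n ∧ M.val w ∈ M.D ∧ ∃ R ∈ relBall W (c * n),
    e.1 = (M.fa (M.val w), (M.fb false (M.val w) * R)⁻¹) ∧ e.2.1 = QuotientGroup.mk (M.val w)⁻¹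

theorem GoodEnt.mono {n n' : ℕ} {e : Ent M} (h : GoodEnt M c W n e) (hn : n ≤ n') :
    GoodEnt M c W n' e := by
  obtain ⟨w, h1, h2, R, hR, h3⟩ := h
  exact ⟨w, h1.trans hn, h2, R, relBall_mono W (Nat.mul_le_mul_left c hn) hR, h3⟩

/-- kill the generators outside the domain -/
noncomputable def kill (M : MI Y ZB) : FreeGroup (M.B ⧸ M.F) →* FreeGroup (M.B ⧸ M.F) :=
  FreeGroup.lift fun k =>
    if ∃ w, QuotientGroup.mk (M.val w) = k ∧ (M.val w)⁻¹ ∈ M.D then FreeGroup.of k else 1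

theorem kill_of (h : M.Good c W) (w : FreeGroup ZB) :
    kill M (FreeGroup.of (QuotientGroup.mk (M.val w))) =
      if (M.val w)⁻¹ ∈ M.D then FreeGroup.of (QuotientGroup.mk (M.val w)) else 1 := by
  rw [kill, FreeGroup.lift_apply_of]
  refine if_congr ⟨?_, fun h => ⟨w, rfl, h⟩⟩ rfl rfl
  rintro ⟨w', h1, h2⟩
  have := (h.left w'⁻¹ (w⁻¹ * w') (by rwa [map_inv]) (by
    rw [map_mul, map_inv]
    exact QuotientGroup.eq.1 h1.symm)).1
  simpa using this

theorem permAut_of (b : M.B) (k : M.B ⧸ M.F) :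
    permAut M.B (M.B ⧸ M.F) b (FreeGroup.of k) = FreeGroup.of (b • k) := FreeGroup.map.of

/-- the invariant of the main automaton -/
structure MInv (M : MI Y ZB) (c : ℕ) (W : Set (FreeGroup Y)) (g : FreeGroup (ZM Y ZB)) (n : ℕ)
    (s : M.B × M.B × FreeGroup Y × FreeGroup (Option (ZP Y))) (L : List (Ent M)) : Prop where
  x_eq : s.1 = M.val (MI.prB g)
  nrm : (MI.prB g).norm ≤ n
  last : ∃ wl : FreeGroup ZB, wl.norm ≤ n ∧ s.2.1 = M.val wl ∧
    ∃ R ∈ relBall W (c * n), s.2.2.1 = M.fb false s.2.1 * R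
  memD : s.2.1 ∈ M.D
  seg : ∃ (j k : ℕ) (v : FreeGroup ZB), j + k ≤ n ∧ v.norm ≤ k ∧ s.1⁻¹ = M.val v * s.2.1 ∧
    s.2.2.2.norm ≤ (3 * c + 1) * j ∧ s.2.2.1.norm ≤ c * j ∧
    ∀ L', plusCost 1 (L ++ L') ≤ (2 * c + 1) * j + plusCost (M.fa s.2.1, s.2.2.1⁻¹) L'
  act : ∀ O : Obj Y, (plusD Y).act O s.2.2.2 =
    (plusD Y).act O (plusProd L * Zel (M.fa s.2.1, s.2.2.1⁻¹))
  ents : ∀ e ∈ L, GoodEnt M c W n e
  keys : ∀ w₁, M.val w₁ ∈ M.L →
    kill M (permAut M.B (M.B ⧸ M.F) (M.val w₁) (V M g).left) =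
      FreeGroup.mk (L.map fun e => (M.val w₁ • e.2.1, e.2.2))

theorem MInv.init (h : M.Good c W) : MInv M c W 1 0 (1, 1, 1, 1) [] where
  x_eq := by simp
  nrm := by simp
  last := ⟨1, by simp, by simp, 1, one_mem _, by simp [h.fb_one]⟩
  memD := h.one_mem
  seg := ⟨0, 0, 1, le_rfl, by simp, by simp, by simp, by simp, fun L' => by
    simp only [h.fa_one, inv_one, List.nil_append, mul_zero, zero_add]
    exact le_rfl⟩
  act := fun O => by simp [h.fa_one, plusProd, Zel]
  ents := by simp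
  keys := fun w₁ _ => by simp [← FreeGroup.one_eq_mk]

theorem MInv.skip {g g' : FreeGroup (ZM Y ZB)} {n : ℕ} {x x' xl : M.B} {Bt : FreeGroup Y}
    {out : FreeGroup (Option (ZP Y))} {L : List (Ent M)} (I : MInv M c W g n (x, xl, Bt, out) L)
    (v : FreeGroup ZB) (hv : v.norm ≤ 1) (h1 : MI.prB g' = MI.prB g * v) (h2 : x' = x * M.val v)
    (h3 : ∀ w₁, M.val w₁ ∈ M.L →
      kill M (permAut M.B (M.B ⧸ M.F) (M.val w₁) (V M g').left) =
      kill M (permAut M.B (M.B ⧸ M.F) (M.val w₁) (V M g).left)) :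
    MInv M c W g' (n + 1) (x', xl, Bt, out) L where
  x_eq := by rw [h1, map_mul, ← I.x_eq]; exact h2
  nrm := by
    rw [h1]
    exact (FreeGroup.norm_mul_le _ _).trans (Nat.add_le_add I.nrm hv)
  last := by
    obtain ⟨wl, a1, a2, R, hR, a3⟩ := I.last
    exact ⟨wl, a1.trans n.le_succ, a2, R, relBall_mono W (Nat.mul_le_mul_left c n.le_succ) hR, a3⟩
  memD := I.memD
  seg := by
    obtain ⟨j, k, u, a1, a2, a3, a4⟩ := I.seg
    refine ⟨j, k + 1, v⁻¹ * u, by omega, ?_, ?_, a4⟩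
    · have := FreeGroup.norm_mul_le v⁻¹ u
      rw [FreeGroup.norm_inv_eq] at this
      omega
    · change x'⁻¹ = _
      change x⁻¹ = _ at a3
      rw [h2, mul_inv_rev, a3, map_mul, map_inv, mul_assoc]
  act := I.act
  ents := fun e he => (I.ents e he).mono n.le_succ
  keys := fun w₁ hw => (h3 w₁ hw).trans (I.keys w₁ hw)

theorem left_mul_p (g : FreeGroup (ZM Y ZB)) (ε : Bool) (w₁ : FreeGroup ZB) :
    permAut M.B (M.B ⧸ M.F) (M.val w₁) (V M
      (g * cond ε (FreeGroup.of (.inr (.inl false))) (FreeGroup.of (.inr (.inl false)))⁻¹)).left =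
    permAut M.B (M.B ⧸ M.F) (M.val w₁) (V M g).left *
      cond ε (FreeGroup.of (QuotientGroup.mk (M.val (w₁ * MI.prB g))))
        (FreeGroup.of (QuotientGroup.mk (M.val (w₁ * MI.prB g))))⁻¹ := by
  have h0 : ∀ a : FreeGroup (M.B ⧸ M.F), ∀ u : SD M.B (M.B ⧸ M.F),
      (u * SemidirectProduct.inl a).left = u.left * permAut M.B (M.B ⧸ M.F) u.right a :=
    fun a u => rfl
  have h1 : M.val w₁ • M.val (MI.prB g) • ((1 : M.B) : M.B ⧸ M.F) =
      QuotientGroup.mk (M.val (w₁ * MI.prB g)) := by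
    rw [map_mul, ← mul_smul]
    exact congrArg _ (mul_one _)
  cases ε
  · rw [cond_false, cond_false, map_mul, map_inv, val_p, ← map_inv, h0, map_mul, map_inv, map_inv,
      val_right, permAut_of, permAut_of, h1]
  · rw [cond_true, cond_true, map_mul, val_p, h0, map_mul, val_right, permAut_of, permAut_of, h1]

theorem inv_mem_D_iff (h : M.Good c W) {l : M.B} (hl : l ∈ M.L) (x : M.B) :
    (l * x)⁻¹ ∈ M.D ↔ x⁻¹ ∈ M.D := by
  rw [mul_inv_rev]
  refine ⟨fun h1 => ?_, fun h1 => (h.right _ h1 _ (inv_mem hl)).1⟩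
  simpa using (h.right _ h1 _ hl).1

theorem MInv.step (h : M.Good c W) {g : FreeGroup (ZM Y ZB)} {n : ℕ}
    {s : M.B × M.B × FreeGroup Y × FreeGroup (Option (ZP Y))} {L : List (Ent M)}
    (I : MInv M c W g n s L) (a : ZM Y ZB × Bool) :
    ∃ L', MInv M c W (g * cond a.2 (FreeGroup.of a.1) (FreeGroup.of a.1)⁻¹) (n + 1)
      (M.mainStep s a) L' := by
  obtain ⟨x, xl, Bt, out⟩ := s
  have triv : ∀ (z : ZM Y ZB) (ε : Bool), V M (FreeGroup.of z) = 1 →
      MI.prB (FreeGroup.of z) = 1 →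
      MInv M c W (g * cond ε (FreeGroup.of z) (FreeGroup.of z)⁻¹) (n + 1) (x, xl, Bt, out) L := by
    intro z ε h1 h2
    refine I.skip 1 (by simp) ?_ (by simp) fun w₁ _ => ?_
    · cases ε <;> simp [h2]
    · cases ε <;> simp [h1]
  obtain ⟨z | (_ | _) | y, ε⟩ := a
  · refine ⟨L, I.skip (cond ε (FreeGroup.of z) (FreeGroup.of z)⁻¹) ?_ ?_ ?_ fun w₁ _ => ?_⟩
    · cases ε <;> simp
    · cases ε <;> simp [MI.prB]
    · cases ε <;> simp [MI.val]
    · have h0 : ∀ b : M.B, ∀ u : SD M.B (M.B ⧸ M.F),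
          (u * SemidirectProduct.inr b).left = u.left := fun b u => by simp
      cases ε
      · rw [cond_false, map_mul, map_inv, val_inl, ← map_inv, h0]
      · rw [cond_true, map_mul, val_inl, h0]
  · have hx : x = M.val (MI.prB g) := I.x_eq
    have hpr : MI.prB (g * cond ε (FreeGroup.of (.inr (.inl false)))
        (FreeGroup.of (.inr (.inl false)))⁻¹ : FreeGroup (ZM Y ZB)) = MI.prB g := by
      cases ε <;> simp [MI.prB]
    by_cases hD : x⁻¹ ∈ M.D
    swap
    · refine ⟨L, ?_⟩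
      rw [MI.mainStep, if_neg hD]
      refine I.skip 1 (by simp) (by rw [hpr, mul_one]) (by simp) fun w₁ hw => ?_
      have : kill M (FreeGroup.of (QuotientGroup.mk (M.val (w₁ * MI.prB g)))) = 1 := by
        rw [kill_of h, if_neg]
        rwa [map_mul, inv_mem_D_iff h hw, ← hx]
      rw [left_mul_p, map_mul]
      cases ε <;> simp only [cond_true, cond_false, map_inv, this, inv_one, mul_one]
    rw [MI.mainStep, if_pos hD]
    obtain ⟨wl, a1, a2, R, hR, a3⟩ := I.last
    obtain ⟨j, k, v, b1, b2, b3, b4, b5, b6⟩ := I.seg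
    simp only at a2 a3 b3 b4 b5 b6
    have hxl : xl ∈ M.D := I.memD
    have hη : x⁻¹ = M.val (MI.prB g)⁻¹ := by rw [map_inv, hx]
    have hnη : (MI.prB g)⁻¹.norm ≤ n := by rw [FreeGroup.norm_inv_eq]; exact I.nrm
    have hSh : (M.Sh xl x⁻¹).norm ≤ c * k := by
      rw [b3]
      exact (norm_Sh h hxl v (b3 ▸ hD)).trans (Nat.mul_le_mul_left c b2)
    have hfa : ((M.fa xl)⁻¹ * M.fa x⁻¹).norm ≤ c * k := by
      rw [b3]
      exact (h.lip xl hxl v (b3 ▸ hD)).1.trans (Nat.mul_le_mul_left c b2)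
    obtain ⟨R', hR', hB⟩ : ∃ R' ∈ relBall W (c * n), (M.Sh xl x⁻¹)⁻¹ * Bt = M.fb false x⁻¹ * R' := by
      unfold MI.Sh
      split_ifs
      · exact ⟨R, hR, by rw [a3]; group⟩
      · have r1 := relBall_mono W (Nat.mul_le_mul_left c a1) (h.rel wl (a2 ▸ hxl)).1
        have r2 := relBall_mono W (Nat.mul_le_mul_left c hnη) (h.rel _ (hη ▸ hD)).1
        rw [← a2] at r1
        rw [← hη] at r2
        exact ⟨_, mul_mem (mul_mem r2 (inv_mem r1)) hR, by rw [a3]; group⟩
    have hR'' := relBall_mono W (Nat.mul_le_mul_left c n.le_succ) hR'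
    have hZ : ((M.fa xl, Bt⁻¹) : FreeGroup Y × FreeGroup Y) *
        ((M.fa xl)⁻¹ * M.fa x⁻¹, M.Sh xl x⁻¹) = (M.fa x⁻¹, ((M.Sh xl x⁻¹)⁻¹ * Bt)⁻¹) := by
      simp
    refine ⟨L ++ [((M.fa x⁻¹, ((M.Sh xl x⁻¹)⁻¹ * Bt)⁻¹), QuotientGroup.mk x, ε)],
      by rw [hpr]; exact hx, by rw [hpr]; exact I.nrm.trans n.le_succ,
      ⟨_, hnη.trans n.le_succ, hη, R', hR'', hB⟩, hD,
      ⟨j + k + 1, 0, 1, by omega, by simp, by simp, ?_, ?_, fun L' => ?_⟩, fun O => ?_, ?_,
      fun w₁ hw => ?_⟩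
    · have h1 := norm_mul3_le out (Zel ((M.fa xl)⁻¹ * M.fa x⁻¹, M.Sh xl x⁻¹)) (cond ε tt tt⁻¹)
      have h2 := norm_Zel ((M.fa xl)⁻¹ * M.fa x⁻¹, M.Sh xl x⁻¹)
      have h3 : (cond ε tt tt⁻¹ : FreeGroup (Option (ZP Y))).norm = 1 := by
        cases ε <;> simp [tt]
      simp only at h2 ⊢
      nlinarith
    · have h1 := FreeGroup.norm_mul_le (M.Sh xl x⁻¹)⁻¹ Bt
      rw [FreeGroup.norm_inv_eq] at h1
      simp only
      nlinarith
    · have h1 := b6 (((M.fa x⁻¹, ((M.Sh xl x⁻¹)⁻¹ * Bt)⁻¹), QuotientGroup.mk x, ε) :: L')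
      rw [List.append_assoc, List.singleton_append]
      simp only [plusCost, mul_inv_rev, inv_inv, mul_inv_cancel_left] at h1 ⊢
      nlinarith
    · simp only
      rw [plusProd_append, plusProd_cons, ← hZ]
      simp only [map_mul, map_inv, act_Zel_mul, I.act O, plusProd, List.map_nil, List.prod_nil,
        map_one]
      group
    · intro e he
      rcases List.mem_append.1 he with he | he
      · exact (I.ents e he).mono n.le_succ
      · obtain rfl := List.mem_singleton.1 he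
        exact ⟨_, hnη.trans n.le_succ, hη ▸ hD, R', hR'', by rw [← hη, hB], by rw [← hη, inv_inv]⟩
    · have : kill M (FreeGroup.of (QuotientGroup.mk (M.val (w₁ * MI.prB g)))) =
          FreeGroup.of (M.val w₁ • (QuotientGroup.mk x : M.B ⧸ M.F)) := by
        rw [kill_of h, if_pos]
        · rw [map_mul, ← hx]
          rfl
        · rwa [map_mul, inv_mem_D_iff h hw, ← hx]
      rw [left_mul_p, map_mul, I.keys w₁ hw, List.map_append, ← FreeGroup.mul_mk, List.map_cons,
        List.map_nil, mk_cons, ← FreeGroup.one_eq_mk, mul_one]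
      cases ε <;> simp only [cond_true, cond_false, map_inv, this]
  · exact ⟨L, triv _ ε val_pp (by simp [MI.prB])⟩
  · exact ⟨L, triv _ ε (val_c y) (by simp [MI.prB])⟩

theorem exists_inv (h : M.Good c W) (w : Word (ZM Y ZB)) :
    ∃ L, MInv M c W (FreeGroup.mk w) w.length (w.foldl M.mainStep (1, 1, 1, 1)) L := by
  induction w using List.reverseRecOn with
  | nil => exact ⟨[], MInv.init h⟩
  | append_singleton w a ih =>
    obtain ⟨L, I⟩ := ih
    obtain ⟨L', I'⟩ := I.step h a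
    refine ⟨L', ?_⟩
    rw [List.foldl_append, ← FreeGroup.mul_mk, mk_cons, ← FreeGroup.one_eq_mk, mul_one,
      List.length_append]
    exact I'

/-- What is used about `theta0`. -/
theorem theta0_spec (h : M.Good c W) (g : FreeGroup (ZM Y ZB)) :
    (M.val (MI.prB g) ∈ M.L → (M.theta0 g).norm ≤ (5 * c + 1) * g.norm) ∧
    ∃ L : List (Ent M), plusCost 1 L ≤ (2 * c + 1) * g.norm ∧
      (∀ O : Obj Y, (plusD Y).act O (M.theta0 g) =
        (plusD Y).act O (plusProd L * zeta (M.pib (M.val (MI.prB g))))) ∧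
      (∀ e ∈ L, GoodEnt M c W g.norm e) ∧
      ∀ w₁, M.val w₁ ∈ M.L →
        kill M (permAut M.B (M.B ⧸ M.F) (M.val w₁) (V M g).left) =
          FreeGroup.mk (L.map fun e => (M.val w₁ • e.2.1, e.2.2)) := by
  obtain ⟨L, I⟩ := exists_inv h g.toWord
  rw [FreeGroup.mk_toWord] at I
  change MInv M c W g g.norm _ L at I
  unfold MI.theta0
  generalize List.foldl M.mainStep (1, 1, 1, 1) g.toWord = s at I
  obtain ⟨j, k, v, b1, b2, b3, b4, b5, b6⟩ := I.seg
  refine ⟨fun hL => ?_, L, ?_, fun O => ?_, I.ents, I.keys⟩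
  · rw [← I.x_eq] at hL
    obtain ⟨r1, r2, -⟩ := h.right 1 h.one_mem _ (inv_mem hL)
    rw [one_mul] at r1 r2
    rw [h.fa_one, map_inv, inv_inv, mul_one] at r2
    have h1 := (h.lip _ I.memD v (b3 ▸ r1)).1
    rw [← b3, r2] at h1
    have h2 := FreeGroup.norm_mul_le s.2.2.2 (Zel ((M.fa s.2.1)⁻¹ * M.pib s.1, s.2.2.1))
    have h3 := norm_Zel ((M.fa s.2.1)⁻¹ * M.pib s.1, s.2.2.1)
    have h4 := Nat.mul_le_mul_left c b2
    have h5 := Nat.mul_le_mul_left (5 * c + 1) b1
    simp only at h3 ⊢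
    nlinarith
  · have h1 := b6 []
    have h5 := Nat.mul_le_mul_left (2 * c + 1) (show j ≤ g.norm by omega)
    simp only [List.append_nil, plusCost] at h1
    omega
  · simp only
    rw [map_mul, I.act O, map_mul, map_mul, mul_assoc, ← map_mul, ← act_Zel_mul, ← I.x_eq,
      ← Zel_left]
    simp

theorem GoodEnt.shift (h : M.Good c W) {n : ℕ} {e : Ent M} (he : GoodEnt M c W n e)
    {w₁ : FreeGroup ZB} (hw : M.val w₁ ∈ M.L) (hn : w₁.norm ≤ n) :
    GoodEnt M c W (2 * n) ((M.pib (M.val w₁), 1) * e.1, M.val w₁ • e.2.1, e.2.2) := by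
  obtain ⟨w, h1, h2, R, hR, h3, h4⟩ := he
  obtain ⟨r1, r2, r3⟩ := h.right _ h2 _ (inv_mem hw)
  refine ⟨w * w₁⁻¹, ?_, by rwa [map_mul, map_inv], R,
    relBall_mono W (Nat.mul_le_mul_left c (by omega)) hR, ?_, ?_⟩
  · have := FreeGroup.norm_mul_le w w₁⁻¹
    rw [FreeGroup.norm_inv_eq] at this
    omega
  · rw [map_mul, map_inv, r2, r3, h3]
    simp
  · rw [h4, map_mul, map_inv, mul_inv_rev, inv_inv]
    rfl

theorem GoodEnt.rel (h : M.Good c W) {O : Obj Y} {n N : ℕ} (h1 : Reg O N) (h3 : Sound W O N)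
    (hN : 3 * (c * n) ≤ N) {e e' : Ent M} (he : GoodEnt M c W n e) (he' : GoodEnt M c W n e')
    (hk : e.2.1 = e'.2.1) : (e.1.1⁻¹ * e'.1.1) * (e.1.2⁻¹ * e'.1.2)⁻¹ ∈ O.H false := by
  obtain ⟨w, a1, a2, R, hR, a3, a4⟩ := he
  obtain ⟨w', b1, b2, R', hR', b3, b4⟩ := he'
  rw [a4, b4, eq_comm, QuotientGroup.eq, inv_inv] at hk
  have hS := (h.left w (w' * w⁻¹) a2 (by rwa [map_mul, map_inv])).2
  rw [map_mul, map_inv, inv_mul_cancel_right] at hS
  have hn : c * (w.norm + (w' * w⁻¹).norm) ≤ 3 * (c * n) := by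
    have := FreeGroup.norm_mul_le w' w⁻¹
    rw [FreeGroup.norm_inv_eq] at this
    rw [← mul_assoc, mul_comm 3, mul_assoc]
    exact Nat.mul_le_mul_left c (by omega)
  have hT := mul_mem (mul_mem (relBall_mono W (hn.trans hN) hS)
    (relBall_mono W (show c * n ≤ N by omega) hR')) (inv_mem
      (relBall_mono W (show c * n ≤ N by omega) hR))
  have hu : (M.fb false (M.val w))⁻¹.norm ≤ N := by
    have := norm_fb h a2
    have := Nat.mul_le_mul_left c a1
    rw [FreeGroup.norm_inv_eq]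
    omega
  have key : ∀ T ∈ relBall W N,
      M.fb false (M.val w) * T * (M.fb false (M.val w))⁻¹ ∈ O.H false := by
    intro T hT
    induction hT using Subgroup.closure_induction with
    | mem x hx => simpa using h1 x (h3 x hx.1 hx.2) hx.2 false _ hu
    | one => simp
    | mul x y _ _ hx hy => simpa [mul_assoc] using mul_mem hx hy
    | inv x _ hx => simpa [mul_assoc] using inv_mem hx
  have := key _ hT
  rw [a3, b3]
  convert this using 1
  group

end MH

open MH

theorem main_gauge {M : MI Y ZB} {c : ℕ} {W : Set (FreeGroup Y)} (h : M.Good c W) :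
    M.mainD.Gauge fun n => (5 * c + 1) * n := by
  refine ⟨fun m n => (mul_add _ _ _).ge, ?_, ?_⟩
  · rintro (z | (_ | _) | y)
    · exact ((norm_zeta _).trans (h.pib_le z)).trans (by omega)
    · exact (FreeGroup.norm_one).le.trans (Nat.zero_le _)
    · exact (FreeGroup.norm_of _).le.trans (by omega)
    · exact ((plus_norm_map _ _).trans (FreeGroup.norm_of _).le).trans (by omega)
  · rintro (_ | _) g hg
    · exact (theta0_spec h g).1 (mem_Ao.1 hg)
    · refine (((norm_zeta _).trans (norm_pib h _)).trans (norm_prB g)).trans ?_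
      exact Nat.le_mul_of_pos_left _ (by omega)

theorem main_hom {M : MI Y ZB} {c : ℕ} {W : Set (FreeGroup Y)} (h : M.Good c W) (O : Obj Y)
    (m : ℕ) (h1 : Reg O (200 * (c + 1) * m)) (h2 : Reg (Plus O) (200 * (c + 1) * m))
    (h3 : Sound W O (200 * (c + 1) * m)) : M.mainD.Hom ((Plus O).H false) m := by
  intro ε g₁ g₂ g₃ n₁ n₂ n₃ m₁ m₂ hv
  change V M g₁ * V M g₂ = V M g₃ at hv
  have hx : M.val (MI.prB g₁) * M.val (MI.prB g₂) = M.val (MI.prB g₃) := by
    rw [← val_right, ← val_right, ← val_right, ← hv]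
    rfl
  cases ε
  swap
  · change zeta (M.pib (M.val (MI.prB g₁))) * zeta (M.pib (M.val (MI.prB g₂))) *
      (zeta (M.pib (M.val (MI.prB g₃))))⁻¹ ∈ _
    rw [← map_mul, ← map_mul, hx, mul_inv_cancel]
    exact one_mem _
  change M.theta0 g₁ * M.theta0 g₂ * (M.theta0 g₃)⁻¹ ∈ _
  rcases Nat.eq_zero_or_pos m with rfl | hm
  · obtain rfl := FreeGroup.norm_eq_zero.1 (Nat.le_zero.1 n₁)
    obtain rfl := FreeGroup.norm_eq_zero.1 (Nat.le_zero.1 n₂)
    obtain rfl := FreeGroup.norm_eq_zero.1 (Nat.le_zero.1 n₃)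
    have : M.theta0 1 = 1 := by simp [MI.theta0, h.fa_one, Zel]
    rw [this]
    simp
  rw [mem_Ao] at m₁ m₂
  obtain ⟨-, L₁, c₁, a₁, e₁, k₁⟩ := theta0_spec h g₁
  obtain ⟨-, L₂, c₂, a₂, e₂, k₂⟩ := theta0_spec h g₂
  obtain ⟨-, L₃, c₃, a₃, e₃, k₃⟩ := theta0_spec h g₃
  have hp₁ : (MI.prB g₁).norm ≤ m := (norm_prB g₁).trans n₁
  let S : FreeGroup Y × FreeGroup Y := (M.pib (M.val (MI.prB g₁)), 1)
  let L₂' : List (Ent M) := L₂.map fun e => (S * e.1, M.val (MI.prB g₁) • e.2.1, e.2.2)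
  have hc : plusCost 1 (L₁ ++ (L₂' ++ revinv L₃)) ≤ (12 * c + 8) * m := by
    have b1 := cost_append L₁ (L₂' ++ revinv L₃) 1
    have b2 := cost_append L₂' (revinv L₃) 1
    have b3 := cost_revinv L₃ 1 []
    have b4 := cost_base 1 S L₂'
    have b5 : plusCost (S * 1) L₂' = plusCost 1 L₂ := cost_shift S _ L₂ 1
    have b6 := (norm_pib h (MI.prB g₁)).trans hp₁
    have b7 := c₁.trans (Nat.mul_le_mul_left _ n₁)
    have b8 := c₂.trans (Nat.mul_le_mul_left _ n₂)
    have b9 := c₃.trans (Nat.mul_le_mul_left _ n₃)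
    rw [mul_one] at b5
    simp only [List.append_nil, plusCost, S, Prod.fst_one, Prod.snd_one, inv_one, one_mul,
      FreeGroup.norm_one] at b3 b4
    simp only [S] at b5
    nlinarith
  have hgood : ∀ e ∈ L₁ ++ (L₂' ++ revinv L₃), GoodEnt M c W (2 * m) e := by
    intro e he
    rcases List.mem_append.1 he with he | he
    · exact (e₁ e he).mono (by omega)
    rcases List.mem_append.1 he with he | he
    · obtain ⟨e, he', rfl⟩ := List.mem_map.1 he
      exact ((e₂ e he').mono n₂).shift h m₁ hp₁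
    · obtain ⟨e, he', rfl⟩ := List.mem_map.1 (List.mem_reverse.1 he)
      exact (e₃ e he').mono (show g₃.norm ≤ 2 * m by omega)
  have hmem := plus_cancel O (L₁ ++ (L₂' ++ revinv L₃)) _ (h2.mono (by nlinarith)) hc (by
      have j₁ := k₁ 1 (by rw [map_one]; exact one_mem _)
      have j₃ := k₃ 1 (by rw [map_one]; exact one_mem _)
      have j₂ := k₂ _ m₁
      simp only [map_one, MulAut.one_apply, one_smul] at j₁ j₃
      rw [List.map_append, List.map_append, ← FreeGroup.mul_mk, ← FreeGroup.mul_mk, key_revinv,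
        List.map_map]
      erw [← j₁, ← j₂, ← j₃]
      rw [← hv, ← val_right, ← mul_assoc, ← map_mul, mul_inv_eq_one]
      rfl)
    (fun e he e' he' hk => GoodEnt.rel h h1 h3 (by nlinarith) (hgood e he) (hgood e' he') hk)
  rw [Plus, RData.mem_R] at hmem ⊢
  rw [← hmem]
  congr 1
  rw [plusProd_append, plusProd_append, plusProd_revinv]
  simp only [map_mul, map_inv, a₁, a₂, a₃, L₂', act_shift, S, Zel_left, ← hx]
  group

end Crest.Agent.R185
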