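import Crest.Agent.R185.Defs

/-!
# Row 185: `MFP` algebra (task R185-Mod)

PLAN.  Prove `ses_sub`, `ses_mid`, `ses_quot`, `of_equiv`, `mono` by (simultaneous) induction on `k`
quantifying over all modules.  Standard facts:
* (mid, horseshoe) covers `p : R^m ↠ A`, `q : R^n ↠ C`; lift `q` to `B` (free) and get
  `R^m × R^n ↠ B` with `0 → ker p → ker → ker q → 0` exact.
* Schanuel / pullback: for `p : F ↠ M`, `p' : F' ↠ M` (f.g. free) the pullback `X ⊆ F × F'` sits in
  `0 → ker p → X → F' → 0` (split: `X ≅ ker p × F'`) and symmetrically; so `MFP k (ker p) ↔ MFP k (ker p')`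
  (direct summand with f.g. free complement: use `ses_sub`/`ses_quot` at lower `k`, or `MFP.summand`).
* (quot) `MFP k A`, `MFP (k+1) B`: cover `p : F ↠ B`, `K = ker p` is `MFP k`; `ker (g ∘ p)` is an
  extension `0 → K → ker (g∘p) → A → 0`, so `MFP k` by (mid).
* (sub) `MFP (k+1) C`, `MFP k B`: for `k = 0`: cover `p : F ↠ B`; `ker (g∘p)` is finite by Schanuel and
  surjects on `A`.  For `k+1`: `0 → ker p → ker (g ∘ p) → A → 0`, `ker p` is `MFP k`,
  `ker (g∘p)` is `MFP (k+1)` (Schanuel), so (quot) gives `A` `MFP (k+1)`.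
* `restrict`: induction on `k` over all `R'`-modules `M`: cover `R'^n ↠ M` with kernel `MFP k` over `R'`,
  hence over `R` by induction; `R'^n` is `MFP (k+1)` over `R` by `pi`; (quot).
* `noeth`: over a Noetherian ring kernels of covers are finite.
-/

set_option autoImplicit false

namespace Crest.Agent.R185

variable {R : Type} [Ring R]

theorem MFP.zero_iff {M : Type} [AddCommGroup M] [Module R M] :
    MFP R 0 M ↔ Module.Finite R M := Iff.rfl

theorem MFP.succ_iff {k : ℕ} {M : Type} [AddCommGroup M] [Module R M] :
    MFP R (k + 1) M ↔ ∃ (n : ℕ) (f : (Fin n → R) →ₗ[R] M),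
      Function.Surjective f ∧ MFP R k (LinearMap.ker f) := Iff.rfl

/-- Transport along a ring isomorphism. -/
theorem MFP.of_ringEquiv {R' : Type} [Ring R'] (σ : R ≃+* R') {k : ℕ} {M N : Type}
    [AddCommGroup M] [Module R M] [AddCommGroup N] [Module R' N] (e : M ≃+ N)
    (he : ∀ (r : R) (m : M), e (r • m) = σ r • e m) (h : MFP R k M) : MFP R' k N := by
  induction k generalizing M N with
  | zero =>
    have : Module.Finite R M := h
    let f : M →ₛₗ[(σ : R →+* R')] N :=
      { toFun := e, map_add' := e.map_add, map_smul' := he }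
    exact Module.Finite.of_surjective f e.surjective
  | succ k ih =>
    obtain ⟨n, f, hf, hk⟩ := h
    let f' : (Fin n → R') →ₗ[R'] N :=
      { toFun := fun x => e (f (fun i => σ.symm (x i)))
        map_add' := fun x y => by
          rw [← e.map_add, ← f.map_add]
          congr 2
          funext i
          simp
        map_smul' := fun r x => by
          have : (fun i => σ.symm ((r • x) i)) = σ.symm r • (fun i => σ.symm (x i)) := by
            funext i
            simp
          rw [this, f.map_smul, he]
          simp }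
    have hf' : ∀ x, f' x = e (f (fun i => σ.symm (x i))) := fun _ => rfl
    refine ⟨n, f', ?_, ?_⟩
    · intro y
      obtain ⟨x, hx⟩ := hf (e.symm y)
      refine ⟨fun i => σ (x i), ?_⟩
      rw [hf']
      simp [hx]
    · let e' : LinearMap.ker f ≃+ LinearMap.ker f' :=
        { toFun := fun x => ⟨fun i => σ (x.1 i), by
            have := x.2
            rw [LinearMap.mem_ker] at this ⊢
            rw [hf']
            simp [this]⟩
          invFun := fun y => ⟨fun i => σ.symm (y.1 i), by
            have := y.2
            rw [LinearMap.mem_ker, hf'] at this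
            rw [LinearMap.mem_ker]
            simpa using this⟩
          left_inv := fun x => by
            ext i
            simp
          right_inv := fun y => by
            ext i
            simp
          map_add' := fun x y => by
            ext i
            simp }
      refine ih e' (fun r m => ?_) hk
      ext i
      simp [e']

theorem MFP.of_equiv {k : ℕ} {M N : Type} [AddCommGroup M] [Module R M] [AddCommGroup N]
    [Module R N] (e : M ≃ₗ[R] N) (h : MFP R k M) : MFP R k N :=
  MFP.of_ringEquiv (RingEquiv.refl R) e.toAddEquiv (fun r m => by simp) h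

theorem MFP.of_succ {k : ℕ} {M : Type} [AddCommGroup M] [Module R M]
    (h : MFP R (k + 1) M) : MFP R k M := by
  induction k generalizing M with
  | zero =>
    obtain ⟨n, f, hf, -⟩ := h
    exact Module.Finite.of_surjective f hf
  | succ k ih =>
    obtain ⟨n, f, hf, hk⟩ := h
    exact ⟨n, f, hf, ih hk⟩

theorem MFP.mono {k l : ℕ} {M : Type} [AddCommGroup M] [Module R M] (hkl : k ≤ l)
    (h : MFP R l M) : MFP R k M := by
  induction hkl with
  | refl => exact h
  | step _ ih => exact ih h.of_succ

theorem MFP.finite {k : ℕ} {M : Type} [AddCommGroup M] [Module R M] (h : MFP R k M) :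
    Module.Finite R M :=
  MFP.mono (Nat.zero_le k) h

/-- A cover by any finitely generated free module will do. -/
theorem MFP.succ_of {k : ℕ} {F M : Type} [AddCommGroup F] [Module R F] [AddCommGroup M]
    [Module R M] [Module.Finite R F] [Module.Free R F] (p : F →ₗ[R] M)
    (hp : Function.Surjective p) (h : MFP R k (LinearMap.ker p)) : MFP R (k + 1) M := by
  let b := (Module.Free.chooseBasis R F).reindex
    (Fintype.equivFin (Module.Free.ChooseBasisIndex R F))
  let e := b.equivFun
  refine ⟨_, p ∘ₗ e.symm.toLinearMap, hp.comp e.symm.surjective, ?_⟩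
  refine MFP.of_equiv (e.ofSubmodules _ _ ?_) h
  rw [LinearMap.ker_comp, Submodule.map_equiv_eq_comap_symm]

theorem MFP.ses_mid {k : ℕ} {A B C : Type} [AddCommGroup A] [Module R A] [AddCommGroup B]
    [Module R B] [AddCommGroup C] [Module R C] (f : A →ₗ[R] B) (g : B →ₗ[R] C)
    (hf : Function.Injective f) (hg : Function.Surjective g) (hex : Function.Exact f g)
    (hA : MFP R k A) (hC : MFP R k C) : MFP R k B := by
  induction k generalizing A B C with
  | zero =>
    have : Module.Finite R A := hA
    have : Module.Finite R C := hC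
    exact Module.Finite.of_exact hex hg
  | succ k ih =>
    obtain ⟨m, p, hp, hkp⟩ := hA
    obtain ⟨n, q, hq, hkq⟩ := hC
    obtain ⟨q', hq'⟩ := Module.projective_lifting_property g q hg
    have hq'' : ∀ y, g (q' y) = q y := fun y => LinearMap.congr_fun hq' y
    have hgf : ∀ a, g (f a) = 0 := fun a => hex.apply_apply_eq_zero a
    let φ : ((Fin m → R) × (Fin n → R)) →ₗ[R] B := (f ∘ₗ p).coprod q'
    have hφ : ∀ x y, φ (x, y) = f (p x) + q' y := fun _ _ => rfl
    refine MFP.succ_of φ ?_ ?_
    · intro b
      obtain ⟨y, hy⟩ := hq (g b)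
      have : g (b - q' y) = 0 := by rw [map_sub, hq'', hy, sub_self]
      obtain ⟨a, ha⟩ := (hex _).1 this
      obtain ⟨x, rfl⟩ := hp a
      exact ⟨(x, y), by rw [hφ, ha, sub_add_cancel]⟩
    · let i : LinearMap.ker p →ₗ[R] LinearMap.ker φ :=
        ((LinearMap.inl R _ _).comp (LinearMap.ker p).subtype).codRestrict _ (fun x => by
          have := x.2
          rw [LinearMap.mem_ker] at this ⊢
          change φ (x.1, 0) = 0
          rw [hφ, this]
          simp)
      let j : LinearMap.ker φ →ₗ[R] LinearMap.ker q :=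
        ((LinearMap.snd R _ _).comp (LinearMap.ker φ).subtype).codRestrict _ (fun x => by
          have h1 := x.2
          rw [LinearMap.mem_ker] at h1 ⊢
          change q x.1.2 = 0
          have h2 : f (p x.1.1) + q' x.1.2 = 0 := h1
          have := congrArg g h2
          rwa [map_add, hgf, zero_add, hq'', map_zero] at this)
      refine ih i j ?_ ?_ ?_ hkp hkq
      · intro x y hxy
        have := congrArg (fun z : LinearMap.ker φ => z.1.1) hxy
        exact Subtype.ext this
      · rintro ⟨y, hy⟩
        rw [LinearMap.mem_ker] at hy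
        have : g (-q' y) = 0 := by rw [map_neg, hq'', hy, neg_zero]
        obtain ⟨a, ha⟩ := (hex _).1 this
        obtain ⟨x, rfl⟩ := hp a
        exact ⟨⟨(x, y), by rw [LinearMap.mem_ker, hφ, ha, neg_add_cancel]⟩, rfl⟩
      · rintro ⟨⟨x, y⟩, hxy⟩
        constructor
        · intro h
          have hy : y = 0 := congrArg Subtype.val h
          subst hy
          have h2 : f (p x) + q' 0 = 0 := hxy
          rw [map_zero, add_zero] at h2
          have h3 : p x = 0 := hf (by rw [h2, map_zero])
          exact ⟨⟨x, h3⟩, rfl⟩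
        · rintro ⟨z, hz⟩
          rw [← hz]
          rfl

/-- The exact sequence `0 → ker p → ker (g ∘ p) → A → 0`. -/
theorem exists_ses_ker {A B C F : Type} [AddCommGroup A] [Module R A] [AddCommGroup B]
    [Module R B] [AddCommGroup C] [Module R C] [AddCommGroup F] [Module R F]
    (f : A →ₗ[R] B) (g : B →ₗ[R] C)
    (hf : Function.Injective f) (hex : Function.Exact f g) (p : F →ₗ[R] B)
    (hp : Function.Surjective p) :
    ∃ (i : LinearMap.ker p →ₗ[R] LinearMap.ker (g ∘ₗ p)) (j : LinearMap.ker (g ∘ₗ p) →ₗ[R] A),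
      Function.Injective i ∧ Function.Surjective j ∧ Function.Exact i j := by
  let i : LinearMap.ker p →ₗ[R] LinearMap.ker (g ∘ₗ p) :=
    Submodule.inclusion (LinearMap.ker_le_ker_comp p g)
  let j₀ : LinearMap.ker (g ∘ₗ p) →ₗ[R] LinearMap.range f :=
    (p.comp (LinearMap.ker (g ∘ₗ p)).subtype).codRestrict _ (fun x => (hex _).1 x.2)
  let j := (LinearEquiv.ofInjective f hf).symm.toLinearMap.comp j₀
  have hj : ∀ x, f (j x) = p x.1 := fun x => by
    have := (LinearEquiv.ofInjective f hf).apply_symm_apply (j₀ x)
    exact congrArg Subtype.val this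
  refine ⟨i, j, Submodule.inclusion_injective _, ?_, ?_⟩
  · intro a
    obtain ⟨x, hx⟩ := hp (f a)
    refine ⟨⟨x, ?_⟩, hf ?_⟩
    · rw [LinearMap.mem_ker, LinearMap.comp_apply, hx]
      exact hex.apply_apply_eq_zero a
    · rw [hj, hx]
  · intro x
    constructor
    · intro h
      have : p x.1 = 0 := by rw [← hj, h, map_zero]
      exact ⟨⟨x.1, this⟩, rfl⟩
    · rintro ⟨z, rfl⟩
      apply hf
      rw [hj, map_zero]
      exact z.2

theorem MFP.ses_quot {k : ℕ} {A B C : Type} [AddCommGroup A] [Module R A] [AddCommGroup B]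
    [Module R B] [AddCommGroup C] [Module R C] (f : A →ₗ[R] B) (g : B →ₗ[R] C)
    (hf : Function.Injective f) (hg : Function.Surjective g) (hex : Function.Exact f g)
    (hA : MFP R k A) (hB : MFP R (k + 1) B) : MFP R (k + 1) C := by
  obtain ⟨n, p, hp, hk⟩ := hB
  obtain ⟨i, j, hi, hj, hij⟩ := exists_ses_ker f g hf hex p hp
  exact ⟨n, g ∘ₗ p, hg.comp hp, MFP.ses_mid i j hi hj hij hk hA⟩

theorem MFP.ses_quot' {k : ℕ} {A B C : Type} [AddCommGroup A] [Module R A] [AddCommGroup B]
    [Module R B] [AddCommGroup C] [Module R C] (f : A →ₗ[R] B) (g : B →ₗ[R] C)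
    (hf : Function.Injective f) (hg : Function.Surjective g) (hex : Function.Exact f g)
    (hA : MFP R k A) (hB : MFP R k B) : MFP R k C := by
  cases k with
  | zero =>
    have : Module.Finite R B := hB
    exact Module.Finite.of_surjective g hg
  | succ k => exact MFP.ses_quot f g hf hg hex hA.of_succ hB

/-- Finitely generated projective modules are `MFP k` for all `k`. -/
theorem MFP.projective {k : ℕ} {M : Type} [AddCommGroup M] [Module R M] [Module.Finite R M]
    [Module.Projective R M] : MFP R k M := by
  induction k generalizing M with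
  | zero => exact ‹Module.Finite R M›
  | succ k ih =>
    obtain ⟨n, p, hp⟩ := Module.Finite.exists_fin' R M
    obtain ⟨s, hs⟩ := p.exists_rightInverse_of_surjective (LinearMap.range_eq_top.2 hp)
    have hs' : ∀ m, p (s m) = m := fun m => LinearMap.congr_fun hs m
    let r : (Fin n → R) →ₗ[R] LinearMap.ker p :=
      (LinearMap.id - s ∘ₗ p).codRestrict _ (fun x => by
        rw [LinearMap.mem_ker]
        simp [hs'])
    have hr : r.comp (LinearMap.ker p).subtype = LinearMap.id := by
      ext1 x
      apply Subtype.ext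
      have : p x.1 = 0 := x.2
      change x.1 - s (p x.1) = x.1
      rw [this, map_zero, sub_zero]
    have : Module.Projective R (LinearMap.ker p) := Module.Projective.of_split _ r hr
    have : Module.Finite R (LinearMap.ker p) :=
      Module.Finite.of_surjective r (fun x => ⟨x.1, LinearMap.congr_fun hr x⟩)
    exact ⟨n, p, hp, ih⟩

/-- Schanuel: the kernel of any surjection from a f.g. projective module. -/
theorem MFP.ker {k : ℕ} {F M : Type} [AddCommGroup F] [Module R F] [AddCommGroup M] [Module R M]
    [Module.Finite R F] [Module.Projective R F] (p : F →ₗ[R] M) (hp : Function.Surjective p)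
    (h : MFP R (k + 1) M) : MFP R k (LinearMap.ker p) := by
  obtain ⟨n, q, hq, hk⟩ := h
  obtain ⟨s, hs⟩ := Module.projective_lifting_property q p hq
  obtain ⟨t, ht⟩ := Module.projective_lifting_property p q hp
  have hs' : ∀ x, q (s x) = p x := fun x => LinearMap.congr_fun hs x
  have ht' : ∀ y, p (t y) = q y := fun y => LinearMap.congr_fun ht y
  -- `ker q × F` is `MFP k`
  have h1 : MFP R k (LinearMap.ker q × F) :=
    MFP.ses_mid (LinearMap.inl R _ _) (LinearMap.snd R _ _) LinearMap.inl_injective
      LinearMap.snd_surjective Function.Exact.inl_snd hk MFP.projective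
  -- `0 → R^n → ker q × F → ker p → 0`
  let i₁ : (Fin n → R) →ₗ[R] LinearMap.ker q :=
    (LinearMap.id - s ∘ₗ t).codRestrict _ (fun y => by
      rw [LinearMap.mem_ker]
      simp [hs', ht'])
  let i : (Fin n → R) →ₗ[R] (LinearMap.ker q × F) := i₁.prod t
  let j : (LinearMap.ker q × F) →ₗ[R] LinearMap.ker p :=
    (LinearMap.snd R _ _ - t ∘ₗ (((LinearMap.ker q).subtype).coprod s)).codRestrict _ (fun x => by
      have := x.1.2
      rw [LinearMap.mem_ker] at this ⊢
      simp [hs', ht', this])
  have hi : ∀ y, ((i y).1.1 = y - s (t y)) ∧ (i y).2 = t y := fun y => ⟨rfl, rfl⟩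
  have hj : ∀ x, (j x).1 = x.2 - t (x.1.1 + s x.2) := fun x => rfl
  refine MFP.ses_quot' i j ?_ ?_ ?_ MFP.projective h1
  · intro y y' h
    have h2 := (hi y).1
    have h3 := (hi y).2
    rw [h, (hi y').1] at h2
    rw [h, (hi y').2] at h3
    rw [h3] at h2
    exact (sub_left_injective h2).symm
  · rintro ⟨x, hx⟩
    rw [LinearMap.mem_ker] at hx
    refine ⟨(⟨-s x, ?_⟩, x), Subtype.ext ?_⟩
    · rw [LinearMap.mem_ker, map_neg, hs', hx, neg_zero]
    · rw [hj]
      simp
  · rintro ⟨y, x⟩
    constructor
    · intro h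
      have h2 := congrArg Subtype.val h
      rw [hj] at h2
      have h3 : x = t (y.1 + s x) := sub_eq_zero.1 h2
      refine ⟨y.1 + s x, Prod.ext (Subtype.ext ?_) ?_⟩
      · rw [(hi _).1, ← h3]
        simp
      · rw [(hi _).2, ← h3]
    · rintro ⟨z, hz⟩
      rw [← hz]
      apply Subtype.ext
      rw [hj, (hi z).1, (hi z).2]
      simp

theorem MFP.ses_sub {k : ℕ} {A B C : Type} [AddCommGroup A] [Module R A] [AddCommGroup B]
    [Module R B] [AddCommGroup C] [Module R C] (f : A →ₗ[R] B) (g : B →ₗ[R] C)
    (hf : Function.Injective f) (hg : Function.Surjective g) (hex : Function.Exact f g)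
    (hB : MFP R k B) (hC : MFP R (k + 1) C) : MFP R k A := by
  cases k with
  | zero =>
    have : Module.Finite R B := hB
    obtain ⟨n, p, hp⟩ := Module.Finite.exists_fin' R B
    obtain ⟨i, j, -, hj, -⟩ := exists_ses_ker f g hf hex p hp
    have : Module.Finite R (LinearMap.ker (g ∘ₗ p)) := MFP.ker (k := 0) (g ∘ₗ p) (hg.comp hp) hC
    exact Module.Finite.of_surjective j hj
  | succ k =>
    obtain ⟨n, p, hp, hk⟩ := hB
    obtain ⟨i, j, hi, hj, hij⟩ := exists_ses_ker f g hf hex p hp
    exact MFP.ses_quot i j hi hj hij hk (MFP.ker (g ∘ₗ p) (hg.comp hp) hC)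

theorem MFP.pi {k : ℕ} {ι : Type} [Finite ι] {M : ι → Type} [∀ i, AddCommGroup (M i)]
    [∀ i, Module R (M i)] (h : ∀ i, MFP R k (M i)) : MFP R k (∀ i, M i) := by
  induction k generalizing M with
  | zero =>
    have : ∀ i, Module.Finite R (M i) := h
    exact Module.Finite.pi
  | succ k ih =>
    choose n f hf hk using h
    let φ : (∀ i, Fin (n i) → R) →ₗ[R] ∀ i, M i :=
      LinearMap.pi fun i => (f i).comp (LinearMap.proj i)
    have hφ : ∀ x i, φ x i = f i (x i) := fun _ _ => rfl
    refine MFP.succ_of φ ?_ ?_
    · intro y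
      choose x hx using fun i => hf i (y i)
      exact ⟨x, funext hx⟩
    · let e : (∀ i, LinearMap.ker (f i)) ≃ₗ[R] LinearMap.ker φ :=
        { toFun := fun x => ⟨fun i => (x i).1, funext fun i => (x i).2⟩
          invFun := fun y i => ⟨y.1 i, congrFun y.2 i⟩
          map_add' := fun _ _ => rfl
          map_smul' := fun _ _ => rfl
          left_inv := fun _ => rfl
          right_inv := fun _ => rfl }
      exact MFP.of_equiv e (ih hk)

theorem MFP.noeth [IsNoetherianRing R] {k : ℕ} {M : Type} [AddCommGroup M] [Module R M]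
    [Module.Finite R M] : MFP R k M := by
  induction k generalizing M with
  | zero => exact ‹Module.Finite R M›
  | succ k ih =>
    obtain ⟨n, p, hp⟩ := Module.Finite.exists_fin' R M
    exact ⟨n, p, hp, ih⟩

/-- Restriction of scalars. -/
theorem MFP.restrict {R' : Type} [Ring R'] [Module R R'] [IsScalarTower R R' R'] {k : ℕ}
    (hR : MFP R k R') {M : Type} [AddCommGroup M] [Module R' M] [Module R M]
    [IsScalarTower R R' M] (h : MFP R' k M) : MFP R k M := by
  induction k generalizing M with
  | zero =>
    have : Module.Finite R R' := hR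
    have : Module.Finite R' M := h
    exact Module.Finite.trans R' M
  | succ k ih =>
    obtain ⟨n, p, hp, hk⟩ := h
    exact MFP.ses_quot ((LinearMap.ker p).subtype.restrictScalars R) (p.restrictScalars R)
      (LinearMap.ker p).injective_subtype hp (LinearMap.exact_subtype_ker_map p)
      (ih hR.of_succ hk) (MFP.pi fun _ => hR)

end Crest.Agent.R185
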