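import Crest.Agent.R185.GMDefs
import Crest.Agent.R185.Defs

/-!
# Row 185: pointed objects, layers

An object over the alphabet `X` is a pair of subgroups `H false, H true` of `F(X)` (stabilisers of two base
points of an `F(X)`-set).  It is *true* when `H false` is normal and contained in `H true`; `Reg O n` is the
approximate version at scale `n`.
-/

set_option autoImplicit false

namespace Crest.Agent.R185

@[ext] structure Obj (X : Type) where
  H : Bool → Subgroup (FreeGroup X)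

variable {X Y Z : Type}

/-- The points: `F/H false ⊔ F/H true`. -/
def Obj.Pt (O : Obj X) : Type := Σ i : Bool, FreeGroup X ⧸ O.H i

instance (O : Obj X) : MulAction (FreeGroup X) O.Pt :=
  inferInstanceAs (MulAction (FreeGroup X) (Σ i : Bool, FreeGroup X ⧸ O.H i))

/-- The point `u • b_i`. -/
def Obj.pt (O : Obj X) (i : Bool) (u : FreeGroup X) : O.Pt := ⟨i, QuotientGroup.mk u⟩

theorem Obj.smul_pt (O : Obj X) (g : FreeGroup X) (i : Bool) (u : FreeGroup X) :
    g • O.pt i u = O.pt i (g * u) := rfl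

theorem Obj.pt_eq (O : Obj X) {i j : Bool} {u v : FreeGroup X} :
    O.pt i u = O.pt j v ↔ i = j ∧ u⁻¹ * v ∈ O.H i := by
  constructor
  · intro h
    obtain rfl : i = j := congrArg Sigma.fst h
    exact ⟨rfl, QuotientGroup.eq.1 (eq_of_heq (Sigma.mk.inj h).2)⟩
  · rintro ⟨rfl, h⟩
    exact congrArg (Sigma.mk i) (QuotientGroup.eq.2 h)

theorem Obj.pt_surj (O : Obj X) (s : O.Pt) : ∃ i u, s = O.pt i u := by
  obtain ⟨i, q⟩ := s
  obtain ⟨u, rfl⟩ := QuotientGroup.mk_surjective q
  exact ⟨i, u, rfl⟩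

/-- The kernel of the action on the points. -/
def Obj.core (O : Obj X) : Subgroup (FreeGroup X) := (MulAction.toPermHom (FreeGroup X) O.Pt).ker

instance (O : Obj X) : O.core.Normal := MonoidHom.normal_ker _

theorem Obj.mem_core (O : Obj X) {g : FreeGroup X} : g ∈ O.core ↔ ∀ s : O.Pt, g • s = s := by
  simp [Obj.core, MonoidHom.mem_ker, Equiv.ext_iff]

theorem Obj.mem_core' (O : Obj X) {g : FreeGroup X} :
    g ∈ O.core ↔ ∀ i u, u⁻¹ * g * u ∈ O.H i := by
  rw [O.mem_core]
  constructor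
  · intro h i u
    have := (h (O.pt i u)).symm
    rw [O.smul_pt, O.pt_eq] at this
    simpa [mul_assoc] using this.2
  · intro h s
    obtain ⟨i, u, rfl⟩ := O.pt_surj s
    rw [O.smul_pt, eq_comm, O.pt_eq]
    exact ⟨rfl, by simpa [mul_assoc] using h i u⟩

theorem Obj.core_le (O : Obj X) (i : Bool) : O.core ≤ O.H i := fun g hg => by
  simpa using O.mem_core'.1 hg i 1

/-- The group of an object. -/
abbrev Obj.Grp (O : Obj X) : Type := FreeGroup X ⧸ O.core

instance (O : Obj X) : MulAction O.Grp O.Pt :=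
  MulAction.compHom _ (QuotientGroup.kerLift (MulAction.toPermHom (FreeGroup X) O.Pt))

theorem Obj.mk_smul (O : Obj X) (g : FreeGroup X) (s : O.Pt) :
    (QuotientGroup.mk g : O.Grp) • s = g • s := rfl

instance (O : Obj X) : FaithfulSMul O.Grp O.Pt where
  eq_of_smul_eq_smul {a b} h := by
    obtain ⟨a, rfl⟩ := QuotientGroup.mk_surjective a
    obtain ⟨b, rfl⟩ := QuotientGroup.mk_surjective b
    refine QuotientGroup.eq.2 (O.mem_core.2 fun s => ?_)
    have := h s
    rw [O.mk_smul, O.mk_smul] at this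
    rw [mul_smul, ← this, inv_smul_smul]

/-- True objects. -/
def Obj.IsTrue (O : Obj X) : Prop := O.H false ≤ O.core

theorem Obj.IsTrue.core_eq {O : Obj X} (h : O.IsTrue) : O.core = O.H false :=
  le_antisymm (O.core_le _) h

/-- Regularity at scale `n`. -/
def Reg [DecidableEq X] (O : Obj X) (n : ℕ) : Prop :=
  ∀ w ∈ O.H false, w.norm ≤ n → ∀ i u, u.norm ≤ n → u⁻¹ * w * u ∈ O.H i

theorem Reg.mono [DecidableEq X] {O : Obj X} {m n : ℕ} (h : Reg O n) (hmn : m ≤ n) : Reg O m :=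
  fun w hw h1 i u h2 => h w hw (h1.trans hmn) i u (h2.trans hmn)

theorem Reg.zero [DecidableEq X] (O : Obj X) : Reg O 0 := fun w _ h1 i u _ => by
  obtain rfl : w = 1 := by simpa using h1
  simp

theorem Reg.smul [DecidableEq X] {O : Obj X} {n : ℕ} (h : Reg O n) {w : FreeGroup X}
    (hw : w ∈ O.H false) (h1 : w.norm ≤ n) (i : Bool) {u : FreeGroup X} (h2 : u.norm ≤ n) :
    w • O.pt i u = O.pt i u := by
  rw [O.smul_pt, eq_comm, O.pt_eq]
  exact ⟨rfl, by simpa [mul_assoc] using h w hw h1 i u h2⟩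

theorem isTrue_iff_reg [DecidableEq X] {O : Obj X} : O.IsTrue ↔ ∀ n, Reg O n :=
  ⟨fun h _ _ hw _ i u _ => O.mem_core'.1 (h hw) i u, fun h w hw => O.mem_core'.2 fun i u =>
    h (max w.norm u.norm) w hw (le_max_left _ _) i u (le_max_right _ _)⟩

/-- `σ` induces an embedding of pointed objects. -/
def Emb (σ : FreeGroup X →* FreeGroup Y) (O : Obj X) (O' : Obj Y) : Prop :=
  ∀ i g, σ g ∈ O'.H i ↔ g ∈ O.H i

theorem Emb.comp {σ : FreeGroup X →* FreeGroup Y} {σ' : FreeGroup Y →* FreeGroup Z} {O : Obj X}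
    {O' : Obj Y} {O'' : Obj Z} (h : Emb σ O O') (h' : Emb σ' O' O'') : Emb (σ'.comp σ) O O'' :=
  fun i g => (h' i _).trans (h i g)

/-- Induced map on groups. -/
def Obj.map (σ : FreeGroup X →* FreeGroup Y) {O : Obj X} {O' : Obj Y}
    (h : O.core ≤ O'.core.comap σ) : O.Grp →* O'.Grp :=
  QuotientGroup.map _ _ σ h

theorem Emb.core_le {σ : FreeGroup X →* FreeGroup Y} {O : Obj X} {O' : Obj Y} (h : Emb σ O O')
    (h' : O'.IsTrue) : O.core ≤ O'.core.comap σ :=
  fun g hg => h' ((h false g).2 (O.core_le _ hg))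

/-- Induced map on points. -/
def Emb.ptMap {σ : FreeGroup X →* FreeGroup Y} {O : Obj X} {O' : Obj Y} (h : Emb σ O O') :
    O.Pt → O'.Pt :=
  fun s => ⟨s.1, Quotient.map' σ (fun a b hab => by
    rw [QuotientGroup.leftRel_apply] at hab ⊢
    rw [← map_inv, ← map_mul]; exact (h _ _).2 hab) s.2⟩

theorem Emb.ptMap_pt {σ : FreeGroup X →* FreeGroup Y} {O : Obj X} {O' : Obj Y} (h : Emb σ O O')
    (i : Bool) (u : FreeGroup X) : h.ptMap (O.pt i u) = O'.pt i (σ u) := rfl

theorem Emb.ptMap_inj {σ : FreeGroup X →* FreeGroup Y} {O : Obj X} {O' : Obj Y}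
    (h : Emb σ O O') : Function.Injective h.ptMap := by
  intro s t hst
  obtain ⟨i, u, rfl⟩ := O.pt_surj s
  obtain ⟨j, v, rfl⟩ := O.pt_surj t
  rw [h.ptMap_pt, h.ptMap_pt, Obj.pt_eq, ← map_inv, ← map_mul, h] at hst
  exact O.pt_eq.2 hst

theorem Emb.ptMap_smul {σ : FreeGroup X →* FreeGroup Y} {O : Obj X} {O' : Obj Y}
    (h : Emb σ O O') (hc : O.core ≤ O'.core.comap σ) (g : O.Grp) (s : O.Pt) :
    h.ptMap (g • s) = Obj.map σ hc g • h.ptMap s := by
  obtain ⟨g, rfl⟩ := QuotientGroup.mk_surjective g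
  obtain ⟨i, u, rfl⟩ := O.pt_surj s
  rw [Obj.mk_smul, Obj.smul_pt, h.ptMap_pt, h.ptMap_pt, map_mul]
  rfl

/-! ### Tables and layers -/

abbrev Table (X : Type) : Type := List (Bool × FreeGroup X)

/-- The table `T` is correct for `O` on the ball of radius `n`. -/
def Correct [DecidableEq X] (T : Table X) (O : Obj X) (n : ℕ) : Prop :=
  ∀ i g, g.norm ≤ n → ((i, g) ∈ T ↔ g ∈ O.H i)

/-- The layer `L` (with parameter `e`) is regular and locally computable with radius function `r`, under the side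
condition `C`. -/
structure LayerOK [DecidableEq X] [Primcodable X] [DecidableEq Y] [Primcodable Y]
    (L : ℕ → Obj X → Obj Y) (r : ℕ → ℕ) (C : ℕ → Obj X → ℕ → Prop) : Prop where
  reg : ∀ e O n, Reg O (r n) → C e O (r n) → Reg (L e O) n
  alg : ∃ a : ℕ × Table X → Bool × FreeGroup Y → Bool, Computable₂ a ∧
    ∀ e O n T, Reg O (r n) → C e O (r n) → Correct T O (r n) →
      ∀ i g, g.norm ≤ n → (a (e, T) (i, g) = true ↔ g ∈ (L e O).H i)

/-- No side condition. -/
def NoC : ℕ → Obj X → ℕ → Prop := fun _ _ _ => True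

/-- The relators of norm `≤ n` hold. -/
def Sound [DecidableEq X] (W : Set (FreeGroup X)) (O : Obj X) (n : ℕ) : Prop :=
  ∀ g ∈ W, g.norm ≤ n → g ∈ O.H false

/-- The universal c.e. predicate. -/
def univU (Y : Type) [Primcodable Y] : ℕ × Word Y → Prop :=
  fun p => ((Denumerable.ofNat Nat.Partrec.Code p.1).eval (Encodable.encode p.2)).Dom

end Crest.Agent.R185
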