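import Crest.Agent.R185.RAlg

/-!
# Row 185: the plus layer (task R185-Plus)

`C⁺ = ⟨C × F(ζ) × F(ζ''), 𝔭 | 𝔭 (u,u,u'') 𝔭⁻¹ = (u'',u,u'')⟩`.  All identities hold exactly for the action on any (fake) object.
With `ζ' u = c u ζ'' u`, `Zel (a,b) = ζ a ζ' b` one has `Zel(a,b) 𝔭 Zel(a,b)⁻¹ = 𝔭 c (a b⁻¹)`.

PLAN.  Everything follows from `RModel` (`act_mv`, `Tp_Psi` with `core ⊇ ⊥`).  `plus_cancel`: induction on the length of the list using
`FreeGroup.Red`: if `mk (L.map key) = 1` and `L ≠ []` there are two adjacent entries `(Z, x, ε), (Z', x, !ε)`; with `Z⁻¹ Z' = (a,b)`: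
`𝔭^ε Zel(a,b) 𝔭^(-ε) = (𝔭 c(a b⁻¹)⁻¹ 𝔭⁻¹ or c (a b⁻¹)) * Zel(a,b)` in the action; `c (a b⁻¹) ∈ H false` of the plus object, has norm `≤ 2m`, and it is applied to the point
`(𝔭⁻¹) Zel Z⁻¹ (rest of the product) • b_false`, which is `u • b_false` for a word `u` of norm `≤ 10 m + 10` by telescoping (`cost`); use `Reg` and delete both entries
(`cost` does not increase, triangle inequality).
-/

set_option autoImplicit false

namespace Crest.Agent.R185

variable {Y : Type}

/-- Move letters: `inl y = c_y`, `inr (inl y) = ζ_y`, `inr (inr y) = ζ''_y`. -/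
abbrev ZP (Y : Type) : Type := Y ⊕ Y ⊕ Y

def plusD (Y : Type) : RData Y (ZP Y) where
  A := FreeGroup Y × FreeGroup Y
  a := Sum.elim (fun _ => 1) (Sum.elim (fun y => (FreeGroup.of y, 1)) fun y => (1, FreeGroup.of y))
  y := Sum.elim FreeGroup.of fun _ => 1
  Ao := ⊤
  θ := fun ε g => cond ε
    (FreeGroup.lift (Sum.elim (fun _ => 1) (Sum.elim (fun _ => 1) FreeGroup.of)) g)
    (FreeGroup.lift (Sum.elim (fun _ => 1) (Sum.elim FreeGroup.of fun _ => 1)) g)

def cP : FreeGroup Y →* FreeGroup (Option (ZP Y)) := FreeGroup.map fun y => some (.inl y)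
def zeta : FreeGroup Y →* FreeGroup (Option (ZP Y)) := FreeGroup.map fun y => some (.inr (.inl y))
def zeta' : FreeGroup Y →* FreeGroup (Option (ZP Y)) :=
  FreeGroup.lift fun y => FreeGroup.of (some (.inl y)) * FreeGroup.of (some (.inr (.inr y)))
def Zel (p : FreeGroup Y × FreeGroup Y) : FreeGroup (Option (ZP Y)) := zeta p.1 * zeta' p.2

theorem plus_norm_lift {X W : Type} [DecidableEq X] [DecidableEq W] (f : X → FreeGroup W) (c : ℕ)
    (hf : ∀ x, (f x).norm ≤ c) (g : FreeGroup X) : (FreeGroup.lift f g).norm ≤ c * g.norm := by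
  have key : ∀ l : List (X × Bool),
      (FreeGroup.lift f (FreeGroup.mk l)).norm ≤ c * l.length := by
    intro l
    rw [FreeGroup.lift_mk]
    induction l with
    | nil => simp
    | cons x l ih =>
      rw [List.map_cons, List.prod_cons, List.length_cons, mul_add, mul_one, add_comm]
      refine (FreeGroup.norm_mul_le _ _).trans (Nat.add_le_add ?_ ih)
      cases x.2
      · simpa using hf x.1
      · simpa using hf x.1
  have := key g.toWord
  rwa [FreeGroup.mk_toWord] at this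

theorem plus_norm_map {X W : Type} [DecidableEq X] [DecidableEq W] (f : X → W) (g : FreeGroup X) :
    (FreeGroup.map f g).norm ≤ g.norm := by
  rw [FreeGroup.map_eq_lift]
  simpa using plus_norm_lift (FreeGroup.of ∘ f) 1 (fun x => by simp) g

theorem plus_val (g : FreeGroup (ZP Y)) :
    (plusD Y).val g = ((plusD Y).θ false g, (plusD Y).θ true g) := by
  have : (plusD Y).val = MonoidHom.prod
      (FreeGroup.lift (Sum.elim (fun _ => 1) (Sum.elim FreeGroup.of fun _ => 1)))
      (FreeGroup.lift (Sum.elim (fun _ => 1) (Sum.elim (fun _ => 1) FreeGroup.of))) := by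
    refine FreeGroup.ext_hom _ _ ?_
    rintro (y | y | y) <;> simp [RData.val, plusD] <;> rfl
  rw [this]; rfl

def zC : FreeGroup Y →* FreeGroup (ZP Y) := FreeGroup.map .inl
def zA : FreeGroup Y →* FreeGroup (ZP Y) := FreeGroup.map fun y => .inr (.inl y)
def zB : FreeGroup Y →* FreeGroup (ZP Y) :=
  FreeGroup.lift fun y => FreeGroup.of (.inl y) * FreeGroup.of (.inr (.inr y))

theorem cP_eq (u : FreeGroup Y) : cP u = mv (zC u) :=
  DFunLike.congr_fun (show cP = mv.comp zC by ext y; simp [cP, mv, zC]) u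

theorem zeta_eq (u : FreeGroup Y) : zeta u = mv (zA u) :=
  DFunLike.congr_fun (show zeta = mv.comp zA by ext y; simp [zeta, mv, zA]) u

theorem zeta'_eq (u : FreeGroup Y) : zeta' u = mv (zB u) :=
  DFunLike.congr_fun (show zeta' = mv.comp zB by ext y; simp [zeta', mv, zB]) u

theorem val_zC (u : FreeGroup Y) : (plusD Y).val (zC u) = 1 :=
  DFunLike.congr_fun (show (plusD Y).val.comp zC = 1 from FreeGroup.ext_hom _ _ fun y => by
    simp [RData.val, zC, plusD]; rfl) u

theorem val_zA (u : FreeGroup Y) : (plusD Y).val (zA u) = (u, 1) :=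
  DFunLike.congr_fun (show (plusD Y).val.comp zA = MonoidHom.inl (FreeGroup Y) (FreeGroup Y) from
    FreeGroup.ext_hom _ _ fun y => by simp [RData.val, zA, plusD]; rfl) u

theorem val_zB (u : FreeGroup Y) : (plusD Y).val (zB u) = (1, u) :=
  DFunLike.congr_fun (show (plusD Y).val.comp zB = MonoidHom.inr (FreeGroup Y) (FreeGroup Y) from
    FreeGroup.ext_hom _ _ fun y => by
      simp only [MonoidHom.comp_apply, zB, FreeGroup.lift_apply_of, map_mul, RData.val]
      exact one_mul _) u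

theorem yval_zC (u : FreeGroup Y) : (plusD Y).yval (zC u) = u :=
  DFunLike.congr_fun (show (plusD Y).yval.comp zC = MonoidHom.id _ from
    FreeGroup.ext_hom _ _ fun y => by simp [RData.yval, zC, plusD]) u

theorem yval_zA (u : FreeGroup Y) : (plusD Y).yval (zA u) = 1 :=
  DFunLike.congr_fun (show (plusD Y).yval.comp zA = 1 from
    FreeGroup.ext_hom _ _ fun y => by simp [RData.yval, zA, plusD]) u

theorem yval_zB (u : FreeGroup Y) : (plusD Y).yval (zB u) = u :=
  DFunLike.congr_fun (show (plusD Y).yval.comp zB = MonoidHom.id _ from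
    FreeGroup.ext_hom _ _ fun y => by simp [RData.yval, zB, plusD]) u

theorem RData.Psi_congr {Z : Type} [DecidableEq Z] (D : RData Y Z) (O : Obj Y)
    {g g' : FreeGroup Z} (h : D.val g = D.val g') (u : FreeGroup Y) :
    D.Psi O (g, u) = D.Psi O (g', u) := by
  have h1 : D.Psi O (g⁻¹ * g', 1) = 1 := D.Psi_eq_one O (by simp [h]) (one_mem _)
  have h2 : (g', u) = (g, u) * (g⁻¹ * g', 1) := by simp
  rw [h2, map_mul, h1, mul_one]

variable [DecidableEq Y]

noncomputable def Plus (O : Obj Y) : Obj (Option (ZP Y)) := (plusD Y).R O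

theorem plus_gauge : (plusD Y).Gauge id := by
  refine ⟨fun _ _ => le_rfl, ?_, ?_⟩
  · rintro (y | y | y) <;> simp [plusD]
  · rintro (_ | _) g -
    · refine (plus_norm_lift _ 1 ?_ g).trans (by simp)
      rintro (y | y | y) <;> simp
    · refine (plus_norm_lift _ 1 ?_ g).trans (by simp)
      rintro (y | y | y) <;> simp

theorem plus_hom (m : ℕ) : (plusD Y).Hom ⊥ m := by
  intro ε g₁ g₂ g₃ _ _ _ _ _ h
  simp only [plus_val] at h
  rw [Subgroup.mem_bot, mul_inv_eq_one]
  cases ε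
  · exact congrArg Prod.fst h
  · exact congrArg Prod.snd h

theorem plus_ok [Primcodable Y] [Fintype Y] :
    LayerOK (fun _ (O : Obj Y) => Plus O) (fun n => 4 * (4 * n)) NoC := by
  have h0 : Primrec ((plusD Y).θ false) := primrec_hom _
  have h1 : Primrec ((plusD Y).θ true) := primrec_hom _
  refine R_layerOK (plusD Y) plus_gauge plus_hom ?_ ?_ ?_
  · refine (PrimrecPred.and (Primrec.eq.comp h0 (Primrec.const 1))
      (Primrec.eq.comp h1 (Primrec.const 1))).of_eq fun g => ?_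
    rw [plus_val]
    exact (Prod.ext_iff (x := ((plusD Y).θ false g, (plusD Y).θ true g)) (y := 1)).symm
  · exact (Primrec.eq.comp (Primrec.const true) (Primrec.const true)).of_eq fun g =>
      ⟨fun _ => trivial, fun _ => rfl⟩
  · refine (Primrec.cond Primrec.fst (h1.comp Primrec.snd) (h0.comp Primrec.snd)).of_eq ?_
    rintro ⟨_ | _, g⟩ <;> rfl

theorem plus_emb (O : Obj Y) : Emb cP O (Plus O) := by
  intro i g
  rw [cP_eq, Plus, RData.mv_mem, val_zC, yval_zC]
  simp

theorem norm_zeta (u : FreeGroup Y) : (zeta u).norm ≤ u.norm := by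
  exact plus_norm_map _ u

theorem norm_zeta' (u : FreeGroup Y) : (zeta' u).norm ≤ 2 * u.norm := by
  refine plus_norm_lift _ 2 (fun y => (FreeGroup.norm_mul_le _ _).trans ?_) u
  simp

theorem norm_Zel (p : FreeGroup Y × FreeGroup Y) : (Zel p).norm ≤ p.1.norm + 2 * p.2.norm :=
  (FreeGroup.norm_mul_le _ _).trans (Nat.add_le_add (norm_zeta _) (norm_zeta' _))

theorem act_Zel (O : Obj Y) (p : FreeGroup Y × FreeGroup Y) :
    (plusD Y).act O (Zel p) = (plusD Y).Psi O (zA p.1 * zB p.2, p.2) := by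
  rw [Zel, zeta_eq, zeta'_eq, ← map_mul, RData.act_mv, map_mul, yval_zA, yval_zB, one_mul]

theorem act_cP (O : Obj Y) (u : FreeGroup Y) :
    (plusD Y).act O (cP u) = (plusD Y).Psi O (1, u) := by
  rw [cP_eq, RData.act_mv, yval_zC]
  exact RData.Psi_congr _ _ (by rw [val_zC, map_one]) _

omit [DecidableEq Y] in
theorem val_zAB (p : FreeGroup Y × FreeGroup Y) : (plusD Y).val (zA p.1 * zB p.2) = p := by
  rw [map_mul, val_zA, val_zB]
  exact Prod.ext (mul_one _) (one_mul _)

theorem act_Zel_mul (O : Obj Y) (p q : FreeGroup Y × FreeGroup Y) :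
    (plusD Y).act O (Zel (p * q)) = (plusD Y).act O (Zel p * Zel q) := by
  rw [map_mul, act_Zel, act_Zel, act_Zel, ← map_mul]
  refine RData.Psi_congr _ _ ?_ _
  rw [val_zAB, map_mul (plusD Y).val (zA p.1 * zB p.2), val_zAB, val_zAB]
  rfl

theorem act_Zel_tt (O : Obj Y) (p : FreeGroup Y × FreeGroup Y) :
    (plusD Y).act O (Zel p * tt * (Zel p)⁻¹) = (plusD Y).act O (tt * cP (p.1 * p.2⁻¹)) := by
  have h := (plusD Y).Tp_Psi O (fun m ε g₁ g₂ g₃ a b c d e f =>
    (bot_le : (⊥ : Subgroup _) ≤ _) (plus_hom m ε g₁ g₂ g₃ a b c d e f))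
    (g := zA p.1 * zB p.2) trivial
  have h1 := (plus_val (zA p.1 * zB p.2)).symm.trans (val_zAB p)
  rw [show (plusD Y).θ false (zA p.1 * zB p.2) = p.1 from congrArg Prod.fst h1,
    show (plusD Y).θ true (zA p.1 * zB p.2) = p.2 from congrArg Prod.snd h1] at h
  rw [map_mul, map_mul, map_mul, map_inv, act_Zel, act_cP, RData.act_tt, ← h, mul_assoc,
    ← map_inv, ← map_mul]
  simp

theorem act_zeta_cP (O : Obj Y) (u v : FreeGroup Y) :
    (plusD Y).act O (zeta u * cP v) = (plusD Y).act O (cP v * zeta u) := by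
  rw [map_mul, map_mul, act_cP, zeta_eq, RData.act_mv, ← map_mul, ← map_mul, yval_zA]
  simp

/-- `∏ Z 𝔭^ε Z⁻¹`. -/
def plusProd {K : Type} (L : List ((FreeGroup Y × FreeGroup Y) × K × Bool)) :
    FreeGroup (Option (ZP Y)) :=
  (L.map fun e => Zel e.1 * cond e.2.2 tt tt⁻¹ * (Zel e.1)⁻¹).prod

/-- Telescoping cost starting from `Z₀`. -/
def plusCost {K : Type} : FreeGroup Y × FreeGroup Y →
    List ((FreeGroup Y × FreeGroup Y) × K × Bool) → ℕ
  | _, [] => 0
  | Z₀, e :: L => (Z₀.1⁻¹ * e.1.1).norm + (Z₀.2⁻¹ * e.1.2).norm + 1 + plusCost e.1 L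

theorem plusProd_cons {K : Type} (e : (FreeGroup Y × FreeGroup Y) × K × Bool)
    (L : List ((FreeGroup Y × FreeGroup Y) × K × Bool)) :
    plusProd (e :: L) = Zel e.1 * cond e.2.2 tt tt⁻¹ * (Zel e.1)⁻¹ * plusProd L := by
  simp [plusProd]

theorem plusProd_append {K : Type} (L L' : List ((FreeGroup Y × FreeGroup Y) × K × Bool)) :
    plusProd (L ++ L') = plusProd L * plusProd L' := by
  simp [plusProd]

theorem norm_tri (a b c : FreeGroup Y) : (a⁻¹ * c).norm ≤ (a⁻¹ * b).norm + (b⁻¹ * c).norm := by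
  have := FreeGroup.norm_mul_le (a⁻¹ * b) (b⁻¹ * c)
  rwa [mul_assoc, mul_inv_cancel_left] at this

theorem norm_tri' (a b : FreeGroup Y) : b.norm ≤ a.norm + (a⁻¹ * b).norm := by
  have := FreeGroup.norm_mul_le a (a⁻¹ * b)
  rwa [mul_inv_cancel_left] at this

theorem plusCost_del {K : Type} (L₁ : List ((FreeGroup Y × FreeGroup Y) × K × Bool))
    (e : (FreeGroup Y × FreeGroup Y) × K × Bool)
    (L₂ : List ((FreeGroup Y × FreeGroup Y) × K × Bool)) :
    ∀ Z, plusCost Z (L₁ ++ L₂) ≤ plusCost Z (L₁ ++ e :: L₂) := by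
  induction L₁ with
  | nil =>
    intro Z
    rcases L₂ with _ | ⟨e', L₂⟩
    · simp [plusCost]
    · have h1 := norm_tri Z.1 e.1.1 e'.1.1
      have h2 := norm_tri Z.2 e.1.2 e'.1.2
      simp only [List.nil_append, plusCost]
      omega
  | cons a L₁ ih =>
    intro Z
    have := ih a.1
    simp only [List.cons_append, plusCost]
    omega

theorem plusCost_mid {K : Type} (L₁ : List ((FreeGroup Y × FreeGroup Y) × K × Bool))
    (e : (FreeGroup Y × FreeGroup Y) × K × Bool)
    (L₂ : List ((FreeGroup Y × FreeGroup Y) × K × Bool)) :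
    ∀ Z : FreeGroup Y × FreeGroup Y, e.1.1.norm + e.1.2.norm + plusCost e.1 L₂ ≤
      Z.1.norm + Z.2.norm + plusCost Z (L₁ ++ e :: L₂) := by
  induction L₁ with
  | nil =>
    intro Z
    have h1 := norm_tri' Z.1 e.1.1
    have h2 := norm_tri' Z.2 e.1.2
    simp only [List.nil_append, plusCost]
    omega
  | cons a L₁ ih =>
    intro Z
    have := ih a.1
    have h1 := norm_tri' Z.1 a.1.1
    have h2 := norm_tri' Z.2 a.1.2
    simp only [List.cons_append, plusCost]
    omega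

theorem plus_tele (O : Obj Y) {K : Type} (L : List ((FreeGroup Y × FreeGroup Y) × K × Bool)) :
    ∀ Z : FreeGroup Y × FreeGroup Y, ∃ u : FreeGroup (Option (ZP Y)),
      u.norm ≤ 4 * plusCost Z L + 2 * (Z.1.norm + Z.2.norm) ∧
      ((plusD Y).act O (Zel Z))⁻¹ * (plusD Y).act O (plusProd L) = (plusD Y).act O u := by
  induction L with
  | nil =>
    intro Z
    refine ⟨(Zel Z)⁻¹, ?_, by simp [plusProd]⟩
    have := norm_Zel Z
    rw [FreeGroup.norm_inv_eq]
    omega
  | cons e L ih =>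
    intro Z
    obtain ⟨u, h1, h2⟩ := ih e.1
    refine ⟨Zel (Z⁻¹ * e.1) * cond e.2.2 tt tt⁻¹ * u, ?_, ?_⟩
    · have h3 := FreeGroup.norm_mul_le (Zel (Z⁻¹ * e.1) * cond e.2.2 tt tt⁻¹) u
      have h4 := FreeGroup.norm_mul_le (Zel (Z⁻¹ * e.1)) (cond e.2.2 tt tt⁻¹)
      have h5 : (Zel (Z⁻¹ * e.1)).norm ≤ (Z.1⁻¹ * e.1.1).norm + 2 * (Z.2⁻¹ * e.1.2).norm :=
        norm_Zel _
      have h6 : (cond e.2.2 tt tt⁻¹ : FreeGroup (Option (ZP Y))).norm = 1 := by
        cases e.2.2 <;> simp [tt]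
      have h7 := norm_tri' Z.1 e.1.1
      have h8 := norm_tri' Z.2 e.1.2
      simp only [plusCost]
      omega
    · have hZ : (plusD Y).act O (Zel e.1) =
          (plusD Y).act O (Zel Z) * (plusD Y).act O (Zel (Z⁻¹ * e.1)) := by
        rw [← map_mul, ← act_Zel_mul, mul_inv_cancel_left]
      rw [plusProd_cons, map_mul, map_mul, map_mul, map_mul, map_mul, ← h2, map_inv]
      conv_lhs => enter [2, 1, 1, 1]; rw [hZ]
      group

theorem plus_cancel (O : Obj Y) {K : Type} (L : List ((FreeGroup Y × FreeGroup Y) × K × Bool))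
    (m : ℕ) (hreg : Reg (Plus O) (10 * m + 10)) (hcost : plusCost 1 L ≤ m)
    (hkey : FreeGroup.mk (L.map (·.2)) = 1)
    (hrel : ∀ e ∈ L, ∀ e' ∈ L, e.2.1 = e'.2.1 →
      (e.1.1⁻¹ * e'.1.1) * (e.1.2⁻¹ * e'.1.2)⁻¹ ∈ O.H false) :
    plusProd L ∈ (Plus O).H false := by
  generalize hn : L.length = n
  induction n using Nat.strong_induction_on generalizing L with
  | _ n ih =>
  by_cases hL : L = []
  · subst hL; exact one_mem _
  obtain ⟨L₃, h1, h2⟩ := FreeGroup.Red.exact.1 (hkey.trans FreeGroup.one_eq_mk)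
  obtain rfl := FreeGroup.Red.nil_iff.1 h2
  obtain h3 | ⟨L₄, h3, -⟩ := Relation.ReflTransGen.cases_head h1
  · exact absurd (List.map_eq_nil_iff.1 h3) hL
  obtain ⟨L₁, e, e', L₂, rfl, hk1, hk2⟩ : ∃ L₁ e e' L₂, L = L₁ ++ e :: e' :: L₂ ∧
      e.2.1 = e'.2.1 ∧ e'.2.2 = !e.2.2 := by
    generalize hM : L.map (·.2) = M at h3
    cases h3 with
    | @not A B x b =>
      obtain ⟨L₁, L', rfl, -, h4⟩ := List.map_eq_append_iff.1 hM
      obtain ⟨e, L'', rfl, h5, h6⟩ := List.map_eq_cons_iff.1 h4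
      obtain ⟨e', L₂, rfl, h7, -⟩ := List.map_eq_cons_iff.1 h6
      exact ⟨L₁, e, e', L₂, rfl, by rw [h5, h7], by rw [h5, h7]⟩
  have hIH := ih (L₁ ++ L₂).length (by rw [← hn]; simp) (L₁ ++ L₂)
    ((plusCost_del _ _ _ _).trans ((plusCost_del _ _ _ _).trans hcost)) (by
      rw [← hkey]
      simp only [List.map_append, List.map_cons]
      have : e'.2 = (e.2.1, !e.2.2) := Prod.ext hk1.symm hk2
      rw [this]
      exact (FreeGroup.Red.exact.2 ⟨_, FreeGroup.Red.Step.not.to_red,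
        Relation.ReflTransGen.refl⟩).symm)
    (fun a ha b hb => hrel a (by simp at ha ⊢; tauto) b (by simp at hb ⊢; tauto)) rfl
  have hc := plusCost_mid L₁ e (e' :: L₂) 1
  simp only [Prod.fst_one, Prod.snd_one, FreeGroup.norm_one, zero_add] at hc
  obtain ⟨u, hu1, hu2⟩ := plus_tele O L₂ e.1
  have hc2 := plusCost_del [] e' L₂ e.1
  simp only [List.nil_append] at hc2
  set q := e.1⁻¹ * e'.1 with hq
  have hcm : cP (q.1 * q.2⁻¹) ∈ (Plus O).H false :=
    (plus_emb O _ _).2 (hrel e (by simp) e' (by simp) hk1)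
  have hcn : (cP (q.1 * q.2⁻¹)).norm ≤ 10 * m + 10 := by
    have h4 : (cP (q.1 * q.2⁻¹)).norm ≤ (q.1 * q.2⁻¹).norm := plus_norm_map _ _
    have h5 := FreeGroup.norm_mul_le q.1 q.2⁻¹
    rw [FreeGroup.norm_inv_eq] at h5
    have h6 : plusCost e.1 (e' :: L₂) = q.1.norm + q.2.norm + 1 + plusCost e'.1 L₂ := rfl
    omega
  have hfix : ∀ v : FreeGroup (Option (ZP Y)), v.norm ≤ 10 * m + 10 →
      (plusD Y).act O (cP (q.1 * q.2⁻¹)) ((plusD Y).act O v ((plusD Y).base O false)) =
        (plusD Y).act O v ((plusD Y).base O false) := by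
    intro v hv
    have := hreg.smul hcm hcn false hv
    rw [Obj.smul_pt, Plus, RData.pt_eq_iff, map_mul] at this
    exact this
  have hZ : (plusD Y).act O (Zel e'.1) = (plusD Y).act O (Zel e.1) * (plusD Y).act O (Zel q) := by
    rw [← map_mul, ← act_Zel_mul, hq, mul_inv_cancel_left]
  have hT := act_Zel_tt O q
  simp only [map_mul, map_inv] at hT
  have hw : (plusD Y).act O (plusProd L₂) = (plusD Y).act O (Zel e.1) * (plusD Y).act O u := by
    rw [← hu2, mul_inv_cancel_left]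
  rw [Plus, RData.mem_R] at hIH ⊢
  rw [plusProd_append, map_mul, Equiv.Perm.mul_apply] at hIH ⊢
  rw [← hIH, hIH]
  refine Eq.trans (congrArg _ ?_) hIH
  rw [plusProd_cons, plusProd_cons, hk2]
  simp only [map_mul, map_inv, hZ, hw]
  generalize (plusD Y).act O (Zel e.1) = A at *
  generalize (plusD Y).act O (Zel q) = B at *
  cases e.2.2
  · have h4 := hfix u (by omega)
    simp only [map_mul, map_inv] at h4
    simp only [cond_false, cond_true, Bool.not_false, map_inv]
    have h5 : ∀ T U : Equiv.Perm ((plusD Y).Om O), A * T⁻¹ * A⁻¹ * (A * B * T * (A * B)⁻¹ * (A * U))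
        = A * (T⁻¹ * (B * T * B⁻¹)) * U := by intro T U; group
    rw [h5, hT, inv_mul_cancel_left, Equiv.Perm.mul_apply, Equiv.Perm.mul_apply, h4]
    rfl
  · have h4 := hfix (tt⁻¹ * u) ((FreeGroup.norm_mul_le _ _).trans (by
      rw [FreeGroup.norm_inv_eq, tt, FreeGroup.norm_of]; omega))
    simp only [map_mul, map_inv] at h4
    simp only [cond_false, cond_true, Bool.not_true, map_inv]
    have h5 : ∀ T U : Equiv.Perm ((plusD Y).Om O),
        A * T * A⁻¹ * (A * B * T⁻¹ * (A * B)⁻¹ * (A * U))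
        = A * T * (B * T * B⁻¹)⁻¹ * U := by intro T U; group
    rw [h5, hT, mul_inv_rev]
    generalize (plusD Y).act O (cP q.1) * ((plusD Y).act O (cP q.2))⁻¹ = C at *
    have h6 := Equiv.Perm.inv_eq_iff_eq.2 h4.symm
    simp only [Equiv.Perm.mul_apply] at h6 ⊢
    rw [h6]
    simp

end Crest.Agent.R185
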