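import Crest.Agent.R185.RLazy

/-!
# Row 185: the `R`-layer is locally computable (task R185-RAlg)

PLAN.  `lazyRun` with `tab s = decide ((false,s) ∈ T)` is primitive recursive (`Primrec.list_foldr`, `option_casesOn`, `list_casesOn`, `cond`); it agrees with `D.run O` on words of
length `≤ n` since the queries that matter (`mem v = true`) have norm `≤ 2 ω n` (`run_bound` on suffixes); conclude with `crit` applied to `g.toWord`.
-/

set_option autoImplicit false

namespace Crest.Agent.R185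

variable {Y Z : Type} [DecidableEq Y] [DecidableEq Z] [Primcodable Y] [Primcodable Z]

section prim

open Primrec

variable {α : Type} [Primcodable α]

theorem primrec_mem_list {β : Type} [Primcodable β] {f : α → β} {L : α → List β} (hf : Primrec f)
    (hL : Primrec L) : PrimrecPred fun a => f a ∈ L a := by
  classical
  exact ((PrimrecRel.exists_mem_list (R := fun x y : β => x = y) Primrec.eq).comp hL hf).of_eq
    fun a => by simp

theorem primrec_lazyStep {y : α → Z → FreeGroup Y} {θ : α → Bool → FreeGroup Z → FreeGroup Y}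
    {mem : α → FreeGroup Z → Bool} {tab : α → FreeGroup Y → Bool} (hy : Primrec₂ y)
    (hθ : Primrec fun p : α × Bool × FreeGroup Z => θ p.1 p.2.1 p.2.2) (hmem : Primrec₂ mem)
    (htab : Primrec₂ tab) :
    Primrec₂ fun (a : α) (p : (Option Z × Bool) × St Y Z) =>
      lazyStep (y a) (θ a) (mem a) (tab a) p.1 p.2 := by
  let β := α × (Option Z × Bool) × St Y Z
  have pa : Primrec fun q : β => q.1 := fst
  have po : Primrec fun q : β => q.2.1.1 := fst.comp (fst.comp snd)
  have pe : Primrec fun q : β => q.2.1.2 := snd.comp (fst.comp snd)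
  have pv : Primrec fun q : β => q.2.2.1.1 := fst.comp (fst.comp (snd.comp snd))
  have ps : Primrec fun q : β => q.2.2.1.2 := snd.comp (fst.comp (snd.comp snd))
  have pst : Primrec fun q : β => q.2.2.2 := snd.comp (snd.comp snd)
  have pfr : Primrec fun q : β => (q.2.1.2, q.2.2.1.1, q.2.2.1.2) := pe.pair (pv.pair ps)
  have ppush : Primrec fun q : β =>
      ((((1 : FreeGroup Z), (1 : FreeGroup Y)), (q.2.1.2, q.2.2.1.1, q.2.2.1.2) :: q.2.2.2) :
        St Y Z) := (const _).pair (list_cons.comp pfr pst)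
  -- move letters
  have hmv : Primrec₂ fun (q : β) (z : Z) =>
      (((cond q.2.1.2 (FreeGroup.of z) (FreeGroup.of z)⁻¹ * q.2.2.1.1,
        cond q.2.1.2 (y q.1 z) (y q.1 z)⁻¹ * q.2.2.1.2), q.2.2.2) : St Y Z) := by
    have e1 : Primrec fun r : β × Z => FreeGroup.of r.2 := primrec_of.comp snd
    have e2 : Primrec fun r : β × Z => y r.1.1 r.2 := hy.comp (pa.comp fst) snd
    have e3 : Primrec fun r : β × Z =>
        cond r.1.2.1.2 (FreeGroup.of r.2) (FreeGroup.of r.2)⁻¹ * r.1.2.2.1.1 :=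
      primrec_mul.comp (Primrec.cond (pe.comp fst) e1 (primrec_inv.comp e1)) (pv.comp fst)
    have e4 : Primrec fun r : β × Z =>
        cond r.1.2.1.2 (y r.1.1 r.2) (y r.1.1 r.2)⁻¹ * r.1.2.2.1.2 :=
      primrec_mul.comp (Primrec.cond (pe.comp fst) e2 (primrec_inv.comp e2)) (ps.comp fst)
    exact (e3.pair e4).pair (pst.comp fst)
  -- the stable letter on a nonempty stack
  let γ := (Bool × FreeGroup Z × FreeGroup Y) × List (Bool × FreeGroup Z × FreeGroup Y)
  have hcons : Primrec₂ fun (q : β) (r : γ) =>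
      (cond ((r.1.1 != q.2.1.2) && mem q.1 q.2.2.1.1 &&
          tab q.1 (q.2.2.1.2 * (θ q.1 r.1.1 q.2.2.1.1)⁻¹))
        ((q.2.2.1.1 * r.1.2.1, θ q.1 q.2.1.2 q.2.2.1.1 * r.1.2.2), r.2)
        (((1 : FreeGroup Z), (1 : FreeGroup Y)), (q.2.1.2, q.2.2.1.1, q.2.2.1.2) :: q.2.2.2) :
          St Y Z) := by
    have e0 : Primrec fun r : β × γ => r.2.1.1 := fst.comp (fst.comp snd)
    have e1 : Primrec fun r : β × γ => r.2.1.2.1 := fst.comp (snd.comp (fst.comp snd))
    have e2 : Primrec fun r : β × γ => r.2.1.2.2 := snd.comp (snd.comp (fst.comp snd))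
    have e3 : Primrec fun r : β × γ => (r.2.1.1 != r.1.2.1.2) :=
      (dom_bool₂ (fun a b => a != b)).comp e0 (pe.comp fst)
    have e4 : Primrec fun r : β × γ => mem r.1.1 r.1.2.2.1.1 :=
      hmem.comp (pa.comp fst) (pv.comp fst)
    have e5 : Primrec fun r : β × γ => θ r.1.1 r.2.1.1 r.1.2.2.1.1 :=
      hθ.comp ((pa.comp fst).pair (e0.pair (pv.comp fst)))
    have e6 : Primrec fun r : β × γ => θ r.1.1 r.1.2.1.2 r.1.2.2.1.1 :=
      hθ.comp ((pa.comp fst).pair ((pe.comp fst).pair (pv.comp fst)))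
    have e7 : Primrec fun r : β × γ => tab r.1.1 (r.1.2.2.1.2 * (θ r.1.1 r.2.1.1 r.1.2.2.1.1)⁻¹) :=
      htab.comp (pa.comp fst) (primrec_mul.comp (ps.comp fst) (primrec_inv.comp e5))
    have e8 : Primrec fun r : β × γ => r.1.2.2.1.1 * r.2.1.2.1 :=
      primrec_mul.comp (pv.comp fst) e1
    have e9 : Primrec fun r : β × γ => θ r.1.1 r.1.2.1.2 r.1.2.2.1.1 * r.2.1.2.2 :=
      primrec_mul.comp e6 e2
    exact Primrec.cond (Primrec.and.comp (Primrec.and.comp e3 e4) e7)
      ((e8.pair e9).pair (snd.comp snd)) (ppush.comp fst)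
  have hnone := Primrec.list_casesOn pst ppush hcons
  refine (Primrec.option_casesOn po hnone hmv).of_eq ?_
  rintro ⟨a, ⟨_ | z, ε⟩, ⟨v, s⟩, _ | ⟨⟨ε₀, v₀, s₀⟩, st⟩⟩ <;> rfl

theorem primrec_lazyRun {y : α → Z → FreeGroup Y} {θ : α → Bool → FreeGroup Z → FreeGroup Y}
    {mem : α → FreeGroup Z → Bool} {tab : α → FreeGroup Y → Bool} (hy : Primrec₂ y)
    (hθ : Primrec fun p : α × Bool × FreeGroup Z => θ p.1 p.2.1 p.2.2) (hmem : Primrec₂ mem)
    (htab : Primrec₂ tab) {w : α → Word (Option Z)} (hw : Primrec w) :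
    Primrec fun a => lazyRun (y a) (θ a) (mem a) (tab a) (w a) :=
  Primrec.list_foldr hw (const (((1, 1), []) : St Y Z)) (primrec_lazyStep hy hθ hmem htab)

end prim

omit [Primcodable Y] [Primcodable Z] in
theorem lazyRun_congr (D : RData Y Z) {ω : ℕ → ℕ} (hω : D.Gauge ω) (mem : FreeGroup Z → Bool)
    (hmem : ∀ v, mem v = true → D.val v ∈ D.Ao) {tab tab' : FreeGroup Y → Bool} {n : ℕ}
    (h : ∀ s, s.norm ≤ 2 * ω n → tab s = tab' s) (w : Word (Option Z)) (hw : w.length ≤ n) :
    lazyRun D.y D.θ mem tab w = lazyRun D.y D.θ mem tab' w := by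
  induction w with
  | nil => rfl
  | cons x w ih =>
    simp only [List.length_cons] at hw
    have e : ∀ tab, lazyRun D.y D.θ mem tab (x :: w) =
      lazyStep D.y D.θ mem tab x (lazyRun D.y D.θ mem tab w) := fun _ => rfl
    have hb := D.run_bound hω mem hmem tab' w
    rw [e, e, ih (by omega)]
    generalize lazyRun D.y D.θ mem tab' w = σ at hb ⊢
    obtain ⟨⟨v, s⟩, st⟩ := σ
    obtain ⟨_ | z, ε⟩ := x
    · cases st with
      | nil => rfl
      | cons q st =>
        obtain ⟨ε₀, v₀, s₀⟩ := q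
        simp only [lazyStep]
        cases hm : mem v
        · simp
        · rw [h]
          dsimp only at hb
          have e1 := FreeGroup.norm_mul_le s (D.θ ε₀ v)⁻¹
          rw [FreeGroup.norm_inv_eq] at e1
          have e2 := hω.θ_le ε₀ v (hmem v hm)
          have e3 : ω v.norm ≤ ω n := superadd_mono hω.superadd (by omega)
          have e4 : ω w.length ≤ ω n := superadd_mono hω.superadd (by omega)
          omega
    · rfl

theorem R_alg (D : ℕ → RData Y Z) {ω : ℕ → ℕ} (hω : ∀ e, (D e).Gauge ω)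
    (h1 : PrimrecPred fun p : ℕ × FreeGroup Z => (D p.1).val p.2 = 1)
    (h2 : PrimrecPred fun p : ℕ × FreeGroup Z => (D p.1).val p.2 ∈ (D p.1).Ao)
    (h3 : Primrec fun p : ℕ × Bool × FreeGroup Z => (D p.1).θ p.2.1 p.2.2)
    (h4 : Primrec fun p : ℕ × Z => (D p.1).y p.2) :
    ∃ a : ℕ × Table Y → Bool × FreeGroup (Option Z) → Bool, Computable₂ a ∧
      ∀ e O n T, Reg O (4 * ω (4 * n)) → (D e).Hom (O.H false) (4 * n) →
        Correct T O (4 * ω (4 * n)) →
        ∀ i g, g.norm ≤ n → (a (e, T) (i, g) = true ↔ g ∈ ((D e).R O).H i) := by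
  classical
  let α := (ℕ × Table Y) × Bool × FreeGroup (Option Z)
  let run : α → St Y Z := fun q => lazyRun (D q.1.1).y (D q.1.1).θ
    (fun v => @decide ((D q.1.1).val v ∈ (D q.1.1).Ao) (Classical.propDecidable _))
    (fun s => decide ((false, s) ∈ q.1.2)) q.2.2.toWord
  have pe : Primrec fun q : α => q.1.1 := Primrec.fst.comp Primrec.fst
  have pT : Primrec fun q : α => q.1.2 := Primrec.snd.comp Primrec.fst
  have hrun : Primrec run := by
    refine primrec_lazyRun (y := fun q : α => (D q.1.1).y) (θ := fun q : α => (D q.1.1).θ)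
      (mem := fun (q : α) v => @decide ((D q.1.1).val v ∈ (D q.1.1).Ao) (Classical.propDecidable _))
      (tab := fun (q : α) s => decide ((false, s) ∈ q.1.2)) (w := fun q : α => q.2.2.toWord)
      ?_ ?_ ?_ ?_ ?_
    · exact h4.comp ((pe.comp Primrec.fst).pair Primrec.snd)
    · exact h3.comp ((pe.comp Primrec.fst).pair Primrec.snd)
    · exact @PrimrecPred.decide _ _ _ (fun _ => Classical.propDecidable _)
        (h2.comp ((pe.comp Primrec.fst).pair Primrec.snd))
    · exact PrimrecPred.decide (primrec_mem_list (f := fun r : α × FreeGroup Y => (false, r.2))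
        (L := fun r : α × FreeGroup Y => r.1.1.2)
        ((Primrec.const false).pair Primrec.snd) (pT.comp Primrec.fst))
    · exact primrec_toWord.comp (Primrec.snd.comp Primrec.snd)
  have hP : PrimrecPred fun q : α =>
      (run q).2 = [] ∧ (D q.1.1).val (run q).1.1 = 1 ∧ (q.2.1, (run q).1.2) ∈ q.1.2 := by
    refine PrimrecPred.and (Primrec.eq.comp (Primrec.snd.comp hrun) (Primrec.const [])) ?_
    refine PrimrecPred.and
      (h1.comp (pe.pair (Primrec.fst.comp (Primrec.fst.comp hrun)))) ?_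
    exact primrec_mem_list ((Primrec.fst.comp Primrec.snd).pair
      (Primrec.snd.comp (Primrec.fst.comp hrun))) pT
  refine ⟨fun p r => decide ((run (p, r)).2 = [] ∧ (D p.1).val (run (p, r)).1.1 = 1 ∧
    (r.1, (run (p, r)).1.2) ∈ p.2), (PrimrecPred.decide hP).to_comp, ?_⟩
  intro e O n T hreg hθ hT i g hg
  have hg' : g.toWord.length ≤ n := hg
  have hle : ω n ≤ ω (4 * n) := superadd_mono (hω e).superadd (by omega)
  have hr : run ((e, T), (i, g)) = (D e).run O g.toWord := by
    refine lazyRun_congr (D e) (hω e) _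
      (fun _ h => @of_decide_eq_true _ (Classical.propDecidable _) h) (n := n) ?_ _ hg'
    intro s hs
    exact decide_eq_decide.2 (hT false s (by omega))
  have hb := ((D e).run_bd' O (hω e) g.toWord).top (hω e).superadd
  have hle' : ω g.toWord.length ≤ ω n := superadd_mono (hω e).superadd hg'
  conv_rhs => rw [← FreeGroup.mk_toWord (x := g)]
  rw [decide_eq_true_eq, hr, (D e).crit O (hω e) hreg hθ i _ hg', hT i _ (by have := hb.2; omega)]

/-- Exact case: `θ` is a homomorphism on `A₀` on the nose. -/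
theorem R_layerOK (D : RData Y Z) {ω : ℕ → ℕ} (hω : D.Gauge ω) (hθ : ∀ m, D.Hom ⊥ m)
    (h1 : PrimrecPred fun g : FreeGroup Z => D.val g = 1)
    (h2 : PrimrecPred fun g : FreeGroup Z => D.val g ∈ D.Ao)
    (h3 : Primrec fun p : Bool × FreeGroup Z => D.θ p.1 p.2) [Finite Z] :
    LayerOK (fun _ O => D.R O) (fun n => 4 * ω (4 * n)) NoC := by
  have hθ' : ∀ (O : Obj Y) m, D.Hom (O.H false) m := fun O m ε g₁ g₂ g₃ a b c d e f =>
    (bot_le : (⊥ : Subgroup _) ≤ _) (hθ m ε g₁ g₂ g₃ a b c d e f)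
  obtain ⟨a, ha, h⟩ := R_alg (fun _ => D) (fun _ => hω) (h1.comp Primrec.snd)
    (h2.comp Primrec.snd) (h3.comp Primrec.snd) ((Primrec.dom_finite D.y).comp Primrec.snd)
  exact ⟨fun _ O _ hO _ => D.reg O hω hO (hθ' O _),
    a, ha, fun e O n T hO _ hT => h e O n T hO (hθ' O _) hT⟩

end Crest.Agent.R185
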