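import Crest.Agent.R185.Obj

/-!
# Row 185: the generic `R`-layer (definitions)

Models the HNN extension `⟨C × A, t | t (θ₀ a, a) t⁻¹ = (θ₁ a, a), a ∈ A₀⟩` acting on `A × (stacks)`, but makes sense
for arbitrary (fake) objects and arbitrary functions `θ`.  New alphabet `Option Z` (`none = t`, `some z` acts as `(y z, a z)`).
-/

set_option autoImplicit false

namespace Crest.Agent.R185

open scoped Classical

structure RData (Y Z : Type) where
  A : Type
  [grp : Group A]
  a : Z → A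
  y : Z → FreeGroup Y
  Ao : Subgroup A
  θ : Bool → FreeGroup Z → FreeGroup Y

attribute [instance] RData.grp

variable {Y Z : Type}

def RData.val (D : RData Y Z) : FreeGroup Z →* D.A := FreeGroup.lift D.a
def RData.yval (D : RData Y Z) : FreeGroup Z →* FreeGroup Y := FreeGroup.lift D.y

/-- Length bounds with a superadditive gauge. -/
structure RData.Gauge [DecidableEq Y] [DecidableEq Z] (D : RData Y Z) (ω : ℕ → ℕ) : Prop where
  superadd : ∀ m n, ω m + ω n ≤ ω (m + n)
  y_le : ∀ z, (D.y z).norm ≤ ω 1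
  θ_le : ∀ ε g, D.val g ∈ D.Ao → (D.θ ε g).norm ≤ ω g.norm

/-- `θ` is a homomorphism on `A₀` modulo `N`, at scale `m`. -/
def RData.Hom [DecidableEq Z] (D : RData Y Z) (N : Subgroup (FreeGroup Y)) (m : ℕ) : Prop :=
  ∀ ε g₁ g₂ g₃, g₁.norm ≤ m → g₂.norm ≤ m → g₃.norm ≤ m → D.val g₁ ∈ D.Ao → D.val g₂ ∈ D.Ao →
    D.val g₁ * D.val g₂ = D.val g₃ → D.θ ε g₁ * D.θ ε g₂ * (D.θ ε g₃)⁻¹ ∈ N

/-! ### Reduced stacks -/

/-- A stack: the top point and the list of (letter, point below the letter). -/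
def Wd (O : Obj Y) (T : Type) : Type :=
  {p : O.Pt × List ((T × Bool) × O.Pt) //
    p.2.IsChain fun u v => ¬ (u.2 = O.pt false 1 ∧ u.1 = (v.1.1, !v.1.2))}

instance (O : Obj Y) (T : Type) : MulAction (FreeGroup Y) (Wd O T) where
  smul u p := ⟨(u • p.1.1, p.1.2), p.2⟩
  one_smul p := Subtype.ext (Prod.ext (one_smul _ _) rfl)
  mul_smul u v p := Subtype.ext (Prod.ext (mul_smul _ _ _) rfl)

/-- Multiply by the free letter `t_η^ε`: pop or push. -/
noncomputable def Wd.tog {O : Obj Y} {T : Type} (η : T) (ε : Bool) : Wd O T → Wd O T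
  | ⟨(x, []), _⟩ => ⟨(O.pt false 1, [((η, ε), x)]), List.IsChain.singleton _⟩
  | ⟨(x, (l, x') :: L), h⟩ =>
    if hc : x = O.pt false 1 ∧ l = (η, !ε) then ⟨(x', L), h.tail⟩
    else ⟨(O.pt false 1, ((η, ε), x) :: (l, x') :: L), List.IsChain.cons_cons (by
      rintro ⟨h1, h2⟩
      refine hc ⟨h1, ?_⟩
      obtain ⟨l1, l2⟩ := l
      simp only [Prod.mk.injEq] at h2 ⊢
      exact ⟨h2.1.symm, by simp [h2.2]⟩) h⟩

theorem Wd.tog_tog {O : Obj Y} {T : Type} (η : T) (ε : Bool) (p : Wd O T) :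
    Wd.tog η (!ε) (Wd.tog η ε p) = p := by
  obtain ⟨⟨x, L⟩, h⟩ := p
  cases L with
  | nil => simp [Wd.tog]
  | cons q L =>
    obtain ⟨l, x'⟩ := q
    by_cases hc : x = O.pt false 1 ∧ l = (η, !ε)
    · rw [Wd.tog, dif_pos hc]
      obtain ⟨rfl, rfl⟩ := hc
      cases L with
      | nil => simp [Wd.tog]
      | cons q L =>
        obtain ⟨l2, x2⟩ := q
        rw [Wd.tog, dif_neg]
        rintro ⟨h1, h2⟩
        exact (List.isChain_cons_cons.1 h).1 ⟨h1, by simp [h2]⟩
    · rw [Wd.tog, dif_neg hc]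
      simp [Wd.tog]

/-- The permutation `t_η`. -/
noncomputable def Wd.tperm {O : Obj Y} {T : Type} (η : T) : Equiv.Perm (Wd O T) where
  toFun := Wd.tog η true
  invFun := Wd.tog η false
  left_inv p := Wd.tog_tog η true p
  right_inv p := Wd.tog_tog η false p

/-! ### The layer -/

namespace RData

variable [DecidableEq Z] (D : RData Y Z)

/-- Positions. -/
abbrev Pos : Type := FreeGroup Z ⧸ D.val.ker
/-- Free letters. -/
abbrev Let : Type := FreeGroup Z ⧸ D.Ao.comap D.val

theorem exists_rep (g : D.Pos) : ∃ w : FreeGroup Z, (QuotientGroup.mk w : D.Pos) = g ∧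
    ∀ w' : FreeGroup Z, (QuotientGroup.mk w' : D.Pos) = g → w.norm ≤ w'.norm := by
  obtain ⟨w, hw, h⟩ := (measure FreeGroup.norm).wf.has_min
    {w : FreeGroup Z | (QuotientGroup.mk w : D.Pos) = g} (QuotientGroup.mk_surjective g)
  exact ⟨w, hw, fun w' h' => not_lt.1 (h w' h')⟩

theorem exists_repL (η : D.Let) : ∃ w : FreeGroup Z, (QuotientGroup.mk w : D.Let) = η ∧
    ∀ w' : FreeGroup Z, (QuotientGroup.mk w' : D.Let) = η → w.norm ≤ w'.norm := by
  obtain ⟨w, hw, h⟩ := (measure FreeGroup.norm).wf.has_min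
    {w : FreeGroup Z | (QuotientGroup.mk w : D.Let) = η} (QuotientGroup.mk_surjective η)
  exact ⟨w, hw, fun w' h' => not_lt.1 (h w' h')⟩

/-- A shortest representative of a position. -/
noncomputable def rep (g : D.Pos) : FreeGroup Z := (D.exists_rep g).choose
/-- The letter at a position: the coset `g⁻¹ A₀`. -/
noncomputable def eta (g : D.Pos) : D.Let := QuotientGroup.mk (D.rep g)⁻¹
/-- A shortest representative of a letter. -/
noncomputable def repL (η : D.Let) : FreeGroup Z := (D.exists_repL η).choose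
/-- The twisting cocycle (`rep g * repL (eta g)` has value in `A₀`). -/
noncomputable def G (ε : Bool) (g : D.Pos) : FreeGroup Y := D.θ ε (D.rep g * D.repL (D.eta g))

abbrev Om (O : Obj Y) : Type := D.Pos × Wd O D.Let

/-- The action of `F(Z) × F(Y)`. -/
noncomputable def Psi (O : Obj Y) : FreeGroup Z × FreeGroup Y →* Equiv.Perm (D.Om O) where
  toFun p := Equiv.prodCongr (Equiv.mulLeft (QuotientGroup.mk p.1 : D.Pos)) (MulAction.toPerm p.2)
  map_one' := by ext1 x; simp [Prod.map]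
  map_mul' p q := by ext1 x; simp [Prod.map, mul_smul]

/-- The stable letter. -/
noncomputable def Tp (O : Obj Y) : Equiv.Perm (D.Om O) :=
  Equiv.prodCongrRight fun g => MulAction.toPerm (D.G true g) * Wd.tperm (D.eta g) *
    MulAction.toPerm (D.G false g)⁻¹

noncomputable def act (O : Obj Y) : FreeGroup (Option Z) →* Equiv.Perm (D.Om O) :=
  FreeGroup.lift fun o => o.elim (D.Tp O) fun z => D.Psi O (FreeGroup.of z, D.y z)

def base (O : Obj Y) (i : Bool) : D.Om O := (1, ⟨(O.pt i 1, []), List.IsChain.nil⟩)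

/-- The `R`-layer. -/
noncomputable def R (O : Obj Y) : Obj (Option Z) :=
  ⟨fun i => (MulAction.stabilizer (Equiv.Perm (D.Om O)) (D.base O i)).comap (D.act O)⟩

end RData

/-- Inclusion of the move letters. -/
def mv : FreeGroup Z →* FreeGroup (Option Z) := FreeGroup.map some
/-- The stable letter. -/
def tt : FreeGroup (Option Z) := FreeGroup.of none

/-! ### The lazy run -/

/-- current frame `(v, s)` and the stack of unmatched `t^ε` with the frames below them. -/
abbrev St (Y Z : Type) : Type :=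
  (FreeGroup Z × FreeGroup Y) × List (Bool × FreeGroup Z × FreeGroup Y)

def lazyStep (y : Z → FreeGroup Y) (θ : Bool → FreeGroup Z → FreeGroup Y)
    (mem : FreeGroup Z → Bool) (tab : FreeGroup Y → Bool) : Option Z × Bool → St Y Z → St Y Z
  | (some z, ε), ((v, s), st) =>
      ((cond ε (FreeGroup.of z) (FreeGroup.of z)⁻¹ * v, cond ε (y z) (y z)⁻¹ * s), st)
  | (none, ε), ((v, s), []) => ((1, 1), [(ε, v, s)])
  | (none, ε), ((v, s), (ε₀, v₀, s₀) :: st) =>
      cond ((ε₀ != ε) && mem v && tab (s * (θ ε₀ v)⁻¹)) ((v * v₀, θ ε v * s₀), st)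
        ((1, 1), (ε, v, s) :: (ε₀, v₀, s₀) :: st)

def lazyRun (y : Z → FreeGroup Y) (θ : Bool → FreeGroup Z → FreeGroup Y)
    (mem : FreeGroup Z → Bool) (tab : FreeGroup Y → Bool) (w : Word (Option Z)) : St Y Z :=
  w.foldr (lazyStep y θ mem tab) ((1, 1), [])

/-- The run with the true oracles. -/
noncomputable def RData.run (D : RData Y Z) (O : Obj Y) (w : Word (Option Z)) : St Y Z :=
  lazyRun D.y D.θ (fun v => decide (D.val v ∈ D.Ao)) (fun s => decide (s ∈ O.H false)) w

end Crest.Agent.R185
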