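import Crest.Agent.R185.RModel

/-!
# Row 185: the lazy stack analysis of the `R`-layer (task R185-RLazy)

PLAN.  Let `N = 2n`, `L = ω (4n)` (`ω` is monotone by superadditivity).  For positions `g` of words of length `≤ N`: `rep g`, `repL (eta g)` have norm `≤ N`, so
`|G ε g| ≤ L`.  COCYCLE: if `val v ∈ A₀`, `|v| ≤ N`, `g = v g₀` then `eta g = eta g₀` and `θ ε v * G ε g₀ * (G ε g)⁻¹ ∈ H false` (`Hom`); conversely `eta g = eta g₀ ↔ val v ∈ A₀`.
`run_bound`: each frame `(v,s)` comes from a segment of length `k` with `|v| ≤ k`, `|s| ≤ ω k`, the `k`'s adding up to `≤ length`.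
LEMMA A (induction on the word `W`, `length ≤ N`): `W • base i` = (position `v v₁ ⋯ v_k`, stack whose letters are `(eta g_j, ε_j)` (`g_j` = position at which the
unmatched `t^{ε_j}` was applied), bottom point `(G (!ε) g)⁻¹ s • b_i`, middle points `(G (!ε') g')⁻¹ s (G ε g) • b_false`, top point `s (G ε g) • b_false`).  The pop test of `lazyStep` is equivalent to
the real one: `(G ε₀ g)⁻¹ s (G ε₀ g₀) ∈ H false ↔ s (θ ε₀ v)⁻¹ ∈ H false` (conjugate with `Reg`, all words have norm `≤ 3L`).  In particular all points in the stack have radius `≤ 3L`.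
This gives `crit`.  `Bal w v s` (inductive: nil; move letter; `t^{ε} w₁ t^{ε₀} w₀` with `Bal w₁ v₁ s₁`, `val v₁ ∈ A₀`, `s₁ (θ ε₀ v₁)⁻¹ ∈ H false`, `ε₀ ≠ ε`, `Bal w₀ v₀ s₀`); the run decomposes `w` into balanced
segments separated by the unmatched letters.  LEMMA B: `Bal w v s`, `|w| + |u| ≤ N`, `u • base i = (h, ℓ)` ⇒ `w • u • base i = (v h, s • ℓ)` (radii of all intermediate stacks are controlled by Lemma A; the
point to which `(G ε₀ g)⁻¹ s₁ G ε₀ g₀` is applied has radius `≤ 4L`).  `reg`: `w ∈ H false` ⇒ empty stack, `val v = 1`, `s ∈ H false`, so `w` fixes `u • base i`.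
-/

set_option autoImplicit false
set_option linter.unusedSectionVars false

namespace Crest.Agent.R185

theorem mk_cons {X : Type} (x : X × Bool) (w : Word X) :
    FreeGroup.mk (x :: w) =
      cond x.2 (FreeGroup.of x.1) (FreeGroup.of x.1)⁻¹ * FreeGroup.mk w := by
  obtain ⟨a, b⟩ := x
  cases b
  · simp [FreeGroup.of, FreeGroup.inv_mk, FreeGroup.invRev, FreeGroup.mul_mk]
  · rfl

theorem norm_cond_le {X : Type} [DecidableEq X] (ε : Bool) (g : FreeGroup X) :
    (cond ε g g⁻¹).norm = g.norm := by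
  cases ε <;> simp

theorem norm_mul3_le {X : Type} [DecidableEq X] (a b c : FreeGroup X) :
    (a * b * c).norm ≤ a.norm + b.norm + c.norm := by
  have := FreeGroup.norm_mul_le (a * b) c
  have := FreeGroup.norm_mul_le a b
  omega

section tog

variable {Y T : Type} {O : Obj Y}

/-- `tog η ε` pops on `p`. -/
def Wd.Pops (η : T) (ε : Bool) (p : Wd O T) : Prop :=
  p.1.1 = O.pt false 1 ∧ ∃ x L, p.1.2 = ((η, !ε), x) :: L

theorem Wd.tog_push {η : T} {ε : Bool} {p : Wd O T} (h : ¬ Wd.Pops η ε p) :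
    (Wd.tog η ε p).1 = (O.pt false 1, ((η, ε), p.1.1) :: p.1.2) := by
  obtain ⟨⟨x, L⟩, hp⟩ := p
  cases L with
  | nil => simp [Wd.tog]
  | cons q L =>
    obtain ⟨l, x'⟩ := q
    have hc : ¬ (x = O.pt false 1 ∧ l = (η, !ε)) := by
      rintro ⟨h1, h2⟩
      exact h ⟨h1, x', L, by rw [← h2]⟩
    rw [Wd.tog]
    exact congrArg Subtype.val (dif_neg hc)

theorem Wd.tog_pop {η : T} {ε : Bool} {p : Wd O T} {x : O.Pt} {L : List ((T × Bool) × O.Pt)}
    (h1 : p.1.1 = O.pt false 1) (h2 : p.1.2 = ((η, !ε), x) :: L) :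
    (Wd.tog η ε p).1 = (x, L) := by
  obtain ⟨⟨x0, L0⟩, hp⟩ := p
  obtain rfl : L0 = _ := h2
  have hc : x0 = O.pt false 1 ∧ (η, !ε) = (η, !ε) := ⟨h1, rfl⟩
  rw [Wd.tog]
  exact congrArg Subtype.val (dif_pos hc)

variable [DecidableEq Y]

/-- The point `x` has radius `≤ R`. -/
def Obj.Near (O : Obj Y) (R : ℕ) (x : O.Pt) : Prop := ∃ j u, u.norm ≤ R ∧ x = O.pt j u

theorem Obj.Near.mono {R R' : ℕ} {x : O.Pt} (h : O.Near R x) (hR : R ≤ R') : O.Near R' x := by
  obtain ⟨j, u, h1, h2⟩ := h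
  exact ⟨j, u, h1.trans hR, h2⟩

theorem Obj.Near.smul {R R' : ℕ} {x : O.Pt} (h : O.Near R x) {g : FreeGroup Y}
    (hR : g.norm + R ≤ R') : O.Near R' (g • x) := by
  obtain ⟨j, u, h1, rfl⟩ := h
  refine ⟨j, g * u, ?_, rfl⟩
  have := FreeGroup.norm_mul_le g u
  omega

theorem Obj.near_base (j : Bool) (R : ℕ) : O.Near R (O.pt j 1) := ⟨j, 1, by simp, rfl⟩

theorem Reg.fix {n : ℕ} (h : Reg O n) {w : FreeGroup Y} (hw : w ∈ O.H false) (h1 : w.norm ≤ n)
    {x : O.Pt} (hx : O.Near n x) : w • x = x := by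
  obtain ⟨j, u, h2, rfl⟩ := hx
  exact h.smul hw h1 j h2

theorem Wd.near_tog {R : ℕ} (η : T) (ε : Bool) {p : Wd O T} (h : ∀ q ∈ p.1.2, O.Near R q.2) :
    O.Near R (Wd.tog η ε p).1.1 := by
  by_cases hc : Wd.Pops η ε p
  · obtain ⟨h1, x, L, h2⟩ := hc
    rw [Wd.tog_pop h1 h2]
    exact h ((η, !ε), x) (by rw [h2]; exact List.mem_cons_self)
  · rw [Wd.tog_push hc]
    exact Obj.near_base _ _

end tog

section bd

variable {Y Z : Type} [DecidableEq Y] [DecidableEq Z] {ω : ℕ → ℕ}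

theorem superadd_mono (h : ∀ m n, ω m + ω n ≤ ω (m + n)) {a b : ℕ} (hab : a ≤ b) : ω a ≤ ω b := by
  obtain ⟨c, rfl⟩ := Nat.exists_eq_add_of_le hab
  exact (Nat.le_add_right _ _).trans (h a c)

/-- Size invariant of the lazy run. -/
def Bd (ω : ℕ → ℕ) :
    List (Bool × FreeGroup Z × FreeGroup Y) → ℕ → FreeGroup Z → FreeGroup Y → Prop
  | [], k, v, s => v.norm ≤ k ∧ s.norm ≤ ω k
  | q :: st, k, v, s => ∃ a b, a + b ≤ k ∧ v.norm ≤ a ∧ s.norm ≤ ω a ∧ Bd ω st b q.2.1 q.2.2

theorem Bd.top (h : ∀ m n, ω m + ω n ≤ ω (m + n)) {st : List (Bool × FreeGroup Z × FreeGroup Y)}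
    {k : ℕ} {v : FreeGroup Z} {s : FreeGroup Y} (hb : Bd ω st k v s) :
    v.norm ≤ k ∧ s.norm ≤ ω k := by
  cases st with
  | nil => exact hb
  | cons q st =>
    obtain ⟨a, b, h1, h2, h3, -⟩ := hb
    exact ⟨by omega, h3.trans (superadd_mono h (by omega))⟩

theorem Bd.mono (h : ∀ m n, ω m + ω n ≤ ω (m + n)) {st : List (Bool × FreeGroup Z × FreeGroup Y)}
    {k k' : ℕ} {v : FreeGroup Z} {s : FreeGroup Y} (hb : Bd ω st k v s) (hk : k ≤ k') :
    Bd ω st k' v s := by
  cases st with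
  | nil => exact ⟨hb.1.trans hk, hb.2.trans (superadd_mono h hk)⟩
  | cons q st =>
    obtain ⟨a, b, h1, h2⟩ := hb
    exact ⟨a, b, h1.trans hk, h2⟩

theorem Bd.mul (h : ∀ m n, ω m + ω n ≤ ω (m + n)) {st : List (Bool × FreeGroup Z × FreeGroup Y)}
    {k c : ℕ} {v v' : FreeGroup Z} {s s' : FreeGroup Y} (hb : Bd ω st k v s)
    (hv : v'.norm ≤ c) (hs : s'.norm ≤ ω c) : Bd ω st (c + k) (v' * v) (s' * s) := by
  have e1 := FreeGroup.norm_mul_le v' v
  have e2 := FreeGroup.norm_mul_le s' s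
  cases st with
  | nil =>
    obtain ⟨h1, h2⟩ := hb
    have := h c k
    exact ⟨by omega, by omega⟩
  | cons q st =>
    obtain ⟨a, b, h1, h2, h3, h4⟩ := hb
    have := h c a
    exact ⟨c + a, b, by omega, by omega, by omega, h4⟩

end bd

namespace RData

variable {Y Z : Type} [DecidableEq Y] [DecidableEq Z] (D : RData Y Z) (O : Obj Y) {ω : ℕ → ℕ}

theorem run_bd (hω : D.Gauge ω) (mem : FreeGroup Z → Bool)
    (hmem : ∀ v, mem v = true → D.val v ∈ D.Ao) (tab : FreeGroup Y → Bool) (w : Word (Option Z)) :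
    Bd ω (lazyRun D.y D.θ mem tab w).2 w.length (lazyRun D.y D.θ mem tab w).1.1
      (lazyRun D.y D.θ mem tab w).1.2 := by
  induction w with
  | nil => exact ⟨by simp [lazyRun], by simp [lazyRun]⟩
  | cons x w ih =>
    have e : lazyRun D.y D.θ mem tab (x :: w) =
      lazyStep D.y D.θ mem tab x (lazyRun D.y D.θ mem tab w) := rfl
    rw [e]
    generalize lazyRun D.y D.θ mem tab w = σ at ih ⊢
    obtain ⟨⟨v, s⟩, st⟩ := σ
    obtain ⟨_ | z, ε⟩ := x
    · cases st with
      | nil => exact ⟨0, w.length, by simp, by simp [lazyStep], by simp [lazyStep], ih⟩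
      | cons q st =>
        obtain ⟨ε₀, v₀, s₀⟩ := q
        simp only [lazyStep]
        cases hc : ((ε₀ != ε) && mem v && tab (s * (D.θ ε₀ v)⁻¹))
        · exact ⟨0, w.length, by simp, by simp, by simp, ih⟩
        · simp only [Bool.and_eq_true] at hc
          obtain ⟨a, b, h1, h2, -, h4⟩ := ih
          refine (Bd.mul hω.superadd h4 h2 ((hω.θ_le ε v (hmem v hc.1.2)).trans
            (superadd_mono hω.superadd h2))).mono hω.superadd ?_
          simp only [List.length_cons]; omega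
    · simp only [lazyStep, List.length_cons]
      rw [add_comm]
      refine Bd.mul hω.superadd ih ?_ ?_
      · rw [norm_cond_le]; simp
      · rw [norm_cond_le]; exact hω.y_le z

/-- Norm bounds along the run, for arbitrary table oracle. -/
theorem run_bound (hω : D.Gauge ω) (mem : FreeGroup Z → Bool)
    (hmem : ∀ v, mem v = true → D.val v ∈ D.Ao) (tab : FreeGroup Y → Bool) (w : Word (Option Z)) :
    (lazyRun D.y D.θ mem tab w).1.1.norm ≤ w.length ∧
      (lazyRun D.y D.θ mem tab w).1.2.norm ≤ ω w.length :=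
  (D.run_bd hω mem hmem tab w).top hω.superadd

theorem run_bd' (hω : D.Gauge ω) (w : Word (Option Z)) :
    Bd ω (D.run O w).2 w.length (D.run O w).1.1 (D.run O w).1.2 :=
  D.run_bd hω _ (fun _ h => @of_decide_eq_true _ (Classical.propDecidable _) h) _ w

/-- `t^ε`. -/
noncomputable def Te (ε : Bool) : Equiv.Perm (D.Om O) := cond ε (D.Tp O) (D.Tp O)⁻¹

theorem Te_apply (ε : Bool) (Q : D.Om O) :
    D.Te O ε Q = (Q.1, D.G ε Q.1 • Wd.tog (D.eta Q.1) ε ((D.G (!ε) Q.1)⁻¹ • Q.2)) := by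
  cases ε
  · exact D.Tp_inv_apply O Q
  · rfl

theorem act_cons_none (ε : Bool) (w : Word (Option Z)) (X : D.Om O) :
    D.act O (FreeGroup.mk ((none, ε) :: w)) X = D.Te O ε (D.act O (FreeGroup.mk w) X) := by
  rw [mk_cons, map_mul, Equiv.Perm.mul_apply]
  congr 1
  cases ε
  · show D.act O tt⁻¹ = _
    rw [map_inv, act_tt]; rfl
  · exact D.act_tt O

theorem act_cons_some (z : Z) (ε : Bool) (w : Word (Option Z)) (X : D.Om O) :
    D.act O (FreeGroup.mk ((some z, ε) :: w)) X =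
      D.Psi O (cond ε (FreeGroup.of z) (FreeGroup.of z)⁻¹, cond ε (D.y z) (D.y z)⁻¹)
        (D.act O (FreeGroup.mk w) X) := by
  rw [mk_cons, map_mul, Equiv.Perm.mul_apply]
  congr 1
  have h : D.act O (FreeGroup.of (some z)) = D.Psi O (FreeGroup.of z, D.y z) := by simp [act]
  cases ε
  · show D.act O (FreeGroup.of (some z))⁻¹ = D.Psi O (FreeGroup.of z, D.y z)⁻¹
    rw [map_inv, map_inv, h]
  · exact h

/-- The state represented by a lazy state. -/
noncomputable def real (X : D.Om O) :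
    List (Bool × FreeGroup Z × FreeGroup Y) → FreeGroup Z → FreeGroup Y → D.Om O
  | [], v, s => D.Psi O (v, s) X
  | q :: st, v, s => D.Psi O (v, s) (D.Te O q.1 (real X st q.2.1 q.2.2))

theorem Psi_Psi (v v' : FreeGroup Z) (s s' : FreeGroup Y) (X : D.Om O) :
    D.Psi O (v' * v, s' * s) X = D.Psi O (v', s') (D.Psi O (v, s) X) := by
  rw [← Equiv.Perm.mul_apply, ← map_mul]; rfl

theorem Psi_one (X : D.Om O) : D.Psi O (1, 1) X = X := by
  have : ((1, 1) : FreeGroup Z × FreeGroup Y) = 1 := rfl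
  rw [this, map_one]; rfl

theorem real_mul (X : D.Om O) (st : List (Bool × FreeGroup Z × FreeGroup Y))
    (v v' : FreeGroup Z) (s s' : FreeGroup Y) :
    D.real O X st (v' * v) (s' * s) = D.Psi O (v', s') (D.real O X st v s) := by
  cases st <;> simp only [real, Psi_Psi]

/-- Short positions. -/
def Sh (N : ℕ) (g : D.Pos) : Prop := ∃ r : FreeGroup Z, r.norm ≤ N ∧ (QuotientGroup.mk r : D.Pos) = g

theorem Sh.key {D : RData Y Z} {N : ℕ} {g : D.Pos} (h : D.Sh N g) :
    (D.rep g * D.repL (D.eta g)).norm ≤ 2 * N := by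
  obtain ⟨r, h1, h2⟩ := h
  have := D.norm_key_le h2
  omega

theorem Sh.G {D : RData Y Z} (hω : D.Gauge ω) {n : ℕ} {g : D.Pos} (h : D.Sh (2 * n) g)
    (ε : Bool) : (D.G ε g).norm ≤ ω (4 * n) := by
  refine (hω.θ_le ε _ (D.val_key_mem g)).trans (superadd_mono hω.superadd ?_)
  have := h.key
  omega

/-- Controlled states. -/
def Ctl (ω : ℕ → ℕ) (n : ℕ) (Q : D.Om O) : Prop :=
  D.Sh (2 * n) Q.1 ∧ O.Near (3 * ω (4 * n)) Q.2.1.1 ∧ ∀ q ∈ Q.2.1.2, O.Near (3 * ω (4 * n)) q.2

theorem pop_step (hω : D.Gauge ω) {n : ℕ} (hreg : Reg O (4 * ω (4 * n)))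
    (hθ : D.Hom (O.H false) (4 * n)) {Q : D.Om O} (hQ : D.Ctl O ω n Q) {v : FreeGroup Z}
    {s : FreeGroup Y} (hv : v.norm ≤ 2 * n) (hs : s.norm ≤ ω (2 * n))
    (hg : D.Sh (2 * n) (QuotientGroup.mk v * Q.1)) (hA : D.val v ∈ D.Ao) (ε : Bool)
    (hd : s * (D.θ (!ε) v)⁻¹ ∈ O.H false) :
    D.Te O ε (D.Psi O (v, s) (D.Te O (!ε) Q)) = D.Psi O (v, D.θ ε v) Q := by
  obtain ⟨h0, hx, hL⟩ := hQ
  have hle : ω (2 * n) ≤ ω (4 * n) := superadd_mono hω.superadd (by omega)
  have hθv : ∀ ε, (D.θ ε v).norm ≤ ω (2 * n) := fun ε =>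
    (hω.θ_le ε v hA).trans (superadd_mono hω.superadd hv)
  have hc : ∀ ε, D.θ ε v * D.G ε Q.1 * (D.G ε (QuotientGroup.mk v * Q.1))⁻¹ ∈ O.H false :=
    fun ε => D.cocycle hθ ε hA Q.1 (by omega) (by have := h0.key; omega) (by have := hg.key; omega)
  have hcn : ∀ ε, (D.θ ε v * D.G ε Q.1 * (D.G ε (QuotientGroup.mk v * Q.1))⁻¹).norm ≤
      4 * ω (4 * n) := fun ε => by
    have e1 := norm_mul3_le (D.θ ε v) (D.G ε Q.1) (D.G ε (QuotientGroup.mk v * Q.1))⁻¹
    rw [FreeGroup.norm_inv_eq] at e1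
    have e2 := hθv ε
    have e3 := h0.G hω ε
    have e4 := hg.G hω ε
    omega
  have hdn : (s * (D.θ (!ε) v)⁻¹).norm ≤ 4 * ω (4 * n) := by
    have e1 := FreeGroup.norm_mul_le s (D.θ (!ε) v)⁻¹
    rw [FreeGroup.norm_inv_eq] at e1
    have e2 := hθv (!ε)
    omega
  simp only [Te_apply, Psi_apply, Bool.not_not, (D.eta_eq_iff v Q.1).2 hA]
  congr 1
  set m := Wd.tog (D.eta Q.1) (!ε) ((D.G ε Q.1)⁻¹ • Q.2) with hm
  have hmn : O.Near (3 * ω (4 * n)) m.1.1 := Wd.near_tog _ _ hL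
  have h1 : (D.G (!ε) (QuotientGroup.mk v * Q.1))⁻¹ • s • D.G (!ε) Q.1 • m = m := by
    rw [inv_smul_eq_iff, ← mul_smul]
    refine Wd.smul_eq_of_top ?_
    have hy : O.Near (4 * ω (4 * n)) (D.G (!ε) (QuotientGroup.mk v * Q.1) • m.1.1) :=
      hmn.smul (by have := hg.G hω (!ε); omega)
    have e1 := hreg.fix (hc (!ε)) (hcn (!ε)) hy
    have e2 := hreg.fix hd hdn hy
    rw [← e2, ← e1]
    simp only [← mul_smul]
    congr 1
    group
  have h2 := Wd.tog_tog (D.eta Q.1) (!ε) ((D.G ε Q.1)⁻¹ • Q.2)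
  rw [Bool.not_not] at h2
  rw [h1, hm, h2, ← mul_smul]
  refine Wd.smul_eq_of_top ?_
  have hy : O.Near (4 * ω (4 * n)) (D.θ ε v • Q.2.1.1) := hx.smul (by have := hθv ε; omega)
  have e1 := hreg.fix (inv_mem (hc ε)) (by rw [FreeGroup.norm_inv_eq]; exact hcn ε) hy
  rw [← e1, ← mul_smul]
  congr 1
  group

theorem run_cons (x : Option Z × Bool) (w : Word (Option Z)) :
    D.run O (x :: w) = lazyStep D.y D.θ (fun v => @decide (D.val v ∈ D.Ao) (Classical.propDecidable _))
      (fun s => @decide (s ∈ O.H false) (Classical.propDecidable _)) x (D.run O w) := rfl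

/-- All levels below the top frame are controlled. -/
def Inv (ω : ℕ → ℕ) (n : ℕ) (X : D.Om O) : List (Bool × FreeGroup Z × FreeGroup Y) → Prop
  | [] => True
  | q :: st => D.Ctl O ω n (D.real O X st q.2.1 q.2.2) ∧ Inv ω n X st

theorem bne_iff (a b : Bool) : (a != b) = true ↔ a = !b := by cases a <;> cases b <;> simp

/-- LEMMA B. -/
theorem lemB (hω : D.Gauge ω) {n : ℕ} (hreg : Reg O (4 * ω (4 * n)))
    (hθ : D.Hom (O.H false) (4 * n)) (X : D.Om O) (w : Word (Option Z)) (hw : w.length ≤ 2 * n)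
    (hX : ∀ w', w' <:+ w → D.Ctl O ω n (D.act O (FreeGroup.mk w') X)) :
    D.act O (FreeGroup.mk w) X = D.real O X (D.run O w).2 (D.run O w).1.1 (D.run O w).1.2 ∧
      D.Inv O ω n X (D.run O w).2 := by
  induction w with
  | nil =>
    refine ⟨?_, trivial⟩
    show D.act O 1 X = D.Psi O (1, 1) X
    rw [map_one, Psi_one]; rfl
  | cons x w ih =>
    simp only [List.length_cons] at hw
    obtain ⟨ih1, ih2⟩ := ih (by omega) fun w' h => hX w' (h.trans (List.suffix_cons _ _))
    have hC := hX w (List.suffix_cons _ _)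
    have hb := (D.run_bd' O hω w).top hω.superadd
    rw [ih1] at hC
    rw [run_cons]
    obtain ⟨_ | z, ε⟩ := x
    · rw [act_cons_none, ih1]
      generalize D.run O w = σ at ih2 hC hb ⊢
      obtain ⟨⟨v, s⟩, st⟩ := σ
      cases st with
      | nil => exact ⟨(D.Psi_one O _).symm, hC, trivial⟩
      | cons q st =>
        obtain ⟨ε₀, v₀, s₀⟩ := q
        simp only [lazyStep]
        cases hc : ((ε₀ != ε) && @decide (D.val v ∈ D.Ao) (Classical.propDecidable _) &&
          @decide (s * (D.θ ε₀ v)⁻¹ ∈ O.H false) (Classical.propDecidable _))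
        · exact ⟨(D.Psi_one O _).symm, hC, ih2⟩
        · simp only [Bool.and_eq_true, decide_eq_true_eq, bne_iff] at hc
          obtain ⟨⟨rfl, hA⟩, hd⟩ := hc
          refine ⟨?_, ih2.2⟩
          simp only [cond_true, real_mul]
          refine D.pop_step O hω hreg hθ ih2.1 (hb.1.trans (by omega))
            (hb.2.trans (superadd_mono hω.superadd (by omega))) ?_ hA ε hd
          have := hC.1
          simpa only [real, Psi_apply, Te_apply] using this
    · rw [act_cons_some, ih1]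
      generalize D.run O w = σ at ih2 hC hb ⊢
      obtain ⟨⟨v, s⟩, st⟩ := σ
      exact ⟨(D.real_mul O _ _ _ _ _ _).symm, ih2⟩

/-- All unmatched letters really pushed. -/
def Push (X : D.Om O) : List (Bool × FreeGroup Z × FreeGroup Y) → Prop
  | [] => True
  | q :: st => ¬ Wd.Pops (D.eta (D.real O X st q.2.1 q.2.2).1) q.1
      ((D.G (!q.1) (D.real O X st q.2.1 q.2.2).1)⁻¹ • (D.real O X st q.2.1 q.2.2).2) ∧ Push X st

theorem real_cons_val {X : D.Om O} {q : Bool × FreeGroup Z × FreeGroup Y}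
    {st : List (Bool × FreeGroup Z × FreeGroup Y)} (h : D.Push O X (q :: st)) (v : FreeGroup Z)
    (s : FreeGroup Y) :
    (D.real O X (q :: st) v s).2.1 =
      (O.pt false (s * D.G q.1 (D.real O X st q.2.1 q.2.2).1),
        ((D.eta (D.real O X st q.2.1 q.2.2).1, q.1),
          (D.G (!q.1) (D.real O X st q.2.1 q.2.2).1)⁻¹ • (D.real O X st q.2.1 q.2.2).2.1.1) ::
          (D.real O X st q.2.1 q.2.2).2.1.2) := by
  simp only [real, Psi_apply, Te_apply, Wd.smul_val, Wd.tog_push h.1, Obj.smul_pt, mul_one]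

theorem real_fst_cons (X : D.Om O) (q : Bool × FreeGroup Z × FreeGroup Y)
    (st : List (Bool × FreeGroup Z × FreeGroup Y)) (v : FreeGroup Z) (s : FreeGroup Y) :
    (D.real O X (q :: st) v s).1 = QuotientGroup.mk v * (D.real O X st q.2.1 q.2.2).1 := by
  simp only [real, Psi_apply, Te_apply]

theorem Sh.mono {D : RData Y Z} {N N' : ℕ} {g : D.Pos} (h : D.Sh N g) (hN : N ≤ N') :
    D.Sh N' g := by
  obtain ⟨r, h1, h2⟩ := h
  exact ⟨r, h1.trans hN, h2⟩

theorem real_ctl (hω : D.Gauge ω) {n : ℕ} (i : Bool)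
    (st : List (Bool × FreeGroup Z × FreeGroup Y)) :
    ∀ (k : ℕ) (v : FreeGroup Z) (s : FreeGroup Y), k ≤ 2 * n → Bd ω st k v s →
      D.Push O (D.base O i) st →
      D.Sh k (D.real O (D.base O i) st v s).1 ∧
        O.Near (2 * ω (4 * n)) (D.real O (D.base O i) st v s).2.1.1 ∧
        ∀ q ∈ (D.real O (D.base O i) st v s).2.1.2, O.Near (3 * ω (4 * n)) q.2 := by
  induction st with
  | nil =>
    intro k v s hk hb _
    have e : ω k ≤ ω (4 * n) := superadd_mono hω.superadd (by omega)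
    refine ⟨⟨v, hb.1, (mul_one _).symm⟩, (Obj.near_base i 0).smul ?_, ?_⟩
    · have := hb.2
      show s.norm + 0 ≤ _
      omega
    · intro q hq; cases hq
  | cons q st ih =>
    intro k v s hk hb hp
    obtain ⟨a, b, h1, h2, h3, h4⟩ := hb
    obtain ⟨⟨r, i1, i1'⟩, i2, i3⟩ := ih b _ _ (by omega) h4 hp.2
    have hsh : D.Sh (2 * n) (D.real O (D.base O i) st q.2.1 q.2.2).1 := ⟨r, by omega, i1'⟩
    have e : ω a ≤ ω (4 * n) := superadd_mono hω.superadd (by omega)
    rw [D.real_cons_val O hp, real_fst_cons]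
    refine ⟨⟨v * r, ?_, by rw [QuotientGroup.mk_mul, i1']⟩, ⟨false, _, ?_, rfl⟩, ?_⟩
    · have := FreeGroup.norm_mul_le v r; omega
    · have e1 := FreeGroup.norm_mul_le s (D.G q.1 (D.real O (D.base O i) st q.2.1 q.2.2).1)
      have e2 := hsh.G hω q.1
      omega
    · intro q' hq'
      rcases List.mem_cons.1 hq' with rfl | hq'
      · refine i2.smul ?_
        rw [FreeGroup.norm_inv_eq]
        have e2 := hsh.G hω (!q.1)
        omega
      · exact i3 q' hq'

theorem real_ctl' (hω : D.Gauge ω) {n : ℕ} (i : Bool)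
    {st : List (Bool × FreeGroup Z × FreeGroup Y)} {k : ℕ} {v : FreeGroup Z} {s : FreeGroup Y}
    (hk : k ≤ 2 * n) (hb : Bd ω st k v s) (hp : D.Push O (D.base O i) st) :
    D.Ctl O ω n (D.real O (D.base O i) st v s) := by
  obtain ⟨h1, h2, h3⟩ := D.real_ctl O hω i st k v s hk hb hp
  exact ⟨h1.mono hk, h2.mono (by omega), h3⟩

/-- LEMMA A. -/
theorem lemA (hω : D.Gauge ω) {n : ℕ} (hreg : Reg O (4 * ω (4 * n)))
    (hθ : D.Hom (O.H false) (4 * n)) (i : Bool) (w : Word (Option Z)) (hw : w.length ≤ 2 * n) :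
    D.act O (FreeGroup.mk w) (D.base O i) =
        D.real O (D.base O i) (D.run O w).2 (D.run O w).1.1 (D.run O w).1.2 ∧
      D.Push O (D.base O i) (D.run O w).2 := by
  induction w with
  | nil =>
    refine ⟨?_, trivial⟩
    show D.act O 1 _ = D.Psi O (1, 1) _
    rw [map_one, Psi_one]; rfl
  | cons x w ih =>
    simp only [List.length_cons] at hw
    obtain ⟨ih1, ih2⟩ := ih (by omega)
    have hb := D.run_bd' O hω w
    have hC := D.real_ctl' O hω i (n := n) (by omega) hb ih2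
    have hb' := hb.top hω.superadd
    rw [run_cons]
    obtain ⟨_ | z, ε⟩ := x
    · rw [act_cons_none, ih1]
      generalize D.run O w = σ at ih2 hC hb hb' ⊢
      obtain ⟨⟨v, s⟩, st⟩ := σ
      cases st with
      | nil =>
        refine ⟨(D.Psi_one O _).symm, ?_, trivial⟩
        rintro ⟨-, x, L, h⟩
        cases h
      | cons q st =>
        obtain ⟨ε₀, v₀, s₀⟩ := q
        obtain ⟨a, b, h1, h2, h3, h4⟩ := hb
        have hC0 := D.real_ctl' O hω i (n := n) (by omega) h4 ih2.2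
        have hg := hC.1
        rw [real_fst_cons] at hg
        dsimp only at hg hC0 hb' h2 h3 h4 ih2
        simp only [lazyStep]
        cases hc : ((ε₀ != ε) && @decide (D.val v ∈ D.Ao) (Classical.propDecidable _) &&
          @decide (s * (D.θ ε₀ v)⁻¹ ∈ O.H false) (Classical.propDecidable _))
        · refine ⟨(D.Psi_one O _).symm, ?_, ih2⟩
          rintro ⟨p1, x, L, p2⟩
          rw [Wd.smul_val, D.real_cons_val O ih2, real_fst_cons] at p1 p2
          simp only [List.cons.injEq, Prod.mk.injEq] at p2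
          obtain ⟨⟨⟨p2, rfl⟩, -⟩, -⟩ := p2
          have hA := (D.eta_eq_iff v _).1 p2.symm
          simp only [Obj.smul_pt, Obj.pt_eq, true_and, mul_one, inv_mem_iff] at p1
          have hcoc := D.cocycle hθ (!ε) hA (D.real O (D.base O i) st v₀ s₀).1
            (by have := hb'.1; omega)
            (by have := hC0.1.key; omega) (by have := hg.key; omega)
          have e1 := hC0.1.G hω (!ε)
          have e2 := hg.G hω (!ε)
          have e3 : ω a ≤ ω (4 * n) := superadd_mono hω.superadd (by omega)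
          have hconj := hreg _ p1 (by
            rw [← mul_assoc]
            refine (norm_mul3_le _ _ _).trans ?_
            rw [FreeGroup.norm_inv_eq]
            omega) false _ (by rw [FreeGroup.norm_inv_eq]; exact e2.trans (by omega))
          have hd : s * (D.θ (!ε) v)⁻¹ ∈ O.H false := by
            have := mul_mem hconj (inv_mem hcoc)
            convert this using 1
            group
          simp [hA, hd] at hc
        · simp only [Bool.and_eq_true, decide_eq_true_eq, bne_iff] at hc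
          obtain ⟨⟨rfl, hA⟩, hd⟩ := hc
          refine ⟨?_, ih2.2⟩
          simp only [cond_true, real_mul]
          exact D.pop_step O hω hreg hθ hC0 (hb'.1.trans (by omega))
            (hb'.2.trans (superadd_mono hω.superadd (by omega))) hg hA ε hd
    · rw [act_cons_some, ih1]
      generalize D.run O w = σ at ih2 hC hb hb' ⊢
      obtain ⟨⟨v, s⟩, st⟩ := σ
      exact ⟨(D.real_mul O _ _ _ _ _ _).symm, ih2⟩

theorem crit (hω : D.Gauge ω) {n : ℕ} (hreg : Reg O (4 * ω (4 * n)))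
    (hθ : D.Hom (O.H false) (4 * n)) (i : Bool) (w : Word (Option Z)) (hw : w.length ≤ n) :
    FreeGroup.mk w ∈ (D.R O).H i ↔
      (D.run O w).2 = [] ∧ D.val (D.run O w).1.1 = 1 ∧ (D.run O w).1.2 ∈ O.H i := by
  obtain ⟨h1, h2⟩ := D.lemA O hω hreg hθ i w (by omega)
  rw [mem_R, h1]
  generalize D.run O w = σ at h2 ⊢
  obtain ⟨⟨v, s⟩, st⟩ := σ
  cases st with
  | nil => simp only [real, Psi_base, true_and]
  | cons q st =>
    simp only [reduceCtorEq, false_and, iff_false]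
    intro h
    have := D.real_cons_val O h2 v s
    rw [h] at this
    cases (Prod.ext_iff.1 this).2

theorem reg (hω : D.Gauge ω) {n : ℕ} (hreg : Reg O (4 * ω (4 * n)))
    (hθ : D.Hom (O.H false) (4 * n)) : Reg (D.R O) n := by
  intro w hw h1 i u h2
  have hctl : ∀ W : Word (Option Z), W.length ≤ 2 * n →
      D.Ctl O ω n (D.act O (FreeGroup.mk W) (D.base O i)) := fun W hW => by
    obtain ⟨e1, e2⟩ := D.lemA O hω hreg hθ i W hW
    rw [e1]
    exact D.real_ctl' O hω i hW (D.run_bd' O hω W) e2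
  have h1' : w.toWord.length ≤ n := h1
  have h2' : u.toWord.length ≤ n := h2
  rw [← FreeGroup.mk_toWord (x := w), D.crit O hω hreg hθ false _ h1'] at hw
  obtain ⟨c1, c2, c3⟩ := hw
  have hB := (D.lemB O hω hreg hθ (D.act O u (D.base O i)) w.toWord (by omega) fun w' hw' => by
    rw [← Equiv.Perm.mul_apply, ← map_mul, ← FreeGroup.mk_toWord (x := u), FreeGroup.mul_mk]
    refine hctl _ ?_
    have := hw'.length_le
    rw [List.length_append]; omega).1
  have hX := hctl u.toWord (by omega)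
  rw [FreeGroup.mk_toWord] at hB hX
  have hb := (D.run_bd' O hω w.toWord).top hω.superadd
  rw [c1, real, Psi_apply, (D.mk_eq_one_iff _).2 c2, one_mul,
    Wd.smul_eq_self (hreg.fix c3 ?_ (hX.2.1.mono (by omega)))] at hB
  · rw [mem_R, map_mul, map_mul, map_inv, Equiv.Perm.mul_apply, Equiv.Perm.mul_apply, hB]
    simp
  · have : ω w.toWord.length ≤ ω (4 * n) := superadd_mono hω.superadd (by omega)
    have := hb.2
    omega

theorem isTrue (hω : D.Gauge ω) (hO : O.IsTrue) (hθ : ∀ m, D.Hom (O.H false) m) :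
    (D.R O).IsTrue :=
  isTrue_iff_reg.2 fun _ => D.reg O hω (isTrue_iff_reg.1 hO _) (hθ _)

end RData

end Crest.Agent.R185
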