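import Crest.Agent.R185.RDefs

/-!
# Row 185: exact identities in the `R`-layer (task R185-RModel)

PLAN.  Unfold.  `act_mv`: both sides are homomorphisms agreeing on generators.  `Tp_Psi`: at position `h`,
`eta (g h) = eta h` (as `val g ∈ A₀`), and `θ ε g * G ε h * (G ε (g h))⁻¹ ∈ core` acts trivially on all stacks (an element of `core` fixes
the top point), in either order since `core` is normal.
-/

set_option autoImplicit false
set_option linter.unusedSectionVars false

namespace Crest.Agent.R185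

theorem Wd.smul_val {Y T : Type} {O : Obj Y} (u : FreeGroup Y) (p : Wd O T) :
    (u • p).1 = (u • p.1.1, p.1.2) := rfl

theorem Wd.smul_eq_of_top {Y T : Type} {O : Obj Y} {u u' : FreeGroup Y} {p : Wd O T}
    (h : u • p.1.1 = u' • p.1.1) : u • p = u' • p :=
  Subtype.ext (Prod.ext h rfl)

theorem Wd.smul_eq_self {Y T : Type} {O : Obj Y} {u : FreeGroup Y} {p : Wd O T}
    (h : u • p.1.1 = p.1.1) : u • p = p :=
  Subtype.ext (Prod.ext h rfl)

namespace RData

variable {Y Z : Type} [DecidableEq Z] (D : RData Y Z) (O : Obj Y)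

theorem mem_R (i : Bool) (g : FreeGroup (Option Z)) :
    g ∈ (D.R O).H i ↔ D.act O g (D.base O i) = D.base O i := Iff.rfl

theorem act_tt : D.act O tt = D.Tp O := by simp [act, tt]

omit [DecidableEq Z] in
theorem Psi_apply (g : FreeGroup Z) (u : FreeGroup Y) (Q : D.Om O) :
    D.Psi O (g, u) Q = ((QuotientGroup.mk g : D.Pos) * Q.1, u • Q.2) := rfl

theorem Tp_apply (Q : D.Om O) :
    D.Tp O Q = (Q.1, D.G true Q.1 • Wd.tog (D.eta Q.1) true ((D.G false Q.1)⁻¹ • Q.2)) := rfl

theorem Tp_inv_apply (Q : D.Om O) :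
    (D.Tp O)⁻¹ Q = (Q.1, D.G false Q.1 • Wd.tog (D.eta Q.1) false ((D.G true Q.1)⁻¹ • Q.2)) := by
  rw [Equiv.Perm.inv_eq_iff_eq, Tp_apply]
  have := Wd.tog_tog (D.eta Q.1) false ((D.G true Q.1)⁻¹ • Q.2)
  simp only [Bool.not_false] at this
  simp only [inv_smul_smul, this, smul_inv_smul]

theorem act_mv (g : FreeGroup Z) : D.act O (mv g) = D.Psi O (g, D.yval g) := by
  have : (D.act O).comp mv = (D.Psi O).comp ((MonoidHom.id _).prod D.yval) := by
    refine FreeGroup.ext_hom _ _ fun z => ?_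
    simp [act, mv, yval]
  exact DFunLike.congr_fun this g

omit [DecidableEq Z] in
theorem mk_eq_iff (a b : FreeGroup Z) :
    (QuotientGroup.mk a : D.Pos) = QuotientGroup.mk b ↔ D.val a = D.val b := by
  rw [QuotientGroup.eq, MonoidHom.mem_ker, map_mul, map_inv, inv_mul_eq_one]

omit [DecidableEq Z] in
theorem mk_eq_one_iff (a : FreeGroup Z) : (QuotientGroup.mk a : D.Pos) = 1 ↔ D.val a = 1 := by
  rw [QuotientGroup.eq_one_iff, MonoidHom.mem_ker]

theorem Psi_base (g : FreeGroup Z) (u : FreeGroup Y) (i : Bool) :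
    D.Psi O (g, u) (D.base O i) = D.base O i ↔ D.val g = 1 ∧ u ∈ O.H i := by
  rw [Psi_apply, Prod.ext_iff]
  refine and_congr ?_ ?_
  · simp only [base, mul_one, mk_eq_one_iff]
  · refine Subtype.ext_iff.trans ?_
    show (u • O.pt i 1, _) = (O.pt i 1, _) ↔ _
    simp only [base, Prod.mk.injEq, and_true, Obj.smul_pt, Obj.pt_eq, true_and, mul_one,
      inv_mem_iff]

theorem Psi_eq_one {g : FreeGroup Z} {u : FreeGroup Y} (hg : D.val g = 1) (hu : u ∈ O.core) :
    D.Psi O (g, u) = 1 := by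
  ext1 Q
  rw [Psi_apply, (D.mk_eq_one_iff g).2 hg, one_mul, Wd.smul_eq_self (O.mem_core.1 hu _)]
  rfl

theorem mk_rep (g : D.Pos) : (QuotientGroup.mk (D.rep g) : D.Pos) = g := (D.exists_rep g).choose_spec.1

theorem norm_rep_le {g : D.Pos} {w : FreeGroup Z} (h : (QuotientGroup.mk w : D.Pos) = g) :
    (D.rep g).norm ≤ w.norm := (D.exists_rep g).choose_spec.2 w h

theorem mk_repL (η : D.Let) : (QuotientGroup.mk (D.repL η) : D.Let) = η :=
  (D.exists_repL η).choose_spec.1

theorem norm_repL_le {η : D.Let} {w : FreeGroup Z} (h : (QuotientGroup.mk w : D.Let) = η) :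
    (D.repL η).norm ≤ w.norm := (D.exists_repL η).choose_spec.2 w h

theorem val_rep_mul (v : FreeGroup Z) (g : D.Pos) :
    D.val (D.rep (QuotientGroup.mk v * g)) = D.val v * D.val (D.rep g) := by
  rw [← map_mul, ← mk_eq_iff, mk_rep, QuotientGroup.mk_mul, mk_rep]

theorem eta_eq_iff (v : FreeGroup Z) (g : D.Pos) :
    D.eta (QuotientGroup.mk v * g) = D.eta g ↔ D.val v ∈ D.Ao := by
  rw [eta, eta, QuotientGroup.eq, Subgroup.mem_comap, inv_inv, map_mul, map_inv, val_rep_mul,
    mul_inv_cancel_right]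

theorem val_key_mem (g : D.Pos) : D.val (D.rep g * D.repL (D.eta g)) ∈ D.Ao := by
  have h := D.mk_repL (D.eta g)
  rw [eq_comm] at h
  conv_lhs at h => rw [eta]
  rw [QuotientGroup.eq, Subgroup.mem_comap, inv_inv] at h
  exact h

theorem norm_key_le {g : D.Pos} {w : FreeGroup Z} (h : (QuotientGroup.mk w : D.Pos) = g) :
    (D.rep g * D.repL (D.eta g)).norm ≤ 2 * w.norm := by
  have h1 := D.norm_rep_le h
  have h2 : (D.repL (D.eta g)).norm ≤ ((D.rep g)⁻¹).norm := D.norm_repL_le rfl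
  rw [FreeGroup.norm_inv_eq] at h2
  have := FreeGroup.norm_mul_le (D.rep g) (D.repL (D.eta g))
  omega

/-- The cocycle identity modulo `N`. -/
theorem cocycle {N : Subgroup (FreeGroup Y)} {m : ℕ} (h : D.Hom N m) (ε : Bool) {v : FreeGroup Z}
    (hv : D.val v ∈ D.Ao) (g : D.Pos) (h1 : v.norm ≤ m)
    (h2 : (D.rep g * D.repL (D.eta g)).norm ≤ m)
    (h3 : (D.rep (QuotientGroup.mk v * g) * D.repL (D.eta (QuotientGroup.mk v * g))).norm ≤ m) :
    D.θ ε v * D.G ε g * (D.G ε (QuotientGroup.mk v * g))⁻¹ ∈ N := by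
  refine h ε _ _ _ h1 h2 h3 hv (D.val_key_mem g) ?_
  rw [(D.eta_eq_iff v g).2 hv, map_mul, map_mul, val_rep_mul, mul_assoc]

theorem Tp_Psi (h : ∀ m, D.Hom O.core m) {g : FreeGroup Z} (hg : D.val g ∈ D.Ao) :
    D.Tp O * D.Psi O (g, D.θ false g) = D.Psi O (g, D.θ true g) * D.Tp O := by
  ext1 Q
  have hc : ∀ ε, D.θ ε g * D.G ε Q.1 * (D.G ε (QuotientGroup.mk g * Q.1))⁻¹ ∈ O.core := fun ε =>
    D.cocycle (h (g.norm + (D.rep Q.1 * D.repL (D.eta Q.1)).norm +
      (D.rep (QuotientGroup.mk g * Q.1) * D.repL (D.eta (QuotientGroup.mk g * Q.1))).norm)) ε hg Q.1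
      (by omega) (by omega) (by omega)
  have key : ∀ ε (p : Wd O D.Let),
      D.θ ε g • D.G ε Q.1 • p = D.G ε (QuotientGroup.mk g * Q.1) • p := by
    intro ε p
    have := Wd.smul_eq_self (O.mem_core.1 (hc ε) (D.G ε (QuotientGroup.mk g * Q.1) • p).1.1)
    rw [← this]
    simp only [← mul_smul, inv_mul_cancel_right]
  simp only [Equiv.Perm.mul_apply, Psi_apply, Tp_apply, (D.eta_eq_iff g Q.1).2 hg, key]
  congr 3
  rw [inv_smul_eq_iff, ← key, smul_inv_smul]

theorem mv_mem (g : FreeGroup Z) (i : Bool) :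
    mv g ∈ (D.R O).H i ↔ D.val g = 1 ∧ D.yval g ∈ O.H i := by
  rw [mem_R, act_mv, Psi_base]

/-- Elements acting trivially lie in the core. -/
theorem mem_core_of_act {g : FreeGroup (Option Z)} (h : D.act O g = 1) : g ∈ (D.R O).core := by
  rw [Obj.mem_core']
  intro i u
  rw [mem_R, map_mul, map_mul, h, mul_one, ← map_mul, inv_mul_cancel, map_one]
  rfl

/-- Elements with the same action translate points in the same way. -/
theorem pt_eq_iff (i : Bool) (g g' : FreeGroup (Option Z)) :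
    (D.R O).pt i g = (D.R O).pt i g' ↔ D.act O g (D.base O i) = D.act O g' (D.base O i) := by
  rw [Obj.pt_eq, mem_R, map_mul, map_inv, Equiv.Perm.mul_apply, Equiv.Perm.inv_eq_iff_eq]
  simp only [true_and]
  exact eq_comm

end RData

end Crest.Agent.R185
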