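import Crest.Agent.R185.SD

/-!
# Row 185: rule systems (Britton-type normal forms) (task R185-RS)

`B = F(Ω) ⋊ V`, `Ω = ⊔_j V/U_j`, `ℓ_j = ω_j μ_j`, `ρ_j = d_j ℓ_j a_j⁻¹`.

PLAN.  `ret : B → F(I)` forgets cosets; `ret (ρ f) = f = ret (ℓ f)`; `FreeGroup.map` does not increase `norm`.  For `x ∈ B` put `RΩ x = x.right⁻¹ • x.left` (`= (x⁻¹).left⁻¹`; same norm as `x.left`),
`RΩ (x y) = y.right⁻¹ • RΩ x * RΩ y`.  For a reduced word `f`, `RΩ (ρ f * inr v)` and `RΩ (ℓ f)` are given by words of length `|f|` with types `f`, hence reduced (their image in `F(I)` is reduced of the same length).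
The last letter of `RΩ (ρ_j^ε v)` is `((μ a⁻¹ v)⁻¹ U_j, +)` resp. `((d⁻¹ v)⁻¹ U_j, -)`, the letter of `RΩ (ℓ_j^ε)` is `(μ⁻¹ U_j, +)` resp. `(U_j, -)`: equal iff the step is valid at `v`.
KEY: if `ρ f * inr v = inr v' * ℓ f` (or merely `RΩ (ρ f v) = RΩ (ℓ f)`) and `f` is reduced, ending in `s`, then `s` is valid at `v` (compare last letters).  This gives `comp_ind` (induct on the length of `f`).
`min_norm`: no cancellation at the junction of `ρ f v` and `ℓ g` (a cancellation means `s` valid at `v`).  `min_unique`, `dichotomy`: compare suffixes of the reduced words `RΩ x`, `RΩ (β x)`, which share a common suffix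
containing all but `≤ |β.left|` initial letters of each.  If the common suffix is longer than both `|g|`, `|g'|` then `g = g'` (otherwise the key fact contradicts minimality) and the next letters are equal, giving `st v = st v'`; otherwise
both `|g|, |g'| ≥` its length (same reason).
-/

set_option autoImplicit false

namespace Crest.Agent.R185

open SemidirectProduct

structure RS (I : Type) where
  V : Type
  [grp : Group V]
  U : I → Subgroup V
  μ : I → V
  a : I → V
  d : I → V

attribute [instance] RS.grp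

namespace RS

variable {I : Type} (S : RS I)

def Om : Type := Σ j : I, S.V ⧸ S.U j

instance : MulAction S.V S.Om := inferInstanceAs (MulAction S.V (Σ j : I, S.V ⧸ S.U j))

abbrev B : Type := SD S.V S.Om

def om (j : I) : S.Om := ⟨j, QuotientGroup.mk 1⟩
def ell (j : I) : S.B := SD.letter (some (S.om j)) (S.μ j)
def rho (j : I) : S.B := inr (S.d j) * S.ell j * (inr (S.a j))⁻¹
def ρ : FreeGroup I →* S.B := FreeGroup.lift S.rho
def ℓ : FreeGroup I →* S.B := FreeGroup.lift S.ell

def ret : S.B →* FreeGroup I :=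
  SemidirectProduct.lift (FreeGroup.map Sigma.fst) 1 fun v => by ext x; simp [permAut]; rfl

/-- The signed rule `s` is valid at `v` with result `v'`. -/
def Step (s : I × Bool) (v v' : S.V) : Prop :=
  S.ρ (FreeGroup.mk [s]) * inr v = inr v' * S.ℓ (FreeGroup.mk [s])

def Comp : Set S.V := {v | ∃ f, S.ρ f = inr v * S.ℓ f}
def D : Set S.B := {x | ∃ f g, x = S.ρ f * S.ℓ g}

/-- Minimal decomposition. -/
def Min [DecidableEq I] (x : S.B) (f : FreeGroup I) (v : S.V) (g : FreeGroup I) : Prop :=
  v ∈ S.Comp ∧ x = S.ρ f * inr v * S.ℓ g ∧ ∀ s ∈ f.toWord.getLast?, ∀ v', ¬ S.Step s v v'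

section aux

theorem mk_single_inj {α : Type} {a b : α × Bool} :
    FreeGroup.mk [a] = FreeGroup.mk [b] ↔ a = b := by
  classical
  refine ⟨fun h => ?_, fun h => by rw [h]⟩
  have := FreeGroup.reduce.sound h
  simpa [FreeGroup.reduce_singleton] using this

theorem mk_cons' {α : Type} (a : α × Bool) (L : List (α × Bool)) :
    FreeGroup.mk (a :: L) = FreeGroup.mk [a] * FreeGroup.mk L := by
  rw [FreeGroup.mul_mk]; rfl

theorem mk_neg {α : Type} (j : α) : FreeGroup.mk [(j, false)] = (FreeGroup.of j)⁻¹ := rfl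

theorem mk_pos {α : Type} (j : α) : FreeGroup.mk [(j, true)] = FreeGroup.of j := rfl

theorem suffix_eq {α : Type} {C a a' D E : List α} (h1 : C <:+ a) (h2 : C <:+ a') (h3 : D <:+ a)
    (h4 : E <:+ a') (h5 : D.length = E.length) (h6 : D.length ≤ C.length) : D = E :=
  (List.suffix_of_suffix_length_le ((List.suffix_of_suffix_length_le h3 h1 h6).trans h2) h4
    h5.le).eq_of_length h5

theorem exists_split {α : Type} (l : List α) {n : ℕ} (h : n ≤ l.length) :
    ∃ M G : List α, l = M ++ G ∧ G.length = n :=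
  ⟨l.take (l.length - n), l.drop (l.length - n), (List.take_append_drop _ _).symm, by
    rw [List.length_drop]; omega⟩

theorem exists_split' {α : Type} (l : List α) {n : ℕ} (h : n < l.length) :
    ∃ (M : List α) (t : α) (G : List α), l = M ++ t :: G ∧ G.length = n := by
  obtain ⟨M, G, e, hG⟩ := exists_split l (n := n + 1) h
  cases G with
  | nil => simp at hG
  | cons t G => exact ⟨M, t, G, e, by simpa using hG⟩

theorem exists_common_suffix {α : Type} [DecidableEq α] (b : List (α × Bool))
    {a : List (α × Bool)} (ha : FreeGroup.IsReduced a) :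
    ∃ a₁ b₁ C : List (α × Bool), a = a₁ ++ C ∧ FreeGroup.reduce (b ++ a) = b₁ ++ C ∧
      a₁.length ≤ b.length ∧ b₁.length ≤ b.length := by
  induction b with
  | nil => exact ⟨[], [], a, rfl, ha.reduce_eq, le_rfl, le_rfl⟩
  | cons y b ih =>
    obtain ⟨a₁, b₁, C, e1, e2, h1, h2⟩ := ih
    rw [List.cons_append, FreeGroup.reduce.cons, e2]
    cases b₁ with
    | nil =>
      cases C with
      | nil => exact ⟨a₁, [y], [], e1, rfl, by simp; omega, by simp⟩
      | cons hd C =>
        by_cases h : y.1 = hd.1 ∧ y.2 = !hd.2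
        · exact ⟨a₁ ++ [hd], [], C, by simp [e1], by simp [h], by simp; omega, by simp⟩
        · exact ⟨a₁, [y], hd :: C, e1, by simp only [List.nil_append, if_neg h]; rfl,
            by simp; omega, by simp⟩
    | cons hd b₁ =>
      by_cases h : y.1 = hd.1 ∧ y.2 = !hd.2
      · exact ⟨a₁, b₁, C, e1, by simp [h], by simp; omega, by simp at h2 ⊢; omega⟩
      · exact ⟨a₁, y :: hd :: b₁, C, e1, by simp only [List.cons_append, if_neg h],
          by simp; omega, by simp at h2 ⊢; omega⟩

/-- right-normalised free part. -/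
def RO (x : S.B) : FreeGroup S.Om := permAut S.V S.Om x.right⁻¹ x.left

/-- action on signed letters. -/
def act (v : S.V) (y : S.Om × Bool) : S.Om × Bool := (v • y.1, y.2)

/-- type of a signed letter. -/
def ty (y : S.Om × Bool) : I × Bool := (y.1.1, y.2)

theorem ty_act (v : S.V) (y : S.Om × Bool) : S.ty (S.act v y) = S.ty y := rfl

theorem act_act (u v : S.V) (y : S.Om × Bool) : S.act u (S.act v y) = S.act (u * v) y := by
  simp only [act, smul_smul]

theorem act_one (y : S.Om × Bool) : S.act 1 y = y := by simp only [act, one_smul]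

theorem act_inj (u : S.V) {y z : S.Om × Bool} (h : S.act u y = S.act u z) : y = z := by
  rw [← S.act_one y, ← S.act_one z, ← inv_mul_cancel u, ← S.act_act, ← S.act_act, h]

theorem perm_mk (v : S.V) (L : List (S.Om × Bool)) :
    permAut S.V S.Om v (FreeGroup.mk L) = FreeGroup.mk (L.map (S.act v)) :=
  FreeGroup.map.mk

theorem perm_of (v : S.V) (o : S.Om) :
    permAut S.V S.Om v (FreeGroup.of o) = FreeGroup.of (v • o) := FreeGroup.map.of

theorem RO_mul (x y : S.B) : S.RO (x * y) = permAut S.V S.Om y.right⁻¹ (S.RO x) * S.RO y := by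
  simp only [RO, mul_left, mul_right, map_mul, mul_inv_rev, MulAut.mul_apply, map_inv,
    MulAut.inv_apply_self]

theorem RO_inr (v : S.V) : S.RO (inr v) = 1 := by simp [RO]

theorem RO_one : S.RO 1 = 1 := by simp [RO]

theorem ext_RO {x y : S.B} : x = y ↔ S.RO x = S.RO y ∧ x.right = y.right := by
  refine ⟨fun h => by rw [h]; exact ⟨rfl, rfl⟩, fun ⟨h1, h2⟩ => SemidirectProduct.ext ?_ h2⟩
  rw [RO, RO, h2] at h1
  exact (permAut S.V S.Om y.right⁻¹).injective h1

theorem smul_om_eq (j : I) (u v : S.V) : u • S.om j = v • S.om j ↔ u⁻¹ * v ∈ S.U j := by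
  have e : ∀ u : S.V, u • S.om j = (⟨j, QuotientGroup.mk u⟩ : Σ j : I, S.V ⧸ S.U j) := by
    intro u
    have : u • (QuotientGroup.mk 1 : S.V ⧸ S.U j) = QuotientGroup.mk u := by
      rw [MulAction.Quotient.smul_mk, smul_eq_mul, mul_one]
    exact congrArg (fun q => (⟨j, q⟩ : Σ j : I, S.V ⧸ S.U j)) this
  rw [e, e, ← QuotientGroup.eq]
  exact ⟨fun h => eq_of_heq (Sigma.mk.inj h).2, fun h => by rw [h]⟩

/-- the letter of `ℓ_s`. -/
def ll (s : I × Bool) : S.Om × Bool := ((cond s.2 (S.μ s.1)⁻¹ 1) • S.om s.1, s.2)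

/-- the letter of `ρ_s`. -/
def lr (s : I × Bool) : S.Om × Bool := ((cond s.2 (S.a s.1 * (S.μ s.1)⁻¹) (S.d s.1)) • S.om s.1, s.2)

theorem ty_ll (s : I × Bool) : S.ty (S.ll s) = s := rfl

theorem ty_lr (s : I × Bool) : S.ty (S.lr s) = s := rfl

theorem left_ell (j : I) : (S.ell j).left = FreeGroup.of (S.om j) := by simp [ell, SD.letter]

theorem right_ell (j : I) : (S.ell j).right = S.μ j := by simp [ell, SD.letter]

theorem RO_ell (j : I) : S.RO (S.ell j) = FreeGroup.of ((S.μ j)⁻¹ • S.om j) := by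
  rw [RO, left_ell, right_ell, perm_of]

theorem RO_inv (x : S.B) : S.RO x⁻¹ = x.left⁻¹ := by
  simp [RO]

theorem right_ℓ_pos (j : I) : (S.ℓ (FreeGroup.mk [(j, true)])).right = S.μ j := by
  rw [mk_pos, ℓ, FreeGroup.lift_apply_of, right_ell]

theorem right_ℓ_neg (j : I) : (S.ℓ (FreeGroup.mk [(j, false)])).right = (S.μ j)⁻¹ := by
  rw [mk_neg, map_inv, ℓ, FreeGroup.lift_apply_of, inv_right, right_ell]

theorem right_ρ_pos (j : I) :
    (S.ρ (FreeGroup.mk [(j, true)])).right = S.d j * S.μ j * (S.a j)⁻¹ := by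
  rw [mk_pos, ρ, FreeGroup.lift_apply_of, rho, mul_right, mul_right, right_ell, inv_right,
    right_inr, right_inr]

theorem RO_ℓ (s : I × Bool) : S.RO (S.ℓ (FreeGroup.mk [s])) = FreeGroup.mk [S.ll s] := by
  obtain ⟨j, ε⟩ := s
  cases ε
  · rw [mk_neg, map_inv, ℓ, FreeGroup.lift_apply_of, RO_inv, left_ell]
    simp only [ll, cond_false, one_smul]
    rfl
  · rw [mk_pos, ℓ, FreeGroup.lift_apply_of, RO_ell]
    rfl

theorem RO_ρ (s : I × Bool) : S.RO (S.ρ (FreeGroup.mk [s])) = FreeGroup.mk [S.lr s] := by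
  obtain ⟨j, ε⟩ := s
  cases ε
  · rw [mk_neg, map_inv, ρ, FreeGroup.lift_apply_of, RO_inv, rho, ← map_inv]
    simp only [mul_left, left_inr, right_inr, map_one, mul_one, one_mul, left_ell, perm_of]
    rfl
  · rw [mk_pos, ρ, FreeGroup.lift_apply_of, rho, ← map_inv, RO_mul, RO_mul, RO_inr, RO_inr,
      map_one, one_mul, mul_one, RO_ell, right_inr, inv_inv, perm_of, smul_smul]
    rfl

/-- the word of `RO (θ L)`. -/
def wd (θ : FreeGroup I →* S.B) (c : I × Bool → S.Om × Bool) :
    List (I × Bool) → List (S.Om × Bool)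
  | [] => []
  | s :: L => S.act (θ (FreeGroup.mk L)).right⁻¹ (c s) :: wd θ c L

variable {S}

theorem wd_append (θ : FreeGroup I →* S.B) (c : I × Bool → S.Om × Bool) (L M : List (I × Bool)) :
    S.wd θ c (L ++ M) = (S.wd θ c L).map (S.act (θ (FreeGroup.mk M)).right⁻¹) ++ S.wd θ c M := by
  induction L with
  | nil => rfl
  | cons s L ih =>
    rw [List.cons_append, wd, wd, ih, List.map_cons, List.cons_append, act_act,
      ← FreeGroup.mul_mk, map_mul, mul_right, mul_inv_rev]

theorem wd_single (θ : FreeGroup I →* S.B) (c : I × Bool → S.Om × Bool) (s : I × Bool) :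
    S.wd θ c [s] = [c s] := by
  rw [wd, ← FreeGroup.one_eq_mk, map_one, one_right, inv_one, act_one, wd]

theorem length_wd (θ : FreeGroup I →* S.B) (c : I × Bool → S.Om × Bool) (L : List (I × Bool)) :
    (S.wd θ c L).length = L.length := by
  induction L with
  | nil => rfl
  | cons s L ih => rw [wd, List.length_cons, ih, List.length_cons]

theorem ty_wd (θ : FreeGroup I →* S.B) {c : I × Bool → S.Om × Bool} (hc : ∀ s, S.ty (c s) = s)
    (L : List (I × Bool)) : (S.wd θ c L).map S.ty = L := by
  induction L with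
  | nil => rfl
  | cons s L ih => rw [wd, List.map_cons, ih, ty_act, hc]

theorem RO_wd {θ : FreeGroup I →* S.B} {c : I × Bool → S.Om × Bool}
    (h : ∀ s, S.RO (θ (FreeGroup.mk [s])) = FreeGroup.mk [c s]) (L : List (I × Bool)) :
    S.RO (θ (FreeGroup.mk L)) = FreeGroup.mk (S.wd θ c L) := by
  induction L with
  | nil => rw [← FreeGroup.one_eq_mk, map_one, RO_one]; rfl
  | cons s L ih => rw [mk_cons', map_mul, RO_mul, h, ih, perm_mk, wd, mk_cons' _ (S.wd θ c L)]; rfl

theorem map_ty_act (v : S.V) (L : List (S.Om × Bool)) : (L.map (S.act v)).map S.ty = L.map S.ty := by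
  rw [List.map_map]; rfl

theorem reduced_of_ty {L : List (S.Om × Bool)} (h : FreeGroup.IsReduced (L.map S.ty)) :
    FreeGroup.IsReduced L :=
  List.isChain_of_isChain_map S.ty (fun _ _ hab e => hab (congrArg Sigma.fst e)) h

theorem reduced_act (v : S.V) {L : List (S.Om × Bool)} (h : FreeGroup.IsReduced L) :
    FreeGroup.IsReduced (L.map (S.act v)) :=
  List.isChain_map_of_isChain (S.act v) (fun _ _ hab e => hab (MulAction.injective v e)) h

theorem valid_iff (s : I × Bool) (v : S.V) :
    (∃ v', S.Step s v v') ↔ S.act v⁻¹ (S.lr s) = S.ll s := by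
  have key : ∀ v', S.Step s v v' ↔ S.act v⁻¹ (S.lr s) = S.ll s ∧
      (S.ρ (FreeGroup.mk [s])).right * v = v' * (S.ℓ (FreeGroup.mk [s])).right := by
    intro v'
    rw [Step, S.ext_RO, S.RO_mul, S.RO_mul, S.RO_ρ, S.RO_ℓ, S.RO_inr, S.RO_inr, map_one, mul_one,
      one_mul, right_inr, S.perm_mk, List.map_singleton, mk_single_inj, mul_right, mul_right,
      right_inr, right_inr]
  refine ⟨fun ⟨v', h⟩ => ((key v').1 h).1, fun h =>
    ⟨(S.ρ (FreeGroup.mk [s])).right * v * (S.ℓ (FreeGroup.mk [s])).right⁻¹,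
      (key _).2 ⟨h, by rw [inv_mul_cancel_right]⟩⟩⟩

variable (S) in
/-- the normal form word. -/
def NF (F : List (I × Bool)) (v : S.V) (G : List (I × Bool)) : List (S.Om × Bool) :=
  ((S.wd S.ρ S.lr F).map (S.act v⁻¹)).map (S.act (S.ℓ (FreeGroup.mk G)).right⁻¹) ++ S.wd S.ℓ S.ll G

theorem RO_NF (F : List (I × Bool)) (v : S.V) (G : List (I × Bool)) :
    S.RO (S.ρ (FreeGroup.mk F) * inr v * S.ℓ (FreeGroup.mk G)) = FreeGroup.mk (S.NF F v G) := by
  rw [RO_mul, RO_mul, RO_inr, mul_one, RO_wd S.RO_ρ, RO_wd S.RO_ℓ, right_inr, perm_mk, perm_mk,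
    FreeGroup.mul_mk, NF]

theorem ty_NF (F : List (I × Bool)) (v : S.V) (G : List (I × Bool)) :
    (S.NF F v G).map S.ty = F ++ G := by
  rw [NF, List.map_append, map_ty_act, map_ty_act, ty_wd _ S.ty_lr, ty_wd _ S.ty_ll]

theorem length_NF (F : List (I × Bool)) (v : S.V) (G : List (I × Bool)) :
    (S.NF F v G).length = F.length + G.length := by
  rw [← List.length_map S.ty, ty_NF, List.length_append]

theorem suffix_NF_left (F : List (I × Bool)) (s : I × Bool) (v : S.V) (G : List (I × Bool)) :
    S.act (S.ℓ (FreeGroup.mk G)).right⁻¹ (S.act v⁻¹ (S.lr s)) :: S.wd S.ℓ S.ll G <:+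
      S.NF (F ++ [s]) v G := by
  rw [NF, wd_append, wd_single, List.map_append, List.map_append, List.append_assoc]
  exact List.suffix_append _ _

theorem suffix_NF_right (F : List (I × Bool)) (v : S.V) (M G : List (I × Bool)) :
    S.wd S.ℓ S.ll G <:+ S.NF F v (M ++ G) := by
  rw [NF, wd_append, ← List.append_assoc]
  exact List.suffix_append _ _

theorem reduced_NF {F G : List (I × Bool)} {v : S.V} (hF : FreeGroup.IsReduced F)
    (hG : FreeGroup.IsReduced G) (h : ∀ s ∈ F.getLast?, ∀ v', ¬ S.Step s v v') :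
    FreeGroup.IsReduced (S.NF F v G) := by
  refine List.IsChain.append
    (reduced_act _ (reduced_act _ (reduced_of_ty (by rwa [ty_wd _ S.ty_lr]))))
    (reduced_of_ty (by rwa [ty_wd _ S.ty_ll])) fun x hx y hy e => ?_
  rcases List.eq_nil_or_concat F with rfl | ⟨F, s, rfl⟩
  · simp [wd] at hx
  cases G with
  | nil => simp [wd] at hy
  | cons t G =>
    rw [List.concat_eq_append] at *
    rw [wd_append, wd_single, List.map_append, List.map_append, List.map_singleton,
      List.map_singleton, List.getLast?_concat, Option.mem_def, Option.some.injEq] at hx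
    rw [wd, List.head?_cons, Option.mem_def, Option.some.injEq] at hy
    subst hx hy
    by_contra hne
    obtain ⟨v', hv'⟩ := (valid_iff s v).2 (by
      obtain ⟨j, ε⟩ := s
      obtain ⟨k, η⟩ := t
      obtain rfl : j = k := congrArg Sigma.fst e
      rw [mk_cons', map_mul, mul_right, mul_inv_rev, ← act_act] at e
      have e' := MulAction.injective _ e
      cases ε <;> cases η
      · exact absurd rfl hne
      · rw [right_ℓ_pos] at e'
        refine Prod.ext ?_ rfl
        simp only [act, ll, lr, cond_true, cond_false, one_smul] at e' ⊢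
        exact MulAction.injective _ e'
      · rw [right_ℓ_neg] at e'
        refine Prod.ext ?_ rfl
        simp only [act, ll, lr, cond_true, cond_false, one_smul, inv_inv] at e' ⊢
        rw [eq_inv_smul_iff]
        exact e'
      · exact absurd rfl hne)
    exact h s (by rw [List.getLast?_concat]; rfl) v' hv'

theorem suf {F G F' G' : List (I × Bool)} {v v' : S.V} {C : List (S.Om × Bool)}
    (h : ∀ s ∈ F.getLast?, ∀ w, ¬ S.Step s v w) (h1 : C <:+ S.NF F v G) (h2 : C <:+ S.NF F' v' G')
    (h3 : G.length < C.length) (h4 : G.length < G'.length) : False := by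
  rcases List.eq_nil_or_concat F with rfl | ⟨F, s, rfl⟩
  · have := h1.length_le
    rw [length_NF, List.length_nil] at this
    omega
  rw [List.concat_eq_append] at *
  obtain ⟨M, t, G₀, rfl, hG₀⟩ := exists_split' G' h4
  have e := suffix_eq h1 h2 (suffix_NF_left F s v G) (suffix_NF_right F' v' M (t :: G₀))
    (by rw [List.length_cons, length_wd, length_wd, List.length_cons, hG₀])
    (by rw [List.length_cons, length_wd]; exact h3)
  have e2 := congrArg (List.map S.ty) e
  rw [List.map_cons, ty_act, ty_act, ty_lr, ty_wd _ S.ty_ll, ty_wd _ S.ty_ll,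
    List.cons.injEq] at e2
  obtain ⟨rfl, rfl⟩ := e2
  rw [wd, List.cons.injEq] at e
  obtain ⟨w, hw⟩ := (valid_iff s v).2 (S.act_inj _ e.1)
  exact h s (by rw [List.getLast?_concat]; rfl) w hw

theorem valid_of_comp {L : List (I × Bool)} {s : I × Bool} (hL : FreeGroup.IsReduced (L ++ [s]))
    {u u' : S.V} (h : S.ρ (FreeGroup.mk (L ++ [s])) * inr u =
      inr u' * S.ℓ (FreeGroup.mk (L ++ [s]))) : ∃ w, S.Step s u w := by
  classical
  by_contra hne
  push Not at hne
  have hmin : ∀ t ∈ (L ++ [s]).getLast?, ∀ w, ¬ S.Step t u w := by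
    intro t ht
    rw [List.getLast?_concat, Option.mem_def, Option.some.injEq] at ht
    subst ht
    exact hne
  have e1 := RO_NF (L ++ [s]) u []
  have e2 := RO_NF [] u' (L ++ [s])
  rw [← FreeGroup.one_eq_mk, map_one] at e1 e2
  rw [mul_one, h] at e1
  rw [one_mul, e1] at e2
  have e3 := FreeGroup.reduce.sound e2
  rw [(reduced_NF hL FreeGroup.IsReduced.nil hmin).reduce_eq,
    (reduced_NF FreeGroup.IsReduced.nil hL (by simp)).reduce_eq] at e3
  refine suf (F' := []) (G := []) (G' := L ++ [s]) (v' := u') hmin (List.suffix_refl _)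
    (by rw [e3]) ?_ (by simp)
  rw [length_NF]; simp

end aux

theorem step_pos (j : I) (v v' : S.V) : S.Step (j, true) v v' ↔
    S.μ j * ((S.a j)⁻¹ * v) * (S.μ j)⁻¹ ∈ S.U j ∧
      v' = S.d j * (S.μ j * ((S.a j)⁻¹ * v) * (S.μ j)⁻¹) := by
  rw [Step, S.ext_RO, S.RO_mul, S.RO_mul, S.RO_ρ, S.RO_ℓ, S.RO_inr, S.RO_inr, map_one, mul_one,
    one_mul, right_inr, S.perm_mk, List.map_singleton, mk_single_inj, mul_right, mul_right,
    right_inr, right_inr, S.right_ρ_pos, S.right_ℓ_pos]
  refine and_congr ?_ ?_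
  · simp only [act, lr, ll, cond_true, Prod.mk.injEq, and_true, smul_smul]
    rw [S.smul_om_eq]
    simp only [mul_inv_rev, inv_inv, mul_assoc]
  · constructor
    · intro h
      rw [← mul_inv_eq_iff_eq_mul] at h
      rw [← h]; group
    · intro h
      rw [h]; group

theorem step_neg (j : I) (v v' : S.V) : S.Step (j, false) v v' ↔ S.Step (j, true) v' v := by
  rw [Step, Step, mk_neg, mk_pos, map_inv, map_inv]
  constructor
  · intro h
    rw [inv_mul_eq_iff_eq_mul, ← mul_assoc, eq_mul_inv_iff_mul_eq] at h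
    exact h.symm
  · intro h
    rw [inv_mul_eq_iff_eq_mul, ← mul_assoc, eq_mul_inv_iff_mul_eq]
    exact h.symm

theorem ret_ρ (f : FreeGroup I) : S.ret (S.ρ f) = f := by
  have : S.ret.comp S.ρ = MonoidHom.id _ := by
    ext j
    simp [ret, ρ, rho, ell, SD.letter, om]
  exact DFunLike.congr_fun this f

theorem ret_ℓ (f : FreeGroup I) : S.ret (S.ℓ f) = f := by
  have : S.ret.comp S.ℓ = MonoidHom.id _ := by
    ext j
    simp [ret, ℓ, ell, SD.letter, om]
  exact DFunLike.congr_fun this f

theorem ret_inr (v : S.V) : S.ret (inr v) = 1 := by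
  simp [ret]

theorem one_mem_comp : (1 : S.V) ∈ S.Comp := ⟨1, by simp⟩

theorem step_mem_comp {s : I × Bool} {v v' : S.V} (hv : v ∈ S.Comp) (h : S.Step s v v') :
    v' ∈ S.Comp := by
  obtain ⟨f, hf⟩ := hv
  refine ⟨FreeGroup.mk [s] * f, ?_⟩
  rw [map_mul, map_mul, hf, ← mul_assoc, ← mul_assoc, h]

theorem comp_ind {P : S.V → Prop} (h1 : P 1)
    (hs : ∀ s v v', v ∈ S.Comp → P v → S.Step s v v' → P v') : ∀ v ∈ S.Comp, P v := by
  classical
  have key : ∀ L : List (I × Bool), FreeGroup.IsReduced L → ∀ u u', u ∈ S.Comp → P u →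
      S.ρ (FreeGroup.mk L) * inr u = inr u' * S.ℓ (FreeGroup.mk L) → P u' := by
    intro L
    induction L using List.reverseRecOn with
    | nil =>
      intro _ u u' _ hu h
      rw [← FreeGroup.one_eq_mk, map_one, map_one, one_mul, mul_one] at h
      rwa [← inr_injective h]
    | append_singleton L s ih =>
      intro hL u u' hu hPu h
      obtain ⟨w, hw⟩ := valid_of_comp hL h
      refine ih (hL.infix (List.prefix_append _ _).isInfix) w u' (S.step_mem_comp hu hw)
        (hs s u w hu hPu hw) ?_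
      rw [← FreeGroup.mul_mk, map_mul, map_mul, mul_assoc, hw, ← mul_assoc, ← mul_assoc] at h
      exact mul_right_cancel h
  rintro v ⟨f, hf⟩
  refine key f.toWord FreeGroup.isReduced_toWord 1 v S.one_mem_comp h1 ?_
  rwa [FreeGroup.mk_toWord, map_one, mul_one]

variable [DecidableEq I]

open scoped Classical in
theorem norm_ret_le (x : S.B) : (S.ret x).norm ≤ x.left.norm := by
  have e : S.ret x = FreeGroup.map (fun o : S.Om => o.1) x.left := by
    conv_lhs => rw [← inl_left_mul_inr_right x]
    rw [map_mul, ret_inr, mul_one, ret, lift_inl]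
  rw [e, ← FreeGroup.mk_toWord (x := x.left), FreeGroup.map.mk, FreeGroup.mk_toWord]
  refine FreeGroup.norm_mk_le.trans_eq ?_
  rw [List.length_map]
  rfl

theorem exists_min {x : S.B} (hx : x ∈ S.D) : ∃ f v g, S.Min x f v g := by
  have key : ∀ L : List (I × Bool), FreeGroup.IsReduced L → ∀ v ∈ S.Comp, ∀ g,
      ∃ f' v' g', S.Min (S.ρ (FreeGroup.mk L) * inr v * S.ℓ g) f' v' g' := by
    intro L
    induction L using List.reverseRecOn with
    | nil =>
      intro _ v hv g
      exact ⟨1, v, g, hv, rfl, by simp⟩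
    | append_singleton L s ih =>
      intro hL v hv g
      by_cases h : ∃ w, S.Step s v w
      · obtain ⟨w, hw⟩ := h
        have := ih (hL.infix (List.prefix_append _ _).isInfix) w (S.step_mem_comp hv hw)
          (FreeGroup.mk [s] * g)
        rwa [map_mul, mul_assoc, ← mul_assoc (inr w), ← hw, ← mul_assoc, ← mul_assoc, ← map_mul,
          FreeGroup.mul_mk] at this
      · refine ⟨_, v, g, hv, rfl, fun t ht w hw => h ⟨w, ?_⟩⟩
        rw [FreeGroup.toWord_mk, hL.reduce_eq, List.getLast?_concat, Option.mem_def,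
          Option.some.injEq] at ht
        rwa [ht]
  obtain ⟨f, g, rfl⟩ := hx
  have := key f.toWord FreeGroup.isReduced_toWord 1 S.one_mem_comp g
  rwa [FreeGroup.mk_toWord, map_one, mul_one] at this

theorem Min.mem_D {x : S.B} {f g : FreeGroup I} {v : S.V} (h : S.Min x f v g) : x ∈ S.D := by
  obtain ⟨⟨k, hk⟩, e, -⟩ := h
  refine ⟨f * k, k⁻¹ * g, ?_⟩
  rw [e, map_mul, map_mul, hk, map_inv]
  group

open scoped Classical in
theorem min_word {x : S.B} {f g : FreeGroup I} {v : S.V} (h : S.Min x f v g) :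
    (S.RO x).toWord = S.NF f.toWord v g.toWord := by
  have e := RO_NF (S := S) f.toWord v g.toWord
  rw [FreeGroup.mk_toWord, FreeGroup.mk_toWord, ← h.2.1] at e
  rw [e, FreeGroup.toWord_mk]
  exact (reduced_NF FreeGroup.isReduced_toWord FreeGroup.isReduced_toWord h.2.2).reduce_eq

omit [DecidableEq I] in
open scoped Classical in
theorem length_perm (v : S.V) (w : FreeGroup S.Om) :
    (permAut S.V S.Om v w).toWord.length = w.norm := by
  rw [← FreeGroup.mk_toWord (x := w), perm_mk, FreeGroup.toWord_mk,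
    (reduced_act v FreeGroup.isReduced_toWord).reduce_eq, List.length_map, FreeGroup.mk_toWord]
  rfl

theorem min_unique {x : S.B} {f g f' g' : FreeGroup I} {v v' : S.V} (h : S.Min x f v g)
    (h' : S.Min x f' v' g') : f = f' ∧ v = v' ∧ g = g' := by
  have e : S.NF f.toWord v g.toWord = S.NF f'.toWord v' g'.toWord := by
    rw [← S.min_word h, ← S.min_word h']
  have e2 := congrArg (List.map S.ty) e
  rw [ty_NF, ty_NF] at e2
  have e3 := congrArg List.length e2
  rw [List.length_append, List.length_append] at e3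
  have h1 : g.toWord.length = g'.toWord.length := by
    rcases lt_trichotomy g.toWord.length g'.toWord.length with hlt | heq | hlt
    · exact (suf (F' := f'.toWord) (v' := v') h.2.2 (List.suffix_refl _) (by rw [e])
        (by rw [length_NF]; omega) hlt).elim
    · exact heq
    · exact (suf (F' := f.toWord) (v' := v) h'.2.2 (List.suffix_refl _) (by rw [e])
        (by rw [length_NF]; omega) hlt).elim
  obtain ⟨a1, a2⟩ := List.append_inj' e2 h1
  obtain rfl := FreeGroup.toWord_injective a1
  obtain rfl := FreeGroup.toWord_injective a2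
  refine ⟨rfl, ?_, rfl⟩
  exact inr_injective (mul_left_cancel (mul_right_cancel (h.2.1.symm.trans h'.2.1)))

open scoped Classical in
theorem min_norm {x : S.B} {f g : FreeGroup I} {v : S.V} (h : S.Min x f v g) :
    x.left.norm = f.norm + g.norm := by
  rw [← S.length_perm x.right⁻¹, ← RO, S.min_word h, length_NF]
  rfl

theorem min_left {x : S.B} {f g : FreeGroup I} {v : S.V} (h : S.Min x f v g) (s : I × Bool) :
    S.Min (S.ρ (FreeGroup.mk [s]) * x) (FreeGroup.mk [s] * f) v g ∨
      (f = 1 ∧ ∃ v', S.Step s v v' ∧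
        S.Min (S.ρ (FreeGroup.mk [s]) * x) 1 v' (FreeGroup.mk [s] * g)) := by
  obtain ⟨hv, e, hmin⟩ := h
  have e' : S.ρ (FreeGroup.mk [s]) * x = S.ρ (FreeGroup.mk [s] * f) * inr v * S.ℓ g := by
    rw [e, map_mul]; simp only [mul_assoc]
  by_cases hf : f = 1
  · subst hf
    by_cases hs : ∃ w, S.Step s v w
    · obtain ⟨w, hw⟩ := hs
      refine Or.inr ⟨rfl, w, hw, S.step_mem_comp hv hw, ?_, by simp⟩
      rw [e', mul_one, hw, map_one, one_mul, map_mul, mul_assoc]
    · refine Or.inl ⟨hv, e', fun t ht w hw => hs ⟨w, ?_⟩⟩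
      rw [mul_one, FreeGroup.toWord_mk, FreeGroup.reduce_singleton, List.getLast?_singleton,
        Option.mem_def, Option.some.injEq] at ht
      rwa [ht]
  · refine Or.inl ⟨hv, e', fun t ht => hmin t ?_⟩
    have hne : f.toWord ≠ [] := fun h => hf (FreeGroup.toWord_eq_nil_iff.1 h)
    rw [← FreeGroup.mk_toWord (x := f), ← mk_cons', FreeGroup.toWord_mk, FreeGroup.reduce.cons,
      FreeGroup.reduce_toWord] at ht
    obtain ⟨hd, tl, hF⟩ := List.exists_cons_of_ne_nil hne
    rw [hF] at ht ⊢
    dsimp only at ht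
    split_ifs at ht
    · cases tl with
      | nil => simp at ht
      | cons b tl => rwa [List.getLast?_cons_cons]
    · rwa [List.getLast?_cons_cons] at ht

open scoped Classical in
theorem dichotomy {x β : S.B} {f g f' g' : FreeGroup I} {v v' : S.V} (h : S.Min x f v g)
    (h' : S.Min (β * x) f' v' g') :
    ∃ f₁ f₁' p g₁ g₁' q : FreeGroup I, f = f₁ * p ∧ f' = f₁' * p ∧ g = g₁ * q ∧ g' = g₁' * q ∧
      f₁.norm + g₁.norm ≤ β.left.norm ∧ f₁'.norm + g₁'.norm ≤ β.left.norm ∧
      (p = 1 ∨ (g₁ = 1 ∧ g₁' = 1 ∧ ∀ st : S.V →* Multiplicative ℤ,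
        (∀ j, S.U j ≤ st.ker) → st v = st v')) := by
  obtain ⟨a₁, b₁, C, e1, e2, h1, h2⟩ := exists_common_suffix
    (permAut S.V S.Om x.right⁻¹ (S.RO β)).toWord (FreeGroup.isReduced_toWord (x := S.RO x))
  rw [← FreeGroup.toWord_mul, ← RO_mul, S.min_word h'] at e2
  rw [S.min_word h] at e1
  have hn : (permAut S.V S.Om x.right⁻¹ (S.RO β)).toWord.length = β.left.norm := by
    rw [RO, ← MulAut.mul_apply, ← map_mul, length_perm]
  rw [hn] at h1 h2
  have s1 : C <:+ S.NF f.toWord v g.toWord := e1 ▸ List.suffix_append _ _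
  have s2 : C <:+ S.NF f'.toWord v' g'.toWord := e2 ▸ List.suffix_append _ _
  have l1 := congrArg List.length e1
  have l2 := congrArg List.length e2
  rw [length_NF, List.length_append] at l1 l2
  have t1 := s1.map S.ty
  have t2 := s2.map S.ty
  rw [ty_NF] at t1 t2
  have key : ∀ {w : FreeGroup I} {A B : List (I × Bool)}, w.toWord = A ++ B →
      w = FreeGroup.mk A * FreeGroup.mk B := by
    intro w A B e
    rw [FreeGroup.mul_mk, ← e, FreeGroup.mk_toWord]
  by_cases hc : g.toWord.length < C.length ∧ g'.toWord.length < C.length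
  · have hg : g.toWord.length = g'.toWord.length :=
      le_antisymm (not_lt.1 fun hlt => suf h'.2.2 s2 s1 hc.2 hlt)
        (not_lt.1 fun hlt => suf h.2.2 s1 s2 hc.1 hlt)
    obtain ⟨F₁, P, eF, hP⟩ := exists_split f.toWord (n := C.length - g.toWord.length) (by omega)
    obtain ⟨F₁', P', eF', hP'⟩ := exists_split f'.toWord (n := C.length - g.toWord.length)
      (by omega)
    have e3 : P ++ g.toWord = P' ++ g'.toWord := by
      refine suffix_eq t1 t2 ?_ ?_ (by simp only [List.length_append]; omega)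
        (by simp only [List.length_append, List.length_map]; omega)
      · rw [eF, List.append_assoc]; exact List.suffix_append _ _
      · rw [eF', List.append_assoc]; exact List.suffix_append _ _
    obtain ⟨rfl, a2⟩ := List.append_inj' e3 hg
    obtain rfl := FreeGroup.toWord_injective a2
    have l3 := congrArg List.length eF
    have l4 := congrArg List.length eF'
    rw [List.length_append] at l3 l4
    refine ⟨FreeGroup.mk F₁, FreeGroup.mk F₁', FreeGroup.mk P, 1, 1, g, key eF, key eF',
      (one_mul _).symm, (one_mul _).symm, ?_, ?_, Or.inr ⟨rfl, rfl, fun st hst => ?_⟩⟩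
    · have := FreeGroup.norm_mk_le (L₁ := F₁)
      rw [FreeGroup.norm_one]; omega
    · have := FreeGroup.norm_mk_le (L₁ := F₁')
      rw [FreeGroup.norm_one]; omega
    · rcases List.eq_nil_or_concat P with rfl | ⟨P, s, rfl⟩
      · rw [List.length_nil] at hP; omega
      rw [List.concat_eq_append, ← List.append_assoc] at eF eF'
      rw [eF] at s1
      rw [eF'] at s2
      have e4 := suffix_eq s1 s2 (suffix_NF_left _ s v _) (suffix_NF_left _ s v' _) rfl
        (by rw [List.length_cons, length_wd]; exact hc.1)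
      have e5 := congrArg Prod.fst (S.act_inj _ (List.cons.inj e4).1)
      simp only [act, lr, smul_smul] at e5
      have e6 := hst _ ((S.smul_om_eq _ _ _).1 e5)
      rw [MonoidHom.mem_ker] at e6
      simp only [map_mul, map_inv, inv_mul_eq_one, mul_left_inj, inv_inj] at e6
      exact e6
  · have hc' : C.length ≤ g.toWord.length ∧ C.length ≤ g'.toWord.length := by
      rcases not_and_or.1 hc with hc | hc
      · exact ⟨not_lt.1 hc, not_lt.1 fun hlt => suf h'.2.2 s2 s1 hlt (by omega)⟩
      · exact ⟨not_lt.1 fun hlt => suf h.2.2 s1 s2 hlt (by omega), not_lt.1 hc⟩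
    obtain ⟨G₁, Q, eG, hQ⟩ := exists_split g.toWord hc'.1
    obtain ⟨G₁', Q', eG', hQ'⟩ := exists_split g'.toWord hc'.2
    have e3 : Q = Q' := by
      refine suffix_eq t1 t2 ?_ ?_ (by omega) (by rw [List.length_map]; omega)
      · rw [eG, ← List.append_assoc]; exact List.suffix_append _ _
      · rw [eG', ← List.append_assoc]; exact List.suffix_append _ _
    subst e3
    have l3 := congrArg List.length eG
    have l4 := congrArg List.length eG'
    rw [List.length_append] at l3 l4
    refine ⟨f, f', 1, FreeGroup.mk G₁, FreeGroup.mk G₁', FreeGroup.mk Q, (mul_one _).symm,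
      (mul_one _).symm, key eG, key eG', ?_, ?_, Or.inl rfl⟩
    · have := FreeGroup.norm_mk_le (L₁ := G₁)
      have e : f.norm = f.toWord.length := rfl
      omega
    · have := FreeGroup.norm_mk_le (L₁ := G₁')
      have e : f'.norm = f'.toWord.length := rfl
      omega

end RS

end Crest.Agent.R185
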