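import Crest.Agent.R185.T1D
import Crest.Prelude.Def_FiniteTypeClassifying

/-!
# Row 185, T1E (task R185-T1E): a contractible complex `D` gives a finite type classifying complex

PLAN.  Use the API of `T1D` (proved; `G` acts on `Pt G` only, `D.Sp` is a type synonym: see `continuous_smul`).
* `exists_ext`: for a "bump" `β : Pt G → ℝ` define `F β : Pt G → ℝ` by recursion on the dimension (e.g. `Fn : ℕ → Pt G → ℝ`,
  `F β p = Fn p.n p`): `F ⟨0,g,i,t⟩ = β ⟨0,g,i,t⟩`,
  `F ⟨n+1,g,i,t⟩ = (1 - a) F (g • φ n i (tail t)) + a F (g • bp) + β ⟨n+1,g,i,t⟩` with `a = (t 0 + 1)/2 ∈ [0,1]` on valid points.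
  On the whole of `ℝ^(n+1)`: `F (χ (n+1) g i t) = (1 - a') F (g • φ (tail t)) + a' F (g • bp) + β ⟨n+1,g,i,t⟩` with
  `a' = max 0 (min a 1)` (use `WF.out` and that `β` vanishes for `1 ≤ ‖t‖`).  Continuity: by induction on `n`,
  `D.Cl n (F ⁻¹' C)` for closed `C` (use `WF.cont` with `S = (g • ·) ⁻¹' (F ⁻¹' C)`, `smul_χ`), then `isClosed_iff`.
* `Y = D.all` (subtype of `D.Sp`, clopen, `G`-invariant: `MulAction` via `smul_mem_all`), `X = Quotient (orbitRel G Y)`.
  For `p = ⟨n,g₀,i,t₀⟩ ∈ Y` take `β_k q = if (q.n, q.g, q.i) = (n, k, i) then max 0 (1 - ‖q.t‖) else 0`, and `β_inv` (no condition on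
  `q.g`); `β_k + β_l ≤ β_inv` for `k ≠ l`, `β_k (h • q) = β_(h⁻¹ k) q`.  `U = {y | F β_inv y < 2 F β_g₀ y}` is an open neighbourhood of `p`
  with `h U ∩ U = ∅` for `h ≠ 1`: `IsQuotientCoveringMap` (`Mathlib/Topology/Covering/Quotient.lean`), then
  `fundamentalGroupEquiv` as at the end of `R197/CW.lean`.
  `T2Space X`: for two different orbits, with `p` of maximal dimension `n`, take the invariant bump
  `β q = if (q.n, q.i) = (n, i) then max 0 (1 - ‖q.t‖) * w q else 0` with `w q = ‖q.t - t'‖` (when the other point has the same `(n,i)`;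
  to avoid casts use e.g. `w q = ∑ j ∈ range n, |coord q j - coord p' j|`, `coord q j = if h : j < q.n then q.t ⟨j,h⟩ else 0`) or `w = 1`;
  `F β` is invariant, continuous, descends to `X` and separates.
  CW structure: cells `Fin (D.E n)` (or `{i // i < D.E n}`), characteristic maps `t ↦ mk ⟨χ n 1 i t, _⟩`; copy `R197.CW.continuousOn_inv`
  and the construction in `R197.CW.cw_lf`; `mapsTo'` with `I m = univ` (finitely many cells in each dimension!);
  `closed'`: `χ t = χ (κ t)` for the clamp `κ t j = max (-1) (min (t j) 1)` (use `WF.out`), so the range of a characteristic map is the closed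
  cell; if `A ∩ closed cell` is closed then its preimage under `mk ∘ χ n g i = mk ∘ χ n 1 i` is closed, so the preimage of `A` in `Y` is closed
  (`isClosed_iff`, `Y` closed in `Sp`), so `A` is closed (quotient map).
  Contractible: `(y, s) ↦ c y (2 s - 1)`, `contractible_iff_id_nullhomotopic`.
-/

set_option autoImplicit false

namespace Crest.Agent.R185.T1.Dt

open Set Function

variable {G : Type} [Group G] {D : Dt G}

/-- admissible bumps -/
def Bump (β : Pt G → ℝ) : Prop :=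
  (∀ n g i, Continuous fun t : Rn n => β ⟨n, g, i, t⟩) ∧ ∀ n g i (t : Rn n), 1 ≤ ‖t‖ → β ⟨n, g, i, t⟩ = 0

/-- the cone parameter -/
noncomputable def cpar {n : ℕ} (t : Rn (n + 1)) : ℝ := max 0 (min ((t 0 + 1) / 2) 1)

theorem cpar_nonneg {n : ℕ} (t : Rn (n + 1)) : 0 ≤ cpar t := le_max_left _ _

theorem cpar_le_one {n : ℕ} (t : Rn (n + 1)) : cpar t ≤ 1 := max_le zero_le_one (min_le_right _ _)

theorem continuous_cpar {n : ℕ} : Continuous (cpar : Rn (n + 1) → ℝ) := by
  unfold cpar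
  fun_prop

/-- extension of a bump, with fuel -/
noncomputable def Fn (D : Dt G) (β : Pt G → ℝ) : ℕ → Pt G → ℝ
  | 0, p => β p
  | _ + 1, ⟨0, g, i, t⟩ => β ⟨0, g, i, t⟩
  | k + 1, ⟨n + 1, g, i, t⟩ => (1 - cpar t) * Fn D β k (g • D.φ n i (Fin.tail t)) +
      cpar t * β (g • bp) + β ⟨n + 1, g, i, t⟩

theorem Fn_zero_dim (β : Pt G → ℝ) (k : ℕ) (g : G) (i : ℕ) (t : Rn 0) :
    D.Fn β k ⟨0, g, i, t⟩ = β ⟨0, g, i, t⟩ := by
  cases k <;> rfl

theorem Fn_succ (β : Pt G → ℝ) (k n : ℕ) (g : G) (i : ℕ) (t : Rn (n + 1)) :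
    D.Fn β (k + 1) ⟨n + 1, g, i, t⟩ = (1 - cpar t) * Fn D β k (g • D.φ n i (Fin.tail t)) +
      cpar t * β (g • bp) + β ⟨n + 1, g, i, t⟩ := rfl

theorem WF.Fn_stable (hD : D.WF) (β : Pt G → ℝ) (k : ℕ) :
    ∀ p ∈ D.sk k, ∀ k', k ≤ k' → D.Fn β k' p = D.Fn β k p := by
  induction k with
  | zero =>
    rintro ⟨n, g, i, t⟩ ⟨h1, -⟩ k' -
    obtain rfl : n = 0 := Nat.le_zero.1 h1
    rw [Fn_zero_dim, Fn_zero_dim]
  | succ k ih =>
    rintro ⟨n, g, i, t⟩ ⟨h1, h2, -⟩ k' hk
    cases n with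
    | zero => rw [Fn_zero_dim, Fn_zero_dim]
    | succ n =>
      obtain ⟨k', rfl⟩ : ∃ j, k' = j + 1 := ⟨k' - 1, by omega⟩
      have h1' : n ≤ k := Nat.le_of_succ_le_succ h1
      rw [Fn_succ, Fn_succ, ih _ (sk_mono h1' ((smul_mem_sk g).2 (hD.mem n i h2 _))) k' (by omega)]

theorem Fn_smul (β : Pt G → ℝ) (h : G) (k : ℕ) (p : Pt G) :
    D.Fn β k (h • p) = D.Fn (fun q => β (h • q)) k p := by
  induction k generalizing p with
  | zero => rfl
  | succ k ih =>
    obtain ⟨n, g, i, t⟩ := p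
    cases n with
    | zero => rfl
    | succ n =>
      rw [smul_mk, Fn_succ, Fn_succ, mul_smul, mul_smul, ih]
      rfl

theorem Fn_le {β₁ β₂ β₃ : Pt G → ℝ} (h : ∀ q, β₁ q + β₂ q ≤ β₃ q) (k : ℕ) (p : Pt G) :
    D.Fn β₁ k p + D.Fn β₂ k p ≤ D.Fn β₃ k p := by
  induction k generalizing p with
  | zero => exact h p
  | succ k ih =>
    obtain ⟨n, g, i, t⟩ := p
    cases n with
    | zero => exact h _
    | succ n =>
      rw [Fn_succ, Fn_succ, Fn_succ]
      have h1 := mul_le_mul_of_nonneg_left (ih (g • D.φ n i (Fin.tail t)))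
        (sub_nonneg.2 (cpar_le_one t))
      have h2 := mul_le_mul_of_nonneg_left (h (g • bp)) (cpar_nonneg t)
      have h3 := h ⟨n + 1, g, i, t⟩
      linarith

theorem WF.Fn_eq (hD : D.WF) {β : Pt G → ℝ} {n : ℕ} (hβ : ∀ q : Pt G, q.n < n → β q = 0) (k : ℕ) :
    ∀ p ∈ D.sk n, D.Fn β k p = β p := by
  induction k with
  | zero => exact fun _ _ => rfl
  | succ k ih =>
    rintro ⟨m, g, i, t⟩ ⟨h1, h2, -⟩
    cases m with
    | zero => rfl
    | succ m =>
      have h1' : m < n := h1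
      have h3 := (smul_mem_sk g).2 (hD.mem m i h2 (Fin.tail t))
      rw [Fn_succ, ih _ (sk_mono h1'.le h3), hβ _ (h3.1.trans_lt h1'),
        hβ (g • bp) (by change 0 < n; omega)]
      simp

theorem WF.Fn_χ (hD : D.WF) {β : Pt G → ℝ} (hβ : Bump β) {n : ℕ} (g : G) {i : ℕ}
    (hi : i < D.E (n + 1)) (t : Rn (n + 1)) :
    D.Fn β (n + 1) (D.χ (n + 1) g i t) = (1 - cpar t) * Fn D β n (g • D.φ n i (Fin.tail t)) +
      cpar t * β (g • bp) + β ⟨n + 1, g, i, t⟩ := by
  by_cases ht : ‖t‖ < 1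
  · rw [χ_of_lt g i ht, Fn_succ]
  · have hc := hD.cone g hi
    have hb : ∀ k, D.Fn β k (g • bp) = β (g • bp) := fun k => Fn_zero_dim β k _ _ _
    rw [hβ.2 _ _ _ _ (not_lt.1 ht), add_zero]
    rcases one_le_norm_succ.1 (not_lt.1 ht) with h | h | h
    · have : cpar t = 0 := max_eq_left (min_le_of_left_le (by linarith))
      rw [hc.lo t h, this, hD.Fn_stable β n _ ((smul_mem_sk g).2 (hD.mem n i hi _)) _ n.le_succ]
      simp
    · have : cpar t = 1 := by
        rw [cpar, min_eq_right (by linarith), max_eq_right zero_le_one]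
      rw [hc.hi t h, this, hb]
      simp
    · rw [hc.side t h, hD.out n i hi _ h, hb, hb]
      ring

theorem WF.Fn_cont (hD : D.WF) {β : Pt G → ℝ} (hβ : Bump β) (n : ℕ) :
    ∀ m ≤ n, ∀ g i, i < D.E m → Continuous fun t => D.Fn β n (D.χ m g i t) := by
  induction n with
  | zero =>
    intro m hm g i _
    obtain rfl : m = 0 := Nat.le_zero.1 hm
    exact hβ.1 0 g i
  | succ n ih =>
    intro m hm g i hi
    rcases Nat.lt_or_ge m (n + 1) with h | h
    · have h' : m ≤ n := Nat.lt_succ_iff.1 h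
      refine (ih m h' g i hi).congr fun t => ?_
      exact (hD.Fn_stable β n _ (sk_mono h' (hD.χ_mem g hi t)) _ n.le_succ).symm
    · obtain rfl : m = n + 1 := le_antisymm hm h
      simp only [hD.Fn_χ hβ g hi]
      have h1 : Continuous fun t => D.Fn β n (g • D.φ n i t) := by
        refine continuous_iff_isClosed.2 fun C hC => ?_
        refine hD.cont n i hi ((g • ·) ⁻¹' (D.Fn β n ⁻¹' C)) (Cl.smul ?_ g)
        exact fun m hm g i hi => hC.preimage (ih m hm g i hi)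
      exact (((continuous_const.sub continuous_cpar).mul
        (h1.comp (continuous_tail continuous_id))).add
        (continuous_cpar.mul continuous_const)).add (hβ.1 _ g i)

theorem WF.exists_ext (hD : D.WF) : ∃ F : (Pt G → ℝ) → D.Sp → ℝ,
    (∀ β, Bump β → Continuous (F β)) ∧
    (∀ β (g : G) (p : Pt G), F β (g • p : Pt G) = F (fun q => β (g • q)) p) ∧
    (∀ β₁ β₂ β₃, (∀ q, β₁ q + β₂ q ≤ β₃ q) → ∀ p ∈ D.all, F β₁ p + F β₂ p ≤ F β₃ p) ∧
    ∀ β n, (∀ q : Pt G, q.n < n → β q = 0) → ∀ p ∈ D.sk n, F β p = β p := by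
  refine ⟨fun β (p : Pt G) => D.Fn β p.n p, fun β hβ => continuous_iff.2 fun m g i hi => ?_,
    fun β g p => Fn_smul β g _ p, fun β₁ β₂ β₃ h p _ => Fn_le h _ p,
    fun β n hβ p hp => hD.Fn_eq hβ _ p hp⟩
  refine (hD.Fn_cont hβ m m le_rfl g i hi).congr fun t => ?_
  have := hD.χ_mem g hi t
  exact hD.Fn_stable β _ _ ⟨le_rfl, this.2⟩ m this.1

theorem WF.exists_clamp (hD : D.WF) {m : ℕ} (g : G) {i : ℕ} (hi : i < D.E m) (t : Rn m) :
    ∃ t' ∈ Metric.closedBall (0 : Rn m) 1, D.χ m g i t' = D.χ m g i t := by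
  by_cases ht : ‖t‖ < 1
  · exact ⟨t, mem_closedBall_zero_iff.2 ht.le, rfl⟩
  cases m with
  | zero =>
    obtain rfl : t = 0 := Subsingleton.elim _ _
    rw [norm_zero] at ht
    exact absurd one_pos ht
  | succ m =>
    have hc := hD.cone g hi
    have h1 : (fun _ => 1 : Rn (m + 1)) ∈ Metric.closedBall (0 : Rn (m + 1)) 1 := by
      simp
    by_cases h3 : 1 ≤ ‖Fin.tail t‖
    · exact ⟨_, h1, by rw [hc.side t h3, hc.hi _ le_rfl]⟩
    rcases one_le_norm_succ.1 (not_lt.1 ht) with h | h | h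
    · refine ⟨Fin.cons (-1) (Fin.tail t), ?_, ?_⟩
      · rw [mem_closedBall_zero_iff, norm_succ]
        simpa using (not_le.1 h3).le
      · rw [hc.lo t h, hc.lo _ (by simp)]
        simp
    · exact ⟨_, h1, by rw [hc.hi t h, hc.hi _ le_rfl]⟩
    · exact absurd h h3

theorem continuousOn_inv' {A X : Type} [TopologicalSpace A] [Nonempty A] [TopologicalSpace X]
    [T2Space X] {φ : A → X} {K U : Set A} (hφ : ContinuousOn φ K) (hK : IsCompact K) (hU : U ⊆ K)
    (hinj : InjOn φ U) (hd : ∀ y ∈ U, ∀ y' ∈ K, φ y = φ y' → y' ∈ U) :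
    ContinuousOn (Function.invFunOn φ U) (φ '' U) := by
  rw [continuousOn_iff_isClosed]
  intro t ht
  refine ⟨φ '' (t ∩ K), ((hK.inter_left ht).image_of_continuousOn
    (hφ.mono inter_subset_right)).isClosed, ?_⟩
  ext x
  constructor
  · rintro ⟨h1, y, hy, rfl⟩
    rw [mem_preimage, hinj.leftInvOn_invFunOn hy] at h1
    exact ⟨⟨y, ⟨h1, hU hy⟩, rfl⟩, y, hy, rfl⟩
  · rintro ⟨⟨y', ⟨h1, h2⟩, h3⟩, y, hy, rfl⟩
    refine ⟨?_, y, hy, rfl⟩
    rw [mem_preimage, hinj.leftInvOn_invFunOn hy, ← hinj (hd y hy y' h2 h3.symm) hy h3]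
    exact h1

open Metric _root_.Topology in
theorem cw_ft {X : Type} [TopologicalSpace X] [T2Space X] (cell : ℕ → Type)
    [∀ n, Finite (cell n)]
    (φ : ∀ n, cell n → (Fin n → ℝ) → X) (hφ : ∀ n i, ContinuousOn (φ n i) (closedBall 0 1))
    (h1 : ∀ n i, InjOn (φ n i) (ball 0 1))
    (h2 : ∀ n i n' i', ∀ y ∈ ball (0 : Fin n → ℝ) 1, ∀ y' ∈ ball (0 : Fin n' → ℝ) 1,
      φ n i y = φ n' i' y' → (⟨n, i⟩ : Σ n, cell n) = ⟨n', i'⟩)
    (hbd : ∀ n i, ∀ y ∈ sphere (0 : Fin n → ℝ) 1, ∃ m < n, ∃ j, ∃ y' ∈ ball (0 : Fin m → ℝ) 1,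
      φ m j y' = φ n i y)
    (hsurj : ∀ x, ∃ n i, ∃ y ∈ ball (0 : Fin n → ℝ) 1, φ n i y = x)
    (hcl : ∀ A : Set X, (∀ n j, IsClosed (A ∩ φ n j '' closedBall 0 1)) → IsClosed A) :
    ∃ _ : CWComplex (univ : Set X), RelCWComplex.FiniteType (univ : Set X) := by
  classical
  let mp : ∀ n, cell n → PartialEquiv (Fin n → ℝ) X := fun n i =>
    InjOn.toPartialEquiv (φ n i) (ball 0 1) (h1 n i)
  have hU : ⋃ (n : ℕ) (j : cell n), φ n j '' closedBall 0 1 = univ := by
    rw [eq_univ_iff_forall]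
    intro z
    obtain ⟨m, j, y', hy', rfl⟩ := hsurj z
    simp only [mem_iUnion]
    exact ⟨m, j, y', ball_subset_closedBall hy', rfl⟩
  refine ⟨{ cell := cell
            map := mp
            source_eq := fun _ _ => rfl
            continuousOn := hφ
            continuousOn_symm := ?_
            pairwiseDisjoint' := ?_
            mapsTo' := ?_
            closed' := fun A _ hA => hcl A hA
            union' := hU }, ?_⟩
  rotate_left 3
  · exact @RelCWComplex.FiniteType.mk _ _ _ _ (_) fun n => ‹∀ n, Finite (cell n)› n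
  · intro n i
    refine continuousOn_inv' (hφ n i) (isCompact_closedBall 0 1) ball_subset_closedBall
      (h1 n i) ?_
    intro y hy y' hy' h
    by_contra hn
    have hsp : y' ∈ sphere (0 : Fin n → ℝ) 1 := by
      rw [mem_sphere]
      rw [mem_closedBall] at hy'
      rw [mem_ball, not_lt] at hn
      exact le_antisymm hy' hn
    obtain ⟨m, hm, j, y'', hy'', e⟩ := hbd n i y' hsp
    have := h2 _ _ _ _ y hy y'' hy'' (h.trans e.symm)
    have : n = m := congrArg Sigma.fst this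
    omega
  · rintro ⟨n, i⟩ - ⟨n', i'⟩ - hne
    rw [Function.onFun, Set.disjoint_left]
    rintro _ ⟨y, hy, rfl⟩ ⟨y', hy', h⟩
    exact hne (h2 _ _ _ _ y' hy' y hy h).symm
  · intro n i
    refine ⟨fun m => (finite_univ (α := cell m)).toFinset, fun y hy => ?_⟩
    obtain ⟨m, hm, j, y', hy', e⟩ := hbd n i y hy
    simp only [mem_iUnion]
    exact ⟨m, hm, j, by simp, y', ball_subset_closedBall hy', e⟩

/-- the total space -/
def Tot (D : Dt G) : Type := {p : D.Sp // p ∈ D.all}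

noncomputable instance : TopologicalSpace D.Tot :=
  inferInstanceAs (TopologicalSpace {p : D.Sp // p ∈ D.all})

/-- the underlying point -/
def Tot.pt (y : D.Tot) : Pt G := y.1

omit [Group G] in
theorem Tot.ext' {y y' : D.Tot} (h : y.pt = y'.pt) : y = y' := Subtype.ext h

instance : MulAction G D.Tot where
  smul g y := ⟨(g • y.pt : Pt G), (smul_mem_all g).2 y.2⟩
  one_smul y := Tot.ext' (one_smul G y.pt)
  mul_smul a b y := Tot.ext' (mul_smul a b y.pt)

theorem Tot.smul_pt (g : G) (y : D.Tot) : (g • y).pt = g • y.pt := rfl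

theorem Tot.continuous_pt : Continuous (Y := D.Sp) (Tot.pt : D.Tot → Pt G) :=
  continuous_subtype_val

instance : ContinuousConstSMul G D.Tot :=
  ⟨fun g => Continuous.subtype_mk ((continuous_smul g).comp Tot.continuous_pt) _⟩

open Classical in
/-- a bump with a weight -/
noncomputable def bmp (P : ℕ → G → ℕ → Prop) (w : ∀ n, Rn n → ℝ) (q : Pt G) : ℝ :=
  if P q.n q.g q.i then max 0 (1 - ‖q.t‖) * w q.n q.t else 0

omit [Group G] in
theorem bump_bmp (P : ℕ → G → ℕ → Prop) {w : ∀ n, Rn n → ℝ} (hw : ∀ n, Continuous (w n)) :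
    Bump (bmp P w) := by
  refine ⟨fun n g i => ?_, fun n g i t ht => ?_⟩
  · by_cases h : P n g i
    · simp only [bmp, if_pos h]
      exact (continuous_const.max (continuous_const.sub continuous_norm)).mul (hw n)
    · simp only [bmp, if_neg h]
      exact continuous_const
  · simp only [bmp, max_eq_left (sub_nonpos.2 ht), zero_mul, ite_self]

open _root_.Topology in
theorem WF.tot_disjoint (hD : D.WF) (e : D.Tot) :
    ∃ U ∈ 𝓝 e, ∀ g : G, ((g • ·) '' U ∩ U).Nonempty → g = 1 := by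
  obtain ⟨F, hF1, hF2, hF3, hF4⟩ := hD.exists_ext
  let β : Pt G → ℝ := bmp (fun n g _ => n = e.pt.n ∧ g = e.pt.g) fun _ _ => 1
  let γ : Pt G → ℝ := bmp (fun n _ _ => n = e.pt.n) fun _ _ => 1
  have hβ : Continuous fun y : D.Tot => F β y.pt :=
    (hF1 β (bump_bmp _ fun _ => continuous_const)).comp Tot.continuous_pt
  have hγ : Continuous fun y : D.Tot => F γ y.pt :=
    (hF1 γ (bump_bmp _ fun _ => continuous_const)).comp Tot.continuous_pt
  refine ⟨{y | F γ y.pt < 2 * F β y.pt},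
    (isOpen_lt hγ (continuous_const.mul hβ)).mem_nhds ?_, ?_⟩
  · have he : e.pt ∈ D.sk e.pt.n := ⟨le_rfl, e.2⟩
    change F γ e.pt < 2 * F β e.pt
    rw [hF4 β _ (fun q hq => if_neg fun h => hq.ne h.1) _ he,
      hF4 γ _ (fun q hq => if_neg hq.ne) _ he]
    have : 0 < max 0 (1 - ‖e.pt.t‖) := lt_max_of_lt_right (sub_pos.2 e.2.2)
    simp only [β, γ, bmp, and_self, if_true]
    linarith
  · rintro g ⟨_, ⟨y, hy, rfl⟩, hy'⟩
    by_contra hg
    change F γ y.pt < 2 * F β y.pt at hy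
    change F γ (g • y.pt : Pt G) < 2 * F β (g • y.pt : Pt G) at hy'
    rw [hF2, hF2] at hy'
    have := hF3 β (fun q => β (g • q)) γ (fun q => ?_) y.pt y.2
    · change F γ y.pt < _ at hy'
      linarith
    · have h0 : 0 ≤ max 0 (1 - ‖q.t‖) := le_max_left _ _
      change (bmp _ _ q) + bmp _ _ ⟨q.n, g * q.g, q.i, q.t⟩ ≤ bmp _ _ q
      simp only [bmp]
      by_cases h1 : q.n = e.pt.n
      · by_cases h2 : q.g = e.pt.g
        · have h3 : ¬ g * q.g = e.pt.g := fun h3 => hg (by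
            rw [← h2] at h3
            exact mul_eq_right.1 h3)
          simp [h1, h2, hg]
        · by_cases h3 : g * q.g = e.pt.g <;> simp [h1, h2, h3]
      · simp [h1]

theorem Tot.mk_eq_iff {y y' : D.Tot} :
    Quotient.mk (MulAction.orbitRel G D.Tot) y = Quotient.mk (MulAction.orbitRel G D.Tot) y' ↔
      ∃ g : G, g • y'.pt = y.pt := by
  rw [Quotient.eq, MulAction.orbitRel_apply]
  exact exists_congr fun g => Subtype.ext_iff

theorem WF.t2 (hD : D.WF) : T2Space (Quotient (MulAction.orbitRel G D.Tot)) := by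
  obtain ⟨F, hF1, hF2, -, hF4⟩ := hD.exists_ext
  have sep : ∀ (P : ℕ → ℕ → Prop) (w : ∀ n, Rn n → ℝ), (∀ n, Continuous (w n)) →
      ∃ f : Quotient (MulAction.orbitRel G D.Tot) → ℝ, Continuous f ∧
        ∀ y, f (Quotient.mk _ y) = F (bmp (fun n _ i => P n i) w) y.pt := by
    intro P w hw
    refine ⟨Quotient.lift (fun y : D.Tot => F (bmp (fun n _ i => P n i) w) y.pt) ?_,
      Continuous.quotient_lift ((hF1 _ (bump_bmp _ hw)).comp Tot.continuous_pt) _, fun _ => rfl⟩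
    rintro _ y ⟨g, rfl⟩
    exact hF2 _ g y.pt
  have key : ∀ y y' : D.Tot, y'.pt.n ≤ y.pt.n →
      Quotient.mk (MulAction.orbitRel G D.Tot) y ≠ Quotient.mk _ y' →
      ∃ f : Quotient (MulAction.orbitRel G D.Tot) → ℝ, Continuous f ∧
        f (Quotient.mk _ y) ≠ f (Quotient.mk _ y') := by
    rintro ⟨⟨n, g, i, t⟩, hy⟩ ⟨⟨n', g', i', t'⟩, hy'⟩ hn hne
    have hval : ∀ w : ∀ n, Rn n → ℝ, (∀ n, Continuous (w n)) →
        ∃ f : Quotient (MulAction.orbitRel G D.Tot) → ℝ, Continuous f ∧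
          f (Quotient.mk _ ⟨⟨n, g, i, t⟩, hy⟩) = max 0 (1 - ‖t‖) * w n t ∧
          f (Quotient.mk _ ⟨⟨n', g', i', t'⟩, hy'⟩) =
            if n' = n ∧ i' = i then max 0 (1 - ‖t'‖) * w n' t' else 0 := by
      intro w hw
      obtain ⟨f, hf, hf'⟩ := sep (fun m j => m = n ∧ j = i) w hw
      have h0 : ∀ q : Pt G, q.n < n → bmp (fun m _ j => m = n ∧ j = i) w q = 0 :=
        fun q hq => if_neg fun h => hq.ne h.1
      refine ⟨f, hf, ?_, ?_⟩
      · exact (hf' _).trans ((hF4 _ n h0 ⟨n, g, i, t⟩ ⟨le_rfl, hy⟩).trans (if_pos ⟨rfl, rfl⟩))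
      · refine (hf' _).trans ((hF4 _ n h0 ⟨n', g', i', t'⟩ ⟨hn, hy'⟩).trans ?_)
        simp only [bmp]
    have hpos : 0 < max 0 (1 - ‖t‖) := lt_max_of_lt_right (sub_pos.2 hy.2)
    obtain ⟨f, hf, h1, h2⟩ := hval (fun _ _ => 1) fun _ => continuous_const
    by_cases h : f (Quotient.mk _ ⟨⟨n, g, i, t⟩, hy⟩) = f (Quotient.mk _ ⟨⟨n', g', i', t'⟩, hy'⟩)
    swap
    · exact ⟨f, hf, h⟩
    rw [h1, h2] at h
    split_ifs at h with hc
    swap
    · linarith
    obtain ⟨rfl, rfl⟩ := hc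
    have htt : t ≠ t' := by
      rintro rfl
      exact hne (Tot.mk_eq_iff.2 ⟨g * g'⁻¹, by simp [Tot.pt, smul_mk]⟩)
    obtain ⟨j, hj⟩ := Function.ne_iff.1 htt
    obtain ⟨f, hf, h1, h2⟩ := hval (fun m s => if h : j.1 < m then s ⟨j.1, h⟩ else 0) (by
      intro m
      by_cases h : j.1 < m
      · simp only [dif_pos h]
        fun_prop
      · simp only [dif_neg h]
        fun_prop)
    refine ⟨f, hf, ?_⟩
    rw [h1, h2, if_pos ⟨rfl, rfl⟩, dif_pos j.2, dif_pos j.2, ← mul_right_cancel₀ one_ne_zero h]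
    exact fun h' => hj (mul_left_cancel₀ hpos.ne' h')
  refine ⟨fun x x' hne => ?_⟩
  induction x using Quotient.inductionOn with
  | h y =>
    induction x' using Quotient.inductionOn with
    | h y' =>
      rcases le_total y'.pt.n y.pt.n with h | h
      · obtain ⟨f, hf, h'⟩ := key y y' h hne
        exact separated_by_continuous hf h'
      · obtain ⟨f, hf, h'⟩ := key y' y h hne.symm
        exact separated_by_continuous hf h'.symm

theorem WF.final (hD : D.WF) (c : Pt G → ℝ → Pt G)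
    (hc : ContinuousOn (Y := D.Sp) (fun q : D.Sp × ℝ => c q.1 q.2) (D.all ×ˢ univ))
    (lo : ∀ y ∈ D.all, c y (-1) = y) (hi : ∀ y ∈ D.all, c y 1 = bp)
    (mem : ∀ y ∈ D.all, ∀ s, c y s ∈ D.all) : Crest.Topology.HasFiniteTypeClassifyingComplex G := by
  let π : D.Tot → Quotient (MulAction.orbitRel G D.Tot) := Quotient.mk _
  have hq : IsQuotientCoveringMap π G :=
    { toIsQuotientMap := isQuotientMap_quotient_mk'
      continuous_const_smul := continuous_const_smul
      apply_eq_iff_mem_orbit := Quotient.eq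
      disjoint := hD.tot_disjoint }
  have := hD.t2
  let b : D.Tot := ⟨bp, (hD.bp_mem 0).2⟩
  have : ContractibleSpace D.Tot := by
    rw [contractible_iff_id_nullhomotopic]
    refine ⟨b, ⟨⟨⟨fun q => ⟨c q.2.pt (2 * q.1 - 1), mem _ q.2.2 _⟩, ?_⟩, fun y => ?_, fun y => ?_⟩⟩⟩
    · refine Continuous.subtype_mk ?_ _
      exact hc.comp_continuous
        (f := fun q : unitInterval × D.Tot => ((q.2.1, 2 * (q.1 : ℝ) - 1) : D.Sp × ℝ))
        ((continuous_subtype_val.comp continuous_snd).prodMk (by fun_prop))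
        fun q => ⟨q.2.2, trivial⟩
    · apply Tot.ext'
      change c y.pt (2 * ((0 : unitInterval) : ℝ) - 1) = y.pt
      have := lo _ y.2
      norm_num
      exact this
    · apply Tot.ext'
      change c y.pt (2 * ((1 : unitInterval) : ℝ) - 1) = bp
      have := hi _ y.2
      norm_num
      exact this
  let χ' : ∀ n, G → Fin (D.E n) → Rn n → D.Tot := fun n g i t =>
    ⟨D.χ n g i t, (hD.χ_mem g i.2 t).2⟩
  have hχ' : ∀ n g i, Continuous (χ' n g i) := fun n g i =>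
    Continuous.subtype_mk (continuous_χ g i.2) _
  have hmv : ∀ n g i t, π (χ' n g i t) = π (χ' n 1 i t) := fun n g i t =>
    Tot.mk_eq_iff.2 ⟨g, (smul_χ g 1 i t).trans (by rw [mul_one]; rfl)⟩
  have huniq : ∀ n i n' i', ∀ y ∈ Metric.ball (0 : Rn n) 1, ∀ y' ∈ Metric.ball (0 : Rn n') 1,
      π (χ' n 1 i y) = π (χ' n' 1 i' y') →
      ∃ g : G, (⟨n', g, i', y'⟩ : Pt G) = ⟨n, 1, i, y⟩ := by
    intro n i n' i' y hy y' hy' h
    obtain ⟨g, hg⟩ := Tot.mk_eq_iff.1 h
    change g • D.χ n' 1 i' y' = D.χ n 1 i y at hg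
    rw [χ_of_lt _ _ (mem_ball_zero_iff.1 hy), χ_of_lt _ _ (mem_ball_zero_iff.1 hy')] at hg
    exact ⟨_, hg⟩
  have hsurj : ∀ y : D.Tot, ∃ i : Fin (D.E y.pt.n), ∃ t ∈ Metric.ball (0 : Rn y.pt.n) 1,
      π (χ' _ 1 i t) = π y := by
    intro y
    refine ⟨⟨y.pt.i, y.2.1⟩, y.pt.t, mem_ball_zero_iff.2 y.2.2, ?_⟩
    rw [← hmv _ y.pt.g]
    exact congrArg π (Tot.ext' (χ_of_lt _ _ y.2.2))
  obtain ⟨cw, hft⟩ := cw_ft (fun n => Fin (D.E n)) (fun n i t => π (χ' n 1 i t))
    (fun n i => (hq.toIsQuotientMap.continuous.comp (hχ' n 1 i)).continuousOn)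
    (by
      intro n i y hy y' hy' e
      obtain ⟨g, hg⟩ := huniq _ _ _ _ y hy y' hy' e
      simp only [Pt.mk.injEq, heq_eq_eq, true_and] at hg
      exact hg.2.symm)
    (by
      intro n i n' i' y hy y' hy' e
      obtain ⟨g, hg⟩ := huniq _ _ _ _ y hy y' hy' e
      obtain rfl : n' = n := congrArg Pt.n hg
      obtain rfl : i' = i := Fin.ext (congrArg Pt.i hg)
      rfl)
    (by
      intro n i y hy
      rw [mem_sphere_zero_iff_norm] at hy
      cases n with
      | zero =>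
        obtain rfl : y = 0 := Subsingleton.elim _ _
        rw [norm_zero] at hy
        exact absurd hy zero_ne_one
      | succ n =>
        obtain ⟨j, t, ht, e⟩ := hsurj (χ' _ 1 i y)
        exact ⟨_, Nat.lt_succ_of_le (hD.χ_out 1 i.2 hy.ge).1, j, t, ht, e⟩)
    (by
      intro x
      obtain ⟨y, rfl⟩ := Quotient.exists_rep x
      exact ⟨_, hsurj y⟩)
    (by
      intro A hA
      rw [← hq.toIsQuotientMap.isClosed_preimage]
      have : IsClosed (X := D.Sp) (Tot.pt '' (π ⁻¹' A)) := by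
        refine isClosed_iff.2 fun m g i hi => ?_
        have e : D.χ m g i ⁻¹' (Tot.pt '' (π ⁻¹' A)) = (fun t => π (χ' m 1 ⟨i, hi⟩ t)) ⁻¹'
            (A ∩ (fun t => π (χ' m 1 ⟨i, hi⟩ t)) '' Metric.closedBall 0 1) := by
          ext t
          constructor
          · rintro ⟨y, hy, e⟩
            obtain rfl : y = χ' m g ⟨i, hi⟩ t := Tot.ext' e
            obtain ⟨t', ht', e'⟩ := hD.exists_clamp 1 hi t
            exact ⟨by rw [mem_preimage, hmv] at hy; exact hy, t', ht', congrArg π (Tot.ext' e')⟩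
          · rintro ⟨h, -⟩
            exact ⟨χ' m g ⟨i, hi⟩ t, by rw [mem_preimage, hmv]; exact h, rfl⟩
        have h3 := (hA m ⟨i, hi⟩).preimage (hq.toIsQuotientMap.continuous.comp (hχ' m 1 ⟨i, hi⟩))
        exact (congrArg IsClosed e).mpr h3
      have h2 := this.preimage Tot.continuous_pt
      exact (congrArg IsClosed (preimage_image_eq (f := Tot.pt) (π ⁻¹' A)
        fun _ _ => Tot.ext')).mp h2)
  refine ⟨Quotient (MulAction.orbitRel G D.Tot), inferInstance, cw, inferInstance, hft,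
    ⟨D.Tot, inferInstance, π, inferInstance, hq.isCoveringMap, Quotient.mk_surjective⟩,
    π b, ⟨?_⟩⟩
  exact (hq.fundamentalGroupEquiv ⟨b, rfl⟩).trans (MulEquiv.inv' G).symm

end Crest.Agent.R185.T1.Dt
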