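import Crest.Agent.R185.T1G

/-!
# Row 185, T1H: the Cayley complex (start of the induction) and the limit
-/

set_option autoImplicit false
set_option linter.unusedSectionVars false

namespace Crest.Agent.R185.T1

open Set Function Dt

variable {G : Type} [Group G]

theorem not_out (t : Rn 0) : ¬ 1 ≤ ‖t‖ := fun h => by
  obtain ⟨j, -⟩ := (le_norm_iff one_pos).1 h; exact j.elim0

theorem exists_D0 : ∃ D : Dt G, D.WF ∧ D.Top 0 :=
  ⟨⟨fun n => if n = 0 then 1 else 0, fun _ _ _ => bp⟩,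
    ⟨rfl, fun _ _ h => absurd h (Nat.not_lt_zero _), fun _ _ h => absurd h (Nat.not_lt_zero _),
      fun _ _ h => absurd h (Nat.not_lt_zero _)⟩, fun _ hm => if_neg hm.ne'⟩

theorem exists_path {n : ℕ} {D₀ D : Dt G} {π : FreeGroup (Fin n) →* G} {ω} (hω : Om π ω)
    (hE : Ext 0 D₀ D fun (i : Fin n) _ => π (FreeGroup.of i) • (bp : Pt G))
    (χ : FC G n →* AA D 0) (hχ : ∀ g i, χ (FreeGroup.of (g, i)) = cl (gn hE.wf hE.E g i))
    (w : FreeGroup (Fin n)) : ∀ g : G, ∃ q : GG D 0,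
      Cone (Y := Pt G) q (fun _ => (g * π w) • bp) (g • bp) ∧ cl q = χ (act g (ω w)) := by
  have hb : ∀ (g : G) k, g • bp ∈ D.sk k := fun g k => (smul_mem_sk g).2 (hE.wf.bp_mem k)
  induction w using FreeGroup.induction_on with
  | C1 =>
    intro g
    exact ⟨Gen.const (Y := D.Sp) 1 (hb g 1) (hb g 0), ⟨fun _ _ => by rw [map_one, mul_one]; rfl,
      fun _ _ => rfl, fun _ _ => rfl⟩, by rw [hω.one, map_one, map_one]; exact cl_triv fun _ => hb g 0⟩
  | of i =>
    intro g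
    refine ⟨gn hE.wf hE.E g i, ?_, by rw [hω.of, act_of, hχ, mul_one]⟩
    have := hE.wf.cone g (i := i) (m := 0) (hE.E ▸ i.2)
    rw [hE.φ] at this
    simp only [mul_smul]
    exact this
  | inv_of i ih =>
    intro g
    obtain ⟨q, hq, hq'⟩ := ih (g * (π (FreeGroup.of i))⁻¹)
    obtain ⟨r, hr, hr'⟩ := exists_rev 0 q
    refine ⟨r, ⟨fun t ht => ?_, fun t ht => ?_, fun t ht => absurd ht (not_out _)⟩, ?_⟩
    · rw [hr, hq.hi _ (by rw [update_self]; linarith), map_inv]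
    · rw [hr, hq.lo _ (by rw [update_self]; linarith), inv_mul_cancel_right]
    · rw [hr', hq', hω.inv, map_inv, map_inv, act_act]
  | mul w w' ih ih' =>
    intro g
    obtain ⟨q, hq, hq'⟩ := ih g
    obtain ⟨r, hr, hr'⟩ := ih' (g * π w)
    obtain ⟨F, hF⟩ := exists_cat 0 r q fun t =>
      (hr.hi _ (by simp)).trans (hq.lo _ (by simp)).symm
    refine ⟨F, ⟨fun t ht => ?_, fun t ht => ?_, fun t ht => absurd ht (not_out _)⟩, ?_⟩
    · rw [(hF t).1 (by linarith), hr.lo _ (by rw [update_self]; linarith), map_mul, mul_assoc]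
    · rw [(hF t).2 (by linarith), hq.hi _ (by rw [update_self]; linarith)]
    · rw [cl_cat hF, hq', hr', hω.mul, map_mul, map_mul, act_act]

theorem exists_base (h1 : Group.IsFinitelyPresented G) (h2 : FPinf G) :
    ∃ (D : Dt G) (c : Pt G → ℝ → Pt G), Inv 0 D c := by
  classical
  obtain ⟨n, π, hπ, R, hR, hRπ⟩ := h1
  obtain ⟨ω, hω⟩ := exists_om π
  obtain ⟨d₁, hd1, hd2, hd3⟩ := exists_d1 h2 π hπ
  obtain ⟨κ, hκ, hκ1⟩ : ∃ κ : G → FreeGroup (Fin n), (∀ g, π (κ g) = g) ∧ κ 1 = 1 :=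
    ⟨fun g => if g = 1 then 1 else surjInv hπ g, fun g => by
      dsimp only; split_ifs with h
      exacts [by rw [map_one, h], surjInv_eq hπ g], if_pos rfl⟩
  obtain ⟨k, r, hr⟩ : ∃ (k : ℕ) (r : Fin k → FreeGroup (Fin n)), range r = R := by
    obtain ⟨k, f, -, hf⟩ := hR.fin_param
    exact ⟨k, f, hf⟩
  have hr1 : ∀ j, π (r j) = 1 := fun j => by
    rw [← MonoidHom.mem_ker, ← hRπ]
    exact Subgroup.subset_normalClosure (hr ▸ mem_range_self j)
  obtain ⟨D₀, hD₀, hT₀⟩ := exists_D0 (G := G)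
  obtain ⟨D, hE⟩ := exists_ext hD₀ hT₀ (fun (i : Fin n) _ => π (FreeGroup.of i) • (bp : Pt G))
    (fun _ => continuous_const) (fun _ _ => (smul_mem_sk _).2 (hD₀.bp_mem 0))
    fun _ t ht => absurd ht (not_out t)
  have hb : ∀ (g : G) k, g • bp ∈ D.sk k := fun g k => (smul_mem_sk g).2 (hE.wf.bp_mem k)
  let χn : FC G n →* AA D 0 := FreeGroup.lift fun p => cl (gn hE.wf hE.E p.1 p.2)
  have hχn : ∀ g i, χn (FreeGroup.of (g, i)) = cl (gn hE.wf hE.E g i) := fun g i =>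
    FreeGroup.lift_apply_of
  have hpath := exists_path hω hE χn hχn
  have : ∀ g : G, ∃ q : GG D 0, Cone (Y := Pt G) q (fun _ => g • bp) bp ∧ cl q = χn (ω (κ g)) ∧
      (g = 1 → ∀ t, q t = bp) := fun g => by
    by_cases hg : g = 1
    · subst hg
      exact ⟨Gen.const (Y := D.Sp) 1 (hE.wf.bp_mem 1) (hE.wf.bp_mem 0), ⟨fun _ _ => (one_smul _ _).symm,
        fun _ _ => rfl, fun _ _ => rfl⟩, by
          rw [hκ1, hω.one, map_one]; exact cl_triv fun _ => hE.wf.bp_mem 0, fun _ _ => rfl⟩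
    · obtain ⟨q, hq, hq'⟩ := hpath (κ g) 1
      rw [one_mul, hκ, one_smul] at hq
      exact ⟨q, hq, by rw [hq', act_one], fun h => absurd h hg⟩
  choose q hq hq' hq1 using this
  let c : Pt G → ℝ → Pt G := fun p s => if p ∈ D.sk 0 then q p.g fun _ => s else p
  have hc : ∀ (g : G) s, c (g • bp) s = q g fun _ => s := fun g s =>
    (if_pos (hb g 0)).trans (by rw [show (g • (bp : Pt G)).g = g from mul_one g])
  have hcm : ∀ y ∈ D.sk 0, ∀ s, c y s ∈ D.sk 1 := fun y hy s => by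
    obtain ⟨g, rfl⟩ := hE.wf.mem_sk_zero.1 hy
    rw [hc]; exact (q g).mem _
  have h : Pre 0 D c := by
    refine ⟨hE.wf, hE.top, ⟨fun y s hs => ?_, fun y hy s hs => ?_, fun s => ?_, ?_,
      hE.wf.isClosed_sk 0, hE.wf.bp_mem 0, sk_mono zero_le_one, hcm⟩, fun k hk => ?_⟩
    · by_cases hy : y ∈ D.sk 0
      · obtain ⟨g, rfl⟩ := hE.wf.mem_sk_zero.1 hy
        exact (hc g s).trans ((hq g).lo _ hs)
      · exact if_neg hy
    · obtain ⟨g, rfl⟩ := hE.wf.mem_sk_zero.1 hy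
      exact (hc g s).trans ((hq g).hi _ hs)
    · have := hc 1 s
      rw [one_smul] at this
      exact this.trans (hq1 1 rfl _)
    · have a1 : Continuous fun x : D₀.Sp × ℝ => q (Pt.g x.1) fun _ => x.2 :=
        continuous_prod (D := D₀) (F := fun p s => q (Pt.g p) fun _ => s)
          (fun p => (q _).cont.comp (by fun_prop)) fun m g i hi => by
          obtain rfl : m = 0 := by
            by_contra hm
            rw [hT₀ m (Nat.pos_of_ne_zero hm)] at hi
            exact absurd hi (Nat.not_lt_zero _)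
          exact (q g).cont.comp (by fun_prop)
      refine ContinuousOn.congr (a1.comp_continuousOn (f := fun x : D.Sp × ℝ => (tr D D₀ x.1, x.2))
        (((hE.agr.continuousOn hD₀ hE.wf).comp continuousOn_fst fun x hx => hx.1).prodMk
          continuousOn_snd)) fun x hx => if_pos hx.1
    · obtain rfl : k = 0 := Nat.le_zero.1 hk
      exact hcm
  have hU := h.wf.isClopen_sk h.top
  let lam := (h.ctx.PhiH 1).comp χn
  have hlam : ∀ g, lam (ω (κ g)) = 1 := fun g => by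
    rw [MonoidHom.comp_apply, ← hq', h.ctx.PhiH_cl]
    refine h.ctx.G2 (f := fun _ : Rn 0 => g • bp) continuous_const (fun _ => hb g 0) (v := bp)
      (fun t ht => absurd ht (not_out t)) (fun s => ?_) (q g) fun t => ?_
    · rw [h.ctx.base]; exact hE.wf.bp_mem 0
    · exact (congrArg (q g) (funext fun j => congrArg t (Subsingleton.elim (α := Fin 1) j 0))).trans
        (hc g _).symm
  choose ψ hψ hψ' using fun j => hpath (r j) 1
  have hψb : ∀ j t, 1 ≤ ‖t‖ → ψ j t = bp := fun j t ht => by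
    rcases one_le_norm_succ.1 ht with h' | h' | h'
    · rw [(hψ j).lo t h', hr1, mul_one, one_smul]
    · rw [(hψ j).hi t h', one_smul]
    · exact absurd h' (not_out _)
  obtain ⟨D', hE'⟩ := exists_ext h.wf h.top (fun j => (ψ j).f) (fun j => (ψ j).cont)
    (fun j => (ψ j).mem) hψb
  obtain ⟨χ, hχ⟩ := exists_lc fun g j => ab (cl (gn hE.wf hE.E g j))
  obtain ⟨χ', hχ'⟩ := exists_lc fun g j => ab (cl (gn hE'.wf hE'.E g j))
  obtain ⟨d, hd⟩ := exists_lin (G := G) fun j => az (ω (r j))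
  obtain ⟨s₀, hs₀⟩ := exists_lcZ fun g => az (ω (κ g))
  have hab : ∀ u, ab (χn u) = χ (az u) := fun u => by
    induction u using FreeGroup.induction_on with
    | C1 => rw [map_one, ab_one, az_one, map_zero]
    | of x => rw [hχn x.1 x.2, az_of x.1 x.2, hχ]
    | inv_of x ih => rw [map_inv, ab_inv, az_inv, map_neg, ih]
    | mul u v ih ih' => rw [map_mul, ab_mul, az_mul, map_add, ih, ih']
  have hcl : ∀ g j (f : GG D 0), (∀ t, f t = HSMul.hSMul (β := Pt G) (γ := Pt G) g (ψ j t)) →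
      cl f = χn (act g (ω (r j))) := fun g j f hf => by
    obtain ⟨T, hT⟩ := exists_tl D 0 g
    have : T.comp χn = χn.comp (act g) := FreeGroup.ext_hom _ _ fun x => by
      rw [MonoidHom.comp_apply, MonoidHom.comp_apply, act_of g x.1 x.2, hχn x.1 x.2, hχn]
      exact hT _ _ fun t => (smul_χ (D := D) g x.1 x.2 t).symm
    rw [← hT (ψ j) f hf, hψ', act_one]
    exact DFunLike.congr_fun this _
  have hj := jd h.top hE'.agr
  have hfill : ∀ g j, Fill (tr D D') (lam (act g (ω (r j)))) (cl (gn hE'.wf hE'.E g j)) :=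
    fun g j => by
    obtain ⟨f, hf, hf'⟩ := hE'.fill h g j
    rwa [← h.ctx.PhiH_cl, hcl g j f hf] at hf'
  have hdd : ∀ w, d₁ (d w) = 0 := DFunLike.congr_fun
    (C_ext (φ := d₁.toAddMonoidHom.comp d.toAddMonoidHom) (ψ := 0) fun g j => by
      simp [hd, hd2 ω hω, hr1])
  obtain ⟨φ, hφ⟩ := exists_fill_ker (m := 0) hj hU (hE'.wf.isClopen_sk hE'.top) (h.wf.bp_mem 1)
  have hN : (φ.comp lam).ker = ⊤ := hω.normal_eq_top hRπ κ hκ _
    (fun g x hx => by
      obtain ⟨j, rfl⟩ := hr ▸ hx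
      exact (hφ _).1 ⟨_, hfill g j⟩)
    fun g => by rw [MonoidHom.mem_ker, MonoidHom.comp_apply, hlam, map_one]
  have hN' : ∀ u, ∃ β : AA D' 1, Fill (tr D D') (lam u) β := fun u =>
    (hφ _).2 (hN ▸ Subgroup.mem_top u : u ∈ (φ.comp lam).ker)
  let p : C G n →+ C G n := s₀.comp d₁.toAddMonoidHom
  let S : Subgroup (FC G n) :=
    { carrier := {u | ∃ w, ∃ β : AA D' 1, d w = az u - p (az u) ∧ Fill (tr D D') (lam u) β ∧
        ab β = χ' w}
      one_mem' := ⟨0, 1, by simp [az_one], by rw [map_one]; exact Fill.one hj (h.wf.bp_mem 1),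
        by simp [ab_one]⟩
      mul_mem' := fun ⟨w, β, h1, h2, h3⟩ ⟨w', β', h1', h2', h3'⟩ =>
        ⟨w + w', β * β', by rw [map_add, h1, h1', az_mul, map_add]; abel,
          by rw [map_mul]; exact h2.mul h2', by rw [ab_mul, h3, h3', map_add]⟩
      inv_mem' := fun ⟨w, β, h1, h2, h3⟩ =>
        ⟨-w, β⁻¹, by rw [map_neg, h1, az_inv, map_neg]; abel,
          by rw [map_inv]; exact h2.inv, by rw [ab_inv, h3, map_neg]⟩ }
  have hSn : S.Normal := ⟨fun u hu v => by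
    obtain ⟨w, β, h1, h2, h3⟩ := hu
    obtain ⟨γ, hγ⟩ := hN' v
    have e1 : az (v * u * v⁻¹) = az u := by rw [az_mul, az_mul, az_inv]; abel
    exact ⟨w, γ * β * γ⁻¹, by rw [e1, h1], by
      rw [map_mul, map_mul, map_inv]; exact (hγ.mul h2).mul hγ.inv, by
      rw [ab_mul, ab_mul, ab_inv, h3]; abel⟩⟩
  have hS : S = ⊤ := hω.normal_eq_top hRπ κ hκ S
    (fun g x hx => by
      obtain ⟨j, rfl⟩ := hr ▸ hx
      refine ⟨e g j, _, ?_, hfill g j, (hχ' g j).symm⟩
      rw [az_act, ← hd]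
      simp [p, hdd])
    fun g => ⟨0, 1, by simp [p, hd2 ω hω, hκ, hs₀, hκ1, hω.one, az_one],
      by rw [hlam]; exact Fill.one hj (h.wf.bp_mem 1), by simp [ab_one]⟩
  have hB : ∀ g i, ∃ (w : C G k) (β : AA D' 1), d w = e g i - p (e g i) ∧
      Fill (tr D D') (cl (h.ctx.Phi (gn h.wf hE.E g i))) β ∧ ab β = χ' w := fun g i => by
    obtain ⟨w, β, h1, h2, h3⟩ : FreeGroup.of (g, i) ∈ S := hS ▸ Subgroup.mem_top _
    rw [az_of] at h1
    rw [MonoidHom.comp_apply, hχn, h.ctx.PhiH_cl] at h2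
    exact ⟨w, β, h1, h2, h3⟩
  have hrange : LinearMap.range d = LinearMap.ker d₁ := by
    refine le_antisymm (fun _ ⟨w, hw⟩ => hw ▸ hdd w) fun y hy => ?_
    have : y - p y ∈ LinearMap.range d :=
      C_ind (S := (LinearMap.range d).toAddSubgroup.comap (AddMonoidHom.id (C G n) - p))
        (fun g i => (hB g i).imp fun w ⟨_, hw, _⟩ => hw) y
    simpa [p, LinearMap.mem_ker.1 hy] using this
  obtain ⟨c', hc', -⟩ := h.step_end hE.E hE' hχ hχ' d
    (fun g j f hf => by rw [hcl g j f hf, hab, az_act, hd]) (mfp_ker_of_range hd3 d hrange) p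
    (fun w => by simp [p, hdd]) hB
  exact ⟨D', c', hc'⟩

theorem wf_of_agr {D : Dt G} (h : ∀ n, ∃ D' : Dt G, D'.WF ∧ Agr (n + 1) D' D) : D.WF := by
  refine ⟨?_, fun n i hi => ?_, fun n i hi => ?_, fun n i hi S hS => ?_⟩
  · obtain ⟨D', h1, h2⟩ := h 0
    rw [← h2.1 0 zero_le_one, h1.E0]
  all_goals obtain ⟨D', h1, h2⟩ := h n
  all_goals rw [← h2.1 _ le_rfl] at hi
  all_goals rw [← h2.2 n n.lt_succ_self]
  · rw [← h2.sk_eq n.le_succ]; exact h1.mem n i hi
  · exact h1.out n i hi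
  · exact h1.cont n i hi S ((h2.mono n.le_succ).symm.Cl hS)

theorem exists_limit (h1 : Group.IsFinitelyPresented G) (h2 : FPinf G) :
    ∃ (D : Dt G) (c : Pt G → ℝ → Pt G), D.WF ∧
      ContinuousOn (Y := D.Sp) (fun q : D.Sp × ℝ => c q.1 q.2) (D.all ×ˢ univ) ∧
      (∀ y ∈ D.all, c y (-1) = y) ∧ (∀ y ∈ D.all, c y 1 = bp) ∧
      ∀ y ∈ D.all, ∀ s, c y s ∈ D.all := by
  let St : ℕ → Type := fun m => {x : Dt G × (Pt G → ℝ → Pt G) // Inv m x.1 x.2}
  have step : ∀ m (x : St m), ∃ y : St (m + 1), Agr (m + 2) x.1.1 y.1.1 ∧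
      ∀ p ∈ x.1.1.sk (m + 1), y.1.2 p = x.1.2 p := fun m x => by
    obtain ⟨D', c', a1, a2, a3⟩ := x.2.step
    exact ⟨⟨(D', c'), a1⟩, a2, a3⟩
  choose nx hn1 hn2 using step
  obtain ⟨D₀, c₀, h₀⟩ := exists_base h1 h2
  let sq : ∀ m, St m := fun m => Nat.rec ⟨(D₀, c₀), h₀⟩ nx m
  let Ds : ℕ → Dt G := fun m => (sq m).1.1
  let cs : ℕ → Pt G → ℝ → Pt G := fun m => (sq m).1.2
  have hp : ∀ m, Pre (m + 1) (Ds m) (cs m) := fun m => (sq m).2.pre
  have hle : ∀ m m', m ≤ m' → Agr (m + 2) (Ds m) (Ds m') ∧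
      ∀ p ∈ (Ds m).sk (m + 1), cs m' p = cs m p := fun m m' hm => by
    induction m', hm using Nat.le_induction with
    | base => exact ⟨⟨fun _ _ => rfl, fun _ _ => rfl⟩, fun _ _ => rfl⟩
    | succ n hn ih =>
      refine ⟨ih.1.trans ((hn1 n (sq n)).mono (by omega)), fun p hp' => ?_⟩
      rw [← ih.2 p hp']
      exact hn2 n (sq n) p (sk_mono (by omega) (ih.1.sk_eq (m + 1).le_succ ▸ hp'))
  let D : Dt G := ⟨fun n => (Ds n).E n, fun n => (Ds n).φ n⟩
  have hA : ∀ m, Agr (m + 2) (Ds m) D := fun m => ⟨fun n hn => by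
      rcases le_total m n with h | h
      exacts [(hle m n h).1.1 n hn, ((hle n m h).1.1 n (by omega)).symm], fun n hn => by
      rcases le_total m n with h | h
      exacts [(hle m n h).1.2 n hn, ((hle n m h).1.2 n (by omega)).symm]⟩
  have hD : D.WF := wf_of_agr fun n => ⟨Ds n, (hp n).wf, (hA n).mono (n + 1).le_succ⟩
  have hsk : ∀ y ∈ D.all, y ∈ (Ds y.n).sk y.n := fun y hy =>
    (hA y.n).sk_eq (m := y.n) (by omega) ▸ ⟨le_rfl, hy⟩
  refine ⟨D, fun y => cs y.n y, hD, ?_, fun y _ => (hp _).ctx.lo _ _ le_rfl,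
    fun y hy => (hp _).ctx.hi _ (sk_mono y.n.le_succ (hsk y hy)) _ le_rfl, fun y hy s => ?_⟩
  · refine continuousOn_prod hD (Z := D.Sp) (F := fun y => cs (Pt.n y) y) fun n g i hi => ?_
    have e1 := (hA n).χ_eq (m := n) (by omega)
    have hm : ∀ t, (Ds n).χ n g i t ∈ (Ds n).sk (n + 1) := fun t =>
      sk_mono n.le_succ ((hp n).wf.χ_mem g hi t)
    have a1 : Continuous (Y := D.Sp) fun q : Rn n × ℝ => cs n ((Ds n).χ n g i q.1) q.2 :=
      ((hA n).continuous (hp n).top).comp ((hp n).ctx.cont_c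
        ((continuous_χ (D := Ds n) g hi).comp continuous_fst) continuous_snd fun _ _ => hm _)
    refine a1.congr fun q => ?_
    have a2 := hD.χ_mem g hi q.1
    rw [e1, (hle _ n a2.1).2 _ (sk_mono (Nat.le_succ _) (hsk _ a2.2))]
  · have := (hp _).ctx.mem _ (sk_mono y.n.le_succ (hsk y hy)) s
    exact ((hA y.n).sk_eq le_rfl ▸ this : cs y.n y s ∈ D.sk (y.n + 2)).2

end Crest.Agent.R185.T1
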