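import Crest.Agent.R185.Mod
import Crest.Agent.R185.FPres
import Crest.Agent.R185.T1E
import Crest.Agent.R185.T1H

/-!
# Row 185, T1: finitely presented + `FP∞` ⇒ finite type classifying complex (SUB-LEAD task R185-T1)

Complete paper proof (no Hurewicz / Whitehead / cellular approximation needed).

We build a free `G`-CW complex `Y = ⋃ Y_n` with finitely many orbits of cells in each dimension, together with a
(non equivariant) contraction `c`, cell by cell; `X = Y/G`.  Cells are cubes `I^n` (`Fin n → I`, or `closedBall 0 1` of
`Fin n → ℝ`, which is the cube used by Mathlib's `CWComplex`).  Base point `* = 1 ∈ G = Y_0`.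
An `(n+1)`-cell `g e` (`n ≥ 1`) is attached by a map of `∂ I^{n+1}` which is `g φ_e` on the *bottom face* and constant `g *`
on all other faces, where `φ_e : (I^n, ∂) → (Y_n, *)` is a `GenLoop`.

ALGEBRA.  `C_n` = free `ℤG`-module on the (finite) set `E_n` of orbits of `n`-cells; `∂ : C_{n+1} → C_n` is *defined* on
basis elements (`∂ e = z_e`), where the `z_e` generate `Z_n = ker ∂` as a module: possible by `MFP.ker` (`Z_n` stays
`MFP k` for all `k`).  `n = 0,1`: Cayley complex of a finite presentation `⟨x ∈ E_1 | r ∈ E_2⟩` (Fox calculus).
`s : C_{n-1} → C_n` a `ℤ`-linear contraction, `∂ s + s ∂ = id` (built along the way; `s` of a basis element `g e` is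
any/the chosen preimage of the cycle `g e - s ∂ (g e)`).

ABSTRACT RELATIVE GROUPS.  `A_n` = free abelian group on continuous `f : (I^n, ∂ I^n) → (Y_n, Y_{n-1})` modulo
(i) homotopy through such maps of pairs, (ii) `f = 0` if `f(I^n) ⊆ Y_{n-1}`, (iii) subdivision: `f = f₁ + f₂` if `f₁,f₂` are the
two halves of `f` in some coordinate direction and the middle wall goes to `Y_{n-1}`.  `G` acts on `A_n`;
`χ : C_n → A_n` (characteristic maps) is equivariant; `ι : π_n(Y_n,*) → A_n` is a homomorphism.
INDUCTIVE DATA at stage `n`: `Y_n`; `c : Y_{n-1} × I → Y_n` continuous, `c(y,0) = y`, `c(y,1) = *`, `c(*,·) = *`,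
`c(Y_{j-1} × I) ⊆ Y_j`; with
 (a) `[φ_e] = χ (∂ e)` in `A_{n-1}` for `e ∈ E_n`;  (b) `K χ = χ s : C_{n-1} → A_n`, where
 `K : A_{n-1} → A_n`, `K[f] = [c ∘ (f × id)]` (well defined: sides go to `c(Y_{n-2} × I) ⊆ Y_{n-1}`).
`Φ : A_n → π_n(Y_n,*)` (`n ≥ 2`; hom): `Φ f` = `f` on the inner cube, `c ∘ (f|∂ × id)` on the collar.  Geometric lemmas:
 G1 `Φ` respects (i),(iii) and (ii) [for `f` into `Y_{n-1}`: contract with `c`];  G2 `Φ K = 0` (cone on a cone);
 G3 `ι Φ χ(g e) = χ(g e) - K[g φ_e]` (subdivide the collar; the other collar pieces are `c` of constants `g*`, they map into `Y_1 ⊆ Y_{n-1}`);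
 hence `ι Φ χ (y) = χ (y - s ∂ y)` and `ι Φ χ z = χ z` for cycles `z`: choose `φ_e` representing `Φ χ z_e`, giving (a) at stage `n+1`.
 G4 `𝓕 = {([f|bottom], [f]) | f : I^{n+1} → Y_{n+1}, bottom face → Y_n, all other faces ↦ *} ⊆ π_n(Y_n,*) × A_{n+1}` is a
 subgroup (concatenate / reverse in a coordinate of the bottom face; reversal is `-` by (i)-(iii));
 G5 `(Φ[g φ_e], χ(g e)) ∈ 𝓕` (whisker the cell `g e` along the path `c(g*,·)`); and `[g φ_e] = g χ z_e = χ (g z_e)`.
 So `(Φ χ ∂ w, χ w) ∈ 𝓕` for all `w ∈ C_{n+1}`.  For a basis element `y = g e ∈ C_n` put `w = s y` (`∂ w = y - s ∂ y`);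
 `Φ χ ∂ w = Φ χ y - Φ K χ ∂ y = Φ χ y`.
 G6 from `f` as in `𝓕` with `[f|bottom] = Φ χ y` build the extension of `c` over the cell `y` (a map `I^n × I → Y_{n+1}` which is
 `χ_y` on the bottom, `c` on the sides, `*` on top) with class `[f] ∈ A_{n+1}`: glue `f` with the homotopy in `Y_n`
 and reparametrise.  This is (b) at stage `n+1`.
 All reparametrisations are instances of ONE interpolation lemma: two maps `I^m → Y` of the form `H ∘ θ₀`, `H ∘ θ₁` with `θ_i` maps into a
 convex set (cube / cube × interval) are homotopic by the straight line; check the boundary condition along the line.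
 LOW DEGREES.  `c` on `Y_0`: edge paths of chosen words.  For `n = 1` replace `Φ` by `λ : ker (F(E_1) → G) → π_1(Y_1,*)` (loop of a word;
 a homomorphism or anti-homomorphism) and `Fox : F(E_1) → C_1`;  `{w | ∃ y ∈ C_2, ∂ y = Fox w ∧ (λ w, χ y) ∈ 𝓕}` is a subgroup containing
 all `u r u⁻¹`, hence everything; this defines `s` and `c` on `1`-cells simultaneously.  (a) for relators: subdivision (iii).
 (It may be convenient to take all relators of length ≤ 3, or to attach `2`-cells along iterated `Path.trans`.)
TOPOLOGY.  One carrier type `Y = Σ n, G × E_n × (open cell)`, skeleta as subsets, topologies coinduced from the characteristic maps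
 of closed cells; or an inductive tower of types with a direct limit.  `c` is continuous on `Y × I` because the
 map from the disjoint union of closed cells is a quotient map and `I` is locally compact
 (`IsQuotientMap.continuous_lift_prod_left` / `QuotientMap.prodMap`-type lemmas).  `T2`: separate points by continuous real functions
 extended cell by cell (Tietze on the closed ball, or radial extension; see `R197/Cw0.lean`).  Closure finiteness holds since the image of
 a compact set meets finitely many cells -- or simply put it in the inductive data (each `φ_e` lands in a finite subcomplex).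
 `Y → Y/G` is a covering: every point has an open neighbourhood `U` with `g U ∩ U = ∅` (`g ≠ 1`): start with the open cell containing
 it and thicken by radial collars in higher cells (equivariant construction); use `IsQuotientCoveringMap` and the fundamental group
 isomorphism in `Mathlib/Topology/Homotopy/Lifting.lean` as in `R197/CW.lean` (`LD.CubeSp.hcc`).  `X = Y/G` is CW with cells `E_n`.
 A useful alternative: build `X` first as an abstract "free `G`-CW from attaching data" package (independent of the homotopy
 induction): structure `Att n` of data, functor to spaces, lemmas: T2, CW, covering, extension of maps/homotopies over cells.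
-/

set_option autoImplicit false

namespace Crest.Agent.R185

theorem bridge (G : Type) [Group G] (h1 : Group.IsFinitelyPresented G) (h2 : FPinf G) :
    Crest.Topology.HasFiniteTypeClassifyingComplex G := by
  obtain ⟨D, c, hD, hc, lo, hi, mem⟩ := T1.exists_limit h1 h2
  exact hD.final c hc lo hi mem

end Crest.Agent.R185
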