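import Mathlib

/-!
# Row 185, T1A: maps of pairs on cubes and the abstract relative groups `A m U V`

The cube is the unit ball of `Fin m → ℝ`; a generator is a map of pairs
`(ℝ^m, {1 ≤ ‖t‖}) → (U, V)`.  `A m U V` is the group generated by these maps, modulo homotopy, maps into `V`
and subdivision.  For `V = {b}` and `U` clopen it is `π_m` (`pi_surj`, `pi_inj`, `pi_comm`).
-/

set_option autoImplicit false

namespace Crest.Agent.R185.T1

open unitInterval Set Function

abbrev Rn (m : ℕ) : Type := Fin m → ℝ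

variable {Y Y' : Type} [TopologicalSpace Y] [TopologicalSpace Y'] {m : ℕ} {U V : Set Y}
  {U' V' : Set Y'}

/-- maps of pairs -/
structure Gen (m : ℕ) (U V : Set Y) where
  f : Rn m → Y
  cont : Continuous f
  mem : ∀ t, f t ∈ U
  out : ∀ t, 1 ≤ ‖t‖ → f t ∈ V

instance : CoeFun (Gen m U V) fun _ => Rn m → Y := ⟨Gen.f⟩

theorem Gen.ext' {f g : Gen m U V} (h : ∀ t, f t = g t) : f = g := by
  cases f; cases g; congr; exact funext h

/-- homotopy of maps of pairs -/
def PH (U V : Set Y) (f g : Rn m → Y) : Prop :=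
  ∃ H : I × Rn m → Y, Continuous H ∧ (∀ t, H (0, t) = f t) ∧ (∀ t, H (1, t) = g t) ∧
    (∀ s t, H (s, t) ∈ U) ∧ ∀ s t, 1 ≤ ‖t‖ → H (s, t) ∈ V

/-- `f` is `f₁` followed by `f₂` in direction `i` -/
def IsCat (i : Fin m) (f₁ f₂ f : Rn m → Y) : Prop :=
  ∀ t, (t i ≤ 0 → f t = f₁ (update t i (2 * t i + 1))) ∧
    (0 ≤ t i → f t = f₂ (update t i (2 * t i - 1)))

def rels (m : ℕ) (U V : Set Y) : Set (FreeGroup (Gen m U V)) :=
  {r | (∃ f g : Gen m U V, PH U V f g ∧ r = FreeGroup.of f * (FreeGroup.of g)⁻¹) ∨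
    (∃ f : Gen m U V, (∀ t, f t ∈ V) ∧ r = FreeGroup.of f) ∨
    ∃ (i : Fin m) (f₁ f₂ f : Gen m U V), IsCat i f₁ f₂ f ∧
      r = FreeGroup.of f * (FreeGroup.of f₂ * FreeGroup.of f₁)⁻¹}

/-- the abstract relative group -/
def A (m : ℕ) (U V : Set Y) : Type := PresentedGroup (rels m U V)

instance : Group (A m U V) := inferInstanceAs (Group (PresentedGroup (rels m U V)))

/-- the class of a generator -/
def cl (f : Gen m U V) : A m U V := (PresentedGroup.of f : PresentedGroup (rels m U V))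

theorem le_norm_iff {a : ℝ} (ha : 0 < a) {t : Rn m} : a ≤ ‖t‖ ↔ ∃ j, a ≤ |t j| := by
  rw [← not_lt, pi_norm_lt_iff ha]
  simp [Real.norm_eq_abs]

theorem lt_norm_iff {a : ℝ} (ha : 0 ≤ a) {t : Rn m} : a < ‖t‖ ↔ ∃ j, a < |t j| := by
  rw [← not_le, pi_norm_le_iff_of_nonneg ha]
  simp [Real.norm_eq_abs]

theorem norm_succ (t : Rn (m + 1)) : ‖t‖ = max |t 0| ‖Fin.tail t‖ := by
  refine le_antisymm ((pi_norm_le_iff_of_nonneg (by positivity)).2 fun j => ?_) (max_le ?_ ?_)
  · refine Fin.cases ?_ (fun j => ?_) j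
    · exact le_max_left _ _
    · exact (norm_le_pi_norm (Fin.tail t) j).trans (le_max_right _ _)
  · exact norm_le_pi_norm t 0
  · exact (pi_norm_le_iff_of_nonneg (norm_nonneg _)).2 fun j => norm_le_pi_norm t j.succ

theorem one_le_norm_succ {t : Rn (m + 1)} :
    1 ≤ ‖t‖ ↔ t 0 ≤ -1 ∨ 1 ≤ t 0 ∨ 1 ≤ ‖Fin.tail t‖ := by
  rw [norm_succ, le_max_iff, le_abs', or_assoc]

@[fun_prop] theorem continuous_tail {T : Type*} [TopologicalSpace T] {f : T → Rn (m + 1)}
    (hf : Continuous f) : Continuous fun x => (Fin.tail (f x) : Rn m) := by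
  exact continuous_pi fun j => (continuous_apply j.succ).comp hf

@[fun_prop] theorem continuous_cons {T : Type*} [TopologicalSpace T] {a : T → ℝ} {f : T → Rn m}
    (ha : Continuous a) (hf : Continuous f) :
    Continuous fun x => (Fin.cons (a x) (f x) : Rn (m + 1)) := by
  refine continuous_pi fun j => Fin.cases ?_ (fun j => ?_) j
  · exact ha
  · exact (continuous_apply j).comp hf

theorem PH.symm {f g : Rn m → Y} (h : PH U V f g) : PH U V g f := by
  obtain ⟨H, hH, h0, h1, hU, hV⟩ := h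
  exact ⟨fun p => H (σ p.1, p.2), by fun_prop, fun t => by simpa using h1 t,
    fun t => by simpa using h0 t, fun s t => hU _ t, fun s t ht => hV _ t ht⟩

theorem PH.trans {f g k : Rn m → Y} (h : PH U V f g) (h' : PH U V g k) : PH U V f k := by
  obtain ⟨H, hH, h0, h1, hU, hV⟩ := h
  obtain ⟨H', hH', h0', h1', hU', hV'⟩ := h'
  refine ⟨fun p => if (p.1 : ℝ) ≤ 1 / 2 then H (projIcc 0 1 zero_le_one (2 * p.1), p.2)
    else H' (projIcc 0 1 zero_le_one (2 * p.1 - 1), p.2), ?_, fun t => ?_, fun t => ?_,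
    fun s t => ?_, fun s t ht => ?_⟩
  · refine Continuous.if_le ?_ ?_ (by fun_prop) continuous_const ?_
    · exact hH.comp ((continuous_projIcc.comp (by fun_prop)).prodMk continuous_snd)
    · exact hH'.comp ((continuous_projIcc.comp (by fun_prop)).prodMk continuous_snd)
    · intro p hp
      rw [hp]
      norm_num
      rw [h1, h0']
  · simpa using h0 t
  · norm_num
    exact h1' t
  · dsimp only; split_ifs; exacts [hU _ _, hU' _ _]
  · dsimp only; split_ifs; exacts [hV _ _ ht, hV' _ _ ht]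

theorem cl_ph {f g : Gen m U V} (h : PH U V f g) : cl f = cl g := by
  have := PresentedGroup.one_of_mem (rels := rels m U V) (Or.inl ⟨f, g, h, rfl⟩)
  rwa [map_mul, map_inv, mul_inv_eq_one] at this

theorem cl_triv {f : Gen m U V} (h : ∀ t, f t ∈ V) : cl f = 1 := by
  exact PresentedGroup.one_of_mem (rels := rels m U V) (Or.inr (Or.inl ⟨f, h, rfl⟩))

theorem cl_cat {i : Fin m} {f₁ f₂ f : Gen m U V} (h : IsCat i f₁ f₂ f) :
    cl f = cl f₂ * cl f₁ := by
  have := PresentedGroup.one_of_mem (rels := rels m U V) (Or.inr (Or.inr ⟨i, f₁, f₂, f, h, rfl⟩))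
  rwa [map_mul, map_inv, mul_inv_eq_one, map_mul] at this

theorem exists_lift {M : Type} [Group M] (F : Gen m U V → M)
    (h1 : ∀ f g : Gen m U V, PH U V f g → F f = F g) (h2 : ∀ f : Gen m U V, (∀ t, f t ∈ V) → F f = 1)
    (h3 : ∀ (i : Fin m) (f₁ f₂ f : Gen m U V), IsCat i f₁ f₂ f → F f = F f₂ * F f₁) :
    ∃ φ : A m U V →* M, ∀ f, φ (cl f) = F f := by
  refine ⟨PresentedGroup.toGroup (f := F) (rels := rels m U V) ?_, fun f =>
    PresentedGroup.toGroup.of _⟩
  rintro r (⟨f, g, h, rfl⟩ | ⟨f, h, rfl⟩ | ⟨i, f₁, f₂, f, h, rfl⟩)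
  · simp [h1 f g h]
  · simp [h2 f h]
  · simp [h3 i f₁ f₂ f h]

theorem out_update {t : Rn m} {i : Fin m} {a : ℝ} (ht : 1 ≤ ‖t‖) (h : 1 ≤ |t i| → 1 ≤ |a|) :
    1 ≤ ‖update t i a‖ := by
  obtain ⟨j, hj⟩ := (le_norm_iff one_pos).1 ht
  refine (le_norm_iff one_pos).2 ⟨j, ?_⟩
  by_cases hji : j = i
  · subst hji; rw [update_self]; exact h hj
  · rwa [update_of_ne hji]

theorem out_update_of {t : Rn m} {i : Fin m} {a : ℝ} (h : 1 ≤ |a|) : 1 ≤ ‖update t i a‖ :=
  (le_norm_iff one_pos).2 ⟨i, by rwa [update_self]⟩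

theorem out_update_or {t : Rn m} {i : Fin m} (a : ℝ) (ht : 1 ≤ ‖t‖) :
    1 ≤ ‖update t i a‖ ∨ 1 ≤ |t i| := by
  by_cases h : 1 ≤ |t i|
  · exact Or.inr h
  · exact Or.inl (out_update ht fun h' => absurd h' h)

/-- it suffices to check the canonical halves -/
theorem exists_lift' {M : Type} [Group M] (F : Gen m U V → M)
    (h1 : ∀ f g : Gen m U V, PH U V f g → F f = F g) (h2 : ∀ f : Gen m U V, (∀ t, f t ∈ V) → F f = 1)
    (h3 : ∀ (i : Fin m) (f₁ f₂ f : Gen m U V), (∀ t, t i = 0 → f t ∈ V) →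
      (∀ t, f₁ t = f (update t i (min ((t i - 1) / 2) 0))) →
      (∀ t, f₂ t = f (update t i (max ((t i + 1) / 2) 0))) → F f = F f₂ * F f₁) :
    ∃ φ : A m U V →* M, ∀ f, φ (cl f) = F f := by
  refine exists_lift F h1 h2 fun i f₁ f₂ f h => ?_
  have hw : ∀ t, t i = 0 → f t ∈ V := fun t ht => by
    rw [(h t).1 ht.le]
    exact f₁.out _ (out_update_of (by simp [ht]))
  have e₁ : ∀ t, f (update t i (min ((t i - 1) / 2) 0)) = f₁ (update t i (min (t i) 1)) := by
    intro t
    rw [(h _).1 (by simp), update_idem, update_self]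
    congr 2
    rcases le_total (t i) 1 with h' | h'
    · rw [min_eq_left (by linarith), min_eq_left h']; ring
    · rw [min_eq_right (by linarith), min_eq_right h']; ring
  have e₂ : ∀ t, f (update t i (max ((t i + 1) / 2) 0)) = f₂ (update t i (max (t i) (-1))) := by
    intro t
    rw [(h _).2 (by simp), update_idem, update_self]
    congr 2
    rcases le_total (t i) (-1) with h' | h'
    · rw [max_eq_right (by linarith), max_eq_right h']; ring
    · rw [max_eq_left (by linarith), max_eq_left h']; ring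
  have o₁ : ∀ (s : ℝ) (t : Rn m), 0 ≤ s → s ≤ 1 → 1 ≤ ‖t‖ →
      1 ≤ ‖update t i ((1 - s) * t i + s * min (t i) 1)‖ := by
    intro s t h0 h1 ht
    refine out_update ht fun h' => ?_
    rcases le_abs'.1 h' with h' | h'
    · rw [min_eq_left (by linarith)]; exact le_abs'.2 (Or.inl (by linarith))
    · rw [min_eq_right h']; exact le_abs'.2 (Or.inr (by nlinarith))
  have o₂ : ∀ (s : ℝ) (t : Rn m), 0 ≤ s → s ≤ 1 → 1 ≤ ‖t‖ →
      1 ≤ ‖update t i ((1 - s) * t i + s * max (t i) (-1))‖ := by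
    intro s t h0 h1 ht
    refine out_update ht fun h' => ?_
    rcases le_abs'.1 h' with h' | h'
    · rw [max_eq_right h']; exact le_abs'.2 (Or.inl (by nlinarith))
    · rw [max_eq_left (by linarith)]; exact le_abs'.2 (Or.inr (by linarith))
  let g₁ : Gen m U V := ⟨fun t => f₁ (update t i (min (t i) 1)), f₁.cont.comp (by fun_prop),
    fun _ => f₁.mem _, fun t ht => f₁.out _ (by simpa using o₁ 1 t zero_le_one le_rfl ht)⟩
  let g₂ : Gen m U V := ⟨fun t => f₂ (update t i (max (t i) (-1))), f₂.cont.comp (by fun_prop),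
    fun _ => f₂.mem _, fun t ht => f₂.out _ (by simpa using o₂ 1 t zero_le_one le_rfl ht)⟩
  rw [h3 i g₁ g₂ f hw (fun t => (e₁ t).symm) (fun t => (e₂ t).symm), h1 f₁ g₁, h1 f₂ g₂]
  · exact ⟨fun p => f₂ (update p.2 i ((1 - p.1) * p.2 i + p.1 * max (p.2 i) (-1))),
      f₂.cont.comp (by fun_prop), fun t => by simp, fun t => by simp [g₂], fun _ _ => f₂.mem _,
      fun s t ht => f₂.out _ (o₂ s t s.2.1 s.2.2 ht)⟩
  · exact ⟨fun p => f₁ (update p.2 i ((1 - p.1) * p.2 i + p.1 * min (p.2 i) 1)),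
      f₁.cont.comp (by fun_prop), fun t => by simp, fun t => by simp [g₁], fun _ _ => f₁.mem _,
      fun s t ht => f₁.out _ (o₁ s t s.2.1 s.2.2 ht)⟩

theorem hom_ext {M : Type} [Group M] {φ ψ : A m U V →* M} (h : ∀ f, φ (cl f) = ψ (cl f)) :
    φ = ψ := by
  exact PresentedGroup.ext (rels := rels m U V) h

/-- the clamp -/
def kap (t : Rn m) : Rn m := fun j => max (-1) (min (t j) 1)

@[fun_prop] theorem continuous_kap : Continuous (kap : Rn m → Rn m) := by
  unfold kap; fun_prop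

theorem norm_kap_le (t : Rn m) : ‖kap t‖ ≤ 1 :=
  (pi_norm_le_iff_of_nonneg zero_le_one).2 fun j =>
    abs_le.2 ⟨le_max_left _ _, max_le (by norm_num) (min_le_right _ _)⟩

theorem kap_of_le {t : Rn m} (ht : ‖t‖ ≤ 1) : kap t = t := by
  funext j
  have := abs_le.1 ((norm_le_pi_norm t j).trans ht)
  rw [kap, min_eq_left this.2, max_eq_right this.1]

theorem out_kap (s : ℝ) (h0 : 0 ≤ s) (h1 : s ≤ 1) {t : Rn m} (ht : 1 ≤ ‖t‖) :
    1 ≤ ‖(1 - s) • t + s • kap t‖ := by
  obtain ⟨j, hj⟩ := (le_norm_iff one_pos).1 ht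
  refine (le_norm_iff one_pos).2 ⟨j, ?_⟩
  simp only [Pi.add_apply, Pi.smul_apply, smul_eq_mul, kap]
  rcases le_abs'.1 hj with h' | h'
  · rw [min_eq_left (by linarith), max_eq_left h']; exact le_abs'.2 (Or.inl (by nlinarith))
  · rw [min_eq_right h', max_eq_right (by norm_num)]; exact le_abs'.2 (Or.inr (by nlinarith))

theorem norm_kap_eq {t : Rn m} (ht : 1 ≤ ‖t‖) : ‖kap t‖ = 1 :=
  le_antisymm (norm_kap_le t) (by simpa using out_kap 1 zero_le_one le_rfl ht)

theorem ph_kap (f : Gen m U V) : PH U V f fun t => f (kap t) :=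
  ⟨fun p => f ((1 - (p.1 : ℝ)) • p.2 + (p.1 : ℝ) • kap p.2), f.cont.comp (by fun_prop),
    fun t => by simp, fun t => by simp, fun _ _ => f.mem _,
    fun s _ ht => f.out _ (out_kap s s.2.1 s.2.2 ht)⟩

/-- a homotopy on the closed cube suffices -/
theorem ph_cube {f g : Gen m U V} (H : I × Rn m → Y) (hH : Continuous H)
    (h0 : ∀ t, ‖t‖ ≤ 1 → H (0, t) = f t) (h1 : ∀ t, ‖t‖ ≤ 1 → H (1, t) = g t)
    (hU : ∀ s t, ‖t‖ ≤ 1 → H (s, t) ∈ U) (hV : ∀ s t, ‖t‖ = 1 → H (s, t) ∈ V) : PH U V f g := by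
  refine (ph_kap f).trans (PH.trans ?_ (ph_kap g).symm)
  exact ⟨fun p => H (p.1, kap p.2), hH.comp (by fun_prop), fun t => h0 _ (norm_kap_le t),
    fun t => h1 _ (norm_kap_le t), fun s t => hU s _ (norm_kap_le t),
    fun s t ht => hV s _ (norm_kap_eq ht)⟩

theorem cl_eqOn {f g : Gen m U V} (h : ∀ t, ‖t‖ ≤ 1 → f t = g t) : cl f = cl g :=
  cl_ph (ph_cube (fun p => f p.2) (f.cont.comp continuous_snd) (fun _ _ => rfl) h
    (fun _ t _ => f.mem t) fun _ t ht => f.out t ht.ge)

/-- reparametrisation -/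
def Gen.comp (f : Gen m U V) (θ : Rn m → Rn m) (hθ : Continuous θ)
    (h : ∀ t, 1 ≤ ‖t‖ → f (θ t) ∈ V) : Gen m U V :=
  ⟨fun t => f (θ t), f.cont.comp hθ, fun _ => f.mem _, h⟩

theorem exists_cat (i : Fin m) (f₁ f₂ : Gen m U V)
    (h : ∀ t, f₁ (update t i 1) = f₂ (update t i (-1))) : ∃ f : Gen m U V, IsCat i f₁ f₂ f := by
  refine ⟨⟨fun t => if t i ≤ 0 then f₁ (update t i (2 * t i + 1)) else f₂ (update t i (2 * t i - 1)),
    ?_, fun t => ?_, fun t ht => ?_⟩, fun t => ⟨fun ht => if_pos ht, fun ht => ?_⟩⟩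
  · refine Continuous.if_le (f₁.cont.comp (by fun_prop)) (f₂.cont.comp (by fun_prop))
      (by fun_prop) continuous_const fun t ht => ?_
    simpa [ht] using h t
  · split_ifs; exacts [f₁.mem _, f₂.mem _]
  · split_ifs with h'
    · refine f₁.out _ (out_update ht fun h'' => ?_)
      rcases le_abs'.1 h'' with h'' | h''
      · exact le_abs'.2 (Or.inl (by linarith))
      · linarith
    · refine f₂.out _ (out_update ht fun h'' => ?_)
      rcases le_abs'.1 h'' with h'' | h''
      · linarith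
      · exact le_abs'.2 (Or.inr (by linarith))
  · dsimp only
    split_ifs with h'
    · have e : t i = 0 := le_antisymm h' ht
      simpa [e] using h t
    · rfl

theorem exists_rev (i : Fin m) (f : Gen m U V) :
    ∃ g : Gen m U V, (∀ t, g t = f (update t i (-t i))) ∧ cl g = (cl f)⁻¹ := by
  let g : Gen m U V := f.comp (fun t => update t i (-t i)) (by fun_prop) fun t ht =>
    f.out _ (out_update ht fun h => by rwa [abs_neg])
  have o : ∀ (s : ℝ) (t : Rn m), 0 ≤ s → 1 ≤ ‖t‖ → 1 ≤ ‖update t i (1 - 2 * |t i| - 2 * s)‖ :=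
    fun s t hs ht => out_update ht fun h => le_abs'.2 (Or.inl (by linarith))
  let F : Gen m U V := f.comp (fun t => update t i (1 - 2 * |t i|)) (by fun_prop) fun t ht =>
    f.out _ (by simpa using o 0 t le_rfl ht)
  let F' : Gen m U V := f.comp (fun t => update t i (1 - 2 * |t i| - 2 * 1)) (by fun_prop)
    fun t ht => f.out _ (o 1 t zero_le_one ht)
  refine ⟨g, fun _ => rfl, eq_inv_of_mul_eq_one_left ?_⟩
  have h1 : IsCat i f g F := fun t => ⟨fun ht => by
      simp only [F, Gen.comp]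
      rw [abs_of_nonpos ht]; congr 2; ring, fun ht => by
      simp only [F, g, Gen.comp]
      rw [abs_of_nonneg ht, update_idem, update_self]; congr 2; ring⟩
  rw [← cl_cat h1, cl_ph (g := F') ⟨fun p => f (update p.2 i (1 - 2 * |p.2 i| - 2 * p.1)),
    f.cont.comp (by fun_prop), fun t => by simp [F, Gen.comp], fun t => rfl, fun _ _ => f.mem _,
    fun s t ht => f.out _ (o s t s.2.1 ht)⟩]
  exact cl_triv fun t => f.out _ (out_update_of (le_abs'.2 (Or.inl (by
    linarith [abs_nonneg (t i)]))))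

/-- functoriality -/
def Gen.map (j : Y → Y') (hj : Continuous j) (hU : MapsTo j U U') (hV : MapsTo j V V')
    (f : Gen m U V) : Gen m U' V' :=
  ⟨fun t => j (f t), hj.comp f.cont, fun t => hU (f.mem t), fun t ht => hV (f.out t ht)⟩

theorem exists_map (m : ℕ) (j : Y → Y') (hj : Continuous j) (hU : MapsTo j U U')
    (hV : MapsTo j V V') : ∃ φ : A m U V →* A m U' V',
      ∀ (f : Gen m U V) (g : Gen m U' V'), (∀ t, g t = j (f t)) → φ (cl f) = cl g := by
  obtain ⟨φ, hφ⟩ := exists_lift (fun f : Gen m U V => cl (f.map j hj hU hV))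
    (fun f g ⟨H, hH, h0, h1, hU', hV'⟩ => cl_ph ⟨fun p => j (H p), hj.comp hH,
      fun t => congrArg j (h0 t), fun t => congrArg j (h1 t), fun s t => hU (hU' s t),
      fun s t ht => hV (hV' s t ht)⟩)
    (fun f h => cl_triv fun t => hV (h t))
    (fun i f₁ f₂ f h => cl_cat (i := i) fun t =>
      ⟨fun ht => congrArg j ((h t).1 ht), fun ht => congrArg j ((h t).2 ht)⟩)
  exact ⟨φ, fun f g h => by rw [hφ, Gen.ext' (f := g) (g := f.map j hj hU hV) h]⟩

/-- the cone operator -/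
theorem exists_K (m : ℕ) (c : Y → ℝ → Y')
    (hc : ContinuousOn (fun p : Y × ℝ => c p.1 p.2) (U ×ˢ univ)) (hm : ∀ y ∈ U, ∀ s, c y s ∈ U')
    (hlo : ∀ y ∈ U, ∀ s, s ≤ -1 → c y s ∈ V') (hhi : ∀ y ∈ U, ∀ s, 1 ≤ s → c y s ∈ V')
    (hs : ∀ y ∈ V, ∀ s, c y s ∈ V') : ∃ φ : A m U V →* A (m + 1) U' V',
      ∀ (f : Gen m U V) (g : Gen (m + 1) U' V'), (∀ t, g t = c (f (Fin.tail t)) (t 0)) →
        φ (cl f) = cl g := by
  have cc : ∀ {T : Type} [TopologicalSpace T] {f : T → Y} {ρ : T → ℝ}, Continuous f → Continuous ρ →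
      (∀ t, f t ∈ U) → Continuous fun t => c (f t) (ρ t) := fun hf hρ h =>
    hc.comp_continuous (hf.prodMk hρ) fun t => ⟨h t, mem_univ _⟩
  have oo : ∀ (t : Rn (m + 1)) (y : Y), y ∈ U → (1 ≤ ‖Fin.tail t‖ → y ∈ V) → 1 ≤ ‖t‖ →
      c y (t 0) ∈ V' := fun t y hy h ht => by
    rcases one_le_norm_succ.1 ht with h' | h' | h'
    exacts [hlo y hy _ h', hhi y hy _ h', hs y (h h') _]
  let K : Gen m U V → Gen (m + 1) U' V' := fun f => ⟨fun t => c (f (Fin.tail t)) (t 0),
    cc (f.cont.comp (by fun_prop)) (by fun_prop) fun _ => f.mem _, fun t => hm _ (f.mem _) _,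
    fun t ht => oo t _ (f.mem _) (f.out _) ht⟩
  obtain ⟨φ, hφ⟩ := exists_lift (fun f : Gen m U V => cl (K f))
    (fun f g ⟨H, hH, h0, h1, hU', hV'⟩ => cl_ph ⟨fun p => c (H (p.1, Fin.tail p.2)) (p.2 0),
      cc (hH.comp (by fun_prop)) (by fun_prop) fun _ => hU' _ _,
      fun t => by simp only [h0, K], fun t => by simp only [h1, K], fun s t => hm _ (hU' _ _) _,
      fun s t ht => oo t _ (hU' _ _) (hV' _ _) ht⟩)
    (fun f h => cl_triv fun t => hs _ (h _) _)
    (fun i f₁ f₂ f h => cl_cat (i := i.succ) fun t => ⟨fun ht => by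
      simp only [K, Fin.tail_update_succ, update_of_ne (Fin.succ_ne_zero i).symm]
      exact congrArg (c · (t 0)) ((h (Fin.tail t)).1 ht), fun ht => by
      simp only [K, Fin.tail_update_succ, update_of_ne (Fin.succ_ne_zero i).symm]
      exact congrArg (c · (t 0)) ((h (Fin.tail t)).2 ht)⟩)
  exact ⟨φ, fun f g h => by rw [hφ, Gen.ext' (f := g) (g := K f) h]⟩

section Pi

open scoped Topology.Homotopy

variable {b : Y}

/-- from the unit cube to the ball -/
def toB (u : Fin m → I) : Rn m := fun j => 2 * u j - 1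

/-- from the ball to the unit cube -/
noncomputable def ofB (t : Rn m) : Fin m → I := fun j => projIcc 0 1 zero_le_one ((t j + 1) / 2)

@[fun_prop] theorem continuous_toB : Continuous (toB : (Fin m → I) → Rn m) := by
  unfold toB; fun_prop

@[fun_prop] theorem continuous_ofB : Continuous (ofB : Rn m → Fin m → I) :=
  continuous_pi fun _ => continuous_projIcc.comp (by fun_prop)

theorem toB_out {u : Fin m → I} (hu : u ∈ Cube.boundary (Fin m)) : 1 ≤ ‖toB u‖ := by
  obtain ⟨j, hj⟩ := hu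
  refine (le_norm_iff one_pos).2 ⟨j, ?_⟩
  rcases hj with hj | hj <;> norm_num [toB, hj]

theorem ofB_out {t : Rn m} (ht : 1 ≤ ‖t‖) : ofB t ∈ Cube.boundary (Fin m) := by
  obtain ⟨j, hj⟩ := (le_norm_iff one_pos).1 ht
  refine ⟨j, ?_⟩
  rcases le_abs'.1 hj with h | h
  · exact Or.inl (projIcc_of_le_left _ (by linarith))
  · exact Or.inr (projIcc_of_right_le _ (by linarith))

theorem toB_ofB {t : Rn m} (ht : ‖t‖ ≤ 1) : toB (ofB t) = t := by
  funext j
  have := abs_le.1 ((norm_le_pi_norm t j).trans ht)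
  rw [toB, ofB, projIcc_of_mem _ ⟨by linarith, by linarith⟩]
  dsimp only; ring

/-- the loop of a generator -/
def toLoop (f : Gen m U {b}) : Ω^ (Fin m) Y b :=
  ⟨⟨fun u => f (toB u), f.cont.comp continuous_toB⟩, fun _ hu => f.out _ (toB_out hu)⟩

theorem mem_of_clopen (hU : IsClopen U) {T : Type} [TopologicalSpace T] [PreconnectedSpace T]
    {f : T → Y} (hf : Continuous f) {t₀ : T} (h : f t₀ ∈ U) (t : T) : f t ∈ U := by
  have := (hU.preimage hf).eq_univ ⟨t₀, h⟩
  exact (this ▸ mem_univ t : t ∈ f ⁻¹' U)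

/-- the generator of a loop -/
noncomputable def ofLoop (hU : IsClopen U) (hb : b ∈ U) (p : Ω^ (Fin (m + 1)) Y b) :
    Gen (m + 1) U {b} :=
  ⟨fun t => p (ofB t), (map_continuous p).comp continuous_ofB,
    fun _ => mem_of_clopen hU (map_continuous p) (t₀ := fun _ => 0)
      (by rw [GenLoop.boundary p _ ⟨0, Or.inl rfl⟩]; exact hb) _,
    fun _ ht => p.2 _ (ofB_out ht)⟩

theorem toLoop_ph {f g : Gen m U {b}} (h : PH U {b} f g) :
    GenLoop.Homotopic (toLoop f) (toLoop g) := by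
  obtain ⟨H, hH, h0, h1, -, hV⟩ := h
  exact ⟨⟨⟨⟨fun p => H (p.1, toB p.2), hH.comp (by fun_prop)⟩, fun u => h0 _, fun u => h1 _⟩,
    fun s u hu => (hV s _ (toB_out hu)).trans (f.out _ (toB_out hu)).symm⟩⟩

theorem ofLoop_ph (hU : IsClopen U) (hb : b ∈ U) {p q : Ω^ (Fin (m + 1)) Y b}
    (h : GenLoop.Homotopic p q) : PH U {b} (ofLoop hU hb p) (ofLoop hU hb q) := by
  obtain ⟨H⟩ := h
  have hbd : ∀ s u, u ∈ Cube.boundary (Fin (m + 1)) → H (s, u) = b := fun s u hu =>
    (H.eq_fst s hu).trans (p.2 u hu)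
  exact ⟨fun x => H (x.1, ofB x.2), (map_continuous H).comp (by fun_prop), fun t => H.apply_zero _,
    fun t => H.apply_one _, fun s t => mem_of_clopen hU (map_continuous H) (t₀ := (0, fun _ => 0))
      (by rw [hbd _ _ ⟨0, Or.inl rfl⟩]; exact hb) _, fun s t ht => hbd s _ (ofB_out ht)⟩

theorem toLoop_cat {i : Fin m} {f₁ f₂ f : Gen m U {b}} (h : IsCat i f₁ f₂ f) :
    toLoop f = GenLoop.transAt i (toLoop f₁) (toLoop f₂) := by
  ext u
  have h0 := (u i).2.1
  have h1 := (u i).2.2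
  change f (toB u) = if (u i : ℝ) ≤ 1 / 2 then f₁ (toB _) else f₂ (toB _)
  split_ifs with hu
  · rw [(h _).1 (by simp only [toB]; linarith)]
    congr 1
    funext j
    by_cases hj : j = i
    · subst hj
      simp only [toB, update_self]
      rw [projIcc_of_mem _ ⟨by linarith, by linarith⟩]
      dsimp only; ring
    · simp only [toB, update_of_ne hj]
  · rw [(h _).2 (by simp only [toB]; linarith)]
    congr 1
    funext j
    by_cases hj : j = i
    · subst hj
      simp only [toB, update_self]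
      rw [projIcc_of_mem _ ⟨by linarith, by linarith⟩]
    · simp only [toB, update_of_ne hj]

theorem ofB_update (t : Rn m) (i : Fin m) (a : ℝ) :
    ofB (update t i a) = update (ofB t) i (projIcc 0 1 zero_le_one ((a + 1) / 2)) := by
  funext j
  by_cases hj : j = i
  · subst hj; simp only [ofB, update_self]
  · simp only [ofB, update_of_ne hj]

theorem ofLoop_cat (hU : IsClopen U) (hb : b ∈ U) (i : Fin (m + 1)) (p q : Ω^ (Fin (m + 1)) Y b) :
    IsCat i (ofLoop hU hb p) (ofLoop hU hb q) (ofLoop hU hb (GenLoop.transAt i p q)) := by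
  intro t
  have e : ofLoop hU hb (GenLoop.transAt i p q) t = if (ofB t i : ℝ) ≤ 1 / 2
      then p (update (ofB t) i (projIcc 0 1 zero_le_one (2 * ofB t i)))
      else q (update (ofB t) i (projIcc 0 1 zero_le_one (2 * ofB t i - 1))) := rfl
  have e' : (ofB t i : ℝ) = max 0 (min 1 ((t i + 1) / 2)) := rfl
  refine ⟨fun ht => ?_, fun ht => ?_⟩
  · have hm : min 1 ((t i + 1) / 2) = (t i + 1) / 2 := min_eq_right (by linarith)
    rw [e, if_pos (by rw [e', hm]; exact max_le (by norm_num) (by linarith))]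
    change p _ = p (ofB _)
    rw [ofB_update, e', hm]
    congr 2
    rcases le_total (t i) (-1) with h | h
    · rw [max_eq_left (by linarith), projIcc_of_le_left _ (by linarith),
        projIcc_of_le_left _ (by linarith)]
    · rw [max_eq_right (by linarith)]; congr 1; ring
  · rcases ht.eq_or_lt with h0 | h0
    · rw [e, if_pos (by rw [e', ← h0]; norm_num)]
      change p _ = q (ofB _)
      refine (GenLoop.boundary p _ ⟨i, Or.inr ?_⟩).trans 
        (GenLoop.boundary q _ (ofB_out (out_update_of ?_))).symm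
      · rw [update_self, e', ← h0]; norm_num
      · rw [← h0]; norm_num
    · have hm : (1 : ℝ) / 2 < min 1 ((t i + 1) / 2) := lt_min (by norm_num) (by linarith)
      have hm' : max 0 (min 1 ((t i + 1) / 2)) = min 1 ((t i + 1) / 2) := max_eq_right (by linarith)
      rw [e, if_neg (by rw [e', hm']; linarith)]
      change q _ = q (ofB _)
      rw [ofB_update, e', hm']
      congr 2
      rcases le_total (t i) 1 with h | h
      · rw [min_eq_right (by linarith)]; congr 1; ring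
      · rw [min_eq_left (by linarith), projIcc_of_right_le _ (by linarith),
          projIcc_of_right_le _ (by linarith)]

theorem ph_ofLoop_toLoop (hU : IsClopen U) (hb : b ∈ U) (f : Gen (m + 1) U {b}) :
    PH U {b} f (ofLoop hU hb (toLoop f)) :=
  ph_cube (fun p => f p.2) (f.cont.comp continuous_snd) (fun _ _ => rfl)
    (fun t ht => congrArg f (toB_ofB ht).symm) (fun _ t _ => f.mem t) fun _ t ht => f.out t ht.ge

end Pi

theorem exists_pi {b : Y} (hU : IsClopen U) (hb : b ∈ U) (m : ℕ) :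
    ∃ T : A (m + 1) U {b} →* HomotopyGroup (Fin (m + 1)) Y b, Injective T ∧
      (∀ a : A (m + 1) U {b}, ∃ f, cl f = a) ∧ ∀ f g : Gen (m + 1) U {b}, cl f = cl g → PH U {b} f g := by
  obtain ⟨T, hT⟩ := exists_lift (M := HomotopyGroup (Fin (m + 1)) Y b)
    (fun f : Gen (m + 1) U {b} => (⟦toLoop f⟧ : HomotopyGroup (Fin (m + 1)) Y b))
    (fun f g h => Quotient.sound (toLoop_ph h))
    (fun f h => by
      rw [HomotopyGroup.one_def]
      congr 1
      ext u
      exact h _)
    (fun i f₁ f₂ f h => by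
      rw [toLoop_cat h]
      exact HomotopyGroup.mul_spec.symm)
  let S : HomotopyGroup (Fin (m + 1)) Y b →* A (m + 1) U {b} := MonoidHom.mk'
    (Quotient.lift (fun p => cl (ofLoop hU hb p)) fun p q h => cl_ph (ofLoop_ph hU hb h)) (by
      rintro ⟨p⟩ ⟨q⟩
      have := HomotopyGroup.mul_spec (i := (0 : Fin (m + 1))) (p := p) (q := q)
      refine (congrArg _ this).trans ?_
      exact cl_cat (ofLoop_cat hU hb 0 q p))
  have hS : S.comp T = MonoidHom.id _ := hom_ext fun f => by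
    rw [MonoidHom.comp_apply, hT]
    exact (cl_ph (ph_ofLoop_toLoop hU hb f)).symm
  have hS' : ∀ a, S (T a) = a := fun a => DFunLike.congr_fun hS a
  refine ⟨T, LeftInverse.injective hS', fun a => ?_, fun f g h => ?_⟩
  · obtain ⟨p, hp⟩ := Quotient.exists_rep (T a)
    exact ⟨ofLoop hU hb p, by rw [← hS' a, ← hp]; rfl⟩
  · have h1 := congrArg T h
    rw [hT, hT] at h1
    exact (ph_ofLoop_toLoop hU hb f).trans
      ((ofLoop_ph hU hb (Quotient.exact h1)).trans (ph_ofLoop_toLoop hU hb g).symm)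

theorem pi_surj {b : Y} (hU : IsClopen U) (hb : b ∈ U) (a : A (m + 1) U {b}) : ∃ f, cl f = a :=
  (exists_pi hU hb m).choose_spec.2.1 a

theorem pi_inj {b : Y} (hU : IsClopen U) (hb : b ∈ U) {f g : Gen (m + 1) U {b}} (h : cl f = cl g) :
    PH U {b} f g :=
  (exists_pi hU hb m).choose_spec.2.2 f g h

theorem pi_comm {b : Y} (hU : IsClopen U) (hb : b ∈ U) (a a' : A (m + 2) U {b}) :
    a * a' = a' * a := by
  obtain ⟨T, hT, -⟩ := exists_pi hU hb (m + 1)
  exact hT (by rw [map_mul, map_mul, mul_comm])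

/-- the abelianised group -/
abbrev Ab (m : ℕ) (U V : Set Y) : Type := Additive (Abelianization (A m U V))

def ab (a : A m U V) : Ab m U V := Additive.ofMul (Abelianization.of a)

theorem ab_mul (a a' : A m U V) : ab (a * a') = ab a + ab a' := by simp [ab]
theorem ab_one : ab (1 : A m U V) = 0 := by simp [ab]
theorem ab_inv (a : A m U V) : ab a⁻¹ = -ab a := by simp [ab]

theorem ab_surj (x : Ab m U V) : ∃ a, ab a = x := by
  obtain ⟨a, ha⟩ := QuotientGroup.mk_surjective (Additive.toMul x)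
  exact ⟨a, Additive.toMul.injective ha⟩

theorem ab_inj (h : ∀ a a' : A m U V, a * a' = a' * a) {a a' : A m U V} (e : ab a = ab a') :
    a = a' := by
  let _ : CommGroup (A m U V) := { (inferInstance : Group (A m U V)) with mul_comm := h }
  have := congrArg (fun x => Abelianization.lift (MonoidHom.id (A m U V)) (Additive.toMul x)) e
  simpa [ab] using this

/-- the map induced on abelianisations -/
def abm {m' : ℕ} (φ : A m U V →* A m' U' V') : Ab m U V →+ Ab m' U' V' :=
  MonoidHom.toAdditive (Abelianization.map φ)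

theorem abm_ab {m' : ℕ} (φ : A m U V →* A m' U' V') (a : A m U V) : abm φ (ab a) = ab (φ a) := rfl

/-- `h` is a cone over `f` with apex `v` -/
structure Cone (h : Rn (m + 1) → Y) (f : Rn m → Y) (v : Y) : Prop where
  lo : ∀ t, t 0 ≤ -1 → h t = f (Fin.tail t)
  hi : ∀ t, 1 ≤ t 0 → h t = v
  side : ∀ t, 1 ≤ ‖Fin.tail t‖ → h t = v

end Crest.Agent.R185.T1
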