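import Crest.Agent.R185.T1A

/-!
# Row 185, T1B: capping with a contraction

`Φ f t = c (f (2 t)) (4 ‖t‖ - 3)`.
-/

set_option autoImplicit false

namespace Crest.Agent.R185.T1

open unitInterval Set Function

variable {Y : Type} [TopologicalSpace Y] {m : ℕ} {U V : Set Y} {b : Y} {c : Y → ℝ → Y}

/-- `c` contracts `V` to `b` inside `U` (time runs over `[-1, 1]`) -/
structure Ctx (b : Y) (c : Y → ℝ → Y) (U V : Set Y) : Prop where
  lo : ∀ y s, s ≤ -1 → c y s = y
  hi : ∀ y ∈ V, ∀ s, 1 ≤ s → c y s = b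
  base : ∀ s, c b s = b
  cont : ContinuousOn (fun p : Y × ℝ => c p.1 p.2) (V ×ˢ univ)
  closed : IsClosed V
  bmem : b ∈ V
  sub : V ⊆ U
  mem : ∀ y ∈ V, ∀ s, c y s ∈ U

theorem Ctx.cont_c (h : Ctx b c U V) {T : Type} [TopologicalSpace T] {f : T → Y} {ρ : T → ℝ}
    (hf : Continuous f) (hρ : Continuous ρ) (hV : ∀ t, -1 < ρ t → f t ∈ V) :
    Continuous fun t => c (f t) (ρ t) := by
  have h1 : ContinuousOn (fun t => c (f t) (ρ t)) {t | ρ t ≤ -1} :=
    hf.continuousOn.congr fun t ht => h.lo _ _ ht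
  have h2 : ContinuousOn (fun t => c (f t) (ρ t)) (f ⁻¹' V) :=
    h.cont.comp (hf.prodMk hρ).continuousOn fun t ht => ⟨ht, mem_univ _⟩
  have := h1.union_of_isClosed h2 (isClosed_le hρ continuous_const) (h.closed.preimage hf)
  rw [← continuousOn_univ]
  refine this.mono fun t _ => ?_
  rcases le_or_gt (ρ t) (-1) with h' | h'
  exacts [Or.inl h', Or.inr (hV t h')]

theorem Ctx.mem_c (h : Ctx b c U V) {y : Y} {s : ℝ} (hy : y ∈ U) (hV : -1 < s → y ∈ V) :
    c y s ∈ U := by
  rcases le_or_gt s (-1) with h' | h'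
  · rwa [h.lo _ _ h']
  · exact h.mem _ (hV h') _

theorem two_smul_out {t : Rn m} (h : -1 < 4 * ‖t‖ - 3) : 1 ≤ ‖(2 : ℝ) • t‖ := by
  rw [norm_smul, Real.norm_ofNat]; linarith

/-- capping -/
def Ctx.Phi (h : Ctx b c U V) (f : Gen m U V) : Gen m U {b} where
  f t := c (f ((2 : ℝ) • t)) (4 * ‖t‖ - 3)
  cont := h.cont_c (f.cont.comp (by fun_prop)) (by fun_prop) fun _ ht => f.out _ (two_smul_out ht)
  mem _ := h.mem_c (f.mem _) fun ht => f.out _ (two_smul_out ht)
  out _ ht := h.hi _ (f.out _ (two_smul_out (by linarith))) _ (by linarith)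

theorem Ctx.Phi_apply (h : Ctx b c U V) (f : Gen m U V) (t : Rn m) :
    h.Phi f t = c (f ((2 : ℝ) • t)) (4 * ‖t‖ - 3) := rfl

theorem norm_update_congr (t : Rn m) (i : Fin m) {a a' : ℝ} (h : |a| = |a'|) :
    ‖update t i a‖ = ‖update t i a'‖ := by
  have : ∀ {a a' : ℝ}, |a| = |a'| → ‖update t i a‖ ≤ ‖update t i a'‖ := fun {a a'} h =>
    (pi_norm_le_iff_of_nonneg (norm_nonneg _)).2 fun j => by
      refine le_trans (le_of_eq ?_) (norm_le_pi_norm _ j)
      by_cases hj : j = i
      · subst hj; simpa using h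
      · simp only [update_of_ne hj]
  exact le_antisymm (this h) (this h.symm)

theorem smul_update (r : ℝ) (t : Rn m) (i : Fin m) (a : ℝ) :
    r • update t i a = update (r • t) i (r * a) := by
  funext j
  by_cases hj : j = i
  · subst hj; simp
  · simp [update_of_ne hj]

/-- the constant generator -/
def Gen.const (m : ℕ) {U V : Set Y} {y : Y} (hU : y ∈ U) (hV : y ∈ V) : Gen m U V :=
  ⟨fun _ => y, continuous_const, fun _ => hU, fun _ _ => hV⟩

theorem cl_eq_one {f : Gen m U {b}} (hb : b ∈ U) (h : PH U {b} f fun _ => b) : cl f = 1 :=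
  (cl_ph (g := Gen.const m (V := {b}) hb rfl) h).trans (cl_triv fun _ => rfl)

theorem Ctx.exists_PhiH (h : Ctx b c U V) (m : ℕ) :
    ∃ φ : A m U V →* A m U {b}, ∀ f, φ (cl f) = cl (h.Phi f) := by
  refine exists_lift' (fun f => cl (h.Phi f)) (fun f g ⟨H, hH, h0, h1, hU, hV⟩ => cl_ph ?_)
    (fun f hf => cl_eq_one (h.sub h.bmem) ?_) fun i f₁ f₂ f hw e₁ e₂ => ?_
  · exact ⟨fun p => c (H (p.1, (2 : ℝ) • p.2)) (4 * ‖p.2‖ - 3),
      h.cont_c (hH.comp (by fun_prop)) (by fun_prop) fun p hp => hV _ _ (two_smul_out hp),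
      fun t => by simp only [h0, h.Phi_apply], fun t => by simp only [h1, h.Phi_apply],
      fun s t => h.mem_c (hU _ _) fun hp => hV _ _ (two_smul_out hp),
      fun s t ht => h.hi _ (hV _ _ (two_smul_out (by linarith))) _ (by linarith)⟩
  · exact ⟨fun p => c (f ((2 : ℝ) • p.2)) (4 * ‖p.2‖ - 3 + 4 * p.1),
      h.cont_c (f.cont.comp (by fun_prop)) (by fun_prop) fun p _ => hf _,
      fun t => by simp [h.Phi_apply], fun t => h.hi _ (hf _) _ (by
        simp only [Icc.coe_one]; linarith [norm_nonneg t]),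
      fun s t => h.mem _ (hf _) _, fun s t ht => h.hi _ (hf _) _ (by linarith [s.2.1])⟩
  · obtain ⟨F, hF⟩ := exists_cat i (h.Phi f₁) (h.Phi f₂) fun t =>
      ((h.Phi f₁).out _ (out_update_of (by simp))).trans
        ((h.Phi f₂).out _ (out_update_of (by simp))).symm
    rw [← cl_cat hF]
    have hA : ∀ (s : ℝ) (t : Rn m), 0 ≤ s → s ≤ 1 →
        -1 < 4 * ‖update t i ((1 + s) * |t i| - s)‖ - 3 →
        f (update ((2 : ℝ) • t) i (min (2 * t i + s / 2) 0 + max (2 * t i - s / 2) 0)) ∈ V := by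
      intro s t h0 h1 hp
      obtain ⟨j, hj⟩ := (lt_norm_iff (a := 1 / 2) (by norm_num)).1
        (by linarith : 1 / 2 < ‖update t i ((1 + s) * |t i| - s)‖)
      by_cases hji : j = i
      · subst hji
        rw [update_self] at hj
        rcases lt_abs.1 hj with hj | hj
        · have a1 : 1 / 2 + s / 4 ≤ |t j| := by
            by_contra hh
            push Not at hh
            nlinarith [mul_lt_mul_of_pos_left hh (by linarith : 0 < 1 + s)]
          refine f.out _ (out_update_of ?_)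
          rcases le_abs'.1 a1 with a2 | a2
          · rw [min_eq_left (by linarith), max_eq_right (by linarith)]
            exact le_abs'.2 (Or.inl (by linarith))
          · rw [min_eq_right (by linarith), max_eq_left (by linarith)]
            exact le_abs'.2 (Or.inr (by linarith))
        · have a1 : |t j| ≤ s / 4 := by
            by_contra hh
            push Not at hh
            nlinarith [mul_lt_mul_of_pos_left hh (by linarith : 0 < 1 + s)]
          have a2 := abs_le.1 a1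
          refine hw _ ?_
          rw [update_self, min_eq_right (by linarith), max_eq_right (by linarith), add_zero]
      · rw [update_of_ne hji] at hj
        refine f.out _ ((le_norm_iff one_pos).2 ⟨j, ?_⟩)
        rw [update_of_ne hji, Pi.smul_apply, smul_eq_mul, abs_mul, abs_two]
        linarith
    refine cl_ph ⟨fun p => c (f (update ((2 : ℝ) • p.2) i
        (min (2 * p.2 i + p.1 / 2) 0 + max (2 * p.2 i - p.1 / 2) 0)))
        (4 * ‖update p.2 i ((1 + p.1) * |p.2 i| - p.1)‖ - 3),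
      h.cont_c (f.cont.comp (by fun_prop)) (by fun_prop) fun p hp => hA _ _ p.1.2.1 p.1.2.2 hp,
      fun t => ?_, fun t => ?_, fun s t => h.mem_c (f.mem _) (hA _ _ s.2.1 s.2.2),
      fun s t ht => ?_⟩
    · simp only [Icc.coe_zero, zero_div, add_zero, sub_zero, one_mul, min_add_max, h.Phi_apply]
      rw [norm_update_congr t i (abs_abs (t i)), update_eq_self]
      exact congrArg (fun x => c (f x) _) (update_eq_self i ((2 : ℝ) • t))
    · simp only [Icc.coe_one]
      rcases le_total (t i) 0 with ht | ht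
      · rw [(hF t).1 ht, h.Phi_apply, e₁, smul_update, update_idem, update_self,
          max_eq_right (by linarith), add_zero,
          norm_update_congr t i (a' := 2 * t i + 1) (by
            rw [abs_of_nonpos ht, ← abs_neg]; congr 1; ring)]
        congr 4; ring
      · rw [(hF t).2 ht, h.Phi_apply, e₂, smul_update, update_idem, update_self,
          min_eq_right (by linarith), zero_add,
          norm_update_congr t i (a' := 2 * t i - 1) (by rw [abs_of_nonneg ht]; congr 1; ring)]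
        congr 4; ring
    · have a1 : 1 ≤ ‖update t i ((1 + s) * |t i| - s)‖ :=
        out_update ht fun h' => le_abs'.2 (Or.inr (by nlinarith [s.2.1]))
      exact h.hi _ (hA _ _ s.2.1 s.2.2 (by linarith)) _ (by linarith)

noncomputable def Ctx.PhiH (h : Ctx b c U V) (m : ℕ) : A m U V →* A m U {b} :=
  (h.exists_PhiH m).choose

theorem Ctx.PhiH_cl (h : Ctx b c U V) (f : Gen m U V) : h.PhiH m (cl f) = cl (h.Phi f) :=
  (h.exists_PhiH m).choose_spec f

noncomputable def Ctx.iota (h : Ctx b c U V) (m : ℕ) : A m U {b} →* A m U V :=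
  (exists_map m id continuous_id (mapsTo_id U) (mapsTo_singleton.2 h.bmem)).choose

theorem Ctx.iota_cl (h : Ctx b c U V) (f : Gen m U {b}) (g : Gen m U V) (e : ∀ t, g t = f t) :
    h.iota m (cl f) = cl g :=
  (exists_map m id continuous_id (mapsTo_id U) (mapsTo_singleton.2 h.bmem)).choose_spec f g e

theorem Ctx.cc (h : Ctx b c U V) {y : Y} (hy : y ∈ V) (a : ℝ) {r : ℝ} (hr : r ≤ 1 / 2) :
    c (c y (2 * a)) (4 * max |a| r - 3) = c y (max (max (2 * a) (4 * max |a| r - 3)) (-1)) := by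
  rcases le_total (1 / 2) a with h1 | h1
  · rw [h.hi y hy _ (by linarith), h.base, h.hi y hy _
      (le_max_of_le_left (le_max_of_le_left (by linarith)))]
  rcases le_total a (-1 / 2) with h2 | h2
  · have h3 : 1 / 2 ≤ |a| := le_abs'.2 (Or.inl (by linarith))
    have h4 := le_max_left |a| r
    rw [h.lo y (2 * a) (by linarith), max_eq_right (by linarith : 2 * a ≤ 4 * max |a| r - 3),
      max_eq_left (by linarith : (-1 : ℝ) ≤ 4 * max |a| r - 3)]
  · have h3 : max |a| r ≤ 1 / 2 := max_le (abs_le.2 ⟨by linarith, h1⟩) hr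
    rw [h.lo _ (4 * max |a| r - 3) (by linarith), max_eq_left (by linarith : 4 * max |a| r - 3 ≤ 2 * a),
      max_eq_left (by linarith : (-1 : ℝ) ≤ 2 * a)]

theorem Ctx.G2 (h : Ctx b c U V) {f : Rn m → Y} (hf : Continuous f) (hfV : ∀ t, f t ∈ V) {v : Y}
    (hv : ∀ t, 1 ≤ ‖t‖ → f t = v) (hcv : ∀ s, c v s ∈ V) (k : Gen (m + 1) U V)
    (hk : ∀ t, k t = c (f (Fin.tail t)) (t 0)) : cl (h.Phi k) = 1 := by
  have hvV : v ∈ V := h.lo v (-1) le_rfl ▸ hcv (-1)
  have hsc : ∀ (a : ℝ) (x : Rn m), 0 ≤ a → 1 ≤ a * ‖x‖ → f (a • x) = v := fun a x ha hx =>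
    hv _ (by rwa [norm_smul, Real.norm_of_nonneg ha])
  let β : ℝ × ℝ → Y := fun q => if q.2 ≤ 1 / 2
    then c v (max (max (2 * q.1) (4 * max |q.1| q.2 - 3)) (3 - 8 * q.2))
    else c (c v (2 * q.1)) (4 * max |q.1| q.2 - 3)
  have hcc : Continuous fun q : ℝ × ℝ => c (c v (2 * q.1)) (4 * max |q.1| q.2 - 3) :=
    h.cont_c (h.cont_c continuous_const (by fun_prop) fun _ _ => hvV) (by fun_prop) fun _ _ => hcv _
  have hβ : Continuous β := by
    refine Continuous.if_le (h.cont_c continuous_const (by fun_prop) fun _ _ => hvV) hcc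
      continuous_snd continuous_const fun q hq => ?_
    rw [h.cc hvV _ hq.le, hq]; norm_num
  have hβU : ∀ q, β q ∈ U := fun q => by
    simp only [β]; split_ifs
    exacts [h.mem _ hvV _, h.mem _ (hcv _) _]
  have hβb : ∀ q : ℝ × ℝ, 1 ≤ max |q.1| q.2 → β q = b := fun q hq => by
    simp only [β]; split_ifs
    · exact h.hi _ hvV _ (le_max_of_le_left (le_max_of_le_right (by linarith)))
    · exact h.hi _ (hcv _) _ (by linarith)
  refine cl_eq_one (h.sub h.bmem) (PH.trans (g := fun t => β (t 0, ‖Fin.tail t‖)) ?_ ?_)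
  · refine ⟨fun p => if ‖Fin.tail p.2‖ ≤ 1 / 2
      then c (f ((2 + 2 * (p.1 : ℝ)) • Fin.tail p.2)) (max (max (2 * p.2 0)
        (4 * max |p.2 0| ‖Fin.tail p.2‖ - 3)) (-1 + p.1 * (4 - 8 * ‖Fin.tail p.2‖)))
      else c (c v (2 * p.2 0)) (4 * max |p.2 0| ‖Fin.tail p.2‖ - 3), ?_, fun t => ?_, fun t => ?_,
      fun s t => ?_, fun s t ht => ?_⟩
    · refine Continuous.if_le (h.cont_c (hf.comp (by fun_prop)) (by fun_prop) fun _ _ => hfV _)
        (hcc.comp (f := fun p : I × Rn (m + 1) => (p.2 0, ‖Fin.tail p.2‖)) (by fun_prop))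
        (by fun_prop) continuous_const fun p hp => ?_
      rw [hsc _ _ (by linarith [p.1.2.1]) (by rw [hp]; linarith [p.1.2.1]), h.cc hvV _ hp.le, hp]
      norm_num
    · rw [h.Phi_apply, hk, norm_succ]
      change _ = c (c (f ((2 : ℝ) • Fin.tail t)) (2 * t 0)) _
      simp only [Icc.coe_zero, mul_zero, add_zero, zero_mul]
      split_ifs with hr
      · exact (h.cc (hfV _) _ hr).symm
      · rw [hsc _ _ (by norm_num) (by linarith)]
    · simp only [β, Icc.coe_one]
      split_ifs with hr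
      · rcases le_total ‖Fin.tail t‖ (1 / 4) with h4 | h4
        · rw [h.hi _ (hfV _) _ (le_max_of_le_right (by linarith)),
            h.hi _ hvV _ (le_max_of_le_right (by linarith))]
        · rw [hsc _ _ (by norm_num) (by linarith)]
          congr 2; ring
      · rfl
    · dsimp only; split_ifs
      exacts [h.mem _ (hfV _) _, h.mem _ (hcv _) _]
    · rw [norm_succ] at ht
      dsimp only; split_ifs
      · exact h.hi _ (hfV _) _ (le_max_of_le_left (le_max_of_le_right (by linarith)))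
      · exact h.hi _ (hcv _) _ (by linarith)
  · refine ⟨fun p => β (p.2 0, max ‖Fin.tail p.2‖ p.1), hβ.comp (by fun_prop), fun t => by simp,
      fun t => hβb _ (le_max_of_le_right (le_max_right _ _)), fun _ _ => hβU _,
      fun s t ht => hβb _ ?_⟩
    rw [norm_succ] at ht
    exact ht.trans (max_le_max le_rfl (le_max_left _ _))

theorem Ctx.G3 (h : Ctx b c U V) {f : Rn m → Y} {v : Y} (e : Gen (m + 1) U V) (he : Cone e f v)
    (hcv : ∀ s, c v s ∈ V) (k : Gen (m + 1) U V) (hk : ∀ t, k t = c (f (Fin.tail t)) (t 0)) :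
    h.iota _ (cl (h.Phi e)) = cl e * (cl k)⁻¹ := by
  have hA : ∀ t : Rn (m + 1), -1 < -2 * t 0 - 1 → e (update t 0 (2 * t 0 - 1)) ∈ V := fun t ht =>
    e.out _ (out_update_of (le_abs'.2 (Or.inl (by linarith))))
  let Ψ : Gen (m + 1) U V := ⟨fun t => c (e (update t 0 (2 * t 0 - 1))) (-2 * t 0 - 1),
    h.cont_c (e.cont.comp (by fun_prop)) (by fun_prop) hA, fun t => h.mem_c (e.mem _) (hA t),
    fun t ht => by
      rcases one_le_norm_succ.1 ht with h' | h' | h'
      · rw [h.hi _ (hA t (by linarith)) _ (by linarith)]; exact h.bmem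
      · rw [he.hi _ (by rw [update_self]; linarith)]; exact hcv _
      · rw [he.side _ (by rwa [Fin.tail_update_zero])]; exact hcv _⟩
  obtain ⟨k', hk', hk''⟩ := exists_rev 0 k
  have hcat : IsCat 0 k' e Ψ := fun t => ⟨fun ht => by
      simp only [Ψ, hk', hk, update_idem, update_self, Fin.tail_update_zero]
      rw [he.lo _ (by rw [update_self]; linarith), Fin.tail_update_zero]
      congr 1; ring, fun ht => h.lo _ _ (by linarith)⟩
  rw [← hk'', ← cl_cat hcat, h.iota_cl (h.Phi e)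
    ((h.Phi e).map id continuous_id (mapsTo_id U) (mapsTo_singleton.2 h.bmem)) fun _ => rfl]
  let θ : ℝ → Rn (m + 1) → Rn (m + 1) := fun s t => Fin.cons (2 * t 0 - s) ((2 - s) • Fin.tail t)
  have hθ0 : ∀ s t, θ s t 0 = 2 * t 0 - s := fun _ _ => rfl
  have hB : ∀ (s : ℝ) (t : Rn (m + 1)), 0 ≤ s → s ≤ 1 →
      -1 < (1 - s) * (2 * ‖θ s t‖ - 3) + s * (-(2 * t 0 - s) - 2) → e (θ s t) ∈ V := by
    intro s t h0 h1 hp
    refine e.out _ (not_lt.1 fun hh => ?_)
    have := (abs_le.1 (norm_le_pi_norm (θ s t) 0)).1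
    rw [hθ0] at this
    nlinarith
  refine cl_ph ⟨fun p => c (e (θ p.1 p.2))
      ((1 - p.1) * (2 * ‖θ p.1 p.2‖ - 3) + p.1 * (-(2 * p.2 0 - p.1) - 2)),
    h.cont_c (e.cont.comp (by simp only [θ]; fun_prop)) (by simp only [θ]; fun_prop)
      fun p hp => hB _ _ p.1.2.1 p.1.2.2 hp, fun t => ?_, fun t => ?_,
    fun s t => h.mem_c (e.mem _) (hB _ _ s.2.1 s.2.2), fun s t ht => ?_⟩
  · have e0 : θ 0 t = (2 : ℝ) • t := by
      funext j; refine Fin.cases ?_ (fun j => ?_) j <;> simp [θ, Fin.tail]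
    change _ = c (e ((2 : ℝ) • t)) (4 * ‖t‖ - 3)
    simp only [Icc.coe_zero, e0, norm_smul, Real.norm_ofNat]
    congr 1; ring
  · have e1 : θ 1 t = update t 0 (2 * t 0 - 1) := by
      funext j; refine Fin.cases ?_ (fun j => ?_) j
      · simp [θ]
      · simp only [θ, Fin.cons_succ, update_of_ne (Fin.succ_ne_zero j)]; norm_num [Fin.tail]
    simp only [Icc.coe_one, e1, Ψ]
    congr 1; ring
  · have h0 := s.2.1
    have h1 := s.2.2
    rcases one_le_norm_succ.1 ht with h' | h' | h'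
    · have a1 := (abs_le.1 (norm_le_pi_norm (θ s t) 0)).1
      rw [hθ0] at a1
      have a2 : 1 ≤ (1 - s) * (2 * ‖θ s t‖ - 3) + s * (-(2 * t 0 - s) - 2) := by nlinarith
      dsimp only
      rw [h.hi _ (hB _ _ h0 h1 (by linarith)) _ a2]; exact h.bmem
    · dsimp only
      rw [he.hi _ (by rw [hθ0]; linarith)]; exact hcv _
    · dsimp only
      rw [he.side _ (by
        simp only [θ, Fin.tail_cons, norm_smul, Real.norm_of_nonneg (by linarith : 0 ≤ 2 - (s : ℝ))]
        nlinarith)]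
      exact hcv _

theorem Ctx.G3' (h : Ctx b c U V) {f : Rn 0 → Y} {v : Y} (e : Gen 1 U V) (he : Cone e f v)
    (k k' : Gen 1 U V) (hk : ∀ t, k t = c (f (Fin.tail t)) (t 0)) (hk' : ∀ t, k' t = c v (t 0)) :
    h.iota _ (cl (h.Phi e)) = cl k' * cl e * (cl k)⁻¹ := by
  have hv : v ∈ V := he.hi (fun _ => 1) le_rfl ▸ e.out _ (by simp)
  have hz : ∀ t : Rn 0, ¬ 1 ≤ ‖t‖ := fun t h => by
    obtain ⟨j, -⟩ := (le_norm_iff one_pos).1 h; exact j.elim0
  obtain ⟨e', he'⟩ := exists_cat 0 e k' fun t => by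
    rw [he.hi _ (by simp), hk', update_self, h.lo _ _ le_rfl]
  have hc : Cone e' f b := ⟨fun t ht => by
      rw [(he' t).1 (by linarith), he.lo _ (by rw [update_self]; linarith), Fin.tail_update_zero],
    fun t ht => by rw [(he' t).2 (by linarith), hk', update_self, h.hi _ hv _ (by linarith)],
    fun t ht => absurd ht (hz _)⟩
  have h1 := h.G3 e' hc (fun s => by rw [h.base]; exact h.bmem) k hk
  have h2 := h.G2 (f := fun _ : Rn 0 => v) continuous_const (fun _ => hv) (v := b)
    (fun t ht => absurd ht (hz _)) (fun s => by rw [h.base]; exact h.bmem) k' hk'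
  rwa [← h.PhiH_cl, cl_cat he', map_mul, h.PhiH_cl, h.PhiH_cl, h2, one_mul] at h1

end Crest.Agent.R185.T1
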