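import Crest.Agent.R185.T1B

/-!
# Row 185, T1C: fillings
-/

set_option autoImplicit false

namespace Crest.Agent.R185.T1

open unitInterval Set Function

variable {Y Y' : Type} [TopologicalSpace Y] [TopologicalSpace Y'] {m : ℕ} {U V : Set Y} {b : Y}
  {c : Y → ℝ → Y} {U' V' : Set Y'} {j : Y → Y'}

/-- `j` maps `U` into the smaller set of the pair `(U', V')` -/
structure Jd (j : Y → Y') (U : Set Y) (U' V' : Set Y') : Prop where
  cont : Continuous j
  maps : MapsTo j U V'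
  sub : V' ⊆ U'

/-- `β` is the class of a cone over a representative of `α` -/
def Fill (j : Y → Y') (α : A m U {b}) (β : A (m + 1) U' V') : Prop :=
  ∃ (f : Gen m U {b}) (h : Gen (m + 1) U' V'), cl f = α ∧ cl h = β ∧
    Cone h (fun t => j (f t)) (j b)

theorem Fill.one (hj : Jd j U U' V') (hb : b ∈ U) :
    Fill j (1 : A m U {b}) (1 : A (m + 1) U' V') := by
  exact ⟨Gen.const m (V := {b}) hb rfl, Gen.const _ (hj.sub (hj.maps hb)) (hj.maps hb),
    cl_triv fun _ => rfl, cl_triv fun _ => hj.maps hb, fun _ _ => rfl, fun _ _ => rfl, fun _ _ => rfl⟩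

theorem Fill.mul {α α' : A (m + 1) U {b}} {β β' : A (m + 2) U' V'} (h : Fill j α β)
    (h' : Fill j α' β') : Fill j (α * α') (β * β') := by
  obtain ⟨f, e, rfl, rfl, he⟩ := h
  obtain ⟨f', e', rfl, rfl, he'⟩ := h'
  obtain ⟨F, hF⟩ := exists_cat 0 f' f fun t =>
    (f'.out _ (out_update_of (by simp))).trans (f.out _ (out_update_of (by simp))).symm
  obtain ⟨E, hE⟩ := exists_cat (Fin.succ 0) e' e fun t => by
    rw [he'.side _ (by rw [Fin.tail_update_succ]; exact out_update_of (by simp)),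
      he.side _ (by rw [Fin.tail_update_succ]; exact out_update_of (by simp))]
  have h0 : ∀ (t : Rn (m + 2)) (a : ℝ), update t (Fin.succ 0) a 0 = t 0 := fun t a =>
    update_of_ne (Fin.succ_ne_zero 0).symm _ _
  refine ⟨F, E, cl_cat hF, cl_cat hE, fun t ht => ?_, fun t ht => ?_, fun t ht => ?_⟩
  · rcases le_total (t (Fin.succ 0)) 0 with h1 | h1
    · rw [(hE t).1 h1, he'.lo _ (by rwa [h0]), Fin.tail_update_succ]
      exact congrArg j ((hF (Fin.tail t)).1 h1).symm
    · rw [(hE t).2 h1, he.lo _ (by rwa [h0]), Fin.tail_update_succ]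
      exact congrArg j ((hF (Fin.tail t)).2 h1).symm
  · rcases le_total (t (Fin.succ 0)) 0 with h1 | h1
    · rw [(hE t).1 h1, he'.hi _ (by rwa [h0])]
    · rw [(hE t).2 h1, he.hi _ (by rwa [h0])]
  · rcases le_total (t (Fin.succ 0)) 0 with h1 | h1
    · rw [(hE t).1 h1, he'.side _ ?_]
      rw [Fin.tail_update_succ]
      refine out_update ht fun h2 => ?_
      change 1 ≤ |t (Fin.succ 0)| at h2
      rcases le_abs'.1 h2 with h2 | h2
      · exact le_abs'.2 (Or.inl (by linarith))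
      · linarith
    · rw [(hE t).2 h1, he.side _ ?_]
      rw [Fin.tail_update_succ]
      refine out_update ht fun h2 => ?_
      change 1 ≤ |t (Fin.succ 0)| at h2
      rcases le_abs'.1 h2 with h2 | h2
      · linarith
      · exact le_abs'.2 (Or.inr (by linarith))

theorem Fill.inv {α : A (m + 1) U {b}} {β : A (m + 2) U' V'} (h : Fill j α β) :
    Fill j α⁻¹ β⁻¹ := by
  obtain ⟨f, e, rfl, rfl, he⟩ := h
  obtain ⟨F, hF, hF'⟩ := exists_rev 0 f
  obtain ⟨E, hE, hE'⟩ := exists_rev (Fin.succ 0) e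
  have h0 : ∀ (t : Rn (m + 2)) (a : ℝ), update t (Fin.succ 0) a 0 = t 0 := fun t a =>
    update_of_ne (Fin.succ_ne_zero 0).symm _ _
  refine ⟨F, E, hF', hE', fun t ht => ?_, fun t ht => ?_, fun t ht => ?_⟩
  · rw [hE, he.lo _ (by rwa [h0]), Fin.tail_update_succ, hF]; rfl
  · rw [hE, he.hi _ (by rwa [h0])]
  · rw [hE, he.side _ ?_]
    rw [Fin.tail_update_succ]
    exact out_update ht fun h2 => by rwa [abs_neg]

theorem Fill.rep (hj : Jd j U U' V') (hU : IsClopen U) (hb : b ∈ U) {f : Gen (m + 1) U {b}}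
    {β : A (m + 2) U' V'} (h : Fill j (cl f) β) :
    ∃ e : Gen (m + 2) U' V', cl e = β ∧ Cone e (fun t => j (f t)) (j b) := by
  obtain ⟨f', e, hf, rfl, he⟩ := h
  obtain ⟨H, hH, h0, h1, hHU, hHV⟩ := pi_inj hU hb hf.symm
  let L : Gen (m + 2) U' V' := ⟨fun t => j (H (projIcc 0 1 zero_le_one ((t 0 + 1) / 2), Fin.tail t)),
    hj.cont.comp (hH.comp ((continuous_projIcc.comp (by fun_prop)).prodMk (by fun_prop))),
    fun _ => hj.sub (hj.maps (hHU _ _)), fun _ _ => hj.maps (hHU _ _)⟩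
  obtain ⟨E, hE⟩ := exists_cat 0 L e fun t => by
    rw [he.lo _ (by simp)]
    simp only [L, update_self, Fin.tail_update_zero]
    rw [projIcc_of_right_le _ (by norm_num)]
    exact congrArg j (h1 _)
  refine ⟨E, by rw [cl_cat hE, cl_triv (f := L) fun _ => hj.maps (hHU _ _), mul_one],
    fun t ht => ?_, fun t ht => ?_, fun t ht => ?_⟩
  · rw [(hE t).1 (by linarith)]
    simp only [L, update_self, Fin.tail_update_zero]
    rw [projIcc_of_le_left _ (by linarith)]
    exact congrArg j (h0 _)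
  · rw [(hE t).2 (by linarith), he.hi _ (by rw [update_self]; linarith)]
  · rcases le_total (t 0) 0 with h2 | h2
    · rw [(hE t).1 h2]
      simp only [L, Fin.tail_update_zero]
      exact congrArg j (hHV _ _ ht)
    · rw [(hE t).2 h2, he.side _ (by rwa [Fin.tail_update_zero])]

theorem exists_fill_ker (hj : Jd j U U' V') (hU : IsClopen U) (hU' : IsClopen U') (hb : b ∈ U) :
    ∃ φ : A (m + 1) U {b} →* A (m + 1) U' {j b},
      ∀ α, (∃ β : A (m + 2) U' V', Fill j α β) ↔ φ α = 1 := by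
  have hm : MapsTo j U U' := fun _ hy => hj.sub (hj.maps hy)
  have hm' : MapsTo j {b} {j b} := mapsTo_singleton.2 rfl
  obtain ⟨φ, hφ⟩ := exists_map (m + 1) j hj.cont hm hm'
  refine ⟨φ, fun α => ⟨?_, fun hα => ?_⟩⟩
  · rintro ⟨β, f, e, rfl, -, he⟩
    rw [hφ f (f.map j hj.cont hm hm') fun _ => rfl]
    refine cl_eq_one (hm hb) ⟨fun p => e (Fin.cons (2 * p.1 - 1) p.2), e.cont.comp (by fun_prop),
      fun t => ?_, fun t => he.hi _ (by norm_num), fun _ _ => e.mem _,
      fun s t ht => he.side _ (by rwa [Fin.tail_cons])⟩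
    exact (he.lo _ (by norm_num)).trans (by rw [Fin.tail_cons]; rfl)
  · obtain ⟨f, rfl⟩ := pi_surj hU hb α
    rw [hφ f (f.map j hj.cont hm hm') fun _ => rfl,
      ← cl_triv (f := Gen.const (m + 1) (V := {j b}) (hm hb) rfl) fun _ => rfl] at hα
    obtain ⟨H, hH, h0, h1, hHU, hHV⟩ := pi_inj hU' (hm hb) hα
    have hc : Cone (fun t : Rn (m + 2) => H (projIcc 0 1 zero_le_one ((t 0 + 1) / 2), Fin.tail t))
        (fun t => j (f t)) (j b) := ⟨fun t ht => by
      rw [projIcc_of_le_left _ (by linarith)]; exact h0 _, fun t ht => by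
      rw [projIcc_of_right_le _ (by linarith)]; exact h1 _, fun t ht => hHV _ _ ht⟩
    refine ⟨_, f, ⟨_, hH.comp ((continuous_projIcc.comp (by fun_prop)).prodMk (by fun_prop)),
      fun _ => hHU _ _, fun t ht => ?_⟩, rfl, rfl, hc⟩
    rcases one_le_norm_succ.1 ht with h' | h' | h'
    · exact (congrArg (· ∈ V') (hc.lo t h')).mpr (hj.maps (f.mem _))
    · exact (congrArg (· ∈ V') (hc.hi t h')).mpr (hj.maps hb)
    · exact (congrArg (· ∈ V') (hc.side t h')).mpr (hj.maps hb)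

theorem Ctx.G5 (h : Ctx b c U V) (hj : Jd j U U' V') (f : Gen m U V) {v : Y} (hvV : v ∈ V)
    (hv : ∀ t, 1 ≤ ‖t‖ → f t = v) (e : Gen (m + 1) U' V') (he : Cone e (fun t => j (f t)) (j v)) :
    Fill j (cl (h.Phi f)) (cl e) := by
  let θ : ℝ → Rn (m + 1) → Rn (m + 1) := fun s t =>
    Fin.cons ((1 + s) * t 0 + s) ((1 + s) • Fin.tail t)
  let ρ : Rn (m + 1) → ℝ := fun t => max (4 * ‖Fin.tail t‖ - 3) (2 * t 0 - 1)
  have hρ : Continuous ρ := by simp only [ρ]; fun_prop
  have hθ : Continuous fun p : ℝ × Rn (m + 1) => θ p.1 p.2 := by simp only [θ]; fun_prop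
  have hθ0 : ∀ s t, θ s t 0 = (1 + s) * t 0 + s := fun _ _ => rfl
  have hθ1 : ∀ s t, Fin.tail (θ s t) = (1 + s) • Fin.tail t := fun _ _ => Fin.tail_cons _ _
  have hθn : ∀ s t, 0 ≤ s → ‖Fin.tail (θ s t)‖ = (1 + s) * ‖Fin.tail t‖ := fun s t hs => by
    rw [hθ1, norm_smul, Real.norm_of_nonneg (by linarith)]
  have hθo : ∀ s t, 0 ≤ s → 1 ≤ ‖t‖ → 1 ≤ ‖θ s t‖ := fun s t hs ht => by
    rw [one_le_norm_succ, hθ0, hθn _ _ hs]
    rcases one_le_norm_succ.1 ht with h' | h' | h'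
    exacts [Or.inl (by nlinarith), Or.inr (Or.inl (by nlinarith)), Or.inr (Or.inr (by nlinarith))]
  have hv' : ∀ t, -1 ≤ ρ t → e (θ 1 t) = j v := fun t ht => by
    rcases le_max_iff.1 ht with h' | h'
    · exact he.side _ (by rw [hθn _ _ zero_le_one]; linarith)
    · exact he.hi _ (by rw [hθ0]; linarith)
  have hcm : ∀ s, j (c v s) ∈ V' := fun s => hj.maps (h.mem v hvV s)
  let H : ℝ × Rn (m + 1) → Y' := fun p =>
    if ρ p.2 ≤ -1 then e (θ 1 p.2) else j (c v (min (ρ p.2) (1 - 2 * p.1)))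
  have hH : Continuous H := by
    refine Continuous.if_le (e.cont.comp (hθ.comp (f := fun p : ℝ × Rn (m + 1) => (1, p.2))
      (by fun_prop))) (hj.cont.comp (h.cont_c continuous_const (by fun_prop) fun _ _ => hvV))
      (by fun_prop) continuous_const fun p hp => ?_
    rw [hv' _ hp.ge, h.lo _ _ (min_le_of_left_le hp.le)]
  have hHU : ∀ p, H p ∈ U' := fun p => by
    simp only [H]; split_ifs
    exacts [e.mem _, hj.sub (hcm _)]
  have hHV : ∀ s t, 1 ≤ ‖t‖ → H (s, t) ∈ V' := fun s t ht => by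
    simp only [H]; split_ifs
    exacts [e.out _ (hθo _ _ zero_le_one ht), hcm _]
  let E : Gen (m + 1) U' V' := ⟨fun t => H (0, t), hH.comp (by fun_prop), fun _ => hHU _, hHV 0⟩
  have hb : ∀ t, 1 ≤ ρ t → E t = j b := fun t ht => by
    simp only [E, H]
    rw [if_neg (by linarith), h.hi v hvV _ (le_min ht (by norm_num))]
  refine ⟨h.Phi f, E, rfl, cl_ph (PH.trans (g := fun t => e (θ 1 t)) ?_ (PH.symm ?_)),
    fun t ht => ?_, fun t ht => hb t (le_max_of_le_right (by linarith)),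
    fun t ht => hb t (le_max_of_le_left (by linarith))⟩
  · refine ⟨fun p => H (p.1, p.2), hH.comp (by fun_prop), fun _ => rfl, fun t => ?_,
      fun _ _ => hHU _, fun s => hHV s⟩
    simp only [H, Icc.coe_one]
    split_ifs with h'
    · rfl
    · rw [hv' t (by linarith), h.lo _ _ (min_le_of_right_le (by norm_num))]
  · refine ⟨fun p => e (θ p.1 p.2), e.cont.comp (hθ.comp (f := fun p : I × Rn (m + 1) =>
      ((p.1 : ℝ), p.2)) (by fun_prop)), fun t => ?_, fun _ => rfl, fun _ _ => e.mem _,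
      fun s t ht => e.out _ (hθo _ _ s.2.1 ht)⟩
    simp [θ]
  · have e1 : ρ t = 4 * ‖Fin.tail t‖ - 3 := max_eq_left (by linarith [norm_nonneg (Fin.tail t)])
    simp only [E, H, h.Phi_apply]
    rw [e1]
    split_ifs with h'
    · rw [he.lo _ (by rw [hθ0]; linarith), hθ1, h.lo _ _ h']; norm_num
    · rw [hv _ (two_smul_out (by linarith))]
      rcases le_total (4 * ‖Fin.tail t‖ - 3) 1 with h2 | h2
      · rw [min_eq_left (by linarith)]
      · rw [h.hi v hvV _ h2, h.hi v hvV _ (le_min h2 (by norm_num))]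

theorem Ctx.G6 (h : Ctx b c U V) (hj : Jd j U U' V') (hU : IsClopen U) (k : Gen (m + 1) U V)
    {β : A (m + 2) U' V'} (hβ : Fill j (cl (h.Phi k)) β) :
    ∃ H : Gen (m + 2) U' V', cl H = β ∧ (∀ t, t 0 ≤ -1 → H t = j (k (Fin.tail t))) ∧
      (∀ t, 1 ≤ ‖Fin.tail t‖ → H t = j (c (k (Fin.tail t)) (t 0))) ∧
      ∀ t, 1 ≤ t 0 → H t = j b := by
  let R : Rn (m + 1) → Rn (m + 1) := fun x => (max 1 ‖x‖)⁻¹ • x
  have hR : Continuous R := (Continuous.inv₀ (f := fun x : Rn (m + 1) => max 1 ‖x‖)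
    (by fun_prop) fun x =>
    (one_pos.trans_le (le_max_left _ _)).ne').smul continuous_id
  have hR1 : ∀ x, ‖x‖ ≤ 1 → R x = x := fun x hx => by simp only [R, max_eq_left hx, inv_one, one_smul]
  have hR2 : ∀ (a : ℝ) (x : Rn (m + 1)), 1 ≤ a → ‖x‖ = 1 → R (a • x) = x := fun a x ha hx => by
    simp only [R, norm_smul, hx, mul_one, Real.norm_of_nonneg (by linarith : 0 ≤ a), max_eq_right ha,
      smul_smul]
    rw [inv_mul_cancel₀ (by linarith), one_smul]
  let k' : Gen (m + 1) U V := k.comp R hR fun x hx => k.out _ (by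
    simp only [R, max_eq_right hx, norm_smul, norm_inv, norm_norm]
    rw [inv_mul_cancel₀ (by linarith)])
  have hk' : cl (h.Phi k) = cl (h.Phi k') := by
    rw [← h.PhiH_cl, ← h.PhiH_cl, cl_eqOn (f := k) (g := k') fun t ht => congrArg k (hR1 t ht).symm]
  rw [hk'] at hβ
  obtain ⟨e, rfl, he⟩ := hβ.rep hj hU (h.sub h.bmem)
  let a : Rn (m + 2) → ℝ := fun t => max 0 (min ((t 0 + 1) / 2) 1)
  let η : Rn (m + 2) → ℝ := fun t => -1 + 4 * a t * (1 - ‖Fin.tail t‖)
  let l : Rn (m + 2) → ℝ := fun t => 1 / 2 + a t / 2 + 2 * a t * (1 - ‖Fin.tail t‖)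
  let θ : ℝ → Rn (m + 2) → Rn (m + 2) := fun s t =>
    Fin.cons (η t + max 0 (2 * s - 1) * (t 0 - η t)) (((1 - s) * l t + 2 * s) • Fin.tail t)
  have hθ : Continuous fun p : ℝ × Rn (m + 2) => θ p.1 p.2 := by simp only [θ, η, l, a]; fun_prop
  have hθ0 : ∀ s t, θ s t 0 = η t + max 0 (2 * s - 1) * (t 0 - η t) := fun _ _ => rfl
  have hθ1 : ∀ s t, Fin.tail (θ s t) = ((1 - s) * l t + 2 * s) • Fin.tail t :=
    fun _ _ => Fin.tail_cons _ _
  have z0 : ∀ t, θ 0 t 0 = η t := fun t => by rw [hθ0]; norm_num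
  have z1 : ∀ t, Fin.tail (θ 0 t) = l t • Fin.tail t := fun t => by rw [hθ1]; norm_num
  have a0 : ∀ t, 0 ≤ a t := fun t => le_max_left _ _
  have a1 : ∀ t, a t ≤ 1 := fun t => max_le zero_le_one (min_le_right _ _)
  have alo : ∀ t : Rn (m + 2), t 0 ≤ -1 → a t = 0 := fun t ht =>
    max_eq_left (min_le_of_left_le (by linarith))
  have ahi : ∀ t : Rn (m + 2), 1 ≤ t 0 → a t = 1 := fun t ht => by
    simp only [a]; rw [min_eq_right (by linarith), max_eq_right zero_le_one]
  have hca : ∀ y ∈ V, ∀ t : Rn (m + 2), c y (2 * a t - 1) = c y (t 0) := fun y hy t => by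
    rcases le_total (t 0) (-1) with h1 | h1
    · rw [alo t h1, h.lo _ _ h1, h.lo _ _ (by norm_num)]
    rcases le_total 1 (t 0) with h2 | h2
    · rw [ahi t h2, h.hi _ hy _ h2, h.hi _ hy _ (by norm_num)]
    · simp only [a]; rw [min_eq_left (by linarith), max_eq_right (by linarith)]
      congr 1; ring
  have hside : ∀ t : Rn (m + 2), ‖Fin.tail t‖ = 1 → e (θ 0 t) = j (c (k (Fin.tail t)) (t 0)) := by
    intro t ht
    have l1 : l t = (1 + a t) / 2 := by simp only [l, ht]; ring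
    rw [he.lo _ (by rw [z0]; simp only [η, ht]; norm_num), z1, h.Phi_apply, smul_smul,
      ← hca _ (k.out _ ht.ge), norm_smul, ht, l1, Real.norm_of_nonneg (by linarith [a0 t])]
    change j (c (k (R _)) _) = _
    rw [hR2 _ _ (by linarith [a0 t]) ht]
    congr 2; ring
  have htop : ∀ (s : ℝ) (t : Rn (m + 2)), 0 ≤ s → s ≤ 1 → 1 ≤ t 0 → ‖Fin.tail t‖ ≤ 1 →
      1 ≤ θ s t 0 ∨ 1 ≤ ‖Fin.tail (θ s t)‖ := by
    intro s t s0 s1 ht hr
    have m0 : 0 ≤ max 0 (2 * s - 1) := le_max_left _ _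
    have m1 : max 0 (2 * s - 1) ≤ 1 := max_le zero_le_one (by linarith)
    rcases le_total ‖Fin.tail t‖ (1 / 2) with h2 | h2
    · left
      have : 1 ≤ η t := by simp only [η, ahi t ht]; linarith
      rw [hθ0]; nlinarith
    · right
      have l1 : l t = 3 - 2 * ‖Fin.tail t‖ := by simp only [l, ahi t ht]; ring
      rw [hθ1, norm_smul, l1, Real.norm_of_nonneg (by nlinarith)]
      have : 1 ≤ (3 - 2 * ‖Fin.tail t‖) * ‖Fin.tail t‖ := by nlinarith
      nlinarith
  let H : Rn (m + 2) → Y' := fun t =>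
    if ‖Fin.tail t‖ ≤ 1 then e (θ 0 t) else j (c (k (Fin.tail t)) (t 0))
  have hH : Continuous H := by
    refine continuous_if_le (by fun_prop) continuous_const (e.cont.comp
      (hθ.comp (f := fun t : Rn (m + 2) => (0, t)) (by fun_prop))).continuousOn
      (hj.cont.comp_continuousOn (h.cont.comp (f := fun t : Rn (m + 2) => (k (Fin.tail t), t 0))
        ((k.cont.comp (by fun_prop)).prodMk (by fun_prop)).continuousOn
        fun t ht => ⟨k.out _ ht, mem_univ _⟩)) hside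
  have H1 : ∀ t : Rn (m + 2), t 0 ≤ -1 → H t = j (k (Fin.tail t)) := fun t ht => by
    simp only [H]; split_ifs with hr
    · have l1 : l t = 1 / 2 := by simp only [l, alo t ht]; ring
      rw [he.lo _ (by rw [z0]; simp only [η, alo t ht]; norm_num), z1, h.Phi_apply, smul_smul,
        norm_smul, l1, h.lo _ _ (by norm_num; linarith)]
      norm_num
      exact congrArg (fun x => j (k x)) (hR1 _ hr)
    · rw [h.lo _ _ ht]
  have H2 : ∀ t : Rn (m + 2), 1 ≤ ‖Fin.tail t‖ → H t = j (c (k (Fin.tail t)) (t 0)) := fun t ht => by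
    simp only [H]; split_ifs with hr
    exacts [hside t (le_antisymm hr ht), rfl]
  have H3 : ∀ t : Rn (m + 2), 1 ≤ t 0 → H t = j b := fun t ht => by
    simp only [H]; split_ifs with hr
    · rcases htop 0 t le_rfl zero_le_one ht hr with h' | h'
      exacts [he.hi _ h', he.side _ h']
    · rw [h.hi _ (k.out _ (not_le.1 hr).le) _ ht]
  have HV : ∀ t, 1 ≤ ‖t‖ → H t ∈ V' := fun t ht => by
    rcases one_le_norm_succ.1 ht with h' | h' | h'
    · rw [H1 t h']; exact hj.maps (k.mem _)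
    · rw [H3 t h']; exact hj.maps (h.sub h.bmem)
    · rw [H2 t h']; exact hj.maps (h.mem _ (k.out _ h') _)
  have HU : ∀ t, H t ∈ U' := fun t => by
    rcases le_total 1 ‖Fin.tail t‖ with h' | h'
    · exact hj.sub (HV t (one_le_norm_succ.2 (Or.inr (Or.inr h'))))
    · simp only [H, if_pos h']; exact e.mem _
  refine ⟨⟨H, hH, HU, HV⟩, ?_, H1, H2, H3⟩
  let μ : ℝ → Rn (m + 2) → Rn (m + 2) := fun s t => Fin.cons (t 0) ((1 + s) • Fin.tail t)
  have hμ : Continuous fun p : ℝ × Rn (m + 2) => μ p.1 p.2 := by simp only [μ]; fun_prop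
  have hμo : ∀ s t, 0 ≤ s → 1 ≤ ‖t‖ → 1 ≤ ‖μ s t‖ := fun s t hs ht => by
    rw [one_le_norm_succ] at ht ⊢
    refine ht.imp_right (Or.imp_right fun h' => ?_)
    simp only [μ, Fin.tail_cons, norm_smul, Real.norm_of_nonneg (by linarith : 0 ≤ 1 + s)]
    nlinarith
  let e₂ : Gen (m + 2) U' V' := e.comp (μ 1)
    (hμ.comp (f := fun t : Rn (m + 2) => (1, t)) (by fun_prop))
    fun t ht => e.out _ (hμo _ _ zero_le_one ht)
  refine (cl_ph (g := e₂) (ph_cube (fun p => e (θ p.1 p.2)) (e.cont.comp (hθ.comp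
    (f := fun p : I × Rn (m + 2) => ((p.1 : ℝ), p.2)) (by fun_prop))) (fun t ht => ?_)
    (fun t ht => ?_) (fun _ _ _ => e.mem _) fun s t ht => e.out _ ?_)).trans (cl_ph (PH.symm ?_))
  · exact (if_pos ((le_max_right _ _).trans (norm_succ t ▸ ht))).symm
  · simp only [Icc.coe_one, e₂, Gen.comp, θ, μ]; norm_num
  · have hr : ‖Fin.tail t‖ ≤ 1 := (le_max_right _ _).trans (norm_succ t ▸ ht.le)
    have h0 : |t 0| ≤ 1 := (le_max_left _ _).trans (norm_succ t ▸ ht.le)
    have s0 := s.2.1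
    have s1 := s.2.2
    rcases one_le_norm_succ.1 ht.ge with h' | h' | h'
    · refine one_le_norm_succ.2 (Or.inl ?_)
      have : η t = -1 := by simp only [η, alo t h']; ring
      rw [hθ0, this]
      nlinarith [le_max_left 0 (2 * (s : ℝ) - 1)]
    · exact one_le_norm_succ.2 (Or.inr (htop s t s0 s1 h' hr))
    · have r1 : ‖Fin.tail t‖ = 1 := le_antisymm hr h'
      rcases le_total (s : ℝ) (1 / 2) with h2 | h2
      · refine one_le_norm_succ.2 (Or.inl ?_)
        rw [hθ0, max_eq_left (by linarith)]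
        simp only [η, r1]; norm_num
      · refine one_le_norm_succ.2 (Or.inr (Or.inr ?_))
        have l1 : l t = (1 + a t) / 2 := by simp only [l, r1]; ring
        have := a0 t
        rw [hθ1, norm_smul, r1, l1, Real.norm_of_nonneg (by nlinarith)]
        nlinarith
  · refine ⟨fun p => e (μ p.1 p.2), e.cont.comp (hμ.comp
      (f := fun p : I × Rn (m + 2) => ((p.1 : ℝ), p.2)) (by fun_prop)), fun t => ?_, fun _ => rfl,
      fun _ _ => e.mem _, fun s t ht => e.out _ (hμo _ _ s.2.1 ht)⟩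
    simp [μ]

end Crest.Agent.R185.T1
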