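import Crest.Agent.R185.T1A

/-!
# Row 185, T1D: free `G`-complexes built from cones

All complexes live on the one type `Pt G`; the data `D` (number of orbits of cells, attaching maps) determine
characteristic maps `D.χ` (defined on all of `ℝ^m`) and the weak topology `Sp D`.  An `(n+1)`-cell is a cone over
the attaching map `φ n i : (ℝ^n, {1 ≤ ‖t‖}) → (sk n, bp)`.  Points not in a cell are isolated.
-/

set_option autoImplicit false
set_option linter.unusedSectionVars false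

namespace Crest.Agent.R185.T1

open Set Function

/-- points -/
structure Pt (G : Type) where
  n : ℕ
  g : G
  i : ℕ
  t : Rn n

variable {G : Type} [Group G]

instance : MulAction G (Pt G) where
  smul h p := ⟨p.n, h * p.g, p.i, p.t⟩
  one_smul p := by change Pt.mk p.n (1 * p.g) p.i p.t = p; rw [one_mul]
  mul_smul a b p := by
    change Pt.mk p.n (a * b * p.g) p.i p.t = Pt.mk p.n (a * (b * p.g)) p.i p.t; rw [mul_assoc]

theorem smul_mk (h : G) (n : ℕ) (g : G) (i : ℕ) (t : Rn n) :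
    h • (⟨n, g, i, t⟩ : Pt G) = ⟨n, h * g, i, t⟩ := rfl

/-- the base point -/
def bp : Pt G := ⟨0, 1, 0, 0⟩

/-- cell data -/
structure Dt (G : Type) where
  E : ℕ → ℕ
  φ : ∀ n, ℕ → Rn n → Pt G

namespace Dt

open Classical in
/-- characteristic maps -/
noncomputable def χ (D : Dt G) : ∀ n, G → ℕ → Rn n → Pt G
  | 0, g, i, t => ⟨0, g, i, t⟩
  | n + 1, g, i, t => if ‖t‖ < 1 then ⟨n + 1, g, i, t⟩
      else if t 0 ≤ -1 then g • D.φ n i (Fin.tail t) else g • bp

/-- the space -/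
def Sp (_D : Dt G) : Type := Pt G

noncomputable instance (D : Dt G) : TopologicalSpace D.Sp :=
  ⨆ (m : ℕ) (g : G) (i : ℕ) (_ : i < D.E m), TopologicalSpace.coinduced (D.χ m g i) inferInstance

/-- all points in cells -/
def all (D : Dt G) : Set (Pt G) := {p | p.i < D.E p.n ∧ ‖p.t‖ < 1}

/-- skeleta -/
def sk (D : Dt G) (n : ℕ) : Set (Pt G) := {p | p.n ≤ n ∧ p ∈ D.all}

/-- closed for the cells of dimension `≤ n` -/
def Cl (D : Dt G) (n : ℕ) (S : Set (Pt G)) : Prop :=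
  ∀ m ≤ n, ∀ g i, i < D.E m → IsClosed (D.χ m g i ⁻¹' S)

structure WF (D : Dt G) : Prop where
  E0 : D.E 0 = 1
  mem : ∀ n i, i < D.E (n + 1) → ∀ t, D.φ n i t ∈ D.sk n
  out : ∀ n i, i < D.E (n + 1) → ∀ t, 1 ≤ ‖t‖ → D.φ n i t = bp
  cont : ∀ n i, i < D.E (n + 1) → ∀ S, D.Cl n S → IsClosed (D.φ n i ⁻¹' S)

/-- agreement up to dimension `n` -/
def Agr (n : ℕ) (D D' : Dt G) : Prop := (∀ m ≤ n, D.E m = D'.E m) ∧ ∀ m < n, D.φ m = D'.φ m

/-- no cells above dimension `n` -/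
def Top (D : Dt G) (n : ℕ) : Prop := ∀ m, n < m → D.E m = 0

/-- attach `k` orbits of `(n+1)`-cells -/
noncomputable def add (D : Dt G) (n k : ℕ) (ψ : ℕ → Rn n → Pt G) : Dt G :=
  ⟨update D.E (n + 1) k, update D.φ n ψ⟩

variable {D D' : Dt G} {n m : ℕ}

theorem isClosed_iff {S : Set D.Sp} :
    IsClosed S ↔ ∀ m g i, i < D.E m → IsClosed (D.χ m g i ⁻¹' S) := by
  simp only [isClosed_iSup_iff, isClosed_coinduced]
  rfl

theorem continuous_iff {Z : Type} [TopologicalSpace Z] {F : D.Sp → Z} :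
    Continuous F ↔ ∀ m g i, i < D.E m → Continuous fun t => F (D.χ m g i t) := by
  simp only [continuous_iSup_dom, continuous_coinduced_dom]
  rfl

theorem continuous_χ (g : G) {i : ℕ} (hi : i < D.E m) : Continuous (Y := D.Sp) (D.χ m g i) := by
  exact continuous_iff.1 (continuous_id (X := D.Sp)) m g i hi

theorem continuous_prod {Z : Type} [TopologicalSpace Z] {F : D.Sp → ℝ → Z}
    (h1 : ∀ p, Continuous (F p))
    (h2 : ∀ m g i, i < D.E m → Continuous fun q : Rn m × ℝ => F (D.χ m g i q.1) q.2) :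
    Continuous fun q : D.Sp × ℝ => F q.1 q.2 := by
  let F' : D.Sp → C(ℝ, Z) := fun p => ⟨F p, h1 p⟩
  have : Continuous F' := continuous_iff.2 fun m g i hi =>
    ContinuousMap.continuous_of_continuous_uncurry _ (h2 m g i hi)
  exact ContinuousMap.continuous_uncurry_of_continuous ⟨F', this⟩

theorem smul_χ (h g : G) (i : ℕ) (t : Rn m) : h • D.χ m g i t = D.χ m (h * g) i t := by
  cases m with
  | zero => rfl
  | succ m =>
    simp only [χ]
    split_ifs
    · rfl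
    · exact (mul_smul _ _ _).symm
    · exact (mul_smul _ _ _).symm

theorem continuous_smul (h : G) : Continuous (X := D.Sp) (Y := D.Sp) fun p : Pt G => h • p := by
  refine continuous_iff.2 fun m g i hi => ?_
  simp only [smul_χ]
  exact continuous_χ (h * g) hi

theorem χ_of_lt (g : G) (i : ℕ) {t : Rn m} (ht : ‖t‖ < 1) : D.χ m g i t = ⟨m, g, i, t⟩ := by
  cases m with
  | zero => rfl
  | succ m => exact if_pos ht

theorem sk_mono (h : m ≤ n) : D.sk m ⊆ D.sk n := fun _ hp => ⟨hp.1.trans h, hp.2⟩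

theorem smul_mem_all (g : G) {p : Pt G} : g • p ∈ D.all ↔ p ∈ D.all := Iff.rfl

theorem smul_mem_sk (g : G) {p : Pt G} : g • p ∈ D.sk n ↔ p ∈ D.sk n := Iff.rfl

theorem WF.bp_mem (hD : D.WF) (n : ℕ) : bp ∈ D.sk n := by
  refine ⟨Nat.zero_le _, ?_, ?_⟩
  · change 0 < D.E 0
    rw [hD.E0]; exact one_pos
  · change ‖(0 : Rn 0)‖ < 1
    rw [norm_zero]; exact one_pos

theorem WF.mem_sk_zero (hD : D.WF) {p : Pt G} : p ∈ D.sk 0 ↔ ∃ g : G, p = g • bp := by
  refine ⟨?_, ?_⟩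
  · obtain ⟨n, g, i, t⟩ := p
    rintro ⟨h1, h2, -⟩
    obtain rfl : n = 0 := Nat.le_zero.1 h1
    change i < D.E 0 at h2
    rw [hD.E0] at h2
    obtain rfl : i = 0 := by omega
    obtain rfl : t = 0 := Subsingleton.elim _ _
    exact ⟨g, by rw [bp, smul_mk, mul_one]⟩
  · rintro ⟨g, rfl⟩
    exact (smul_mem_sk g).2 (hD.bp_mem 0)

theorem WF.χ_mem (hD : D.WF) (g : G) {i : ℕ} (hi : i < D.E m) (t : Rn m) : D.χ m g i t ∈ D.sk m := by
  cases m with
  | zero =>
    obtain rfl : t = 0 := Subsingleton.elim _ _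
    exact ⟨le_rfl, hi, by change ‖(0 : Rn 0)‖ < 1; rw [norm_zero]; exact one_pos⟩
  | succ m =>
    simp only [χ]
    split_ifs with h
    · exact ⟨le_rfl, hi, h⟩
    · exact sk_mono m.le_succ ((smul_mem_sk g).2 (hD.mem m i hi _))
    · exact (smul_mem_sk g).2 (hD.bp_mem _)

theorem WF.χ_out (hD : D.WF) (g : G) {i : ℕ} (hi : i < D.E (m + 1)) {t : Rn (m + 1)}
    (ht : 1 ≤ ‖t‖) : D.χ (m + 1) g i t ∈ D.sk m := by
  simp only [χ]
  rw [if_neg (not_lt.2 ht)]
  split_ifs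
  · exact (smul_mem_sk g).2 (hD.mem m i hi _)
  · exact (smul_mem_sk g).2 (hD.bp_mem _)

theorem WF.cone (hD : D.WF) (g : G) {i : ℕ} (hi : i < D.E (m + 1)) :
    Cone (D.χ (m + 1) g i) (fun t => g • D.φ m i t) (g • bp) := by
  refine ⟨fun t ht => ?_, fun t ht => ?_, fun t ht => ?_⟩
  · simp only [χ]
    rw [if_neg (not_lt.2 (one_le_norm_succ.2 (Or.inl ht))), if_pos ht]
  · simp only [χ]
    rw [if_neg (not_lt.2 (one_le_norm_succ.2 (Or.inr (Or.inl ht)))), if_neg (by linarith)]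
  · simp only [χ]
    rw [if_neg (not_lt.2 (one_le_norm_succ.2 (Or.inr (Or.inr ht))))]
    split_ifs
    · rw [hD.out m i hi _ ht]
    · rfl

theorem Cl.smul {S : Set (Pt G)} (h : D.Cl n S) (g : G) : D.Cl n ((g • ·) ⁻¹' S) := by
  intro m hm k i hi
  have e : D.χ m k i ⁻¹' ((g • ·) ⁻¹' S) = D.χ m (g * k) i ⁻¹' S := by
    ext t; simp only [mem_preimage, smul_χ]
  rw [e]
  exact h m hm (g * k) i hi

theorem WF.cl_step (hD : D.WF) {S : Set (Pt G)} {g : G} {i : ℕ} (hi : i < D.E (n + 1))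
    (h : D.Cl n S) (hS : ∀ t : Rn (n + 1), ‖t‖ < 1 → (⟨n + 1, g, i, t⟩ : Pt G) ∉ S) :
    IsClosed (D.χ (n + 1) g i ⁻¹' S) := by
  have hc := hD.cone g hi
  have h1 : IsClosed ((fun t : Rn (n + 1) => g • D.φ n i (Fin.tail t)) ⁻¹' S) :=
    (hD.cont n i hi _ (h.smul g)).preimage (continuous_tail continuous_id)
  have e : D.χ (n + 1) g i ⁻¹' S = ({t | t 0 ≤ -1} ∩
      (fun t : Rn (n + 1) => g • D.φ n i (Fin.tail t)) ⁻¹' S) ∪
      (({t | 1 ≤ t 0} ∪ {t | 1 ≤ ‖Fin.tail t‖}) ∩ (fun _ => g • (bp : Pt G)) ⁻¹' S) := by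
    ext t
    constructor
    · intro ht
      have h2 : 1 ≤ ‖t‖ := not_lt.1 fun h2 => hS t h2 (χ_of_lt (D := D) g i h2 ▸ ht)
      rcases one_le_norm_succ.1 h2 with h3 | h3 | h3
      · exact Or.inl ⟨h3, by rw [mem_preimage, ← hc.lo t h3]; exact ht⟩
      · exact Or.inr ⟨Or.inl h3, by rw [mem_preimage, ← hc.hi t h3]; exact ht⟩
      · exact Or.inr ⟨Or.inr h3, by rw [mem_preimage, ← hc.side t h3]; exact ht⟩
    · rintro (⟨h3, ht⟩ | ⟨h3 | h3, ht⟩)
      · rw [mem_preimage, hc.lo t h3]; exact ht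
      · rw [mem_preimage, hc.hi t h3]; exact ht
      · rw [mem_preimage, hc.side t h3]; exact ht
  rw [e]
  refine ((isClosed_le (by fun_prop) continuous_const).inter h1).union (IsClosed.inter
    ((isClosed_le continuous_const (by fun_prop)).union
      (isClosed_le continuous_const (by fun_prop))) ?_)
  by_cases hb : g • (bp : Pt G) ∈ S
  · rw [preimage_const_of_mem hb]; exact isClosed_univ
  · rw [preimage_const_of_notMem hb]; exact isClosed_empty

theorem WF.isClosed_of_Cl (hD : D.WF) {S : Set (Pt G)} (hS : S ⊆ D.sk n) (h : D.Cl n S) :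
    IsClosed (X := D.Sp) S := by
  have key : ∀ k, D.Cl (n + k) S := by
    intro k
    induction k with
    | zero => exact h
    | succ k ih =>
      intro m hm g i hi
      rcases Nat.lt_or_ge m (n + k + 1) with h' | h'
      · exact ih m (Nat.lt_succ_iff.1 h') g i hi
      obtain rfl : m = n + k + 1 := le_antisymm hm h'
      exact hD.cl_step hi ih fun t ht hS' => by
        have := (hS hS').1
        change n + k + 1 ≤ n at this
        omega
  exact isClosed_iff.2 fun m g i hi => key m m (Nat.le_add_left _ _) g i hi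

theorem WF.isClosed_sk (hD : D.WF) (n : ℕ) : IsClosed (X := D.Sp) (D.sk n) := by
  refine hD.isClosed_of_Cl Subset.rfl fun m hm g i hi => ?_
  rw [eq_univ_of_forall (s := D.χ m g i ⁻¹' D.sk n) fun t => sk_mono hm (hD.χ_mem g hi t)]
  exact isClosed_univ

theorem WF.isClopen_all (hD : D.WF) : IsClopen (X := D.Sp) D.all := by
  refine ⟨isClosed_iff.2 fun m g i hi => ?_, 
    isClosed_compl_iff.1 (isClosed_iff.2 fun m g i hi => ?_)⟩
  · rw [eq_univ_of_forall (s := D.χ m g i ⁻¹' D.all) fun t => (hD.χ_mem g hi t).2]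
    exact isClosed_univ
  · have e : D.χ m g i ⁻¹' (D.all)ᶜ = ∅ :=
      eq_empty_of_forall_notMem fun t ht => ht (hD.χ_mem g hi t).2
    exact e ▸ isClosed_empty

theorem Top.sk_eq (h : D.Top n) : D.sk n = D.all := by
  refine Subset.antisymm (fun _ hp => hp.2) fun p hp => ⟨not_lt.1 fun hn => ?_, hp⟩
  have := hp.1
  rw [h _ hn] at this
  exact absurd this (Nat.not_lt_zero _)

theorem WF.isClopen_sk (hD : D.WF) (h : D.Top n) : IsClopen (X := D.Sp) (D.sk n) :=
  h.sk_eq ▸ hD.isClopen_all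

theorem WF.continuous_φ (hD : D.WF) {i : ℕ} (hi : i < D.E (m + 1)) :
    Continuous (Y := D.Sp) (D.φ m i) := by
  exact continuous_iff_isClosed.2 fun S hS =>
    hD.cont m i hi S fun k _ g j hj => isClosed_iff.1 hS k g j hj

/-- the characteristic map as a generator -/
noncomputable def WF.gen (hD : D.WF) (m : ℕ) (g : G) {i : ℕ} (hi : i < D.E (m + 1)) :
    Gen (Y := D.Sp) (m + 1) (D.sk (m + 1)) (D.sk m) :=
  ⟨D.χ (m + 1) g i, continuous_χ g hi, hD.χ_mem g hi, fun _ ht => hD.χ_out g hi ht⟩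

theorem Agr.symm (h : Agr n D D') : Agr n D' D := by
  exact ⟨fun m hm => (h.1 m hm).symm, fun m hm => (h.2 m hm).symm⟩

theorem Agr.trans {D'' : Dt G} (h : Agr n D D') (h' : Agr n D' D'') : Agr n D D'' := by
  exact ⟨fun m hm => (h.1 m hm).trans (h'.1 m hm), fun m hm => (h.2 m hm).trans (h'.2 m hm)⟩

theorem Agr.mono (h : Agr n D D') (hm : m ≤ n) : Agr m D D' := by
  exact ⟨fun k hk => h.1 k (hk.trans hm), fun k hk => h.2 k (hk.trans_le hm)⟩

theorem Agr.χ_eq (h : Agr n D D') (hm : m ≤ n) : D.χ m = D'.χ m := by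
  cases m with
  | zero => rfl
  | succ m =>
    funext g i t
    simp only [χ, h.2 m hm]

theorem Agr.sk_eq (h : Agr n D D') (hm : m ≤ n) : D.sk m = D'.sk m := by
  ext p
  refine and_congr_right fun hp => ?_
  simp only [all, mem_setOf_eq, h.1 p.n (hp.trans hm)]

theorem Agr.Cl (h : Agr n D D') {S : Set (Pt G)} (hS : D.Cl n S) : D'.Cl n S := by
  intro m hm g i hi
  rw [← h.χ_eq hm]
  exact hS m hm g i (by rwa [h.1 m hm])

theorem Agr.continuous (h : Agr n D D') (hT : D.Top n) :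
    Continuous (X := D.Sp) (Y := D'.Sp) fun p => p := by
  refine continuous_iff.2 fun m g i hi => ?_
  have hm : m ≤ n := not_lt.1 fun hn => by
    rw [hT _ hn] at hi
    exact absurd hi (Nat.not_lt_zero _)
  rw [h.χ_eq hm]
  exact continuous_χ g (by rwa [← h.1 m hm])

theorem Agr.continuousOn (h : Agr n D D') (hD : D.WF) (hD' : D'.WF) :
    ContinuousOn (X := D'.Sp) (Y := D.Sp) (fun p => p) (D'.sk n) := by
  refine (continuousOn_iff_isClosed).2 fun S hS =>
    ⟨{p | p ∈ S ∧ p ∈ D'.sk n}, ?_, Set.ext fun p =>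
      ⟨fun hp => ⟨hp, hp.2⟩, fun hp => hp.1⟩⟩
  refine hD'.isClosed_of_Cl (fun _ hp => hp.2) (h.Cl fun m hm g i hi => ?_)
  rw [← h.sk_eq le_rfl]
  exact isClosed_iff.1 (hS.inter (hD.isClosed_sk n)) m g i hi

theorem add_E (k : ℕ) (ψ : ℕ → Rn n → Pt G) : (D.add n k ψ).E (n + 1) = k := by
  simp [add]

theorem add_φ (k : ℕ) (ψ : ℕ → Rn n → Pt G) : (D.add n k ψ).φ n = ψ := by
  simp [add]

theorem agr_add (k : ℕ) (ψ : ℕ → Rn n → Pt G) : Agr n D (D.add n k ψ) := by
  exact ⟨fun m hm => (update_of_ne (by omega) _ _).symm, fun m hm => (update_of_ne (by omega) _ _).symm⟩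

theorem Top.add (h : D.Top n) (k : ℕ) (ψ : ℕ → Rn n → Pt G) : (D.add n k ψ).Top (n + 1) := by
  intro m hm
  exact (update_of_ne (by omega) _ _).trans (h m (by omega))

theorem WF.add (hD : D.WF) (h : D.Top n) {k : ℕ} {ψ : ℕ → Rn n → Pt G}
    (h1 : ∀ i < k, Continuous (Y := D.Sp) (ψ i)) (h2 : ∀ i < k, ∀ t, ψ i t ∈ D.sk n)
    (h3 : ∀ i < k, ∀ t, 1 ≤ ‖t‖ → ψ i t = bp) : (D.add n k ψ).WF := by
  have hA := agr_add (D := D) k ψ
  have hT := h.add k ψ
  have cs : ∀ {P : ∀ m, ℕ → (Rn m → Pt G) → Prop}, (∀ m < n, ∀ i < D.E (m + 1), P m i (D.φ m i)) →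
      (∀ i < k, P n i (ψ i)) → ∀ m i, i < (D.add n k ψ).E (m + 1) → P m i ((D.add n k ψ).φ m i) := by
    intro P a1 a2 m i hi
    rcases lt_trichotomy m n with hm | rfl | hm
    · rw [← hA.2 m hm]; exact a1 m hm i (by rwa [hA.1 _ hm])
    · rw [add_φ]; exact a2 i (by rwa [add_E] at hi)
    · rw [hT _ (by omega)] at hi; exact absurd hi (Nat.not_lt_zero _)
  refine ⟨(hA.1 0 n.zero_le).symm.trans hD.E0,
    cs (P := fun m _ f => ∀ t, f t ∈ (D.add n k ψ).sk m)
      (fun m hm i hi t => hA.sk_eq hm.le ▸ hD.mem m i hi t) fun i hi t => hA.sk_eq le_rfl ▸ h2 i hi t,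
    cs (P := fun m _ f => ∀ t, 1 ≤ ‖t‖ → f t = bp) (fun m _ i hi => hD.out m i hi) h3,
    cs (P := fun m _ f => ∀ S, (D.add n k ψ).Cl m S → IsClosed (f ⁻¹' S))
      (fun m hm i hi S hS => hD.cont m i hi S ((hA.mono hm.le).symm.Cl hS)) fun i hi S hS => ?_⟩
  refine IsClosed.preimage (h1 i hi) (isClosed_iff.2 fun m g j hj => ?_)
  refine hA.symm.Cl hS m (not_lt.1 fun hn => ?_) g j hj
  rw [h _ hn] at hj
  exact absurd hj (Nat.not_lt_zero _)

end Dt

end Crest.Agent.R185.T1
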