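import Crest.Agent.R185.Grp

/-!
# Row 185, T1F (task R185-T1F): the algebra for T1 (free modules, Fox calculus)

PLAN.  `exists_lc`: `x ↦ ∑ i, (x i).coeff.sum fun g a => a • F g i`.  `C_ext`: `Pi.single` decomposition and induction on
`MonoidAlgebra`.  `exists_cover`: `Module.Finite.exists_fin'` (or `Module.Finite.exists_fin`), `MFP.ker` applied to the surjection
`C G k → Z`, compose with `Z.subtype` (`LinearMap.ker_comp_of_ker_eq_bot`/`MFP.of_equiv`).
`exists_om`: `FreeGroup.lift` into `SemidirectProduct (FC G k) G _` (action `MulAut` by `FreeGroup.freeGroupCongr`/`map`), or into the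
permutations of `FC G k × G`.  `normal_eq_top`: `T = {w | π w = 1 ∧ ∀ g, act g (ω w) ∈ N}` is a normal subgroup containing `R`, so
it contains `ker π`; apply it to `κ g * of i * (κ (g * π (of i)))⁻¹`.
`exists_d1`: `∂ y = ∑ i, y i * (single (x i) 1 - 1)`; augmentation `ε : ZG G → Triv G` (linear, onto), `MFP.ker` twice; the range of `∂` is
`ker ε` (it is a left ideal containing `single g 1 - 1` for all `g`: `Subgroup.closure_induction`).
-/

set_option autoImplicit false

namespace Crest.Agent.R185.T1

variable {G : Type} [Group G] {k : ℕ}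

/-- the free module -/
abbrev C (G : Type) [Group G] (k : ℕ) : Type := Fin k → ZG G

/-- the `ℤ`-basis -/
noncomputable def e (g : G) (i : Fin k) : C G k := Pi.single i (MonoidAlgebra.single g 1)

/-- group elements in the group ring -/
noncomputable abbrev sg (g : G) : ZG G := MonoidAlgebra.single g 1

theorem sg_smul_e (g h : G) (i : Fin k) : sg g • e h i = e (g * h) i := by
  simp [e, ← Pi.single_smul, MonoidAlgebra.single_mul_single]

theorem exists_lcZ' {M : Type} [AddCommGroup M] (F : G → M) :
    ∃ φ : ZG G →+ M, ∀ g, φ (sg g) = F g :=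
  ⟨(Finsupp.liftAddHom fun g => zmultiplesHom M (F g)).comp
    (MonoidAlgebra.coeffAddEquiv (R := ℤ) (M := G)).toAddMonoidHom, fun g => by simp⟩

theorem C_ind' {S : AddSubgroup (C G k)} (h : ∀ g i, e g i ∈ S) (y : C G k) : y ∈ S := by
  rw [← Finset.univ_sum_single y]
  refine S.sum_mem fun i _ => ?_
  induction y i using MonoidAlgebra.induction_linear with
  | zero => simp
  | add f g hf hg => rw [Pi.single_add]; exact S.add_mem hf hg
  | single g z =>
    have : (Pi.single i (MonoidAlgebra.single g z) : C G k) = z • e g i := by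
      simp [e, ← Pi.single_smul]
    rw [this]
    exact S.zsmul_mem (h g i) z

theorem exists_lc {M : Type} [AddCommGroup M] (F : G → Fin k → M) :
    ∃ φ : C G k →+ M, ∀ g i, φ (e g i) = F g i := by
  choose φ hφ using fun i => exists_lcZ' (fun g => F g i)
  refine ⟨∑ i, (φ i).comp (Pi.evalAddMonoidHom (fun _ : Fin k => ZG G) i), fun g i => ?_⟩
  rw [AddMonoidHom.finsetSum_apply, Finset.sum_eq_single i]
  · simpa [e] using hφ i g
  · intro j _ hj
    simp [e, Pi.single_eq_of_ne hj]
  · simp

theorem C_ext {M : Type} [AddCommGroup M] {φ ψ : C G k →+ M} (h : ∀ g i, φ (e g i) = ψ (e g i)) :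
    φ = ψ := by
  exact AddMonoidHom.ext fun y => C_ind' (S := φ.eqLocus ψ) h y

theorem C_ind {S : AddSubgroup (C G k)} (h : ∀ g i, e g i ∈ S) (y : C G k) : y ∈ S := by
  exact C_ind' h y

theorem exists_lcZ {M : Type} [AddCommGroup M] (F : G → M) :
    ∃ φ : ZG G →+ M, ∀ g, φ (sg g) = F g := by
  exact exists_lcZ' F

theorem exists_lin {M : Type} [AddCommGroup M] [Module (ZG G) M] (z : Fin k → M) :
    ∃ d : C G k →ₗ[ZG G] M, ∀ g i, d (e g i) = sg g • z i := by
  exact ⟨Fintype.linearCombination (ZG G) z, fun g i => by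
    simp [e, Fintype.linearCombination_apply_single]⟩

theorem mfp_ker_of_range {M : Type} [AddCommGroup M] [Module (ZG G) M] {Z : Submodule (ZG G) M}
    (h : ∀ j, MFP (ZG G) j Z) (d : C G k →ₗ[ZG G] M) (hd : LinearMap.range d = Z) (j : ℕ) :
    MFP (ZG G) j (LinearMap.ker d) := by
  subst hd
  have := MFP.ker d.rangeRestrict d.surjective_rangeRestrict (h (j + 1))
  rwa [LinearMap.ker_rangeRestrict] at this

theorem exists_cover {M : Type} [AddCommGroup M] [Module (ZG G) M] {Z : Submodule (ZG G) M}
    (h : ∀ j, MFP (ZG G) j Z) : ∃ (k : ℕ) (d : C G k →ₗ[ZG G] M), LinearMap.range d = Z := by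
  have : Module.Finite (ZG G) Z := h 0
  obtain ⟨n, f, hf⟩ := Module.Finite.exists_fin' (ZG G) Z
  refine ⟨n, Z.subtype.comp f, ?_⟩
  rw [LinearMap.range_comp, LinearMap.range_eq_top.2 hf, Submodule.map_top, Submodule.range_subtype]

/-- the free group on the edges of the Cayley graph -/
abbrev FC (G : Type) (k : ℕ) : Type := FreeGroup (G × Fin k)

/-- translation -/
def act (g : G) : FC G k →* FC G k := FreeGroup.map fun p => (g * p.1, p.2)

theorem act_of (g h : G) (i : Fin k) : act g (FreeGroup.of (h, i)) = FreeGroup.of (g * h, i) := by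
  exact FreeGroup.map.of

theorem act_act (g h : G) (u : FC G k) : act g (act h u) = act (g * h) u := by
  have : (act g).comp (act h) = (act (g * h) : FC G k →* FC G k) :=
    FreeGroup.ext_hom _ _ fun ⟨a, i⟩ => by simp [act_of, mul_assoc]
  exact DFunLike.congr_fun this u

theorem act_one (u : FC G k) : act (1 : G) u = u := by
  have : (act (1 : G) : FC G k →* FC G k) = MonoidHom.id _ :=
    FreeGroup.ext_hom _ _ fun ⟨a, i⟩ => by simp [act_of]
  exact DFunLike.congr_fun this u

/-- `ω w` is the edge path from `π w` to `1` (read from right to left) -/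
structure Om (π : FreeGroup (Fin k) →* G) (ω : FreeGroup (Fin k) → FC G k) : Prop where
  of : ∀ i, ω (FreeGroup.of i) = FreeGroup.of (1, i)
  mul : ∀ w w', ω (w * w') = ω w * act (π w) (ω w')

theorem exists_om (π : FreeGroup (Fin k) →* G) : ∃ ω, Om π ω := by
  let φ : G →* MulAut (FC G k) :=
    { toFun := fun g =>
        { toFun := act g
          invFun := act g⁻¹
          left_inv := fun u => by rw [act_act, inv_mul_cancel, act_one]
          right_inv := fun u => by rw [act_act, mul_inv_cancel, act_one]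
          map_mul' := (act g).map_mul }
      map_one' := MulEquiv.ext act_one
      map_mul' := fun g h => MulEquiv.ext fun u => (act_act g h u).symm }
  let L : FreeGroup (Fin k) →* SemidirectProduct (FC G k) G φ :=
    FreeGroup.lift fun i => ⟨FreeGroup.of (1, i), π (FreeGroup.of i)⟩
  have hL : ∀ w, (L w).right = π w := by
    have : SemidirectProduct.rightHom.comp L = π := FreeGroup.ext_hom _ _ fun i => by simp [L]
    exact fun w => DFunLike.congr_fun this w
  refine ⟨fun w => (L w).left, fun i => by simp [L], fun w w' => ?_⟩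
  simp only [map_mul, SemidirectProduct.mul_left, hL]
  rfl

theorem Om.one {π : FreeGroup (Fin k) →* G} {ω} (h : Om π ω) : ω 1 = 1 := by
  have := h.mul 1 1
  rw [one_mul, map_one, act_one] at this
  exact left_eq_mul.1 this

theorem Om.inv {π : FreeGroup (Fin k) →* G} {ω} (h : Om π ω) (w : FreeGroup (Fin k)) :
    ω w⁻¹ = (act (π w)⁻¹ (ω w))⁻¹ := by
  have := h.mul w⁻¹ w
  rw [inv_mul_cancel, h.one, map_inv] at this
  exact eq_inv_of_mul_eq_one_left this.symm

theorem Om.normal_eq_top {π : FreeGroup (Fin k) →* G} {ω} (h : Om π ω) {R : Set (FreeGroup (Fin k))}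
    (hR : Subgroup.normalClosure R = π.ker) (κ : G → FreeGroup (Fin k)) (hκ : ∀ g, π (κ g) = g)
    (N : Subgroup (FC G k)) [N.Normal] (h1 : ∀ g, ∀ r ∈ R, act g (ω r) ∈ N)
    (h2 : ∀ g, ω (κ g) ∈ N) : N = ⊤ := by
  have hN : N.Normal := inferInstance
  let T : Subgroup (FreeGroup (Fin k)) :=
    { carrier := {w | π w = 1 ∧ ∀ g, act g (ω w) ∈ N}
      one_mem' := ⟨map_one π, fun g => by rw [h.one, map_one]; exact N.one_mem⟩
      mul_mem' := fun {a b} ha hb => ⟨by rw [map_mul, ha.1, hb.1, one_mul], fun g => by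
        rw [h.mul, map_mul, act_act]
        exact N.mul_mem (ha.2 g) (hb.2 _)⟩
      inv_mem' := fun {a} ha => ⟨by rw [map_inv, ha.1, inv_one], fun g => by
        rw [h.inv, map_inv, act_act]
        exact N.inv_mem (ha.2 _)⟩ }
  have : T.Normal := ⟨fun w hw v => ⟨by rw [map_mul, map_mul, hw.1, mul_one, map_inv,
    mul_inv_cancel], fun g => by
      rw [h.mul, h.mul, h.inv, map_mul π, hw.1, mul_one, map_inv (act (π v)), act_act,
        mul_inv_cancel, act_one, map_mul, map_mul, map_inv, act_act]
      exact hN.conj_mem _ (hw.2 _) _⟩⟩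
  have hle : π.ker ≤ T := by
    rw [← hR]
    refine Subgroup.normalClosure_le_normal fun r hr => ⟨?_, fun g => h1 g r hr⟩
    have := Subgroup.subset_normalClosure hr
    rwa [hR] at this
  rw [eq_top_iff, ← FreeGroup.closure_range_of, Subgroup.closure_le]
  rintro _ ⟨⟨g, i⟩, rfl⟩
  have h3 := (hle (show κ g * FreeGroup.of i * (κ (g * π (FreeGroup.of i)))⁻¹ ∈ π.ker by
    simp [MonoidHom.mem_ker, hκ])).2 1
  rw [act_one, h.mul, h.mul, h.inv, map_mul π, hκ, hκ, map_inv, act_act, mul_inv_cancel, act_one,
    h.of, act_of, mul_one] at h3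
  exact (N.mul_mem_cancel_left (h2 g)).1 ((N.mul_mem_cancel_right (N.inv_mem (h2 _))).1 h3)

/-- abelianisation -/
noncomputable def abz : FC G k →* Multiplicative (C G k) :=
  FreeGroup.lift fun p => Multiplicative.ofAdd (e p.1 p.2)

/-- abelianisation, additively -/
noncomputable def az (u : FC G k) : C G k := Multiplicative.toAdd (abz u)

theorem az_of (g : G) (i : Fin k) : az (FreeGroup.of (g, i)) = e g i := by simp [az, abz]
theorem az_mul (u v : FC G k) : az (u * v) = az u + az v := by simp [az]
theorem az_one : az (1 : FC G k) = 0 := by simp [az]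
theorem az_inv (u : FC G k) : az u⁻¹ = -az u := by simp [az]

theorem az_act (g : G) (u : FC G k) : az (act g u) = sg g • az u := by
  induction u using FreeGroup.induction_on with
  | C1 => simp [az_one]
  | of x =>
    obtain ⟨a, i⟩ := x
    rw [act_of, az_of, az_of, sg_smul_e]
  | inv_of x hx => rw [map_inv, az_inv, az_inv, hx, smul_neg]
  | mul x y hx hy => rw [map_mul, az_mul, az_mul, hx, hy, smul_add]

theorem exists_d1 (h2 : FPinf G) (π : FreeGroup (Fin k) →* G) (hπ : Function.Surjective π) :
    ∃ d : C G k →ₗ[ZG G] ZG G, (∀ g i, d (e g i) = sg (g * π (FreeGroup.of i)) - sg g) ∧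
      (∀ ω, Om π ω → ∀ w, d (az (ω w)) = sg (π w) - sg 1) ∧
      ∀ j, MFP (ZG G) j (LinearMap.ker d) := by
  obtain ⟨d, hd⟩ := exists_lin (G := G) (M := ZG G) fun i => sg (π (FreeGroup.of i)) - sg 1
  have hd1 : ∀ g i, d (e g i) = sg (g * π (FreeGroup.of i)) - sg g := fun g i => by
    rw [hd]
    simp [mul_sub, MonoidAlgebra.single_mul_single]
  have hd2 : ∀ ω, Om π ω → ∀ w, d (az (ω w)) = sg (π w) - sg 1 := by
    intro ω h w
    induction w using FreeGroup.induction_on with
    | C1 => simp [h.one, az_one]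
    | of x => rw [h.of, az_of, hd1, one_mul]
    | inv_of x hx =>
      rw [h.inv, az_inv, az_act, map_neg, map_smul, hx]
      simp [mul_sub, MonoidAlgebra.single_mul_single]
    | mul x y hx hy =>
      rw [h.mul, az_mul, az_act, map_add, map_smul, hx, hy]
      simp [mul_sub, MonoidAlgebra.single_mul_single]
  refine ⟨d, hd1, hd2, ?_⟩
  let ε : ZG G →ₗ[ZG G] Triv G := LinearMap.toSpanSingleton (ZG G) (Triv G) (Triv.equiv G 1)
  have hε : ∀ g, ε (sg g) = Triv.equiv G 1 := fun g => Triv.single_smul g _
  have hε' : ∀ g (z : ℤ), ε (MonoidAlgebra.single g z) = Triv.equiv G z := fun g z => by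
    have : (MonoidAlgebra.single g z : ZG G) = z • sg g := by simp
    rw [this, map_zsmul, hε, ← map_zsmul, smul_eq_mul, mul_one]
  have hsurj : Function.Surjective ε := fun t => by
    obtain ⟨z, rfl⟩ := (Triv.equiv G).surjective t
    exact ⟨_, hε' 1 z⟩
  refine mfp_ker_of_range (Z := LinearMap.ker ε) (fun j => MFP.ker ε hsurj (h2 (j + 1))) d ?_
  apply le_antisymm
  · rintro _ ⟨y, rfl⟩
    refine C_ind (S := (LinearMap.ker (ε.comp d)).toAddSubgroup) (fun g i => ?_) y
    change ε (d (e g i)) = 0
    rw [hd1, map_sub, hε, hε, sub_self]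
  · obtain ⟨ω, hω⟩ := exists_om π
    have key : ∀ y : ZG G, y - (Triv.equiv G).symm (ε y) • sg 1 ∈ LinearMap.range d := by
      intro y
      induction y using MonoidAlgebra.induction_linear with
      | zero => simp
      | add f g hf hg =>
        rw [map_add, map_add, add_smul, add_sub_add_comm]
        exact add_mem hf hg
      | single g z =>
        obtain ⟨w, rfl⟩ := hπ g
        have : (MonoidAlgebra.single (π w) z : ZG G) = z • sg (π w) := by simp
        rw [hε', AddEquiv.symm_apply_apply, this, ← smul_sub, ← hd2 ω hω]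
        exact zsmul_mem (LinearMap.mem_range_self d _) z
    intro y hy
    have := key y
    rwa [LinearMap.mem_ker.1 hy, map_zero, zero_smul, sub_zero] at this

end Crest.Agent.R185.T1
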