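import Crest.Agent.R185.T1C
import Crest.Agent.R185.T1D
import Crest.Agent.R185.T1F

/-!
# Row 185, T1G: extending the contraction over the top cells
-/

set_option autoImplicit false
set_option linter.unusedSectionVars false

namespace Crest.Agent.R185.T1

open Set Function Dt

variable {G : Type} [Group G] {D D' : Dt G} {m k k' : ℕ} {c : Pt G → ℝ → Pt G}

abbrev GG (D : Dt G) (m : ℕ) : Type := Gen (Y := D.Sp) (m + 1) (D.sk (m + 1)) (D.sk m)
abbrev AA (D : Dt G) (m : ℕ) : Type := A (Y := D.Sp) (m + 1) (D.sk (m + 1)) (D.sk m)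
abbrev AB (D : Dt G) (m : ℕ) : Type := Ab (Y := D.Sp) (m + 1) (D.sk (m + 1)) (D.sk m)

/-- the identity between two complexes -/
def tr (D D' : Dt G) : D.Sp → D'.Sp := fun p => p

/-- a complex of dimension `m + 1` with a contraction of the `m`-skeleton -/
structure Pre (m : ℕ) (D : Dt G) (c : Pt G → ℝ → Pt G) : Prop where
  wf : D.WF
  top : D.Top (m + 1)
  ctx : Ctx (Y := D.Sp) bp c (D.sk (m + 1)) (D.sk m)
  csk : ∀ k ≤ m, ∀ y ∈ D.sk k, ∀ s, c y s ∈ D.sk (k + 1)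

/-- the cell `(g, i)` -/
noncomputable def gn (hD : D.WF) (hk : D.E (m + 1) = k) (g : G) (i : Fin k) : GG D m :=
  hD.gen m g (i := i) (hk ▸ i.2)

theorem gn_apply (hD : D.WF) (hk : D.E (m + 1) = k) (g : G) (i : Fin k) (t : Rn (m + 1)) :
    gn hD hk g i t = D.χ (m + 1) g i t := rfl

/-- `D'` is `D` with `k'` orbits of cells attached along `ψ` -/
structure Ext (m : ℕ) (D D' : Dt G) {k' : ℕ} (ψ : Fin k' → Rn m → Pt G) : Prop where
  wf : D'.WF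
  top : D'.Top (m + 1)
  agr : Agr m D D'
  E : D'.E (m + 1) = k'
  φ : ∀ j : Fin k', D'.φ m j = ψ j

theorem exists_ext (hD : D.WF) (hT : D.Top m) (ψ : Fin k' → Rn m → Pt G)
    (h1 : ∀ j, Continuous (Y := D.Sp) (ψ j)) (h2 : ∀ j t, ψ j t ∈ D.sk m)
    (h3 : ∀ j t, 1 ≤ ‖t‖ → ψ j t = bp) : ∃ D', Ext m D D' ψ := by
  let ψ' : ℕ → Rn m → Pt G := fun i => if h : i < k' then ψ ⟨i, h⟩ else fun _ => bp
  have e : ∀ i (h : i < k'), ψ' i = ψ ⟨i, h⟩ := fun i h => dif_pos h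
  exact ⟨D.add m k' ψ', hD.add hT (fun i h => e i h ▸ h1 _) (fun i h => e i h ▸ h2 _)
    (fun i h => e i h ▸ h3 _), hT.add _ _, agr_add _ _, add_E _ _,
    fun j => by rw [add_φ, e j j.2]⟩

theorem continuousOn_prod (hD : D.WF) {Z : Type} [TopologicalSpace Z] {F : D.Sp → ℝ → Z}
    (h2 : ∀ m g i, i < D.E m → Continuous fun q : Rn m × ℝ => F (D.χ m g i q.1) q.2) :
    ContinuousOn (fun q : D.Sp × ℝ => F q.1 q.2) (D.all ×ˢ univ) := by
  classical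
  have := continuous_prod (D := D) (F := fun p s => if p ∈ D.all then F p s else F bp 0)
    (fun p => ?_) fun m g i hi => ?_
  · exact this.continuousOn.congr fun q hq => (if_pos hq.1).symm
  · by_cases hp : p ∈ D.all
    · simp only [if_pos hp]
      have := (h2 p.n p.g p.i hp.1).comp (f := fun s : ℝ => (p.t, s)) (by fun_prop)
      simp only [comp_def, χ_of_lt p.g p.i hp.2] at this
      exact this
    · simp only [if_neg hp]; exact continuous_const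
  · exact (h2 m g i hi).congr fun q => (if_pos (hD.χ_mem g hi _).2).symm

theorem jd (hT : D.Top m) (h : Agr m D D') : Jd (tr D D') (D.sk m) (D'.sk (m + 1)) (D'.sk m) :=
  ⟨h.continuous hT, fun _ hp => h.sk_eq le_rfl ▸ hp, sk_mono m.le_succ⟩

/-- coordinates of a point -/
def crd (n : ℕ) (p : Pt G) : Rn n := fun j => if h : j < p.n then p.t ⟨j, h⟩ else 0

theorem crd_mk (g : G) (i : ℕ) (t : Rn m) : crd m (⟨m, g, i, t⟩ : Pt G) = t :=
  funext fun j => dif_pos j.2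

theorem Pre.finish (h : Pre m D c) (hk : D.E (m + 1) = k) (hD' : D'.WF) (hT' : D'.Top (m + 2))
    (hA : Agr (m + 1) D D') {χ : C G k →+ AB D m} (hχ : ∀ g i, χ (e g i) = ab (cl (gn h.wf hk g i)))
    {σ : C G k →+ AB D' (m + 1)}
    (hB : ∀ g i, ∃ β : AA D' (m + 1), Fill (tr D D') (cl (h.ctx.Phi (gn h.wf hk g i))) β ∧
      ab β = σ (e g i)) :
    ∃ c', Pre (m + 1) D' c' ∧ (∀ y ∈ D.sk m, c' y = c y) ∧
      ∀ (f : GG D m) (y : C G k) (K : GG D' (m + 1)), ab (cl f) = χ y →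
        (∀ t, K t = c' (f (Fin.tail t)) (t 0)) → ab (cl K) = σ y := by
  classical
  have hj := jd h.top hA
  choose β hβ hβ' using hB
  choose H hH H1 H2 H3 using fun g i => h.ctx.G6 hj (h.wf.isClopen_sk h.top) _ (hβ g i)
  let c' : Pt G → ℝ → Pt G := fun p s =>
    if hp : p.n = m + 1 ∧ p.i < k ∧ ‖p.t‖ < 1 then H p.g ⟨p.i, hp.2.1⟩ (Fin.cons s (crd (m + 1) p))
    else c p s
  have c1 : ∀ y ∈ D.sk m, c' y = c y := fun y hy => funext fun s =>
    dif_neg fun hp => by have := hy.1; omega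
  have c2 : ∀ g (i : Fin k) (t : Rn (m + 1)) (s : ℝ),
      c' (D.χ (m + 1) g i t) s = H g i (Fin.cons s t) := fun g i t s => by
    rcases lt_or_ge ‖t‖ 1 with ht | ht
    · rw [χ_of_lt g i ht]
      exact (dif_pos ⟨rfl, i.2, ht⟩).trans (by rw [crd_mk])
    · rw [c1 _ (h.wf.χ_out g (hk ▸ i.2) ht), H2 g i _ (by rwa [Fin.tail_cons]), Fin.tail_cons]
      rfl
  have cs : ∀ y ∈ D.sk (m + 1), y ∈ D.sk m ∨ ∃ g, ∃ i : Fin k, ∃ t, y = D.χ (m + 1) g i t := by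
    rintro ⟨n, g, i, t⟩ ⟨h1, h2⟩
    rcases Nat.lt_or_ge n (m + 1) with hn | hn
    · exact Or.inl ⟨Nat.lt_succ_iff.1 hn, h2⟩
    · obtain rfl : n = m + 1 := le_antisymm h1 hn
      exact Or.inr ⟨g, ⟨i, hk ▸ h2.1⟩, t, (χ_of_lt g i h2.2).symm⟩
  have hcont : ContinuousOn (fun q : D.Sp × ℝ => (tr D D') (c' q.1 q.2)) (D.sk (m + 1) ×ˢ univ) := by
    rw [h.top.sk_eq]
    refine continuousOn_prod h.wf (F := fun p s => tr D D' (c' p s)) fun n g i hi => ?_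
    rcases lt_trichotomy n (m + 1) with hn | rfl | hn
    · have hm : ∀ t, D.χ n g i t ∈ D.sk m := fun t => sk_mono (Nat.lt_succ_iff.1 hn) (h.wf.χ_mem g hi t)
      simp only [c1 _ (hm _)]
      exact hj.cont.comp (h.ctx.cont_c ((continuous_χ g hi).comp continuous_fst) continuous_snd
        fun _ _ => hm _)
    · have := c2 g ⟨i, hk ▸ hi⟩
      simp only at this
      simp only [this]
      exact (H g _).cont.comp (by fun_prop)
    · rw [h.top _ hn] at hi; exact absurd hi (Nat.not_lt_zero _)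
  have lo : ∀ y s, s ≤ -1 → c' y s = y := by
    rintro ⟨n, g, i, t⟩ s hs
    by_cases hp : n = m + 1 ∧ i < k ∧ ‖t‖ < 1
    · obtain ⟨rfl, hi, ht⟩ := hp
      rw [← χ_of_lt (D := D) g i ht]
      exact (c2 g ⟨i, hi⟩ t s).trans ((H1 _ _ _ hs).trans (by rw [Fin.tail_cons]; rfl))
    · exact (dif_neg hp).trans (h.ctx.lo _ _ hs)
  have hi : ∀ y ∈ D.sk (m + 1), ∀ s, 1 ≤ s → c' y s = bp := fun y hy s hs => by
    rcases cs y hy with h' | ⟨g, i, t, rfl⟩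
    · rw [c1 y h']; exact h.ctx.hi y h' s hs
    · exact (c2 g i t s).trans (H3 _ _ _ hs)
  have csk : ∀ n ≤ m, ∀ y ∈ D.sk n, ∀ s, c' y s ∈ D'.sk (n + 1) := fun n hn y hy s => by
    rw [c1 y (sk_mono hn hy), ← hA.sk_eq (Nat.succ_le_succ hn)]
    exact h.csk n hn y hy s
  have mem : ∀ y ∈ D.sk (m + 1), ∀ s, c' y s ∈ D'.sk (m + 2) := fun y hy s => by
    rcases cs y hy with h' | ⟨g, i, t, rfl⟩
    · exact sk_mono (m + 1).le_succ (csk m le_rfl y h' s)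
    · rw [c2]; exact (H g i).mem _
  have e1 : D'.sk (m + 1) = D.sk (m + 1) := (hA.sk_eq le_rfl).symm
  refine ⟨c', ⟨hD', hT', ⟨lo, fun y hy => hi y (e1 ▸ hy), fun s => ?_, ?_, hD'.isClosed_sk _,
    hD'.bp_mem _, sk_mono (m + 1).le_succ, fun y hy => mem y (e1 ▸ hy)⟩, fun n hn y hy => ?_⟩, c1, ?_⟩
  · rw [c1 _ (h.wf.bp_mem m)]; exact h.ctx.base s
  · exact hcont.comp (f := fun q : D'.Sp × ℝ => (tr D' D q.1, q.2))
      (((hA.continuousOn h.wf hD').comp continuousOn_fst fun q hq => hq.1).prodMk continuousOn_snd)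
      fun q hq => ⟨e1 ▸ hq.1, mem_univ _⟩
  · rcases Nat.lt_or_ge n (m + 1) with h' | h'
    · exact csk n (Nat.lt_succ_iff.1 h') y (hA.sk_eq hn ▸ hy)
    · obtain rfl : n = m + 1 := le_antisymm hn h'
      exact mem y (e1 ▸ hy)
  · obtain ⟨κ, hκ⟩ := exists_K (Y := D.Sp) (Y' := D'.Sp) (U := D.sk (m + 1)) (V := D.sk m)
      (U' := D'.sk (m + 2)) (V' := D'.sk (m + 1)) (m + 1) c' hcont mem
      (fun y hy s hs => by rw [lo y s hs]; exact e1 ▸ hy)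
      (fun y hy s hs => by rw [hi y hy s hs]; exact hD'.bp_mem _) (csk m le_rfl)
    have : (abm κ).comp χ = σ := C_ext fun g i => by
      rw [AddMonoidHom.comp_apply, hχ, abm_ab, hκ _ (H g i) fun t => by
        rw [gn_apply, c2, Fin.cons_self_tail], hH, hβ']
    intro f y K hf hK
    rw [← this, AddMonoidHom.comp_apply, ← hf, abm_ab, hκ f K hK]

/-- the inductive invariant -/
structure Inv (m : ℕ) (D : Dt G) (c : Pt G → ℝ → Pt G) : Prop where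
  pre : Pre (m + 1) D c
  ex : ∃ (k : ℕ) (hk : D.E (m + 2) = k) (χ : C G k →+ AB D (m + 1)) (Z : Submodule (ZG G) (C G k))
    (p : C G k →+ C G k), (∀ g i, χ (e g i) = ab (cl (gn pre.wf hk g i))) ∧
    (∀ j, MFP (ZG G) j Z) ∧ (∀ y, y - p y ∈ Z) ∧ (∀ z ∈ Z, p z = 0) ∧
    ∀ (g : G) (i : Fin k) (K : GG D (m + 1)),
      (∀ t, K t = c (g • D.φ (m + 1) i (Fin.tail t)) (t 0)) → ab (cl K) = χ (p (e g i))

/-- a translated attaching map -/
theorem Ext.exists_gen {ψ : Fin k' → Rn (m + 1) → Pt G} (hE : Ext (m + 1) D D' ψ) (hD : D.WF)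
    (g : G) (j : Fin k') : ∃ f : GG D m, (∀ t, f t = g • ψ j t) ∧ ∀ t, 1 ≤ ‖t‖ → f t = g • (bp : Pt G) := by
  have hj : (j : ℕ) < D'.E (m + 2) := hE.E ▸ j.2
  have h1 : ∀ t, ψ j t ∈ D'.sk (m + 1) := fun t => hE.φ j ▸ hE.wf.mem _ _ hj t
  have h2 : ∀ t, 1 ≤ ‖t‖ → ψ j t = bp := fun t => hE.φ j ▸ hE.wf.out _ _ hj t
  have h3 : Continuous (Y := D.Sp) (ψ j) :=
    (hE.agr.continuousOn hD hE.wf).comp_continuous (hE.φ j ▸ hE.wf.continuous_φ hj) h1
  exact ⟨⟨fun t => g • ψ j t, (continuous_smul g).comp h3,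
    fun t => (smul_mem_sk g).2 (hE.agr.sk_eq le_rfl ▸ h1 t),
    fun t ht => by rw [h2 t ht]; exact (smul_mem_sk g).2 (hD.bp_mem _)⟩, fun _ => rfl,
    fun t ht => by simp only [h2 t ht]⟩

theorem Ext.fill {ψ : Fin k' → Rn (m + 1) → Pt G} (hE : Ext (m + 1) D D' ψ) (h : Pre m D c)
    (g : G) (j : Fin k') : ∃ f : GG D m, (∀ t, f t = g • ψ j t) ∧
      Fill (tr D D') (cl (h.ctx.Phi f)) (cl (gn hE.wf hE.E g j)) := by
  obtain ⟨f, hf, hf'⟩ := hE.exists_gen h.wf g j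
  refine ⟨f, hf, h.ctx.G5 (jd h.top hE.agr) f ((smul_mem_sk g).2 (h.wf.bp_mem _)) hf' _ ?_⟩
  have := hE.wf.cone g (i := j) (m := m + 1) (hE.E ▸ j.2)
  rw [hE.φ] at this
  simp only [hf]
  exact this

theorem Pre.step_end (h : Pre m D c) (hk : D.E (m + 1) = k) {ψ : Fin k' → Rn (m + 1) → Pt G}
    (hE : Ext (m + 1) D D' ψ) {χ : C G k →+ AB D m}
    (hχ : ∀ g i, χ (e g i) = ab (cl (gn h.wf hk g i))) {χ' : C G k' →+ AB D' (m + 1)}
    (hχ' : ∀ g j, χ' (e g j) = ab (cl (gn hE.wf hE.E g j))) (d : C G k' →ₗ[ZG G] C G k)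
    (hA : ∀ g j (f : GG D m), (∀ t, f t = g • ψ j t) → ab (cl f) = χ (d (e g j)))
    (hZ : ∀ j, MFP (ZG G) j (LinearMap.ker d)) (p : C G k →+ C G k) (hp : ∀ w, p (d w) = 0)
    (hB : ∀ g i, ∃ (w : C G k') (β : AA D' (m + 1)), d w = e g i - p (e g i) ∧
      Fill (tr D D') (cl (h.ctx.Phi (gn h.wf hk g i))) β ∧ ab β = χ' w) :
    ∃ c', Inv m D' c' ∧ ∀ y ∈ D.sk m, c' y = c y := by
  choose w β hw hβ hβ' using hB
  obtain ⟨s, hs⟩ := exists_lc w
  have hds : ∀ y, d (s y) = y - p y := DFunLike.congr_fun (C_ext (φ := d.toAddMonoidHom.comp s)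
    (ψ := AddMonoidHom.id (C G k) - p) fun g i => by simp [hs, hw])
  obtain ⟨c', hc, hc', hK⟩ := h.finish hk hE.wf hE.top hE.agr hχ (σ := χ'.comp s)
    fun g i => ⟨β g i, hβ g i, by rw [hβ', AddMonoidHom.comp_apply, hs]⟩
  refine ⟨c', ⟨hc, k', hE.E, χ', LinearMap.ker d, s.comp d.toAddMonoidHom, hχ', hZ, fun y => ?_,
    fun z hz => ?_, fun g j K hK' => ?_⟩, hc'⟩
  · simp [hds, hp]
  · simp [LinearMap.mem_ker.1 hz]
  · obtain ⟨f, hf, -⟩ := hE.exists_gen h.wf g j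
    exact hK f _ K (hA g j f hf) fun t => by rw [hK', hf, hE.φ]

/-- translation -/
theorem exists_tl (D : Dt G) (m : ℕ) (g : G) : ∃ T : AA D m →* AA D m,
    ∀ f f' : GG D m, (∀ t, f' t = HSMul.hSMul (β := Pt G) (γ := Pt G) g (f t)) → T (cl f) = cl f' :=
  exists_map (Y := D.Sp) (Y' := D.Sp) (m + 1) (fun p : Pt G => g • p) (continuous_smul g)
    (fun _ hp => (smul_mem_sk g).2 hp) fun _ hp => (smul_mem_sk g).2 hp

theorem Inv.step (h : Inv m D c) : ∃ D' c', Inv (m + 1) D' c' ∧ Agr (m + 2) D D' ∧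
    ∀ y ∈ D.sk (m + 1), c' y = c y := by
  obtain ⟨h, k, hk, χ, Z, p, hχ, hZ, hp1, hp2, hK⟩ := h
  have hU := h.wf.isClopen_sk h.top
  have hb := h.wf.bp_mem (m + 2)
  let L := (abm (h.ctx.PhiH (m + 2))).comp χ
  have hgb : ∀ (g : G) s, c (g • bp) s ∈ D.sk (m + 1) := fun g s =>
    sk_mono (by omega) (h.csk 0 (by omega) _ ((smul_mem_sk g).2 (h.wf.bp_mem 0)) s)
  have hKe : ∀ (g : G) (i : Fin k), ∃ K : GG D (m + 1),
      (∀ t, K t = c (g • D.φ (m + 1) i (Fin.tail t)) (t 0)) ∧ cl (h.ctx.Phi K) = 1 := fun g i => by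
    have hi : (i : ℕ) < D.E (m + 2) := hk ▸ i.2
    have h1 : ∀ t, g • D.φ (m + 1) i t ∈ D.sk (m + 1) := fun t => (smul_mem_sk g).2 (h.wf.mem _ _ hi t)
    have h2 : Continuous (Y := D.Sp) fun t => g • D.φ (m + 1) i t :=
      (continuous_smul g).comp (h.wf.continuous_φ hi)
    have h3 : ∀ t, 1 ≤ ‖t‖ → g • D.φ (m + 1) i t = g • bp := fun t ht => by rw [h.wf.out _ _ hi t ht]
    let K : GG D (m + 1) := ⟨fun t => c (g • D.φ (m + 1) i (Fin.tail t)) (t 0),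
      h.ctx.cont_c (h2.comp (by fun_prop)) (by fun_prop) fun _ _ => h1 _,
      fun t => h.ctx.mem _ (h1 _) _, fun t ht => by
        rcases one_le_norm_succ.1 ht with h' | h' | h'
        · rw [h.ctx.lo _ _ h']; exact h1 _
        · rw [h.ctx.hi _ (h1 _) _ h']; exact h.wf.bp_mem _
        · rw [h3 _ h']; exact hgb g _⟩
    exact ⟨K, fun _ => rfl, h.ctx.G2 h2 h1 h3 (hgb g) K fun _ => rfl⟩
  have hL : ∀ g i, L (e g i) = ab (cl (h.ctx.Phi (gn h.wf hk g i))) := fun g i => by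
    rw [AddMonoidHom.comp_apply, hχ, abm_ab, h.ctx.PhiH_cl]
  have hL1 : ∀ y, abm (h.ctx.iota (m + 2)) (L y) = χ (y - p y) :=
    DFunLike.congr_fun (C_ext (φ := (abm (h.ctx.iota (m + 2))).comp L)
      (ψ := χ.comp (AddMonoidHom.id _ - p)) fun g i => by
      obtain ⟨K, hK1, -⟩ := hKe g i
      rw [AddMonoidHom.comp_apply, hL, abm_ab, h.ctx.G3 (gn h.wf hk g i) (h.wf.cone g (hk ▸ i.2))
        (hgb g) K hK1, ab_mul, ab_inv, hK g i K hK1, ← hχ]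
      simp [sub_eq_add_neg])
  have hL2 : ∀ y, L (p y) = 0 :=
    DFunLike.congr_fun (C_ext (φ := L.comp p) (ψ := 0) fun g i => by
      obtain ⟨K, hK1, hK2⟩ := hKe g i
      rw [AddMonoidHom.comp_apply, AddMonoidHom.comp_apply, ← hK g i K hK1, abm_ab, h.ctx.PhiH_cl,
        hK2, ab_one, AddMonoidHom.zero_apply])
  obtain ⟨k', d, hd⟩ := exists_cover hZ
  have hdZ : ∀ w, d w ∈ Z := fun w => hd ▸ LinearMap.mem_range_self d w
  have : ∀ j : Fin k', ∃ f, ab (cl f) = L (d (e 1 j)) := fun j => by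
    obtain ⟨a, ha⟩ := ab_surj (L (d (e 1 j)))
    obtain ⟨f, rfl⟩ := pi_surj hU hb a
    exact ⟨f, ha⟩
  choose ψ hψ using this
  obtain ⟨D', hE⟩ := exists_ext h.wf h.top (fun j => (ψ j).f) (fun j => (ψ j).cont)
    (fun j => (ψ j).mem) fun j => (ψ j).out
  obtain ⟨χ', hχ'⟩ := exists_lc fun g j => ab (cl (gn hE.wf hE.E g j))
  have hA : ∀ g j (f : GG D (m + 1)), (∀ t, f t = HSMul.hSMul (β := Pt G) (γ := Pt G) g (ψ j t)) →
      ab (cl f) = χ (d (e g j)) := fun g j f hf => by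
    obtain ⟨T, hT⟩ := exists_tl D (m + 1) g
    have h1 : ∀ y, abm T (χ y) = χ (sg g • y) :=
      DFunLike.congr_fun (C_ext (φ := (abm T).comp χ)
        (ψ := χ.comp (DistribSMul.toAddMonoidHom _ (sg g))) fun g' i => by
        simp only [AddMonoidHom.comp_apply, DistribSMul.toAddMonoidHom_apply, sg_smul_e, hχ, abm_ab]
        rw [hT (gn h.wf hk g' i) (gn h.wf hk (g * g') i) fun t => (smul_χ (D := D) g g' i t).symm])
    let f₀ : GG D (m + 1) := (ψ j).map id continuous_id (mapsTo_id _) (mapsTo_singleton.2 h.ctx.bmem)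
    rw [← hT f₀ f hf, ← abm_ab, ← h.ctx.iota_cl (ψ j) f₀ fun _ => rfl, ← abm_ab, hψ, hL1,
      hp2 _ (hdZ _), sub_zero, h1, ← map_smul, sg_smul_e, mul_one]
  let S : AddSubgroup (C G k') :=
    { carrier := {w | ∃ α, ∃ β : AA D' (m + 2), Fill (tr D D') α β ∧ ab α = L (d w) ∧ ab β = χ' w}
      zero_mem' := ⟨1, 1, Fill.one (jd h.top hE.agr) hb, by simp [ab_one], by simp [ab_one]⟩
      add_mem' := fun ⟨α, β, h1, h2, h3⟩ ⟨α', β', h1', h2', h3'⟩ =>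
        ⟨_, _, h1.mul h1', by simp [ab_mul, h2, h2'], by simp [ab_mul, h3, h3']⟩
      neg_mem' := fun ⟨α, β, h1, h2, h3⟩ =>
        ⟨_, _, h1.inv, by simp [ab_inv, h2], by simp [ab_inv, h3]⟩ }
  have hS : ∀ w, w ∈ S := C_ind fun g j => by
    obtain ⟨f, hf, hf'⟩ := hE.fill h g j
    exact ⟨_, _, hf', by rw [← h.ctx.PhiH_cl, ← abm_ab, hA g j f hf]; rfl, (hχ' g j).symm⟩
  obtain ⟨c', hc, hc'⟩ := h.step_end hk hE hχ hχ' d hA (mfp_ker_of_range hZ d hd) p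
    (fun w => hp2 _ (hdZ w)) fun g i => by
      obtain ⟨w, hw⟩ : e g i - p (e g i) ∈ LinearMap.range d := hd ▸ hp1 _
      obtain ⟨α, β, h1, h2, h3⟩ := hS w
      rw [hw, map_sub, hL2, sub_zero, hL] at h2
      exact ⟨w, β, hw, ab_inj (pi_comm hU hb) h2 ▸ h1, h3⟩
  exact ⟨D', c', hc, hE.agr, hc'⟩

end Crest.Agent.R185.T1
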