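import Crest.Agent.R185.Dom
import Crest.Agent.R185.Grp
import Crest.Agent.R185.Kill_B

/-!
# Row 185: the abstract mapping torus lemma; modules of chains
-/

set_option autoImplicit false

namespace Crest.Agent.R185

open Finsupp

theorem mfp_of_torus {R : Type} [Ring R] (k : ℕ) {M : Type} [AddCommGroup M] [Module R M]
    (F : ℕ → Type) [∀ n, AddCommGroup (F n)] [∀ n, Module R (F n)]
    [∀ n, Module.Projective R (F n)] (h0 : ∀ x : F 0, x = 0)
    (d : ∀ n, F (n + 1) →ₗ[R] F n) (τ : ∀ n, F n →ₗ[R] F n) (ε : F 1 →ₗ[R] M)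
    (hdd : ∀ n x, d n (d (n + 1) x) = 0) (hτ : ∀ n x, τ n (d n x) = d n (τ (n + 1) x))
    (hex : ∀ n x, d (n + 1) x = 0 → ∃ y, d (n + 2) y = x)
    (hinj : ∀ a b, d 1 a + (b - τ 1 b) = 0 → ∃ y, d 1 y = b)
    (hε : Function.Surjective ε) (hεd : ∀ x, ε (d 1 x) = 0) (hετ : ∀ x, ε (τ 1 x) = ε x)
    (hker : ∀ a, ε a = 0 → ∃ a' b', d 1 a' + (b' - τ 1 b') = a)
    (σ : ∀ n, F n →ₗ[R] F n) (κ : ∀ n, F n →ₗ[R] F (n + 1))
    (hσ : ∀ n ≤ k, ∀ x, d n (σ (n + 1) x) = σ n (d n x))
    (hκ : ∀ n < k, ∀ x, d (n + 1) (κ (n + 1) x) + κ n (d n x) =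
      τ (n + 1) (σ (n + 1) x) - σ (n + 1) (τ (n + 1) x))
    (hεσ : ∀ x, ε (σ 1 x) = ε x)
    (hfg : ∀ n ≤ k + 1, ∃ N : Submodule R (F n), N.FG ∧ ∀ x, σ n x ∈ N) : MFP R k M := by
  let D : ∀ n, F (n + 2) × F (n + 1) →ₗ[R] F (n + 1) × F n := fun n =>
    (d (n + 1) ∘ₗ LinearMap.fst R _ _ + (LinearMap.id - τ (n + 1)) ∘ₗ LinearMap.snd R _ _).prod
      (-(d n ∘ₗ LinearMap.snd R _ _))
  have hD : ∀ n a b, D n (a, b) = (d (n + 1) a + (b - τ (n + 1) b), -d n b) := fun _ _ _ => rfl
  let G : ∀ n, F (n + 1) × F n →ₗ[R] F (n + 1) × F n := fun n =>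
    (σ (n + 1) ∘ₗ LinearMap.fst R _ _ + κ n ∘ₗ LinearMap.snd R _ _).prod
      (σ n ∘ₗ LinearMap.snd R _ _)
  have hG : ∀ n a b, G n (a, b) = (σ (n + 1) a + κ n b, σ n b) := fun _ _ _ => rfl
  have hGD : ∀ n < k, ∀ x, D n (G (n + 1) x) = G n (D n x) := by
    rintro n hn ⟨a, b⟩
    rw [hG, hD, hD, hG]
    refine Prod.ext ?_ ?_
    · have := hκ n hn b
      simp only [map_add, map_sub, map_neg, hσ (n + 1) hn]
      rw [eq_sub_of_add_eq this]; abel
    · simp only [map_neg, hσ n hn.le]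
  have hG0 : ∀ x, (ε ∘ₗ LinearMap.fst R _ _) (G 0 x) = (ε ∘ₗ LinearMap.fst R _ (F 0)) x := by
    rintro ⟨a, b⟩
    simp [hG, h0 b, hεσ]
  refine mfp_of_dom k (fun n => F (n + 1) × F n) (ε ∘ₗ LinearMap.fst R _ _) D
    (hε.comp Prod.fst_surjective) ?_ (fun n => ?_) (fun n => G n ∘ₗ G n)
    (fun x => (hG0 _).trans (hG0 x)) (fun n hn x => ?_) fun n hn => ?_
  · rintro ⟨a, b⟩
    constructor
    · intro h
      obtain ⟨a', b', e⟩ := hker a h
      exact ⟨(a', b'), by rw [hD, e, h0 b, h0 (-_)]⟩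
    · rintro ⟨⟨a', b'⟩, e⟩
      rw [← e, hD]; simp [hεd, hετ]
  · rintro ⟨a, b⟩
    constructor
    · intro h
      rw [hD, Prod.ext_iff] at h
      obtain ⟨h1, h2⟩ := h
      obtain ⟨b', hb'⟩ : ∃ y, d (n + 1) y = b := by
        rcases n with _ | n
        · exact hinj a b h1
        · exact hex n b (neg_eq_zero.1 h2)
      obtain ⟨a', ha'⟩ := hex n (a + (b' - τ (n + 2) b')) (by
        rw [map_add, map_sub, ← hτ, hb']; exact h1)
      refine ⟨(a', -b'), ?_⟩
      rw [hD, ha', map_neg, map_neg, hb', neg_neg]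
      congr 1; abel
    · rintro ⟨⟨a', b'⟩, e⟩
      rw [← e, hD, hD]
      refine Prod.ext ?_ ?_
      · simp [hdd, hτ]
      · simp [hdd]
  · simp only [LinearMap.comp_apply, hGD n hn]
  · obtain ⟨N, hN, h⟩ := hfg n (by omega)
    obtain ⟨N', hN', h'⟩ := hfg (n + 1) (by omega)
    refine ⟨(N' ⊔ N.map (κ n)).prod N, (hN'.sup (hN.map _)).prod hN, ?_⟩
    rintro _ ⟨⟨a, b⟩, rfl⟩
    exact ⟨Submodule.add_mem_sup (h' _) ⟨_, h b, rfl⟩, h _⟩

theorem mem_of_supp' {V M S : Type} [AddCommGroup M] [SetLike S M] [AddSubgroupClass S M]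
    {L : Ch V →+ M} {N : S} {x : Ch V} (h : ∀ l ∈ x.support, L (single l 1) ∈ N) : L x ∈ N := by
  rw [← Finsupp.sum_single x, Finsupp.sum, map_sum]
  refine sum_mem fun l hl => ?_
  rw [← Finsupp.smul_single_one, map_zsmul]
  exact zsmul_mem (h l hl) _

section chains

variable {Γ : Type} [Group Γ]

/-- invariant sets of nonempty lists -/
structure Inv (S : Set (List Γ)) : Prop where
  ne : ∀ l ∈ S, l ≠ []
  map : ∀ g : Γ, ∀ l ∈ S, l.map (g * ·) ∈ S

/-- the representation on chains supported on an invariant set -/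
noncomputable def Inv.rep {S : Set (List Γ)} (h : Inv S) : Representation ℤ Γ (Sp S) where
  toFun g := (push (g * ·)).restrict fun _ hx => Sp.push hx _ (h.map g)
  map_one' := by
    ext x : 2
    change push _ x.1 = x.1
    simp [push, show (fun x : Γ => x) = id from rfl]
  map_mul' g g' := by
    ext x : 2
    change push _ x.1 = push _ (push _ x.1)
    rw [push_push]; congr 2; funext x; simp [mul_assoc]

/-- the module of chains supported on an invariant set -/
abbrev Inv.Mod {S : Set (List Γ)} (h : Inv S) : Type := h.rep.asModule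

namespace Inv

variable {S S' : Set (List Γ)} {h : Inv S} {h' : Inv S'}

/-- underlying chain -/
noncomputable def val : h.Mod →+ Ch Γ where
  toFun x := (h.rep.asModuleEquiv x).1
  map_zero' := rfl
  map_add' _ _ := rfl

/-- constructor -/
noncomputable def mk' (h : Inv S) (x : Ch Γ) (hx : x ∈ Sp S) : h.Mod :=
  h.rep.asModuleEquiv.symm ⟨x, hx⟩

@[simp] theorem val_mk' (x : Ch Γ) (hx : x ∈ Sp S) : val (h.mk' x hx) = x := rfl

theorem val_mem (x : h.Mod) : val x ∈ Sp S := (h.rep.asModuleEquiv x).2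

theorem val_inj {x y : h.Mod} (e : val x = val y) : x = y :=
  h.rep.asModuleEquiv.injective (Subtype.ext e)

theorem val_smul (g : Γ) (x : h.Mod) :
    val ((MonoidAlgebra.single g 1 : ZG Γ) • x) = push (g * ·) (val x) :=
  congrArg Subtype.val (asModule_single_smul h.rep g x)

/-- restriction of an equivariant map -/
noncomputable def res (h : Inv S) (h' : Inv S') (f : Ch Γ →ₗ[ℤ] Ch Γ)
    (he : ∀ g x, f (push (g * ·) x) = push (g * ·) (f x)) (hm : ∀ l ∈ S, f (single l 1) ∈ Sp S') :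
    h.Mod →ₗ[ZG Γ] h'.Mod :=
  ZG.mkLin
    { toFun := fun x => h'.mk' (f (val x)) (mem_of_supp fun l hl => hm l (val_mem x hl))
      map_zero' := val_inj (by simp)
      map_add' := fun x y => val_inj (by simp) } fun g x => val_inj (by
        rw [val_smul]
        change f (val _) = push _ (f (val _))
        rw [val_smul, he])

@[simp] theorem val_res (f : Ch Γ →ₗ[ℤ] Ch Γ) (he) (hm) (x : h.Mod) :
    val (h.res h' f he hm x) = f (val x) := rfl

open Classical in
/-- a retraction of all chains to the module -/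
noncomputable def retr (h : Inv S) : Ch Γ →+ h.Mod :=
  Finsupp.liftAddHom fun l => zmultiplesHom _
    (if hl : l ∈ S then h.mk' (single l 1) (single_mem_Sp hl 1) else 0)

theorem retr_single {l : List Γ} (hl : l ∈ S) :
    h.retr (single l 1) = h.mk' (single l 1) (single_mem_Sp hl 1) := by
  simp [retr, hl]

theorem retr_val (x : h.Mod) : h.retr (val x) = x := by
  refine val_inj ?_
  have := mem_of_supp' (L := val.comp h.retr - AddMonoidHom.id _) (N := (⊥ : AddSubgroup (Ch Γ)))
    (x := val x) fun l hl => by simp [retr_single (val_mem x hl)]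
  simpa [sub_eq_zero] using this

theorem mem_of_single {N : Submodule (ZG Γ) h.Mod} {x : h.Mod}
    (hx : ∀ l (hl : l ∈ (val x).support), h.mk' (single l 1) (single_mem_Sp (val_mem x hl) 1) ∈ N) :
    x ∈ N := by
  rw [← retr_val x]
  exact mem_of_supp' fun l hl => by rw [retr_single (val_mem x hl)]; exact hx l hl

theorem eq_map_head (a : Γ) (l : List Γ) : (l.map (a⁻¹ * ·)).map (a * ·) = l := by
  rw [List.map_map]; simp [Function.comp_def]

instance (h : Inv S) : Module.Projective (ZG Γ) h.Mod := by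
  let I₀ : List Γ → (List Γ →₀ ZG Γ) := fun l => match l with
    | [] => 0
    | a :: l => single ((a :: l).map (a⁻¹ * ·)) (MonoidAlgebra.single a 1)
  let I₁ : Ch Γ →+ (List Γ →₀ ZG Γ) := Finsupp.liftAddHom fun l => zmultiplesHom _ (I₀ l)
  have hI₁ : ∀ l, I₁ (single l 1) = I₀ l := fun l => by simp [I₁]
  have hI : ∀ (g : Γ) (x : Ch Γ),
      I₁ (push (g * ·) x) = (MonoidAlgebra.single g 1 : ZG Γ) • I₁ x := fun g x => by
    have := mem_of_supp' (L := I₁.comp (push (g * ·)).toAddMonoidHom -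
      (DistribSMul.toAddMonoidHom _ (MonoidAlgebra.single g 1 : ZG Γ)).comp I₁)
      (N := (⊥ : AddSubgroup (List Γ →₀ ZG Γ))) (x := x) fun l _ => by
        rcases l with _ | ⟨a, l⟩
        · simp [hI₁, I₀]
        · simp [hI₁, I₀, MonoidAlgebra.single_mul_single, Function.comp_def, mul_assoc]
    simpa [sub_eq_zero] using this
  let I : h.Mod →ₗ[ZG Γ] (List Γ →₀ ZG Γ) := ZG.mkLin (I₁.comp val) fun g x => by
    simp only [AddMonoidHom.comp_apply, val_smul, hI]
  refine Module.Projective.of_split I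
    (Finsupp.linearCombination _ fun l => h.retr (single l 1)) ?_
  ext x : 1
  have := mem_of_single (x := x) (N := LinearMap.ker ((Finsupp.linearCombination (ZG Γ)
    fun l => h.retr (single l 1)) ∘ₗ I - LinearMap.id)) fun l hl => by
      have hl' := val_mem x hl
      rcases l with _ | ⟨a, l⟩
      · exact absurd rfl (h.ne _ hl')
      · rw [LinearMap.mem_ker, LinearMap.sub_apply, sub_eq_zero]
        change Finsupp.linearCombination _ _ (I₁ (single _ 1)) = _
        rw [hI₁, Finsupp.linearCombination_single, retr_single (h.map a⁻¹ _ hl')]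
        refine val_inj ?_
        rw [val_smul, val_mk', push_single, eq_map_head]; rfl
  simpa [sub_eq_zero] using this

theorem exists_fg (h : Inv S) {D : Set Γ} (hD : D.Finite) (n : ℕ) :
    ∃ N : Submodule (ZG Γ) h.Mod, N.FG ∧ ∀ x : h.Mod, val x ∈ Sp (CL D n) → x ∈ N := by
  refine ⟨Submodule.span _ ((fun l => h.retr (single l 1)) ''
    {l : List Γ | l.length ≤ n ∧ ∀ b ∈ l, b ∈ D}), Submodule.fg_span ((finite_lists hD n).image _),
    fun x hx => mem_of_single fun l hl => ?_⟩
  have hl' := val_mem x hl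
  rcases l with _ | ⟨a, l⟩
  · exact absurd rfl (h.ne _ hl')
  have : h.mk' (single (a :: l) 1) (single_mem_Sp hl' 1) =
      (MonoidAlgebra.single a 1 : ZG Γ) • h.retr (single ((a :: l).map (a⁻¹ * ·)) 1) := by
    rw [retr_single (h.map a⁻¹ _ hl')]
    refine val_inj ?_
    rw [val_smul, val_mk', val_mk', push_single, eq_map_head]
  rw [this]
  refine Submodule.smul_mem _ _ (Submodule.subset_span ⟨_, ⟨?_, fun b hb => ?_⟩, rfl⟩)
  · simpa using (hx hl).1.le
  · obtain ⟨b', hb', rfl⟩ := List.mem_map.1 hb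
    exact (hx hl).2 a (by simp) b' hb'

end Inv

end chains

theorem carried_eqv {V W G : Type} (K : Set (List V))
    (hK : ∀ l ∈ K, ∀ l' : List V, l'.Sublist l → l' ∈ K)
    (Car : List V → Set W) (hC : ∀ l l' : List V, l'.Sublist l → Car l' ⊆ Car l)
    (b : V → W) (hb : ∀ a l, b a ∈ Car (a :: l)) (F : Ch V →ₗ[ℤ] Ch W)
    (hF0 : F (single [] 1) = 0) (hF : ∀ l ∈ K, bd (F (single l 1)) = F (bdL l))
    (hFC : ∀ l ∈ K, F (single l 1) ∈ Sp {m | m.length = l.length ∧ ∀ w ∈ m, w ∈ Car l})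
    (act : G → V → V) (act' : G → W → W) (hba : ∀ g a, b (act g a) = act' g (b a))
    (hFa : ∀ g x, F (push (act g) x) = push (act' g) (F x)) (n : ℕ) :
    ∃ h : List V → Ch W, (∀ g l, h (l.map (act g)) = push (act' g) (h l)) ∧
      (∀ l, n < l.length → h l = 0) ∧ h [] = 0 ∧ ∀ l ∈ K, l.length ≤ n →
      bd (h l) = F (single l 1) - ext h (bdL l) ∧
      h l ∈ Sp {m | m.length = l.length + 1 ∧ ∀ w ∈ m, w ∈ Car l} := by
  induction n with
  | zero =>
    refine ⟨fun _ => 0, by simp, by simp, rfl, fun l _ hl => ?_⟩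
    obtain rfl := List.length_eq_zero_iff.1 (Nat.le_zero.1 hl)
    simp [hF0]
  | succ n ih =>
    obtain ⟨h, hq, hz, h0, hh⟩ := ih
    let h' : List V → Ch W := fun l => if l.length = n + 1 then
      match l with
      | [] => 0
      | a :: l₀ => cone (b a) (F (single (a :: l₀) 1) - ext h (bdL (a :: l₀))) else h l
    have e1 : ∀ l : List V, l.length ≤ n + 1 → ext h' (bdL l) = ext h (bdL l) := fun l hl =>
      eq_of_supp fun m hm => by
        have := (mem_support_bdL hm).2
        simp only [ext_single, h', if_neg (show m.length ≠ n + 1 by omega)]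
    have hq' : ∀ g x, ext h (push (act g) x) = push (act' g) (ext h x) := fun g x =>
      eq_of_supp (L := ext h ∘ₗ push (act g)) (L' := push (act' g) ∘ₗ ext h) fun l _ => by
        simp [hq]
    refine ⟨h', fun g l => ?_, fun l hl => ?_, by simp [h', h0], fun l hlK hl => ?_⟩
    · simp only [h', List.length_map]
      split_ifs with hn
      · rcases l with _ | ⟨a, l₀⟩
        · simp
        · simp only [List.map_cons]
          rw [push_cone, map_sub (push _), ← hq', ← hFa, push_bdL, push_single, hba]; rfl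
      · exact hq g l
    · simp only [h', if_neg hl.ne']
      exact hz l (by omega)
    rw [e1 l hl]
    by_cases hn : l.length ≠ n + 1
    · simp only [h', if_neg hn]; exact hh l hlK (by omega)
    rw [not_not] at hn
    rcases l with _ | ⟨a, l₀⟩
    · simp at hn
    simp only [h', if_pos hn]
    have e2 : bd (ext h (bdL (a :: l₀))) =
        F (bdL (a :: l₀)) - ext h (bd (bdL (a :: l₀))) :=
      eq_of_supp (L := bd ∘ₗ ext h) (L' := F - ext h ∘ₗ bd) fun m hm => by
        have := mem_support_bdL hm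
        simpa using (hh m (hK _ hlK _ this.1) (by have := this.2; omega)).1
    constructor
    · rw [bd_cone, map_sub, hF _ hlK, e2, bd_bdL]; simp
    · refine Sp.cone (S := {m | m.length = (a :: l₀).length ∧ ∀ w ∈ m, w ∈ Car (a :: l₀)})
        (sub_mem (hFC _ hlK) (Sp.ext (bdL_mem _) fun m hm => ?_)) _ fun m hm => ⟨?_, ?_⟩
      · refine Sp.mono (hh m (hK _ hlK _ hm.1) (by have := hm.2; omega)).2 fun m' hm' =>
          ⟨hm'.1.trans hm.2, fun w hw => hC _ _ hm.1 (hm'.2 w hw)⟩
      · simpa using hm.1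
      · intro w hw
        rcases List.mem_cons.1 hw with rfl | hw
        · exact hb a l₀
        · exact hm.2 w hw

end Crest.Agent.R185
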