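import Crest.Agent.R185.Dom
import Crest.Agent.R185.ListCx
import Crest.Agent.R185.Torus_A

/-!
# Row 185: ascending HNN extensions along `k`-finite maps are `FP k` (task R185-Torus)

PLAN.
* DOMINATION (`mfp_of_dom`).  Define `FinMap k (f : M →ₗ N)` by recursion on `k`: `0`: `range f ≤` a f.g. submodule;
  `k+1`: there are projective `F, F'`, surjections `p : F ↠ M`, `q : F' ↠ N`, `f̃ : F → F'` with `q f̃ = f p`,
  `range f̃ ≤` f.g., and `FinMap k (f̃ restricted : ker p → ker q)`.  Lemmas by induction on `k`: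
  closed under pre/post composition with arbitrary maps (cover the new module by a free module and lift);
  closed under adding a map factoring through a f.g. projective `L` (the lift `F → M → L → F'` kills `ker p`);
  `FinMap k id → MFP k M` (take a f.g. free cover `π : L ↠ M`, lifts `β : L → F`, `α' : F' → L`; `h = α' f̃ β - id : L → ker π`;
  on `ker π`, `id = α' f̃ β - h`).  A chain endomorphism of a projective resolution lifting `id` with f.g. images in
  degrees `≤ k` gives `FinMap k id` (induct, shifting the resolution to the kernel).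
* TORUS.  `F_n` = chains on lists of length `n+1` in `Γ` lying in one left coset of `A` (free `ℤΓ`-modules: the action on such
  nonempty lists is free; projective).  `τ = push (· * t⁻¹)` is a `Γ`-equivariant chain map.  `F` is exact in positive degrees (cone at
  any vertex of the coset, coset by coset), `H_0 = ℤ[Γ/A]`, `1 - τ` is injective on `ℤ[Γ/A]` (look at the `χ`-extremal
  coset in a support) with cokernel `ℤ` (any two cosets become equal after applying `τ` often enough, by `AscHNN.ker`).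
  So `T_n = F_n × F_{n-1}`, `d (a,b) = (∂ a + (1-τ) b, -∂ b)` is a free resolution of `ℤ`.
  From `KFin k (φ^r)` get `σ : F → F` in degrees `≤ k`: on `g • l` (`l` a list in `A`) `σ = g t^(-r) • α l` (well defined by
  equivariance; `t^r a t^(-r) = φ^r a`); image inside a f.g. submodule (finitely many orbits of `D`-controlled lists);
  `σ = τ^r` in degree `0`.  Equivariant homotopy `σ - τ^r = ∂ h + h ∂` (degrees `≤ k-1`; cone at the first vertex of
  `τ^r l`, all inside one coset).  `κ = τ h - h τ`, `G (a,b) = (σ a + κ b, σ b)` is a chain map lifting `id_ℤ`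
  and `G²` has f.g. image.  (To avoid index gymnastics one can take all modules to be submodules of
  `List Γ →₀ ℤ` cut out by support conditions, with one global `∂, τ, σ, h`.)
-/

set_option autoImplicit false

namespace Crest.Agent.R185

open Finsupp

namespace Tor

theorem push_apply_nil {V W : Type} (f : V → W) (x : Ch V) : push f x [] = x [] :=
  eq_of_supp (L := lapply [] ∘ₗ push f) (L' := lapply []) fun l _ => by
    rcases l with _ | ⟨a, l⟩ <;> simp

/-- the boundary without augmentation -/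
noncomputable def bd' {V : Type} : Ch V →ₗ[ℤ] Ch V :=
  ext fun l => if l.length ≤ 1 then 0 else bdL l

theorem push_bd' {V W : Type} (f : V → W) (x : Ch V) : bd' (push f x) = push f (bd' x) :=
  eq_of_supp (L := bd' ∘ₗ push f) (L' := push f ∘ₗ bd') fun l _ => by
    simp only [bd', LinearMap.comp_apply, push_single, ext_single, one_smul, List.length_map]
    split_ifs
    · simp
    · rw [push_bdL]

theorem bd'_eq {V W : Type} (f : Ch V →ₗ[ℤ] Ch W) (hf : f (single [] 1) = 0) (x : Ch V) :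
    f (bd' x) = f (bd x) :=
  eq_of_supp (L := f ∘ₗ bd') (L' := f ∘ₗ bd) fun l _ => by
    simp only [bd', LinearMap.comp_apply, ext_single, one_smul, bd_single]
    rcases l with _ | ⟨a, _ | ⟨b, l⟩⟩
    · simp
    · simp [bdL_one, hf]
    · simp

variable {Γ : Type} [Group Γ] (A : Subgroup Γ)

/-- lists in one coset -/
def Cos : Set (List Γ) := {l | ∀ a ∈ l, ∀ b ∈ l, (a : Γ ⧸ A) = b}

/-- nonempty lists of given length in one coset -/
def LS (n : ℕ) : Set (List Γ) := {l | l ≠ [] ∧ l.length = n ∧ l ∈ Cos A}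

variable {A}

theorem Cos.sub {l l' : List Γ} (h : l ∈ Cos A) (h' : l'.Sublist l) : l' ∈ Cos A :=
  fun a ha b hb => h a (h'.subset ha) b (h'.subset hb)

theorem Cos.map {l : List Γ} (h : l ∈ Cos A) {f : Γ → Γ}
    (hf : ∀ a b : Γ, (a : Γ ⧸ A) = b → (f a : Γ ⧸ A) = f b) : l.map f ∈ Cos A := by
  intro a ha b hb
  obtain ⟨a, ha', rfl⟩ := List.mem_map.1 ha
  obtain ⟨b, hb', rfl⟩ := List.mem_map.1 hb
  exact hf _ _ (h a ha' b hb')

theorem LS.map {n : ℕ} {l : List Γ} (h : l ∈ LS A n) {f : Γ → Γ}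
    (hf : ∀ a b : Γ, (a : Γ ⧸ A) = b → (f a : Γ ⧸ A) = f b) : l.map f ∈ LS A n :=
  ⟨by simpa using h.1, by simpa using h.2.1, Cos.map h.2.2 hf⟩

variable (A) in
theorem inv (n : ℕ) : Inv (LS A n) where
  ne _ h := h.1
  map g _ h := LS.map h fun a b e => by
    rw [QuotientGroup.eq] at e ⊢; simpa [mul_assoc] using e

theorem zero_eq (x : (inv A 0).Mod) : x = 0 := by
  refine Inv.val_inj ?_
  rw [map_zero, ← Finsupp.support_eq_empty, Finset.eq_empty_iff_forall_notMem]
  intro l hl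
  have := Inv.val_mem x hl
  exact this.1 (List.length_eq_zero_iff.1 this.2.1)

variable (A) in
/-- the differential -/
noncomputable def dd (n : ℕ) : (inv A (n + 1)).Mod →ₗ[ZG Γ] (inv A n).Mod :=
  Inv.res _ _ bd' (fun g x => push_bd' _ x) fun l hl => by
    simp only [bd', ext_single, one_smul]
    split_ifs with h
    · exact zero_mem _
    · refine Sp.mono (bdL_mem l) fun m hm => ⟨?_, ?_, Cos.sub hl.2.2 hm.1⟩
      · rintro rfl
        have := hm.2; simp at this; omega
      · have := hm.2; have := hl.2.1; omega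

theorem val_dd (n : ℕ) (x : (inv A (n + 2)).Mod) : Inv.val (dd A (n + 1) x) = bd (Inv.val x) :=
  eq_of_supp (L := bd') fun l hl => by
    have := (Inv.val_mem x hl).2.1
    simp [bd', this]

variable (A) in
/-- coset representatives -/
noncomputable def rep (u : Γ) : Γ := (u : Γ ⧸ A).out

@[simp] theorem mk_rep (u : Γ) : ((rep A u : Γ) : Γ ⧸ A) = u := QuotientGroup.out_eq' _

theorem rep_eq {u v : Γ} (h : (u : Γ ⧸ A) = v) : rep A u = rep A v := congrArg Quotient.out h

variable (A) in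
/-- the contraction -/
noncomputable def con : Ch Γ →ₗ[ℤ] Ch Γ := ext fun l => single (rep A (l.headD 1) :: l) 1

theorem con_mem {n : ℕ} {x : Ch Γ} (hx : x ∈ Sp (LS A n)) : con A x ∈ Sp (LS A (n + 1)) := by
  refine Sp.ext hx fun l hl => single_mem_Sp (S := LS A (n + 1)) ⟨by simp, by simp [hl.2.1], ?_⟩ 1
  rcases l with _ | ⟨c, l⟩
  · exact absurd rfl hl.1
  have : ∀ a ∈ rep A c :: c :: l, (a : Γ ⧸ A) = c := fun a ha => by
    rcases List.mem_cons.1 ha with rfl | ha
    · simp
    · exact hl.2.2 a ha c (by simp)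
  exact fun a ha b hb => (this a ha).trans (this b hb).symm

theorem bd_con {n : ℕ} {x : Ch Γ} (hx : x ∈ Sp (LS A (n + 2))) :
    bd (con A x) = x - con A (bd x) :=
  eq_of_supp (L := bd ∘ₗ con A) (L' := LinearMap.id - con A ∘ₗ bd) fun l hl => by
    have hl' := hx hl
    have : cone (rep A (l.headD 1)) (bdL l) = con A (bdL l) := eq_of_supp fun m hm => by
      have hm' := mem_support_bdL hm
      rcases l with _ | ⟨c, l⟩
      · exact absurd rfl hl'.1
      rcases m with _ | ⟨c', m⟩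
      · have := hm'.2.trans hl'.2.1; simp at this
      simp [con, rep_eq (hl'.2.2 c (by simp) c' (hm'.1.subset (by simp)))]
    simp only [LinearMap.comp_apply, LinearMap.sub_apply, LinearMap.id_apply, bd_single, one_smul,
      ← this]
    simp [con, bdL_cons]

theorem bd_con_one {x : Ch Γ} (hx : x ∈ Sp (LS A 1)) : bd (con A x) = x - push (rep A) x :=
  eq_of_supp (L := bd ∘ₗ con A) (L' := LinearMap.id - push (rep A)) fun l hl => by
    obtain ⟨a, rfl⟩ := List.length_eq_one_iff.1 (hx hl).2.1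
    simp [con, bdL_cons]

theorem push_rep_bd {x : Ch Γ} (hx : x ∈ Sp (LS A 2)) : push (rep A) (bd x) = 0 :=
  eq_of_supp (L := push (rep A) ∘ₗ bd) (L' := 0) fun l hl => by
    obtain ⟨a, b, rfl⟩ := List.length_eq_two.1 (hx hl).2.1
    simp [bdL_cons, rep_eq ((hx hl).2.2 a (by simp) b (by simp))]

theorem eq_zero_of_push {θ : Γ → Γ} (f : Γ → ℤ) (hf : ∀ u, f (θ u) < f u) {c : Ch Γ}
    (hc : c ∈ Sp {l | l ≠ []}) (h : c = push θ c) : c = 0 := by
  by_contra h0
  obtain ⟨l, hl, hm⟩ := Finset.exists_max_image c.support (fun l => f (l.headD 1))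
    (Finsupp.support_nonempty_iff.2 h0)
  rw [h] at hl
  obtain ⟨l', hl', rfl⟩ := mem_support_push hl
  have := hm l' hl'
  rcases l' with _ | ⟨a, l'⟩
  · exact hc hl' rfl
  · exact (hf a).not_ge this

variable {t : Γ} {χ : Γ →* Multiplicative ℤ} {φ : Monoid.End A}
  (h : AscHNN A t χ (φ : A →* A))
include h

theorem conj_pow (n : ℕ) (a : A) : t ^ n * a * (t ^ n)⁻¹ = (φ ^ n) a := by
  induction n with
  | zero => simp
  | succ n ih =>
    rw [pow_succ' φ, Monoid.End.coe_mul, Function.comp_apply]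
    refine Eq.trans ?_ (h.conj _)
    rw [← ih, pow_succ']; group

theorem mk_mul_pow (n : ℕ) (a b : Γ) (e : (a : Γ ⧸ A) = b) :
    ((a * (t ^ n)⁻¹ : Γ) : Γ ⧸ A) = (b * (t ^ n)⁻¹ : Γ) := by
  rw [QuotientGroup.eq] at e ⊢
  have := ((φ ^ n) ⟨_, e⟩).2
  rw [← conj_pow h] at this
  convert this using 1; simp [mul_assoc]

theorem mk_mul (a b : Γ) (e : (a : Γ ⧸ A) = b) : ((a * t⁻¹ : Γ) : Γ ⧸ A) = (b * t⁻¹ : Γ) := by
  simpa using mk_mul_pow h 1 a b e

/-- the shift -/
noncomputable def tau (n : ℕ) : (inv A n).Mod →ₗ[ZG Γ] (inv A n).Mod :=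
  Inv.res _ _ (push (· * t⁻¹)) (fun g x => by
    rw [push_push, push_push]; congr 2; funext x; simp [mul_assoc]) fun l hl => by
    rw [push_single]; exact single_mem_Sp (LS.map hl (mk_mul h)) 1

theorem val_tau (n : ℕ) (x : (inv A n).Mod) :
    Inv.val (tau h n x) = push (· * t⁻¹) (Inv.val x) := rfl

theorem inj (a : (inv A 2).Mod) (b : (inv A 1).Mod) (e : dd A 1 a + (b - tau h 1 b) = 0) :
    ∃ y, dd A 1 y = b := by
  have e1 := congrArg (fun x => push (rep A) (Inv.val x)) e
  simp only [map_add, map_sub, val_dd, val_tau, push_rep_bd (Inv.val_mem a), zero_add, map_zero,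
    sub_eq_zero] at e1
  have e2 : push (rep A) (Inv.val b) = 0 := by
    refine eq_zero_of_push (θ := fun u => rep A (u * t⁻¹)) (fun u => (χ u).toAdd) (fun u => ?_)
      (Sp.push (Inv.val_mem b) _ fun l hl => by simpa using hl.1) (e1.trans ?_)
    · have := h.chi_A _ (QuotientGroup.eq.1 (mk_rep (A := A) (u * t⁻¹)))
      rw [map_mul, map_inv, inv_mul_eq_one] at this
      simp [this, h.chi_t]
    · rw [push_push, push_push]
      congr 2; funext u
      exact rep_eq (mk_mul h _ _ (by simp))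
  refine ⟨Inv.mk' _ _ (con_mem (Inv.val_mem b)), Inv.val_inj ?_⟩
  rw [val_dd, Inv.val_mk', bd_con_one (Inv.val_mem b), e2, sub_zero]

theorem ker (a : (inv A 1).Mod) (e : bd (Inv.val a) [] = 0) :
    ∃ a' b', dd A 1 a' + (b' - tau h 1 b') = a := by
  let N : AddSubgroup (Ch Γ) := (LinearMap.range ((dd A 1).coprod
    (LinearMap.id - tau h 1))).toAddSubgroup.map Inv.val
  have h1 : ∀ u : Γ, [u] ∈ LS A 1 := fun u => ⟨by simp, rfl, by simp [Cos]⟩
  let H : Subgroup Γ :=
    { carrier := {g | ∀ u, single [u * g] 1 - single [u] 1 ∈ N}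
      one_mem' := fun u => by simp
      mul_mem' := fun {g g'} hg hg' u => by
        have := add_mem (hg' (u * g)) (hg u)
        rwa [sub_add_sub_cancel, mul_assoc] at this
      inv_mem' := fun {g} hg u => by
        have := neg_mem (hg (u * g⁻¹))
        rwa [neg_sub, inv_mul_cancel_right] at this }
  have hA : ∀ a ∈ A, a ∈ H := fun a ha u => by
    have : [u, u * a] ∈ LS A 2 := ⟨by simp, rfl, by simp [Cos, QuotientGroup.eq, ha]⟩
    refine ⟨_, ⟨(Inv.mk' _ _ (single_mem_Sp this 1), 0), rfl⟩, ?_⟩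
    simp [val_dd, bdL_cons]
  have ht : t ∈ H := fun u => by
    refine ⟨_, ⟨(0, Inv.mk' _ _ (single_mem_Sp (h1 (u * t)) 1)), rfl⟩, ?_⟩
    simp [val_tau]
  have hall : ∀ g, g ∈ H := fun g => by
    obtain ⟨n, hn⟩ := h.ker (g * t ^ (-(χ g).toAdd)) (by
      rw [map_mul, map_zpow, h.chi_t, ← ofAdd_zsmul]; simp)
    have := mul_mem (mul_mem (mul_mem (inv_mem (pow_mem ht n)) (hA _ hn)) (pow_mem ht n))
      (zpow_mem ht (χ g).toAdd)
    convert this using 1; group
  have h2 := mem_of_supp' (N := N) (x := Inv.val a) (L := (LinearMap.id -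
    (lapply [] ∘ₗ bd).smulRight (single [(1 : Γ)] (1 : ℤ))).toAddMonoidHom) fun l hl => by
      obtain ⟨u, rfl⟩ := List.length_eq_one_iff.1 (Inv.val_mem a hl).2.1
      simpa [bdL_one] using hall u 1
  obtain ⟨_, ⟨⟨a', b'⟩, rfl⟩, h3⟩ := h2
  exact ⟨a', b', Inv.val_inj (by simpa [e] using h3)⟩

theorem exists_sigma {k r : ℕ} (hk : KFin k ((φ ^ r : Monoid.End A) : A →* A)) :
    ∃ (σ : Ch Γ →ₗ[ℤ] Ch Γ) (D : Set Γ), D.Finite ∧
      (∀ g x, σ (push (g * ·) x) = push (g * ·) (σ x)) ∧ σ (single [] 1) = single [] 1 ∧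
      (∀ a, σ (single [a] 1) = single [a * (t ^ r)⁻¹] 1) ∧
      (∀ l, k + 1 < l.length → σ (single l 1) = 0) ∧ ∀ l ∈ Cos A, l.length ≤ k + 1 →
        bd (σ (single l 1)) = σ (bdL l) ∧ σ (single l 1) ∈ Sp {m | m ∈ CL D l.length ∧
          ∀ w ∈ m, ∃ a ∈ l, (w : Γ ⧸ A) = (a * (t ^ r)⁻¹ : Γ)} := by
  classical
  obtain ⟨α, D, hD, hw⟩ := kfin_iff.1 hk
  let π : Γ → A := fun x => if hx : x ∈ A then ⟨x, hx⟩ else 1
  let S : Γ → List Γ → Ch Γ := fun a l =>
    push (fun x : A => a * (t ^ r)⁻¹ * x) (α (l.map fun y => π (a⁻¹ * y)))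
  have hS : ∀ (a a' : Γ) (l : List Γ), l.length ≤ k + 1 → (a : Γ ⧸ A) = a' →
      (∀ y ∈ l, (a : Γ ⧸ A) = y) → S a l = S a' l := fun a a' l hl e hy => by
    rw [QuotientGroup.eq] at e
    have : (l.map fun y => π (a⁻¹ * y)) =
        (l.map fun y => π (a'⁻¹ * y)).map ((⟨_, e⟩ : A) * ·) := by
      rw [List.map_map]
      refine List.map_congr_left fun y hy' => Subtype.ext ?_
      have h1 := QuotientGroup.eq.1 (hy y hy')
      have h2 : a'⁻¹ * y ∈ A := by
        convert mul_mem (inv_mem e) h1 using 1; group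
      simp [π, h1, h2, mul_assoc]
    simp only [S]
    rw [this, hw.eqv _ (by simpa using hl), push_push]
    congr 2; funext x
    have := conj_pow h r ⟨_, e⟩
    simp only [Function.comp_apply, Subgroup.coe_mul]
    erw [← this]; group
  let s : List Γ → Ch Γ := fun l => if l.length ≤ k + 1 then S (l.headD 1) l else 0
  refine ⟨ext s, (↑) '' D, hD.image _, fun g x => ?_, by simp [s, S, hw.nil], fun a => ?_,
    fun l hl => by simp [s, hl.not_ge], fun l hl hl' => ⟨?_, ?_⟩⟩
  · refine eq_of_supp (L := ext s ∘ₗ push (g * ·)) (L' := push (g * ·) ∘ₗ ext s) fun l _ => ?_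
    simp only [LinearMap.comp_apply, push_single, ext_single, one_smul, s, List.length_map]
    split_ifs
    · rcases l with _ | ⟨a, l⟩
      · simp [S, hw.nil]
      · simp [S, push_push, Function.comp_def, mul_assoc]
    · simp
  · have : π 1 = 1 := by simp only [π, dif_pos (one_mem A)]; rfl
    have e : α [1] = single [1] 1 :=
      (hw.one 1).trans (congrArg (fun x => single [x] 1) (map_one (φ ^ r)))
    simp [s, S, this, e]
  · simp only [ext_single, one_smul, s, if_pos hl', S]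
    rw [← push_bd, hw.bd _ (by simpa using hl'), ← push_bdL]
    refine eq_of_supp (L := push (fun x : A => l.headD 1 * (t ^ r)⁻¹ * x) ∘ₗ ext α ∘ₗ
      push (fun y => π ((l.headD 1)⁻¹ * y))) (L' := ext s) fun m hm => ?_
    have hm' := mem_support_bdL hm
    have hm2 : m.length ≤ k + 1 := hm'.1.length_le.trans hl'
    simp only [LinearMap.comp_apply, push_single, ext_single, one_smul, s, if_pos hm2]
    rcases m with _ | ⟨c, m⟩
    · simp [hw.nil, S]
    rcases l with _ | ⟨a, l⟩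
    · simp at hm
    exact hS a c _ hm2 (hl a (by simp) c (hm'.1.subset (by simp)))
      fun y hy => hl a (by simp) y (hm'.1.subset hy)
  · simp only [ext_single, one_smul, s, if_pos hl', S]
    refine Sp.push (hw.ctl _ (by simpa using hl')) _ fun m hm =>
      ⟨⟨by simpa using hm.1, fun a ha b hb => ?_⟩, fun w hw => ?_⟩
    · obtain ⟨a, ha', rfl⟩ := List.mem_map.1 ha
      obtain ⟨b, hb', rfl⟩ := List.mem_map.1 hb
      exact ⟨_, hm.2 a ha' b hb', by simp [mul_assoc]⟩
    · obtain ⟨w, hw', rfl⟩ := List.mem_map.1 hw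
      rcases l with _ | ⟨a, l⟩
      · have := List.length_eq_zero_iff.1 hm.1
        simp [this] at hw'
      · exact ⟨a, by simp, by simp⟩

end Tor

open Tor in
theorem AscHNN.fp_of_kfin {Γ : Type} [Group Γ] {A : Subgroup Γ} {t : Γ}
    {χ : Γ →* Multiplicative ℤ} {φ : Monoid.End A} (h : AscHNN A t χ (φ : A →* A)) (k r : ℕ)
    (hk : KFin k ((φ ^ r : Monoid.End A) : A →* A)) : FP Γ k := by
  obtain ⟨σ, D, hD, σeq, σ0, σ1, σz, hσ⟩ := exists_sigma h hk
  have hcar : ∀ l ∈ Cos A, ∀ m : List Γ,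
      (∀ w ∈ m, ∃ a ∈ l, (w : Γ ⧸ A) = (a * (t ^ r)⁻¹ : Γ)) → m ∈ Cos A := by
    intro l hl m hm w hw w' hw'
    obtain ⟨a, ha, e⟩ := hm w hw
    obtain ⟨a', ha', e'⟩ := hm w' hw'
    rw [e, e']; exact mk_mul_pow h r _ _ (hl a ha a' ha')
  have pc : ∀ (g u : Γ) (x : Ch Γ), push (· * u) (push (g * ·) x) = push (g * ·) (push (· * u) x) :=
    fun g u x => by rw [push_push, push_push]; congr 2; funext x; simp [mul_assoc]
  obtain ⟨η, ηeq, ηz, η0, hη⟩ := carried_eqv {l | l.length ≤ k + 1 ∧ l ∈ Cos A}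
    (fun l hl l' e => ⟨e.length_le.trans hl.1, Cos.sub hl.2 e⟩)
    (fun l => {w : Γ | ∃ a ∈ l, (w : Γ ⧸ A) = (a * (t ^ r)⁻¹ : Γ)})
    (fun l l' e w ⟨a, ha, hw⟩ => ⟨a, e.subset ha, hw⟩) (· * (t ^ r)⁻¹)
    (fun a l => ⟨a, by simp, rfl⟩) (σ - push (· * (t ^ r)⁻¹)) (by simp [σ0])
    (fun l hl => by simp [(hσ l hl.2 hl.1).1, push_bdL])
    (fun l hl => sub_mem (Sp.mono (hσ l hl.2 hl.1).2 fun m hm => ⟨hm.1.1, hm.2⟩) (by
      rw [push_single]
      refine single_mem_Sp (Set.mem_ofPred.2 ⟨by simp, fun w hw => ?_⟩) 1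
      obtain ⟨a, ha, rfl⟩ := List.mem_map.1 hw
      exact ⟨a, ha, rfl⟩))
    (fun g : Γ => (g * ·)) (fun g : Γ => (g * ·)) (fun g a => mul_assoc _ _ _)
    (fun g x => by simp [σeq, pc]) (k + 1)
  have ηeq' : ∀ g x, ext η (push (g * ·) x) = push (g * ·) (ext η x) := fun g x =>
    eq_of_supp (L := ext η ∘ₗ push (g * ·)) (L' := push (g * ·) ∘ₗ ext η) fun l _ => by
      simp [ηeq]
  have ηmem : ∀ n, ∀ l ∈ LS A n, η l ∈ Sp (LS A (n + 1)) := fun n l hl => by
    by_cases e : l.length ≤ k + 1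
    · refine Sp.mono (hη l ⟨e, hl.2.2⟩ e).2 fun m hm => ⟨?_, by rw [hm.1, hl.2.1],
        hcar l hl.2.2 m hm.2⟩
      rintro rfl
      simpa using hm.1
    · rw [ηz l (by omega)]; exact zero_mem _
  have ηbd : ∀ n ≤ k + 1, ∀ x ∈ Sp (LS A n),
      bd (ext η x) = σ x - push (· * (t ^ r)⁻¹) x - ext η (bd x) := fun n hn x hx =>
    eq_of_supp (L := bd ∘ₗ ext η) (L' := σ - push (· * (t ^ r)⁻¹) - ext η ∘ₗ bd) fun l hl => by
      have e : l.length ≤ k + 1 := (hx hl).2.1.trans_le hn
      simpa using (hη l ⟨e, (hx hl).2.2⟩ e).1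
  let σ' : ∀ n, (inv A n).Mod →ₗ[ZG Γ] (inv A n).Mod := fun n =>
    Inv.res _ _ σ σeq fun l hl => by
      by_cases e : l.length ≤ k + 1
      · refine Sp.mono (hσ l hl.2.2 e).2 fun m hm => ⟨?_, hm.1.1.trans hl.2.1,
          hcar l hl.2.2 m hm.2⟩
        rintro rfl
        exact hl.1 (List.length_eq_zero_iff.1 hm.1.1.symm)
      · rw [σz l (by omega)]; exact zero_mem _
  have hσ' : ∀ n x, Inv.val (σ' n x) = σ (Inv.val x) := fun _ _ => rfl
  let η' : ∀ n, (inv A n).Mod →ₗ[ZG Γ] (inv A (n + 1)).Mod := fun n =>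
    Inv.res _ _ (ext η) ηeq' fun l hl => by simpa using ηmem n l hl
  have hη' : ∀ n x, Inv.val (η' n x) = ext η (Inv.val x) := fun _ _ => rfl
  let ε : (inv A 1).Mod →ₗ[ZG Γ] Triv Γ := ZG.mkLin
    ((Triv.equiv Γ).toAddMonoidHom.comp ((lapply [] ∘ₗ bd).toAddMonoidHom.comp Inv.val))
    fun g x => by
      rw [Triv.single_smul]
      change Triv.equiv Γ (bd (Inv.val _) []) = Triv.equiv Γ (bd (Inv.val _) [])
      rw [Inv.val_smul, ← push_bd, push_apply_nil]
  have hε : ∀ x, ε x = Triv.equiv Γ (bd (Inv.val x) []) := fun _ => rfl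
  refine mfp_of_torus k (fun n => (inv A n).Mod) zero_eq (dd A) (tau h) ε (fun n x => ?_)
    (fun n x => ?_) (fun n x hx => ?_) (inj h) (fun z => ?_) (fun x => ?_) (fun x => ?_)
    (fun a ha => Tor.ker h a ?_) σ' (fun n => tau h (n + 1) ∘ₗ η' n - η' n ∘ₗ tau h n)
    (fun n hn x => ?_) (fun n hn x => ?_) (fun x => ?_) fun n hn => ?_
  · rcases n with _ | n
    · exact zero_eq _
    · exact Inv.val_inj (by rw [val_dd, val_dd, bd_bd, map_zero])
  · exact Inv.val_inj (push_bd' _ _).symm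
  · refine ⟨Inv.mk' _ _ (con_mem (Inv.val_mem x)), Inv.val_inj ?_⟩
    rw [val_dd, Inv.val_mk', bd_con (Inv.val_mem x), ← val_dd, hx]; simp
  · obtain ⟨z, rfl⟩ := (Triv.equiv Γ).surjective z
    refine ⟨Inv.mk' _ _ (single_mem_Sp (S := LS A 1) (l := [1]) ⟨by simp, rfl, by simp [Cos]⟩ z), ?_⟩
    simp [hε, bdL_one]
  · simp [hε, val_dd, bd_bd]
  · rw [hε, hε, val_tau, ← push_bd, push_apply_nil]
  · simpa [hε] using ha
  · rcases n with _ | n
    · exact (zero_eq _).trans (zero_eq _).symm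
    · refine Inv.val_inj ?_
      rw [val_dd, hσ', hσ', val_dd]
      exact eq_of_supp (L := bd ∘ₗ σ) (L' := σ ∘ₗ bd) fun l hl => by
        have := Inv.val_mem x hl
        simpa using (hσ l this.2.2 (by have := this.2.1; omega)).1
  · refine Inv.val_inj ?_
    have e1 : ext η (Inv.val (dd A n x)) = ext η (bd (Inv.val x)) :=
      bd'_eq (ext η) (by simp [η0]) _
    have e2 : ext η (push (· * t⁻¹) (Inv.val (dd A n x))) =
        ext η (push (· * t⁻¹) (bd (Inv.val x))) :=
      bd'_eq (ext η ∘ₗ push (· * t⁻¹)) (by simp [η0]) _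
    have e3 : ∀ y : Ch Γ, push (· * t⁻¹) (push (· * (t ^ r)⁻¹) y) =
        push (· * (t ^ r)⁻¹) (push (· * t⁻¹) y) := fun y => by
      rw [push_push, push_push]; congr 2; funext x; simp only [Function.comp_apply]; group
    have e4 := ηbd (n + 1) (by omega) _ (Inv.val_mem (tau h (n + 1) x))
    rw [val_tau] at e4
    simp only [LinearMap.sub_apply, LinearMap.comp_apply, map_add, map_sub, val_dd, val_tau, hη',
      hσ', e1, e2, ← push_bd, ηbd (n + 1) (by omega) _ (Inv.val_mem x), e4, e3]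
    abel
  · rw [hε, hε, hσ']
    congr 1
    exact eq_of_supp (L := lapply [] ∘ₗ bd ∘ₗ σ) (L' := lapply [] ∘ₗ bd) fun l hl => by
      obtain ⟨u, rfl⟩ := List.length_eq_one_iff.1 (Inv.val_mem x hl).2.1
      simp [σ1, bdL_one]
  · obtain ⟨N, hN, hN'⟩ := (inv A n).exists_fg hD n
    refine ⟨N, hN, fun x => hN' _ ?_⟩
    rw [hσ']
    refine mem_of_supp fun l hl => ?_
    have := Inv.val_mem x hl
    exact Sp.mono (hσ l this.2.2 (this.2.1.trans_le hn)).2 fun m hm => this.2.1 ▸ hm.1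

end Crest.Agent.R185
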