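import Crest.Agent.R185.Grp
import Crest.Agent.R185.FPres
import Crest.Agent.R185.Kill
import Crest.Agent.R185.Torus

/-!
# Row 185: finiteness of ascending HNN extensions
-/

set_option autoImplicit false

namespace Crest.Agent.R185

theorem AscHNN.fpinf {Γ : Type} [Group Γ] {A : Subgroup Γ} {t : Γ} {χ : Γ →* Multiplicative ℤ}
    {φ : A →* A} (h : AscHNN A t χ φ) (hfac : FacFP φ) (h2 : HasSys 2 φ) (h3 : HasSys 3 φ) :
    FPinf Γ := by
  intro k
  obtain ⟨E, _, hE, α, β, hαβ⟩ := hfac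
  obtain ⟨r, hr⟩ := kfin_pow (U := A) φ (KFin.one (fpres_fg hE) α β hαβ) h2 h3 k
  exact FP.mono (Nat.le_succ k) (AscHNN.fp_of_kfin (φ := φ) h (k + 1) r hr)

theorem AscHNN.ker_le {Γ : Type} [Group Γ] {A : Subgroup Γ} {t : Γ} {χ : Γ →* Multiplicative ℤ}
    {φ : A →* A} (h : AscHNN A t χ φ) (h2 : HasSys 2 φ) (h3 : HasSys 3 φ) :
    χ.ker ≤ commutator Γ := by
  intro g hg
  obtain ⟨n, hn⟩ := h.ker g hg
  have h1 : ((φ ⟨_, hn⟩ : A) : Γ) ∈ commutator Γ := by
    have := comm_of_sys φ h2 h3 ⟨_, hn⟩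
    have h' := Subgroup.mem_map_of_mem A.subtype this
    rw [map_commutator_eq] at h'
    exact Subgroup.commutator_mono le_top le_top h'
  rw [← h.conj] at h1
  have h4 := (inferInstance : (commutator Γ).Normal).conj_mem _ h1 (t * t ^ n)⁻¹
  convert h4 using 1
  simp only
  group

end Crest.Agent.R185
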