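import Crest.Agent.R185.T2

/-!
# Row 185, T3: abstract part.  A `Setup` is an ascending HNN extension acting on the direct limit.
-/

set_option autoImplicit false

namespace Crest.Agent.R185

structure Setup (L : LoopData) {Γ X : Type} [Group Γ] [MulAction Γ X]
    (χ : Γ →* Multiplicative ℤ) (t : Γ) (ι : L.P →* Γ) (i : L.S → X) : Prop where
  inj : Function.Injective ι
  conj : ∀ p, t * ι p * t⁻¹ = ι (L.φ p)
  chi_t : χ t = Multiplicative.ofAdd 1
  chi_ι : ∀ p, χ (ι p) = 1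
  ker : ∀ g, χ g = 1 → ∃ (n : ℕ) (p : L.P), t ^ n * g * (t ^ n)⁻¹ = ι p
  i_inj : Function.Injective i
  ι_smul : ∀ p s, ι p • i s = i (p • s)
  t_smul : ∀ s, t • i s = i (L.τ s)
  cover : ∀ x, ∃ (n : ℕ) (s : L.S), t ^ n • x = i s

namespace Setup

variable {L : LoopData} {Γ X : Type} [Group Γ] [MulAction Γ X] {χ : Γ →* Multiplicative ℤ}
  {t : Γ} {ι : L.P →* Γ} {i : L.S → X}

theorem shift (h : Setup L χ t ι i) (N : ℕ) :
    Setup L χ t ((MulAut.conj (t ^ N)⁻¹).toMonoidHom.comp ι) fun s => (t ^ N)⁻¹ • i s where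
  inj := (MulAut.conj (t ^ N)⁻¹).injective.comp h.inj
  conj p := by
    show t * ((t ^ N)⁻¹ * ι p * (t ^ N)⁻¹⁻¹) * t⁻¹ = (t ^ N)⁻¹ * ι (L.φ p) * (t ^ N)⁻¹⁻¹
    rw [← h.conj]; group
  chi_t := h.chi_t
  chi_ι p := by
    show χ ((t ^ N)⁻¹ * ι p * (t ^ N)⁻¹⁻¹) = 1
    rw [map_mul, map_mul, h.chi_ι, mul_one, ← map_mul, mul_inv_cancel, map_one]
  ker g hg := by
    obtain ⟨n, p, hp⟩ := h.ker (t ^ N * g * (t ^ N)⁻¹) (by
      rw [map_mul, map_mul, hg, mul_one, ← map_mul, mul_inv_cancel, map_one])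
    refine ⟨n, p, ?_⟩
    show _ = (t ^ N)⁻¹ * ι p * (t ^ N)⁻¹⁻¹
    rw [← hp]; group
  i_inj a b hab := h.i_inj (smul_left_cancel _ hab)
  ι_smul p s := by
    show ((t ^ N)⁻¹ * ι p * (t ^ N)⁻¹⁻¹) • (t ^ N)⁻¹ • i s = _
    rw [mul_smul, mul_smul, inv_smul_smul, h.ι_smul]
  t_smul s := by
    rw [← h.t_smul, smul_smul, smul_smul]
    congr 1; group
  cover x := by
    obtain ⟨n, s, hs⟩ := h.cover (t ^ N • x)
    refine ⟨n, s, ?_⟩
    rw [← hs, smul_smul, smul_smul]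
    congr 1; group

theorem pow_smul (h : Setup L χ t ι i) (n : ℕ) (s : L.S) : t ^ n • i s = i (L.τ^[n] s) := by
  induction n with
  | zero => simp
  | succ n ih => rw [pow_succ', mul_smul, ih, h.t_smul, Function.iterate_succ_apply']

theorem cover_fin (h : Setup L χ t ι i) {κ : Type} [Finite κ] (a : κ → X) :
    ∃ (N : ℕ) (b : κ → L.S), ∀ k, t ^ N • a k = i (L.τ (b k)) := by
  choose n s hs using fun k => h.cover (a k)
  obtain ⟨N, hN⟩ := (Set.finite_range n).bddAbove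
  refine ⟨N + 1, fun k => L.τ^[N - n k] (s k), fun k => ?_⟩
  have h1 : n k ≤ N := hN ⟨k, rfl⟩
  have : t ^ (N + 1) = t * t ^ (N - n k) * t ^ n k := by
    rw [← pow_succ', ← pow_add]; congr 1; omega
  rw [this, mul_smul, mul_smul, hs, h.pow_smul, h.t_smul]

theorem moves_conj {g c : Γ} (hg : {x : X | (c * g * c⁻¹) • x ≠ x}.Infinite) :
    {x : X | g • x ≠ x}.Infinite := by
  refine (hg.image (MulAction.injective c⁻¹).injOn).mono ?_
  rintro _ ⟨x, hx, rfl⟩ h
  apply hx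
  rw [mul_smul, mul_smul]
  have h' : g • c⁻¹ • x = c⁻¹ • x := h
  rw [h', smul_inv_smul]

theorem moves_nat (h : Setup L χ t ι i) (g : Γ) (hg : g ≠ 1) (k : ℕ)
    (hk : χ g = Multiplicative.ofAdd (k : ℤ)) : {x : X | g • x ≠ x}.Infinite := by
  obtain ⟨n, p, hp⟩ := h.ker (g * (t ^ k)⁻¹) (by
    rw [map_mul, map_inv, map_pow, hk, h.chi_t, ← ofAdd_nsmul]; simp)
  have h1 : t ^ n * g * (t ^ n)⁻¹ = ι p * t ^ k := by rw [← hp]; group
  refine moves_conj (c := t ^ n) ?_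
  rw [h1]
  cases k with
  | zero =>
    have hp1 : p ≠ 1 := by
      rintro rfl
      apply hg
      have : g = (t ^ n)⁻¹ * (t ^ n * g * (t ^ n)⁻¹) * t ^ n := by group
      rw [this, h1]; simp
    refine ((L.moves p hp1).image h.i_inj.injOn).mono ?_
    rintro _ ⟨s, hs, rfl⟩ h2
    rw [pow_zero, mul_one, h.ι_smul] at h2
    exact hs (h.i_inj h2)
  | succ k =>
    refine moves_conj (c := t) ?_
    refine (L.compl.image h.i_inj.injOn).mono ?_
    rintro _ ⟨s, hs, rfl⟩ h2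
    have h3 : t * (ι p * t ^ (k + 1)) * t⁻¹ = t * ι p * t ^ k := by group
    rw [h3, mul_smul, mul_smul, h.pow_smul, h.ι_smul, h.t_smul] at h2
    exact hs ⟨_, h.i_inj h2⟩

theorem moves (h : Setup L χ t ι i) (g : Γ) (hg : g ≠ 1) : {x : X | g • x ≠ x}.Infinite := by
  obtain ⟨k, hk | hk⟩ := Int.eq_nat_or_neg (χ g).toAdd
  · exact h.moves_nat g hg k (by rw [← hk]; rfl)
  · have := h.moves_nat g⁻¹ (inv_ne_one.2 hg) k (by
      rw [map_inv, inv_eq_iff_eq_inv, ← ofAdd_neg, ← hk]; rfl)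
    refine this.mono ?_
    intro x hx h2
    apply hx
    rw [inv_smul_eq_iff]; exact h2.symm

theorem trans (h : Setup L χ t ι i) (n : ℕ) (a b : Fin n → X) (ha : Function.Injective a)
    (hb : Function.Injective b) : ∃ g : Γ, χ g = 1 ∧ ∀ j, g • a j = b j := by
  obtain ⟨N, c, hc⟩ := h.cover_fin (Sum.elim a b)
  have hca : ∀ j, t ^ N • a j = i (L.τ (c (Sum.inl j))) := fun j => hc (Sum.inl j)
  have hcb : ∀ j, t ^ N • b j = i (L.τ (c (Sum.inr j))) := fun j => hc (Sum.inr j)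
  obtain ⟨p, hp⟩ := L.tuples n (fun j => c (Sum.inl j)) (fun j => c (Sum.inr j))
    (fun j k hjk => ha (smul_left_cancel (t ^ N) (by rw [hca, hca]; exact congrArg _ (congrArg _ hjk))))
    (fun j k hjk => hb (smul_left_cancel (t ^ N) (by rw [hcb, hcb]; exact congrArg _ (congrArg _ hjk))))
  refine ⟨(t ^ N)⁻¹ * ι p * t ^ N, ?_, fun j => ?_⟩
  · rw [map_mul, map_mul, h.chi_ι, mul_one, ← map_mul, inv_mul_cancel, map_one]
  · rw [mul_smul, mul_smul, hca, h.ι_smul, hp, ← hcb, inv_smul_smul]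

theorem orth_add {p : ℕ} {e e' : M3 p} (he : Orth e e') : (e + e') * (e + e') = e + e' := by
  obtain ⟨h1, h2, h3, h4⟩ := he
  rw [add_mul, mul_add, mul_add, h1, h2, h3, h4, add_zero, zero_add]

theorem stab₀ (h : Setup L χ t ι i) (F : Set X) (F₀ : Finset L.S)
    (hF : ∀ x, x ∈ F ↔ ∃ s ∈ F₀, x = i (L.τ s)) :
    ∃ (A : Subgroup (fixingSubgroup Γ F)) (t' : fixingSubgroup Γ F) (φ' : A →* A),
      AscHNN A t' (χ.comp (Subgroup.subtype _)) φ' ∧ FacFP φ' ∧ HasSys 2 φ' ∧ HasSys 3 φ' := by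
  classical
  obtain ⟨p, hp⟩ : ∃ p : L.P, ∀ s ∈ F₀, p • L.τ (L.τ s) = L.τ s := by
    have hinj : Function.Injective fun j => (F₀.equivFin.symm j : L.S) :=
      Subtype.val_injective.comp F₀.equivFin.symm.injective
    obtain ⟨p, hp⟩ := L.tuples _ _ _ (L.τ_inj.comp hinj) hinj
    refine ⟨p, fun s hs => ?_⟩
    simpa using hp (F₀.equivFin ⟨s, hs⟩)
  have hmem : ∀ g : Γ, g ∈ fixingSubgroup Γ F ↔ ∀ s ∈ F₀, g • i (L.τ s) = i (L.τ s) := by
    intro g
    rw [mem_fixingSubgroup_iff]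
    exact ⟨fun H s hs => H _ ((hF _).2 ⟨s, hs, rfl⟩), fun H x hx => by
      obtain ⟨s, hs, rfl⟩ := (hF x).1 hx
      exact H s hs⟩
  let t' : fixingSubgroup Γ F := ⟨ι p * t, (hmem _).2 fun s hs => by
    rw [mul_smul, h.t_smul, h.ι_smul, hp s hs]⟩
  have ht' : (t' : Γ) = ι p * t := rfl
  let A : Subgroup (fixingSubgroup Γ F) := ι.range.comap (Subgroup.subtype _)
  have hA : ∀ g : fixingSubgroup Γ F, g ∈ A ↔ ∃ q, ι q = g := fun g => Iff.rfl
  obtain ⟨ρ, hρ⟩ : ∃ ρ : A →* L.P, ∀ a : A, ι (ρ a) = ((a : fixingSubgroup Γ F) : Γ) :=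
    ⟨(MonoidHom.ofInjective h.inj).symm.toMonoidHom.comp
      (((fixingSubgroup Γ F).subtype.comp A.subtype).codRestrict ι.range fun a => a.2),
      fun a => MonoidHom.apply_ofInjective_symm h.inj _⟩
  have hρf : ∀ (a : A), ∀ s ∈ F₀, ρ a • L.τ s = L.τ s := fun a s hs => by
    apply h.i_inj
    rw [← h.ι_smul, hρ]
    exact (hmem _).1 a.1.2 s hs
  have hext : ∀ a b : A, ((a : fixingSubgroup Γ F) : Γ) = ((b : fixingSubgroup Γ F) : Γ) → a = b :=
    fun a b hab => Subtype.ext (Subtype.ext hab)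
  have hlift : ∀ {E : Type} [Group E] (f : E →* L.P),
      (∀ x, ∀ s ∈ F₀, f x • L.τ (L.τ s) = L.τ (L.τ s)) →
      ∃ f' : E →* A, ∀ x, ((f' x : fixingSubgroup Γ F) : Γ) = ι (p * f x * p⁻¹) := by
    intro E _ f hf
    let g : E →* Γ := ι.comp ((MulAut.conj p).toMonoidHom.comp f)
    have hg : ∀ x, g x ∈ fixingSubgroup Γ F := fun x => (hmem _).2 fun s hs => by
      show ι (p * f x * p⁻¹) • _ = _
      have h1 : p⁻¹ • L.τ s = L.τ (L.τ s) := by rw [inv_smul_eq_iff, hp s hs]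
      rw [h.ι_smul, mul_smul, mul_smul, h1, hf x s hs, hp s hs]
    exact ⟨(g.codRestrict _ hg).codRestrict A fun x => ⟨_, rfl⟩, fun x => rfl⟩
  obtain ⟨φ', hφ'⟩ := hlift (L.φ.comp ρ) fun a s hs => by
    rw [MonoidHom.comp_apply, ← L.τ_smul, hρf a s hs]
  have hsys : ∀ q : ℕ, q = 2 ∨ q = 3 → HasSys q φ' := by
    intro q hq
    obtain ⟨fA, fB, hs, hfix⟩ := L.sys q hq
    have key : ∀ f : M3 q → L.P →* L.P,
        (∀ e u s, e * e = e → u • s = s → f e u • L.τ s = L.τ s) →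
        ∃ f' : M3 q → A →* A, ∀ e, e * e = e → ∀ a,
          ((f' e a : fixingSubgroup Γ F) : Γ) = ι (p * f e (ρ a) * p⁻¹) := by
      intro f hf
      have : ∀ e : M3 q, ∃ f' : A →* A, e * e = e → ∀ a,
          ((f' a : fixingSubgroup Γ F) : Γ) = ι (p * f e (ρ a) * p⁻¹) := by
        intro e
        by_cases he : e * e = e
        · obtain ⟨f', hf'⟩ := hlift ((f e).comp ρ) fun a s hs => hf e _ _ he (hρf a s hs)
          exact ⟨f', fun _ => hf'⟩
        · exact ⟨1, fun h => absurd h he⟩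
      choose f' hf' using this
      exact ⟨f', hf'⟩
    have fam : ∀ (f : M3 q → L.P →* L.P) (f' : M3 q → A →* A), IsFam q f →
        (∀ e, e * e = e → ∀ a, ((f' e a : fixingSubgroup Γ F) : Γ) = ι (p * f e (ρ a) * p⁻¹)) →
        IsFam q f' := by
      intro f f' hf hf'
      refine ⟨fun e e' he u u' => hext _ _ ?_, fun e e' he u => hext _ _ ?_⟩
      · simp only [Subgroup.coe_mul, hf' e he.1, hf' e' he.2.1, ← map_mul]
        congr 1
        have := (hf.comm e e' he (ρ u) (ρ u')).eq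
        calc _ = p * (f e (ρ u) * f e' (ρ u')) * p⁻¹ := by group
          _ = _ := by rw [this]; group
      · simp only [Subgroup.coe_mul, hf' e he.1, hf' e' he.2.1, hf' _ (orth_add he), ← map_mul,
          hf.add e e' he]
        congr 1; group
    obtain ⟨fA', hA'⟩ := key fA fun e u s he hu => (hfix e u s he hu).1
    obtain ⟨fB', hB'⟩ := key fB fun e u s he hu => (hfix e u s he hu).2
    have h11 : E11 q * E11 q = E11 q := by simp [E11]
    have h22 : E22 q * E22 q = E22 q := by simp [E22]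
    refine ⟨fA', fB', fam fA fA' hs.famA hA', fam fB fB' hs.famB hB', ?_, fun u u' => hext _ _ ?_,
      fun u => hext _ _ ?_⟩
    · ext a
      rw [hA' _ h22, hB' _ h22, hs.e22]
    · simp only [Subgroup.coe_mul, hφ', hB' _ h11, ← map_mul, MonoidHom.comp_apply]
      congr 1
      have := (hs.comm11 (ρ u) (ρ u')).eq
      calc _ = p * (L.φ (ρ u) * fB (E11 q) (ρ u')) * p⁻¹ := by group
        _ = _ := by rw [this]; group
    · simp only [Subgroup.coe_mul, hφ', hB' _ h11, hA' _ h11, ← map_mul, MonoidHom.comp_apply,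
        hs.e11]
      congr 1; group
  refine ⟨A, t', φ', ⟨fun a => Subtype.ext ?_, ?_, ?_, fun g hg => ?_⟩, ?_, hsys 2 (Or.inl rfl),
    hsys 3 (Or.inr rfl)⟩
  · rw [hφ', Subgroup.coe_mul, Subgroup.coe_mul, Subgroup.coe_inv, ht', ← hρ, map_mul, map_mul,
      MonoidHom.comp_apply, ← h.conj, map_inv]
    group
  · show χ (ι p * t) = _
    rw [map_mul, h.chi_ι, one_mul, h.chi_t]
  · rintro a ⟨q, hq⟩
    show χ (a : Γ) = 1
    have hq' : ι q = (a : Γ) := hq
    rw [← hq', h.chi_ι]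
  · obtain ⟨n, q, hq⟩ := h.ker g hg
    have hpow : ∀ m : ℕ, ∃ r, (ι p * t) ^ m = ι r * t ^ m := by
      intro m
      induction m with
      | zero => exact ⟨1, by simp⟩
      | succ m ih =>
        obtain ⟨r, hr⟩ := ih
        refine ⟨p * L.φ r, ?_⟩
        rw [pow_succ', hr, map_mul, ← h.conj]; group
    obtain ⟨r, hr⟩ := hpow n
    refine ⟨n, (hA _).2 ⟨r * q * r⁻¹, ?_⟩⟩
    rw [Subgroup.coe_mul, Subgroup.coe_mul, Subgroup.coe_inv, Subgroup.coe_pow, ht', hr, map_mul,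
      map_mul, map_inv, ← hq]
    group
  · obtain ⟨E, _, hE, α, β, h1, h2⟩ := L.fac (F₀.image L.τ)
    obtain ⟨β', hβ'⟩ := hlift β fun x s hs => h2 x _ (Finset.mem_image_of_mem _ hs)
    refine ⟨E, inferInstance, hE, α.comp (ρ.codRestrict _ fun a => ?_), β', fun a => hext _ _ ?_⟩
    · rw [mem_fixingSubgroup_iff]
      intro s hs
      obtain ⟨s', hs', rfl⟩ := Finset.mem_image.1 hs
      exact hρf a s' hs'
    · rw [hβ', hφ', MonoidHom.comp_apply, h1]
      rfl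

theorem stab (h : Setup L χ t ι i) (F : Finset X) :
    ∃ (A : Subgroup (fixingSubgroup Γ (F : Set X))) (t' : fixingSubgroup Γ (F : Set X))
      (φ' : A →* A),
      AscHNN A t' (χ.comp (Subgroup.subtype _)) φ' ∧ FacFP φ' ∧ HasSys 2 φ' ∧ HasSys 3 φ' := by
  classical
  obtain ⟨N, b, hb⟩ := h.cover_fin (fun x : F => (x : X))
  refine (h.shift N).stab₀ _ (Finset.univ.image b) fun x => ?_
  constructor
  · intro hx
    exact ⟨b ⟨x, hx⟩, Finset.mem_image_of_mem _ (Finset.mem_univ _), by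
      rw [← hb, inv_smul_smul]⟩
  · rintro ⟨s, hs, rfl⟩
    obtain ⟨y, -, rfl⟩ := Finset.mem_image.1 hs
    rw [← hb, inv_smul_smul]
    exact y.2

theorem good (h : Setup L χ t ι i) : Good Γ X χ where
  inf := by
    have : Infinite L.S := Set.infinite_univ_iff.1 (L.compl.mono (Set.subset_univ _))
    exact Infinite.of_injective i h.i_inj
  moves := h.moves
  trans := h.trans
  ker g hg := by
    obtain ⟨A, t', φ', h1, -, h2, h3⟩ := h.stab ∅
    have hg' : g ∈ fixingSubgroup Γ ((∅ : Finset X) : Set X) := by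
      rw [mem_fixingSubgroup_iff]; simp
    have h4 : (⟨g, hg'⟩ : fixingSubgroup Γ ((∅ : Finset X) : Set X)) ∈ commutator _ :=
      h1.ker_le h2 h3 hg
    have h' := Subgroup.mem_map_of_mem (Subgroup.subtype _) h4
    rw [map_commutator_eq] at h'
    exact Subgroup.commutator_mono le_top le_top h'
  surj F := by
    obtain ⟨A, t', φ', h1, -⟩ := h.stab F
    exact ⟨t', t'.2, h1.chi_t⟩
  fp F := by
    obtain ⟨A, t', φ', h1, h2, -⟩ := h.stab F
    exact h1.fpres h2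
  fpinf F := by
    obtain ⟨A, t', φ', h1, h2, h3, h4⟩ := h.stab F
    exact h1.fpinf h2 h3 h4

end Setup

end Crest.Agent.R185
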