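import Crest.Agent.R185.T4Loc

/-!
# Row 185, T4: charts, tiles, pieces

A *chart* `φ = (F, r)` is an injective local map `r` with domain `D F`.  `Γ` acts on charts by precomposition, `GG` by
postcomposition.  A *tile* is a `Γ`-orbit of charts.  A *piece* `π = (b, F, j)` is the basic embedding
`q ↦ b ++ shift j q` on `D F`; `sub φ π` is the composite chart; `Tile.Sub τ t` says that `τ` is a subtile of `t`.
-/

set_option autoImplicit false

namespace Crest.Agent.R185.T4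

open Pointwise

/-- raw charts -/
@[ext] structure Chart (S : Type) : Type where
  F : Set S
  r : Om S → Om S → Prop

/-- pieces -/
@[ext] structure Piece (S : Type) : Type where
  b : Om S
  F : Set S
  j : ℕ

variable {Γ S : Type} [Group Γ] [MulAction Γ S]

variable (Γ) in
structure IsChart (φ : Chart S) : Prop where
  fin : φ.F.Finite
  dom : ∀ a, (∃ b, φ.r a b) ↔ a ∈ D φ.F
  func : ∀ a b b', φ.r a b → φ.r a b' → b = b'
  inj : ∀ a a' b, φ.r a b → φ.r a' b → a = a'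
  loc : Loc Γ φ.r

def Chart.im (φ : Chart S) : Set (Om S) := {b | ∃ a, φ.r a b}

instance : MulAction Γ (Chart S) where
  smul γ φ := ⟨γ • φ.F, fun a b => φ.r (γ⁻¹ • a) b⟩
  one_smul φ := by
    show Chart.mk _ _ = _
    ext <;> simp
  mul_smul a b φ := by
    show Chart.mk _ _ = Chart.mk (a • b • φ.F) (fun x y => φ.r (b⁻¹ • a⁻¹ • x) y)
    ext <;> simp [mul_smul]

@[simp] theorem smul_F (γ : Γ) (φ : Chart S) : (γ • φ).F = γ • φ.F := rfl
@[simp] theorem smul_r (γ : Γ) (φ : Chart S) (a b : Om S) : (γ • φ).r a b ↔ φ.r (γ⁻¹ • a) b := Iff.rfl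

instance : MulAction (GG Γ S) (Chart S) where
  smul g φ := ⟨φ.F, fun a b => φ.r a (g⁻¹ • b)⟩
  one_smul φ := by
    show Chart.mk _ _ = _
    ext <;> simp
  mul_smul a b φ := by
    show Chart.mk _ _ = Chart.mk φ.F (fun x y => φ.r x (b⁻¹ • a⁻¹ • y))
    ext <;> simp [mul_smul]

@[simp] theorem gsmul_F (g : GG Γ S) (φ : Chart S) : (g • φ).F = φ.F := rfl
@[simp] theorem gsmul_r (g : GG Γ S) (φ : Chart S) (a b : Om S) :
    (g • φ).r a b ↔ φ.r a (g⁻¹ • b) := Iff.rfl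

theorem gsmul_smul (g : GG Γ S) (γ : Γ) (φ : Chart S) : g • γ • φ = γ • g • φ := rfl

@[simp] theorem im_smul (γ : Γ) (φ : Chart S) : (γ • φ).im = φ.im := by
  ext b
  exact ⟨fun ⟨_, h⟩ => ⟨_, h⟩, fun ⟨a, h⟩ => ⟨γ • a, by simpa using h⟩⟩

@[simp] theorem mem_im_gsmul (g : GG Γ S) (φ : Chart S) (p : Om S) :
    p ∈ (g • φ).im ↔ g⁻¹ • p ∈ φ.im := Iff.rfl

theorem IsChart.smul {φ : Chart S} (h : IsChart Γ φ) (γ : Γ) : IsChart Γ (γ • φ) where
  fin := h.fin.smul_set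
  dom a := by simp [h.dom, mem_D_smul]
  func a b b' := h.func _ _ _
  inj a a' b h1 h2 := by simpa using h.inj _ _ _ h1 h2
  loc := ((loc_smul γ⁻¹).comp h.loc (by rintro x x' y rfl h; simpa using h.symm) h.func).congr
    (by simp)

theorem IsChart.gsmul {φ : Chart S} (h : IsChart Γ φ) (g : GG Γ S) : IsChart Γ (g • φ) where
  fin := h.fin
  dom a := by
    rw [gsmul_F, ← h.dom]
    exact ⟨fun ⟨_, h⟩ => ⟨_, h⟩, fun ⟨b, h⟩ => ⟨g • b, by simpa using h⟩⟩
  func a b b' h1 h2 := by simpa using h.func _ _ _ h1 h2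
  inj a a' b := h.inj _ _ _
  loc := (h.loc.comp (GG.loc g) h.inj (by rintro x y z rfl rfl; rfl)).congr (by
    intro x y
    simp only [gsmul_r]
    constructor
    · rintro ⟨z, h1, rfl⟩; simpa using h1
    · intro h1; exact ⟨_, h1, by simp⟩)

theorem isChart_smul_iff (γ : Γ) (φ : Chart S) : IsChart Γ (γ • φ) ↔ IsChart Γ φ :=
  ⟨fun h => by simpa using h.smul γ⁻¹, fun h => h.smul γ⟩

/-- the identity chart -/
def idc : Chart S := ⟨∅, fun a b => a = b⟩

theorem isChart_idc : IsChart Γ (idc : Chart S) where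
  fin := Set.finite_empty
  dom a := by simp [idc]
  func := by rintro a b b' rfl rfl; rfl
  inj := by rintro a b b' rfl rfl; rfl
  loc := loc_id

@[simp] theorem im_idc : (idc : Chart S).im = Set.univ := by ext; simp [idc, Chart.im]

theorem IsChart.root_ex {φ : Chart S} (h : IsChart Γ φ) : ∃ p, φ.r [] p := (h.dom []).2 (by simp)

theorem IsChart.im_nonempty {φ : Chart S} (h : IsChart Γ φ) : φ.im.Nonempty :=
  let ⟨p, hp⟩ := h.root_ex; ⟨p, _, hp⟩

theorem IsChart.mem_D {φ : Chart S} (h : IsChart Γ φ) {a b : Om S} (hab : φ.r a b) : a ∈ D φ.F :=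
  (h.dom a).1 ⟨b, hab⟩

/-- an element fixing the image pointwise fixes the chart -/
theorem gsmul_eq_of_fix {g : GG Γ S} {φ : Chart S} (h : ∀ p ∈ φ.im, g • p = p) : g • φ = φ := by
  ext a b
  · rfl
  · simp only [gsmul_r]
    constructor
    · intro h1
      have := h _ ⟨a, h1⟩
      rw [smul_inv_smul] at this
      rwa [← this] at h1
    · intro h1
      have := h _ ⟨a, h1⟩
      rwa [← this, inv_smul_smul]

theorem IsChart.gsmul_eq_iff {φ : Chart S} (h : IsChart Γ φ) {g g' : GG Γ S} :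
    g • φ = g' • φ ↔ ∀ p ∈ φ.im, g • p = g' • p := by
  constructor
  · rintro he p ⟨a, ha⟩
    have h1 : (g • φ).r a (g • p) := by simpa using ha
    rw [he, gsmul_r] at h1
    have := h.func _ _ _ ha h1
    rw [eq_inv_smul_iff] at this
    exact this.symm
  · intro H
    have : (g'⁻¹ * g) • φ = φ := gsmul_eq_of_fix fun p hp => by
      rw [mul_smul, H p hp, inv_smul_smul]
    rwa [mul_smul, inv_smul_eq_iff] at this

theorem IsChart.fix_of_gsmul_eq {φ : Chart S} (h : IsChart Γ φ) {g : GG Γ S} (he : g • φ = φ) :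
    ∀ p ∈ φ.im, g • p = p := by
  simpa using (h.gsmul_eq_iff (g := g) (g' := 1)).1 (by simpa using he)

/-! ### tiles -/

variable (Γ S) in
def Tile : Type := MulAction.orbitRel.Quotient Γ (Chart S)

variable (Γ) in
def tl (φ : Chart S) : Tile Γ S := Quotient.mk'' φ

theorem mk_eq_iff {φ ψ : Chart S} : tl Γ φ = tl Γ ψ ↔ ∃ γ : Γ, γ • φ = ψ := by
  rw [eq_comm]
  exact Quotient.eq''.trans MulAction.orbitRel_apply

@[simp] theorem mk_smul (γ : Γ) (φ : Chart S) : tl Γ (γ • φ) = tl Γ φ :=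
  (mk_eq_iff.2 ⟨γ, rfl⟩).symm

/-- the chosen chart of a tile -/
noncomputable def Tile.rep (t : Tile Γ S) : Chart S := Quotient.out t

@[simp] theorem Tile.mk_rep (t : Tile Γ S) : tl Γ t.rep = t := Quotient.out_eq t

theorem Tile.exists_mk (t : Tile Γ S) : ∃ φ, t = tl Γ φ := ⟨_, t.mk_rep.symm⟩

noncomputable instance : DecidableEq (Tile Γ S) := Classical.decEq _

def Tile.Valid (t : Tile Γ S) : Prop := IsChart Γ t.rep
def Tile.im (t : Tile Γ S) : Set (Om S) := t.rep.im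
noncomputable def Tile.typ (t : Tile Γ S) : ℕ := t.rep.F.ncard

theorem rep_mk (φ : Chart S) : ∃ γ : Γ, (tl Γ φ).rep = γ • φ := by
  obtain ⟨γ, h⟩ := mk_eq_iff.1 (tl Γ φ).mk_rep.symm
  exact ⟨γ, h.symm⟩

@[simp] theorem valid_mk (φ : Chart S) : (tl Γ φ).Valid ↔ IsChart Γ φ := by
  obtain ⟨γ, h⟩ := rep_mk (Γ := Γ) φ
  rw [Tile.Valid, h, isChart_smul_iff]
@[simp] theorem im_mk (φ : Chart S) : (tl Γ φ).im = φ.im := by
  obtain ⟨γ, h⟩ := rep_mk (Γ := Γ) φ
  rw [Tile.im, h, im_smul]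
@[simp] theorem typ_mk (φ : Chart S) : (tl Γ φ).typ = φ.F.ncard := by
  obtain ⟨γ, h⟩ := rep_mk (Γ := Γ) φ
  rw [Tile.typ, h, smul_F, Set.ncard_smul_set]

theorem Tile.Valid.im_nonempty {t : Tile Γ S} (h : t.Valid) : t.im.Nonempty :=
  IsChart.im_nonempty h

instance : MulAction (GG Γ S) (Tile Γ S) where
  smul g := Quotient.map' (g • ·) fun _ _ ⟨γ, h⟩ => ⟨γ, by rw [← h]; rfl⟩
  one_smul t := by
    obtain ⟨φ, rfl⟩ := t.exists_mk
    exact congrArg (tl Γ) (one_smul _ φ)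
  mul_smul a b t := by
    obtain ⟨φ, rfl⟩ := t.exists_mk
    exact congrArg (tl Γ) (mul_smul a b φ)

@[simp] theorem gsmul_mk (g : GG Γ S) (φ : Chart S) : g • tl Γ φ = tl Γ (g • φ) := rfl

theorem Tile.Valid.gsmul {t : Tile Γ S} (h : t.Valid) (g : GG Γ S) : (g • t).Valid := by
  obtain ⟨φ, rfl⟩ := t.exists_mk
  simpa using ((valid_mk φ).1 h).gsmul g
@[simp] theorem Tile.mem_im_gsmul (g : GG Γ S) (t : Tile Γ S) (p : Om S) :
    p ∈ (g • t).im ↔ g⁻¹ • p ∈ t.im := by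
  obtain ⟨φ, rfl⟩ := t.exists_mk
  simp
@[simp] theorem Tile.typ_gsmul (g : GG Γ S) (t : Tile Γ S) : (g • t).typ = t.typ := by
  obtain ⟨φ, rfl⟩ := t.exists_mk
  simp
theorem Tile.gsmul_eq_of_fix {g : GG Γ S} {t : Tile Γ S} (h : ∀ p ∈ t.im, g • p = p) :
    g • t = t := by
  obtain ⟨φ, rfl⟩ := t.exists_mk
  rw [gsmul_mk, T4.gsmul_eq_of_fix (by simpa using h)]

/-! ### pieces -/

def Piece.emb (π : Piece S) (q : Om S) : Om S := π.b ++ shift π.j q

def Piece.Valid (π : Piece S) (F₀ : Set S) : Prop := π.F.Finite ∧ ∀ q ∈ D π.F, π.emb q ∈ D F₀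

/-- the underlying set of a piece -/
def Piece.set (π : Piece S) : Set (Om S) := π.emb '' D π.F

def sub (φ : Chart S) (π : Piece S) : Chart S := ⟨π.F, fun q c => q ∈ D π.F ∧ φ.r (π.emb q) c⟩

@[simp] theorem sub_F (φ : Chart S) (π : Piece S) : (sub φ π).F = π.F := rfl
theorem sub_r (φ : Chart S) (π : Piece S) (q c : Om S) :
    (sub φ π).r q c ↔ q ∈ D π.F ∧ φ.r (π.emb q) c := Iff.rfl

/-- composition: first `π'`, then `π` -/
def Piece.comp (π π' : Piece S) : Piece S :=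
  ⟨π.emb π'.b, π'.F, if π'.b = [] then π.j + π'.j else π'.j⟩

instance : SMul Γ (Piece S) := ⟨fun γ π => ⟨γ • π.b, γ • π.F, π.j⟩⟩
@[simp] theorem psmul_b (γ : Γ) (π : Piece S) : (γ • π).b = γ • π.b := rfl
@[simp] theorem psmul_F (γ : Γ) (π : Piece S) : (γ • π).F = γ • π.F := rfl
@[simp] theorem psmul_j (γ : Γ) (π : Piece S) : (γ • π).j = π.j := rfl

@[simp] theorem Piece.emb_nil (π : Piece S) : π.emb [] = π.b := by simp [Piece.emb]

theorem Piece.emb_injective (π : Piece S) : Function.Injective π.emb := fun _ _ h =>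
  shift_injective _ (List.append_cancel_left h)

theorem Piece.b_mem_set (π : Piece S) : π.b ∈ π.set := ⟨[], by simp, by simp⟩

theorem Piece.emb_comp (π π' : Piece S) (q : Om S) : (π.comp π').emb q = π.emb (π'.emb q) := by
  by_cases h : π'.b = []
  · simp [Piece.emb, Piece.comp, h, shift_shift, add_comm]
  · simp [Piece.emb, Piece.comp, h, shift_append _ h]

@[simp] theorem Piece.comp_F (π π' : Piece S) : (π.comp π').F = π'.F := rfl

theorem Piece.Valid.comp {π π' : Piece S} {F₀ : Set S} (h : π.Valid F₀) (h' : π'.Valid π.F) :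
    (π.comp π').Valid F₀ :=
  ⟨h'.1, fun q hq => by rw [Piece.emb_comp]; exact h.2 _ (h'.2 q hq)⟩

theorem sub_sub (φ : Chart S) {π π' : Piece S} (h' : π'.Valid π.F) :
    sub (sub φ π) π' = sub φ (π.comp π') := by
  ext q c
  · rfl
  · simp only [sub_r, Piece.emb_comp, Piece.comp_F]
    exact ⟨fun h => ⟨h.1, h.2.2⟩, fun h => ⟨h.1, h'.2 q h.1, h.2⟩⟩

theorem Piece.smul_emb (γ : Γ) (π : Piece S) (q : Om S) : (γ • π).emb (γ • q) = γ • π.emb q := by
  simp [Piece.emb]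

theorem Piece.Valid.smul {π : Piece S} {F₀ : Set S} (h : π.Valid F₀) (γ : Γ) :
    (γ • π).Valid (γ • F₀) :=
  ⟨h.1.smul_set, fun q hq => by
    have := h.2 (γ⁻¹ • q) ((mem_D_smul _ _ _).1 hq)
    rw [← smul_mem_D γ, ← Piece.smul_emb] at this
    simpa using this⟩

theorem smul_sub (γ : Γ) (φ : Chart S) (π : Piece S) : γ • sub φ π = sub (γ • φ) (γ • π) := by
  ext q c
  · rfl
  · simp [sub_r, mem_D_smul, Piece.emb]

theorem gsmul_sub (g : GG Γ S) (φ : Chart S) (π : Piece S) : g • sub φ π = sub (g • φ) π := rfl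

theorem IsChart.sub_self {φ : Chart S} (h : IsChart Γ φ) : sub φ ⟨[], φ.F, 0⟩ = φ := by
  ext q c
  · rfl
  · simp only [sub_r, Piece.emb, List.nil_append, shift_zero]
    exact ⟨fun h => h.2, fun h' => ⟨h.mem_D h', h'⟩⟩

theorem valid_root {F₀ F : Set S} (hF : F.Finite) (h : F₀ ⊆ F) (j : ℕ) :
    (⟨[], F, j⟩ : Piece S).Valid F₀ :=
  ⟨hF, fun q hq => by simpa [Piece.emb] using D_anti h hq⟩

theorem valid_deep {F₀ : Set S} {π : Piece S} (hF : π.F.Finite) (hb : π.b ≠ []) (h : π.b ∈ D F₀) :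
    π.Valid F₀ :=
  ⟨hF, fun _ _ => (append_mem_D hb _).2 h⟩

theorem valid_empty {π : Piece S} (hF : π.F.Finite) : π.Valid ∅ := ⟨hF, by simp⟩

theorem Piece.Valid.b_mem {π : Piece S} {F₀ : Set S} (h : π.Valid F₀) : π.b ∈ D F₀ := by
  simpa using h.2 [] (by simp)

theorem Piece.Valid.subset_of_root {π : Piece S} {F₀ : Set S} (h : π.Valid F₀) (hb : π.b = []) :
    F₀ ⊆ π.F := fun w hw => by
  by_contra hc
  have := h.2 [Ltr.s w false] (by simpa using hc)
  simp [Piece.emb, hb, hw] at this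

theorem Piece.Valid.set_subset {π : Piece S} {F₀ : Set S} (h : π.Valid F₀) : π.set ⊆ D F₀ := by
  rintro _ ⟨q, hq, rfl⟩; exact h.2 q hq

theorem IsChart.sub {φ : Chart S} (h : IsChart Γ φ) {π : Piece S} (hπ : π.Valid φ.F) :
    IsChart Γ (sub φ π) where
  fin := hπ.1
  dom a := ⟨fun ⟨_, h1⟩ => h1.1, fun ha => by
    obtain ⟨b, hb⟩ := (h.dom _).2 (hπ.2 a ha)
    exact ⟨b, ha, hb⟩⟩
  func a b b' h1 h2 := h.func _ _ _ h1.2 h2.2
  inj a a' b h1 h2 := π.emb_injective (h.inj _ _ _ h1.2 h2.2)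
  loc := by
    have h1 : Loc Γ (fun a c => π.emb a = c) :=
      (loc_emb π.b π.j (1 : Γ)).congr (by simp [Piece.emb])
    have h2 := h1.comp h.loc (by rintro x x' y rfl h; exact π.emb_injective h.symm) h.func
    refine (h2.restrict (opn_D hπ.1) ?_).congr (by simp [sub_r])
    rintro y z z' ⟨_, rfl, h3⟩ ⟨_, rfl, h4⟩
    exact h.func _ _ _ h3 h4

theorem mem_im_sub (φ : Chart S) (π : Piece S) (c : Om S) :
    c ∈ (sub φ π).im ↔ ∃ a ∈ π.set, φ.r a c :=
  ⟨fun ⟨q, h1, h2⟩ => ⟨_, ⟨q, h1, rfl⟩, h2⟩, by rintro ⟨_, ⟨q, h1, rfl⟩, h2⟩; exact ⟨q, h1, h2⟩⟩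

theorem im_sub_subset (φ : Chart S) (π : Piece S) : (sub φ π).im ⊆ φ.im :=
  fun _ ⟨_, _, h⟩ => ⟨_, h⟩

theorem IsChart.mem_im_sub {φ : Chart S} (h : IsChart Γ φ) (π : Piece S) {a c : Om S}
    (hac : φ.r a c) : c ∈ (T4.sub φ π).im ↔ a ∈ π.set := by
  rw [T4.mem_im_sub]
  exact ⟨fun ⟨a', h1, h2⟩ => h.inj _ _ _ h2 hac ▸ h1, fun h1 => ⟨a, h1, hac⟩⟩

theorem IsChart.disjoint_im_sub {φ : Chart S} (h : IsChart Γ φ) {π π' : Piece S}
    (hd : Disjoint π.set π'.set) : Disjoint (T4.sub φ π).im (T4.sub φ π').im := by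
  rw [Set.disjoint_left] at *
  intro c hc hc'
  obtain ⟨a, h1, h2⟩ := (T4.mem_im_sub _ _ _).1 hc
  exact hd h1 ((h.mem_im_sub π' h2).1 hc')

theorem im_sub_idc (π : Piece S) : (sub idc π).im = π.set := by
  ext c; simp [mem_im_sub, idc]

theorem set_cone (b : Om S) : (⟨b, ∅, 0⟩ : Piece S).set = cone b := by
  ext c; simp [Piece.set, Piece.emb, cone, List.IsPrefix]

theorem Piece.set_subset_cone (π : Piece S) : π.set ⊆ cone π.b := by
  rintro _ ⟨q, _, rfl⟩; exact ⟨_, rfl⟩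

theorem Piece.mem_set (π : Piece S) (a : Om S) : a ∈ π.set ↔ a = π.b ∨
    (∃ w i u, w ∉ π.F ∧ a = π.b ++ Ltr.s w i :: u) ∨ ∃ k u, π.j ≤ k ∧ a = π.b ++ Ltr.n k :: u := by
  constructor
  · rintro ⟨q, hq, rfl⟩
    rcases q with _ | ⟨_ | k, u⟩
    · simp
    · exact Or.inr (Or.inl ⟨_, _, _, by simpa using hq, rfl⟩)
    · exact Or.inr (Or.inr ⟨k + π.j, u, by omega, rfl⟩)
  · rintro (rfl | ⟨w, i, u, h, rfl⟩ | ⟨k, u, h, rfl⟩)
    · exact π.b_mem_set
    · exact ⟨Ltr.s w i :: u, by simpa using h, rfl⟩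
    · exact ⟨Ltr.n (k - π.j) :: u, by simp, by simp [Piece.emb, Nat.sub_add_cancel h]⟩

/-- a non-root point of a piece carries its whole cone -/
theorem Piece.append_mem_set {π : Piece S} {a : Om S} (ha : a ∈ π.set) (hne : a ≠ π.b) (u : Om S) :
    a ++ u ∈ π.set := by
  rcases (π.mem_set a).1 ha with h | ⟨w, i, v, h, rfl⟩ | ⟨k, v, h, rfl⟩
  · exact absurd h hne
  · exact (π.mem_set _).2 (Or.inr (Or.inl ⟨w, i, v ++ u, h, by simp⟩))
  · exact (π.mem_set _).2 (Or.inr (Or.inr ⟨k, v ++ u, h, by simp⟩))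

/-- a piece is closed under prefixes extending its root -/
theorem Piece.mem_set_of_prefix {π : Piece S} {a c : Om S} (hc : c ∈ π.set) (h1 : π.b <+: a)
    (h2 : a <+: c) : a ∈ π.set := by
  obtain ⟨u, rfl⟩ := h1
  obtain ⟨v, rfl⟩ := h2
  rcases u with _ | ⟨y, u⟩
  · simpa using π.b_mem_set
  · rcases (π.mem_set _).1 hc with h | ⟨w, i, v', h, he⟩ | ⟨k, v', h, he⟩
    · simp at h
    · simp only [List.append_assoc, List.cons_append, List.append_cancel_left_eq,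
        List.cons.injEq] at he
      exact (π.mem_set _).2 (Or.inr (Or.inl ⟨w, i, u, h, by rw [he.1]⟩))
    · simp only [List.append_assoc, List.cons_append, List.append_cancel_left_eq,
        List.cons.injEq] at he
      exact (π.mem_set _).2 (Or.inr (Or.inr ⟨k, u, h, by rw [he.1]⟩))

/-- two intersecting pieces have the same root, or the root of one lies in the other -/
theorem Piece.tri {π π' : Piece S} {c : Om S} (h : c ∈ π.set) (h' : c ∈ π'.set) :
    π.b ∈ π'.set ∨ π'.b ∈ π.set := by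
  rcases List.prefix_or_prefix_of_prefix (π.set_subset_cone h) (π'.set_subset_cone h') with h1 | h1
  · exact Or.inr (Piece.mem_set_of_prefix h h1 (π'.set_subset_cone h'))
  · exact Or.inl (Piece.mem_set_of_prefix h' h1 (π.set_subset_cone h))

theorem Piece.eq_comp_of_mem {π π' : Piece S} (hF : π.F.Finite) (h : π.b ∈ π'.set)
    (hne : π.b ≠ π'.b) : ∃ ρ : Piece S, ρ.Valid π'.F ∧ π = π'.comp ρ := by
  obtain ⟨q, hq, he⟩ := h
  have hq0 : q ≠ [] := by rintro rfl; exact hne (by simpa using he.symm)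
  exact ⟨⟨q, π.F, π.j⟩, valid_deep hF hq0 hq, by ext <;> simp [Piece.comp, he, hq0]⟩

theorem Piece.eq_comp_of_root {π π' : Piece S} (hF : π.F.Finite) (hb : π.b = π'.b)
    (hFF : π'.F ⊆ π.F) (hj : π'.j ≤ π.j) : ∃ ρ : Piece S, ρ.Valid π'.F ∧ π = π'.comp ρ :=
  ⟨⟨[], π.F, π.j - π'.j⟩, valid_root hF hFF _, by ext <;> simp [Piece.comp, hb, hj]⟩

theorem Piece.root_le_of_subset {π π' : Piece S} (hb : π.b = π'.b) (h : π.set ⊆ π'.set) :
    π'.F ⊆ π.F ∧ π'.j ≤ π.j := by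
  constructor
  · intro w hw
    by_contra hc
    have := h ((π.mem_set _).2 (Or.inr (Or.inl ⟨w, false, [], hc, rfl⟩)))
    simp [Piece.mem_set, hb, hw] at this
  · have := h ((π.mem_set _).2 (Or.inr (Or.inr ⟨π.j, [], le_rfl, rfl⟩)))
    simpa [Piece.mem_set, hb] using this

theorem Piece.eq_comp_of_subset {π π' : Piece S} (hF : π.F.Finite) (h : π.set ⊆ π'.set) :
    ∃ ρ : Piece S, ρ.Valid π'.F ∧ π = π'.comp ρ := by
  by_cases hb : π.b = π'.b
  · exact Piece.eq_comp_of_root hF hb (Piece.root_le_of_subset hb h).1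
      (Piece.root_le_of_subset hb h).2
  · exact Piece.eq_comp_of_mem hF (h π.b_mem_set) hb

theorem prefix_antisymm {a b : Om S} (h : a <+: b) (h' : b <+: a) : a = b :=
  h.eq_of_length (h.length_le.antisymm h'.length_le)

theorem Piece.eq_of_set_eq {π π' : Piece S} (h : π.set = π'.set) : π = π' := by
  have hb : π.b = π'.b := prefix_antisymm (π.set_subset_cone (h ▸ π'.b_mem_set))
    (π'.set_subset_cone (h ▸ π.b_mem_set))
  have h1 := Piece.root_le_of_subset hb h.le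
  have h2 := Piece.root_le_of_subset hb.symm h.ge
  exact Piece.ext hb (h2.1.antisymm h1.1) (h2.2.antisymm h1.2)

/-- rigidity of basic embeddings -/
theorem emb_rigid [Hyp Γ S] {F : Set S} {b b' : Om S} {j j' : ℕ} {γ γ' : Γ}
    (h : ∀ q ∈ D F, b ++ shift j (γ • q) = b' ++ shift j' (γ' • q)) :
    b = b' ∧ j = j' ∧ γ = γ' := by
  have hb : b = b' := by simpa using h [] (by simp)
  subst hb
  refine ⟨rfl, by simpa using h [Ltr.n 0] (by simp), ?_⟩
  have : γ'⁻¹ * γ = 1 := Hyp.faith (S := S) _ fun w => by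
    have := h [Ltr.n 0, Ltr.s w false] (by simp)
    simp only [smul_cons, smul_n, smul_s, smul_nil, shift_n, List.append_cancel_left_eq,
      List.cons.injEq, Ltr.s.injEq] at this
    rw [mul_smul, this.2.1.1, inv_smul_smul]
  rw [inv_mul_eq_one] at this
  exact this.symm

theorem IsChart.sub_rigid [Hyp Γ S] {φ : Chart S} (h : IsChart Γ φ) {π π' : Piece S}
    (hπ : π.Valid φ.F) {γ : Γ} (he : γ • T4.sub φ π = T4.sub φ π') : γ = 1 ∧ π = π' := by
  have key : ∀ q ∈ D π.F, π.b ++ shift π.j ((1 : Γ) • q) = π'.b ++ shift π'.j (γ • q) := by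
    intro q hq
    obtain ⟨c, hc⟩ := (h.dom _).2 (hπ.2 q hq)
    have h1 : (γ • T4.sub φ π).r (γ • q) c := by simpa using ⟨hq, hc⟩
    rw [he] at h1
    simpa [Piece.emb] using h.inj _ _ _ hc h1.2
  obtain ⟨h1, h2, rfl⟩ := emb_rigid key
  exact ⟨rfl, Piece.ext h1 (by simpa using congrArg Chart.F he) h2⟩

theorem IsChart.smul_rigid [Hyp Γ S] {φ : Chart S} (h : IsChart Γ φ) {γ : Γ} (he : γ • φ = φ) :
    γ = 1 :=
  (h.sub_rigid (valid_root h.fin le_rfl 0) (π' := ⟨[], φ.F, 0⟩) (by rwa [h.sub_self])).1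

theorem IsChart.set_eq_of_im_eq {φ : Chart S} (h : IsChart Γ φ) {π π' : Piece S}
    (hπ : π.Valid φ.F) (he : (T4.sub φ π).im ⊆ (T4.sub φ π').im) : π.set ⊆ π'.set := by
  intro a ha
  obtain ⟨c, hc⟩ := (h.dom _).2 (hπ.set_subset ha)
  exact (h.mem_im_sub π' hc).1 (he ((h.mem_im_sub π hc).2 ha))

/-- a subtile is determined by its piece -/
theorem IsChart.mk_sub_inj {φ : Chart S} (h : IsChart Γ φ) {π π' : Piece S}
    (hπ : π.Valid φ.F) (hπ' : π'.Valid φ.F) (he : tl Γ (T4.sub φ π) = tl Γ (T4.sub φ π')) :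
    π = π' := by
  have : (T4.sub φ π).im = (T4.sub φ π').im := by simpa using congrArg Tile.im he
  exact Piece.eq_of_set_eq ((h.set_eq_of_im_eq hπ this.le).antisymm (h.set_eq_of_im_eq hπ' this.ge))

/-! ### subtiles -/

def Tile.Sub (τ t : Tile Γ S) : Prop :=
  ∃ (φ : Chart S) (π : Piece S), IsChart Γ φ ∧ π.Valid φ.F ∧ t = tl Γ φ ∧ τ = tl Γ (sub φ π)

theorem Tile.sub_mk {φ : Chart S} (h : IsChart Γ φ) {π : Piece S} (hπ : π.Valid φ.F) :
    (tl Γ (sub φ π)).Sub (tl Γ φ) := ⟨φ, π, h, hπ, rfl, rfl⟩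

theorem Tile.Sub.exists_piece {τ : Tile Γ S} {φ : Chart S} (h : τ.Sub (tl Γ φ)) :
    ∃ π : Piece S, π.Valid φ.F ∧ τ = tl Γ (sub φ π) := by
  obtain ⟨ψ, π, -, hπ, he, rfl⟩ := h
  obtain ⟨γ, rfl⟩ := mk_eq_iff.1 he.symm
  exact ⟨γ • π, hπ.smul γ, by rw [← smul_sub, mk_smul]⟩

theorem Tile.Sub.valid_right {τ t : Tile Γ S} (h : τ.Sub t) : t.Valid := by
  obtain ⟨ψ, π, h, -, rfl, -⟩ := h; simpa
theorem Tile.Sub.valid_left {τ t : Tile Γ S} (h : τ.Sub t) : τ.Valid := by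
  obtain ⟨ψ, π, h, hπ, -, rfl⟩ := h; simpa using h.sub hπ
theorem Tile.Sub.im_subset {τ t : Tile Γ S} (h : τ.Sub t) : τ.im ⊆ t.im := by
  obtain ⟨ψ, π, h, hπ, rfl, rfl⟩ := h; simpa using im_sub_subset ψ π
theorem Tile.Valid.sub_refl {t : Tile Γ S} (h : t.Valid) : t.Sub t :=
  ⟨t.rep, ⟨[], t.rep.F, 0⟩, h, valid_root h.fin le_rfl 0, by simp, by rw [IsChart.sub_self h]; simp⟩
theorem Tile.Sub.trans {a b c : Tile Γ S} (h : a.Sub b) (h' : b.Sub c) : a.Sub c := by
  obtain ⟨ψ, π, hψ, hπ, rfl, rfl⟩ := h'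
  obtain ⟨π', hπ', rfl⟩ := h.exists_piece
  exact ⟨ψ, π.comp π', hψ, hπ.comp hπ', rfl, by rw [sub_sub _ hπ']⟩
theorem Tile.Sub.gsmul {τ t : Tile Γ S} (h : τ.Sub t) (g : GG Γ S) : (g • τ).Sub (g • t) := by
  obtain ⟨ψ, π, h, hπ, rfl, rfl⟩ := h
  exact ⟨g • ψ, π, h.gsmul g, hπ, rfl, rfl⟩

/-- subtiles of a common tile are compared by their images -/
theorem Tile.Sub.sub_of_im_subset {τ τ' t : Tile Γ S} (h : τ.Sub t) (h' : τ'.Sub t)
    (hi : τ.im ⊆ τ'.im) : τ.Sub τ' := by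
  obtain ⟨φ, π, hφ, hπ, rfl, rfl⟩ := h
  obtain ⟨π', hπ', rfl⟩ := h'.exists_piece
  obtain ⟨ρ, hρ, rfl⟩ := Piece.eq_comp_of_subset hπ.1 (hφ.set_eq_of_im_eq hπ (by simpa using hi))
  rw [← sub_sub _ hρ]
  exact Tile.sub_mk (hφ.sub hπ') hρ

theorem Tile.Sub.eq_of_im_subset {τ t : Tile Γ S} (h : τ.Sub t) (hi : t.im ⊆ τ.im) : τ = t := by
  obtain ⟨φ, π, hφ, hπ, rfl, rfl⟩ := h
  have h0 := valid_root hφ.fin le_rfl 0
  have : π = ⟨[], φ.F, 0⟩ := Piece.eq_of_set_eq (Set.Subset.antisymm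
    (hφ.set_eq_of_im_eq hπ (by rw [hφ.sub_self]; exact im_sub_subset _ _))
    (hφ.set_eq_of_im_eq h0 (by rw [hφ.sub_self]; simpa using hi)))
  rw [this, hφ.sub_self]

theorem Tile.sub_of_set_subset {φ : Chart S} (hφ : IsChart Γ φ) {π π' : Piece S}
    (hπ : π.F.Finite) (hπ' : π'.Valid φ.F) (h : π.set ⊆ π'.set) :
    (tl Γ (sub φ π)).Sub (tl Γ (sub φ π')) := by
  obtain ⟨ρ, hρ, rfl⟩ := Piece.eq_comp_of_subset hπ h
  rw [← sub_sub _ hρ]
  exact Tile.sub_mk (hφ.sub hπ') hρ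

/-! ### slots: root part and leaves of an expansion -/

/-- The letters below a slot (`some w`: the slot `w ∈ S`; `none`: the star slot). -/
def letters : Option S → List (Ltr S)
  | some w => [Ltr.s w false, Ltr.s w true]
  | none => [Ltr.n 0]

/-- the slot is available for a chart of type `F` -/
def Ok (F : Set S) (s : Option S) : Prop := ∀ w, s = some w → w ∉ F

def rootP (F : Set S) : Option S → Piece S
  | some w => ⟨[], insert w F, 0⟩
  | none => ⟨[], F, 1⟩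

def leafP (y : Ltr S) : Piece S := ⟨[y], ∅, 0⟩

def root (φ : Chart S) (s : Option S) : Chart S := sub φ (rootP φ.F s)
def leaf (φ : Chart S) (y : Ltr S) : Chart S := sub φ (leafP y)

@[simp] theorem ok_none (F : Set S) : Ok F none := by simp [Ok]
@[simp] theorem ok_some (F : Set S) (w : S) : Ok F (some w) ↔ w ∉ F := by simp [Ok]
@[simp] theorem rootP_b (F : Set S) (s : Option S) : (rootP F s).b = [] := by cases s <;> rfl
@[simp] theorem leaf_F (φ : Chart S) (y : Ltr S) : (leaf φ y).F = ∅ := rfl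
@[simp] theorem root_F_none (φ : Chart S) : (root φ none).F = φ.F := rfl
@[simp] theorem root_F_some (φ : Chart S) (w : S) : (root φ (some w)).F = insert w φ.F := rfl
theorem leaf_r (φ : Chart S) (y : Ltr S) (u c : Om S) : (leaf φ y).r u c ↔ φ.r (y :: u) c := by
  simp [leaf, sub_r, leafP, Piece.emb]
theorem letters_nodup (s : Option S) : (letters s).Nodup := by cases s <;> simp [letters]
theorem letters_ne_nil (s : Option S) : letters s ≠ [] := by cases s <;> simp [letters]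

theorem valid_rootP {F : Set S} (hF : F.Finite) (s : Option S) : (rootP F s).Valid F := by
  cases s with
  | none => exact valid_root hF le_rfl 1
  | some w => exact valid_root (hF.insert w) (Set.subset_insert _ _) 0

theorem valid_leafP {F : Set S} {y : Ltr S} (h : [y] ∈ D F) : (leafP y).Valid F :=
  valid_deep Set.finite_empty (by simp [leafP]) h

theorem Ok.mem_D {F : Set S} {s : Option S} (h : Ok F s) {y : Ltr S} (hy : y ∈ letters s)
    (u : Om S) : y :: u ∈ D F := by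
  cases s with
  | none => simp only [letters, List.mem_singleton] at hy; simp [hy]
  | some w =>
    simp only [letters, List.mem_cons, List.not_mem_nil, or_false] at hy
    rcases hy with rfl | rfl <;> simpa using h

theorem set_leafP (y : Ltr S) : (leafP y).set = cone [y] := set_cone [y]

theorem mem_set_leafP (y : Ltr S) (a : Om S) : a ∈ (leafP y).set ↔ ∃ u, a = y :: u := by
  simp [set_leafP, cone, List.IsPrefix, eq_comm]

theorem mem_set_rootP {F : Set S} {s : Option S} (a : Om S) :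
    a ∈ (rootP F s).set ↔ a ∈ D F ∧ ∀ y ∈ letters s, ∀ u, a ≠ y :: u := by
  rcases a with _ | ⟨⟨w, i⟩ | k, u⟩ <;> cases s <;>
    simp [Piece.mem_set, rootP, letters, Nat.one_le_iff_ne_zero]
  cases i <;> simp [and_comm]

theorem IsChart.root {φ : Chart S} (h : IsChart Γ φ) (s : Option S) : IsChart Γ (root φ s) :=
  h.sub (valid_rootP h.fin s)

theorem IsChart.leaf {φ : Chart S} (h : IsChart Γ φ) {y : Ltr S} (hy : [y] ∈ D φ.F) :
    IsChart Γ (leaf φ y) := h.sub (valid_leafP hy)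

theorem IsChart.disjoint_root_leaf {φ : Chart S} (h : IsChart Γ φ) {s : Option S} {y : Ltr S}
    (hy : y ∈ letters s) : Disjoint (T4.root φ s).im (T4.leaf φ y).im :=
  h.disjoint_im_sub (Set.disjoint_left.2 fun a ha ha' => by
    obtain ⟨u, rfl⟩ := (mem_set_leafP _ _).1 ha'
    exact ((mem_set_rootP _).1 ha).2 y hy u rfl)

theorem IsChart.disjoint_leaf_leaf {φ : Chart S} (h : IsChart Γ φ) {y y' : Ltr S}
    (hy : y ≠ y') : Disjoint (T4.leaf φ y).im (T4.leaf φ y').im :=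
  h.disjoint_im_sub (Set.disjoint_left.2 fun a ha ha' => by
    obtain ⟨u, rfl⟩ := (mem_set_leafP _ _).1 ha'
    obtain ⟨u', he⟩ := (mem_set_leafP _ _).1 ha
    exact hy (List.cons.inj he).1.symm)

theorem IsChart.mem_im_iff {φ : Chart S} (h : IsChart Γ φ) (s : Option S) (p : Om S) :
    p ∈ φ.im ↔ p ∈ (T4.root φ s).im ∨ ∃ y ∈ letters s, p ∈ (T4.leaf φ y).im := by
  constructor
  · rintro ⟨a, ha⟩
    by_cases hc : ∃ y ∈ letters s, ∃ u, a = y :: u
    · obtain ⟨y, hy, u, rfl⟩ := hc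
      exact Or.inr ⟨y, hy, u, (leaf_r _ _ _ _).2 ha⟩
    · push Not at hc
      exact Or.inl ((h.mem_im_sub _ ha).2 ((mem_set_rootP _).2 ⟨h.mem_D ha, hc⟩))
  · rintro (h1 | ⟨y, -, h1⟩) <;> exact im_sub_subset _ _ h1

theorem smul_root (γ : Γ) (φ : Chart S) (s : Option S) :
    γ • root φ s = root (γ • φ) (s.map (γ • ·)) := by
  rw [root, root, smul_sub]
  congr 1
  cases s <;> ext <;> simp [rootP, Set.smul_set_insert]

theorem smul_leaf (γ : Γ) (φ : Chart S) (y : Ltr S) : γ • leaf φ y = leaf (γ • φ) (γ • y) := by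
  rw [leaf, leaf, smul_sub]
  congr 1
  ext <;> simp [leafP]

theorem letters_map (γ : Γ) (s : Option S) : letters (s.map (γ • ·)) = (letters s).map (γ • ·) := by
  cases s <;> simp [letters]

theorem Ok.smul {F : Set S} {s : Option S} (h : Ok F s) (γ : Γ) : Ok (γ • F) (s.map (γ • ·)) := by
  cases s with
  | none => simp
  | some w => simpa [Set.smul_mem_smul_set_iff] using h

theorem gsmul_root (g : GG Γ S) (φ : Chart S) (s : Option S) : g • root φ s = root (g • φ) s := rfl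
theorem gsmul_leaf (g : GG Γ S) (φ : Chart S) (y : Ltr S) : g • leaf φ y = leaf (g • φ) y := rfl

end Crest.Agent.R185.T4
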