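import Crest.Agent.R185.Defs

/-!
# Row 185, T4: words, local relations (definitions)

THE CONSTRUCTION (replaces the sketch in the header of `T4.lean`).  Letters: `s w i` (`w ∈ S`, `i : Bool`) and `n k` (`k ∈ ℕ`, the
"star" letters).  `Om S` = words; `Γ` acts letterwise (fixing star letters).  A node `a` has the children `a ++ [y]`, the *cone* of `a` is
`{a ++ u}`.  A relation `r` on words is *local* (`Loc`) if at every related pair `(a,b)` almost all child cones of `a` are related to child
cones of `b` by `a ++ y :: u ↦ b ++ y' :: γ • u` (`y' = γ • y` for `S`-letters, `y' = y + d` for star letters), and at almost all related pairs the whole cone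
is related by `a ++ u ↦ b ++ γ • u`.  `GG` = local permutations of `Om S`; it is the final simple group.
-/

set_option autoImplicit false

namespace Crest.Agent.R185.T4

open Pointwise

/-- letters -/
inductive Ltr (S : Type) : Type
  | s (w : S) (i : Bool)
  | n (k : ℕ)

/-- words -/
abbrev Om (S : Type) : Type := List (Ltr S)

/-- Standing hypotheses on the action (consequences of `Good`). -/
class Hyp (Γ S : Type) [Group Γ] [MulAction Γ S] : Prop where
  faith : ∀ γ : Γ, (∀ w : S, γ • w = w) → γ = 1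
  inf : Infinite S
  trans : ∀ (n : ℕ) (a b : Fin n → S), Function.Injective a → Function.Injective b →
    ∃ g : Γ, ∀ i, g • a i = b i

variable {Γ S : Type} [Group Γ] [MulAction Γ S]

/-- action on letters -/
def Ltr.act (γ : Γ) : Ltr S → Ltr S
  | .s w i => .s (γ • w) i
  | .n k => .n k

instance : MulAction Γ (Ltr S) where
  smul := Ltr.act
  one_smul y := by
    cases y with
    | s w i => show Ltr.s ((1 : Γ) • w) i = _; rw [one_smul]
    | n k => rfl
  mul_smul a b y := by
    cases y with
    | s w i => show Ltr.s ((a * b) • w) i = Ltr.s (a • b • w) i; rw [mul_smul]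
    | n k => rfl

@[simp] theorem smul_s (γ : Γ) (w : S) (i : Bool) : γ • Ltr.s w i = Ltr.s (γ • w) i := rfl
@[simp] theorem smul_n (γ : Γ) (k : ℕ) : γ • (Ltr.n k : Ltr S) = Ltr.n k := rfl

instance : MulAction Γ (Om S) where
  smul γ u := u.map (γ • ·)
  one_smul u := by show u.map _ = u; simp
  mul_smul a b u := by show u.map _ = (u.map _).map _; simp [mul_smul, Function.comp_def]

theorem smul_def (γ : Γ) (u : Om S) : γ • u = u.map (γ • ·) := rfl
@[simp] theorem smul_nil (γ : Γ) : γ • ([] : Om S) = [] := rfl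
@[simp] theorem smul_cons (γ : Γ) (y : Ltr S) (u : Om S) : γ • (y :: u) = (γ • y) :: γ • u := rfl
@[simp] theorem smul_append (γ : Γ) (u v : Om S) : γ • (u ++ v) = γ • u ++ γ • v := by
  simp [smul_def]
@[simp] theorem smul_eq_nil (γ : Γ) (u : Om S) : γ • u = [] ↔ u = [] := by simp [smul_def]
@[simp] theorem length_smul (γ : Γ) (u : Om S) : (γ • u).length = u.length := by simp [smul_def]

/-- The standard domain of type `F`: words not starting with a letter `s w i`, `w ∈ F`. -/
def D (F : Set S) : Set (Om S) := {q | ∀ w i u, q = Ltr.s w i :: u → w ∉ F}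

@[simp] theorem nil_mem_D (F : Set S) : [] ∈ D F := by simp [D]
@[simp] theorem s_mem_D (F : Set S) (w : S) (i : Bool) (u : Om S) :
    Ltr.s w i :: u ∈ D F ↔ w ∉ F := by
  constructor
  · intro h; exact h w i u rfl
  · rintro h w' i' u' he
    simp only [List.cons.injEq, Ltr.s.injEq] at he
    exact he.1.1 ▸ h
@[simp] theorem n_mem_D (F : Set S) (k : ℕ) (u : Om S) : Ltr.n k :: u ∈ D F := by simp [D]
@[simp] theorem D_empty : D (∅ : Set S) = Set.univ := by ext; simp [D]
theorem D_anti {F F' : Set S} (h : F ⊆ F') : D F' ⊆ D F :=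
  fun _ hq w i u he hw => hq w i u he (h hw)
theorem cons_mem_D {F : Set S} {y : Ltr S} {u : Om S} (u' : Om S) (h : y :: u ∈ D F) :
    y :: u' ∈ D F := by
  cases y <;> simp_all
theorem append_mem_D {F : Set S} {a : Om S} (ha : a ≠ []) (u : Om S) : a ++ u ∈ D F ↔ a ∈ D F := by
  obtain ⟨y, a', rfl⟩ := List.exists_cons_of_ne_nil ha
  exact ⟨fun h => cons_mem_D _ h, fun h => cons_mem_D _ h⟩
theorem mem_D_of_append {F : Set S} {a u : Om S} (h : a ++ u ∈ D F) : a ∈ D F := by
  by_cases ha : a = []
  · simp [ha]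
  · exact (append_mem_D ha u).1 h
@[simp] theorem smul_mem_D (γ : Γ) (F : Set S) (q : Om S) : γ • q ∈ D (γ • F) ↔ q ∈ D F := by
  rcases q with _ | ⟨_ | _, u⟩ <;> simp [Set.smul_mem_smul_set_iff]
theorem mem_D_smul (γ : Γ) (F : Set S) (q : Om S) : q ∈ D (γ • F) ↔ γ⁻¹ • q ∈ D F := by
  rw [← smul_mem_D γ F, smul_inv_smul]

/-- shift of the first letter if it is a star letter -/
def shift (j : ℕ) : Om S → Om S
  | Ltr.n k :: u => Ltr.n (k + j) :: u
  | q => q

@[simp] theorem shift_nil (j : ℕ) : shift j ([] : Om S) = [] := rfl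
@[simp] theorem shift_s (j : ℕ) (w : S) (i : Bool) (u : Om S) :
    shift j (Ltr.s w i :: u) = Ltr.s w i :: u := rfl
@[simp] theorem shift_n (j k : ℕ) (u : Om S) : shift j (Ltr.n k :: u) = Ltr.n (k + j) :: u := rfl
@[simp] theorem shift_zero (q : Om S) : shift 0 q = q := by
  rcases q with _ | ⟨_ | _, u⟩ <;> simp
theorem shift_shift (i j : ℕ) (q : Om S) : shift i (shift j q) = shift (j + i) q := by
  rcases q with _ | ⟨_ | _, u⟩ <;> simp [add_assoc]
@[simp] theorem shift_eq_nil (j : ℕ) (q : Om S) : shift j q = [] ↔ q = [] := by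
  rcases q with _ | ⟨_ | _, u⟩ <;> simp
theorem shift_append (j : ℕ) {a : Om S} (ha : a ≠ []) (u : Om S) :
    shift j (a ++ u) = shift j a ++ u := by
  rcases a with _ | ⟨_ | _, a⟩ <;> simp_all
@[simp] theorem smul_shift (γ : Γ) (j : ℕ) (q : Om S) : γ • shift j q = shift j (γ • q) := by
  rcases q with _ | ⟨_ | _, u⟩ <;> simp
@[simp] theorem shift_mem_D (F : Set S) (j : ℕ) (q : Om S) : shift j q ∈ D F ↔ q ∈ D F := by
  rcases q with _ | ⟨_ | _, u⟩ <;> simp
@[simp] theorem length_shift (j : ℕ) (q : Om S) : (shift j q).length = q.length := by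
  rcases q with _ | ⟨_ | _, u⟩ <;> simp
theorem shift_injective (j : ℕ) : Function.Injective (shift j : Om S → Om S) := by
  intro a b h
  rcases a with _ | ⟨_ | _, a⟩ <;> rcases b with _ | ⟨_ | _, b⟩ <;> simp_all

/-- The near action of `Γ × ℤ` on letters, as a relation. -/
def LR (γ : Γ) (d : ℤ) : Ltr S → Ltr S → Prop
  | .s w i, .s w' i' => w' = γ • w ∧ i' = i
  | .n k, .n k' => (k' : ℤ) = k + d
  | _, _ => False

variable (Γ) in
/-- good germ of `r` at the pair `(a, b)` -/
def Germ (r : Om S → Om S → Prop) (a b : Om S) : Prop :=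
  ∃ (γ : Γ) (d : ℤ), {y : Ltr S | ¬ ∃ y', LR γ d y y' ∧
    ∀ u, r (a ++ y :: u) (b ++ y' :: γ • u)}.Finite

variable (Γ) in
/-- `r` relates the cone of `a` to the cone of `b` by an element of `Γ` -/
def Simple (r : Om S → Om S → Prop) (a b : Om S) : Prop :=
  ∃ γ : Γ, ∀ u, r (a ++ u) (b ++ γ • u)

variable (Γ) in
/-- local relations -/
def Loc (r : Om S → Om S → Prop) : Prop :=
  (∀ a b, r a b → Germ Γ r a b) ∧ {p : Om S × Om S | r p.1 p.2 ∧ ¬ Simple Γ r p.1 p.2}.Finite

variable (Γ) in
/-- `U` is "open": the identity of `U` is local -/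
def Opn (U : Set (Om S)) : Prop := Loc Γ (fun a b => a ∈ U ∧ a = b)

/-- the cone of a node -/
def cone (a : Om S) : Set (Om S) := {p | a <+: p}

end Crest.Agent.R185.T4
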