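import Crest.Agent.R185.T4Path

/-!
# Row 185, T4: gluing charts (task R185-T4Glue)

PLAN.  `glue_exists`: `s = some w`: `φ.F = ψ.F \ {w}`, `φ.r a b := ψ.r a b ∨ ∃ i u, a = s w i :: u ∧ (lam (s w i)).r u b`.  `s = none`: `φ.F = ψ.F`,
`φ.r a b := (∃ q, shift 1 q = a ∧ ψ.r q b) ∨ ∃ u, a = n 0 :: u ∧ (lam (n 0)).r u b`.  Locality: `Loc.union`, `Loc.comp`, `Loc.inv`, `loc_emb`, `loc_prefix`.
`chart_ext`: a chart is determined by `F`, its root part and its leaves (`mem_set_rootP`).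
`sub_union`: `η = tl φ'`; `sub ψ ⟨[],F_e,j_e⟩ = γ_e • sub φ' π_e` (`Tile.Sub.exists_piece`, `mk_eq_iff`).  On `D (F₁ ∪ F₂)`, with say `j₂ = 0`, injectivity of `φ'` gives
`π₁.b ++ shift π₁.j (γ₁⁻¹ • q) = π₂.b ++ shift (j₁ + π₂.j) (γ₂⁻¹ • q)`, so `emb_rigid` gives equal `b`, `γ`.  Then `ψ = γ • sub φ' ⟨π₂.b, γ⁻¹ • ψ.F, π₂.j⟩`
(for `q ∈ D ψ.F \ D F₂`, `q = s w i :: u` lies in `D F₁` and shifts act trivially).
-/

set_option autoImplicit false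

namespace Crest.Agent.R185.T4

open Pointwise

variable {Γ S : Type} [Group Γ] [MulAction Γ S]

theorem glue_exists {ψ : Chart S} (hψ : IsChart Γ ψ) {s : Option S}
    (hs : ∀ w, s = some w → w ∈ ψ.F) (lam : Ltr S → Chart S)
    (hl : ∀ y ∈ letters s, IsChart Γ (lam y) ∧ (lam y).F = ∅ ∧ Disjoint ψ.im (lam y).im)
    (hd : ∀ y ∈ letters s, ∀ y' ∈ letters s, y ≠ y' → Disjoint (lam y).im (lam y').im) :
    ∃ φ : Chart S, IsChart Γ φ ∧ Ok φ.F s ∧ root φ s = ψ ∧ ∀ y ∈ letters s, leaf φ y = lam y := by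
  obtain ⟨F₀, hF₀, hok, hπ⟩ : ∃ F₀ : Set S, F₀.Finite ∧ Ok F₀ s ∧ (rootP F₀ s).F = ψ.F := by
    cases s with
    | none => exact ⟨ψ.F, hψ.fin, by simp, rfl⟩
    | some w => exact ⟨ψ.F \ {w}, hψ.fin.diff, by simp, by simp [rootP, hs w rfl]⟩
  set π := rootP F₀ s with hπdef
  have hset : ∀ {q b}, ψ.r q b → π.emb q ∈ π.set := fun {q b} h =>
    ⟨q, hπ ▸ hψ.mem_D h, rfl⟩
  have hne : ∀ {q b y u}, ψ.r q b → y ∈ letters s → π.emb q ≠ y :: u := fun {q b y u} h hy =>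
    ((mem_set_rootP _).1 (hset h)).2 y hy u
  refine ⟨⟨F₀, fun a b => (∃ q, π.emb q = a ∧ ψ.r q b) ∨
    ∃ y ∈ letters s, ∃ u, y :: u = a ∧ (lam y).r u b⟩, ⟨hF₀, ?_, ?_, ?_, ?_⟩, hok, ?_, ?_⟩
  · intro a
    constructor
    · rintro ⟨b, ⟨q, rfl, h⟩ | ⟨y, hy, u, rfl, -⟩⟩
      · exact ((mem_set_rootP _).1 (hset h)).1
      · exact hok.mem_D hy u
    · intro ha
      by_cases hc : ∃ y ∈ letters s, ∃ u, a = y :: u
      · obtain ⟨y, hy, u, rfl⟩ := hc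
        obtain ⟨b, hb⟩ := ((hl y hy).1.dom u).2 (by simp [(hl y hy).2.1])
        exact ⟨b, Or.inr ⟨y, hy, u, rfl, hb⟩⟩
      · push Not at hc
        obtain ⟨q, hq, rfl⟩ := (mem_set_rootP (F := F₀) (s := s) a).2 ⟨ha, hc⟩
        obtain ⟨b, hb⟩ := (hψ.dom q).2 (hπ ▸ hq)
        exact ⟨b, Or.inl ⟨q, rfl, hb⟩⟩
  · rintro a b b' (⟨q, rfl, h⟩ | ⟨y, hy, u, rfl, h⟩) (⟨q', he, h'⟩ | ⟨y', hy', u', he, h'⟩)
    · obtain rfl := π.emb_injective he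
      exact hψ.func _ _ _ h h'
    · exact absurd he.symm (hne h hy')
    · exact absurd he (hne h' hy)
    · obtain ⟨rfl, rfl⟩ := List.cons.inj he
      exact (hl _ hy).1.func _ _ _ h h'
  · rintro a a' b (⟨q, rfl, h⟩ | ⟨y, hy, u, rfl, h⟩) (⟨q', rfl, h'⟩ | ⟨y', hy', u', rfl, h'⟩)
    · rw [hψ.inj _ _ _ h h']
    · exact absurd ⟨_, h'⟩ (Set.disjoint_left.1 (hl _ hy').2.2 ⟨_, h⟩)
    · exact absurd ⟨_, h⟩ (Set.disjoint_left.1 (hl _ hy).2.2 ⟨_, h'⟩)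
    · by_cases hyy : y = y'
      · subst hyy
        rw [(hl _ hy).1.inj _ _ _ h h']
      · exact absurd ⟨_, h'⟩ (Set.disjoint_left.1 (hd _ hy _ hy' hyy) ⟨_, h⟩)
  · refine Loc.union ?_ ?_
    · exact ((loc_emb π.b π.j (1 : Γ)).inv.comp hψ.loc (by rintro x x' y rfl rfl; rfl)
        hψ.func).congr (by simp [Piece.emb])
    · have : Finite {y // y ∈ letters s} := List.finite_toSet (letters s)
      refine (Loc.iUnion (ι := {y // y ∈ letters s})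
        (ρ := fun y a b => ∃ u, [y.1] ++ u = a ∧ (lam y.1).r u b) fun y =>
          (loc_prefix [y.1]).inv.comp (hl y.1 y.2).1.loc (by rintro x x' y rfl rfl; rfl)
            (hl y.1 y.2).1.func).congr ?_
      intro a b
      simp
  · ext q c
    · exact Set.ext_iff.1 hπ q
    · simp only [root, sub_r]
      constructor
      · rintro ⟨hq, ⟨q', he, h⟩ | ⟨y, hy, u, he, -⟩⟩
        · rwa [← π.emb_injective he]
        · exact absurd he.symm (((mem_set_rootP _).1 ⟨q, hq, rfl⟩).2 y hy u)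
      · exact fun h => ⟨hπ ▸ hψ.mem_D h, Or.inl ⟨q, rfl, h⟩⟩
  · intro y hy
    ext u c
    · simp [(hl y hy).2.1]
    · rw [leaf_r]
      constructor
      · rintro (⟨q, he, h⟩ | ⟨y', -, u', he, h⟩)
        · exact absurd he (hne h hy)
        · obtain ⟨rfl, rfl⟩ := List.cons.inj he
          exact h
      · exact fun h => Or.inr ⟨y, hy, u, rfl, h⟩

theorem chart_ext {φ φ' : Chart S} (hφ : IsChart Γ φ) (hφ' : IsChart Γ φ') {s : Option S}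
    (hF : φ.F = φ'.F) (hr : root φ s = root φ' s) (hl : ∀ y ∈ letters s, leaf φ y = leaf φ' y) :
    φ = φ' := by
  have key : ∀ {φ φ' : Chart S}, IsChart Γ φ → φ.F = φ'.F → root φ s = root φ' s →
      (∀ y ∈ letters s, leaf φ y = leaf φ' y) → ∀ a b, φ.r a b → φ'.r a b := by
    intro φ φ' hφ hF hr hl a b h
    by_cases hc : ∃ y ∈ letters s, ∃ u, a = y :: u
    · obtain ⟨y, hy, u, rfl⟩ := hc
      rw [← leaf_r] at h ⊢
      rwa [← hl y hy]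
    · push Not at hc
      obtain ⟨q, hq, rfl⟩ := (mem_set_rootP (F := φ.F) (s := s) a).2 ⟨hφ.mem_D h, hc⟩
      have : (root φ s).r q b := ⟨hq, h⟩
      rw [hr] at this
      rw [hF]
      exact this.2
  ext a b
  · rw [hF]
  · exact ⟨key hφ hF hr hl a b, key hφ' hF.symm hr.symm (fun y hy => (hl y hy).symm) a b⟩

theorem sub_union_aux [Hyp Γ S] {ψ : Chart S} (hψ : IsChart Γ ψ) {F₁ F₂ : Set S} {j₁ : ℕ}
    (h₁ : ψ.F ⊆ F₁) (h₂ : ψ.F ⊆ F₂) (h₁₂ : F₁ ∩ F₂ ⊆ ψ.F) {η : Tile Γ S}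
    (s₁ : (tl Γ (sub ψ ⟨[], F₁, j₁⟩)).Sub η) (s₂ : (tl Γ (sub ψ ⟨[], F₂, 0⟩)).Sub η) :
    (tl Γ ψ).Sub η := by
  have hη : IsChart Γ η.rep := s₁.valid_right
  rw [← η.mk_rep] at s₁ s₂ ⊢
  set φ := η.rep
  obtain ⟨π₁, hπ₁, e₁⟩ := s₁.exists_piece
  obtain ⟨π₂, hπ₂, e₂⟩ := s₂.exists_piece
  obtain ⟨γ₁, e₁⟩ := mk_eq_iff.1 e₁
  obtain ⟨γ₂, e₂⟩ := mk_eq_iff.1 e₂
  have r₁ : ∀ q c, q ∈ D F₁ → ψ.r (shift j₁ q) c → γ₁ • q ∈ D π₁.F ∧ φ.r (π₁.emb (γ₁ • q)) c := by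
    intro q c hq h
    rw [← sub_r, ← e₁, smul_r, inv_smul_smul]
    exact ⟨hq, by simpa [Piece.emb] using h⟩
  have r₂ : ∀ q c, q ∈ D F₂ → ψ.r q c → γ₂ • q ∈ D π₂.F ∧ φ.r (π₂.emb (γ₂ • q)) c := by
    intro q c hq h
    rw [← sub_r, ← e₂, smul_r, inv_smul_smul]
    exact ⟨hq, by simpa [Piece.emb] using h⟩
  have key : ∀ q ∈ D (F₁ ∪ F₂),
      π₁.b ++ shift π₁.j (γ₁ • q) = π₂.b ++ shift (j₁ + π₂.j) (γ₂ • q) := by
    intro q hq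
    have q1 : q ∈ D F₁ := D_anti Set.subset_union_left hq
    have q2 : q ∈ D F₂ := D_anti Set.subset_union_right hq
    obtain ⟨c, hc⟩ := (hψ.dom (shift j₁ q)).2 (by simpa using D_anti h₁ q1)
    have := hη.inj _ _ _ (r₁ q c q1 hc).2 (r₂ _ c (by simpa using q2) hc).2
    simpa [Piece.emb, shift_shift] using this
  obtain ⟨hb, -, rfl⟩ := emb_rigid key
  have r₃ : ∀ q c, ψ.r q c → φ.r (π₂.b ++ shift π₂.j (γ₁ • q)) c := by
    intro q c h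
    by_cases hq : q ∈ D F₂
    · exact (r₂ q c hq h).2
    · have hqψ := hψ.mem_D h
      rcases q with _ | ⟨⟨w, i⟩ | k, u⟩
      · simp at hq
      · have hw : w ∈ F₂ := by simpa using hq
        have hw1 : w ∉ F₁ := fun h1 => (by simpa using hqψ : w ∉ ψ.F) (h₁₂ ⟨h1, hw⟩)
        have := (r₁ (Ltr.s w i :: u) c (by simpa using hw1) (by simpa using h)).2
        simpa [Piece.emb, hb] using this
      · simp at hq
  have hv : (⟨π₂.b, γ₁ • ψ.F, π₂.j⟩ : Piece S).Valid φ.F := by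
    refine ⟨hψ.fin.smul_set, fun q hq => ?_⟩
    obtain ⟨c, hc⟩ := (hψ.dom (γ₁⁻¹ • q)).2 ((mem_D_smul _ _ _).1 hq)
    simpa [Piece.emb] using hη.mem_D (r₃ _ c hc)
  have he : γ₁ • ψ = sub φ ⟨π₂.b, γ₁ • ψ.F, π₂.j⟩ := by
    ext q c
    · rfl
    · rw [smul_r, sub_r]
      constructor
      · intro h
        exact ⟨(mem_D_smul _ _ _).2 (hψ.mem_D h), by simpa [Piece.emb] using r₃ _ c h⟩
      · rintro ⟨hq, h⟩
        obtain ⟨c', hc'⟩ := (hψ.dom (γ₁⁻¹ • q)).2 ((mem_D_smul _ _ _).1 hq)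
        have := r₃ _ c' hc'
        rw [smul_inv_smul] at this
        rwa [hη.func _ _ _ h this]
  rw [← mk_smul γ₁ ψ, he]
  exact Tile.sub_mk hη hv

theorem sub_union [Hyp Γ S] {ψ : Chart S} (hψ : IsChart Γ ψ) {F₁ F₂ : Set S} {j₁ j₂ : ℕ}
    (h₁ : ψ.F ⊆ F₁) (h₂ : ψ.F ⊆ F₂) (h₁₂ : F₁ ∩ F₂ ⊆ ψ.F) (hj : j₁ = 0 ∨ j₂ = 0) {η : Tile Γ S}
    (s₁ : (tl Γ (sub ψ ⟨[], F₁, j₁⟩)).Sub η) (s₂ : (tl Γ (sub ψ ⟨[], F₂, j₂⟩)).Sub η) :
    (tl Γ ψ).Sub η := by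
  rcases hj with rfl | rfl
  · exact sub_union_aux hψ h₂ h₁ (by rwa [Set.inter_comm]) s₂ s₁
  · exact sub_union_aux hψ h₁ h₂ h₁₂ s₁ s₂

end Crest.Agent.R185.T4
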