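import Crest.Agent.R185.T4HiDef

/-!
# Row 185, T4: acyclic carriers (task R185-T4HiA)

PLAN.  `acyc_cone`: a cycle `z` is `bd (cone x z)` (`bd_cone`).
`acyc_dom`: (1) build a chain map `ρ : List V → chains` on the lists of `K` of length `≤ k+2`:
`ρ [] = single [] 1`, `bd (ρ l) = ext ρ (bdL l)`, support of `ρ l` in `Φ l`, same length as `l`.
(Induction on the length bound `n`: given `ρ` good on lengths `≤ n`, for `l ∈ K` of length `n+1`
the chain `ext ρ (bdL l)` is a cycle (`bd (ext ρ z) = ext ρ (bd z)` for `z` supported on good lists,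
`bd_bdL`) supported in `Φ l` on lists of length `n ≤ k+1`; fill it by `Acyc (Φ l) k`; `choose`.)
(2) build `h` on the lists of `K'` of length `≤ k+1`: `h [] = 0`,
`bd (h l) + ext h (bdL l) = single l 1 - ρ (l.map lam)`, support in `Ψ l`, length `+1`
(use `push_bdL`: `ext ρ (bdL (l.map lam)) = ext ρ (push lam (bdL l))`).
(3) a cycle `z` of `K'`: `push lam z` is a cycle of `K`, `= bd y`; `z = bd (ext h z + ext ρ y)`.
-/

set_option autoImplicit false

namespace Crest.Agent.R185.T4

variable {V W : Type}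

theorem acyc_cone (K : Set (List V)) (k : ℕ) (x : V)
    (h : ∀ m ∈ K, m.length ≤ k + 1 → x :: m ∈ K) : Acyc K k := by
  intro n hn z hz hb
  refine ⟨cone x z, fun m hm => ?_, by rw [bd_cone, hb, map_zero, sub_zero]⟩
  obtain ⟨l, hl, rfl⟩ := mem_support_cone hm
  obtain ⟨h1, h2⟩ := hz l hl
  exact ⟨h l h1 (by omega), by simp [h2]⟩

theorem exists_len_rec {X : Type} [Nonempty X] (R : List V → X → (List V → X) → Prop)
    (hcongr : ∀ l y α β, (∀ m : List V, m.length < l.length → α m = β m) → R l y α → R l y β)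
    (K : Set (List V)) (N : ℕ)
    (step : ∀ α, ∀ l ∈ K, l.length ≤ N →
      (∀ l' ∈ K, l'.length < l.length → R l' (α l') α) → ∃ y, R l y α) :
    ∃ α : List V → X, ∀ l ∈ K, l.length ≤ N → R l (α l) α := by
  have key : ∀ n ≤ N + 1, ∃ α : List V → X, ∀ l ∈ K, l.length < n → R l (α l) α := by
    intro n
    induction n with
    | zero => exact fun _ => ⟨fun _ => Classical.arbitrary X, fun l _ h => absurd h (by omega)⟩
    | succ n ih =>
      intro hn
      obtain ⟨α, hα⟩ := ih (by omega)
      have : ∀ l ∈ K, l.length = n → ∃ y, R l y α := fun l hl h =>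
        step α l hl (by omega) fun l' hl' h' => hα l' hl' (by omega)
      choose! y hy using this
      refine ⟨fun l => if l.length = n then y l else α l, fun l hl h => ?_⟩
      refine hcongr l _ α _ (fun m hm => (if_neg (by omega)).symm) ?_
      by_cases h1 : l.length = n
      · simpa only [if_pos h1] using hy l hl h1
      · simpa only [if_neg h1] using hα l hl (by omega)
  obtain ⟨α, hα⟩ := key (N + 1) le_rfl
  exact ⟨α, fun l hl h => hα l hl (by omega)⟩

theorem lin_congr {X : Type} [AddCommGroup X] {f g : (List V →₀ ℤ) →ₗ[ℤ] X} {z : List V →₀ ℤ}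
    (h : ∀ m ∈ z.support, f (Finsupp.single m 1) = g (Finsupp.single m 1)) : f z = g z := by
  rw [← Finsupp.sum_single z, Finsupp.sum, map_sum, map_sum]
  refine Finset.sum_congr rfl fun m hm => ?_
  rw [← mul_one (z m), ← smul_eq_mul, ← Finsupp.smul_single, map_smul, map_smul, h m hm]

theorem ext_bdL_congr {α β : List V → (List W →₀ ℤ)} {l : List V}
    (h : ∀ m : List V, m.length < l.length → α m = β m) : ext α (bdL l) = ext β (bdL l) :=
  lin_congr fun m hm => by
    have := (mem_support_bdL hm).2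
    simp [h m (by omega)]

theorem acyc_dom {K : Set (List V)} {K' : Set (List W)} {lam : W → V}
    {Φ : List V → Set (List W)} {Ψ : List W → Set (List W)} (D : Dom K K' lam Φ Ψ) (k : ℕ)
    (hΦ : ∀ l ∈ K, l ≠ [] → l.length ≤ k + 2 → Acyc (Φ l) k)
    (hΨ : ∀ l ∈ K', l ≠ [] → l.length ≤ k + 1 → Acyc (Ψ l) k)
    (hK : Acyc K k) : Acyc K' k := by
  classical
  obtain ⟨ρ, hρ⟩ := exists_len_rec (X := List W →₀ ℤ)
    (fun l y α => (l = [] → y = Finsupp.single [] 1) ∧
      (∀ m ∈ y.support, m ∈ Φ l ∧ m.length = l.length) ∧ bd y = ext α (bdL l))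
    (fun l y α β h h' => ⟨h'.1, h'.2.1, h'.2.2.trans (ext_bdL_congr h)⟩) K (k + 2) (by
      intro α l hl hlen ih
      by_cases h0 : l = []
      · subst h0
        refine ⟨Finsupp.single [] 1, fun _ => rfl, fun m hm => ?_, by simp⟩
        obtain rfl := Finset.mem_singleton.1 (Finsupp.support_single_subset hm)
        exact ⟨D.Φnil, rfl⟩
      · have hpos : 0 < l.length := List.length_pos_iff.2 h0
        obtain ⟨y, hy1, hy2⟩ := hΦ l hl h0 hlen (l.length - 1) (by omega) (ext α (bdL l)) (by
          intro m hm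
          obtain ⟨l', hl', hm'⟩ := mem_support_ext hm
          obtain ⟨h1, h2⟩ := mem_support_bdL hl'
          obtain ⟨h3, h4⟩ := (ih l' (D.subK l hl l' h1) (by omega)).2.1 m hm'
          exact ⟨D.Φmono l hl l' h1 h3, by omega⟩) (by
          have : (bd ∘ₗ ext α) (bdL l) = (ext α ∘ₗ bd) (bdL l) := lin_congr fun m hm => by
            obtain ⟨h1, h2⟩ := mem_support_bdL hm
            simpa using (ih m (D.subK l hl m h1) (by omega)).2.2
          simpa [bd_bdL] using this)
        exact ⟨y, fun h => absurd h h0, fun m hm => ⟨(hy1 m hm).1, by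
          have := (hy1 m hm).2
          omega⟩, hy2⟩)
  have hρbd : ∀ z : List V →₀ ℤ, (∀ m ∈ z.support, m ∈ K ∧ m.length ≤ k + 2) →
      bd (ext ρ z) = ext ρ (bd z) := fun z hz =>
    lin_congr (f := bd ∘ₗ ext ρ) (g := ext ρ ∘ₗ bd) fun m hm => by
      simpa using (hρ m (hz m hm).1 (hz m hm).2).2.2
  obtain ⟨h, hh⟩ := exists_len_rec (X := List W →₀ ℤ)
    (fun l y α => (∀ m ∈ y.support, m ∈ Ψ l ∧ m.length = l.length + 1) ∧
      bd y = Finsupp.single l 1 - ρ (l.map lam) - ext α (bdL l))
    (fun l y α β h h' => ⟨h'.1, by rw [h'.2, ext_bdL_congr h]⟩) K' (k + 1) (by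
      intro α l hl hlen ih
      by_cases h0 : l = []
      · subst h0
        refine ⟨0, by simp, ?_⟩
        have := (hρ [] (D.map [] hl) (by simp)).1 rfl
        simp [this]
      · have hm := hρ _ (D.map l hl) (by simp; omega)
        refine hΨ l hl h0 hlen l.length hlen _ ?_ ?_
        · intro m hm'
          rcases Finset.mem_union.1 (Finsupp.support_sub hm') with h1 | h1
          · rcases Finset.mem_union.1 (Finsupp.support_sub h1) with h2 | h2
            · obtain rfl := Finset.mem_singleton.1 (Finsupp.support_single_subset h2)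
              exact ⟨D.Ψself _ hl, rfl⟩
            · obtain ⟨h3, h4⟩ := hm.2.1 m h2
              exact ⟨D.ΦΨ l hl h0 h3, by simpa using h4⟩
          · obtain ⟨l', hl', hm''⟩ := mem_support_ext h1
            obtain ⟨h2, h3⟩ := mem_support_bdL hl'
            obtain ⟨h4, h5⟩ := (ih l' (D.subK' l hl l' h2) (by omega)).1 m hm''
            exact ⟨D.Ψmono l hl l' h2 h4, by omega⟩
        · have : (bd ∘ₗ ext α) (bdL l) =
              (LinearMap.id - ext ρ ∘ₗ push lam - ext α ∘ₗ bd : _ →ₗ[ℤ] _) (bdL l) :=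
            lin_congr fun m hm => by
              obtain ⟨h1, h2⟩ := mem_support_bdL hm
              simpa using (ih m (D.subK' l hl m h1) (by omega)).2
          simp only [LinearMap.comp_apply, LinearMap.sub_apply, LinearMap.id_apply, bd_bdL,
            map_zero, sub_zero, push_bdL] at this
          rw [map_sub, map_sub, this, hm.2.2]
          simp)
  intro n hn z hz hb
  obtain ⟨y, hy1, hy2⟩ := hK n hn (push lam z) (by
    intro m hm
    obtain ⟨l, hl, rfl⟩ := mem_support_push hm
    exact ⟨D.map l (hz l hl).1, by simpa using (hz l hl).2⟩) (by rw [← push_bd, hb, map_zero])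
  refine ⟨ext h z + ext ρ y, fun m hm => ?_, ?_⟩
  · rcases Finset.mem_union.1 (Finsupp.support_add hm) with h1 | h1
    · obtain ⟨l, hl, hm'⟩ := mem_support_ext h1
      obtain ⟨h2, h3⟩ := hz l hl
      obtain ⟨h4, h5⟩ := (hh l h2 (by omega)).1 m hm'
      exact ⟨D.ΨK l h2 h4, by omega⟩
    · obtain ⟨l, hl, hm'⟩ := mem_support_ext h1
      obtain ⟨h2, h3⟩ := hy1 l hl
      obtain ⟨h4, h5⟩ := (hρ l h2 (by omega)).2.1 m hm'
      exact ⟨D.ΦK l h2 h4, by omega⟩
  · have : (bd ∘ₗ ext h) z = 
        (LinearMap.id - ext ρ ∘ₗ push lam - ext h ∘ₗ bd : _ →ₗ[ℤ] _) z :=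
      lin_congr fun m hm => by
        obtain ⟨h1, h2⟩ := hz m hm
        simpa using (hh m h1 (by omega)).2
    simp only [LinearMap.comp_apply, LinearMap.sub_apply, LinearMap.id_apply, hb,
      map_zero, sub_zero] at this
    rw [map_add, this, hρbd y fun m hm => ⟨(hy1 m hm).1, by have := (hy1 m hm).2; omega⟩, hy2,
      sub_add_cancel]

end Crest.Agent.R185.T4
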