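import Crest.Agent.R185.T4Match

/-!
# Row 185, T4: leaf swaps and leaf labels die (task R185-T4KillA)

`Room N`: two elements fixing the image of a chart pointwise commute modulo `N`.  Work in the quotient `π : GG → GG ⧸ N`: if `s`, `x` fix `β.im` pointwise then
`π (s * x * s⁻¹) = π x`.  An element is determined by its action on charts covering its support (`IsChart.gsmul_eq_iff`, `GG.ext'`): `IsSwap`/`IsLab` determine `g`
(`IsSwap.unique`, `IsLab.unique`), conjugates of swaps/labels are swaps/labels (`IsSwap.conj`, `IsLab.conj`).  For a chart `ω` write `ω* = root ω none` (same `F`) and `ω₀ = leaf ω (n 0)`;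
`ω.im = ω*.im ⊔ ω₀.im` (`IsChart.mem_im_iff`); a swap of `ω, ω'` is the product of the swaps of `ω*, ω'*` and `ω₀, ω'₀` (`gsmul_root`, `gsmul_leaf`), a label of `ω` is the product of the labels of `ω*`, `ω₀`
(`smul_root`, `smul_leaf`).
* `dec`: induction on the finite family `A`: pick `t ∈ A`, `φ = t.rep`, `ψ = g • φ`; if `tl ψ = t` correct `g` by a label, else by the swap of `φ, ψ`; the corrected element fixes `φ.im` pointwise and permutes `A.erase t`.
* `leaf_swap_mem`: first with room (`α, α'` leaves (`F = ∅`), `β` a chart disjoint from both): let `β₁, β₂, β₃ = leaf β (n 0), leaf β (n 1), leaf β (n 2)`; any swap of two disjoint leaves disjoint from `β` has the same image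
  `x` as the swap of `β₁, β₂` (conjugate by swaps with `β₁`, then `β₂`; everything fixes `β₃.im`); `sw(α,α') = sw(α*,α'*) sw(α₀,α'₀)` gives `x = x * x`.  In general `sw(ω,ω') = sw(ω*,ω'*) sw(ω₀,ω'₀)`, both with room.
* `leaf_lab_mem`: with room `β`: all labels `γ` of leaves disjoint from `β` have the same image as the label of `β₁`; `lab(α) = lab(α*) lab(α₀)`.  In general `lab(ω) = lab(ω*) lab(ω₀)`, both with room.
-/

set_option autoImplicit false

namespace Crest.Agent.R185.T4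

open Pointwise

variable {Γ S : Type} [Group Γ] [MulAction Γ S]

def Room (N : Subgroup (GG Γ S)) : Prop :=
  ∀ β : Chart S, IsChart Γ β → ∀ x s : GG Γ S, (∀ p ∈ β.im, x • p = p) → (∀ p ∈ β.im, s • p = p) →
    s * x * s⁻¹ * x⁻¹ ∈ N

theorem IsSwap.unique {g g' : GG Γ S} {φ ψ : Chart S} (hφ : IsChart Γ φ) (hψ : IsChart Γ ψ)
    (h : IsSwap g φ ψ) (h' : IsSwap g' φ ψ) : g = g' := by
  refine GG.ext' fun p => ?_
  by_cases h1 : p ∈ φ.im
  · exact hφ.gsmul_eq_iff.1 (h.1.trans h'.1.symm) p h1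
  by_cases h2 : p ∈ ψ.im
  · exact hψ.gsmul_eq_iff.1 (h.2.1.trans h'.2.1.symm) p h2
  rw [h.2.2 p h1 h2, h'.2.2 p h1 h2]

theorem IsLab.unique {g g' : GG Γ S} {φ : Chart S} {γ : Γ} (hφ : IsChart Γ φ)
    (h : IsLab g φ γ) (h' : IsLab g' φ γ) : g = g' := by
  refine GG.ext' fun p => ?_
  by_cases h1 : p ∈ φ.im
  · exact hφ.gsmul_eq_iff.1 (h.1.trans h'.1.symm) p h1
  rw [h.2 p h1, h'.2 p h1]

theorem IsSwap.conj {g : GG Γ S} {φ ψ : Chart S} (h : IsSwap g φ ψ) (s : GG Γ S) :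
    IsSwap (s * g * s⁻¹) (s • φ) (s • ψ) := by
  refine ⟨by simp [mul_smul, h.1], by simp [mul_smul, h.2.1], fun p h1 h2 => ?_⟩
  rw [mul_smul, mul_smul, h.2.2 _ h1 h2, smul_inv_smul]

theorem IsLab.conj {g : GG Γ S} {φ : Chart S} {γ : Γ} (h : IsLab g φ γ) (s : GG Γ S) :
    IsLab (s * g * s⁻¹) (s • φ) γ := by
  refine ⟨?_, fun p h1 => ?_⟩
  · rw [mul_smul, mul_smul, inv_smul_smul, h.1, gsmul_smul]
  · rw [mul_smul, mul_smul, h.2 _ h1, smul_inv_smul]

theorem IsSwap.symm {g : GG Γ S} {φ ψ : Chart S} (h : IsSwap g φ ψ) : IsSwap g ψ φ :=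
  ⟨h.2.1, h.1, fun p h1 h2 => h.2.2 p h2 h1⟩

theorem IsSwap.fix_pt {g : GG Γ S} {φ ψ : Chart S} (h : IsSwap g φ ψ) {U : Set (Om S)}
    (d1 : Disjoint U φ.im) (d2 : Disjoint U ψ.im) : ∀ p ∈ U, g • p = p := fun p hp =>
  h.2.2 p (Set.disjoint_left.1 d1 hp) (Set.disjoint_left.1 d2 hp)

theorem IsSwap.fix {g : GG Γ S} {φ ψ χ : Chart S} (h : IsSwap g φ ψ)
    (d1 : Disjoint χ.im φ.im) (d2 : Disjoint χ.im ψ.im) : g • χ = χ :=
  gsmul_eq_of_fix (h.fix_pt d1 d2)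

theorem IsLab.fix_pt {g : GG Γ S} {φ : Chart S} {γ : Γ} (h : IsLab g φ γ) {U : Set (Om S)}
    (d1 : Disjoint U φ.im) : ∀ p ∈ U, g • p = p := fun p hp =>
  h.2 p (Set.disjoint_left.1 d1 hp)

theorem IsLab.fix {g : GG Γ S} {φ χ : Chart S} {γ : Γ} (h : IsLab g φ γ)
    (d1 : Disjoint χ.im φ.im) : g • χ = χ :=
  gsmul_eq_of_fix (h.fix_pt d1)

theorem inv_fix_pt {g : GG Γ S} {p : Om S} (h : g • p = p) : g⁻¹ • p = p := by
  rw [inv_smul_eq_iff, h]

/-- An element permuting a finite disjoint family of tiles (identity elsewhere) is a product of swaps and labels of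
charts of the family. -/
theorem dec (N : Subgroup (GG Γ S)) (A : Finset (Tile Γ S)) (hA : ∀ t ∈ A, t.Valid)
    (hd : ∀ t ∈ A, ∀ t' ∈ A, t ≠ t' → Disjoint t.im t'.im)
    (hsw : ∀ g φ ψ, tl Γ φ ∈ A → tl Γ ψ ∈ A → tl Γ φ ≠ tl Γ ψ → φ.F = ψ.F → IsSwap g φ ψ → g ∈ N)
    (hlab : ∀ g φ γ, tl Γ φ ∈ A → γ • φ.F = φ.F → IsLab g φ γ → g ∈ N)
    (g : GG Γ S) (hg : ∀ t ∈ A, g • t ∈ A) (hfix : ∀ p : Om S, (∀ t ∈ A, p ∉ t.im) → g • p = p) :
    g ∈ N := by
  induction A using Finset.induction_on generalizing g with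
  | empty =>
    have : g = 1 := GG.ext' fun p => by rw [hfix p (by simp), one_smul]
    rw [this]; exact N.one_mem
  | insert t A htA ih =>
    obtain ⟨φ, rfl⟩ := t.exists_mk
    have hm : tl Γ φ ∈ insert (tl Γ φ) A := Finset.mem_insert_self _ _
    have hφ : IsChart Γ φ := by simpa using hA _ hm
    have hm' : tl Γ (g • φ) ∈ insert (tl Γ φ) A := by simpa using hg _ hm
    obtain ⟨s, hsN, hs1, hs2, hs3⟩ : ∃ s ∈ N, s • φ = g • φ ∧
        (∀ t' ∈ insert (tl Γ φ) A, s⁻¹ • t' ∈ insert (tl Γ φ) A) ∧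
        ∀ p : Om S, (∀ t' ∈ insert (tl Γ φ) A, p ∉ t'.im) → s • p = p := by
      by_cases he : tl Γ φ = tl Γ (g • φ)
      · obtain ⟨γ, hγ⟩ := mk_eq_iff.1 he
        have hF : γ • φ.F = φ.F := by simpa using congrArg Chart.F hγ
        obtain ⟨s, hs⟩ := lab_exists hφ hF
        refine ⟨s, hlab s φ γ hm hF hs, hs.1.trans hγ, fun t' ht' => ?_, fun p hp => ?_⟩
        · by_cases h1 : t' = tl Γ φ
          · subst h1
            have : s • tl Γ φ = tl Γ φ := by rw [gsmul_mk, hs.1, mk_smul]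
            rw [← this, inv_smul_smul, this]; exact hm
          · rw [Tile.gsmul_eq_of_fix fun p hp => inv_fix_pt
              (hs.fix_pt (by simpa using hd _ ht' _ hm h1) p hp)]
            exact ht'
        · exact hs.2 p (by simpa using hp _ hm)
      · obtain ⟨s, hs⟩ := swap_exists hφ (hφ.gsmul g) rfl (by simpa using hd _ hm _ hm' he)
        refine ⟨s, hsw s φ _ hm hm' he rfl hs, hs.1, fun t' ht' => ?_, fun p hp => ?_⟩
        · by_cases h1 : t' = tl Γ φ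
          · subst h1
            have : s • tl Γ (g • φ) = tl Γ φ := by rw [gsmul_mk, hs.2.1]
            rw [show s⁻¹ • tl Γ φ = tl Γ (g • φ) from inv_smul_eq_iff.2 this.symm]
            exact hm'
          by_cases h2 : t' = tl Γ (g • φ)
          · subst h2
            have : s • tl Γ φ = tl Γ (g • φ) := by rw [gsmul_mk, hs.1]
            rw [show s⁻¹ • tl Γ (g • φ) = tl Γ φ from inv_smul_eq_iff.2 this.symm]
            exact hm
          · rw [Tile.gsmul_eq_of_fix fun p hp => inv_fix_pt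
              (hs.fix_pt (by simpa using hd _ ht' _ hm h1) (by simpa using hd _ ht' _ hm' h2) p hp)]
            exact ht'
        · exact hs.2.2 p (by simpa using hp _ hm) (by simpa using hp _ hm')
    have hφfix : (s⁻¹ * g) • φ = φ := by rw [mul_smul, ← hs1, inv_smul_smul]
    have key : s⁻¹ * g ∈ N := by
      refine ih (fun t ht => hA t (Finset.mem_insert_of_mem ht))
        (fun t ht t' ht' => hd t (Finset.mem_insert_of_mem ht) t' (Finset.mem_insert_of_mem ht'))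
        (fun g φ ψ h1 h2 => hsw g φ ψ (Finset.mem_insert_of_mem h1) (Finset.mem_insert_of_mem h2))
        (fun g φ γ h1 => hlab g φ γ (Finset.mem_insert_of_mem h1)) _ (fun t ht => ?_)
        (fun p hp => ?_)
      · have h1 : (s⁻¹ * g) • t ∈ insert (tl Γ φ) A := by
          rw [mul_smul]; exact hs2 _ (hg _ (Finset.mem_insert_of_mem ht))
        refine (Finset.mem_insert.1 h1).resolve_left fun he => htA ?_
        have h2 : (s⁻¹ * g) • tl Γ φ = tl Γ φ := by rw [gsmul_mk, hφfix]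
        rw [← h2, smul_left_cancel_iff] at he
        exact he ▸ ht
      · by_cases h1 : p ∈ φ.im
        · exact hφ.fix_of_gsmul_eq hφfix p h1
        · have h2 : ∀ t' ∈ insert (tl Γ φ) A, p ∉ t'.im := fun t' ht' => by
            rcases Finset.mem_insert.1 ht' with rfl | h
            · simpa using h1
            · exact hp _ h
          rw [mul_smul, hfix p h2, inv_fix_pt (hs3 p h2)]
    simpa using N.mul_mem hsN key

/-! ### splitting at the star slot -/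

theorem n_mem_letters : (Ltr.n 0 : Ltr S) ∈ letters (none : Option S) := by simp [letters]

theorem IsChart.leafn {φ : Chart S} (h : IsChart Γ φ) (k : ℕ) : IsChart Γ (T4.leaf φ (Ltr.n k)) :=
  h.leaf (by simp)

theorem im_root_subset (φ : Chart S) (s : Option S) : (root φ s).im ⊆ φ.im := im_sub_subset _ _
theorem im_leaf_subset (φ : Chart S) (y : Ltr S) : (leaf φ y).im ⊆ φ.im := im_sub_subset _ _

theorem IsChart.disj_leafn {φ : Chart S} (h : IsChart Γ φ) {k l : ℕ} (hkl : k ≠ l) :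
    Disjoint (T4.leaf φ (Ltr.n k)).im (T4.leaf φ (Ltr.n l)).im :=
  h.disjoint_leaf_leaf (by simpa using hkl)

theorem IsChart.mem_im_star {φ : Chart S} (h : IsChart Γ φ) (p : Om S) :
    p ∈ φ.im ↔ p ∈ (T4.root φ none).im ∨ p ∈ (T4.leaf φ (Ltr.n 0)).im := by
  rw [h.mem_im_iff none]; simp [letters]

theorem IsSwap.split {g g₁ g₀ : GG Γ S} {φ ψ : Chart S} (hφ : IsChart Γ φ) (hψ : IsChart Γ ψ)
    (hd : Disjoint φ.im ψ.im) (h : IsSwap g φ ψ) (h₁ : IsSwap g₁ (root φ none) (root ψ none))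
    (h₀ : IsSwap g₀ (leaf φ (Ltr.n 0)) (leaf ψ (Ltr.n 0))) : g = g₁ * g₀ := by
  have key : ∀ {φ ψ : Chart S}, IsChart Γ φ → IsChart Γ ψ → Disjoint φ.im ψ.im → IsSwap g φ ψ →
      IsSwap g₁ (root φ none) (root ψ none) → IsSwap g₀ (leaf φ (Ltr.n 0)) (leaf ψ (Ltr.n 0)) →
      ∀ p ∈ φ.im, g • p = (g₁ * g₀) • p := by
    intro φ ψ hφ hψ hd h h₁ h₀ p hp
    rcases (hφ.mem_im_star p).1 hp with hp | hp
    · refine (hφ.root none).gsmul_eq_iff.1 ?_ p hp
      rw [mul_smul, h₀.fix (hφ.disjoint_root_leaf n_mem_letters)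
        (hd.mono (im_root_subset _ _) (im_leaf_subset _ _)), h₁.1, gsmul_root, h.1]
    · refine (hφ.leafn 0).gsmul_eq_iff.1 ?_ p hp
      rw [mul_smul, h₀.1, h₁.fix (hd.symm.mono (im_leaf_subset _ _) (im_root_subset _ _))
        (hψ.disjoint_root_leaf n_mem_letters).symm, gsmul_leaf, h.1]
  refine GG.ext' fun p => ?_
  by_cases h1 : p ∈ φ.im
  · exact key hφ hψ hd h h₁ h₀ p h1
  by_cases h2 : p ∈ ψ.im
  · exact key hψ hφ hd.symm h.symm h₁.symm h₀.symm p h2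
  rw [h.2.2 p h1 h2, mul_smul, h₀.2.2 p (fun h => h1 (im_leaf_subset _ _ h))
    (fun h => h2 (im_leaf_subset _ _ h)), h₁.2.2 p (fun h => h1 (im_root_subset _ _ h))
    (fun h => h2 (im_root_subset _ _ h))]

theorem smul_root_none (γ : Γ) (φ : Chart S) : γ • root φ none = root (γ • φ) none :=
  smul_root γ φ none

theorem smul_leaf_n (γ : Γ) (φ : Chart S) (k : ℕ) :
    γ • leaf φ (Ltr.n k) = leaf (γ • φ) (Ltr.n k) := smul_leaf γ φ _

theorem IsLab.split {g g₁ g₀ : GG Γ S} {φ : Chart S} {γ : Γ} (hφ : IsChart Γ φ)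
    (h : IsLab g φ γ) (h₁ : IsLab g₁ (root φ none) γ)
    (h₀ : IsLab g₀ (leaf φ (Ltr.n 0)) γ) : g = g₁ * g₀ := by
  refine GG.ext' fun p => ?_
  by_cases hp : p ∈ φ.im
  · rcases (hφ.mem_im_star p).1 hp with hp | hp
    · refine (hφ.root none).gsmul_eq_iff.1 ?_ p hp
      rw [mul_smul, h₀.fix (hφ.disjoint_root_leaf n_mem_letters), h₁.1, gsmul_root, h.1,
        smul_root_none]
    · refine (hφ.leafn 0).gsmul_eq_iff.1 ?_ p hp
      rw [mul_smul, h₀.1, gsmul_smul, h₁.fix (hφ.disjoint_root_leaf n_mem_letters).symm,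
        gsmul_leaf, h.1, smul_leaf_n]
  · rw [h.2 p hp, mul_smul, h₀.2 p (fun h => hp (im_leaf_subset _ _ h)),
      h₁.2 p (fun h => hp (im_root_subset _ _ h))]

theorem mem_of_sq (N : Subgroup (GG Γ S)) [N.Normal] {x g g₁ g₀ : GG Γ S} (he : g = g₁ * g₀)
    (h : x * g⁻¹ ∈ N) (h₁ : x * g₁⁻¹ ∈ N) (h₀ : x * g₀⁻¹ ∈ N) : g ∈ N := by
  rw [← QuotientGroup.eq_one_iff] at *
  simp only [QuotientGroup.mk_mul, QuotientGroup.mk_inv, mul_inv_eq_one] at h h₁ h₀
  have : (g : GG Γ S ⧸ N) = g * g := by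
    conv_lhs => rw [he, QuotientGroup.mk_mul, ← h₁, ← h₀, h]
  simpa using this

/-- all leaf swaps away from `β` are congruent to the swap of the first two star leaves of `β` -/
theorem leaf_swap_congr (N : Subgroup (GG Γ S)) (hR : Room N) {β : Chart S} (hβ : IsChart Γ β)
    {x : GG Γ S} (hx : IsSwap x (leaf β (Ltr.n 0)) (leaf β (Ltr.n 1))) {g : GG Γ S}
    {φ ψ : Chart S} (hφ : IsChart Γ φ) (hψ : IsChart Γ ψ) (hF : φ.F = ∅) (hF' : ψ.F = ∅)
    (hd : Disjoint φ.im ψ.im) (d1 : Disjoint β.im φ.im) (d2 : Disjoint β.im ψ.im)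
    (h : IsSwap g φ ψ) : x * g⁻¹ ∈ N := by
  have e1 : ∀ k, Disjoint (leaf β (Ltr.n k)).im φ.im := fun k => d1.mono_left (im_leaf_subset _ _)
  have e2 : ∀ k, Disjoint (leaf β (Ltr.n k)).im ψ.im := fun k => d2.mono_left (im_leaf_subset _ _)
  obtain ⟨s₁, hs₁⟩ := swap_exists hφ (hβ.leafn 0) hF (e1 0).symm
  obtain ⟨s₂, hs₂⟩ := swap_exists hψ (hβ.leafn 1) hF' (e2 1).symm
  have hc := h.conj (s₂ * s₁)
  rw [mul_smul s₂ s₁ φ, mul_smul s₂ s₁ ψ, hs₁.1, hs₁.fix hd.symm (e2 0).symm, hs₂.1,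
    hs₂.fix (e2 0) (hβ.disj_leafn (by omega))] at hc
  rw [← hc.unique (hβ.leafn 0) (hβ.leafn 1) hx]
  refine hR _ (hβ.leafn 2) g _ (h.fix_pt (e1 2) (e2 2)) fun p hp => ?_
  rw [mul_smul, hs₁.fix_pt (e1 2) (hβ.disj_leafn (by omega)) p hp,
    hs₂.fix_pt (e2 2) (hβ.disj_leafn (by omega)) p hp]

theorem leaf_swap_room (N : Subgroup (GG Γ S)) [N.Normal] (hR : Room N) {β : Chart S}
    (hβ : IsChart Γ β) {g : GG Γ S}
    {φ ψ : Chart S} (hφ : IsChart Γ φ) (hψ : IsChart Γ ψ) (hF : φ.F = ∅) (hF' : ψ.F = ∅)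
    (hd : Disjoint φ.im ψ.im) (d1 : Disjoint β.im φ.im) (d2 : Disjoint β.im ψ.im)
    (h : IsSwap g φ ψ) : g ∈ N := by
  obtain ⟨x, hx⟩ := swap_exists (hβ.leafn 0) (hβ.leafn 1) rfl (hβ.disj_leafn (by omega))
  have dr := hd.mono (im_root_subset φ none) (im_root_subset ψ none)
  have dl := hd.mono (im_leaf_subset φ (Ltr.n 0)) (im_leaf_subset ψ (Ltr.n 0))
  obtain ⟨g₁, h₁⟩ := swap_exists (hφ.root none) (hψ.root none) (by simp [hF, hF']) dr
  obtain ⟨g₀, h₀⟩ := swap_exists (hφ.leafn 0) (hψ.leafn 0) rfl dl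
  exact mem_of_sq N (h.split hφ hψ hd h₁ h₀) (leaf_swap_congr N hR hβ hx hφ hψ hF hF' hd d1 d2 h)
    (leaf_swap_congr N hR hβ hx (hφ.root none) (hψ.root none) hF hF' dr
      (d1.mono_right (im_root_subset _ _)) (d2.mono_right (im_root_subset _ _)) h₁)
    (leaf_swap_congr N hR hβ hx (hφ.leafn 0) (hψ.leafn 0) rfl rfl dl
      (d1.mono_right (im_leaf_subset _ _)) (d2.mono_right (im_leaf_subset _ _)) h₀)

theorem leaf_swap_mem (N : Subgroup (GG Γ S)) [N.Normal] (hR : Room N) {g : GG Γ S}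
    {φ ψ : Chart S} (hφ : IsChart Γ φ) (hψ : IsChart Γ ψ) (hF : φ.F = ∅) (hF' : ψ.F = ∅)
    (hd : Disjoint φ.im ψ.im) (h : IsSwap g φ ψ) : g ∈ N := by
  have dr := hd.mono (im_root_subset φ none) (im_root_subset ψ none)
  have dl := hd.mono (im_leaf_subset φ (Ltr.n 0)) (im_leaf_subset ψ (Ltr.n 0))
  obtain ⟨g₁, h₁⟩ := swap_exists (hφ.root none) (hψ.root none) (by simp [hF, hF']) dr
  obtain ⟨g₀, h₀⟩ := swap_exists (hφ.leafn 0) (hψ.leafn 0) rfl dl
  rw [h.split hφ hψ hd h₁ h₀]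
  exact N.mul_mem
    (leaf_swap_room N hR (hφ.leafn 0) (hφ.root none) (hψ.root none) hF hF' dr
      (hφ.disjoint_root_leaf n_mem_letters).symm
      (hd.mono (im_leaf_subset _ _) (im_root_subset _ _)) h₁)
    (leaf_swap_room N hR (hφ.root none) (hφ.leafn 0) (hψ.leafn 0) rfl rfl dl
      (hφ.disjoint_root_leaf n_mem_letters)
      (hd.mono (im_root_subset _ _) (im_leaf_subset _ _)) h₀)

theorem leaf_lab_congr (N : Subgroup (GG Γ S)) (hR : Room N) {β : Chart S} (hβ : IsChart Γ β)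
    {x : GG Γ S} {γ : Γ} (hx : IsLab x (leaf β (Ltr.n 0)) γ) {g : GG Γ S}
    {φ : Chart S} (hφ : IsChart Γ φ) (hF : φ.F = ∅) (d1 : Disjoint β.im φ.im)
    (h : IsLab g φ γ) : x * g⁻¹ ∈ N := by
  have e1 : ∀ k, Disjoint (leaf β (Ltr.n k)).im φ.im := fun k => d1.mono_left (im_leaf_subset _ _)
  obtain ⟨s, hs⟩ := swap_exists hφ (hβ.leafn 0) hF (e1 0).symm
  have hc := h.conj s
  rw [hs.1] at hc
  rw [← hc.unique (hβ.leafn 0) hx]
  exact hR _ (hβ.leafn 1) g _ (h.fix_pt (e1 1)) (hs.fix_pt (e1 1) (hβ.disj_leafn (by omega)))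

theorem leaf_lab_room (N : Subgroup (GG Γ S)) [N.Normal] (hR : Room N) {β : Chart S}
    (hβ : IsChart Γ β) {g : GG Γ S} {γ : Γ}
    {φ : Chart S} (hφ : IsChart Γ φ) (hF : φ.F = ∅) (d1 : Disjoint β.im φ.im)
    (h : IsLab g φ γ) : g ∈ N := by
  obtain ⟨x, hx⟩ := lab_exists (hβ.leafn 0) (γ := γ) (by simp)
  obtain ⟨g₁, h₁⟩ := lab_exists (hφ.root none) (γ := γ) (by simp [hF])
  obtain ⟨g₀, h₀⟩ := lab_exists (hφ.leafn 0) (γ := γ) (by simp)
  exact mem_of_sq N (h.split hφ h₁ h₀) (leaf_lab_congr N hR hβ hx hφ hF d1 h)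
    (leaf_lab_congr N hR hβ hx (hφ.root none) hF (d1.mono_right (im_root_subset _ _)) h₁)
    (leaf_lab_congr N hR hβ hx (hφ.leafn 0) rfl (d1.mono_right (im_leaf_subset _ _)) h₀)

theorem leaf_lab_mem (N : Subgroup (GG Γ S)) [N.Normal] (hR : Room N) {g : GG Γ S}
    {φ : Chart S} {γ : Γ} (hφ : IsChart Γ φ) (hF : φ.F = ∅) (h : IsLab g φ γ) : g ∈ N := by
  obtain ⟨g₁, h₁⟩ := lab_exists (hφ.root none) (γ := γ) (by simp [hF])
  obtain ⟨g₀, h₀⟩ := lab_exists (hφ.leafn 0) (γ := γ) (by simp)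
  rw [h.split hφ h₁ h₀]
  exact N.mul_mem
    (leaf_lab_room N hR (hφ.leafn 0) (hφ.root none) hF
      (hφ.disjoint_root_leaf n_mem_letters).symm h₁)
    (leaf_lab_room N hR (hφ.root none) (hφ.leafn 0) rfl (hφ.disjoint_root_leaf n_mem_letters) h₀)

end Crest.Agent.R185.T4
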