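import Crest.Agent.R185.T4KillA

/-!
# Row 185, T4: all swaps, labels and stabilisers die (task R185-T4KillB)

PLAN (notation of `T4KillA`; `β|F = sub β ⟨[], F, 0⟩` for a leaf `β`).  `leaf_perm`: `dec` for a family of leaves (`typ = 0`, i.e. `F = ∅`) with `leaf_swap_mem`, `leaf_lab_mem`.
* swap of `φ, ψ` (type `F`) with room, i.e. a chart `β` disjoint from both; `β₁, β₂ = leaf β (n 0), leaf β (n 1)`: conjugating by the swaps `(φ, β₁|F)`, `(ψ, β₂|F)` (`N` is normal) reduce to `g' = sw(β₁|F, β₂|F)`.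
  With `G = sw(β₁, β₂) ∈ N`, the element `g'⁻¹ * G` fixes the images of `β₁|F`, `β₂|F` and permutes the finite family of leaves `tl (leaf β_e (s w i))`, `w ∈ F`, `e = 1, 2`; `leaf_perm`.
  General swap: `sw(φ,ψ) = sw(φ*,ψ*) sw(φ₀,ψ₀)`, the first has room `φ₀`, the second is a leaf swap.
* label `γ` of `φ` with room `β`: conjugate to `g' = lab(β₁|F, γ)`; `G = lab(β₁, γ) ∈ N`; `g'⁻¹ * G` permutes the leaves `tl (leaf β₁ (s w i))`, `w ∈ F` (`γ • F = F`, `smul_leaf`, `gsmul_leaf`: `G • leaf β₁ y = leaf (γ • β₁) y = γ • leaf β₁ (γ⁻¹ • y)`).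
  General label: `lab(φ) = lab(φ*) lab(φ₀)`.
* `kill`: `dec` with `A = u.T`.
-/

set_option autoImplicit false

namespace Crest.Agent.R185.T4

open Pointwise

variable {Γ S : Type} [Group Γ] [MulAction Γ S]

theorem leaf_perm (N : Subgroup (GG Γ S)) [N.Normal] (hR : Room N) {ι : Type} [Finite ι]
    (χ : ι → Chart S) (hχ : ∀ e, IsChart Γ (χ e)) (hF : ∀ e, (χ e).F = ∅)
    (hd : ∀ e e', e ≠ e' → Disjoint (χ e).im (χ e').im) (g : GG Γ S)
    (hg : ∀ e, ∃ e', g • tl Γ (χ e) = tl Γ (χ e'))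
    (hfix : ∀ p : Om S, (∀ e, p ∉ (χ e).im) → g • p = p) : g ∈ N := by
  have hA : ∀ t, t ∈ (Set.finite_range fun e => tl Γ (χ e)).toFinset ↔ ∃ e, tl Γ (χ e) = t := by
    simp
  have h1 : ∀ φ : Chart S, (∃ e, tl Γ (χ e) = tl Γ φ) → IsChart Γ φ ∧ φ.F = ∅ := by
    rintro φ ⟨e, he⟩
    obtain ⟨γ, rfl⟩ := mk_eq_iff.1 he
    exact ⟨(hχ e).smul γ, by simp [hF]⟩
  have h2 : ∀ t t', (∃ e, tl Γ (χ e) = t) → (∃ e, tl Γ (χ e) = t') → t ≠ t' →
      Disjoint t.im t'.im := by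
    rintro _ _ ⟨e, rfl⟩ ⟨e', rfl⟩ hne
    simpa using hd e e' (by rintro rfl; exact hne rfl)
  refine dec N (Set.finite_range fun e => tl Γ (χ e)).toFinset ?_ ?_ ?_ ?_ g ?_ ?_ <;>
    simp only [hA]
  · rintro _ ⟨e, rfl⟩; simpa using hχ e
  · exact fun t ht t' ht' => h2 t t' ht ht'
  · intro g φ ψ a b c _ h
    exact leaf_swap_mem N hR (h1 φ a).1 (h1 ψ b).1 (h1 φ a).2 (h1 ψ b).2
      (by simpa using h2 _ _ a b c) h
  · intro g φ γ a _ h
    exact leaf_lab_mem N hR (h1 φ a).1 (h1 φ a).2 h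
  · rintro _ ⟨e, rfl⟩
    obtain ⟨e', he⟩ := hg e
    exact ⟨e', he.symm⟩
  · intro p hp
    exact hfix p fun e => by simpa using hp _ ⟨e, rfl⟩

/-- restriction of a chart to `D F` -/
def res (χ : Chart S) (F : Set S) : Chart S := sub χ ⟨[], F, 0⟩

@[simp] theorem res_F (χ : Chart S) (F : Set S) : (res χ F).F = F := rfl

theorem IsChart.res {χ : Chart S} (h : IsChart Γ χ) (h0 : χ.F = ∅) {F : Set S} (hF : F.Finite) :
    IsChart Γ (res χ F) := h.sub (valid_root hF (by simp [h0]) 0)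

theorem im_res_subset (χ : Chart S) (F : Set S) : (res χ F).im ⊆ χ.im := im_sub_subset _ _

theorem gsmul_res (g : GG Γ S) (χ : Chart S) (F : Set S) : g • res χ F = res (g • χ) F := rfl

theorem smul_res (γ : Γ) (χ : Chart S) (F : Set S) : γ • res χ F = res (γ • χ) (γ • F) := by
  rw [res, res, smul_sub]
  congr 1

theorem mem_im_res {χ : Chart S} (F : Set S) {p : Om S} (hp : p ∈ χ.im)
    (h : ∀ w ∈ F, ∀ i, p ∉ (leaf χ (Ltr.s w i)).im) : p ∈ (res χ F).im := by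
  obtain ⟨a, ha⟩ := hp
  refine ⟨a, ?_, by simpa [Piece.emb] using ha⟩
  rintro w i u rfl hw
  exact h w hw i ⟨u, (leaf_r _ _ _ _).2 ha⟩

theorem IsChart.disjoint_leaf_res {χ : Chart S} (h : IsChart Γ χ) {F : Set S} {w : S} (hw : w ∈ F)
    (i : Bool) : Disjoint (T4.leaf χ (Ltr.s w i)).im (T4.res χ F).im := by
  refine h.disjoint_im_sub (Set.disjoint_left.2 fun a ha ha' => ?_)
  obtain ⟨u, rfl⟩ := (mem_set_leafP _ _).1 ha
  simp [Piece.mem_set, hw] at ha'

theorem IsChart.leaf0 {χ : Chart S} (h : IsChart Γ χ) (h0 : χ.F = ∅) (y : Ltr S) :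
    IsChart Γ (T4.leaf χ y) := h.leaf (by simp [h0])

/-- the swap of the restrictions of two leaves -/
theorem swap_res (N : Subgroup (GG Γ S)) [N.Normal] (hR : Room N) {g : GG Γ S}
    {α α' : Chart S} (hα : IsChart Γ α) (hα' : IsChart Γ α') (h0 : α.F = ∅) (h0' : α'.F = ∅)
    (hd : Disjoint α.im α'.im) {F : Set S} (hF : F.Finite) (h : IsSwap g (res α F) (res α' F)) :
    g ∈ N := by
  obtain ⟨G, hG⟩ := swap_exists hα hα' (h0.trans h0'.symm) hd
  have hGN := leaf_swap_mem N hR hα hα' h0 h0' hd hG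
  have := hF.to_subtype
  let B : Bool → Chart S := fun e => cond e α' α
  have hB : ∀ e, IsChart Γ (B e) := by rintro (_ | _) <;> assumption
  have hB0 : ∀ e, (B e).F = ∅ := by rintro (_ | _) <;> assumption
  have hBd : ∀ e e', e ≠ e' → Disjoint (B e).im (B e').im := by
    rintro (_ | _) (_ | _) hne
    exacts [absurd rfl hne, hd, hd.symm, absurd rfl hne]
  have hGB : ∀ e, G • B e = B (!e) := by rintro (_ | _); exacts [hG.1, hG.2.1]
  have hgB : ∀ e, g • res (B e) F = res (B (!e)) F := by rintro (_ | _); exacts [h.1, h.2.1]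
  have hdis : ∀ e e', ∀ w ∈ F, ∀ i, Disjoint (leaf (B e) (Ltr.s w i)).im (res (B e') F).im := by
    intro e e' w hw i
    by_cases he : e = e'
    · subst he; exact (hB e).disjoint_leaf_res hw i
    · exact (hBd e e' he).mono (im_leaf_subset _ _) (im_res_subset _ _)
  have key : g⁻¹ * G ∈ N := by
    refine leaf_perm N hR (fun x : Bool × F × Bool => leaf (B x.1) (Ltr.s x.2.1 x.2.2))
      (fun x => (hB _).leaf0 (hB0 _) _) (fun _ => rfl) ?_ _ ?_ ?_
    · rintro ⟨e, w, i⟩ ⟨e', w', i'⟩ hne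
      by_cases he : e = e'
      · subst he
        refine (hB e).disjoint_leaf_leaf fun h => hne ?_
        simp only [Ltr.s.injEq] at h
        rw [Subtype.ext h.1, h.2]
      · exact (hBd e e' he).mono (im_leaf_subset _ _) (im_leaf_subset _ _)
    · rintro ⟨e, w, i⟩
      refine ⟨(!e, w, i), ?_⟩
      rw [gsmul_mk, mul_smul, gsmul_leaf G, hGB, gsmul_eq_of_fix fun p hp => inv_fix_pt
        (h.fix_pt (hdis _ false _ w.2 i) (hdis _ true _ w.2 i) p hp)]
    · intro p hp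
      by_cases h1 : ∃ e, p ∈ (B e).im
      · obtain ⟨e, he⟩ := h1
        refine ((hB e).res (hB0 e) hF).fix_of_gsmul_eq ?_ p
          (mem_im_res F he fun w hw i => hp (e, ⟨w, hw⟩, i))
        rw [mul_smul, gsmul_res G, hGB, ← hgB, inv_smul_smul]
      · push Not at h1
        rw [mul_smul, hG.2.2 p (h1 false) (h1 true), inv_fix_pt (h.2.2 p
          (fun h => h1 false (im_res_subset _ _ h)) (fun h => h1 true (im_res_subset _ _ h)))]
  have := N.mul_mem hGN (N.inv_mem key)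
  simpa using this

theorem lab_res (N : Subgroup (GG Γ S)) [N.Normal] (hR : Room N) {g : GG Γ S}
    {α : Chart S} {γ : Γ} (hα : IsChart Γ α) (h0 : α.F = ∅)
    {F : Set S} (hF : F.Finite) (hγ : γ • F = F) (h : IsLab g (res α F) γ) : g ∈ N := by
  obtain ⟨G, hG⟩ := lab_exists hα (γ := γ) (by simp [h0])
  have hGN := leaf_lab_mem N hR hα h0 hG
  have := hF.to_subtype
  have key : g⁻¹ * G ∈ N := by
    refine leaf_perm N hR (fun x : F × Bool => leaf α (Ltr.s x.1 x.2))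
      (fun x => hα.leaf0 h0 _) (fun _ => rfl) ?_ _ ?_ ?_
    · rintro ⟨w, i⟩ ⟨w', i'⟩ hne
      refine hα.disjoint_leaf_leaf fun h => hne ?_
      simp only [Ltr.s.injEq] at h
      rw [Subtype.ext h.1, h.2]
    · rintro ⟨w, i⟩
      have hw : γ⁻¹ • (w : S) ∈ F := by
        rw [← Set.mem_smul_set_iff_inv_smul_mem, hγ]; exact w.2
      refine ⟨(⟨_, hw⟩, i), ?_⟩
      have e1 : leaf (γ • α) (Ltr.s w i) = γ • leaf α (Ltr.s (γ⁻¹ • (w : S)) i) := by
        simp [smul_leaf]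
      rw [gsmul_mk, mul_smul, gsmul_leaf G, hG.1, e1, gsmul_smul, mk_smul,
        gsmul_eq_of_fix fun p hp => inv_fix_pt (h.fix_pt (hα.disjoint_leaf_res hw i) p hp)]
    · intro p hp
      by_cases h1 : p ∈ α.im
      · refine (hα.res h0 hF).fix_of_gsmul_eq ?_ p
          (mem_im_res F h1 fun w hw i => hp (⟨w, hw⟩, i))
        rw [mul_smul, gsmul_res G, hG.1, inv_smul_eq_iff, h.1, smul_res, hγ]
      · rw [mul_smul, hG.2 p h1, inv_fix_pt (h.2 p fun h => h1 (im_res_subset _ _ h))]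
  have := N.mul_mem hGN (N.inv_mem key)
  simpa using this

theorem swap_room (N : Subgroup (GG Γ S)) [N.Normal] (hR : Room N) {β : Chart S}
    (hβ : IsChart Γ β) {g : GG Γ S}
    {φ ψ : Chart S} (hφ : IsChart Γ φ) (hψ : IsChart Γ ψ) (hF : φ.F = ψ.F)
    (hd : Disjoint φ.im ψ.im) (d1 : Disjoint β.im φ.im) (d2 : Disjoint β.im ψ.im)
    (h : IsSwap g φ ψ) : g ∈ N := by
  have hs : ∀ k, (res (leaf β (Ltr.n k)) φ.F).im ⊆ β.im := fun k =>
    (im_res_subset _ _).trans (im_leaf_subset _ _)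
  have hc : ∀ k, IsChart Γ (res (leaf β (Ltr.n k)) φ.F) := fun k => (hβ.leafn k).res rfl hφ.fin
  have h01 : Disjoint (leaf β (Ltr.n 0)).im (leaf β (Ltr.n 1)).im := hβ.disj_leafn (by omega)
  obtain ⟨s₁, hs₁⟩ := swap_exists hφ (hc 0) rfl (d1.mono_left (hs 0)).symm
  obtain ⟨s₂, hs₂⟩ := swap_exists hψ (hc 1) hF.symm (d2.mono_left (hs 1)).symm
  have hcj := h.conj (s₂ * s₁)
  rw [mul_smul s₂ s₁ φ, mul_smul s₂ s₁ ψ, hs₁.1, hs₁.fix hd.symm (d2.mono_left (hs 0)).symm, hs₂.1,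
    hs₂.fix (d2.mono_left (hs 0)) (h01.mono (im_res_subset _ _) (im_res_subset _ _))] at hcj
  have := swap_res N hR (hβ.leafn 0) (hβ.leafn 1) rfl rfl h01 hφ.fin hcj
  simpa [mul_assoc] using ‹N.Normal›.conj_mem _ this (s₂ * s₁)⁻¹

theorem lab_room (N : Subgroup (GG Γ S)) [N.Normal] (hR : Room N) {β : Chart S}
    (hβ : IsChart Γ β) {g : GG Γ S} {γ : Γ}
    {φ : Chart S} (hφ : IsChart Γ φ) (hF : γ • φ.F = φ.F) (d1 : Disjoint β.im φ.im)
    (h : IsLab g φ γ) : g ∈ N := by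
  obtain ⟨s, hs⟩ := swap_exists hφ ((hβ.leafn 0).res rfl hφ.fin) rfl
    (d1.mono_left ((im_res_subset _ _).trans (im_leaf_subset _ _))).symm
  have hcj := h.conj s
  rw [hs.1] at hcj
  have := lab_res N hR (hβ.leafn 0) rfl hφ.fin hF hcj
  simpa [mul_assoc] using ‹N.Normal›.conj_mem _ this s⁻¹

theorem swap_mem (N : Subgroup (GG Γ S)) [N.Normal] (hR : Room N) {g : GG Γ S}
    {φ ψ : Chart S} (hφ : IsChart Γ φ) (hψ : IsChart Γ ψ) (hF : φ.F = ψ.F)
    (hd : Disjoint φ.im ψ.im) (h : IsSwap g φ ψ) : g ∈ N := by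
  have dr := hd.mono (im_root_subset φ none) (im_root_subset ψ none)
  have dl := hd.mono (im_leaf_subset φ (Ltr.n 0)) (im_leaf_subset ψ (Ltr.n 0))
  obtain ⟨g₁, h₁⟩ := swap_exists (hφ.root none) (hψ.root none) hF dr
  obtain ⟨g₀, h₀⟩ := swap_exists (hφ.leafn 0) (hψ.leafn 0) rfl dl
  rw [h.split hφ hψ hd h₁ h₀]
  exact N.mul_mem
    (swap_room N hR (hφ.leafn 0) (hφ.root none) (hψ.root none) hF dr
      (hφ.disjoint_root_leaf n_mem_letters).symm
      (hd.mono (im_leaf_subset _ _) (im_root_subset _ _)) h₁)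
    (leaf_swap_mem N hR (hφ.leafn 0) (hψ.leafn 0) rfl rfl dl h₀)

theorem lab_mem (N : Subgroup (GG Γ S)) [N.Normal] (hR : Room N) {g : GG Γ S}
    {φ : Chart S} {γ : Γ} (hφ : IsChart Γ φ) (hF : γ • φ.F = φ.F) (h : IsLab g φ γ) : g ∈ N := by
  obtain ⟨g₁, h₁⟩ := lab_exists (hφ.root none) (γ := γ) hF
  obtain ⟨g₀, h₀⟩ := lab_exists (hφ.leafn 0) (γ := γ) (by simp)
  rw [h.split hφ h₁ h₀]
  exact N.mul_mem
    (lab_room N hR (hφ.leafn 0) (hφ.root none) hF (hφ.disjoint_root_leaf n_mem_letters).symm h₁)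
    (leaf_lab_mem N hR (hφ.leafn 0) rfl h₀)

theorem kill (N : Subgroup (GG Γ S)) [N.Normal] (hR : Room N) (u : Vert Γ S) (g : GG Γ S)
    (hg : g • u = u) : g ∈ N := by
  refine dec N u.T u.valid (fun t ht t' ht' => u.disjoint_im ht ht') ?_ ?_ g ?_ ?_
  · intro g φ ψ h1 h2 hne hF h
    exact swap_mem N hR (by simpa using u.valid _ h1) (by simpa using u.valid _ h2) hF
      (by simpa using u.disjoint_im h1 h2 hne) h
  · intro g φ γ h1 hF h
    exact lab_mem N hR (by simpa using u.valid _ h1) hF h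
  · intro t ht
    have := Vert.smul_mem_smul_T (g := g).2 ht
    rwa [hg] at this
  · intro p hp
    obtain ⟨t, ht, h⟩ := u.cover p
    exact absurd h (hp t ht)

end Crest.Agent.R185.T4
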