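import Crest.Agent.R185.T4Def

/-!
# Row 185, T4: calculus of local relations; the group `GG`
-/

set_option autoImplicit false

namespace Crest.Agent.R185.T4

open Pointwise

variable {Γ S : Type} [Group Γ] [MulAction Γ S]

theorem LR.func {γ : Γ} {d : ℤ} {y y₁ y₂ : Ltr S} (h₁ : LR γ d y y₁) (h₂ : LR γ d y y₂) :
    y₁ = y₂ := by
  cases y <;> cases y₁ <;> cases y₂ <;> simp_all [LR]
  omega

theorem LR.symm {γ : Γ} {d : ℤ} {y y' : Ltr S} (h : LR γ d y y') : LR γ⁻¹ (-d) y' y := by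
  cases y <;> cases y' <;> simp_all [LR]

theorem LR.inj {γ : Γ} {d : ℤ} {y₁ y₂ y : Ltr S} (h₁ : LR γ d y₁ y) (h₂ : LR γ d y₂ y) :
    y₁ = y₂ := h₁.symm.func h₂.symm

theorem LR.trans {γ γ' : Γ} {d d' : ℤ} {y y' y'' : Ltr S} (h : LR γ d y y') (h' : LR γ' d' y' y'') :
    LR (γ' * γ) (d + d') y y'' := by
  cases y <;> cases y' <;> cases y'' <;> simp_all [LR, mul_smul]
  omega

theorem LR.refl_smul (γ : Γ) (y : Ltr S) : LR γ 0 y (γ • y) := by
  cases y <;> simp [LR]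

/-- almost every letter is in the domain of `LR γ d` -/
theorem LR.finite_not_dom (γ : Γ) (d : ℤ) : {y : Ltr S | ¬ ∃ y', LR γ d y y'}.Finite := by
  refine ((Set.finite_Iio (-d).toNat).image Ltr.n).subset ?_
  intro y hy
  cases y with
  | s w i => exact absurd ⟨Ltr.s (γ • w) i, by simp [LR]⟩ hy
  | n k =>
    refine ⟨k, ?_, rfl⟩
    by_contra hk
    exact hy ⟨Ltr.n (k + d).toNat, by simp only [LR, Set.mem_Iio] at *; omega⟩

theorem LR.finite_pre (γ : Γ) (d : ℤ) {E : Set (Ltr S)} (hE : E.Finite) :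
    {y : Ltr S | ∃ y' ∈ E, LR γ d y y'}.Finite := by
  have : {y : Ltr S | ∃ y' ∈ E, LR γ d y y'} = ⋃ y' ∈ E, {y | LR γ d y y'} := by ext; simp
  rw [this]
  exact hE.biUnion fun y' _ => Set.Subsingleton.finite fun a ha b hb => LR.inj ha hb

theorem LR.finite_post (γ : Γ) (d : ℤ) {E : Set (Ltr S)} (hE : E.Finite) :
    {y' : Ltr S | ∃ y ∈ E, LR γ d y y'}.Finite := by
  have : {y' : Ltr S | ∃ y ∈ E, LR γ d y y'} = ⋃ y ∈ E, {y' | LR γ d y y'} := by ext; simp
  rw [this]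
  exact hE.biUnion fun y' _ => Set.Subsingleton.finite fun a ha b hb => LR.func ha hb

section
variable {r r' : Om S → Om S → Prop} {a b c : Om S}

theorem Germ.mono (h : Germ Γ r a b) (hr : ∀ x y, r x y → r' x y) : Germ Γ r' a b := by
  obtain ⟨γ, d, hf⟩ := h
  exact ⟨γ, d, hf.subset fun y hy ⟨y', h1, h2⟩ => hy ⟨y', h1, fun u => hr _ _ (h2 u)⟩⟩

theorem Simple.mono (h : Simple Γ r a b) (hr : ∀ x y, r x y → r' x y) : Simple Γ r' a b := by
  obtain ⟨γ, h⟩ := h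
  exact ⟨γ, fun u => hr _ _ (h u)⟩

theorem Simple.germ (h : Simple Γ r a b) : Germ Γ r a b := by
  obtain ⟨γ, h⟩ := h
  refine ⟨γ, 0, Set.finite_empty.subset fun y hy => hy ⟨γ • y, LR.refl_smul γ y, fun u => ?_⟩⟩
  simpa using h (y :: u)

theorem Germ.inv (h : Germ Γ r a b) : Germ Γ (fun x y => r y x) b a := by
  obtain ⟨γ, d, hf⟩ := h
  refine ⟨γ⁻¹, -d, ((LR.finite_not_dom γ⁻¹ (-d)).union (LR.finite_post γ d hf)).subset ?_⟩
  intro y' hy'
  by_contra hc
  simp only [Set.mem_union, Set.mem_ofPred_eq, not_or, not_not] at hc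
  obtain ⟨⟨y, hy⟩, h2⟩ := hc
  have hy2 : LR γ d y y' := by simpa using hy.symm
  have : ∃ y', LR γ d y y' ∧ ∀ u, r (a ++ y :: u) (b ++ y' :: γ • u) := by
    by_contra h3
    exact h2 ⟨y, h3, hy2⟩
  obtain ⟨y'', h3, h4⟩ := this
  obtain rfl := h3.func hy2
  exact hy' ⟨y, hy, fun u => by simpa using h4 (γ⁻¹ • u)⟩

theorem Simple.inv (h : Simple Γ r a b) : Simple Γ (fun x y => r y x) b a := by
  obtain ⟨γ, h⟩ := h
  exact ⟨γ⁻¹, fun u => by simpa using h (γ⁻¹ • u)⟩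

theorem Germ.comp (h : Germ Γ r a b) (h' : Germ Γ r' b c) :
    Germ Γ (fun x z => ∃ y, r x y ∧ r' y z) a c := by
  obtain ⟨γ, d, hf⟩ := h
  obtain ⟨γ', d', hf'⟩ := h'
  refine ⟨γ' * γ, d + d', (hf.union (LR.finite_pre γ d hf')).subset ?_⟩
  intro y hy
  by_contra hc
  simp only [Set.mem_union, Set.mem_ofPred_eq, not_or, not_not] at hc
  obtain ⟨⟨y', h1, h2⟩, h3⟩ := hc
  have : ∃ y'', LR γ' d' y' y'' ∧ ∀ u, r' (b ++ y' :: u) (c ++ y'' :: γ' • u) := by
    by_contra h4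
    exact h3 ⟨y', h4, h1⟩
  obtain ⟨y'', h4, h5⟩ := this
  exact hy ⟨y'', h1.trans h4, fun u => ⟨_, h2 u, by simpa [mul_smul] using h5 (γ • u)⟩⟩

theorem Simple.comp (h : Simple Γ r a b) (h' : Simple Γ r' b c) :
    Simple Γ (fun x z => ∃ y, r x y ∧ r' y z) a c := by
  obtain ⟨γ, h⟩ := h
  obtain ⟨γ', h'⟩ := h'
  exact ⟨γ' * γ, fun u => ⟨_, h u, by simpa [mul_smul] using h' (γ • u)⟩⟩

theorem Loc.congr (h : Loc Γ r) (hr : ∀ x y, r x y ↔ r' x y) : Loc Γ r' := by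
  have : r = r' := by ext x y; exact hr x y
  exact this ▸ h

theorem Loc.union (h : Loc Γ r) (h' : Loc Γ r') : Loc Γ (fun x y => r x y ∨ r' x y) := by
  refine ⟨?_, (h.2.union h'.2).subset ?_⟩
  · rintro a b (hab | hab)
    · exact (h.1 a b hab).mono fun _ _ => Or.inl
    · exact (h'.1 a b hab).mono fun _ _ => Or.inr
  · rintro ⟨a, b⟩ ⟨hab | hab, hn⟩
    · exact Or.inl ⟨hab, fun hs => hn (hs.mono fun _ _ => Or.inl)⟩
    · exact Or.inr ⟨hab, fun hs => hn (hs.mono fun _ _ => Or.inr)⟩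

theorem Loc.iUnion {ι : Type} [Finite ι] {ρ : ι → Om S → Om S → Prop} (h : ∀ i, Loc Γ (ρ i)) :
    Loc Γ (fun x y => ∃ i, ρ i x y) := by
  refine ⟨?_, (Set.finite_iUnion fun i => (h i).2).subset ?_⟩
  · rintro a b ⟨i, hab⟩
    exact ((h i).1 a b hab).mono fun _ _ h => ⟨i, h⟩
  · rintro ⟨a, b⟩ ⟨⟨i, hab⟩, hn⟩
    exact Set.mem_iUnion.2 ⟨i, hab, fun hs => hn (hs.mono fun _ _ h => ⟨i, h⟩)⟩

theorem Loc.inv (h : Loc Γ r) : Loc Γ (fun x y => r y x) := by
  refine ⟨fun a b hab => (h.1 b a hab).inv, (h.2.image Prod.swap).subset ?_⟩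
  rintro ⟨a, b⟩ ⟨hab, hn⟩
  exact ⟨(b, a), ⟨hab, fun hs => hn hs.inv⟩, rfl⟩

theorem Loc.comp (h : Loc Γ r) (h' : Loc Γ r') (hinj : ∀ x x' y, r x y → r x' y → x = x')
    (hfunc : ∀ y z z', r' y z → r' y z' → z = z') : Loc Γ (fun x z => ∃ y, r x y ∧ r' y z) := by
  refine ⟨?_, ?_⟩
  · rintro a c ⟨b, hab, hbc⟩
    exact (h.1 a b hab).comp (h'.1 b c hbc)
  · have h1 : (⋃ p ∈ {p : Om S × Om S | r p.1 p.2 ∧ ¬ Simple Γ r p.1 p.2},
        {q : Om S × Om S | q.1 = p.1 ∧ r' p.2 q.2}).Finite :=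
      h.2.biUnion fun p _ => Set.Subsingleton.finite fun q hq q' hq' =>
        Prod.ext (hq.1.trans hq'.1.symm) (hfunc _ _ _ hq.2 hq'.2)
    have h2 : (⋃ p ∈ {p : Om S × Om S | r' p.1 p.2 ∧ ¬ Simple Γ r' p.1 p.2},
        {q : Om S × Om S | q.2 = p.2 ∧ r q.1 p.1}).Finite :=
      h'.2.biUnion fun p _ => Set.Subsingleton.finite fun q hq q' hq' =>
        Prod.ext (hinj _ _ _ hq.2 hq'.2) (hq.1.trans hq'.1.symm)
    refine (h1.union h2).subset ?_
    rintro ⟨a, c⟩ ⟨⟨b, hab, hbc⟩, hn⟩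
    by_cases hs : Simple Γ r a b
    · right
      simp only [Set.mem_iUnion]
      exact ⟨(b, c), ⟨hbc, fun hs' => hn (hs.comp hs')⟩, rfl, hab⟩
    · left
      simp only [Set.mem_iUnion]
      exact ⟨(a, b), ⟨hab, hs⟩, rfl, hbc⟩

end

/-- basic embeddings are local -/
theorem loc_emb (b : Om S) (j : ℕ) (γ : Γ) : Loc Γ (fun a c => b ++ shift j (γ • a) = c) := by
  have hs : ∀ a : Om S, a ≠ [] → Simple Γ (fun a c => b ++ shift j (γ • a) = c) a
      (b ++ shift j (γ • a)) := fun a ha =>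
    ⟨γ, fun u => by simp [shift_append j (show γ • a ≠ [] by simpa using ha)]⟩
  refine ⟨?_, (Set.finite_singleton ([], b)).subset ?_⟩
  · rintro a c rfl
    by_cases ha : a = []
    · subst ha
      refine ⟨γ, j, Set.finite_empty.subset fun y hy => hy ?_⟩
      cases y with
      | s w i => exact ⟨Ltr.s (γ • w) i, by simp [LR], fun u => by simp⟩
      | n k => exact ⟨Ltr.n (k + j), by simp [LR], fun u => by simp⟩
    · exact (hs a ha).germ
  · rintro ⟨a, c⟩ ⟨h1, hn⟩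
    simp only at h1 hn
    subst h1
    by_cases ha : a = []
    · simp [ha]
    · exact absurd (hs a ha) hn

theorem loc_id : Loc Γ (fun a c : Om S => a = c) :=
  (loc_emb [] 0 (1 : Γ)).congr (by simp)

theorem loc_smul (γ : Γ) : Loc Γ (fun a c : Om S => γ • a = c) :=
  (loc_emb [] 0 γ).congr (by simp)

theorem loc_prefix (b : Om S) : Loc Γ (fun a c : Om S => b ++ a = c) :=
  (loc_emb b 0 (1 : Γ)).congr (by simp)

theorem opn_D {F : Set S} (hF : F.Finite) : Opn Γ (D F) := by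
  have hs : ∀ a : Om S, a ∈ D F → a ≠ [] → Simple Γ (fun a c => a ∈ D F ∧ a = c) a a :=
    fun a h ha => ⟨1, fun u => ⟨(append_mem_D ha u).2 h, by simp⟩⟩
  refine ⟨?_, (Set.finite_singleton ([], [])).subset ?_⟩
  · rintro a c ⟨h, rfl⟩
    by_cases ha : a = []
    · subst ha
      refine ⟨1, 0, ((hF.prod (Set.toFinite (Set.univ : Set Bool))).image
        (fun p => Ltr.s p.1 p.2)).subset fun y hy => ?_⟩
      cases y with
      | s w i =>
        refine ⟨(w, i), ⟨?_, trivial⟩, rfl⟩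
        by_contra hw
        exact hy ⟨Ltr.s w i, by simp [LR], fun u => by simpa using hw⟩
      | n k => exact absurd ⟨Ltr.n k, by simp [LR], fun u => by simp⟩ hy
    · exact (hs a h ha).germ
  · rintro ⟨a, c⟩ ⟨⟨h, h1⟩, hn⟩
    simp only at h h1 hn
    subst h1
    by_cases ha : a = []
    · simp [ha]
    · exact absurd (hs a h ha) hn

theorem opn_univ : Opn Γ (Set.univ : Set (Om S)) := loc_id.congr (by simp)

theorem Opn.union {U U' : Set (Om S)} (h : Opn Γ U) (h' : Opn Γ U') : Opn Γ (U ∪ U') :=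
  (Loc.union h h').congr (by intro x y; simp only [Set.mem_union]; tauto)

theorem Opn.inter {U U' : Set (Om S)} (h : Opn Γ U) (h' : Opn Γ U') : Opn Γ (U ∩ U') :=
  (Loc.comp h h' (by rintro x x' y ⟨_, rfl⟩ ⟨_, rfl⟩; rfl)
    (by rintro x x' y ⟨_, rfl⟩ ⟨_, rfl⟩; rfl)).congr (by
      intro x y
      constructor
      · rintro ⟨z, ⟨h1, rfl⟩, h2, rfl⟩; exact ⟨⟨h1, h2⟩, rfl⟩
      · rintro ⟨⟨h1, h2⟩, rfl⟩; exact ⟨x, ⟨h1, rfl⟩, h2, rfl⟩)

theorem Opn.iInter {ι : Type} [Finite ι] {U : ι → Set (Om S)} (h : ∀ i, Opn Γ (U i)) :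
    Opn Γ (⋂ i, U i) := by
  induction ι using Finite.induction_empty_option with
  | of_equiv e ih =>
    have := ih (U := fun i => U (e i)) fun i => h _
    rwa [e.surjective.iInter_comp U] at this
  | h_empty => simpa using opn_univ
  | h_option ih =>
    rw [Set.iInter_option]
    exact (h none).inter (ih fun i => h (some i))

/-- restriction of a local relation to an open set -/
theorem Loc.restrict {r : Om S → Om S → Prop} {U : Set (Om S)} (h : Loc Γ r) (hU : Opn Γ U)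
    (hfunc : ∀ y z z', r y z → r y z' → z = z') : Loc Γ (fun a b => a ∈ U ∧ r a b) :=
  (Loc.comp hU h (by rintro x x' y ⟨_, rfl⟩ ⟨_, rfl⟩; rfl) hfunc).congr (by
    intro x y
    constructor
    · rintro ⟨z, ⟨h1, rfl⟩, h2⟩; exact ⟨h1, h2⟩
    · rintro ⟨h1, h2⟩; exact ⟨x, ⟨h1, rfl⟩, h2⟩)

variable (Γ S) in
/-- The final group: local permutations of the words. -/
def GG : Subgroup (Equiv.Perm (Om S)) where
  carrier := {g | Loc Γ (fun a b => g a = b)}
  one_mem' := loc_id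
  mul_mem' := fun {g h} hg hh =>
    (Loc.comp hh hg (by rintro x x' y rfl h; exact (Equiv.injective _ h).symm)
      (by rintro x y z rfl rfl; rfl)).congr (by simp)
  inv_mem' := fun {g} hg => (Loc.inv hg).congr (by
    intro x y
    simp only [Equiv.Perm.inv_eq_iff_eq]
    exact eq_comm)

theorem GG.loc (g : GG Γ S) : Loc Γ (fun a b : Om S => g • a = b) := g.2

theorem GG.ext' {g h : GG Γ S} (H : ∀ p : Om S, g • p = h • p) : g = h :=
  Subtype.ext (Equiv.ext H)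

variable (Γ S) in
/-- the diagonal action -/
def diag : Γ →* GG Γ S :=
  (MulAction.toPermHom Γ (Om S)).codRestrict _ fun γ => loc_smul γ

@[simp] theorem diag_smul (γ : Γ) (p : Om S) : diag Γ S γ • p = γ • p := rfl

theorem diag_injective [Hyp Γ S] : Function.Injective (diag Γ S) := by
  rw [injective_iff_map_eq_one]
  intro γ h
  refine Hyp.faith (S := S) γ fun w => ?_
  have : diag Γ S γ • ([Ltr.s w false] : Om S) = [Ltr.s w false] := by rw [h, one_smul]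
  simpa using this

/-- A local bijection of a set with open complement extends by the identity. -/
theorem perm_of_rel {r : Om S → Om S → Prop} {U : Set (Om S)} (h : Loc Γ r)
    (hfunc : ∀ y z z', r y z → r y z' → z = z') (hinj : ∀ x x' y, r x y → r x' y → x = x')
    (hdom : ∀ a, (∃ b, r a b) ↔ a ∈ U) (hran : ∀ b, (∃ a, r a b) ↔ b ∈ U) (hU : Opn Γ Uᶜ) :
    ∃ g : GG Γ S, (∀ a b, r a b → g • a = b) ∧ ∀ a, a ∉ U → g • a = a := by
  classical
  let ρ : Om S → Om S → Prop := fun a b => r a b ∨ (a ∈ Uᶜ ∧ a = b)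
  have hρ : Loc Γ ρ := h.union hU
  have ex : ∀ a, ∃ b, ρ a b := fun a => by
    by_cases ha : a ∈ U
    · obtain ⟨b, hb⟩ := (hdom a).2 ha; exact ⟨b, Or.inl hb⟩
    · exact ⟨a, Or.inr ⟨ha, rfl⟩⟩
  have fu : ∀ a b b', ρ a b → ρ a b' → b = b' := by
    rintro a b b' (h1 | ⟨h1, rfl⟩) (h2 | ⟨h2, rfl⟩)
    · exact hfunc _ _ _ h1 h2
    · exact absurd ((hdom _).1 ⟨_, h1⟩) h2
    · exact absurd ((hdom _).1 ⟨_, h2⟩) h1
    · rfl
  choose f hf using ex
  have hbij : Function.Bijective f := by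
    constructor
    · intro a a' he
      rcases hf a with h1 | ⟨h1, h1'⟩ <;> rcases hf a' with h2 | ⟨h2, h2'⟩
      · exact hinj _ _ _ h1 (he ▸ h2)
      · exact absurd ((hran _).1 ⟨_, h1⟩) (by rw [he, ← h2']; exact h2)
      · exact absurd ((hran _).1 ⟨_, h2⟩) (by rw [← he, ← h1']; exact h1)
      · rw [h1', h2', he]
    · intro b
      by_cases hb : b ∈ U
      · obtain ⟨a, ha⟩ := (hran b).2 hb
        exact ⟨a, fu _ _ _ (hf a) (Or.inl ha)⟩
      · exact ⟨b, fu _ _ _ (hf b) (Or.inr ⟨hb, rfl⟩)⟩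
  refine ⟨⟨Equiv.ofBijective f hbij, hρ.congr fun x y => ⟨fun h => fu _ _ _ (hf x) h, ?_⟩⟩,
    fun a b hab => fu _ _ _ (hf a) (Or.inl hab), fun a ha => fu _ _ _ (hf a) (Or.inr ⟨ha, rfl⟩)⟩
  rintro rfl
  exact hf x

instance : Infinite (Ltr S) := Infinite.of_injective Ltr.n fun _ _ h => by simpa using h

/-! ### consequences of high transitivity -/

theorem exists_smul_set [Hyp Γ S] {F F' : Set S} (hF : F.Finite) (hF' : F'.Finite)
    (hc : F.ncard = F'.ncard) {w w' : S} (hw : w ∉ F) (hw' : w' ∉ F') :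
    ∃ γ : Γ, γ • F = F' ∧ γ • w = w' := by
  classical
  have := hF.fintype
  have := hF'.fintype
  have hc' : Fintype.card F = Fintype.card F' := by
    rw [← Nat.card_eq_fintype_card, ← Nat.card_eq_fintype_card]; exact hc
  let e := Fintype.equivOfCardEq hc'
  let n := Fintype.equivFin (Option F)
  let a : Option F → S := fun o => o.elim w Subtype.val
  let b : Option F → S := fun o => o.elim w' fun x => (e x : S)
  have ha : Function.Injective a := by
    rintro (_ | x) (_ | y) h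
    · rfl
    · exact absurd ((show w = (y : S) from h) ▸ y.2) hw
    · exact absurd ((show (x : S) = w from h) ▸ x.2) hw
    · exact congrArg some (Subtype.ext h)
  have hb : Function.Injective b := by
    rintro (_ | x) (_ | y) h
    · rfl
    · exact absurd ((show w' = (e y : S) from h) ▸ (e y).2) hw'
    · exact absurd ((show (e x : S) = w' from h) ▸ (e x).2) hw'
    · exact congrArg some (e.injective (Subtype.ext h))
  obtain ⟨γ, hγ⟩ := Hyp.trans (Γ := Γ) _ (a ∘ n.symm) (b ∘ n.symm) (ha.comp n.symm.injective)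
    (hb.comp n.symm.injective)
  have hγ' : ∀ o, γ • a o = b o := fun o => by simpa using hγ (n o)
  refine ⟨γ, ?_, hγ' none⟩
  ext x
  constructor
  · rintro ⟨y, hy, rfl⟩
    have := hγ' (some ⟨y, hy⟩)
    simp only [a, b, Option.elim_some] at this
    simp only [this]
    exact (e _).2
  · intro hx
    refine ⟨(e.symm ⟨x, hx⟩ : F), (e.symm ⟨x, hx⟩).2, ?_⟩
    have := hγ' (some (e.symm ⟨x, hx⟩))
    simpa [a, b] using this

theorem exists_smul_set' [Hyp Γ S] {F F' : Set S} (hF : F.Finite) (hF' : F'.Finite)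
    (hc : F.ncard = F'.ncard) : ∃ γ : Γ, γ • F = F' := by
  have := Hyp.inf Γ (S := S)
  obtain ⟨w, hw⟩ := hF.exists_notMem
  obtain ⟨w', hw'⟩ := hF'.exists_notMem
  obtain ⟨γ, h, -⟩ := exists_smul_set (Γ := Γ) hF hF' hc hw hw'
  exact ⟨γ, h⟩

theorem exists_smul_subset [Hyp Γ S] {W S₀ : Set S} (hW : W.Finite) (hS : S₀.Finite)
    (hc : W.ncard ≤ S₀.ncard) : ∃ γ : Γ, γ • W ⊆ S₀ := by
  obtain ⟨W', h1, h2⟩ := Set.exists_subset_card_eq hc
  obtain ⟨γ, h⟩ := exists_smul_set' (Γ := Γ) hW (hS.subset h1) h2.symm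
  exact ⟨γ, h ▸ h1⟩

end Crest.Agent.R185.T4
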