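import Crest.Agent.R185.T4Glue
import Crest.Agent.R185.T4MDef

/-!
# Row 185, T4: performing a merge (task R185-T4Merge)

PLAN.  `merge_step`: `μ = (φ, s)`, `a = root φ s = sub ψ ⟨[], a.F, j⟩`.  `glue_exists` with `ψ` and `lam = leaf φ` (the tiles `tl ψ`, `tl (leaf φ y)` of `x` are distinct: `tl a` is a subtile of `tl ψ`, and
`tl a`, `tl (leaf φ y)` are distinct tiles of `v`) gives `φ'`; `merge_exists x` gives `x'` with `Exp x' x φ' s`; `Exp.exc_eq`.  `φ = sub φ' ⟨[], φ.F, j⟩` (`chart_ext`; `j = 0` if `s = none`).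
Universality: `y ≤ x`, `tl φ` below `η ∈ y`, `tl ψ` below `η' ∈ y`, `η = η'` (`Vert.eq_of_sub_sub` with `tl a`); `sub_union` for `φ'` with `(φ.F, j)` and `rootP φ'.F s`; other tiles of `x'` are tiles of `x`
(`Exp.mem_of_ne`).  Availability of a compatible `μ' = (φ₂, s₂)` with witness `(ψ₂, j₂)`: its leaves are not parts of `(φ', s)` (not leaves of `μ` by `Compat`; not `tl ψ`, else `tl a` = that leaf by `Vert.eq_of_sub`), so they survive
(`Exp.mem_of_not_part`).  If `tl ψ₂` is not a part it survives.  It is not a leaf of `μ` (`Compat.l`, `Vert.eq_of_sub`).  If `tl ψ₂ = tl ψ` then `ψ₂ = γ • ψ`, the root parts `a, a₂` share the root point so `tl a = tl a₂`, `a = a₂` (`MV.norm`),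
`γ = 1`, `j = j₂` (`IsChart.sub_rigid`, `smul_sub`), `s ≠ s₂`; new witness `(φ', j + (rootP _ s).j)`.
`compat_of_below`: if the two tiles of `y` differ, the images of `φ`, `φ₂` are disjoint.  Otherwise `φ = γ • sub η π`, `φ₂ = γ₂ • sub η π₂`; all parts are `tl (sub η _)` (`sub_sub`, `smul_root`, `smul_leaf`) and
`IsChart.mk_sub_inj` compares pieces: a leaf piece has `j = 0`, `F = ∅`, `b = π.b ++ [_]`; a root piece has `b = π₂.b` and (`j ≥ 1` or `F ≠ ∅`), so a leaf is never a root part; leaf = leaf gives `π.b = π₂.b`, hence equal root parts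
(common point, `Vert.uniq`, `MV.norm`), then `sub_rigid` gives `γ = γ₂`, same slot, same piece, so `μ = μ'`; equal root parts and equal slots give the same.
`meet_list`: induction on the list with `merge_step` (if `μ ∈ l` keep `m`).
-/

set_option autoImplicit false

namespace Crest.Agent.R185.T4

open Pointwise

variable {Γ S : Type} [Group Γ] [MulAction Γ S]

theorem rootP_eta (F : Set S) (s : Option S) :
    rootP F s = ⟨[], (rootP F s).F, (rootP F s).j⟩ := by cases s <;> rfl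

theorem rootP_j (F F' : Set S) (s : Option S) : (rootP F s).j = (rootP F' s).j := by
  cases s <;> rfl

theorem subset_rootP (F : Set S) (s : Option S) : F ⊆ (rootP F s).F := by
  cases s <;> simp [rootP]

theorem root_F (φ : Chart S) (s : Option S) : (root φ s).F = (rootP φ.F s).F := rfl

theorem merge_step [Hyp Γ S] {v x : Vert Γ S} {μ : MD S} (hμ : MV v μ) (hx : x ≤ v)
    (ha : Avail x μ) : ∃ x', x' ≤ x ∧ x.exc = x'.exc + (if μ.2.isSome then 0 else 1) ∧
      Below v μ x' ∧ (∀ y, y ≤ x → Below v μ y → y ≤ x') ∧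
      ∀ μ', MV v μ' → Compat Γ μ μ' → Avail x μ' → Avail x' μ' := by
  obtain ⟨φ, s⟩ := μ
  obtain ⟨hφ, hok, hpart, hnorm⟩ := hμ
  obtain ⟨hleaf, ψ, j, hψ, hψx, hF, ha, hs, hj⟩ := ha
  simp only at hφ hok hpart hnorm hleaf hF ha hs hj ⊢
  have hav : tl Γ (root φ s) ∈ v.T := hpart _ (Or.inl rfl)
  have hvalid : (⟨[], (root φ s).F, j⟩ : Piece S).Valid ψ.F := valid_root (hφ.root s).fin hF j
  have haψ : (tl Γ (root φ s)).Sub (tl Γ ψ) := by
    have := Tile.sub_mk hψ hvalid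
    rwa [← ha] at this
  have hlx : ∀ y ∈ letters s, tl Γ (leaf φ y) ∈ x.T := fun y hy => hleaf _ ⟨y, hy, rfl⟩
  obtain ⟨φ', hφ', hok', hr', hl'⟩ := glue_exists hψ hs (leaf φ) (fun y hy =>
    ⟨hφ.leaf (hok.mem_D hy []), rfl, by
      have := x.disjoint_im hψx (hlx y hy) fun he =>
        root_ne_leaf hφ hy (v.eq_of_sub hav (hpart _ (Or.inr ⟨y, hy, rfl⟩)) (he ▸ haψ))
      simpa using this⟩) fun y _ y' _ h => hφ.disjoint_leaf_leaf h
  have hpart' : ∀ τ, IsPart Γ φ' s τ ↔ τ = tl Γ ψ ∨ ∃ y ∈ letters s, τ = tl Γ (leaf φ y) := by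
    intro τ
    rw [IsPart, hr']
    refine or_congr_right ⟨?_, ?_⟩ <;> rintro ⟨y, hy, h⟩
    · exact ⟨y, hy, by rwa [← hl' y hy]⟩
    · exact ⟨y, hy, by rwa [hl' y hy]⟩
  obtain ⟨x', hx'⟩ := merge_exists x hφ' hok' fun τ hτ => by
    rcases (hpart' τ).1 hτ with rfl | ⟨y, hy, rfl⟩
    exacts [hψx, hlx y hy]
  have hψF : ψ.F = (rootP φ'.F s).F := by rw [← hr']; rfl
  have hF' : φ'.F ⊆ φ.F := by
    intro w hw
    have h1 := hF (hψF ▸ subset_rootP φ'.F s hw)
    cases s with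
    | none => exact h1
    | some w₀ =>
      rcases h1 with rfl | h1
      · exact absurd hw (by simpa using hok')
      · exact h1
  have hv0 : (⟨[], φ.F, j⟩ : Piece S).Valid φ'.F := valid_root hφ.fin hF' j
  have hroot : ∀ {G : Set S} {k : ℕ}, G.Finite → ψ.F ⊆ G →
      sub ψ ⟨[], G, k⟩ = sub φ' ⟨[], G, (rootP φ'.F s).j + k⟩ := by
    intro G k hG hG'
    rw [← hr', root, sub_sub _ (valid_root hG (hψF ▸ hG') k)]
    congr 1
    ext <;> simp [Piece.comp]
  have hφeq : φ = sub φ' ⟨[], φ.F, j⟩ := by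
    refine chart_ext hφ (hφ'.sub hv0) (s := s) rfl ?_ fun y hy => ?_
    · rw [ha, hroot (hφ.root s).fin hF, root, root, sub_sub _ (valid_rootP hφ.fin s)]
      congr 1
      ext <;> simp [Piece.comp, rootP_j φ'.F φ.F, add_comm]
    · rw [← hl' y hy, leaf, leaf, sub_sub _ (valid_leafP (hok.mem_D hy []))]
      congr 1
      cases s with
      | none => obtain rfl := hj rfl; ext <;> simp [Piece.comp, leafP, Piece.emb]
      | some w =>
        simp only [letters, List.mem_cons, List.not_mem_nil, or_false] at hy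
        rcases hy with rfl | rfl <;> ext <;> simp [Piece.comp, leafP, Piece.emb]
  have hsub : (tl Γ φ).Sub (tl Γ φ') := by
    have := Tile.sub_mk hφ' hv0
    rwa [← hφeq] at this
  refine ⟨x', hx'.le, hx'.exc_eq, ⟨⟨hφ, hok, hpart, hnorm⟩, hx'.le.trans hx, _, hx'.mem, hsub⟩,
    ?_, ?_⟩
  · rintro y hy ⟨-, -, η, hη, h1⟩ τ hτ
    by_cases he : τ = tl Γ φ'
    · obtain ⟨η', hη', h2⟩ := hy _ hψx
      obtain rfl := y.eq_of_sub_sub hη hη'
        ((IsPart.sub (Or.inl rfl) hφ hok).trans h1) (haψ.trans h2)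
      refine ⟨η, hη, he ▸ sub_union hφ' (F₁ := φ.F) (F₂ := (rootP φ'.F s).F) (j₁ := j)
        (j₂ := (rootP φ'.F s).j) hF' (subset_rootP _ _) ?_ ?_ (by rwa [← hφeq]) ?_⟩
      · cases s with
        | none => exact Set.inter_subset_right
        | some w =>
          rintro a ⟨h3, rfl | h4⟩
          · exact absurd h3 (by simpa using hok)
          · exact h4
      · cases s with
        | none => exact Or.inl (hj rfl)
        | some w => exact Or.inr rfl
      · rw [← rootP_eta]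
        show (tl Γ (root φ' s)).Sub η
        rwa [hr']
    · exact hy τ (hx'.mem_of_ne hτ he)
  · rintro ⟨φ₂, s₂⟩ ⟨hφ₂, hok₂, hpart₂, hnorm₂⟩ hc ⟨hleaf₂, ψ₂, j₂, hψ₂, hψ₂x, hF₂, ha₂, hs₂, hj₂⟩
    simp only at hφ₂ hok₂ hpart₂ hnorm₂ hleaf₂ hF₂ ha₂ hs₂ hj₂
    have hav₂ : tl Γ (root φ₂ s₂) ∈ v.T := hpart₂ _ (Or.inl rfl)
    have hvalid₂ : (⟨[], (root φ₂ s₂).F, j₂⟩ : Piece S).Valid ψ₂.F :=
      valid_root (hφ₂.root s₂).fin hF₂ j₂
    have haψ₂ : (tl Γ (root φ₂ s₂)).Sub (tl Γ ψ₂) := by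
      have := Tile.sub_mk hψ₂ hvalid₂
      rwa [← ha₂] at this
    refine ⟨fun τ hτ => hx'.mem_of_not_part (hleaf₂ τ hτ) fun hp => hc.r τ hτ ?_, ?_⟩
    · rcases (hpart' τ).1 hp with rfl | h
      · exact Or.inl (v.eq_of_sub hav (hpart₂ _ (Or.inr hτ)) haψ).symm
      · exact Or.inr h
    by_cases hp : IsPart Γ φ' s (tl Γ ψ₂)
    · rcases (hpart' _).1 hp with he | ⟨y, hy, he⟩
      · obtain ⟨γ, rfl⟩ := mk_eq_iff.1 he.symm
        obtain ⟨p, hp⟩ := hψ.root_ex
        have e1 : tl Γ (root φ s) = tl Γ (root φ₂ s₂) := by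
          refine v.uniq _ hav _ hav₂ p ?_ ?_
          · rw [im_mk, ha]; exact ⟨[], by simp, by simpa using hp⟩
          · rw [im_mk, ha₂]; exact ⟨[], by simp, by simpa using hp⟩
        have e2 : root φ s = root φ₂ s₂ := by rw [← hnorm, e1, hnorm₂]
        have e3 : γ⁻¹ • sub ψ ⟨[], (root φ s).F, j⟩ =
            sub ψ (γ⁻¹ • ⟨[], (root φ₂ s₂).F, j₂⟩) := by
          rw [← ha, e2]
          conv_lhs => rw [ha₂, smul_sub, inv_smul_smul]
        obtain ⟨e4, e5⟩ := hψ.sub_rigid hvalid e3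
        obtain rfl : γ = 1 := inv_eq_one.1 e4
        obtain rfl : j = j₂ := congrArg Piece.j e5
        have hne := hc.slot e2
        simp only [one_smul] at hF₂ ha₂ hs₂
        refine ⟨φ', (rootP φ'.F s).j + j, hφ', hx'.mem, ?_, ?_, ?_, ?_⟩
        · exact fun w hw => hF₂ (hψF ▸ subset_rootP _ _ hw)
        · exact ha₂.trans (hroot (hφ₂.root s₂).fin hF₂)
        · intro w hw
          have h1 := hψF ▸ hs₂ w hw
          cases s with
          | none => exact h1
          | some w₀ =>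
            rcases h1 with rfl | h1
            · exact absurd hw.symm hne
            · exact h1
        · intro h0
          cases s with
          | none => exact absurd h0.symm hne
          | some w₀ => simp [rootP, hj₂ h0]
      · exact absurd (Or.inl (v.eq_of_sub hav₂ (hpart _ (Or.inr ⟨y, hy, rfl⟩)) (he ▸ haψ₂)).symm)
          (hc.l _ ⟨y, hy, rfl⟩)
    · exact ⟨ψ₂, j₂, hψ₂, hx'.mem_of_not_part hψ₂x hp, hF₂, ha₂, hs₂, hj₂⟩

theorem comp_rootP_inj {π π₂ : Piece S} {s : Option S} (h : Ok π.F s) (h₂ : Ok π₂.F s)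
    (he : π.comp (rootP π.F s) = π₂.comp (rootP π₂.F s)) : π = π₂ := by
  have hb := congrArg Piece.b he
  have hF := congrArg Piece.F he
  have hj := congrArg Piece.j he
  cases s with
  | none =>
    simp [Piece.comp, rootP] at hb hF hj
    exact Piece.ext hb hF hj
  | some w =>
    simp [Piece.comp, rootP] at hb hF hj h h₂
    refine Piece.ext hb ?_ hj
    rw [← Set.insert_diff_self_of_notMem h, hF, Set.insert_diff_self_of_notMem h₂]

theorem compat_aux [Hyp Γ S] {v : Vert Γ S} {η : Chart S} (hη : IsChart Γ η) {π π₂ : Piece S}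
    (hπ : π.Valid η.F) (hπ₂ : π₂.Valid η.F) {γ γ₂ : Γ} {s s₂ : Option S}
    (h : MV v (γ • sub η π, s.map (γ • ·))) (h₂ : MV v (γ₂ • sub η π₂, s₂.map (γ₂ • ·)))
    (hne : ((γ • sub η π, s.map (γ • ·)) : MD S) ≠ (γ₂ • sub η π₂, s₂.map (γ₂ • ·))) :
    (∀ τ, IsLeafOf Γ (γ • sub η π, s.map (γ • ·)) τ →
      ¬ IsPart Γ (γ₂ • sub η π₂) (s₂.map (γ₂ • ·)) τ) ∧
    (root (γ • sub η π) (s.map (γ • ·)) = root (γ₂ • sub η π₂) (s₂.map (γ₂ • ·)) →
      s.map (γ • ·) ≠ s₂.map (γ₂ • ·)) := by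
  have hok : Ok π.F s := by simpa [Option.map_map, Function.comp_def] using h.ok.smul γ⁻¹
  have hok₂ : Ok π₂.F s₂ := by simpa [Option.map_map, Function.comp_def] using h₂.ok.smul γ₂⁻¹
  have v1 := valid_rootP hπ.1 s
  have v2 := valid_rootP hπ₂.1 s₂
  have r1 : root (γ • sub η π) (s.map (γ • ·)) = γ • sub η (π.comp (rootP π.F s)) := by
    rw [← smul_root, root, sub_F, sub_sub _ v1]
  have r2 : root (γ₂ • sub η π₂) (s₂.map (γ₂ • ·)) = γ₂ • sub η (π₂.comp (rootP π₂.F s₂)) := by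
    rw [← smul_root, root, sub_F, sub_sub _ v2]
  have det : root (γ • sub η π) (s.map (γ • ·)) = root (γ₂ • sub η π₂) (s₂.map (γ₂ • ·)) →
      γ = γ₂ ∧ π.comp (rootP π.F s) = π₂.comp (rootP π₂.F s₂) := by
    intro he
    rw [r1, r2, ← inv_smul_eq_iff, ← mul_smul] at he
    obtain ⟨e1, e2⟩ := hη.sub_rigid (hπ.comp v1) he
    exact ⟨(inv_mul_eq_one.1 e1).symm, e2⟩
  have fin : root (γ • sub η π) (s.map (γ • ·)) = root (γ₂ • sub η π₂) (s₂.map (γ₂ • ·)) →
      s ≠ s₂ := by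
    rintro he rfl
    obtain ⟨rfl, e2⟩ := det he
    obtain rfl := comp_rootP_inj hok hok₂ e2
    exact hne rfl
  constructor
  · rintro τ ⟨y, hy, rfl⟩ hp
    simp only [letters_map, List.mem_map] at hy
    obtain ⟨y, hy, rfl⟩ := hy
    have w1 := valid_leafP (hok.mem_D hy [])
    rw [isPart_smul, ← smul_leaf, mk_smul, leaf, sub_sub _ w1] at hp
    rcases hp with hp | ⟨y₂, hy₂, hp⟩
    · rw [root, sub_F, sub_sub _ v2] at hp
      have := hη.mk_sub_inj (hπ.comp w1) (hπ₂.comp v2) hp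
      have hF := congrArg Piece.F this
      have hj := congrArg Piece.j this
      cases s₂ with
      | none => simp [Piece.comp, rootP, leafP] at hj
      | some w =>
        simp only [Piece.comp, rootP, leafP] at hF
        exact absurd hF (by simpa using (Set.insert_nonempty w π₂.F).ne_empty.symm)
    · have w2 := valid_leafP (hok₂.mem_D hy₂ [])
      rw [leaf, sub_sub _ w2] at hp
      have hb := congrArg Piece.b (hη.mk_sub_inj (hπ.comp w1) (hπ₂.comp w2) hp)
      simp only [Piece.comp, leafP, Piece.emb] at hb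
      obtain ⟨hb1, hb2⟩ := List.append_inj' hb (by simp)
      obtain ⟨p, hp⟩ := (hη.dom _).2 hπ.b_mem
      have e1 : tl Γ (root (γ • sub η π) (s.map (γ • ·))) =
          tl Γ (root (γ₂ • sub η π₂) (s₂.map (γ₂ • ·))) := by
        refine v.uniq _ (h.part _ (Or.inl rfl)) _ (h₂.part _ (Or.inl rfl)) p ?_ ?_
        · rw [im_mk, r1, im_smul]
          exact ⟨[], by simp, by simpa [Piece.comp] using hp⟩
        · rw [im_mk, r2, im_smul]
          exact ⟨[], by simp, by simpa [Piece.comp, ← hb1] using hp⟩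
      refine fin (by rw [← h.norm, e1, h₂.norm]) ?_
      cases s <;> cases s₂ <;>
        simp only [letters, List.mem_cons, List.not_mem_nil, or_false] at hy hy₂
      · rfl
      · rcases hy₂ with rfl | rfl <;> simp [hy] at hb2
      · rcases hy with rfl | rfl <;> simp [hy₂] at hb2
      · rcases hy with rfl | rfl <;> rcases hy₂ with rfl | rfl <;> simp_all
  · intro he hs
    obtain ⟨rfl, -⟩ := det he
    exact fin he (Option.map_injective (MulAction.injective γ) hs)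

theorem compat_of_below [Hyp Γ S] {v y : Vert Γ S} {μ μ' : MD S} (h : Below v μ y)
    (h' : Below v μ' y) : μ = μ' ∨ Compat Γ μ μ' := by
  obtain ⟨h1, -, t, ht, h2⟩ := h
  obtain ⟨h1', -, t', ht', h2'⟩ := h'
  by_cases htt : t = t'
  · subst htt
    by_cases hne : μ = μ'
    · exact Or.inl hne
    right
    have hη : IsChart Γ t.rep := y.valid t ht
    rw [← t.mk_rep] at h2 h2'
    obtain ⟨π, hπ, e⟩ := h2.exists_piece
    obtain ⟨π₂, hπ₂, e₂⟩ := h2'.exists_piece
    obtain ⟨γ, e⟩ := mk_eq_iff.1 e.symm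
    obtain ⟨γ₂, e₂⟩ := mk_eq_iff.1 e₂.symm
    have a : μ = (γ • sub t.rep π, (μ.2.map (γ⁻¹ • ·)).map (γ • ·)) :=
      Prod.ext e.symm (by simp [Option.map_map, Function.comp_def])
    have a₂ : μ' = (γ₂ • sub t.rep π₂, (μ'.2.map (γ₂⁻¹ • ·)).map (γ₂ • ·)) :=
      Prod.ext e₂.symm (by simp [Option.map_map, Function.comp_def])
    rw [a] at h1
    rw [a₂] at h1'
    rw [a, a₂] at hne ⊢
    exact ⟨(compat_aux hη hπ hπ₂ h1 h1' hne).1, (compat_aux hη hπ₂ hπ h1' h1 (Ne.symm hne)).1,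
      (compat_aux hη hπ hπ₂ h1 h1' hne).2⟩
  · have key : ∀ τ, IsPart Γ μ.1 μ.2 τ → ¬ IsPart Γ μ'.1 μ'.2 τ := fun τ a b =>
      htt (y.eq_of_sub_sub ht ht' ((a.sub h1.chart h1.ok).trans h2)
        ((b.sub h1'.chart h1'.ok).trans h2'))
    exact Or.inr ⟨fun τ a => key τ (Or.inr a), fun τ a b => key τ b (Or.inr a),
      fun he _ => key _ (Or.inl rfl) (Or.inl (by rw [he]))⟩

theorem meet_list [Hyp Γ S] {v : Vert Γ S} (l : List (MD S)) (hl : ∀ μ ∈ l, MV v μ)
    (hc : ∀ μ ∈ l, ∀ μ' ∈ l, μ = μ' ∨ Compat Γ μ μ') :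
    ∃ m, m ≤ v ∧ (∀ μ ∈ l, Below v μ m) ∧ (∀ y, y ≤ v → (∀ μ ∈ l, Below v μ y) → y ≤ m) ∧
      v.exc ≤ m.exc + l.length ∧ ∀ μ', MV v μ' → (∀ μ ∈ l, Compat Γ μ μ') → Avail m μ' := by
  induction l with
  | nil => exact ⟨v, le_rfl, by simp, fun y hy _ => hy, by simp, fun μ' h _ => h.avail⟩
  | cons μ l ih =>
    obtain ⟨m, h1, h2, h3, h4, h5⟩ := ih (fun a ha => hl a (by simp [ha]))
      fun a ha b hb => hc a (by simp [ha]) b (by simp [hb])
    by_cases hμ : μ ∈ l
    · refine ⟨m, h1, fun a ha => ?_, fun y hy h => h3 y hy fun a ha => h a (by simp [ha]), ?_,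
        fun μ' h h' => h5 μ' h fun a ha => h' a (by simp [ha])⟩
      · rcases List.mem_cons.1 ha with rfl | ha
        exacts [h2 _ hμ, h2 _ ha]
      · simp only [List.length_cons]; push_cast; omega
    · have hv := hl μ (by simp)
      obtain ⟨x, g1, g2, g3, g4, g5⟩ := merge_step hv h1 (h5 μ hv fun a ha =>
        (hc a (by simp [ha]) μ (by simp)).resolve_left fun he => hμ (he ▸ ha))
      refine ⟨x, g1.trans h1, fun a ha => ?_, fun y hy h =>
        g4 y (h3 y hy fun a ha => h a (by simp [ha])) (h μ (by simp)), ?_,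
        fun μ' h h' => g5 μ' h (h' μ (by simp)) (h5 μ' h fun a ha => h' a (by simp [ha]))⟩
      · rcases List.mem_cons.1 ha with rfl | ha
        exacts [g3, (h2 _ ha).down g1]
      · simp only [List.length_cons]; push_cast
        split_ifs at g2 <;> omega

end Crest.Agent.R185.T4
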