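import Crest.Agent.R185.T4Chart

/-!
# Row 185, T4: vertices (finite partitions of the words into tiles), their order, expansions
-/

set_option autoImplicit false

namespace Crest.Agent.R185.T4

open Pointwise

variable {Γ S : Type} [Group Γ] [MulAction Γ S]

variable (Γ S) in
/-- a vertex: a finite partition of `Om S` into tiles -/
@[ext] structure Vert : Type where
  T : Finset (Tile Γ S)
  valid : ∀ t ∈ T, t.Valid
  cover : ∀ p, ∃ t ∈ T, p ∈ t.im
  uniq : ∀ t ∈ T, ∀ t' ∈ T, ∀ p, p ∈ t.im → p ∈ t'.im → t = t'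

namespace Vert

theorem eq_of_sub (v : Vert Γ S) {t t' : Tile Γ S} (ht : t ∈ v.T) (ht' : t' ∈ v.T) (h : t.Sub t') :
    t = t' :=
  let ⟨p, hp⟩ := (v.valid t ht).im_nonempty
  v.uniq t ht t' ht' p hp (h.im_subset hp)

/-- two tiles of a vertex having a common subtile coincide -/
theorem eq_of_sub_sub (v : Vert Γ S) {τ t t' : Tile Γ S} (ht : t ∈ v.T) (ht' : t' ∈ v.T)
    (h : τ.Sub t) (h' : τ.Sub t') : t = t' :=
  let ⟨p, hp⟩ := h.valid_left.im_nonempty
  v.uniq t ht t' ht' p (h.im_subset hp) (h'.im_subset hp)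

theorem disjoint_im (v : Vert Γ S) {t t' : Tile Γ S} (ht : t ∈ v.T) (ht' : t' ∈ v.T) (h : t ≠ t') :
    Disjoint t.im t'.im :=
  Set.disjoint_left.2 fun p hp hp' => h (v.uniq t ht t' ht' p hp hp')

theorem eq_of_subset {u v : Vert Γ S} (h : ∀ t ∈ u.T, t ∈ v.T) : u = v := by
  ext t
  refine ⟨h t, fun ht => ?_⟩
  obtain ⟨p, hp⟩ := (v.valid t ht).im_nonempty
  obtain ⟨t', ht', hp'⟩ := u.cover p
  rwa [v.uniq t ht t' (h t' ht') p hp hp']

instance : PartialOrder (Vert Γ S) where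
  le u v := ∀ τ ∈ v.T, ∃ t ∈ u.T, τ.Sub t
  le_refl u τ hτ := ⟨τ, hτ, (u.valid τ hτ).sub_refl⟩
  le_trans u v w h h' τ hτ :=
    let ⟨t, ht, h1⟩ := h' τ hτ
    let ⟨t', ht', h2⟩ := h t ht
    ⟨t', ht', h1.trans h2⟩
  le_antisymm u v h h' := eq_of_subset fun t ht => by
    obtain ⟨τ, hτ, h1⟩ := h' t ht
    obtain ⟨t', ht', h2⟩ := h τ hτ
    obtain rfl := u.eq_of_sub ht ht' (h1.trans h2)
    rwa [h1.eq_of_im_subset h2.im_subset]

theorem le_def {u v : Vert Γ S} : u ≤ v ↔ ∀ τ ∈ v.T, ∃ t ∈ u.T, τ.Sub t := Iff.rfl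

/-- if `u ≤ v`, a tile of `v` meeting a tile of `u` is a subtile of it -/
theorem sub_of_le {u v : Vert Γ S} (h : u ≤ v) {t τ : Tile Γ S} (ht : t ∈ u.T) (hτ : τ ∈ v.T)
    {p : Om S} (hp : p ∈ t.im) (hp' : p ∈ τ.im) : τ.Sub t := by
  obtain ⟨t', ht', h1⟩ := h τ hτ
  rwa [u.uniq t ht t' ht' p hp (h1.im_subset hp')]

noncomputable instance : MulAction (GG Γ S) (Vert Γ S) where
  smul g v :=
    { T := v.T.image (g • ·)
      valid := by
        simp only [Finset.mem_image]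
        rintro _ ⟨t, ht, rfl⟩
        exact (v.valid t ht).gsmul g
      cover := fun p => by
        obtain ⟨t, ht, hp⟩ := v.cover (g⁻¹ • p)
        exact ⟨g • t, Finset.mem_image_of_mem _ ht, by simpa using hp⟩
      uniq := by
        simp only [Finset.mem_image]
        rintro _ ⟨t, ht, rfl⟩ _ ⟨t', ht', rfl⟩ p hp hp'
        rw [v.uniq t ht t' ht' (g⁻¹ • p) (by simpa using hp) (by simpa using hp')] }
  one_smul v := by
    ext1
    show v.T.image _ = _
    simp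
  mul_smul a b v := by
    ext1
    show v.T.image _ = (v.T.image _).image _
    simp [Finset.image_image, mul_smul, Function.comp_def]

theorem smul_T (g : GG Γ S) (v : Vert Γ S) : (g • v).T = v.T.image (g • ·) := rfl

theorem mem_smul_T {g : GG Γ S} {v : Vert Γ S} {t : Tile Γ S} : t ∈ (g • v).T ↔ g⁻¹ • t ∈ v.T := by
  simp only [smul_T, Finset.mem_image]
  exact ⟨by rintro ⟨t, ht, rfl⟩; simpa, fun h => ⟨_, h, by simp⟩⟩

theorem smul_mem_smul_T {g : GG Γ S} {v : Vert Γ S} {t : Tile Γ S} :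
    g • t ∈ (g • v).T ↔ t ∈ v.T := by simp [mem_smul_T]

theorem smul_eq_of_mem {g : GG Γ S} {u v : Vert Γ S} (h : ∀ t ∈ u.T, g • t ∈ v.T) : g • u = v :=
  eq_of_subset fun t ht => by simpa using h _ (mem_smul_T.1 ht)

theorem smul_le {u v : Vert Γ S} (h : u ≤ v) (g : GG Γ S) : g • u ≤ g • v := fun τ hτ => by
  obtain ⟨t, ht, h1⟩ := h _ (mem_smul_T.1 hτ)
  exact ⟨g • t, smul_mem_smul_T.2 ht, by simpa using h1.gsmul g⟩

/-- number of tiles -/
def N (v : Vert Γ S) : ℕ := v.T.card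
/-- total type -/
noncomputable def sz (v : Vert Γ S) : ℕ := ∑ t ∈ v.T, t.typ
/-- excess: the number of star expansions -/
noncomputable def exc (v : Vert Γ S) : ℤ := (v.N : ℤ) - 1 - 2 * v.sz

theorem sum_smul (g : GG Γ S) (v : Vert Γ S) (f : ℕ → ℕ) :
    ∑ t ∈ (g • v).T, f t.typ = ∑ t ∈ v.T, f t.typ := by
  rw [smul_T, Finset.sum_image fun a _ b _ h => MulAction.injective g h]
  simp
@[simp] theorem N_smul (g : GG Γ S) (v : Vert Γ S) : (g • v).N = v.N :=
  Finset.card_image_of_injective _ (MulAction.injective g)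
@[simp] theorem sz_smul (g : GG Γ S) (v : Vert Γ S) : (g • v).sz = v.sz := sum_smul g v id
@[simp] theorem exc_smul (g : GG Γ S) (v : Vert Γ S) : (g • v).exc = v.exc := by simp [exc]

theorem N_pos (v : Vert Γ S) : 0 < v.N :=
  let ⟨t, ht, _⟩ := v.cover []
  Finset.card_pos.2 ⟨t, ht⟩

theorem N_le_of_le {u v : Vert Γ S} (h : u ≤ v) : u.N ≤ v.N := by
  have : Nonempty (Tile Γ S) := ⟨tl Γ idc⟩
  choose! f hf hf' using le_def.1 h
  refine Finset.card_le_card_of_surjOn f fun t ht => ?_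
  obtain ⟨p, hp⟩ := (u.valid t ht).im_nonempty
  obtain ⟨τ, hτ, hp'⟩ := v.cover p
  exact ⟨τ, hτ, u.uniq _ (hf τ hτ) _ ht p ((hf' τ hτ).im_subset hp') hp⟩

end Vert

variable (Γ S) in
/-- the base vertex -/
noncomputable def o : Vert Γ S where
  T := {tl Γ idc}
  valid := by simpa using isChart_idc
  cover := by simp
  uniq := by simp

@[simp] theorem mem_o (t : Tile Γ S) : t ∈ (o Γ S).T ↔ t = tl Γ idc := by simp [o]
@[simp] theorem N_o : (o Γ S).N = 1 := by simp [o, Vert.N]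
@[simp] theorem sz_o : (o Γ S).sz = 0 := by simp [o, Vert.sz, idc]
@[simp] theorem exc_o : (o Γ S).exc = 0 := by simp [Vert.exc]

variable (Γ S) in
/-- the vertices of nonnegative excess -/
def YY : Set (Vert Γ S) := {v | 0 ≤ v.exc}

variable (Γ) in
/-- the parts of the expansion of `φ` at the slot `s` -/
def IsPart (φ : Chart S) (s : Option S) (τ : Tile Γ S) : Prop :=
  τ = tl Γ (root φ s) ∨ ∃ y ∈ letters s, τ = tl Γ (leaf φ y)

/-- `v` is the expansion of `u` at the slot `s` of the chart `φ`. -/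
structure Exp (u v : Vert Γ S) (φ : Chart S) (s : Option S) : Prop where
  chart : IsChart Γ φ
  ok : Ok φ.F s
  mem : tl Γ φ ∈ u.T
  iff : ∀ τ, τ ∈ v.T ↔ (τ ∈ u.T ∧ τ ≠ tl Γ φ) ∨ IsPart Γ φ s τ

def Step (u v : Vert Γ S) : Prop := ∃ φ s, Exp u v φ s

/-- the kind of an expansion: `none` for the star slot, `some (type)` for an `S`-slot -/
noncomputable def kind (φ : Chart S) (s : Option S) : Option ℕ := s.map fun _ => φ.F.ncard

def KStep (x : Option ℕ) (u v : Vert Γ S) : Prop := ∃ φ s, Exp u v φ s ∧ kind φ s = x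

section parts
variable {φ : Chart S} {s : Option S} {τ τ' : Tile Γ S}

theorem IsPart.sub (h : IsPart Γ φ s τ) (hφ : IsChart Γ φ) (ho : Ok φ.F s) : τ.Sub (tl Γ φ) := by
  rcases h with rfl | ⟨y, hy, rfl⟩
  · exact Tile.sub_mk hφ (valid_rootP hφ.fin s)
  · exact Tile.sub_mk hφ (valid_leafP (ho.mem_D hy _))

theorem isPart_cover (hφ : IsChart Γ φ) (s : Option S) {p : Om S} (hp : p ∈ φ.im) :
    ∃ τ, IsPart Γ φ s τ ∧ p ∈ τ.im := by
  rcases (hφ.mem_im_iff s p).1 hp with h | ⟨y, hy, h⟩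
  · exact ⟨_, Or.inl rfl, by simpa⟩
  · exact ⟨_, Or.inr ⟨y, hy, rfl⟩, by simpa⟩

theorem IsPart.uniq (hφ : IsChart Γ φ) (h : IsPart Γ φ s τ) (h' : IsPart Γ φ s τ') {p : Om S}
    (hp : p ∈ τ.im) (hp' : p ∈ τ'.im) : τ = τ' := by
  rcases h with rfl | ⟨y, hy, rfl⟩ <;> rcases h' with rfl | ⟨y', hy', rfl⟩ <;>
    simp only [im_mk] at hp hp'
  · rfl
  · exact absurd hp' (Set.disjoint_left.1 (hφ.disjoint_root_leaf hy') hp)
  · exact absurd hp (Set.disjoint_left.1 (hφ.disjoint_root_leaf hy) hp')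
  · by_cases hyy : y = y'
    · rw [hyy]
    · exact absurd hp' (Set.disjoint_left.1 (hφ.disjoint_leaf_leaf hyy) hp)

theorem root_ne_leaf (hφ : IsChart Γ φ) {y : Ltr S} (hy : y ∈ letters s) :
    tl Γ (root φ s) ≠ tl Γ (leaf φ y) := fun he => by
  obtain ⟨p, hp⟩ := (hφ.root s).im_nonempty
  have : (root φ s).im = (leaf φ y).im := by simpa using congrArg Tile.im he
  exact Set.disjoint_left.1 (hφ.disjoint_root_leaf hy) hp (this ▸ hp)

theorem leaf_inj (hφ : IsChart Γ φ) {y y' : Ltr S} (hy : [y] ∈ D φ.F)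
    (he : tl Γ (leaf φ y) = tl Γ (leaf φ y')) : y = y' := by
  by_contra hne
  obtain ⟨p, hp⟩ := (hφ.leaf hy).im_nonempty
  have : (leaf φ y).im = (leaf φ y').im := by simpa using congrArg Tile.im he
  exact Set.disjoint_left.1 (hφ.disjoint_leaf_leaf hne) hp (this ▸ hp)

/-- a part is a proper subtile -/
theorem IsPart.not_sub (h : IsPart Γ φ s τ) (hφ : IsChart Γ φ) (ho : Ok φ.F s) :
    ¬ φ.im ⊆ τ.im := by
  intro hs
  obtain ⟨y, hy⟩ := List.exists_mem_of_ne_nil _ (letters_ne_nil s)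
  obtain ⟨p, hp⟩ := (hφ.root s).im_nonempty
  obtain ⟨p', hp'⟩ := (hφ.leaf (ho.mem_D hy [])).im_nonempty
  have h1 := h.uniq hφ (Or.inl rfl) (hs (im_sub_subset _ _ hp)) (by simpa using hp)
  have h2 := h.uniq hφ (Or.inr ⟨y, hy, rfl⟩) (hs (im_sub_subset _ _ hp')) (by simpa using hp')
  exact root_ne_leaf hφ hy (h1.symm.trans h2)

theorem IsPart.ne (h : IsPart Γ φ s τ) (hφ : IsChart Γ φ) (ho : Ok φ.F s) : τ ≠ tl Γ φ := by
  rintro rfl
  exact h.not_sub hφ ho (by simp)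

theorem isPart_smul (γ : Γ) : IsPart Γ (γ • φ) (s.map (γ • ·)) τ ↔ IsPart Γ φ s τ := by
  simp only [IsPart, ← smul_root, mk_smul, letters_map, List.mem_map, exists_exists_and_eq_and,
    ← smul_leaf]

theorem isPart_gsmul (g : GG Γ S) : IsPart Γ (g • φ) s (g • τ) ↔ IsPart Γ φ s τ := by
  simp only [IsPart, ← gsmul_root, ← gsmul_leaf, ← gsmul_mk, smul_left_cancel_iff]

/-- the finite set of parts -/
noncomputable def parts (φ : Chart S) (s : Option S) : Finset (Tile Γ S) :=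
  insert (tl Γ (root φ s)) ((letters s).map fun y => tl Γ (leaf φ y)).toFinset

theorem mem_parts : τ ∈ (parts φ s : Finset (Tile Γ S)) ↔ IsPart Γ φ s τ := by
  simp [parts, IsPart, eq_comm]

end parts

section exp
variable {u v v' : Vert Γ S} {φ : Chart S} {s : Option S}

theorem exp_exists (u : Vert Γ S) (hφ : IsChart Γ φ) (hm : tl Γ φ ∈ u.T) (ho : Ok φ.F s) :
    ∃ v, Exp u v φ s := by
  refine ⟨⟨u.T.erase (tl Γ φ) ∪ parts φ s, ?_, ?_, ?_⟩, hφ, ho, hm, ?_⟩
  · intro t ht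
    rcases Finset.mem_union.1 ht with h | h
    · exact u.valid t (Finset.mem_of_mem_erase h)
    · exact ((mem_parts.1 h).sub hφ ho).valid_left
  · intro p
    obtain ⟨t, ht, hp⟩ := u.cover p
    by_cases h : t = tl Γ φ
    · subst h
      obtain ⟨τ, h1, h2⟩ := isPart_cover hφ s (by simpa using hp)
      exact ⟨τ, Finset.mem_union_right _ (mem_parts.2 h1), h2⟩
    · exact ⟨t, Finset.mem_union_left _ (Finset.mem_erase.2 ⟨h, ht⟩), hp⟩
  · intro t ht t' ht' p hp hp'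
    simp only [Finset.mem_union, Finset.mem_erase, mem_parts] at ht ht'
    rcases ht with h | h <;> rcases ht' with h' | h'
    · exact u.uniq _ h.2 _ h'.2 p hp hp'
    · exact absurd (u.uniq _ h.2 _ hm p hp ((h'.sub hφ ho).im_subset hp')) h.1
    · exact absurd (u.uniq _ h'.2 _ hm p hp' ((h.sub hφ ho).im_subset hp)) h'.1
    · exact h.uniq hφ h' hp hp'
  · intro τ
    simp [mem_parts, and_comm]

theorem merge_exists (v : Vert Γ S) (hφ : IsChart Γ φ) (ho : Ok φ.F s)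
    (hp : ∀ τ, IsPart Γ φ s τ → τ ∈ v.T) : ∃ u, Exp u v φ s := by
  have hdis : ∀ t ∈ v.T, ∀ p ∈ t.im, p ∈ φ.im → IsPart Γ φ s t := fun t ht p h1 h2 => by
    obtain ⟨τ, h3, h4⟩ := isPart_cover hφ s h2
    rwa [v.uniq t ht τ (hp τ h3) p h1 h4]
  refine ⟨⟨insert (tl Γ φ) (v.T \ parts φ s), ?_, ?_, ?_⟩, hφ, ho, by simp, ?_⟩
  · intro t ht
    rcases Finset.mem_insert.1 ht with rfl | h
    · simpa
    · exact v.valid t (Finset.mem_sdiff.1 h).1
  · intro p
    obtain ⟨t, ht, h⟩ := v.cover p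
    by_cases h1 : IsPart Γ φ s t
    · exact ⟨_, Finset.mem_insert_self _ _, (h1.sub hφ ho).im_subset h⟩
    · exact ⟨t, by simp [ht, mem_parts, h1], h⟩
  · intro t ht t' ht' p h h'
    simp only [Finset.mem_insert, Finset.mem_sdiff, mem_parts] at ht ht'
    rcases ht with rfl | ht <;> rcases ht' with rfl | ht'
    · rfl
    · exact absurd (hdis _ ht'.1 p h' (by simpa using h)) ht'.2
    · exact absurd (hdis _ ht.1 p h (by simpa using h')) ht.2
    · exact v.uniq _ ht.1 _ ht'.1 p h h'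
  · intro τ
    simp only [Finset.mem_insert, Finset.mem_sdiff, mem_parts]
    constructor
    · intro h
      by_cases h1 : IsPart Γ φ s τ
      · exact Or.inr h1
      · refine Or.inl ⟨Or.inr ⟨h, h1⟩, ?_⟩
        rintro rfl
        obtain ⟨p, hp⟩ := hφ.im_nonempty
        exact h1 (hdis _ h p (by simpa) hp)
    · rintro (⟨rfl | h, h'⟩ | h)
      · exact absurd rfl h'
      · exact h.1
      · exact hp τ h

theorem Exp.part_mem (h : Exp u v φ s) {τ : Tile Γ S} (hτ : IsPart Γ φ s τ) : τ ∈ v.T :=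
  (h.iff τ).2 (Or.inr hτ)
theorem Exp.root_mem (h : Exp u v φ s) : tl Γ (root φ s) ∈ v.T := h.part_mem (Or.inl rfl)
theorem Exp.leaf_mem (h : Exp u v φ s) {y : Ltr S} (hy : y ∈ letters s) : tl Γ (leaf φ y) ∈ v.T :=
  h.part_mem (Or.inr ⟨y, hy, rfl⟩)
theorem Exp.mem_of_ne (h : Exp u v φ s) {τ : Tile Γ S} (hτ : τ ∈ u.T) (hne : τ ≠ tl Γ φ) :
    τ ∈ v.T := (h.iff τ).2 (Or.inl ⟨hτ, hne⟩)
theorem Exp.part_not_mem (h : Exp u v φ s) {τ : Tile Γ S} (hτ : IsPart Γ φ s τ) : τ ∉ u.T :=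
  fun hu => hτ.ne h.chart h.ok (u.eq_of_sub hu h.mem (hτ.sub h.chart h.ok))
theorem Exp.mem_of_not_part (h : Exp u v φ s) {τ : Tile Γ S} (hτ : τ ∈ v.T)
    (hn : ¬ IsPart Γ φ s τ) : τ ∈ u.T := (((h.iff τ).1 hτ).resolve_right hn).1
theorem Exp.not_mem (h : Exp u v φ s) : tl Γ φ ∉ v.T := fun hv => by
  rcases (h.iff _).1 hv with h1 | h1
  · exact h1.2 rfl
  · exact h1.ne h.chart h.ok rfl

theorem Exp.unique (h : Exp u v φ s) (h' : Exp u v' φ s) : v = v' :=
  Vert.eq_of_subset fun t ht => (h'.iff t).2 ((h.iff t).1 ht)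

/-- sufficient condition for `Exp` -/
theorem exp_of_subset (hφ : IsChart Γ φ) (ho : Ok φ.F s) (hm : tl Γ φ ∈ u.T)
    (h1 : ∀ τ ∈ u.T, τ ≠ tl Γ φ → τ ∈ v.T) (h2 : ∀ τ, IsPart Γ φ s τ → τ ∈ v.T) : Exp u v φ s := by
  obtain ⟨v', hv'⟩ := exp_exists u hφ hm ho
  have : v' = v := Vert.eq_of_subset fun t ht => by
    rcases (hv'.iff t).1 ht with h | h
    · exact h1 t h.1 h.2
    · exact h2 t h
  exact this ▸ hv'

theorem Exp.le (h : Exp u v φ s) : u ≤ v := fun τ hτ => by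
  rcases (h.iff τ).1 hτ with h1 | h1
  · exact ⟨τ, h1.1, (u.valid τ h1.1).sub_refl⟩
  · exact ⟨_, h.mem, h1.sub h.chart h.ok⟩

theorem Exp.lt (h : Exp u v φ s) : u < v :=
  lt_of_le_of_ne h.le fun he => h.not_mem (he ▸ h.mem)

theorem Exp.smul (h : Exp u v φ s) (γ : Γ) : Exp u v (γ • φ) (s.map (γ • ·)) :=
  ⟨h.chart.smul γ, h.ok.smul γ, by simpa using h.mem, fun τ => by
    rw [isPart_smul, mk_smul]; exact h.iff τ⟩

theorem Exp.gsmul (h : Exp u v φ s) (g : GG Γ S) : Exp (g • u) (g • v) (g • φ) s :=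
  exp_of_subset (h.chart.gsmul g) h.ok (Vert.smul_mem_smul_T.2 h.mem)
    (fun τ hτ hne => Vert.mem_smul_T.2 (h.mem_of_ne (Vert.mem_smul_T.1 hτ) fun he =>
      hne (by rw [← gsmul_mk, ← he, smul_inv_smul])))
    (fun τ hτ => Vert.mem_smul_T.2 (h.part_mem ((isPart_gsmul g).1 (by simpa using hτ))))

/-- an expansion can be written in any chart of the expanded tile -/
theorem Exp.of_chart (h : Exp u v φ s) {ψ : Chart S} (he : tl Γ φ = tl Γ ψ) :
    ∃ s', Exp u v ψ s' ∧ kind ψ s' = kind φ s ∧ s'.isSome = s.isSome := by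
  obtain ⟨γ, rfl⟩ := mk_eq_iff.1 he
  exact ⟨_, h.smul γ, by cases s <;> simp [kind], by cases s <;> simp⟩

theorem Exp.sum (h : Exp u v φ s) (f : ℕ → ℕ) :
    ∑ t ∈ v.T, f t.typ + f φ.F.ncard =
      ∑ t ∈ u.T, f t.typ + f (root φ s).F.ncard + (letters s).length * f 0 := by
  have hv : v.T = u.T.erase (tl Γ φ) ∪ parts φ s := by
    ext τ; simp [h.iff, mem_parts, and_comm]
  have hd : Disjoint (u.T.erase (tl Γ φ)) (parts φ s) := Finset.disjoint_left.2 fun τ h1 h2 =>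
    h.part_not_mem (mem_parts.1 h2) (Finset.mem_of_mem_erase h1)
  have hp : ∑ t ∈ (parts φ s : Finset (Tile Γ S)), f t.typ =
      f (root φ s).F.ncard + (letters s).length * f 0 := by
    have hnd : ((letters s).map fun y => tl Γ (leaf φ y)).Nodup :=
      (letters_nodup s).map_on fun y hy y' _ he => leaf_inj h.chart (h.ok.mem_D hy []) he
    rw [parts, Finset.sum_insert, List.sum_toFinset _ hnd]
    · simp [Function.comp_def]
    · simp only [List.mem_toFinset, List.mem_map, not_exists, not_and]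
      exact fun y hy he => root_ne_leaf h.chart hy he.symm
  rw [hv, Finset.sum_union hd, hp, ← Finset.add_sum_erase _ _ h.mem, typ_mk]
  ring

theorem Exp.ncard_root (h : Exp u v φ s) :
    (root φ s).F.ncard = φ.F.ncard + if s.isSome then 1 else 0 := by
  cases s with
  | none => simp
  | some w => simp [Set.ncard_insert_of_notMem (by simpa using h.ok) h.chart.fin]

theorem Exp.N_eq (h : Exp u v φ s) : v.N = u.N + if s.isSome then 2 else 1 := by
  have := h.sum fun _ => 1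
  cases s <;> simp [letters] at this <;> simp [Vert.N, this]

theorem Exp.sz_eq (h : Exp u v φ s) : v.sz = u.sz + if s.isSome then 1 else 0 := by
  have := h.sum id
  rw [h.ncard_root] at this
  simp only [id, mul_zero, add_zero] at this
  simp only [Vert.sz]
  omega

theorem Exp.exc_eq (h : Exp u v φ s) : v.exc = u.exc + if s.isSome then 0 else 1 := by
  simp only [Vert.exc, h.N_eq, h.sz_eq]
  split_ifs <;> push_cast <;> ring

end exp

end Crest.Agent.R185.T4
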