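import Crest.Agent.R185.Obj

/-!
# Row 185: the layer producing a `p`-system (tasks R185-Wp, R185-WpAlg)

`N = F_p[B × Fin 3]`, `B = ℕ × ℕ` the bicyclic monoid (`(a,b) = x^a y^b`, `y x = 1`), `M = F_p[Pt O] ⊗ N = MB p O`.
For an idempotent endomorphism `E` of `N`, `fE E u = 1 - E + u ⊗ E`.  `EA e = 1 ⊗ e`, `EB e = v (1 ⊗ e) v*`, `v = x e₁₁ + e₂₂ + e₃₃`, `v* = y e₁₁ + e₂₂ + e₃₃`, `v* v = 1`.

PLAN.  `fE_mul : fE E (u u') = fE E u * fE E u'`; orthogonal `E, E'` ⇒ `fE (E+E') u = fE E u * fE E' u` and commutation.  `EA e₁₁ = E₀ + EB e₁₁` with `E₀ = (1 - x y) e₁₁` orthogonal to `EB e₁₁`,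
so `wSub x` acts as `fE E₀ x`; `E₀ v₀ = v₀`.  `W_reg`: let `M̃` be the module for the free object (`Pt := FreeGroup X`, points `u`); for a point `s`, `β ∈ B` the map `R_{s,β} : M̃ → M`,
`[u,β',j] ↦ [u s, β' β, j]` commutes with all generators (right multiplication in the monoid `B`: `(a,b)(c,d) = (a + (c - b), d + (b - c))`).  `w • [1,1,i]` is supported on `|u| ≤ |w|`.  If `w ∈ H false`,
`R_{b,1} (w [1,1,i]) = [b,1,i]`; on the `n`-ball `u ↦ u s` factors through `u ↦ u b` (`Reg`), so `w` fixes every `[s,β,i]` with `s` of radius `≤ n`; and `u • (base vectors)` is supported there.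
(To set up `M̃` either state all definitions for an arbitrary `F(X)`-set or use the object `⟨fun _ => ⊥⟩`.)
`W_sys`: `fA e`, `fB e` are induced by `x ↦ of ((false,e),x)`, `of ((true,e),x)` (`Obj.map`); identities hold in the action, and an element acting trivially on `M` is in the core.
`W_ok`: simulate vectors as lists of `(Bool × FreeGroup X) × (ℕ × ℕ) × Fin 3 × ℕ` (coefficient mod `p`); the coefficient of a point is a sum over the entries with equal name (table test);
two vectors are equal iff the coefficients agree at all listed names.  Matrix entries: `Primrec.dom_finite`.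
-/

set_option autoImplicit false

namespace Crest.Agent.R185

open scoped Classical

variable {X : Type} (p : ℕ) [Fact p.Prime]

noncomputable instance : Primcodable (M3 p) :=
  Primcodable.ofEquiv (Fin (Fintype.card (M3 p))) (Fintype.equivFin _)

abbrev NB : Type := (ℕ × ℕ) × Fin 3 →₀ ZMod p

def bx : ℕ × ℕ → ℕ × ℕ := fun q => (q.1 + 1, q.2)
def by' : ℕ × ℕ → ℕ × ℕ
  | (0, b) => (0, b + 1)
  | (a + 1, b) => (a, b)

/-- apply `f` to the `B`-coordinate in the component `0` only. -/
noncomputable def on0 (f : ℕ × ℕ → ℕ × ℕ) : Module.End (ZMod p) (NB p) :=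
  Finsupp.lmapDomain _ _ fun q => if q.2 = 0 then (f q.1, q.2) else q

noncomputable def EA (e : M3 p) : Module.End (ZMod p) (NB p) :=
  Finsupp.linearCombination (ZMod p) fun q => ∑ i, e i q.2 • Finsupp.single (q.1, i) (1 : ZMod p)

noncomputable def EE (b : Bool) (e : M3 p) : Module.End (ZMod p) (NB p) :=
  if e * e = e then cond b (on0 p bx * EA p e * on0 p by') (EA p e) else 0

abbrev MB (O : Obj X) : Type := O.Pt × (ℕ × ℕ) × Fin 3 →₀ ZMod p

variable {p}

/-- `s ⊗ v`. -/
noncomputable def tens {O : Obj X} (s : O.Pt) : NB p →ₗ[ZMod p] MB p O :=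
  Finsupp.lmapDomain _ _ (Prod.mk s)

/-- `1 ⊗ E`. -/
noncomputable def mapE (O : Obj X) (E : Module.End (ZMod p) (NB p)) :
    Module.End (ZMod p) (MB p O) :=
  Finsupp.linearCombination (ZMod p) fun q => tens q.1 (E (Finsupp.single q.2 1))

/-- `u ⊗ 1`. -/
noncomputable def mapU (O : Obj X) (u : FreeGroup X) : Module.End (ZMod p) (MB p O) :=
  Finsupp.lmapDomain _ _ fun q => (u • q.1, q.2)

/-- `1 - E + u ⊗ E`. -/
noncomputable def fE (O : Obj X) (E : Module.End (ZMod p) (NB p)) (u : FreeGroup X) :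
    Module.End (ZMod p) (MB p O) :=
  1 - mapE O E + mapU O u * mapE O E

theorem W_single (O : Obj X) (q : O.Pt × (ℕ × ℕ) × Fin 3) (c : ZMod p) :
    (Finsupp.single q c : MB p O) = tens q.1 (Finsupp.single q.2 c) := by
  simp [tens]

theorem W_ext {O : Obj X} {N : Type} [AddCommGroup N] [Module (ZMod p) N]
    {f g : MB p O →ₗ[ZMod p] N} (h : ∀ s v, f (tens s v) = g (tens s v)) : f = g := by
  refine Finsupp.lhom_ext fun q c => ?_
  rw [W_single, h]

theorem mapE_tens (O : Obj X) (E : Module.End (ZMod p) (NB p)) (s : O.Pt) (v : NB p) :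
    mapE O E (tens s v) = tens s (E v) := by
  induction v using Finsupp.induction_linear with
  | zero => simp
  | add f g hf hg => simp only [map_add, hf, hg]
  | single q c =>
    have h1 : (tens s (Finsupp.single q c) : MB p O) = Finsupp.single (s, q) c := by simp [tens]
    have h2 : (Finsupp.single q c : NB p) = c • Finsupp.single q 1 := by simp
    rw [h1, mapE, Finsupp.linearCombination_single, h2, map_smul, map_smul]

theorem mapU_tens (O : Obj X) (u : FreeGroup X) (s : O.Pt) (v : NB p) :
    mapU O u (tens s v) = tens (u • s) v := by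
  induction v using Finsupp.induction_linear with
  | zero => simp
  | add f g hf hg => simp only [map_add, hf, hg]
  | single q c => simp [tens, mapU]

theorem fE_tens (O : Obj X) (E : Module.End (ZMod p) (NB p)) (u : FreeGroup X) (s : O.Pt)
    (v : NB p) : fE O E u (tens s v) = tens s (v - E v) + tens (u • s) (E v) := by
  simp [fE, mapE_tens, mapU_tens]

theorem fE_mul (O : Obj X) {E : Module.End (ZMod p) (NB p)} (hE : E * E = E) (u u' : FreeGroup X) :
    fE O E u * fE O E u' = fE O E (u * u') := by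
  refine W_ext fun s v => ?_
  have h : E (E v) = E v := by rw [← Module.End.mul_apply, hE]
  simp only [Module.End.mul_apply, fE_tens, map_add, map_sub, h, mul_smul]
  abel

theorem fE_one (O : Obj X) (E : Module.End (ZMod p) (NB p)) : fE O E 1 = 1 := by
  refine W_ext fun s v => ?_
  simp [fE_tens]

theorem fE_orth (O : Obj X) {E E' : Module.End (ZMod p) (NB p)} (h : E * E' = 0)
    (u u' : FreeGroup X) (s : O.Pt) (v : NB p) :
    (fE O E u * fE O E' u') (tens s v) =
      tens s (v - E v - E' v) + tens (u • s) (E v) + tens (u' • s) (E' v) := by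
  have h1 : E (E' v) = 0 := by rw [← Module.End.mul_apply, h]; rfl
  simp only [Module.End.mul_apply, fE_tens, map_add, map_sub, h1, map_zero]
  abel

theorem fE_comm (O : Obj X) {E E' : Module.End (ZMod p) (NB p)} (h : E * E' = 0) (h' : E' * E = 0)
    (u u' : FreeGroup X) : fE O E u * fE O E' u' = fE O E' u' * fE O E u := by
  refine W_ext fun s v => ?_
  rw [fE_orth O h, fE_orth O h']
  simp only [map_sub]
  abel

theorem fE_add (O : Obj X) {E E' : Module.End (ZMod p) (NB p)} (h : E * E' = 0)
    (u : FreeGroup X) : fE O (E + E') u = fE O E u * fE O E' u := by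
  refine W_ext fun s v => ?_
  rw [fE_orth O h, fE_tens]
  simp only [LinearMap.add_apply, map_sub, map_add]
  abel

theorem fE_fix (O : Obj X) (E : Module.End (ZMod p) (NB p)) {u : FreeGroup X} {s : O.Pt}
    (h : u • s = s) (v : NB p) : fE O E u (tens s v) = tens s v := by
  rw [fE_tens, h, ← map_add, sub_add_cancel]

theorem EA_single (e : M3 p) (β : ℕ × ℕ) (j : Fin 3) :
    EA p e (Finsupp.single (β, j) 1) = ∑ i, e i j • Finsupp.single (β, i) (1 : ZMod p) := by
  simp only [EA, Finsupp.linearCombination_single, one_smul]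

theorem NB_ext {f g : Module.End (ZMod p) (NB p)}
    (h : ∀ β j, f (Finsupp.single (β, j) 1) = g (Finsupp.single (β, j) 1)) : f = g := by
  refine Finsupp.lhom_ext fun q c => ?_
  have h2 : (Finsupp.single q c : NB p) = c • Finsupp.single q 1 := by simp
  rw [h2, map_smul, map_smul, h]

theorem EA_mul (e e' : M3 p) : EA p e * EA p e' = EA p (e * e') := by
  refine NB_ext fun β j => ?_
  simp only [Module.End.mul_apply, EA_single, map_sum, map_smul, Finset.smul_sum, smul_smul,
    Matrix.mul_apply, Finset.sum_smul]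
  rw [Finset.sum_comm]
  refine Finset.sum_congr rfl fun i _ => Finset.sum_congr rfl fun l _ => ?_
  rw [mul_comm]

theorem EA_add (e e' : M3 p) : EA p (e + e') = EA p e + EA p e' := by
  refine NB_ext fun β j => ?_
  simp only [LinearMap.add_apply, EA_single, Matrix.add_apply, add_smul, Finset.sum_add_distrib]

theorem EA_zero : EA p 0 = 0 := by
  refine NB_ext fun β j => ?_
  simp [EA_single]

theorem on0_single (f : ℕ × ℕ → ℕ × ℕ) (β : ℕ × ℕ) (j : Fin 3) :
    on0 p f (Finsupp.single (β, j) 1) = Finsupp.single (if j = 0 then f β else β, j) 1 := by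
  by_cases h : j = 0 <;> simp [on0, h]

theorem on0_yx : on0 p by' * on0 p bx = 1 := by
  refine NB_ext fun β j => ?_
  by_cases h : j = 0 <;> simp [on0_single, h, bx, by']

theorem EE_mul (b : Bool) {e e' : M3 p} (he : e * e = e) (he' : e' * e' = e') :
    EE p b e * EE p b e' = cond b (on0 p bx * EA p (e * e') * on0 p by') (EA p (e * e')) := by
  simp only [EE, he, he', if_true]
  cases b
  · exact EA_mul e e'
  · simp only [cond_true]
    rw [← EA_mul]
    calc on0 p bx * EA p e * on0 p by' * (on0 p bx * EA p e' * on0 p by')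
        = on0 p bx * EA p e * (on0 p by' * on0 p bx) * EA p e' * on0 p by' := by
          simp only [mul_assoc]
      _ = _ := by rw [on0_yx]; simp only [mul_assoc, one_mul]

theorem EE_idem (b : Bool) (e : M3 p) : EE p b e * EE p b e = EE p b e := by
  by_cases he : e * e = e
  · rw [EE_mul b he he, he]
    simp only [EE, he, if_true]
  · simp [EE, he]

theorem EE_orth (b : Bool) {e e' : M3 p} (he : e * e = e) (he' : e' * e' = e') (h : e * e' = 0) :
    EE p b e * EE p b e' = 0 := by
  rw [EE_mul b he he', h, EA_zero]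
  cases b <;> simp

theorem EE_add (b : Bool) {e e' : M3 p} (h : Orth e e') :
    EE p b (e + e') = EE p b e + EE p b e' := by
  obtain ⟨h1, h2, h3, h4⟩ := h
  have h5 : (e + e') * (e + e') = e + e' := by
    rw [add_mul, mul_add, mul_add, h1, h2, h3, h4]; simp
  simp only [EE, h1, h2, h5, if_true, EA_add]
  cases b
  · rfl
  · simp only [cond_true, mul_add, add_mul]

variable (p)

abbrev XW (X : Type) : Type := (Bool × M3 p) × X

noncomputable def actW (O : Obj X) :
    FreeGroup (XW p X) →* (Module.End (ZMod p) (MB p O))ˣ :=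
  FreeGroup.lift fun z => ⟨fE O (EE p z.1.1 z.1.2) (FreeGroup.of z.2),
    fE O (EE p z.1.1 z.1.2) (FreeGroup.of z.2)⁻¹,
    by rw [fE_mul O (EE_idem _ _), mul_inv_cancel, fE_one],
    by rw [fE_mul O (EE_idem _ _), inv_mul_cancel, fE_one]⟩

noncomputable def v0 : NB p := Finsupp.single ((0, 0), 0) 1 - Finsupp.single ((1, 1), 0) 1

noncomputable def WL (O : Obj X) : Obj (XW p X) :=
  ⟨fun i => cond i
    ((MulAction.stabilizer (Module.End (ZMod p) (MB p O))ˣ
      (tens (O.pt true 1) (v0 p))).comap (actW p O))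
    (⨅ j : Fin 3, (MulAction.stabilizer (Module.End (ZMod p) (MB p O))ˣ
      (tens (O.pt false 1) (Finsupp.single ((0, 0), j) (1 : ZMod p)))).comap (actW p O))⟩

def wSub : FreeGroup X →* FreeGroup (XW p X) :=
  FreeGroup.lift fun x => FreeGroup.of ((false, E11 p), x) * (FreeGroup.of ((true, E11 p), x))⁻¹

theorem W_E11 : E11 p * E11 p = E11 p := by simp [E11]

theorem W_E22 : E22 p * E22 p = E22 p := by simp [E22]

theorem W_A11 (β : ℕ × ℕ) (j : Fin 3) :
    EE p false (E11 p) (Finsupp.single (β, j) 1) =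
      if j = 0 then Finsupp.single (β, 0) 1 else 0 := by
  simp only [EE, W_E11, if_true, cond_false, EA_single]
  fin_cases j <;> simp [E11, Fin.sum_univ_three]

theorem W_B11 (β : ℕ × ℕ) (j : Fin 3) :
    EE p true (E11 p) (Finsupp.single (β, j) 1) =
      if j = 0 then Finsupp.single (bx (by' β), 0) 1 else 0 := by
  have h := fun β j => W_A11 p β j
  simp only [EE, W_E11, if_true, cond_false] at h
  simp only [EE, W_E11, if_true, cond_true, Module.End.mul_apply, on0_single, h]
  by_cases hj : j = 0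
  · simp [hj, on0_single]
  · simp [hj]

theorem W_AB : EE p false (E11 p) * EE p true (E11 p) = EE p true (E11 p) := by
  refine NB_ext fun β j => ?_
  rw [Module.End.mul_apply, W_B11]
  split_ifs
  · rw [W_A11]; simp
  · simp

theorem W_BA : EE p true (E11 p) * EE p false (E11 p) = EE p true (E11 p) := by
  refine NB_ext fun β j => ?_
  rw [Module.End.mul_apply, W_A11, W_B11]
  split_ifs
  · rw [W_B11]; simp
  · simp

/-- `E₀ = (1 - x y) e₁₁`. -/
noncomputable def WE0 : Module.End (ZMod p) (NB p) := EE p false (E11 p) - EE p true (E11 p)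

theorem W_app {A B C : Module.End (ZMod p) (NB p)} (h : A * B = C) (v : NB p) : A (B v) = C v := by
  rw [← h]; rfl

theorem WE0_B : WE0 p * EE p true (E11 p) = 0 := by
  refine LinearMap.ext fun v => ?_
  rw [Module.End.mul_apply, WE0, LinearMap.sub_apply, W_app p (W_AB p), W_app p (EE_idem _ _),
    sub_self, LinearMap.zero_apply]

theorem B_WE0 : EE p true (E11 p) * WE0 p = 0 := by
  refine LinearMap.ext fun v => ?_
  rw [Module.End.mul_apply, WE0, LinearMap.sub_apply, map_sub, W_app p (W_BA p),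
    W_app p (EE_idem _ _), sub_self, LinearMap.zero_apply]

theorem WE0_idem : WE0 p * WE0 p = WE0 p := by
  refine LinearMap.ext fun v => ?_
  rw [Module.End.mul_apply]
  conv_lhs => rw [WE0, LinearMap.sub_apply, LinearMap.sub_apply, map_sub, map_sub, W_app p (W_BA p),
    W_app p (W_AB p), W_app p (EE_idem _ _), W_app p (EE_idem _ _)]
  rw [sub_self, sub_zero, WE0, LinearMap.sub_apply]

theorem WE0_add : EE p false (E11 p) = WE0 p + EE p true (E11 p) := by
  refine LinearMap.ext fun v => ?_
  rw [LinearMap.add_apply, WE0, LinearMap.sub_apply, sub_add_cancel]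

theorem WE0_e (j : Fin 3) :
    WE0 p (Finsupp.single ((0, 0), j) 1) = if j = 0 then v0 p else 0 := by
  rw [WE0, LinearMap.sub_apply, W_A11, W_B11]
  split_ifs
  · rfl
  · simp

theorem WE0_v0 : WE0 p (v0 p) = v0 p := by
  have h : WE0 p (Finsupp.single ((0, 0), 0) 1) = v0 p := by rw [WE0_e]; simp
  rw [← h, ← Module.End.mul_apply, WE0_idem]

theorem W_22 : EE p false (E22 p) = EE p true (E22 p) := by
  refine NB_ext fun β j => ?_
  simp only [EE, W_E22, if_true, cond_false, cond_true, Module.End.mul_apply, on0_single, EA_single]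
  fin_cases j <;> simp [E22, Fin.sum_univ_three, on0]

variable {p}

theorem tens_v0_inj {O : Obj X} {s t : O.Pt} (h : tens s (v0 p) = tens t (v0 p)) : s = t := by
  by_contra hst
  have h1 := DFunLike.congr_fun h (s, (0, 0), 0)
  have h2 : ((t, (0, 0), 0) : O.Pt × (ℕ × ℕ) × Fin 3) ≠ (s, (0, 0), 0) := by
    simpa using fun h => hst h.symm
  simp [tens, v0, Finsupp.mapDomain_sub, h2] at h1

/-- `fE` as a homomorphism into the units. -/
noncomputable def fU (O : Obj X) (E : Module.End (ZMod p) (NB p)) (hE : E * E = E) :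
    FreeGroup X →* (Module.End (ZMod p) (MB p O))ˣ where
  toFun u := ⟨fE O E u, fE O E u⁻¹, by rw [fE_mul O hE, mul_inv_cancel, fE_one],
    by rw [fE_mul O hE, inv_mul_cancel, fE_one]⟩
  map_one' := Units.ext (fE_one O E)
  map_mul' a b := Units.ext (fE_mul O hE a b).symm

/-- The copy of `F(X)` indexed by `(b, e)`. -/
def wσ (b : Bool) (e : M3 p) : FreeGroup X →* FreeGroup (XW p X) :=
  FreeGroup.map fun x => ((b, e), x)

theorem actW_σ (O : Obj X) (b : Bool) (e : M3 p) (g : FreeGroup X) :
    actW p O (wσ b e g) = fU O (EE p b e) (EE_idem b e) g := by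
  have : (actW p O).comp (wσ b e) = fU O (EE p b e) (EE_idem b e) := by
    refine FreeGroup.ext_hom _ _ fun x => Units.ext ?_
    simp [wσ, actW, fU]
  exact DFunLike.congr_fun this g

theorem actW_sub (O : Obj X) (g : FreeGroup X) :
    actW p O (wSub p g) = fU O (WE0 p) (WE0_idem p) g := by
  have : (actW p O).comp (wSub p) = fU O (WE0 p) (WE0_idem p) := by
    refine FreeGroup.ext_hom _ _ fun x => ?_
    have h1 := actW_σ O false (E11 p) (FreeGroup.of x)
    have h2 := actW_σ O true (E11 p) (FreeGroup.of x)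
    simp only [wσ, FreeGroup.map.of] at h1 h2
    simp only [wSub, MonoidHom.comp_apply, FreeGroup.lift_apply_of, map_mul, map_inv, h1, h2]
    rw [mul_inv_eq_iff_eq_mul]
    refine Units.ext ?_
    change fE O _ _ = fE O _ _ * fE O _ _
    rw [← fE_add O (WE0_B p), ← WE0_add]
  exact DFunLike.congr_fun this g

theorem W_mem_true (O : Obj X) (w : FreeGroup (XW p X)) :
    w ∈ (WL p O).H true ↔
      (actW p O w : Module.End (ZMod p) (MB p O)) (tens (O.pt true 1) (v0 p)) =
        tens (O.pt true 1) (v0 p) := Iff.rfl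

theorem W_mem_false (O : Obj X) (w : FreeGroup (XW p X)) :
    w ∈ (WL p O).H false ↔ ∀ j : Fin 3,
      (actW p O w : Module.End (ZMod p) (MB p O))
        (tens (O.pt false 1) (Finsupp.single ((0, 0), j) (1 : ZMod p))) =
        tens (O.pt false 1) (Finsupp.single ((0, 0), j) (1 : ZMod p)) := by
  change w ∈ (⨅ j : Fin 3, (MulAction.stabilizer (Module.End (ZMod p) (MB p O))ˣ
      (tens (O.pt false 1) (Finsupp.single ((0, 0), j) (1 : ZMod p)))).comap (actW p O)) ↔ _
  rw [Subgroup.mem_iInf]
  rfl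

theorem W_pt_fix (O : Obj X) (i : Bool) (g : FreeGroup X) :
    g • O.pt i 1 = O.pt i 1 ↔ g ∈ O.H i := by
  rw [O.smul_pt, eq_comm, O.pt_eq]
  simp

variable (p)

theorem W_emb (O : Obj X) : Emb (wSub p) O (WL p O) := by
  intro i g
  cases i
  · rw [W_mem_false, actW_sub, ← W_pt_fix]
    constructor
    · intro h
      have h0 := h 0
      change fE O _ _ _ = _ at h0
      rw [fE_tens, WE0_e, if_pos rfl, map_sub, sub_add_eq_add_sub, sub_eq_iff_eq_add,
        add_right_inj] at h0
      exact tens_v0_inj h0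
    · intro h j
      exact fE_fix O _ h _
  · rw [W_mem_true, actW_sub, ← W_pt_fix]
    constructor
    · intro h0
      change fE O _ _ _ = _ at h0
      rw [fE_tens, WE0_v0, sub_self, map_zero, zero_add] at h0
      exact tens_v0_inj h0
    · intro h
      exact fE_fix O _ h _

variable {p}

/-- Multiplication in the bicyclic monoid. -/
def bmul (q β : ℕ × ℕ) : ℕ × ℕ := (q.1 + (β.1 - q.2), β.2 + (q.2 - β.1))

theorem bx_bmul (q β : ℕ × ℕ) : bx (bmul q β) = bmul (bx q) β := by
  simp only [bx, bmul, Prod.mk.injEq, and_true]; omega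

theorem by_eq (q : ℕ × ℕ) : by' q = (q.1 - 1, if q.1 = 0 then q.2 + 1 else q.2) := by
  obtain ⟨a, b⟩ := q
  cases a <;> simp [by']

theorem by_bmul (q β : ℕ × ℕ) : by' (bmul q β) = bmul (by' q) β := by
  simp only [by_eq, bmul, Prod.mk.injEq]
  split_ifs <;> omega

/-- Right multiplication. -/
noncomputable def Wρ (β : ℕ × ℕ) : Module.End (ZMod p) (NB p) :=
  Finsupp.lmapDomain _ _ fun q => (bmul q.1 β, q.2)

theorem Wρ_single (β q : ℕ × ℕ) (j : Fin 3) (c : ZMod p) :
    Wρ β (Finsupp.single (q, j) c) = Finsupp.single (bmul q β, j) c := by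
  simp [Wρ]

theorem Wρ_EE (β : ℕ × ℕ) (b : Bool) (e : M3 p) : Wρ β * EE p b e = EE p b e * Wρ β := by
  have h1 : Commute (Wρ β) (EA p e) := by
    refine NB_ext fun q j => ?_
    simp only [Module.End.mul_apply, EA_single, map_sum, map_smul, Wρ_single]
  have h2 : Commute (Wρ β) (on0 p bx) := by
    refine NB_ext fun q j => ?_
    simp only [Module.End.mul_apply, on0_single, Wρ_single]
    split_ifs
    · rw [bx_bmul]
    · rfl
  have h3 : Commute (Wρ β) (on0 p by') := by
    refine NB_ext fun q j => ?_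
    simp only [Module.End.mul_apply, on0_single, Wρ_single]
    split_ifs
    · rw [by_bmul]
    · rfl
  unfold EE
  split_ifs
  · cases b
    · exact h1
    · exact (h2.mul_right h1).mul_right h3
  · simp

theorem W_letter [DecidableEq X] (O : Obj X) (z : XW p X × Bool) :
    ∃ (b : Bool) (e : M3 p) (u : FreeGroup X), u.norm ≤ 1 ∧
      (actW p O (FreeGroup.mk [z]) : Module.End (ZMod p) (MB p O)) = fE O (EE p b e) u := by
  obtain ⟨⟨⟨b, e⟩, x⟩, c⟩ := z
  cases c
  · refine ⟨b, e, (FreeGroup.of x)⁻¹, by simp, ?_⟩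
    have : FreeGroup.mk [((((b, e), x) : XW p X), false)] = wσ b e (FreeGroup.of x)⁻¹ := rfl
    rw [this, actW_σ]; rfl
  · refine ⟨b, e, FreeGroup.of x, by simp, ?_⟩
    have : FreeGroup.mk [((((b, e), x) : XW p X), true)] = wσ b e (FreeGroup.of x) := rfl
    rw [this, actW_σ]; rfl

theorem W_mk_nil {Y : Type} : (FreeGroup.mk [] : FreeGroup Y) = 1 := rfl

theorem W_transfer [DecidableEq X] (O : Obj X) (n : ℕ) (T : Module.End (ZMod p) (MB p O))
    (s0 s : O.Pt) (β : ℕ × ℕ)
    (hT : ∀ a : FreeGroup X, a.norm ≤ n → ∀ v, T (tens (a • s0) v) = tens (a • s) (Wρ β v))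
    (L : List (XW p X × Bool)) : ∀ a : FreeGroup X, a.norm + L.length ≤ n → ∀ v,
      T ((actW p O (FreeGroup.mk L) : Module.End (ZMod p) (MB p O)) (tens (a • s0) v)) =
        (actW p O (FreeGroup.mk L) : Module.End (ZMod p) (MB p O)) (tens (a • s) (Wρ β v)) := by
  induction L using List.reverseRecOn with
  | nil =>
    intro a ha v
    simpa [W_mk_nil] using hT a (by simpa using ha) v
  | append_singleton L z ih =>
    intro a ha v
    obtain ⟨b, e, u, hu, hz⟩ := W_letter O z
    rw [List.length_append, List.length_singleton] at ha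
    have h1 := FreeGroup.norm_mul_le u a
    have hc : ∀ v, Wρ β (EE p b e v) = EE p b e (Wρ β v) := fun v => by
      rw [← Module.End.mul_apply, Wρ_EE, Module.End.mul_apply]
    rw [← FreeGroup.mul_mk, map_mul, Units.val_mul, Module.End.mul_apply, Module.End.mul_apply, hz,
      fE_tens, fE_tens, map_add, map_add, map_add, ← mul_smul, ← mul_smul, ih a (by omega),
      ih (u * a) (by omega), map_sub, hc]

theorem W_fix_orbit [DecidableEq X] (O : Obj X) (n : ℕ) (T : Module.End (ZMod p) (MB p O))
    (i : Bool)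
    (hT : ∀ a : FreeGroup X, a.norm ≤ n → ∀ v, T (tens (O.pt i a) v) = tens (O.pt i a) v)
    (L : List (XW p X × Bool)) : ∀ a : FreeGroup X, a.norm + L.length ≤ n → ∀ v,
      T ((actW p O (FreeGroup.mk L) : Module.End (ZMod p) (MB p O)) (tens (O.pt i a) v)) =
        (actW p O (FreeGroup.mk L) : Module.End (ZMod p) (MB p O)) (tens (O.pt i a) v) := by
  induction L using List.reverseRecOn with
  | nil =>
    intro a ha v
    simpa [W_mk_nil] using hT a (by simpa using ha) v
  | append_singleton L z ih =>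
    intro a ha v
    obtain ⟨b, e, u, hu, hz⟩ := W_letter O z
    rw [List.length_append, List.length_singleton] at ha
    have h1 := FreeGroup.norm_mul_le u a
    rw [← FreeGroup.mul_mk, map_mul, Units.val_mul, Module.End.mul_apply, hz,
      fE_tens, map_add, map_add, O.smul_pt, ih a (by omega), ih (u * a) (by omega)]

theorem W_fix_ball [DecidableEq X] [DecidableEq (XW p X)] (O : Obj X) (n : ℕ) (h : Reg O (4 * n))
    {w : FreeGroup (XW p X)} (hw : w ∈ (WL p O).H false) (hwn : w.norm ≤ n) (i : Bool)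
    (a0 : FreeGroup X) (ha0 : a0.norm ≤ n) (v : NB p) :
    (actW p O w : Module.End (ZMod p) (MB p O)) (tens (O.pt i a0) v) = tens (O.pt i a0) v := by
  rw [W_mem_false] at hw
  let θ : O.Pt → O.Pt := fun t =>
    if h : ∃ a : FreeGroup X, a.norm ≤ n ∧ t = O.pt false a then h.choose • O.pt i a0 else t
  have hθ : ∀ a : FreeGroup X, a.norm ≤ n → θ (a • O.pt false 1) = a • O.pt i a0 := by
    intro a ha
    have hex : ∃ a' : FreeGroup X, a'.norm ≤ n ∧ a • O.pt false 1 = O.pt false a' :=
      ⟨a, ha, by rw [O.smul_pt, mul_one]⟩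
    simp only [θ, dif_pos hex]
    obtain ⟨h1, h2⟩ := hex.choose_spec
    generalize hex.choose = a' at h1 h2 ⊢
    rw [O.smul_pt, mul_one, O.pt_eq] at h2
    have h3 := FreeGroup.norm_mul_le a⁻¹ a'
    rw [FreeGroup.norm_inv_eq] at h3
    have h4 := h.smul h2.2 (by omega) i (u := a0) (by omega)
    rw [mul_smul, inv_smul_eq_iff] at h4
    exact h4
  have key : ∀ (β : ℕ × ℕ) (j : Fin 3), (actW p O w : Module.End (ZMod p) (MB p O))
      (tens (O.pt i a0) (Finsupp.single (β, j) 1)) = tens (O.pt i a0) (Finsupp.single (β, j) 1) := by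
    intro β j
    let T : Module.End (ZMod p) (MB p O) :=
      Finsupp.lmapDomain _ _ fun q => (θ q.1, bmul q.2.1 β, q.2.2)
    have hT : ∀ t v, T (tens t v) = tens (θ t) (Wρ β v) := by
      intro t v
      induction v using Finsupp.induction_linear with
      | zero => simp
      | add f g hf hg => simp only [map_add, hf, hg]
      | single q c => simp [T, tens, Wρ]
    have h1 := W_transfer O n T (O.pt false 1) (O.pt i a0) β
      (fun a ha v => by rw [hT, hθ a ha]) w.toWord 1
      (by rw [FreeGroup.norm_one, zero_add]; exact hwn)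
      (Finsupp.single ((0, 0), j) 1)
    have h2 := hθ 1 (by simp)
    rw [one_smul, one_smul] at h2
    rw [FreeGroup.mk_toWord, one_smul, one_smul, hw j, hT, h2, Wρ_single] at h1
    simpa [bmul] using h1.symm
  induction v using Finsupp.induction_linear with
  | zero => simp
  | add f g hf hg => simp only [map_add, hf, hg]
  | single q c =>
    have h2 : (Finsupp.single q c : NB p) = c • Finsupp.single q 1 := by simp
    rw [h2, map_smul, map_smul, key]

theorem W_conj (O : Obj X) (w u : FreeGroup (XW p X)) (m : MB p O)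
    (h : (actW p O w : Module.End (ZMod p) (MB p O))
      ((actW p O u : Module.End (ZMod p) (MB p O)) m) =
        (actW p O u : Module.End (ZMod p) (MB p O)) m) :
    (actW p O (u⁻¹ * w * u) : Module.End (ZMod p) (MB p O)) m = m := by
  rw [map_mul, map_mul, Units.val_mul, Units.val_mul, Module.End.mul_apply, Module.End.mul_apply,
    h, ← Module.End.mul_apply, ← Units.val_mul, ← map_mul, inv_mul_cancel, map_one]
  rfl

variable (p)

theorem W_reg [DecidableEq X] (O : Obj X) (n : ℕ) (h : Reg O (4 * n)) : Reg (WL p O) n := by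
  intro w hw hwn i u hun
  have key : ∀ v, (actW p O (u⁻¹ * w * u) : Module.End (ZMod p) (MB p O)) (tens (O.pt i 1) v) =
      tens (O.pt i 1) v := by
    intro v
    refine W_conj O w u _ ?_
    have := W_fix_orbit O n (actW p O w : Module.End (ZMod p) (MB p O)) i
      (fun a ha v => W_fix_ball O n h hw hwn i a ha v) u.toWord 1
      (by rw [FreeGroup.norm_one, zero_add]; exact hun) v
    rwa [FreeGroup.mk_toWord] at this
  cases i
  · exact (W_mem_false O _).2 fun j => key _
  · exact (W_mem_true O _).2 (key _)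

theorem W_isTrue (O : Obj X) (hO : O.IsTrue) : (WL p O).IsTrue :=
  isTrue_iff_reg.2 fun n => W_reg p O n (isTrue_iff_reg.1 hO _)

theorem W_mk_eq (O : Obj X) (hO : O.IsTrue) {a b : FreeGroup (XW p X)}
    (h : (actW p O a : Module.End (ZMod p) (MB p O)) = actW p O b) :
    (QuotientGroup.mk a : (WL p O).Grp) = QuotientGroup.mk b := by
  refine QuotientGroup.eq.2 (W_isTrue p O hO ((W_mem_false O _).2 fun j => ?_))
  rw [map_mul, map_inv, Units.ext h, inv_mul_cancel]
  rfl

theorem W_σ_core (O : Obj X) (hO : O.IsTrue) (b : Bool) (e : M3 p) :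
    O.core ≤ (WL p O).core.comap (wσ b e) := by
  intro g hg
  refine W_isTrue p O hO ((W_mem_false O _).2 fun j => ?_)
  rw [actW_σ]
  exact fE_fix O _ (O.mem_core.1 hg _) _

theorem W_fam (O : Obj X) (hO : O.IsTrue) (b : Bool) :
    IsFam p fun e => Obj.map (wσ b e) (W_σ_core p O hO b e) := by
  constructor
  · intro e e' h u u'
    obtain ⟨u, rfl⟩ := QuotientGroup.mk_surjective u
    obtain ⟨u', rfl⟩ := QuotientGroup.mk_surjective u'
    refine W_mk_eq p O hO (a := wσ b e u * wσ b e' u') (b := wσ b e' u' * wσ b e u) ?_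
    rw [map_mul, map_mul, actW_σ, actW_σ]
    exact fE_comm O (EE_orth b h.1 h.2.1 h.2.2.1) (EE_orth b h.2.1 h.1 h.2.2.2) u u'
  · intro e e' h u
    obtain ⟨u, rfl⟩ := QuotientGroup.mk_surjective u
    refine W_mk_eq p O hO (a := wσ b (e + e') u) (b := wσ b e u * wσ b e' u) ?_
    rw [map_mul, actW_σ, actW_σ, actW_σ]
    change fE O _ _ = fE O _ _ * fE O _ _
    rw [EE_add b h, fE_add O (EE_orth b h.1 h.2.1 h.2.2.1)]

theorem W_stab (O : Obj X) (hO : O.IsTrue) (b : Bool) (e : M3 p) (q : O.Grp) (s : O.Pt)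
    (h : q • s = s) : Obj.map (wσ b e) (W_σ_core p O hO b e) q • (W_emb p O).ptMap s =
      (W_emb p O).ptMap s := by
  obtain ⟨g, rfl⟩ := QuotientGroup.mk_surjective q
  obtain ⟨i, a, rfl⟩ := O.pt_surj s
  rw [O.mk_smul] at h
  change (WL p O).pt i (wσ b e g * wSub p a) = (WL p O).pt i (wSub p a)
  rw [eq_comm, Obj.pt_eq, ← mul_assoc]
  refine ⟨rfl, ?_⟩
  cases i
  · refine (W_mem_false O _).2 fun j => W_conj O _ _ _ ?_
    have h1 : g ∈ O.core := by
      rw [O.smul_pt, eq_comm, O.pt_eq] at h
      have h8 := (inferInstance : O.core.Normal).conj_mem _ (hO h.2) a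
      convert h8 using 1
      group
    rw [actW_σ, actW_sub]
    change fE O _ _ (fE O _ _ _) = fE O _ _ _
    rw [fE_tens, map_add, fE_fix O _ (O.mem_core.1 h1 _), fE_fix O _ (O.mem_core.1 h1 _)]
  · refine (W_mem_true O _).2 (W_conj O _ _ _ ?_)
    rw [actW_σ, actW_sub]
    change fE O _ _ (fE O _ _ _) = fE O _ _ _
    rw [fE_tens, WE0_v0, sub_self, map_zero, zero_add, O.smul_pt, mul_one, fE_fix O _ h]

theorem W_sys (O : Obj X) (hO : O.IsTrue) (hc : O.core ≤ (WL p O).core.comap (wSub p)) :
    ∃ fA fB : M3 p → O.Grp →* (WL p O).Grp, IsSys p (Obj.map (wSub p) hc) fA fB ∧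
      ∀ e q s, e * e = e → q • s = s →
        fA e q • (W_emb p O).ptMap s = (W_emb p O).ptMap s ∧
        fB e q • (W_emb p O).ptMap s = (W_emb p O).ptMap s := by
  refine ⟨fun e => Obj.map (wσ false e) (W_σ_core p O hO false e),
    fun e => Obj.map (wσ true e) (W_σ_core p O hO true e),
    ⟨W_fam p O hO false, W_fam p O hO true, ?_, ?_, ?_⟩,
    fun e q s _ h => ⟨W_stab p O hO false e q s h, W_stab p O hO true e q s h⟩⟩
  · refine MonoidHom.ext fun u => ?_
    obtain ⟨u, rfl⟩ := QuotientGroup.mk_surjective u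
    refine W_mk_eq p O hO (a := wσ false (E22 p) u) (b := wσ true (E22 p) u) ?_
    rw [actW_σ, actW_σ]
    change fE O _ _ = fE O _ _
    rw [W_22]
  · intro u u'
    obtain ⟨u, rfl⟩ := QuotientGroup.mk_surjective u
    obtain ⟨u', rfl⟩ := QuotientGroup.mk_surjective u'
    refine W_mk_eq p O hO (a := wSub p u * wσ true (E11 p) u')
      (b := wσ true (E11 p) u' * wSub p u) ?_
    rw [map_mul, map_mul, actW_σ, actW_sub]
    exact fE_comm O (WE0_B p) (B_WE0 p) u u'
  · intro u
    obtain ⟨u, rfl⟩ := QuotientGroup.mk_surjective u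
    refine W_mk_eq p O hO (a := wσ false (E11 p) u) (b := wSub p u * wσ true (E11 p) u) ?_
    rw [map_mul, actW_σ, actW_σ, actW_sub]
    change fE O _ _ = fE O _ _ * fE O _ _
    rw [← fE_add O (WE0_B p), ← WE0_add]

end Crest.Agent.R185
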